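import Vale.Agent.P202.GrowthAux

/-! Growth of lengths of quotients of finite modules. -/

namespace Vale.Agent.P202

open IsLocalRing Filter Topology

universe u

/-- length as a natural number. -/
noncomputable def len (T M : Type*) [Ring T] [AddCommGroup M] [Module T M] : ℕ :=
  (Module.length T M).toNat

/-- the ideal generated by the `n`-th powers of a family. -/
def powIdeal {T : Type*} [CommRing T] {d : ℕ} (w : Fin d → T) (n : ℕ) : Ideal T :=
  Ideal.span (Set.range fun i => w i ^ n)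

theorem mon_mem_powIdeal {T : Type*} [CommRing T] {d : ℕ} (w : Fin d → T) (n : ℕ)
    (α : Fin d →₀ ℕ) (hα : α ∉ boxF fun _ => n) : mon w α ∈ powIdeal w n := by
  obtain ⟨i, hi⟩ := not_forall.mp (mt mem_boxF.mpr hα)
  obtain ⟨β, rfl⟩ := exists_add_of_le (Finsupp.single_le_iff.mpr (not_lt.mp hi))
  rw [mon_add, mon_single]
  exact Ideal.mul_mem_right _ _ (Ideal.subset_span (Set.mem_range_self i))

theorem span_pow_le_powIdeal {T : Type*} [CommRing T] {d : ℕ} (w : Fin d → T) (n : ℕ) :
    Ideal.span (Set.range w) ^ (d * n + 1) ≤ powIdeal w n := by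
  rw [span_pow_eq_monI]
  refine monI_le fun α (hα : α.degree = _) => mon_mem_powIdeal w n α fun h => ?_
  have := Finset.sum_le_sum fun i (_ : i ∈ Finset.univ) => (mem_boxF.mp h i).le
  rw [← Finsupp.degree_eq_sum, hα] at this
  simp at this

theorem powIdeal_le_span_pow {T : Type*} [CommRing T] {d : ℕ} (w : Fin d → T) (n : ℕ) :
    powIdeal w n ≤ Ideal.span (Set.range w) ^ n := by
  refine Ideal.span_le.mpr ?_
  rintro _ ⟨i, rfl⟩
  exact Ideal.pow_mem_pow (Ideal.subset_span (Set.mem_range_self i)) n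

theorem length_quot_powIdeal_le {T : Type*} [CommRing T] {M : Type*} [AddCommGroup M] [Module T M]
    {d : ℕ} (w : Fin d → T) (n : ℕ) :
    Module.length T (M ⧸ powIdeal w n • (⊤ : Submodule T M)) ≤
      (n ^ d : ℕ) * Module.length T (M ⧸ Ideal.span (Set.range w) • (⊤ : Submodule T M)) := by
  simpa [card_boxF] using gr_mono' (M := M) w (boxF fun _ => n) _ (mon_mem_powIdeal w n)

theorem length_quot_pow_le {T : Type*} [CommRing T] {M : Type*} [AddCommGroup M] [Module T M]
    {d : ℕ} (w : Fin d → T) (N : ℕ) :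
    Module.length T (M ⧸ Ideal.span (Set.range w) ^ N • (⊤ : Submodule T M)) ≤
      (triF d N).card * Module.length T (M ⧸ Ideal.span (Set.range w) • (⊤ : Submodule T M)) :=
  gr_mono' w _ _ fun α hα =>
    Ideal.pow_le_pow_right (not_lt.mp (mt mem_triF.mpr hα)) (mon_mem_pow w α)

theorem smul_top_ideal {T : Type*} [CommRing T] (I : Ideal T) : I • (⊤ : Submodule T T) = I := by
  simp

theorem len_le_of_le {T M : Type*} [Ring T] [AddCommGroup M] [Module T M] {a : ℕ}
    (h : Module.length T M ≤ a) : (len T M : ℝ) ≤ a :=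
  Nat.cast_le.mpr (ENat.toNat_le_of_le_coe h)

section Local

variable {T : Type*} [CommRing T] [IsLocalRing T] {M : Type*} [AddCommGroup M] [Module T M]

theorem length_residue : Module.length T (T ⧸ maximalIdeal T) = 1 :=
  Module.length_eq_one_iff.mpr
    (isSimpleModule_iff_isCoatom.mpr (Ideal.isMaximal_def.mp (maximalIdeal.isMaximal T)))

theorem length_quot_ne_top (hfg : (maximalIdeal T).FG) [Module.Finite T M] (N : ℕ)
    (W : Submodule T M) (hW : maximalIdeal T ^ N • (⊤ : Submodule T M) ≤ W) :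
    Module.length T (M ⧸ W) ≠ ⊤ := by
  obtain ⟨d, w, hw⟩ := Submodule.fg_iff_exists_fin_generating_family.mp hfg
  replace hw : Ideal.span (Set.range w) = maximalIdeal T := hw
  obtain ⟨ν, hν⟩ := gr_fin (T := T) (M := M)
  have h1 := length_quot_pow_le (M := M) w N
  have h2 := hν (maximalIdeal T)
  rw [hw] at h1
  rw [length_residue, mul_one] at h2
  refine ne_top_of_le_ne_top ?_ ((gr_anti hW).trans (h1.trans (mul_le_mul_right h2 _)))
  exact_mod_cast ENat.coe_ne_top _

/-- polynomial growth of degree `d` for an ideal with `d` generators. -/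
theorem len_quot_pow_le_of_primary (hfg : (maximalIdeal T).FG) {d : ℕ} (y : Fin d → T) (L : ℕ)
    (hL : maximalIdeal T ^ L ≤ Ideal.span (Set.range y)) :
    ∃ c : ℝ, ∀ N : ℕ, (len T (T ⧸ Ideal.span (Set.range y) ^ N) : ℝ) ≤ c * ((N : ℝ) + 1) ^ d := by
  obtain ⟨c, hc⟩ := ENat.ne_top_iff_exists.mp (length_quot_ne_top (M := T) hfg L
    (Ideal.span (Set.range y)) (by rwa [smul_top_ideal]))
  refine ⟨c, fun N => ?_⟩
  have h1 := length_quot_powIdeal_le (M := T) y N
  rw [smul_top_ideal, smul_top_ideal, ← hc, ← Nat.cast_mul] at h1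
  refine (len_le_of_le ((gr_anti (powIdeal_le_span_pow y N)).trans h1)).trans ?_
  push_cast
  rw [mul_comm]
  gcongr
  linarith

variable {d : ℕ} (w : Fin d → T) (hw : Ideal.span (Set.range w) = maximalIdeal T)
include hw

theorem gr_small [Module.Finite T M] (g : T) (γ : ℕ) (hg : g ∉ maximalIdeal T ^ (γ + 1)) :
    ∃ a : ℕ → ℕ, (∀ n, Module.length T
      (M ⧸ (Ideal.span {g} ⊔ powIdeal w n) • (⊤ : Submodule T M)) ≤ a n) ∧
      ∀ ε : ℝ, 0 < ε → ∀ᶠ n : ℕ in atTop, (a n : ℝ) ≤ ε * (n : ℝ) ^ d := by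
  classical
  obtain ⟨κ, _, o, ho⟩ := exists_isOrd d
  obtain ⟨α0, h0⟩ := exists_init ho w hw g γ hg
  obtain ⟨ν, hν⟩ := gr_fin (T := T) (M := M)
  have h2 := hν (maximalIdeal T)
  rw [length_residue, mul_one, ← hw] at h2
  refine ⟨fun n => ((boxF fun _ => n).filter fun α => ¬ α0 ≤ α).card * ν, fun n => ?_,
    eventually_le_of_mul_le (α0.degree * ν) d _ fun n => ?_⟩
  · refine (gr_anti (Submodule.smul_mono_left
      (sup_le_sup_left (monI_le (mon_mem_powIdeal w n)) _))).trans
      ((gr_mono ho w _ _ h0 (boxF fun _ => n)).trans ?_)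
    rw [Nat.cast_mul]
    exact mul_le_mul_right h2 _
  · rw [← mul_assoc, mul_right_comm α0.degree]
    exact Nat.mul_le_mul_right ν (card_box_filter α0 n)

theorem len_quot_span_sup_pow_small [Module.Finite T M] (g : T) (γ : ℕ)
    (hg : g ∉ maximalIdeal T ^ (γ + 1)) (ε : ℝ) (hε : 0 < ε) :
    ∀ᶠ N : ℕ in atTop,
      (len T (M ⧸ (Ideal.span {g} ⊔ maximalIdeal T ^ N) • (⊤ : Submodule T M)) : ℝ) ≤
        ε * (N : ℝ) ^ d := by
  obtain ⟨a, h1, h2⟩ := gr_small (M := M) w hw g γ hg
  filter_upwards [h2 ε hε] with N hN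
  exact (len_le_of_le ((gr_anti (Submodule.smul_mono_left
    (sup_le_sup_left (hw ▸ powIdeal_le_span_pow w N) _))).trans (h1 N))).trans hN

omit [IsLocalRing T] hw in
theorem length_quot_le_of_part (g : T) {ρ : ℕ} (v : Fin ρ → M)
    (hv : ∀ x : M, g • x ∈ Submodule.span T (Set.range v)) (I : Ideal T) :
    Module.length T (M ⧸ I • (⊤ : Submodule T M)) ≤
      Module.length T (M ⧸ (Ideal.span {g} ⊔ I) • (⊤ : Submodule T M)) +
        ρ * Module.length T (T ⧸ I) := by
  have := gr_step_fam I (I • ⊤) ((Ideal.span {g} ⊔ I) • ⊤) v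
    (fun i a ha => Submodule.smul_mem_smul ha trivial) (by
      rw [Submodule.sup_smul, sup_comm]
      refine sup_le_sup_left (Submodule.smul_le.mpr fun r hr x _ => ?_) _
      obtain ⟨c, rfl⟩ := Ideal.mem_span_singleton'.mp hr
      rw [mul_smul]
      exact Submodule.smul_mem _ _ (hv x))
  rwa [Fintype.card_fin] at this

theorem len_quot_powIdeal_le [Module.Finite T M] (g : T) (γ : ℕ)
    (hg : g ∉ maximalIdeal T ^ (γ + 1)) {ρ : ℕ} (v : Fin ρ → M)
    (hv : ∀ x : M, g • x ∈ Submodule.span T (Set.range v)) (ε : ℝ) (hε : 0 < ε) :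
    ∀ᶠ n : ℕ in atTop,
      (len T (M ⧸ powIdeal w n • (⊤ : Submodule T M)) : ℝ) ≤ (ρ + ε) * (n : ℝ) ^ d := by
  obtain ⟨a, h1, h2⟩ := gr_small (M := M) w hw g γ hg
  filter_upwards [h2 ε hε] with n hn
  have h3 := length_quot_powIdeal_le (M := T) w n
  rw [smul_top_ideal, smul_top_ideal, hw, length_residue, mul_one] at h3
  have h4 := (length_quot_le_of_part g v hv (powIdeal w n)).trans
    (add_le_add (h1 n) (mul_le_mul_right h3 _))
  rw [← Nat.cast_mul, ← Nat.cast_add] at h4
  refine (len_le_of_le h4).trans ?_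
  push_cast
  linarith

theorem len_quot_pow_le [Module.Finite T M] (g : T) (γ : ℕ)
    (hg : g ∉ maximalIdeal T ^ (γ + 1)) {ρ : ℕ} (v : Fin ρ → M)
    (hv : ∀ x : M, g • x ∈ Submodule.span T (Set.range v)) (ε : ℝ) (hε : 0 < ε) :
    ∀ᶠ N : ℕ in atTop,
      (d.factorial : ℝ) * (len T (M ⧸ maximalIdeal T ^ N • (⊤ : Submodule T M)) : ℝ) ≤
        (ρ + ε) * (N : ℝ) ^ d := by
  obtain ⟨a, h1, h2⟩ := gr_small (M := M) w hw g γ hg
  have hd : (0 : ℝ) < d.factorial := by exact_mod_cast d.factorial_pos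
  have h5 := ((tendsto_card_triF d).const_mul (ρ : ℝ)).eventually_le_const
    (show (ρ : ℝ) * 1 < ρ + ε / 2 by linarith)
  filter_upwards [h2 (ε / 2 / d.factorial) (by positivity), h5, eventually_gt_atTop 0]
    with N hN h6 h7
  have h3 := length_quot_pow_le (M := T) w N
  rw [smul_top_ideal, smul_top_ideal, hw, length_residue, mul_one] at h3
  have h4 := (length_quot_le_of_part g v hv (maximalIdeal T ^ N)).trans
    (add_le_add ((gr_anti (Submodule.smul_mono_left
      (sup_le_sup_left (hw ▸ powIdeal_le_span_pow w N) _))).trans (h1 N)) (mul_le_mul_right h3 _))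
  rw [← Nat.cast_mul, ← Nat.cast_add] at h4
  refine (mul_le_mul_of_nonneg_left (len_le_of_le h4) hd.le).trans ?_
  rw [← mul_div_assoc, div_le_iff₀ (by positivity)] at h6
  rw [div_mul_eq_mul_div, le_div_iff₀ hd] at hN
  push_cast
  linarith

end Local

/-- A finite module over a domain has a free submodule of full rank with torsion quotient. -/
theorem exists_free_part (A M : Type*) [CommRing A] [IsDomain A] [AddCommGroup M] [Module A M]
    [Module.Finite A M] : ∃ (v : Fin (Module.finrank A M) → M) (g : A), LinearIndependent A v ∧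
      g ≠ 0 ∧ ∀ x : M, g • x ∈ Submodule.span A (Set.range v) := by
  obtain ⟨v, hv⟩ := exists_linearIndependent_of_le_finrank (R := A) (M := M) le_rfl
  have h1 : ∀ x : M, ∃ c : A, c ≠ 0 ∧ c • x ∈ Submodule.span A (Set.range v) := fun x => by
    by_contra hc
    have := (hv.finCons' x v fun c y hy h => by
      by_contra h0
      exact hc ⟨c, h0, eq_neg_of_add_eq_zero_left h ▸ neg_mem hy⟩).fintype_card_le_finrank
    simp at this
  choose c hc hc' using h1
  obtain ⟨ν, u, hu⟩ := Module.Finite.exists_fin (R := A) (M := M)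
  refine ⟨v, ∏ i, c (u i), hv, Finset.prod_ne_zero_iff.mpr fun i _ => hc _, fun x => ?_⟩
  obtain ⟨a, rfl⟩ :=
    (Submodule.mem_span_range_iff_exists_fun A).mp (hu.ge (Submodule.mem_top (x := x)))
  rw [Finset.smul_sum]
  refine Submodule.sum_mem _ fun i _ => ?_
  rw [smul_comm, ← Finset.prod_erase_mul _ _ (Finset.mem_univ i), mul_smul]
  exact Submodule.smul_mem _ _ (Submodule.smul_mem _ _ (hc' _))

theorem length_eq_of_residue (K T M : Type*) [Field K] [CommRing T] [IsLocalRing T] [Algebra K T]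
    (hres : ∀ x : T, ∃ a : K, x - algebraMap K T a ∈ maximalIdeal T)
    [AddCommGroup M] [Module T M] [Module K M] [IsScalarTower K T M] :
    Module.length K M = Module.length T M := by
  have h1 : Function.Surjective (algebraMap (ResidueField K) (ResidueField T)) := fun z => by
    obtain ⟨x, rfl⟩ := residue_surjective z
    obtain ⟨a, ha⟩ := hres x
    exact ⟨residue K a, (Ideal.Quotient.eq.mpr ha).symm⟩
  rw [IsLocalRing.length_restrictScalars K T M, Module.length_eq_of_surjective h1,
    Module.length_eq_one (ResidueField T), mul_one]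

theorem finrank_eq_len (K T M : Type*) [Field K] [CommRing T] [IsLocalRing T] [Algebra K T]
    (hres : ∀ x : T, ∃ a : K, x - algebraMap K T a ∈ maximalIdeal T)
    [AddCommGroup M] [Module T M] [Module K M] [IsScalarTower K T M] :
    Module.finrank K M = len T M ∧ (Module.Finite K M ↔ Module.length T M ≠ ⊤) := by
  rw [len, ← length_eq_of_residue K T M hres, Module.length_eq_rank]
  exact ⟨by simp [Module.finrank], by simp [Module.rank_lt_aleph0_iff.symm]⟩

end Vale.Agent.P202
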