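import Vale.Agent.P202.Koszul
import Vale.Agent.P202.Growth

/-! Almost regular sequences: colon killing and comparison of colengths. -/

namespace Vale.Agent.P202

variable {T : Type*} [CommRing T] {d : ℕ}

/-- `x` is a regular sequence up to the factor `c`, uniformly for powers. -/
def AlmostReg (x : Fin d → T) (c : T) : Prop :=
  ∀ (N : ℕ) (j : Fin d) (t : T), x j ^ N * t ∈ Ideal.span ((fun i => x i ^ N) '' {i | i < j}) →
    c * t ∈ Ideal.span ((fun i => x i ^ N) '' {i | i < j})

theorem acyc_mulVec_mem {m n : Type} [Fintype n] (I : Ideal T) (A : Matrix m n T) (v : n → T)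
    (hv : ∀ r, v r ∈ I) (r : m) : A.mulVec v r ∈ I :=
  I.sum_mem fun s _ => I.mul_mem_left _ (hv s)

theorem acyc_coeffs (w : Fin d → T) (j : Fin d) (t : T)
    (ht : t ∈ Ideal.span (w '' {i | i ≠ j})) :
    ∃ a : Fin d → T, a j = 0 ∧ t = ∑ i, w i * a i := by
  classical
  induction ht using Submodule.span_induction with
  | mem t h =>
    obtain ⟨i, hi, rfl⟩ := h
    refine ⟨Pi.single i 1, Pi.single_eq_of_ne (Ne.symm hi) _, ?_⟩
    simp [Pi.single_apply]
  | zero => exact ⟨0, rfl, by simp⟩
  | add s t _ _ hs ht =>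
    obtain ⟨a, ha, rfl⟩ := hs
    obtain ⟨b, hb, rfl⟩ := ht
    exact ⟨a + b, by simp [ha, hb], by simp [mul_add, Finset.sum_add_distrib]⟩
  | smul r t _ ht =>
    obtain ⟨a, ha, rfl⟩ := ht
    refine ⟨fun i => r * a i, by simp [ha], ?_⟩
    simp only [smul_eq_mul, Finset.mul_sum]
    exact Finset.sum_congr rfl fun i _ => by ring

theorem colon_killing (x w : Fin d → T) (c : T) (hx : AlmostReg x c)
    (hw : ∃ N : ℕ, ∀ j, x j ^ N ∈ Ideal.span (Set.range w)) (j : Fin d) (z : T)
    (hz : w j * z ∈ Ideal.span (w '' {i | i ≠ j})) :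
    c ^ d * z ∈ Ideal.span (w '' {i | i ≠ j}) := by
  classical
  obtain ⟨N, hN⟩ := hw
  obtain ⟨b, ψ, e1, hb0, hbd, hψψ, hψ0, hψ1, hnull⟩ := exists_koszul T d w
  set I : ℕ → Ideal T := fun k => Ideal.span ((fun i : Fin d => x i ^ N) '' {i | i.val < k})
    with hI
  have claim : ∀ m k : ℕ, k + m = d → ∀ i, k ≤ i → ∀ v : Fin (b (i + 1)) → T,
      (∀ r, (ψ i).mulVec v r ∈ I k) →
      ∃ u : Fin (b (i + 2)) → T, ∀ r, c ^ m * v r - (ψ (i + 1)).mulVec u r ∈ I k := by
    intro m
    induction m with
    | zero =>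
      intro k hk i hi v _
      refine ⟨0, fun r => ?_⟩
      have := hbd (i + 1) (by omega)
      exact absurd r.2 (by omega)
    | succ m ih =>
      intro k hk i hi v hv
      have hkd : k < d := by omega
      set κ : Fin d := ⟨k, hkd⟩ with hκ
      set y := x κ ^ N with hy
      obtain ⟨h, hh⟩ := hnull y (hN κ)
      have hIk : I k = Ideal.span ((fun i => x i ^ N) '' {i | i < κ}) := rfl
      have hsucc : I (k + 1) = I k ⊔ Ideal.span {y} := by
        simp only [hI]
        rw [← Ideal.span_union, hy, ← Set.image_singleton (f := fun i : Fin d => x i ^ N),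
          ← Set.image_union]
        congr 2
        ext l
        simp only [Set.mem_ofPred_eq, Set.mem_union, Set.mem_singleton_iff, hκ, Fin.ext_iff]
        omega
      have e1' : ∀ r, (ψ (i + 1)).mulVec ((h (i + 1)).mulVec v) r =
          y * v r - (h i).mulVec ((ψ i).mulVec v) r := by
        intro r
        have := congrFun (congrArg (fun M => Matrix.mulVec M v) (hh i)) r
        simp only [Matrix.add_mulVec, Matrix.smul_mulVec, Matrix.one_mulVec, Pi.add_apply,
          Pi.smul_apply, smul_eq_mul, ← Matrix.mulVec_mulVec] at this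
        rw [← this]
        ring
      obtain ⟨u', hu'⟩ := ih (k + 1) (by omega) (i + 1) (by omega) ((h (i + 1)).mulVec v) (by
        intro r
        rw [e1', hsucc]
        exact Ideal.sub_mem _
          (Ideal.mem_sup_right (Ideal.mul_mem_right _ _ (Ideal.mem_span_singleton_self y)))
          (Ideal.mem_sup_left (acyc_mulVec_mem _ _ _ hv r)))
      have hsplit : ∀ r, ∃ a : T, c ^ m * (h (i + 1)).mulVec v r - (ψ (i + 1 + 1)).mulVec u' r -
          y * a ∈ I k := by
        intro r
        have := hu' r
        rw [hsucc, Submodule.mem_sup] at this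
        obtain ⟨s, hs, t, ht, hst⟩ := this
        obtain ⟨a, rfl⟩ := Ideal.mem_span_singleton'.1 ht
        refine ⟨a, ?_⟩
        rw [← hst]
        convert hs using 1
        ring
      choose a ha using hsplit
      refine ⟨fun s => c * a s, fun r => ?_⟩
      have h1 := acyc_mulVec_mem (I k) (ψ (i + 1)) _ ha r
      have h2 : (ψ (i + 1)).mulVec (fun r => c ^ m * (h (i + 1)).mulVec v r -
          (ψ (i + 1 + 1)).mulVec u' r - y * a r) r =
          c ^ m * (ψ (i + 1)).mulVec ((h (i + 1)).mulVec v) r - y * (ψ (i + 1)).mulVec a r := by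
        have e2 : (fun r => c ^ m * (h (i + 1)).mulVec v r -
            (ψ (i + 1 + 1)).mulVec u' r - y * a r) =
            c ^ m • (h (i + 1)).mulVec v - (ψ (i + 1 + 1)).mulVec u' - y • a := rfl
        rw [e2, Matrix.mulVec_sub, Matrix.mulVec_sub, Matrix.mulVec_smul, Matrix.mulVec_smul,
          Matrix.mulVec_mulVec u', hψψ, Matrix.zero_mulVec]
        simp
      rw [h2, e1'] at h1
      have h3 : y * (c ^ m * v r - (ψ (i + 1)).mulVec a r) ∈ I k := by
        have h4 := (I k).add_mem h1
          ((I k).mul_mem_left (c ^ m) (acyc_mulVec_mem _ (h i) _ hv r))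
        convert h4 using 1
        ring
      have h5 := hx N κ _ h3
      have e3 : (fun s => c * a s) = c • a := rfl
      rw [e3, Matrix.mulVec_smul, hIk]
      convert h5 using 1
      simp only [Pi.smul_apply, smul_eq_mul]
      ring
  obtain ⟨a, ha, hza⟩ := acyc_coeffs w j _ hz
  obtain ⟨u, hu⟩ := claim d 0 (by omega) 0 le_rfl
    (fun s => if e1.symm s = j then z else -a (e1.symm s)) (by
      intro r
      have : (ψ 0).mulVec (fun s => if e1.symm s = j then z else -a (e1.symm s)) r = 0 := by
        simp only [Matrix.mulVec, dotProduct]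
        rw [← Equiv.sum_comp e1]
        simp only [hψ0, Equiv.symm_apply_apply]
        have e2 : ∀ i, w i * (if i = j then z else -a i) =
            (if i = j then w j * z else 0) - w i * a i := by
          intro i
          split_ifs with h
          · rw [h, ha]; ring
          · ring
        simp only [e2, Finset.sum_sub_distrib, Finset.sum_ite_eq', Finset.mem_univ, if_true]
        rw [← hza, sub_self]
      rw [this]
      exact zero_mem _)
  have h1 := hu (e1 j)
  have h2 : I 0 = ⊥ := by simp [hI]
  rw [h2, Ideal.mem_bot, sub_eq_zero, Equiv.symm_apply_apply, if_pos rfl] at h1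
  rw [h1]
  change ∑ s, ψ 1 (e1 j) s * u s ∈ _
  exact Ideal.sum_mem _ fun s _ => Ideal.mul_mem_right _ _ (hψ1 j s)

/-- colon of an ideal by an element -/
def colE (I : Ideal T) (g : T) : Ideal T := Submodule.comap (LinearMap.mulLeft T g) I

theorem mem_colE {I : Ideal T} {g z : T} : z ∈ colE I g ↔ g * z ∈ I := Iff.rfl

theorem le_colE (I : Ideal T) (g : T) : I ≤ colE I g := fun _ hz => I.mul_mem_left g hz

section Fin

variable (K : Type*) [Field K] [Algebra K T]

theorem acyc_finite_of_le {I I' : Ideal T} (h : I ≤ I') [Module.Finite K (T ⧸ I)] :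
    Module.Finite K (T ⧸ I') :=
  Module.Finite.of_surjective ((Submodule.factor h).restrictScalars K)
    (Submodule.factor_surjective h)

theorem acyc_finrank_le {I I' : Ideal T} (h : I ≤ I') [Module.Finite K (T ⧸ I)] :
    Module.finrank K (T ⧸ I') ≤ Module.finrank K (T ⧸ I) :=
  LinearMap.finrank_le_finrank_of_surjective (f := (Submodule.factor h).restrictScalars K)
    (Submodule.factor_surjective h)

theorem acyc_finrank_add (I : Ideal T) (g : T) [Module.Finite K (T ⧸ I)] :
    Module.finrank K (T ⧸ I) =
      Module.finrank K (T ⧸ colE I g) + Module.finrank K (T ⧸ (I ⊔ Ideal.span {g})) := by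
  let μ : (T ⧸ colE I g) →ₗ[K] (T ⧸ I) :=
    (Submodule.mapQ (colE I g) I (LinearMap.mulLeft T g) le_rfl).restrictScalars K
  let π : (T ⧸ I) →ₗ[K] (T ⧸ (I ⊔ Ideal.span {g})) :=
    (Submodule.factor (le_sup_left : I ≤ I ⊔ Ideal.span {g})).restrictScalars K
  have hμ : ∀ z : T, μ (Submodule.Quotient.mk z) = Submodule.Quotient.mk (g * z) := fun _ => rfl
  have hπ : ∀ z : T, π (Submodule.Quotient.mk z) = Submodule.Quotient.mk z := fun _ => rfl
  have h1 : Function.Injective μ := by
    rw [← LinearMap.ker_eq_bot, LinearMap.ker_eq_bot']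
    intro m hm
    obtain ⟨z, rfl⟩ := Submodule.Quotient.mk_surjective _ m
    rw [hμ, Submodule.Quotient.mk_eq_zero] at hm
    exact (Submodule.Quotient.mk_eq_zero _).2 hm
  have h2 : LinearMap.range μ = LinearMap.ker π := by
    ext m
    obtain ⟨z, rfl⟩ := Submodule.Quotient.mk_surjective _ m
    rw [LinearMap.mem_ker, hπ, Submodule.Quotient.mk_eq_zero, LinearMap.mem_range]
    constructor
    · rintro ⟨m', hm'⟩
      obtain ⟨t, rfl⟩ := Submodule.Quotient.mk_surjective _ m'
      rw [hμ, Submodule.Quotient.eq] at hm'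
      have : z = -(g * t - z) + g * t := by ring
      rw [this]
      exact Submodule.add_mem_sup (I.neg_mem hm')
        (Ideal.mul_mem_right _ _ (Ideal.mem_span_singleton_self g))
    · intro hz
      obtain ⟨s, hs, t, ht, rfl⟩ := Submodule.mem_sup.1 hz
      obtain ⟨a, rfl⟩ := Ideal.mem_span_singleton'.1 ht
      refine ⟨Submodule.Quotient.mk a, ?_⟩
      rw [hμ, Submodule.Quotient.eq]
      have : g * a - (s + a * g) = -s := by ring
      rw [this]
      exact I.neg_mem hs
  have h3 : LinearMap.range π = ⊤ :=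
    LinearMap.range_eq_top.2 (Submodule.factor_surjective (le_sup_left : I ≤ I ⊔ Ideal.span {g}))
  have h4 := π.finrank_range_add_finrank_ker
  rw [h3, finrank_top, ← h2, LinearMap.finrank_range_of_inj h1] at h4
  omega

theorem acyc_step (J : Ideal T) (y g c1 : T) (n : ℕ)
    (hcol : ∀ (i : ℕ) (z : T), y ^ i * z ∈ J → c1 * z ∈ J)
    [Module.Finite K (T ⧸ (J ⊔ Ideal.span {y ^ n}))] :
    n * Module.finrank K (T ⧸ colE (J ⊔ Ideal.span {y}) (g * c1)) ≤
      Module.finrank K (T ⧸ colE (J ⊔ Ideal.span {y ^ n}) g) := by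
  set A := colE (J ⊔ Ideal.span {y ^ n}) g with hA
  have : Module.Finite K (T ⧸ A) := acyc_finite_of_le K (le_colE _ g)
  have key : ∀ i, i ≤ n → i * Module.finrank K (T ⧸ colE (J ⊔ Ideal.span {y}) (g * c1)) ≤
      Module.finrank K (T ⧸ (A ⊔ Ideal.span {y ^ i})) := by
    intro i
    induction i with
    | zero => simp
    | succ i ih =>
      intro hi
      have : Module.Finite K (T ⧸ (A ⊔ Ideal.span {y ^ (i + 1)})) :=
        acyc_finite_of_le K le_sup_left
      have h1 := acyc_finrank_add K (A ⊔ Ideal.span {y ^ (i + 1)}) (y ^ i)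
      have : Module.Finite K (T ⧸ colE (A ⊔ Ideal.span {y ^ (i + 1)}) (y ^ i)) :=
        acyc_finite_of_le K (le_colE _ _)
      have h2 : colE (A ⊔ Ideal.span {y ^ (i + 1)}) (y ^ i) ≤
          colE (J ⊔ Ideal.span {y}) (g * c1) := by
        intro z hz
        rw [mem_colE] at hz ⊢
        obtain ⟨s, hs, t, ht, hst⟩ := Submodule.mem_sup.1 hz
        obtain ⟨a, rfl⟩ := Ideal.mem_span_singleton'.1 ht
        rw [hA, mem_colE] at hs
        obtain ⟨s', hs', t', ht', hst'⟩ := Submodule.mem_sup.1 hs
        obtain ⟨a', rfl⟩ := Ideal.mem_span_singleton'.1 ht'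
        obtain ⟨e, rfl⟩ : ∃ e, n = i + 1 + e := ⟨n - (i + 1), by omega⟩
        have h3 : y ^ i * (g * (z - a * y) - a' * y ^ (e + 1)) ∈ J := by
          convert hs' using 1
          linear_combination (-g) * hst - hst'
        have h4 := hcol i _ h3
        have : g * c1 * z = c1 * (g * (z - a * y) - a' * y ^ (e + 1)) +
            (c1 * (g * a + a' * y ^ e)) * y := by ring
        rw [this]
        exact Submodule.add_mem_sup h4 (Ideal.mul_mem_left _ _ (Ideal.mem_span_singleton_self y))
      have h3 := acyc_finrank_le K h2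
      have h4 : A ⊔ Ideal.span {y ^ (i + 1)} ⊔ Ideal.span {y ^ i} = A ⊔ Ideal.span {y ^ i} := by
        have : Ideal.span {y ^ (i + 1)} ≤ Ideal.span {y ^ i} :=
          Ideal.span_singleton_le_span_singleton.2 (pow_dvd_pow y (Nat.le_succ i))
        rw [sup_assoc, sup_eq_right.2 this]
      rw [h4] at h1
      have h5 := ih (by omega)
      rw [h1, add_mul, one_mul]
      omega
  exact (key n le_rfl).trans (acyc_finrank_le K le_sup_left)

end Fin

theorem acyc_span_range (v : Fin d → T) (k : Fin d) :
    Ideal.span (Set.range v) = Ideal.span (v '' {i | i ≠ k}) ⊔ Ideal.span {v k} := by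
  rw [← Ideal.span_union, ← Set.image_singleton, ← Set.image_union, ← Set.image_univ]
  congr 2
  ext i
  simp [em]

theorem pow_mul_finrank_le (K : Type*) [Field K] [Algebra K T] (x y : Fin d → T) (c : T)
    (hx : AlmostReg x c) (hy : ∀ j, x j ∈ (Ideal.span (Set.range y)).radical) (n : ℕ)
    [Module.Finite K (T ⧸ powIdeal y n)] [Module.Finite K (T ⧸ Ideal.span (Set.range y))] :
    n ^ d * Module.finrank K (T ⧸ Ideal.span (Set.range y)) ≤
      Module.finrank K (T ⧸ powIdeal y n) +
        n ^ d * Module.finrank K (T ⧸ (Ideal.span (Set.range y) ⊔ Ideal.span {c ^ (d * d)})) := by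
  classical
  set W : ℕ → Fin d → T := fun k i => if i.val < k then y i else y i ^ n with hW
  have hrad : ∀ ex : Fin d → ℕ, ∃ N : ℕ, ∀ j,
      x j ^ N ∈ Ideal.span (Set.range fun i => y i ^ ex i) := by
    intro ex
    have h1 : (Ideal.span (Set.range y)).radical ≤
        (Ideal.span (Set.range fun i => y i ^ ex i)).radical := by
      rw [Ideal.radical_le_radical_iff, Ideal.span_le]
      rintro _ ⟨i, rfl⟩
      exact ⟨ex i, Ideal.subset_span ⟨i, rfl⟩⟩
    choose m hm using fun j => h1 (hy j)
    exact ⟨∑ j, m j, fun j => Ideal.pow_mem_of_pow_mem _ (hm j)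
      (Finset.single_le_sum (fun _ _ => Nat.zero_le _) (Finset.mem_univ j))⟩
  have key : ∀ k, k ≤ d → n ^ k * Module.finrank K
      (T ⧸ colE (Ideal.span (Set.range (W k))) ((c ^ d) ^ k)) ≤
      Module.finrank K (T ⧸ powIdeal y n) := by
    intro k
    induction k with
    | zero =>
      intro _
      rw [pow_zero, one_mul]
      apply acyc_finrank_le K
      refine le_trans (le_of_eq ?_) (le_colE _ _)
      simp [hW, powIdeal]
    | succ k ih =>
      intro hk
      rcases Nat.eq_zero_or_pos n with rfl | hn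
      · simp
      set κ : Fin d := ⟨k, hk⟩ with hκ
      set J := Ideal.span (W k '' {i | i ≠ κ}) with hJ
      have e1 : Ideal.span (Set.range (W k)) = J ⊔ Ideal.span {y κ ^ n} := by
        rw [acyc_span_range _ κ]
        simp [hW, hκ, hJ]
      have e2 : Ideal.span (Set.range (W (k + 1))) = J ⊔ Ideal.span {y κ} := by
        rw [acyc_span_range _ κ, hJ]
        congr 2
        · apply Set.image_congr
          intro i hi
          have : i.val ≠ k := fun h => hi (Fin.ext h)
          simp only [hW]
          congr 1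
          apply propext
          omega
        · simp [hW, hκ]
      have e3 : powIdeal y n ≤ J ⊔ Ideal.span {y κ ^ n} := by
        rw [← e1, powIdeal, Ideal.span_le]
        rintro _ ⟨i, rfl⟩
        have hi : W k i ∈ Ideal.span (Set.range (W k)) := Ideal.subset_span ⟨i, rfl⟩
        simp only [hW] at hi ⊢
        split_ifs at hi
        · exact Ideal.pow_mem_of_mem _ hi n hn
        · exact hi
      have : Module.Finite K (T ⧸ (J ⊔ Ideal.span {y κ ^ n})) := acyc_finite_of_le K e3
      have h1 := acyc_step K J (y κ) ((c ^ d) ^ k) (c ^ d) n (by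
        intro i z hz
        set ex : Fin d → ℕ := fun l => if l = κ then i else if l.val < k then 1 else n with hex
        have e4 : Ideal.span ((fun l => y l ^ ex l) '' {l | l ≠ κ}) = J := by
          rw [hJ]
          congr 1
          apply Set.image_congr
          intro l hl
          have hl' : l ≠ κ := hl
          simp only [hex, hW, if_neg hl']
          split_ifs <;> simp
        have := colon_killing x (fun l => y l ^ ex l) c hx (hrad ex) κ z (by
          rw [e4]
          simpa [hex] using hz)
        rwa [e4] at this)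
      have h2 := ih (by omega)
      rw [e1] at h2
      rw [e2, pow_succ (c ^ d), pow_succ, mul_assoc]
      exact (Nat.mul_le_mul_left _ h1).trans h2
  have h1 := key d le_rfl
  have e1 : W d = y := by
    funext i
    simp [hW]
  rw [e1, ← pow_mul] at h1
  rw [acyc_finrank_add K (Ideal.span (Set.range y)) (c ^ (d * d)), mul_add]
  omega

end Vale.Agent.P202
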