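import Vale.Agent.P202.ApproxAux3

/-! Approximation of power series solutions of polynomial systems by solutions whose
coefficients lie in a finitely generated ring; specialisation to prime characteristic. -/

namespace Vale.Agent.P202

universe u

section Change

open MvPowerSeries

variable {K : Type*} [Field K] {d : ℕ}

/-- The linear forms `c 0 * x 0` and `x i + c i * x 0`. -/
def apLin {R : Type*} [CommRing R] [Algebra K R] (c : Fin (d + 1) → K) (x : Fin (d + 1) → R)
    (i : Fin (d + 1)) : R :=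
  Fin.cases (motive := fun _ => R) 0 (fun j => x j.succ) i + algebraMap K R (c i) * x 0

theorem apLin_map {R R' : Type*} [CommRing R] [Algebra K R] [CommRing R'] [Algebra K R']
    (φ : R →ₐ[K] R') (c : Fin (d + 1) → K) (x : Fin (d + 1) → R) (i : Fin (d + 1)) :
    φ (apLin c x i) = apLin c (fun j => φ (x j)) i := by
  induction i using Fin.cases <;> simp [apLin]

theorem apLin_hasSubst (c : Fin (d + 1) → K) :
    HasSubst (apLin c (X : Fin (d + 1) → PS K (d + 1))) :=
  hasSubst_of_constantCoeff_zero fun i => by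
    induction i using Fin.cases <;> simp [apLin]

/-- The linear change of variables. -/
noncomputable def apTau (c : Fin (d + 1) → K) : PS K (d + 1) →ₐ[K] PS K (d + 1) :=
  substAlgHom (apLin_hasSubst c)

theorem apTau_X (c : Fin (d + 1) → K) (i : Fin (d + 1)) : apTau c (X i) = apLin c X i :=
  substAlgHom_X _ i

theorem apTau_X_mem (c : Fin (d + 1) → K) (i : Fin (d + 1)) :
    apTau c (X i) ∈ varIdeal K (d + 1) := by
  rw [apTau_X, apLin]
  refine add_mem ?_ (Ideal.mul_mem_left _ _ (ap_X_mem K _ _))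
  induction i using Fin.cases
  · exact zero_mem _
  · exact ap_X_mem K _ _

theorem apTau_X_fg (c : Fin (d + 1) → K) (i : Fin (d + 1)) : apTau c (X i) ∈ apFg K (d + 1) := by
  rw [apTau_X, apLin]
  refine add_mem ?_ (mul_mem (Subalgebra.algebraMap_mem _ _) (apFg_X _))
  induction i using Fin.cases
  · exact zero_mem _
  · exact apFg_X _

/-- Parameters of the inverse change of variables. -/
noncomputable def apInv (c : Fin (d + 1) → K) : Fin (d + 1) → K :=
  Fin.cases (c 0)⁻¹ fun j => -c j.succ * (c 0)⁻¹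

theorem apLin_inv {R : Type*} [CommRing R] [Algebra K R] (c : Fin (d + 1) → K) (hc : c 0 ≠ 0)
    (x : Fin (d + 1) → R) (i : Fin (d + 1)) : apLin c (apLin (apInv c) x) i = x i := by
  induction i using Fin.cases with
  | zero =>
    simp only [apLin, apInv, Fin.cases_zero, zero_add]
    rw [← mul_assoc, ← map_mul, mul_inv_cancel₀ hc, map_one, one_mul]
  | succ j =>
    simp only [apLin, apInv, Fin.cases_zero, Fin.cases_succ, zero_add, map_mul, map_neg]
    ring

theorem apTau_inv (c : Fin (d + 1) → K) (hc : c 0 ≠ 0) (f : PS K (d + 1)) :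
    apTau (apInv c) (apTau c f) = f := by
  have h1 : (fun s => subst (apLin (apInv c) (X : Fin (d + 1) → PS K (d + 1)))
      (apLin c (X : Fin (d + 1) → PS K (d + 1)) s)) =
      (X : Fin (d + 1) → PS K (d + 1)) := by
    funext s
    rw [← substAlgHom_apply (apLin_hasSubst (apInv c)), ← apTau, apLin_map]
    simp only [apTau_X]
    exact apLin_inv c hc X s
  rw [apTau, apTau, substAlgHom_apply, substAlgHom_apply,
    subst_comp_subst_apply (apLin_hasSubst c) (apLin_hasSubst _), h1, subst_self, id]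

theorem ap_exists_regular [Infinite K] (h : PS K (d + 1)) (hh : h ≠ 0) :
    ∃ c : Fin (d + 1) → K, c 0 ≠ 0 ∧
      (finSuccEquiv K d (apTau c h)).map (IsLocalRing.residue (PS K d)) ≠ 0 := by
  classical
  have hex := exists_notMem_varIdeal_pow hh
  set r := Nat.find hex with hr
  have h1 : h ∉ varIdeal K (d + 1) ^ (r + 1) := Nat.find_spec hex
  have h2 : h ∈ varIdeal K (d + 1) ^ r := by
    rcases Nat.eq_zero_or_pos r with h0 | h0
    · rw [h0]; simp
    · have := Nat.find_min hex (m := r - 1) (by omega)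
      rwa [not_not, Nat.sub_add_cancel h0] at this
  let p : MvPolynomial (Fin (d + 1)) K :=
    ∑ α ∈ triF (d + 1) (r + 1), MvPolynomial.monomial α (coeff α h)
  have hp : p ≠ 0 := fun h0 => h1 (by
    rw [mem_varIdeal_pow_iff]
    intro α hα
    have := congrArg (MvPolynomial.coeff α) h0
    simpa [p, MvPolynomial.coeff_sum, MvPolynomial.coeff_monomial, mem_triF, hα] using this)
  obtain ⟨c, hc⟩ : ∃ c, MvPolynomial.eval c (MvPolynomial.X 0 * p) ≠ 0 := by
    by_contra hcon
    push Not at hcon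
    exact mul_ne_zero (MvPolynomial.X_ne_zero 0) hp
      (MvPolynomial.funext fun c => by rw [hcon, map_zero])
  rw [map_mul, MvPolynomial.eval_X] at hc
  refine ⟨c, left_ne_zero_of_mul hc, fun h0 => right_ne_zero_of_mul hc ?_⟩
  let ε : PS K (d + 1) →+* PowerSeries K :=
    (PowerSeries.map (constantCoeff : PS K d →+* K)).comp
      ((finSuccEquiv K d).toAlgHom.comp (apTau c)).toRingHom
  have hε : ∀ f, ε f = PowerSeries.map (constantCoeff : PS K d →+* K)
      (finSuccEquiv K d (apTau c f)) := fun _ => rfl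
  have hεX : ∀ i, ε (X i) = PowerSeries.C (c i) * PowerSeries.X := by
    intro i
    rw [hε, apTau_X]
    induction i using Fin.cases <;> simp [apLin, ← c_eq_algebraMap]
  have hεC : ∀ a, ε (C a) = PowerSeries.C a := by
    intro a
    rw [hε, c_eq_algebraMap, AlgHom.commutes, ← c_eq_algebraMap]
    simp
  have h3 : PowerSeries.coeff r (ε h) = 0 := by
    have := congrArg (PowerSeries.coeff r) h0
    rw [PowerSeries.coeff_map, map_zero, IsLocalRing.residue_eq_zero_iff,
      IsLocalRing.mem_maximalIdeal, mem_nonunits_iff, isUnit_iff_constantCoeff,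
      isUnit_iff_ne_zero, not_not] at this
    rw [hε, PowerSeries.coeff_map, this]
  have h4 : PowerSeries.coeff r (ε (h - apTr (r + 1) h)) = 0 := by
    have h5 : (varIdeal K (d + 1)).map ε ≤ Ideal.span {PowerSeries.X} := by
      rw [varIdeal, Ideal.map_span, Ideal.span_le]
      rintro _ ⟨_, ⟨i, rfl⟩, rfl⟩
      rw [hεX]
      exact Ideal.mul_mem_left _ _ (Ideal.mem_span_singleton_self _)
    have h6 := Ideal.mem_map_of_mem ε (sub_apTr_mem (r + 1) h)
    rw [Ideal.map_pow] at h6
    have h7 := Ideal.pow_right_mono h5 _ h6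
    rw [Ideal.span_singleton_pow, Ideal.mem_span_singleton, PowerSeries.X_pow_dvd_iff] at h7
    exact h7 r (Nat.lt_succ_self r)
  rw [map_sub, map_sub, h3, zero_sub, neg_eq_zero, apTr, map_sum, map_sum] at h4
  rw [← h4, map_sum]
  refine Finset.sum_congr rfl fun α hα => ?_
  have e : ε (C (coeff α h) * mon X α) =
      PowerSeries.C (coeff α h * ∏ i, c i ^ α i) * PowerSeries.X ^ α.degree := by
    rw [map_mul, hεC, mon, map_prod, map_mul, map_prod, Finsupp.degree_eq_sum,
      ← Finset.prod_pow_eq_pow_sum, mul_assoc, ← Finset.prod_mul_distrib]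
    simp only [map_pow, hεX, mul_pow]
  rw [e, PowerSeries.coeff_C_mul, PowerSeries.coeff_X_pow, MvPolynomial.eval_monomial,
    Finsupp.prod_fintype _ _ (by simp)]
  split_ifs with hα'
  · rw [mul_one]
  · rw [(mem_varIdeal_pow_iff _ _).mp h2 α (by have := mem_triF.mp hα; omega)]
    simp

theorem ApP.apQ [Infinite K] (hP : ApP K d) : ApQ K (d + 1) := by
  classical
  intro σ _ y H F hH hF N
  obtain ⟨c, hc, hreg⟩ := ap_exists_regular _ hH
  let τ : MvPolynomial (Fin (d + 1) ⊕ σ) K →ₐ[K] MvPolynomial (Fin (d + 1) ⊕ σ) K :=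
    MvPolynomial.aeval (Sum.elim (apLin c fun i => MvPolynomial.X (Sum.inl i))
      fun j => MvPolynomial.X (Sum.inr j))
  have hτ : ∀ {R R' : Type _} [CommRing R] [Algebra K R] [CommRing R'] [Algebra K R']
      (φ : R →ₐ[K] R') (x : Fin (d + 1) → R) (v : σ → R) (g : MvPolynomial (Fin (d + 1) ⊕ σ) K),
      φ (MvPolynomial.aeval (Sum.elim x v) (τ g)) =
        MvPolynomial.aeval (Sum.elim (apLin c fun i => φ (x i)) fun j => φ (v j)) g := by
    intro R R' _ _ _ _ φ x v g
    have : φ.comp ((MvPolynomial.aeval (Sum.elim x v)).comp τ) =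
        MvPolynomial.aeval (Sum.elim (apLin c fun i => φ (x i)) fun j => φ (v j)) := by
      refine MvPolynomial.algHom_ext fun i => ?_
      rcases i with i | j
      · simp [τ, apLin_map]
      · simp [τ]
    exact DFunLike.congr_fun this g
  have h1 : ∀ g, MvPolynomial.aeval (Sum.elim X fun j => apTau c (y j)) (τ g) =
      apTau c (MvPolynomial.aeval (Sum.elim X y) g) := by
    intro g
    have h2 := hτ (AlgHom.id K _) X (fun j => apTau c (y j)) g
    have h3 : (apTau c).comp (MvPolynomial.aeval (Sum.elim X y)) =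
        MvPolynomial.aeval (Sum.elim (apLin c X) fun j => apTau c (y j)) := by
      refine MvPolynomial.algHom_ext fun i => ?_
      rcases i with i | j
      · simp [apTau_X]
      · simp
    exact h2.trans (DFunLike.congr_fun h3 g).symm
  obtain ⟨y', h4, h5⟩ := hP.regular σ (fun j => apTau c (y j)) (τ H) (F.image τ)
    (by rwa [h1]) (by
      intro f hf
      obtain ⟨g, hg, rfl⟩ := Finset.mem_image.mp hf
      rw [h1, hF g hg, map_zero]) N
  let φ : apFg K (d + 1) →ₐ[K] apFg K (d + 1) :=
    ((apTau (apInv c)).comp (apFg K (d + 1)).val).codRestrict _ fun x =>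
      ap_map_fg _ (apTau_X_mem _) (apTau_X_fg _) x.2
  have hφ : (apLin c fun i => φ (apX K (d + 1) i)) = apX K (d + 1) := by
    have : (fun i => φ (apX K (d + 1) i)) = apLin (apInv c) (apX K (d + 1)) := by
      funext i
      apply Subtype.ext
      exact (apTau_X _ i).trans (apLin_map (apFg K (d + 1)).val (apInv c) (apX K (d + 1)) i).symm
    rw [this]
    funext i
    exact apLin_inv c hc _ i
  refine ⟨fun j => φ (y' j), fun j => ?_, fun f hf => ?_⟩
  · have := ap_map_pow (apTau (apInv c) : PS K (d + 1) →+* PS K (d + 1)) (apTau_X_mem _) N (h4 j)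
    rw [RingHom.coe_coe, map_sub, apTau_inv c hc] at this
    exact this
  · have := map_dvd φ (h5 _ (Finset.mem_image_of_mem τ hf))
    rwa [hτ, hτ, hφ] at this

theorem apP_all (K : Type*) [Field K] [CharZero K] (d : ℕ) : ApP K d := by
  induction d with
  | zero =>
    intro σ _ y F hF N
    have hy : ∀ j, y j ∈ apFg K 0 := fun j => ⟨{coeff 0 (y j)}, fun α => by
      rw [Subsingleton.elim α 0]; exact Subring.subset_closure (by simp)⟩
    refine ⟨fun j => ⟨y j, hy j⟩, fun j => by simp, fun f hf => Subtype.ext ?_⟩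
    rw [ap_coe_aeval]
    exact hF f hf
  | succ d ih => exact ih.apQ.apP

end Change

theorem exists_approx (K : Type*) [Field K] [CharZero K] (d : ℕ) (σ : Type) [Fintype σ]
    (y : σ → PS K d) (F : Finset (MvPolynomial (Fin d ⊕ σ) K))
    (hF : ∀ f ∈ F, MvPolynomial.aeval (Sum.elim MvPowerSeries.X y) f = 0) (N : ℕ) :
    ∃ (s : Finset K) (y' : σ → PS K d),
      (∀ j α, MvPowerSeries.coeff α (y' j) ∈ Subring.closure (s : Set K)) ∧
      (∀ j, y' j - y j ∈ varIdeal K d ^ N) ∧
      ∀ f ∈ F, MvPolynomial.aeval (Sum.elim MvPowerSeries.X y') f = 0 := by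
  obtain ⟨y', h1, h2⟩ := apP_all K d σ y F hF N
  obtain ⟨s, hs⟩ := apFg_common Finset.univ (fun j => (y' j : PS K d)) fun j _ => (y' j).2
  refine ⟨s, fun j => y' j, fun j => hs j (Finset.mem_univ _), h1, fun f hf => ?_⟩
  rw [← ap_coe_aeval, h2 f hf]
  rfl

theorem ap_int_jacobson : IsJacobsonRing ℤ := by
  rw [isJacobsonRing_iff_prime_eq]
  intro P hP
  by_cases h0 : P = ⊥
  · subst h0
    refine le_antisymm (fun x hx => ?_) Ideal.le_jacobson
    obtain ⟨q, hq, hq'⟩ := Nat.exists_infinite_primes (x.natAbs + 1)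
    have hm : (Ideal.span {(q : ℤ)}).IsMaximal :=
      PrincipalIdealRing.isMaximal_of_irreducible (Nat.prime_iff_prime_int.mp hq').irreducible
    have h1 : x ∈ Ideal.span {(q : ℤ)} := Ideal.mem_sInf.mp hx ⟨bot_le, hm⟩
    rw [Ideal.mem_span_singleton, Int.natCast_dvd] at h1
    rw [Ideal.mem_bot, ← Int.natAbs_eq_zero]
    exact Nat.eq_zero_of_dvd_of_lt h1 hq
  · have := IsPrime.to_maximal_ideal h0
    exact Ideal.jacobson_eq_self_of_isMaximal

theorem ap_exists_charP {K : Type u} [Field K] (s : Finset K) :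
    ∃ (p : ℕ) (_ : Fact p.Prime) (K' : Type u) (_ : Field K') (_ : CharP K' p)
      (_ : IsAlgClosed K'), Nonempty (Subring.closure (s : Set K) →+* K') := by
  let Γ := Algebra.adjoin ℤ (s : Set K)
  have : Algebra.FiniteType ℤ Γ := (Subalgebra.fg_iff_finiteType _).mp ⟨s, rfl⟩
  obtain ⟨M, hM⟩ := Ideal.exists_maximal Γ
  let _ := Ideal.Quotient.field M
  have : Algebra.FiniteType ℤ (Γ ⧸ M) :=
    .of_surjective (Ideal.Quotient.mkₐ ℤ M) (Ideal.Quotient.mkₐ_surjective ℤ M)
  have := ap_int_jacobson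
  have hfin : Module.Finite ℤ (Γ ⧸ M) := finite_of_finite_type_of_isJacobsonRing ℤ (Γ ⧸ M)
  obtain ⟨p, hp⟩ := CharP.exists (Γ ⧸ M)
  have hp0 : p ≠ 0 := by
    rintro rfl
    have := CharP.charP_to_charZero (Γ ⧸ M)
    have : Algebra.IsIntegral ℤ (Γ ⧸ M) := Algebra.IsIntegral.of_finite ℤ _
    exact Int.not_isField ((Algebra.IsIntegral.isField_iff_isField
      (algebraMap ℤ (Γ ⧸ M)).injective_int).mpr (Field.toIsField _))
  have e : Subring.closure (s : Set K) ≤ Γ.toSubring := Subring.closure_le.mpr Algebra.subset_adjoin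
  exact ⟨p, ⟨(CharP.char_is_prime_or_zero (Γ ⧸ M) p).resolve_right hp0⟩,
    AlgebraicClosure (Γ ⧸ M), inferInstance, inferInstance, inferInstance,
    ⟨(algebraMap (Γ ⧸ M) _).comp ((Ideal.Quotient.mk M).comp (Subring.inclusion e))⟩⟩

theorem exists_specialization (K : Type u) [Field K] [CharZero K] (d : ℕ) (s : Finset (PS K d))
    (c : PS K d) (hc : c ≠ 0) :
    ∃ (p : ℕ) (_ : Fact p.Prime) (K' : Type u) (_ : Field K') (_ : CharP K' p)
      (_ : IsAlgClosed K') (U : Subring (PS K d)) (h : U →+* PS K' d)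
      (hX : ∀ i, MvPowerSeries.X i ∈ U) (hcU : c ∈ U), (∀ x ∈ s, x ∈ U) ∧
      (∀ i, h ⟨MvPowerSeries.X i, hX i⟩ = MvPowerSeries.X i) ∧ h ⟨c, hcU⟩ ≠ 0 := by
  classical
  let y : Option (Fin s.card) → PS K d := fun o => o.elim c fun i => s.equivFin.symm i
  let ev : (Option (Fin s.card) → PS K d) →
      (MvPolynomial (Fin d ⊕ Option (Fin s.card)) ℤ →+* PS K d) := fun v =>
    (MvPolynomial.aeval (R := K) (Sum.elim MvPowerSeries.X v)).toRingHom.comp
      (MvPolynomial.map (Int.castRingHom K))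
  have hev : ∀ v i, ev v (MvPolynomial.X i) = Sum.elim MvPowerSeries.X v i := fun v i => by
    simp [ev]
  obtain ⟨G, hG⟩ := IsNoetherian.noetherian (RingHom.ker (ev y))
  obtain ⟨γ, hγ⟩ := exists_notMem_varIdeal_pow hc
  obtain ⟨t, y', h1, h2, h3⟩ := exists_approx K d _ y
    (G.image (MvPolynomial.map (Int.castRingHom K))) (by
      intro f hf
      obtain ⟨g, hg, rfl⟩ := Finset.mem_image.mp hf
      have : g ∈ RingHom.ker (ev y) := hG ▸ Submodule.subset_span hg
      exact this) (γ + 1)
  have h4 : y' none ∉ varIdeal K d ^ (γ + 1) := fun h => hγ (by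
    simpa [y] using sub_mem h (h2 none))
  rw [mem_varIdeal_pow_iff] at h4
  push Not at h4
  obtain ⟨α, -, hα⟩ := h4
  set κ := MvPowerSeries.coeff α (y' none) with hκ
  obtain ⟨p, hp, K', _, _, _, ⟨π⟩⟩ := ap_exists_charP (insert κ⁻¹ t)
  set Γ := Subring.closure ((insert κ⁻¹ t : Finset K) : Set K)
  have h5 : ∀ j β, MvPowerSeries.coeff β (y' j) ∈ Γ := fun j β =>
    Subring.closure_mono (by simp) (h1 j β)
  let y'' : Option (Fin s.card) → MvPowerSeries (Fin d) Γ := fun j β => ⟨_, h5 j β⟩
  let evΓ : MvPolynomial (Fin d ⊕ Option (Fin s.card)) ℤ →+* MvPowerSeries (Fin d) Γ :=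
    MvPolynomial.eval₂Hom (Int.castRingHom _) (Sum.elim MvPowerSeries.X y'')
  have h6 : (MvPowerSeries.map Γ.subtype).comp evΓ = ev y' := by
    refine MvPolynomial.ringHom_ext' (RingHom.ext_int _ _) fun i => ?_
    rw [hev]
    rcases i with i | j
    · simp [evΓ]
    · simp only [evΓ, RingHom.comp_apply, MvPolynomial.eval₂Hom_X', Sum.elim_inr]
      ext β
      rw [MvPowerSeries.coeff_map]
      rfl
  have h7 : RingHom.ker (ev y).rangeRestrict ≤ RingHom.ker ((MvPowerSeries.map π).comp evΓ) := by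
    rw [RingHom.ker_rangeRestrict, ← hG, Submodule.span_le]
    intro g hg
    have h8 : MvPowerSeries.map Γ.subtype (evΓ g) = 0 := by
      rw [← RingHom.comp_apply, h6]
      exact h3 _ (Finset.mem_image_of_mem _ hg)
    have h9 : evΓ g = 0 := by
      ext β
      have := congrArg (MvPowerSeries.coeff β) h8
      rw [MvPowerSeries.coeff_map] at this
      simpa using this
    show MvPowerSeries.map π (evΓ g) = 0
    rw [h9, map_zero]
  let h : (ev y).range →+* PS K' d := RingHom.liftOfSurjective (ev y).rangeRestrict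
    (ev y).rangeRestrict_surjective ⟨_, h7⟩
  have hh : ∀ g, h ((ev y).rangeRestrict g) = MvPowerSeries.map π (evΓ g) := fun g =>
    RingHom.liftOfRightInverse_comp_apply _ _ _ _ g
  refine ⟨p, hp, K', inferInstance, inferInstance, inferInstance, (ev y).range, h,
    fun i => ⟨_, hev y (.inl i)⟩, ⟨_, hev y (.inr none)⟩, fun x hx => ?_, fun i => ?_, ?_⟩
  · refine ⟨MvPolynomial.X (.inr (some (s.equivFin ⟨x, hx⟩))), ?_⟩
    rw [hev]; simp [y]
  · have := hh (MvPolynomial.X (.inl i))
    simp only [evΓ, MvPolynomial.eval₂Hom_X', Sum.elim_inl, MvPowerSeries.map_X] at this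
    rw [← this]
    congr 1
    exact Subtype.ext (hev y (.inl i)).symm
  · have e : (⟨c, ⟨_, hev y (.inr none)⟩⟩ : (ev y).range) =
        (ev y).rangeRestrict (MvPolynomial.X (.inr none)) := Subtype.ext (hev y (.inr none)).symm
    rw [e, hh]
    intro h0
    have h10 := congrArg (MvPowerSeries.coeff α) h0
    simp only [evΓ, MvPolynomial.eval₂Hom_X', Sum.elim_inr, MvPowerSeries.coeff_map,
      map_zero] at h10
    have h11 : MvPowerSeries.coeff α (y'' none) *
        (⟨κ⁻¹, Subring.subset_closure (by simp)⟩ : Γ) = 1 :=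
      Subtype.ext (mul_inv_cancel₀ hα)
    have := congrArg π h11
    rw [map_mul, h10, zero_mul, map_one] at this
    exact zero_ne_one this

end Vale.Agent.P202
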