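import Vale.Agent.P202.GrowthPS

/-! Power series whose coefficients lie in a finitely generated subring: basic closure
properties, order estimates and Newton iteration. -/

namespace Vale.Agent.P202

open MvPowerSeries

variable {K : Type*} [Field K] {d : ℕ}

/-- Power series all of whose coefficients lie in `Γ`. -/
def apCoef (d : ℕ) (Γ : Subring K) : Subring (PS K d) where
  carrier := {f | ∀ α, coeff α f ∈ Γ}
  mul_mem' := fun {a b} ha hb α => by
    classical
    rw [coeff_mul]
    exact sum_mem fun p _ => mul_mem (ha _) (hb _)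
  one_mem' := fun α => by
    classical
    rw [coeff_one]; split_ifs
    exacts [one_mem _, zero_mem _]
  add_mem' := fun {a b} ha hb α => by rw [map_add]; exact add_mem (ha α) (hb α)
  zero_mem' := fun α => by rw [map_zero]; exact zero_mem _
  neg_mem' := fun {a} ha α => by rw [map_neg]; exact neg_mem (ha α)

theorem mem_apCoef {Γ : Subring K} {f : PS K d} : f ∈ apCoef d Γ ↔ ∀ α, coeff α f ∈ Γ := Iff.rfl

theorem apCoef_mono {Γ Γ' : Subring K} (h : Γ ≤ Γ') : apCoef d Γ ≤ apCoef d Γ' :=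
  fun _ hf α => h (hf α)

theorem apCoef_C {Γ : Subring K} {c : K} (hc : c ∈ Γ) : (C c : PS K d) ∈ apCoef d Γ := fun α => by
  classical
  rw [coeff_C]; split_ifs
  exacts [hc, zero_mem _]

theorem apCoef_X (Γ : Subring K) (i : Fin d) : (X i : PS K d) ∈ apCoef d Γ := fun α => by
  classical
  rw [coeff_X]; split_ifs
  exacts [one_mem _, zero_mem _]

theorem apCoef_closed {Γ : Subring K} {f : PS K d}
    (h : ∀ N, ∃ g ∈ apCoef d Γ, f - g ∈ varIdeal K d ^ N) : f ∈ apCoef d Γ := fun α => by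
  obtain ⟨g, hg, hfg⟩ := h (α.degree + 1)
  have := (mem_varIdeal_pow_iff _ _).mp hfg α (Nat.lt_succ_self _)
  rw [map_sub, sub_eq_zero] at this
  rw [this]; exact hg α

/-- Power series whose coefficients lie in some finitely generated subring. -/
def apFg (K : Type*) [Field K] (d : ℕ) : Subalgebra K (PS K d) where
  carrier := {f | ∃ s : Finset K, f ∈ apCoef d (Subring.closure (s : Set K))}
  mul_mem' := by
    classical
    rintro a b ⟨s, hs⟩ ⟨t, ht⟩
    exact ⟨s ∪ t, mul_mem (apCoef_mono (Subring.closure_mono (by simp)) hs)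
      (apCoef_mono (Subring.closure_mono (by simp)) ht)⟩
  add_mem' := by
    classical
    rintro a b ⟨s, hs⟩ ⟨t, ht⟩
    exact ⟨s ∪ t, add_mem (apCoef_mono (Subring.closure_mono (by simp)) hs)
      (apCoef_mono (Subring.closure_mono (by simp)) ht)⟩
  algebraMap_mem' := fun c => ⟨{c}, apCoef_C (Subring.subset_closure (by simp))⟩

theorem apFg_X (i : Fin d) : (X i : PS K d) ∈ apFg K d := ⟨∅, apCoef_X _ i⟩

theorem apFg_C (c : K) : (C c : PS K d) ∈ apFg K d := (apFg K d).algebraMap_mem c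

theorem apFg_common {ι : Type*} (S : Finset ι) (f : ι → PS K d) (h : ∀ i ∈ S, f i ∈ apFg K d) :
    ∃ s : Finset K, ∀ i ∈ S, f i ∈ apCoef d (Subring.closure (s : Set K)) := by
  classical
  choose! s hs using h
  exact ⟨S.biUnion s, fun i hi => apCoef_mono (Subring.closure_mono
    (Finset.coe_subset.mpr (Finset.subset_biUnion_of_mem s hi))) (hs i hi)⟩

/-- Truncation below degree `N`. -/
noncomputable def apTr (N : ℕ) (f : PS K d) : PS K d :=
  ∑ α ∈ triF d N, C (coeff α f) * mon X α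

theorem sub_apTr_mem (N : ℕ) (f : PS K d) : f - apTr N f ∈ varIdeal K d ^ N := by
  classical
  rw [mem_varIdeal_pow_iff]
  intro α hα
  rw [map_sub, apTr, map_sum, Finset.sum_eq_single α]
  · rw [mon_X, coeff_C_mul, coeff_monomial_same, mul_one, sub_self]
  · intro β _ hβ
    rw [mon_X, coeff_C_mul, coeff_monomial_ne hβ.symm, mul_zero]
  · intro h; exact absurd (mem_triF.mpr hα) h

theorem apTr_mem (N : ℕ) (f : PS K d) : apTr N f ∈ apFg K d :=
  sum_mem fun _ _ => mul_mem (apFg_C _) (prod_mem fun i _ => pow_mem (apFg_X i) _)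

theorem ap_map_pow {d' : ℕ} (τ : PS K d →+* PS K d') (h : ∀ i, τ (X i) ∈ varIdeal K d') (N : ℕ)
    {f : PS K d} (hf : f ∈ varIdeal K d ^ N) : τ f ∈ varIdeal K d' ^ N := by
  have h1 : (varIdeal K d).map τ ≤ varIdeal K d' := by
    rw [varIdeal, Ideal.map_span, Ideal.span_le]
    rintro _ ⟨_, ⟨i, rfl⟩, rfl⟩
    exact h i
  have h2 := Ideal.mem_map_of_mem τ hf
  rw [Ideal.map_pow] at h2
  exact Ideal.pow_right_mono h1 N h2

theorem ap_map_fg {d' : ℕ} (τ : PS K d →ₐ[K] PS K d') (h : ∀ i, τ (X i) ∈ varIdeal K d')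
    (h' : ∀ i, τ (X i) ∈ apFg K d') {f : PS K d} (hf : f ∈ apFg K d) : τ f ∈ apFg K d' := by
  classical
  obtain ⟨s, hs⟩ := hf
  obtain ⟨t, ht⟩ := apFg_common Finset.univ _ fun i _ => h' i
  refine ⟨s ∪ t, apCoef_closed fun N => ⟨τ (apTr N f), ?_, ?_⟩⟩
  · rw [apTr, map_sum]
    refine sum_mem fun α _ => ?_
    rw [map_mul, mon, map_prod]
    refine mul_mem ?_ (prod_mem fun i _ => ?_)
    · rw [c_eq_algebraMap, AlgHom.commutes]
      exact apCoef_C (Subring.closure_mono (by simp) (hs α))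
    · rw [map_pow]
      exact pow_mem (apCoef_mono (Subring.closure_mono (by simp)) (ht i (Finset.mem_univ _))) _
  · rw [← map_sub]
    exact ap_map_pow (τ : PS K d →+* PS K d') h N (sub_apTr_mem N f)

theorem ap_mem_pow_iff_order (f : PS K d) (N : ℕ) : f ∈ varIdeal K d ^ N ↔ (N : ℕ∞) ≤ f.order := by
  rw [mem_varIdeal_pow_iff]
  exact ⟨nat_le_order, fun h α hα => coeff_of_lt_order (lt_of_lt_of_le (by exact_mod_cast hα) h)⟩

theorem ap_cancel {g c : PS K d} {γ N : ℕ} (hg : g ∉ varIdeal K d ^ (γ + 1))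
    (h : g * c ∈ varIdeal K d ^ (N + γ)) : c ∈ varIdeal K d ^ N := by
  rw [ap_mem_pow_iff_order] at hg h ⊢
  rw [order_mul] at h
  have h1 : g.order ≤ γ := by
    rw [not_le, Nat.cast_add, Nat.cast_one] at hg
    exact Order.le_of_lt_add_one hg
  have h2 : (γ : ℕ∞) + N ≤ γ + c.order := by
    calc (γ : ℕ∞) + N = ((N + γ : ℕ) : ℕ∞) := by push_cast; ring
      _ ≤ _ := h
      _ ≤ _ := add_le_add_left h1 _
  exact (ENat.add_le_add_iff_left (ENat.natCast_ne_top γ)).mp h2

theorem ap_eq_zero {f : PS K d} (h : ∀ N, f ∈ varIdeal K d ^ N) : f = 0 := by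
  by_contra hf
  obtain ⟨γ, hγ⟩ := exists_notMem_varIdeal_pow hf
  exact hγ (h _)

theorem ap_fixed (Γ : Subring K) (G : PS K d → PS K d)
    (h1 : ∀ s ∈ apCoef d Γ, G s ∈ apCoef d Γ) (h0 : G 0 ∈ varIdeal K d)
    (h2 : ∀ n s t, s ∈ varIdeal K d → t ∈ varIdeal K d → s - t ∈ varIdeal K d ^ n →
      G s - G t ∈ varIdeal K d ^ (n + 1)) :
    ∃ t ∈ apCoef d Γ, t ∈ varIdeal K d ∧ G t = t := by
  let u : ℕ → PS K d := fun n => G^[n] 0
  have hu : ∀ n, u (n + 1) = G (u n) := fun n => Function.iterate_succ_apply' G n 0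
  have hG : ∀ s ∈ varIdeal K d, G s ∈ varIdeal K d := fun s hs => by
    have := h2 0 s 0 hs (zero_mem _) (by simp)
    rw [zero_add, pow_one] at this
    simpa using add_mem this h0
  have hum : ∀ n, u n ∈ varIdeal K d := fun n => by
    induction n with
    | zero => exact zero_mem _
    | succ n ih => rw [hu]; exact hG _ ih
  have huΓ : ∀ n, u n ∈ apCoef d Γ := fun n => by
    induction n with
    | zero => exact zero_mem _
    | succ n ih => rw [hu]; exact h1 _ ih
  have hd : ∀ n, u (n + 1) - u n ∈ varIdeal K d ^ n := fun n => by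
    induction n with
    | zero => simp
    | succ n ih => rw [hu (n + 1), hu n]; rw [hu n] at ih; exact h2 n _ _ (hG _ (hum n)) (hum n) ih
  have hd' : ∀ n k, u (n + k) - u n ∈ varIdeal K d ^ n := fun n k => by
    induction k with
    | zero => simp
    | succ k ih =>
      have : u (n + (k + 1)) - u n = (u (n + k + 1) - u (n + k)) + (u (n + k) - u n) := by
        rw [← add_assoc]; ring
      rw [this]
      exact add_mem (Ideal.pow_le_pow_right (Nat.le_add_right n k) (hd _)) ih
  let t : PS K d := fun α => coeff α (u (α.degree + 1))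
  have ht : ∀ n, t - u n ∈ varIdeal K d ^ n := fun n => by
    rw [mem_varIdeal_pow_iff]
    intro α hα
    obtain ⟨k, rfl⟩ := Nat.exists_eq_add_of_le (Nat.succ_le_of_lt hα)
    have := (mem_varIdeal_pow_iff _ _).mp (hd' (α.degree + 1) k) α (Nat.lt_succ_self _)
    rw [map_sub, sub_eq_zero] at this ⊢
    exact this.symm
  have htm : t ∈ varIdeal K d := by
    have := ht 1
    rw [pow_one] at this
    simpa using add_mem this (hum 1)
  refine ⟨t, apCoef_closed fun N => ⟨u N, huΓ N, ht N⟩, htm, ?_⟩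
  rw [← sub_eq_zero]
  refine ap_eq_zero fun N => ?_
  have e : G t - t = (G t - G (u N)) - (t - u (N + 1)) := by rw [hu]; ring
  rw [e]
  exact Ideal.pow_le_pow_right (Nat.le_succ N) (sub_mem (h2 N _ _ htm (hum N) (ht N)) (ht _))

theorem ap_newton (R : Polynomial (apFg K d)) (c : apFg K d) (hc : (c : PS K d) ∈ varIdeal K d) :
    ∃ t : apFg K d, (t : PS K d) ∈ varIdeal K d ∧ c + t + t ^ 2 * R.eval t = 0 := by
  classical
  obtain ⟨s, hs⟩ := apFg_common (Finset.range (R.natDegree + 1)) (fun i => (R.coeff i : PS K d))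
    fun i _ => (R.coeff i).2
  obtain ⟨s', hs'⟩ := c.2
  let R' := R.map (apFg K d).val.toRingHom
  have hR' : ∀ x ∈ apCoef d (Subring.closure ((s ∪ s' : Finset K) : Set K)),
      R'.eval x ∈ apCoef d (Subring.closure ((s ∪ s' : Finset K) : Set K)) := by
    intro x hx
    rw [Polynomial.eval_map, Polynomial.eval₂_eq_sum_range]
    exact sum_mem fun i hi => mul_mem (apCoef_mono (Subring.closure_mono (by simp)) (hs i hi))
      (pow_mem hx _)
  obtain ⟨t, ht1, ht2, ht3⟩ := ap_fixed (Subring.closure ((s ∪ s' : Finset K) : Set K))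
    (fun x => -(c : PS K d) - x ^ 2 * R'.eval x)
    (fun x hx => sub_mem (neg_mem (apCoef_mono (Subring.closure_mono (by simp)) hs'))
      (mul_mem (pow_mem hx _) (hR' x hx))) (by simpa using hc) (fun n x y hx hy hxy => by
      obtain ⟨k, hk⟩ := Polynomial.sub_dvd_eval_sub x y R'
      have e : -(c : PS K d) - x ^ 2 * R'.eval x - (-(c : PS K d) - y ^ 2 * R'.eval y) =
          (x - y) * (-(x + y) * R'.eval x - y * y * k) := by
        have : R'.eval y = R'.eval x - (x - y) * k := by rw [← hk]; ring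
        rw [this]; ring
      rw [e, pow_succ]
      exact Ideal.mul_mem_mul hxy (sub_mem (Ideal.mul_mem_right _ _ (neg_mem (add_mem hx hy)))
        (Ideal.mul_mem_right _ _ (Ideal.mul_mem_right _ _ hy))))
  refine ⟨⟨t, _, ht1⟩, ht2, Subtype.ext ?_⟩
  have e : ((R.eval ⟨t, _, ht1⟩ : apFg K d) : PS K d) = R'.eval t := by
    rw [Polynomial.eval_map]
    exact (Polynomial.eval₂_at_apply (apFg K d).val.toRingHom ⟨t, _, ht1⟩).symm
  push_cast
  rw [e]
  linear_combination -ht3

theorem ap_inv (u : apFg K d) (hu : IsUnit (u : PS K d)) : IsUnit u := by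
  have h0 : constantCoeff (u : PS K d) ≠ 0 := by
    rw [isUnit_iff_constantCoeff] at hu
    exact hu.ne_zero
  set a := constantCoeff (u : PS K d) with ha
  let w : apFg K d := algebraMap K _ a⁻¹ * u - 1
  have hw : (w : PS K d) ∈ varIdeal K d := by
    rw [varIdeal_eq_maximalIdeal, IsLocalRing.mem_maximalIdeal, mem_nonunits_iff,
      isUnit_iff_constantCoeff]
    simp [w, ← c_eq_algebraMap, ← ha, h0]
  obtain ⟨s, hs⟩ := w.2
  obtain ⟨t, ht1, -, ht3⟩ := ap_fixed (Subring.closure (s : Set K))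
    (fun x : PS K d => -(w : PS K d) - (w : PS K d) * x) (fun x hx => sub_mem (neg_mem hs) (mul_mem hs hx))
    (by simpa using hw) (fun n x y _ _ hxy => by
      have e : -(w : PS K d) - (w : PS K d) * x - (-(w : PS K d) - (w : PS K d) * y) =
          (x - y) * (-(w : PS K d)) := by ring
      rw [e, pow_succ]
      exact Ideal.mul_mem_mul hxy (neg_mem hw))
  have h1 : (1 + w) * (1 + (⟨t, _, ht1⟩ : apFg K d)) = 1 := by
    apply Subtype.ext
    push_cast
    linear_combination -ht3
  have h2 : u * (algebraMap K _ a⁻¹ * (1 + (⟨t, _, ht1⟩ : apFg K d))) = 1 := by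
    refine Eq.trans ?_ h1
    simp only [w]; ring
  exact IsUnit.of_mul_eq_one _ h2

theorem ap_aeval_sub {R S ι : Type*} [CommRing R] [CommRing S] [Algebra R S] (I : Ideal S)
    (v v' : ι → S) (h : ∀ i, v i - v' i ∈ I) (g : MvPolynomial ι R) :
    MvPolynomial.aeval v g - MvPolynomial.aeval v' g ∈ I := by
  rw [← Ideal.Quotient.eq]
  have : (Ideal.Quotient.mkₐ R I).comp (MvPolynomial.aeval v) =
      (Ideal.Quotient.mkₐ R I).comp (MvPolynomial.aeval v') :=
    MvPolynomial.algHom_ext fun i => by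
      simp only [AlgHom.comp_apply, MvPolynomial.aeval_X, Ideal.Quotient.mkₐ_eq_mk]
      exact Ideal.Quotient.eq.mpr (h i)
  exact DFunLike.congr_fun this g

end Vale.Agent.P202
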