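import Vale.Agent.P202.ApproxAux1

/-! A primitive element presentation of a finitely generated subalgebra, and the Newton step of
the approximation theorem. -/

namespace Vale.Agent.P202

open Polynomial

theorem ap_primitive {B A σ : Type*} [CommRing B] [IsDomain B] [IsIntegrallyClosed B] [CharZero B]
    [CommRing A] [IsDomain A] [Algebra B A] [FaithfulSMul B A] [Finite σ] (y : σ → A)
    (hy : ∀ j, IsAlgebraic B (y j)) :
    ∃ (z : A) (f : B[X]) (D : B) (P : σ → B[X]), aeval z f = 0 ∧ aeval z (derivative f) ≠ 0 ∧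
      D ≠ 0 ∧ (∀ j, algebraMap B A D * y j = aeval z (P j)) ∧ ∀ G, aeval z G = 0 → f ∣ G := by
  classical
  have := Fintype.ofFinite σ
  let F := FractionRing B
  let L := FractionRing A
  let _ : Algebra F L := FractionRing.liftAlgebra B L
  have hinj : Function.Injective (algebraMap A L) := IsFractionRing.injective A L
  let y' : σ → L := fun j => algebraMap A L (y j)
  have hy' : ∀ j, IsIntegral F (y' j) := fun j =>
    ((IsFractionRing.isAlgebraic_iff B F L).mp ((hy j).algebraMap)).isIntegral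
  let E := IntermediateField.adjoin F (Set.range y')
  have : FiniteDimensional F E :=
    IntermediateField.finiteDimensional_adjoin (by rintro _ ⟨j, rfl⟩; exact hy' j)
  obtain ⟨α, hα⟩ := Field.exists_primitive_element F E
  have hα1 : (α : L) ∈ Algebra.adjoin F (Set.range y') := by
    rw [← IntermediateField.adjoin_toSubalgebra_of_isAlgebraic
      (by rintro _ ⟨j, rfl⟩; exact (hy' j).isAlgebraic)]
    exact α.2
  obtain ⟨b, hb⟩ := multiple_mem_adjoin_of_mem_localization_adjoin (nonZeroDivisors B) F _ _ hα1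
  have hb' : (b : B) • (α : L) ∈ (IsScalarTower.toAlgHom B A L).range := by
    refine Algebra.adjoin_le ?_ hb
    rintro _ ⟨j, rfl⟩
    exact ⟨y j, rfl⟩
  obtain ⟨z₁, hz₁⟩ := hb'
  have hz₁' : algebraMap A L z₁ = (b : B) • (α : L) := hz₁
  have hαalg : IsAlgebraic B (α : L) := (IsFractionRing.isAlgebraic_iff B F L).mpr
    ((IsIntegral.of_finite F α).map E.val).isAlgebraic
  have hz₁alg : IsAlgebraic B z₁ := by
    rw [← isAlgebraic_algebraMap_iff hinj, hz₁']
    exact hαalg.smul _
  obtain ⟨b', hb'0, hint⟩ := hz₁alg.exists_integral_multiple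
  set z := b' • z₁ with hz
  have hzL : algebraMap A L z = algebraMap B F (b' * b) • (α : L) := by
    rw [hz, Algebra.smul_def, map_mul, hz₁', algebraMap_smul, mul_smul,
      ← IsScalarTower.algebraMap_apply, ← Algebra.smul_def]
  have hbb : algebraMap B F (b' * b) ≠ 0 :=
    (map_ne_zero_iff _ (IsFractionRing.injective B F)).mpr
      (mul_ne_zero hb'0 (nonZeroDivisors.ne_zero b.2))
  have hzint : IsIntegral F (algebraMap A L z) := (hint.algebraMap).tower_top
  have hmem : ∀ j, y' j ∈ Algebra.adjoin F {algebraMap A L z} := by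
    intro j
    rw [← IntermediateField.adjoin_simple_toSubalgebra_of_isAlgebraic hzint.isAlgebraic]
    have h1 : IntermediateField.adjoin F {(α : L)} = E := by
      have := congrArg (IntermediateField.map E.val) hα
      rwa [IntermediateField.adjoin_map, Set.image_singleton, ← AlgHom.fieldRange_eq_map,
        IntermediateField.fieldRange_val] at this
    have h2 : IntermediateField.adjoin F {(α : L)} ≤ IntermediateField.adjoin F
        {algebraMap A L z} := by
      rw [IntermediateField.adjoin_simple_le_iff]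
      have : (α : L) = (algebraMap B F (b' * b))⁻¹ • algebraMap A L z := by
        rw [hzL, smul_smul, inv_mul_cancel₀ hbb, one_smul]
      rw [this]
      exact IntermediateField.smul_mem _ (IntermediateField.mem_adjoin_simple_self _ _)
    have h3 : y' j ∈ E := IntermediateField.subset_adjoin F _ ⟨j, rfl⟩
    rw [← h1] at h3
    exact h2 h3
  have hP : ∀ j, ∃ (D : B) (P : B[X]), D ≠ 0 ∧ algebraMap B A D * y j = aeval z P := by
    intro j
    obtain ⟨D, hD⟩ := multiple_mem_adjoin_of_mem_localization_adjoin (nonZeroDivisors B) F _ _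
      (hmem j)
    rw [Algebra.adjoin_singleton_eq_range_aeval] at hD
    obtain ⟨P, hP⟩ := hD
    refine ⟨D, P, nonZeroDivisors.ne_zero D.2, hinj ?_⟩
    rw [map_mul, ← IsScalarTower.algebraMap_apply, ← Algebra.smul_def, ← aeval_algebraMap_apply]
    exact hP.symm
  choose D P hD hDP using hP
  refine ⟨z, minpoly B z, ∏ j, D j, fun j => C (∏ i ∈ Finset.univ.erase j, D i) * P j,
    minpoly.aeval B z, fun h => ?_, Finset.prod_ne_zero_iff.mpr fun j _ => hD j, fun j => ?_,
    fun G hG => minpoly.isIntegrallyClosed_dvd hint hG⟩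
  · have h1 := minpoly.isIntegrallyClosed_dvd hint h
    have h2 := minpoly.natDegree_pos hint
    have h3 : derivative (minpoly B z) = 0 :=
      eq_zero_of_dvd_of_natDegree_lt h1 (natDegree_derivative_lt h2.ne')
    exact h2.ne' (derivative_eq_zero.mp h3)
  · rw [map_mul, aeval_C, ← hDP, ← Finset.prod_erase_mul _ _ (Finset.mem_univ j), map_mul,
      mul_assoc]

theorem ap_presentation {K A σ : Type*} [Field K] [CharZero K] [CommRing A] [IsDomain A]
    [Algebra K A] [Finite σ] {d : ℕ} (x : Fin d → A) (hx : AlgebraicIndependent K x) (y : σ → A) :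
    ∃ (n : ℕ) (w : Fin n → A) (z : A) (f : (MvPolynomial (Fin d ⊕ Fin n) K)[X])
      (D : MvPolynomial (Fin d ⊕ Fin n) K) (P : σ → (MvPolynomial (Fin d ⊕ Fin n) K)[X]),
      f.eval₂ (MvPolynomial.aeval (Sum.elim x w)).toRingHom z = 0 ∧
      (derivative f).eval₂ (MvPolynomial.aeval (Sum.elim x w)).toRingHom z ≠ 0 ∧
      MvPolynomial.aeval (Sum.elim x w) D ≠ 0 ∧
      (∀ j, MvPolynomial.aeval (Sum.elim x w) D * y j =
        (P j).eval₂ (MvPolynomial.aeval (Sum.elim x w)).toRingHom z) ∧
      ∀ G : (MvPolynomial (Fin d ⊕ Fin n) K)[X],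
        G.eval₂ (MvPolynomial.aeval (Sum.elim x w)).toRingHom z = 0 → f ∣ G := by
  classical
  have : FaithfulSMul K A := inferInstance
  have h1 : (AlgebraicIndependent.matroid K A).Indep (Set.range x) :=
    AlgebraicIndependent.matroid_indep_iff.mpr hx.to_subtype_range
  obtain ⟨J, hJ, hxJ⟩ := h1.subset_isBasis_of_subset
    (Set.subset_union_left (t := Set.range y)) (Set.subset_univ _)
  have hfin : (J \ Set.range x).Finite :=
    (((Set.finite_range x).union (Set.finite_range y)).subset hJ.subset).subset Set.sdiff_subset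
  obtain ⟨n, w, hw⟩ := hfin.fin_embedding
  have hrange : Set.range (Sum.elim x w) = J := by
    rw [Set.Sum.elim_range, hw, Set.union_sdiff_cancel hxJ]
  have hinj : Function.Injective (Sum.elim x w) := by
    refine hx.injective.sumElim w.injective fun i j hij => ?_
    have : w j ∈ J \ Set.range x := hw ▸ Set.mem_range_self j
    exact this.2 ⟨i, hij⟩
  have hind : AlgebraicIndependent K (Sum.elim x w) := by
    rw [← algebraicIndependent_subtype_range hinj, hrange]
    exact AlgebraicIndependent.matroid_indep_iff.mp hJ.indep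
  let _ : Algebra (MvPolynomial (Fin d ⊕ Fin n) K) A :=
    (MvPolynomial.aeval (Sum.elim x w)).toRingHom.toAlgebra
  have : FaithfulSMul (MvPolynomial (Fin d ⊕ Fin n) K) A :=
    (faithfulSMul_iff_algebraMap_injective _ _).mpr hind
  have halg : ∀ j, IsAlgebraic (MvPolynomial (Fin d ⊕ Fin n) K) (y j) := by
    intro j
    have h2 : y j ∈ (AlgebraicIndependent.matroid K A).closure J :=
      hJ.subset_closure (Or.inr ⟨j, rfl⟩)
    rw [AlgebraicIndependent.matroid_closure_eq, SetLike.mem_coe,
      Subalgebra.mem_algebraicClosure, ← hrange] at h2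
    exact IsAlgebraic.ringHom_of_comp_eq (hind.aevalEquiv.symm : _ →+* _) (RingHom.id A) h2
      hind.aevalEquiv.symm.injective (by
        ext1 p
        obtain ⟨q, rfl⟩ := hind.aevalEquiv.surjective p
        simp [RingHom.algebraMap_toAlgebra])
  obtain ⟨z, f, D, P, h3, h4, h5, h6, h7⟩ := ap_primitive y halg
  exact ⟨n, w, z, f, D, P, h3, h4, fun h => h5 (hind (by rw [h, map_zero])), h6, h7⟩

theorem ap_homog {K B σ : Type*} [CommRing K] [CommRing B] [Algebra K B] {d : ℕ} (ξ : Fin d → B)
    (D : B) (P : σ → B) (g : MvPolynomial (Fin d ⊕ σ) K) :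
    ∃ (M : ℕ) (G : B), ∀ (A : Type _) [CommRing A] [Algebra K A] (φ : B →ₐ[K] A) (y : σ → A),
      (∀ j, φ D * y j = φ (P j)) →
        φ D ^ M * MvPolynomial.aeval (Sum.elim (fun i => φ (ξ i)) y) g = φ G := by
  induction g using MvPolynomial.induction_on with
  | C c => exact ⟨0, algebraMap K B c, fun A _ _ φ y _ => by simp⟩
  | add p q hp hq =>
    obtain ⟨M, G, h⟩ := hp
    obtain ⟨M', G', h'⟩ := hq
    refine ⟨M + M', D ^ M' * G + D ^ M * G', fun A _ _ φ y hy => ?_⟩
    simp only [map_add, map_mul, map_pow]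
    rw [← h A φ y hy, ← h' A φ y hy]
    ring
  | mul_X p j hp =>
    obtain ⟨M, G, h⟩ := hp
    rcases j with i | j
    · refine ⟨M, G * ξ i, fun A _ _ φ y hy => ?_⟩
      simp only [map_mul, MvPolynomial.aeval_X, Sum.elim_inl]
      rw [← h A φ y hy]
      ring
    · refine ⟨M + 1, G * P j, fun A _ _ φ y hy => ?_⟩
      simp only [map_mul, MvPolynomial.aeval_X, Sum.elim_inr]
      rw [← h A φ y hy, ← hy j]
      ring

theorem ap_taylor {R : Type*} [CommRing R] (f : R[X]) (z : R) :
    ∃ Q : R[X], ∀ s, f.eval (z + s) = f.eval z + (derivative f).eval z * s + s ^ 2 * Q.eval s := by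
  refine ⟨divX (divX (taylor z f)), fun s => ?_⟩
  have h1 := X_mul_divX_add (taylor z f)
  have h2 := X_mul_divX_add (divX (taylor z f))
  rw [coeff_divX, zero_add, taylor_coeff_one] at h2
  rw [taylor_coeff_zero] at h1
  have h3 := congrArg (eval s) h1
  have h4 := congrArg (eval s) h2
  simp only [eval_add, eval_mul, eval_X, eval_C] at h3 h4
  rw [add_comm z s, ← taylor_eval, ← h3, ← h4]
  ring

section Step

variable (K : Type*) [Field K] (d : ℕ)

/-- The variables as elements of `apFg`. -/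
noncomputable def apX (i : Fin d) : apFg K d := ⟨MvPowerSeries.X i, apFg_X i⟩

variable {K d} in
theorem ap_coe_aeval {σ : Type*} (v : σ → apFg K d) (g : MvPolynomial (Fin d ⊕ σ) K) :
    ((MvPolynomial.aeval (Sum.elim (apX K d) v) g : apFg K d) : PS K d) =
      MvPolynomial.aeval (Sum.elim MvPowerSeries.X fun j => (v j : PS K d)) g := by
  have : (apFg K d).val.comp (MvPolynomial.aeval (Sum.elim (apX K d) v)) =
      MvPolynomial.aeval (Sum.elim MvPowerSeries.X fun j => (v j : PS K d)) :=
    MvPolynomial.algHom_ext fun i => by rcases i with i | i <;> simp [apX]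
  exact DFunLike.congr_fun this g

variable {K d} in
theorem ap_aeval_close {σ : Type*} (v : σ → apFg K d) (y : σ → PS K d) {N : ℕ}
    (h : ∀ j, (v j : PS K d) - y j ∈ varIdeal K d ^ N) (g : MvPolynomial (Fin d ⊕ σ) K) :
    ((MvPolynomial.aeval (Sum.elim (apX K d) v) g : apFg K d) : PS K d) -
      MvPolynomial.aeval (Sum.elim MvPowerSeries.X y) g ∈ varIdeal K d ^ N := by
  rw [ap_coe_aeval]
  refine ap_aeval_sub _ _ _ ?_ g
  rintro (i | j)
  · simp
  · exact h j

/-- The approximation property. -/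
def ApP : Prop :=
  ∀ (σ : Type) [Fintype σ] (y : σ → PS K d) (F : Finset (MvPolynomial (Fin d ⊕ σ) K)),
    (∀ f ∈ F, MvPolynomial.aeval (Sum.elim MvPowerSeries.X y) f = 0) → ∀ N : ℕ,
      ∃ y' : σ → apFg K d, (∀ j, (y' j : PS K d) - y j ∈ varIdeal K d ^ N) ∧
        ∀ f ∈ F, MvPolynomial.aeval (Sum.elim (apX K d) y') f = 0

/-- Approximate solvability modulo a polynomial that does not vanish at the solution. -/
def ApQ : Prop :=
  ∀ (σ : Type) [Fintype σ] (y : σ → PS K d) (H : MvPolynomial (Fin d ⊕ σ) K)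
    (F : Finset (MvPolynomial (Fin d ⊕ σ) K)),
    MvPolynomial.aeval (Sum.elim MvPowerSeries.X y) H ≠ 0 →
    (∀ f ∈ F, MvPolynomial.aeval (Sum.elim MvPowerSeries.X y) f = 0) → ∀ N : ℕ,
      ∃ y' : σ → apFg K d, (∀ j, (y' j : PS K d) - y j ∈ varIdeal K d ^ N) ∧
        ∀ f ∈ F, MvPolynomial.aeval (Sum.elim (apX K d) y') H ∣
          MvPolynomial.aeval (Sum.elim (apX K d) y') f

variable {K d} in
theorem ApQ.strong (hQ : ApQ K d) (σ : Type) [Fintype σ] (y : σ → PS K d)
    (H : MvPolynomial (Fin d ⊕ σ) K) (F : Finset (MvPolynomial (Fin d ⊕ σ) K))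
    (hH : MvPolynomial.aeval (Sum.elim MvPowerSeries.X y) H ≠ 0)
    (hF : ∀ f ∈ F, MvPolynomial.aeval (Sum.elim MvPowerSeries.X y) f = 0) (N : ℕ) :
    ∃ y' : σ → apFg K d, (∀ j, (y' j : PS K d) - y j ∈ varIdeal K d ^ N) ∧
      MvPolynomial.aeval (Sum.elim (apX K d) y') H ≠ 0 ∧
        ∀ f ∈ F, ∃ c : apFg K d, (c : PS K d) ∈ varIdeal K d ^ N ∧
          MvPolynomial.aeval (Sum.elim (apX K d) y') f =
            MvPolynomial.aeval (Sum.elim (apX K d) y') H * c := by
  obtain ⟨γ, hγ⟩ := exists_notMem_varIdeal_pow hH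
  obtain ⟨y', h1, h2⟩ := hQ σ y H F hH hF (N + γ + 1)
  have h3 : ((MvPolynomial.aeval (Sum.elim (apX K d) y') H : apFg K d) : PS K d) ∉
      varIdeal K d ^ (γ + 1) := fun h => hγ (by
    have := sub_mem h (Ideal.pow_le_pow_right (by omega) (ap_aeval_close y' y h1 H))
    simpa using this)
  refine ⟨y', fun j => Ideal.pow_le_pow_right (by omega) (h1 j), fun h => h3 (by
    rw [h]; exact zero_mem _), fun f hf => ?_⟩
  obtain ⟨c, hc⟩ := h2 f hf
  refine ⟨c, ap_cancel h3 ?_, hc⟩
  have := ap_aeval_close y' y h1 f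
  rw [hF f hf, sub_zero, hc] at this
  exact Ideal.pow_le_pow_right (by omega) this

theorem ap_X_indep : AlgebraicIndependent K (MvPowerSeries.X : Fin d → PS K d) := by
  have : (MvPolynomial.aeval MvPowerSeries.X : MvPolynomial (Fin d) K →ₐ[K] PS K d) =
      MvPolynomial.coeToMvPowerSeries.algHom K :=
    MvPolynomial.algHom_ext fun i => by simp
  rw [AlgebraicIndependent, this]
  intro p q h
  simpa using h

variable {K d} in
theorem ap_newton_step {σ : Type*} (f : (apFg K d)[X]) (P : σ → (apFg K d)[X])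
    (z D c : apFg K d) (y c' : σ → apFg K d) {N : ℕ} (hN : 0 < N)
    (hc : (c : PS K d) ∈ varIdeal K d ^ N) (hc' : ∀ j, (c' j : PS K d) ∈ varIdeal K d ^ N)
    (hf : f.eval z = (derivative f).eval z ^ 2 * D * c)
    (hP : ∀ j, D * y j - (P j).eval z = (derivative f).eval z ^ 2 * D * c' j) :
    ∃ (z' : apFg K d) (y' : σ → apFg K d), f.eval z' = 0 ∧ (∀ j, D * y' j = (P j).eval z') ∧
      ∀ j, (y' j : PS K d) - y j ∈ varIdeal K d ^ N := by
  set δ := (derivative f).eval z with hδ
  obtain ⟨Q, hQ⟩ := ap_taylor f z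
  obtain ⟨t, ht1, ht2⟩ := ap_newton (C D * Q.comp (C (δ * D) * X)) c
    (Ideal.pow_le_self hN.ne' hc)
  simp only [eval_mul, eval_C, eval_comp, eval_X] at ht2
  have ht3 : (t : PS K d) ∈ varIdeal K d ^ N := by
    set q : apFg K d := D * Q.eval (δ * D * t)
    have h1 : (1 + (t : PS K d) * (q : PS K d)) * (t : PS K d) = -(c : PS K d) := by
      have := congrArg ((↑) : apFg K d → PS K d) ht2
      push_cast at this
      linear_combination this
    refine ap_cancel (γ := 0) (g := 1 + (t : PS K d) * (q : PS K d)) (fun h => ?_) (by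
      rw [h1]; exact neg_mem hc)
    rw [zero_add, pow_one] at h
    have h2 : (1 : PS K d) ∈ varIdeal K d := by
      simpa using sub_mem h (Ideal.mul_mem_right (q : PS K d) _ ht1)
    rw [varIdeal_eq_maximalIdeal] at h2
    exact (IsLocalRing.maximalIdeal.isMaximal _).ne_top ((Ideal.eq_top_iff_one _).mpr h2)
  choose k hk using fun j => sub_dvd_eval_sub (z + δ * D * t) z (P j)
  refine ⟨z + δ * D * t, fun j => y j - δ ^ 2 * c' j + δ * t * k j, ?_, fun j => ?_, fun j => ?_⟩
  · rw [hQ, hf]
    linear_combination δ ^ 2 * D * ht2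
  · linear_combination hP j - hk j
  · push_cast
    have e : (y j : PS K d) - δ ^ 2 * c' j + δ * t * k j - y j =
        (δ * k j : PS K d) * t - (δ ^ 2 : PS K d) * c' j := by ring
    rw [e]
    exact sub_mem (Ideal.mul_mem_left _ _ ht3) (Ideal.mul_mem_left _ _ (hc' j))

variable {K d} in
theorem ApQ.apP [CharZero K] (hQ : ApQ K d) : ApP K d := by
  classical
  intro σ _ y F hF N
  have : IsDomain (PS K d) := NoZeroDivisors.to_isDomain _
  obtain ⟨n, w, z, f, D, P, h1, h2, h3, h4, h5⟩ := ap_presentation _ (ap_X_indep K d) y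
  let θ : (MvPolynomial (Fin d ⊕ Fin n) K)[X] →ₐ[K]
      MvPolynomial (Fin d ⊕ (Fin n ⊕ Option σ)) K :=
    aevalTower (MvPolynomial.rename (Sum.map id Sum.inl)) (MvPolynomial.X (.inr (.inr none)))
  have hθ : ∀ {A : Type _} [CommRing A] [Algebra K A] (x : Fin d → A) (v : Fin n ⊕ Option σ → A)
      (p : (MvPolynomial (Fin d ⊕ Fin n) K)[X]), MvPolynomial.aeval (Sum.elim x v) (θ p) =
        aevalTower (MvPolynomial.aeval (Sum.elim x fun i => v (.inl i))) (v (.inr none)) p := by
    intro A _ _ x v p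
    have : (MvPolynomial.aeval (Sum.elim x v)).comp θ =
        aevalTower (MvPolynomial.aeval (Sum.elim x fun i => v (.inl i))) (v (.inr none)) := by
      refine Polynomial.algHom_ext' (MvPolynomial.algHom_ext fun i => ?_) ?_
      · rcases i with i | i <;> simp [θ]
      · simp [θ]
    exact DFunLike.congr_fun this p
  let v : Fin n ⊕ Option σ → PS K d := Sum.elim w fun o => o.elim z y
  have hv : ∀ p, MvPolynomial.aeval (Sum.elim MvPowerSeries.X v) (θ p) =
      p.eval₂ (MvPolynomial.aeval (Sum.elim MvPowerSeries.X w)).toRingHom z := fun p => hθ _ v p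
  let E : σ → MvPolynomial (Fin d ⊕ (Fin n ⊕ Option σ)) K := fun j =>
    θ (C D) * MvPolynomial.X (.inr (.inr (some j))) - θ (P j)
  obtain ⟨v', hv1, hv2, hv3⟩ := hQ.strong _ v (θ (derivative f) ^ 2 * θ (C D))
    (insert (θ f) (Finset.univ.image E)) (by
      rw [map_mul, map_pow, hv, hv, eval₂_C]
      exact mul_ne_zero (pow_ne_zero _ h2) h3) (by
      intro g hg
      rcases Finset.mem_insert.mp hg with rfl | hg
      · rw [hv, h1]
      · obtain ⟨j, -, rfl⟩ := Finset.mem_image.mp hg
        rw [map_sub, map_mul, hv, hv, eval₂_C, MvPolynomial.aeval_X, sub_eq_zero]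
        exact h4 j) (N + 1)
  let ρ : MvPolynomial (Fin d ⊕ Fin n) K →ₐ[K] apFg K d :=
    MvPolynomial.aeval (Sum.elim (apX K d) fun i => v' (.inl i))
  have hρ : ∀ (p : (MvPolynomial (Fin d ⊕ Fin n) K)[X]) (s : apFg K d),
      aevalTower ρ s p = (p.map ρ.toRingHom).eval s := fun p s => (eval_map _ _).symm
  have hv' : ∀ p, MvPolynomial.aeval (Sum.elim (apX K d) v') (θ p) =
      (p.map ρ.toRingHom).eval (v' (.inr none)) := fun p => (hθ _ v' p).trans (hρ p _)
  have hH : MvPolynomial.aeval (Sum.elim (apX K d) v') (θ (derivative f) ^ 2 * θ (C D)) =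
      (derivative (f.map ρ.toRingHom)).eval (v' (.inr none)) ^ 2 * ρ D := by
    rw [map_mul, map_pow, hv', hv', map_C, eval_C, derivative_map]; rfl
  rw [hH] at hv2 hv3
  obtain ⟨c, hc1, hc2⟩ := hv3 _ (Finset.mem_insert_self _ _)
  choose c' hc1' hc2' using fun j => hv3 (E j)
    (Finset.mem_insert_of_mem (Finset.mem_image_of_mem E (Finset.mem_univ j)))
  obtain ⟨z', y', h6, h7, h8⟩ := ap_newton_step (f.map ρ.toRingHom)
    (fun j => (P j).map ρ.toRingHom) (v' (.inr none)) (ρ D) c (fun j => v' (.inr (some j))) c'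
    (Nat.succ_pos N) hc1 hc1' (by rw [← hc2, hv']) (fun j => by
      rw [← hc2' j, map_sub, map_mul, hv', hv', map_C, eval_C, MvPolynomial.aeval_X]; rfl)
  refine ⟨y', fun j => ?_, fun g hg => ?_⟩
  · have := add_mem (h8 j) (hv1 (.inr (some j)))
    rw [sub_add_sub_cancel] at this
    exact Ideal.pow_le_pow_right (Nat.le_succ N) this
  · obtain ⟨M, G, hG⟩ := ap_homog (K := K) (fun i => C (MvPolynomial.X (Sum.inl i))) (C D) P g
    have h9 := hG _ (aevalTower (MvPolynomial.aeval (Sum.elim MvPowerSeries.X w)) z) y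
      (fun j => by rw [aevalTower_C]; exact h4 j)
    simp only [aevalTower_C, MvPolynomial.aeval_X, Sum.elim_inl] at h9
    rw [hF g hg, mul_zero] at h9
    obtain ⟨G', rfl⟩ := h5 G h9.symm
    have h10 := hG _ (aevalTower ρ z') y' (fun j => by rw [aevalTower_C, hρ]; exact h7 j)
    simp only [aevalTower_C, ρ, MvPolynomial.aeval_X, Sum.elim_inl] at h10
    rw [map_mul, hρ, h6, zero_mul] at h10
    exact (mul_eq_zero.mp h10).resolve_left (pow_ne_zero _ (right_ne_zero_of_mul hv2))

end Step

end Vale.Agent.P202
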