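import Vale.Agent.P202.ApproxAux2

/-! The Weierstrass step of the approximation theorem. -/

namespace Vale.Agent.P202

open Polynomial

section Gen

variable {R R' : Type*} [CommRing R] [CommRing R'] {r : ℕ}

/-- The polynomial of degree `< r` with the given coefficients. -/
noncomputable def apGen (v : Fin r → R) : R[X] := ∑ i, C (v i) * X ^ (i : ℕ)

theorem apGen_map (v : Fin r → R) (φ : R →+* R') : (apGen v).map φ = apGen fun i => φ (v i) := by
  simp [apGen, Polynomial.map_sum]

theorem apGen_monic (v : Fin r → R) : (X ^ r + apGen v).Monic :=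
  monic_X_pow_add (degree_sum_fin_lt v)

theorem apGen_coeff {p : R[X]} (h : p.degree < r) : apGen (fun i : Fin r => p.coeff i) = p := by
  ext k
  simp only [apGen, finsetSum_coeff, coeff_C_mul_X_pow]
  by_cases hk : k < r
  · rw [Finset.sum_eq_single ⟨k, hk⟩]
    · simp
    · intro b _ hb
      rw [if_neg fun h => hb (Fin.ext h.symm)]
    · simp
  · rw [coeff_eq_zero_of_degree_lt (h.trans_le (by exact_mod_cast not_lt.mp hk))]
    exact Finset.sum_eq_zero fun i _ => if_neg fun h : k = i => hk (h ▸ i.2)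

theorem apGen_monic_eq {p : R[X]} (h : p.Monic) :
    X ^ p.natDegree + apGen (fun i : Fin p.natDegree => p.coeff i) = p := by
  conv_rhs => rw [h.as_sum, Finset.sum_range]
  rfl

variable {K σ : Type*} [CommRing K] [Algebra K R] [Algebra K R'] {d : ℕ}

/-- Substitution of generic remainders for the unknowns. -/
noncomputable def apPhi (x : Fin d → R) (v : Option σ × Fin r → R) :
    MvPolynomial (Fin (d + 1) ⊕ σ) K →ₐ[K] R[X] :=
  MvPolynomial.aeval (Sum.elim (Fin.cases X fun i => C (x i)) fun j => apGen fun i => v (some j, i))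

theorem apPhi_map (x : Fin d → R) (v : Option σ × Fin r → R) (φ : R →ₐ[K] R')
    (g : MvPolynomial (Fin (d + 1) ⊕ σ) K) :
    (apPhi x v g).map φ.toRingHom = apPhi (fun i => φ (x i)) (fun i => φ (v i)) g := by
  have : (mapAlgHom φ).comp (apPhi x v) = apPhi (fun i => φ (x i)) (fun i => φ (v i)) := by
    refine MvPolynomial.algHom_ext fun i => ?_
    rcases i with i | j
    · induction i using Fin.cases <;> simp [apPhi]
    · simp [apPhi, apGen_map]
  exact DFunLike.congr_fun this g

theorem apPhi_tower (x : Fin d → R) (v : Option σ × Fin r → R) (ι : R →ₐ[K] R')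
    (x' : Fin (d + 1) → R') (h : ∀ i, ι (x i) = x' i.succ) (g : MvPolynomial (Fin (d + 1) ⊕ σ) K) :
    aevalTower ι (x' 0) (apPhi x v g) = MvPolynomial.aeval
      (Sum.elim x' fun j => aevalTower ι (x' 0) (apGen fun i => v (some j, i))) g := by
  have : (aevalTower ι (x' 0)).comp (apPhi x v) = MvPolynomial.aeval
      (Sum.elim x' fun j => aevalTower ι (x' 0) (apGen fun i => v (some j, i))) := by
    refine MvPolynomial.algHom_ext fun i => ?_
    rcases i with i | j
    · induction i using Fin.cases <;> simp [apPhi, h]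
    · simp [apPhi]
  exact DFunLike.congr_fun this g

end Gen

variable (K : Type*) [Field K] (d : ℕ)

/-- Inclusion of power series in the last `d` variables. -/
noncomputable def apIota : PS K d →ₐ[K] PS K (d + 1) :=
  (MvPowerSeries.finSuccEquiv K d).symm.toAlgHom.comp
    (IsScalarTower.toAlgHom K (PS K d) (PowerSeries (PS K d)))

theorem apIota_X (i : Fin d) : apIota K d (MvPowerSeries.X i) = MvPowerSeries.X i.succ := by
  apply (MvPowerSeries.finSuccEquiv K d).injective
  simp [apIota]

theorem ap_X_mem (i : Fin d) : (MvPowerSeries.X i : PS K d) ∈ varIdeal K d :=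
  Ideal.subset_span ⟨i, rfl⟩

/-- Evaluation of a polynomial over the smaller ring at the first variable. -/
noncomputable def apPsi : (PS K d)[X] →ₐ[K] PS K (d + 1) :=
  aevalTower (apIota K d) (MvPowerSeries.X 0)

theorem finSuccEquiv_apPsi (p : (PS K d)[X]) :
    MvPowerSeries.finSuccEquiv K d (apPsi K d p) = p := by
  have : ((MvPowerSeries.finSuccEquiv K d).toAlgHom.comp (apPsi K d)).toRingHom =
      coeToPowerSeries.ringHom := by
    refine Polynomial.ringHom_ext (fun a => ?_) ?_
    · simp [apPsi, apIota]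
    · simp [apPsi]
  exact DFunLike.congr_fun this p

/-- The inclusion on series with finitely generated coefficient ring. -/
noncomputable def apIotaB : apFg K d →ₐ[K] apFg K (d + 1) :=
  ((apIota K d).comp (apFg K d).val).codRestrict _ fun x =>
    ap_map_fg _ (fun i => by rw [apIota_X]; exact ap_X_mem K _ _)
      (fun i => by rw [apIota_X]; exact apFg_X _) x.2

theorem apIotaB_X (i : Fin d) : apIotaB K d (apX K d i) = apX K (d + 1) i.succ :=
  Subtype.ext (apIota_X K d i)

variable {K d}

theorem ap_gen_close {r N : ℕ} (v' : Fin r → apFg K d) (v : Fin r → PS K d)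
    (h : ∀ i, (v' i : PS K d) - v i ∈ varIdeal K d ^ N) :
    ((aevalTower (apIotaB K d) (apX K (d + 1) 0) (apGen v') : apFg K (d + 1)) : PS K (d + 1)) -
      apPsi K d (apGen v) ∈ varIdeal K (d + 1) ^ N := by
  simp only [apGen, apPsi, map_sum, map_mul, map_pow, aevalTower_C, aevalTower_X]
  push_cast
  rw [← Finset.sum_sub_distrib]
  refine sum_mem fun i _ => ?_
  have e : ((apIotaB K d (v' i) : apFg K (d + 1)) : PS K (d + 1)) = apIota K d (v' i) := rfl
  have e' : ((apX K (d + 1) 0 : apFg K (d + 1)) : PS K (d + 1)) = MvPowerSeries.X 0 := rfl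
  rw [e, e', ← sub_mul, ← map_sub]
  exact Ideal.mul_mem_right _ _ (ap_map_pow (apIota K d : PS K d →+* PS K (d + 1))
    (fun i => by rw [RingHom.coe_coe, apIota_X]; exact ap_X_mem K _ _) N (h i))

theorem ap_weierstrass (h : PS K (d + 1))
    (hreg : (MvPowerSeries.finSuccEquiv K d h).map (IsLocalRing.residue (PS K d)) ≠ 0) :
    ∃ (a : (PS K d)[X]) (u : PS K (d + 1)), a.Monic ∧ IsUnit u ∧ h = apPsi K d a * u ∧
      (∀ y, ∃ (q : PS K (d + 1)) (ρ : (PS K d)[X]), ρ.degree < a.natDegree ∧
        y = apPsi K d a * q + apPsi K d ρ) ∧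
      ∀ p, apPsi K d a ∣ apPsi K d p → a ∣ p := by
  have : IsAdicComplete (IsLocalRing.maximalIdeal (PS K d)) (PS K d) := by
    rw [← varIdeal_eq_maximalIdeal, varIdeal]; infer_instance
  obtain ⟨a, u, H⟩ := PowerSeries.exists_isWeierstrassFactorization hreg
  set e := MvPowerSeries.finSuccEquiv K d
  have hm := H.isDistinguishedAt.monic
  refine ⟨a, e.symm u, hm, H.isUnit.map e.symm, ?_, fun y => ?_, fun p hp => ?_⟩
  · apply e.injective
    rw [map_mul, finSuccEquiv_apPsi, AlgEquiv.apply_symm_apply, H.eq_mul]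
  · obtain ⟨p, hp⟩ := H.isDistinguishedAt.algEquivQuotient.surjective (Ideal.Quotient.mk _ (e y))
    obtain ⟨p, rfl⟩ := Ideal.Quotient.mk_surjective p
    have hp' : Ideal.Quotient.mk (Ideal.span {(a : PowerSeries (PS K d))})
        (coeToPowerSeries.algHom (PS K d) p) = Ideal.Quotient.mk _ (e y) := hp
    rw [eq_comm, Ideal.Quotient.eq, Ideal.mem_span_singleton'] at hp'
    obtain ⟨q, hq⟩ := hp'
    refine ⟨e.symm q + apPsi K d (p /ₘ a), p %ₘ a, ?_, ?_⟩
    · rw [← degree_eq_natDegree hm.ne_zero]; exact degree_modByMonic_lt p hm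
    · apply e.injective
      rw [mul_add, add_assoc, ← map_mul (apPsi K d), ← map_add (apPsi K d),
        add_comm (a * _), modByMonic_add_div, map_add, map_mul, finSuccEquiv_apPsi,
        finSuccEquiv_apPsi, AlgEquiv.apply_symm_apply, mul_comm, hq]
      simp
  · rw [← Ideal.mem_span_singleton, ← Ideal.Quotient.eq_zero_iff_mem]
    apply H.isDistinguishedAt.algEquivQuotient.injective
    rw [map_zero]
    show Ideal.Quotient.mk (Ideal.span {(a : PowerSeries (PS K d))})
        (coeToPowerSeries.algHom (PS K d) p) = 0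
    rw [Ideal.Quotient.eq_zero_iff_mem, Ideal.mem_span_singleton]
    have := map_dvd e hp
    rw [finSuccEquiv_apPsi, finSuccEquiv_apPsi] at this
    simpa using this

theorem ApP.regular (hP : ApP K d) (σ : Type) [Fintype σ] (y : σ → PS K (d + 1))
    (H : MvPolynomial (Fin (d + 1) ⊕ σ) K) (F : Finset (MvPolynomial (Fin (d + 1) ⊕ σ) K))
    (hreg : (MvPowerSeries.finSuccEquiv K d (MvPolynomial.aeval (Sum.elim MvPowerSeries.X y) H)).map
      (IsLocalRing.residue (PS K d)) ≠ 0)
    (hF : ∀ f ∈ F, MvPolynomial.aeval (Sum.elim MvPowerSeries.X y) f = 0) (N : ℕ) :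
    ∃ y' : σ → apFg K (d + 1), (∀ j, (y' j : PS K (d + 1)) - y j ∈ varIdeal K (d + 1) ^ N) ∧
      ∀ f ∈ F, MvPolynomial.aeval (Sum.elim (apX K (d + 1)) y') H ∣
        MvPolynomial.aeval (Sum.elim (apX K (d + 1)) y') f := by
  classical
  obtain ⟨a, u, hm, hu, hH, hdiv, huniq⟩ := ap_weierstrass _ hreg
  choose q ρ hρ hy using fun j => hdiv (y j)
  have ha0 : apPsi K d a ≠ 0 := fun h0 => hreg (by rw [hH, h0, zero_mul, map_zero, map_zero])
  obtain ⟨γ, hγ⟩ := exists_notMem_varIdeal_pow ha0
  set r := a.natDegree with hr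
  let v : Option σ × Fin r → PS K d := fun oi => (oi.1.elim a ρ).coeff oi.2
  have hva : X ^ r + apGen (fun i => v (none, i)) = a := apGen_monic_eq hm
  have hvρ : ∀ j, apGen (fun i => v (some j, i)) = ρ j := fun j => apGen_coeff (hρ j)
  let P := MvPolynomial (Fin d ⊕ (Option σ × Fin r)) K
  let rem : MvPolynomial (Fin (d + 1) ⊕ σ) K → P[X] := fun g =>
    apPhi (fun i => (MvPolynomial.X (.inl i) : P)) (fun i => (MvPolynomial.X (.inr i) : P)) g %ₘ
      (X ^ r + apGen fun i => (MvPolynomial.X (.inr (none, i)) : P))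
  have hrem : ∀ {R : Type _} [CommRing R] [Algebra K R] (x : Fin d → R)
      (w : Option σ × Fin r → R) (g : MvPolynomial (Fin (d + 1) ⊕ σ) K),
      (∀ c ∈ (rem g).coeffs, MvPolynomial.aeval (Sum.elim x w) c = 0) ↔
        X ^ r + apGen (fun i => w (none, i)) ∣ apPhi x w g := by
    intro R _ _ x w g
    rw [← modByMonic_eq_zero_iff_dvd (apGen_monic _)]
    have e : (rem g).map (MvPolynomial.aeval (R := K) (Sum.elim x w)).toRingHom =
        apPhi x w g %ₘ (X ^ r + apGen fun i => w (none, i)) := by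
      rw [map_modByMonic _ (apGen_monic _), apPhi_map, Polynomial.map_add, apGen_map]
      simp
    rw [← e, Polynomial.ext_iff]
    simp only [coeff_map, coeff_zero]
    constructor
    · intro h n
      by_cases h0 : (rem g).coeff n = 0
      · rw [h0, map_zero]
      · exact h _ (coeff_mem_coeffs h0)
    · intro h c hc
      obtain ⟨n, -, rfl⟩ := mem_coeffs_iff.mp hc
      exact h n
  obtain ⟨v', hv1, hv2⟩ := hP _ v ((insert H F).biUnion fun g => (rem g).coeffs) (by
    intro c hc
    obtain ⟨g, hg, hc⟩ := Finset.mem_biUnion.mp hc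
    refine (hrem MvPowerSeries.X v g).mpr ?_ c hc
    rw [hva]
    refine huniq _ ?_
    rw [apPsi, apPhi_tower _ _ _ MvPowerSeries.X (apIota_X K d), ← apPsi,
      ← Ideal.mem_span_singleton]
    have h1 := ap_aeval_sub (Ideal.span {apPsi K d a})
      (Sum.elim MvPowerSeries.X fun j => apPsi K d (apGen fun i => v (some j, i)))
      (Sum.elim MvPowerSeries.X y) (by
        rintro (i | j)
        · simp
        · simp only [Sum.elim_inr]
          rw [hvρ, hy j, Ideal.mem_span_singleton]
          exact ⟨-q j, by ring⟩) g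
    have h2 : MvPolynomial.aeval (Sum.elim MvPowerSeries.X y) g ∈ Ideal.span {apPsi K d a} := by
      rcases Finset.mem_insert.mp hg with rfl | hg
      · rw [hH]; exact Ideal.mul_mem_right _ _ (Ideal.mem_span_singleton_self _)
      · rw [hF g hg]; exact zero_mem _
    simpa using add_mem h1 h2) (N + γ + 1)
  let ψ := aevalTower (apIotaB K d) (apX K (d + 1) 0)
  let a' := ψ (X ^ r + apGen fun i => v' (none, i))
  let ρ' : σ → apFg K (d + 1) := fun j => ψ (apGen fun i => v' (some j, i))
  let y' : σ → apFg K (d + 1) := fun j => a' * ⟨apTr (N + γ + 1) (q j), apTr_mem _ _⟩ + ρ' j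
  have ha' : (a' : PS K (d + 1)) - apPsi K d a ∈ varIdeal K (d + 1) ^ (N + γ + 1) := by
    have h1 := ap_gen_close (fun i => v' (none, i)) (fun i => v (none, i)) fun i => hv1 _
    rw [← hva]
    simp only [a', ψ, apPsi, map_add, map_pow, aevalTower_X] at h1 ⊢
    push_cast
    rwa [show ((apX K (d + 1) 0 : apFg K (d + 1)) : PS K (d + 1)) = MvPowerSeries.X 0 from rfl,
      add_sub_add_left_eq_sub]
  have hy' : ∀ j, (y' j : PS K (d + 1)) - y j ∈ varIdeal K (d + 1) ^ (N + γ + 1) := by
    intro j
    have h1 := ap_gen_close (fun i => v' (some j, i)) (fun i => v (some j, i)) fun i => hv1 _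
    rw [hvρ] at h1
    have e : (y' j : PS K (d + 1)) - y j = ((a' : PS K (d + 1)) - apPsi K d a) *
        apTr (N + γ + 1) (q j) - apPsi K d a * (q j - apTr (N + γ + 1) (q j)) +
          ((ρ' j : PS K (d + 1)) - apPsi K d (ρ j)) := by
      simp only [y']
      push_cast
      rw [hy j]; ring
    rw [e]
    exact add_mem (sub_mem (Ideal.mul_mem_right _ _ ha')
      (Ideal.mul_mem_left _ _ (sub_apTr_mem _ _))) h1
  have hdvd : ∀ g ∈ insert H F, a' ∣ MvPolynomial.aeval (Sum.elim (apX K (d + 1)) y') g := by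
    intro g hg
    have h1 := map_dvd ψ ((hrem (apX K d) v' g).mp fun c hc =>
      hv2 c (Finset.mem_biUnion.mpr ⟨g, hg, hc⟩))
    rw [apPhi_tower _ _ _ (apX K (d + 1)) (apIotaB_X K d), ← Ideal.mem_span_singleton] at h1
    have h2 := ap_aeval_sub (Ideal.span {a'}) (Sum.elim (apX K (d + 1)) y')
      (Sum.elim (apX K (d + 1)) ρ') (by
        rintro (i | j)
        · simp
        · simp only [Sum.elim_inr, y', add_sub_cancel_right]
          exact Ideal.mul_mem_right _ _ (Ideal.mem_span_singleton_self _)) g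
    rw [← Ideal.mem_span_singleton]
    have h3 : _ + MvPolynomial.aeval (Sum.elim (apX K (d + 1)) ρ') g ∈ Ideal.span {a'} :=
      add_mem h2 h1
    rwa [sub_add_cancel] at h3
  obtain ⟨u', hu'⟩ := hdvd H (Finset.mem_insert_self _ _)
  have hunit : IsUnit u' := by
    refine ap_inv u' ?_
    have h1 := ap_aeval_close y' y hy' H
    rw [hu', hH] at h1
    have h2 : apPsi K d a * ((u' : PS K (d + 1)) - u) ∈ varIdeal K (d + 1) ^ (1 + γ) := by
      have e : apPsi K d a * ((u' : PS K (d + 1)) - u) = (((a' * u' : apFg K (d + 1)) :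
          PS K (d + 1)) - apPsi K d a * u) - ((a' : PS K (d + 1)) - apPsi K d a) * u' := by
        push_cast; ring
      rw [e]
      exact Ideal.pow_le_pow_right (by omega) (sub_mem h1 (Ideal.mul_mem_right _ _ ha'))
    have h3 := ap_cancel hγ h2
    rw [pow_one, varIdeal_eq_maximalIdeal] at h3
    by_contra h4
    have h5 : u ∈ IsLocalRing.maximalIdeal (PS K (d + 1)) := by
      simpa using sub_mem ((IsLocalRing.mem_maximalIdeal _).mpr h4) h3
    exact (IsLocalRing.mem_maximalIdeal _).mp h5 hu
  refine ⟨y', fun j => Ideal.pow_le_pow_right (by omega) (hy' j), fun f hf => ?_⟩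
  rw [hu', hunit.mul_right_dvd]
  exact hdvd f (Finset.mem_insert_of_mem hf)

end Vale.Agent.P202
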