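import Mathlib

/-! Quotients and the universal property of an adic completion along a finitely generated
ideal. -/

namespace Vale.Agent.P202

open IsLocalRing

section Completion

variable {K A : Type*} [CommRing K] [CommRing A] [Algebra K A] (J : Ideal A)

theorem compl_approx (hJ : J.FG) (N : ℕ) (y : AdicCompletion J A) :
    ∃ a : A, y - algebraMap A (AdicCompletion J A) a ∈
      (J ^ N).map (algebraMap A (AdicCompletion J A)) := by
  obtain ⟨a, ha⟩ := Submodule.Quotient.mk_surjective _ (y.1 N)
  refine ⟨a, ?_⟩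
  rw [← Submodule.restrictScalars_mem A, ← Ideal.smul_top_eq_map,
    AdicCompletion.pow_smul_top_eq_ker_eval hJ]
  rw [LinearMap.mem_ker, map_sub, sub_eq_zero, AdicCompletion.eval_apply, ← ha]
  rfl

theorem compl_comap_map (I : Ideal A) (N : ℕ) (hI : J ^ N ≤ I) (a : A)
    (ha : algebraMap A (AdicCompletion J A) a ∈ I.map (algebraMap A (AdicCompletion J A))) :
    a ∈ I := by
  let φ : AdicCompletion J A →+* A ⧸ I :=
    (Ideal.Quotient.factor hI).comp (AdicCompletion.evalₐ J N).toRingHom
  have hφ : ∀ x : A, φ (algebraMap A (AdicCompletion J A) x) = Ideal.Quotient.mk I x := by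
    intro x
    have : AdicCompletion.evalₐ J N (algebraMap A (AdicCompletion J A) x) =
        Ideal.Quotient.mk _ x := by
      rw [AlgHom.commutes]; rfl
    simp only [φ, RingHom.comp_apply, AlgHom.toRingHom_eq_coe, RingHom.coe_coe, this,
      Ideal.Quotient.factor_mk]
  have hle : I.map (algebraMap A (AdicCompletion J A)) ≤ RingHom.ker φ := by
    rw [Ideal.map_le_iff_le_comap]
    intro x hx
    rw [Ideal.mem_comap, RingHom.mem_ker, hφ, Ideal.Quotient.eq_zero_iff_mem]
    exact hx
  have := hle ha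
  rwa [RingHom.mem_ker, hφ, Ideal.Quotient.eq_zero_iff_mem] at this

theorem compl_quot_equiv (hJ : J.FG) (I : Ideal A) (N : ℕ) (hI : J ^ N ≤ I) :
    Nonempty ((A ⧸ I) ≃ₐ[K]
      (AdicCompletion J A ⧸ I.map (algebraMap A (AdicCompletion J A)))) := by
  let φ : A →ₐ[K] (AdicCompletion J A ⧸ I.map (algebraMap A (AdicCompletion J A))) :=
    (Ideal.Quotient.mkₐ K _).comp (IsScalarTower.toAlgHom K A (AdicCompletion J A))
  have hs : Function.Surjective φ := by
    intro y
    obtain ⟨y, rfl⟩ := Ideal.Quotient.mk_surjective y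
    obtain ⟨a, ha⟩ := compl_approx J hJ N y
    refine ⟨a, ?_⟩
    change Ideal.Quotient.mk _ (algebraMap A (AdicCompletion J A) a) = _
    rw [eq_comm, Ideal.Quotient.eq]
    exact Ideal.map_mono hI ha
  have hk : RingHom.ker φ = I := by
    ext a
    rw [RingHom.mem_ker]
    change Ideal.Quotient.mk _ (algebraMap A (AdicCompletion J A) a) = 0 ↔ _
    rw [Ideal.Quotient.eq_zero_iff_mem]
    exact ⟨compl_comap_map J I N hI a, fun h => Ideal.mem_map_of_mem _ h⟩
  exact ⟨(Ideal.quotientEquivAlgOfEq K hk.symm).trans (Ideal.quotientKerAlgEquivOfSurjective hs)⟩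

theorem compl_lift {S : Type*} [CommRing S] [Algebra K S] (n : Ideal S) [IsAdicComplete n S]
    (g : A →ₐ[K] S) (hg : J ≤ n.comap g) :
    ∃ G : AdicCompletion J A →ₐ[K] S, ∀ a : A, G (algebraMap A (AdicCompletion J A) a) = g a := by
  have hp : ∀ N : ℕ, J ^ N ≤ (n ^ N).comap g := fun N =>
    (Ideal.pow_right_mono hg N).trans (Ideal.le_comap_pow _ N)
  let f : (N : ℕ) → AdicCompletion J A →ₐ[K] S ⧸ n ^ N := fun N =>
    (Ideal.quotientMapₐ (n ^ N) g (hp N)).comp ((AdicCompletion.evalₐ J N).restrictScalars K)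
  have hf : ∀ {M N : ℕ} (hle : M ≤ N),
      (Ideal.Quotient.factorₐ K (Ideal.pow_le_pow_right hle)).comp (f N) = f M := by
    intro M N hle
    ext y
    induction y using AdicCompletion.induction_on with
    | _ y =>
      simp only [f, AlgHom.comp_apply, AlgHom.restrictScalars_apply, AdicCompletion.evalₐ_mk]
      rw [← AdicCompletion.Ideal.mk_eq_mk J hle y]
      rfl
  refine ⟨IsAdicComplete.liftAlgHom n f hf, fun a => ?_⟩
  have : (IsAdicComplete.liftAlgHom n f hf).comp (IsScalarTower.toAlgHom K A _) = g := by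
    apply IsAdicComplete.algHom_ext n
    intro N
    rw [← AlgHom.comp_assoc, IsAdicComplete.mkₐ_comp_liftAlgHom]
    ext x
    have h1 : AdicCompletion.evalₐ J N (algebraMap A (AdicCompletion J A) x) =
        Ideal.Quotient.mk _ x := by
      rw [AlgHom.commutes]; rfl
    simp only [f, AlgHom.comp_apply, AlgHom.restrictScalars_apply, IsScalarTower.toAlgHom_apply,
      h1]
    rfl
  exact congr($this a)

end Completion

end Vale.Agent.P202
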