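import Vale.Agent.P202.StepA
import Vale.Agent.P202.BaseChangeAux

/-! Extension of the coefficient field. -/

namespace Vale.Agent.P202

open IsLocalRing Filter Topology
open scoped TensorProduct

universe u

theorem IsCL.exists_baseChange {l T : Type u} [Field l] [CommRing T] [IsLocalRing T] [Algebra l T]
    (h : IsCL l T) (K : Type u) [Field K] [Algebra l K] :
    ∃ (T' : Type u) (_ : CommRing T') (_ : IsLocalRing T') (_ : Algebra K T') (f : T →+* T'),
      IsCL K T' ∧ (maximalIdeal T).map f = maximalIdeal T' ∧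
      (∀ a : l, f (algebraMap l T a) = algebraMap K T' (algebraMap l K a)) ∧
      (∀ (I : Ideal T) (N : ℕ), maximalIdeal T ^ N ≤ I →
        Module.finrank K (T' ⧸ I.map f) = Module.finrank l (T ⧸ I)) ∧
      ∀ (S : Type u) [CommRing S] [IsLocalRing S] [Algebra K S]
        [IsAdicComplete (maximalIdeal S) S] (g : T →+* S),
        (∀ x ∈ maximalIdeal T, g x ∈ maximalIdeal S) →
        (∀ a : l, g (algebraMap l T a) = algebraMap K S (algebraMap l K a)) →
        ∃ G : T' →ₐ[K] S, G.toRingHom.comp f = g := by
  let A := K ⊗[l] T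
  let i : T →ₐ[l] A := Algebra.TensorProduct.includeRight
  let J : Ideal A := (maximalIdeal T).map i
  have hJ : J.FG := h.fg.map i.toRingHom
  have hia : ∀ a : l, i (algebraMap l T a) = algebraMap K A (algebraMap l K a) := by
    intro a
    rw [AlgHom.commutes, ← IsScalarTower.algebraMap_apply]
  have hresA : ∀ x : A, ∃ a : K, x - algebraMap K A a ∈ J := by
    intro x
    induction x using TensorProduct.induction_on with
    | zero => exact ⟨0, by simp⟩
    | tmul c t =>
      obtain ⟨a, ha⟩ := h.res t
      refine ⟨c * algebraMap l K a, ?_⟩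
      have : (c ⊗ₜ[l] t : A) - algebraMap K A (c * algebraMap l K a) =
          algebraMap K A c * i (t - algebraMap l T a) := by
        rw [map_sub, hia, map_mul, mul_sub]
        congr 1
        simp [A, i, Algebra.TensorProduct.tmul_mul_tmul]
      rw [this]
      exact J.mul_mem_left _ (Ideal.mem_map_of_mem _ ha)
    | add x y hx hy =>
      obtain ⟨a, ha⟩ := hx
      obtain ⟨b, hb⟩ := hy
      refine ⟨a + b, ?_⟩
      have := J.add_mem ha hb
      rwa [map_add, add_sub_add_comm]
  have hquot : ∀ I : Ideal T, Module.finrank K (A ⧸ I.map i) = Module.finrank l (T ⧸ I) := by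
    intro I
    rw [← (Algebra.TensorProduct.tensorQuotientEquiv (R := l) K T K I).toLinearEquiv.finrank_eq,
      Module.finrank_baseChange]
  have hnt : Nontrivial (A ⧸ J) := by
    have e := (Algebra.TensorProduct.tensorQuotientEquiv (R := l) K T K (maximalIdeal T)).toEquiv
    have : Nontrivial (T ⧸ maximalIdeal T) := inferInstanceAs (Nontrivial (ResidueField T))
    have : Nontrivial (K ⊗[l] (T ⧸ maximalIdeal T)) := inferInstance
    exact e.symm.nontrivial
  have hmax : J.IsMaximal := by
    apply Ideal.Quotient.maximal_of_isField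
    have hb : Function.Bijective (algebraMap K (A ⧸ J)) := by
      refine ⟨RingHom.injective _, fun y => ?_⟩
      obtain ⟨y, rfl⟩ := Ideal.Quotient.mk_surjective y
      obtain ⟨a, ha⟩ := hresA y
      exact ⟨a, (Ideal.Quotient.eq.mpr ha).symm⟩
    exact (RingEquiv.ofBijective _ hb).symm.toMulEquiv.isField (Field.toIsField K)
  let B := AdicCompletion J A
  have hm' : (J.map (algebraMap A B)).IsMaximal :=
    AdicCompletion.isMaximal_map_of_le J J le_rfl hJ
  have hc : IsAdicComplete (J.map (algebraMap A B)) B := AdicCompletion.isAdicComplete_self J hJ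
  have hloc : IsLocalRing B := isLocalRing_of_isAdicComplete_maximal (J.map (algebraMap A B))
  have hmB : maximalIdeal B = J.map (algebraMap A B) := (IsLocalRing.eq_maximalIdeal hm').symm
  let f : T →+* B := (algebraMap A B).comp i.toRingHom
  have hmap : ∀ I : Ideal T, I.map f = (I.map i).map (algebraMap A B) := by
    intro I
    exact (Ideal.map_map i.toRingHom (algebraMap A B)).symm
  refine ⟨B, inferInstance, hloc, inferInstance, f, ⟨hmB ▸ hc, hmB ▸ hJ.map _, ?_⟩, ?_, ?_, ?_, ?_⟩
  · intro y
    obtain ⟨a, ha⟩ := compl_approx J hJ 1 y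
    obtain ⟨c, hc⟩ := hresA a
    refine ⟨c, ?_⟩
    rw [pow_one] at ha
    have h2 := Ideal.mem_map_of_mem (algebraMap A B) hc
    rw [map_sub, ← IsScalarTower.algebraMap_apply] at h2
    rw [hmB]
    have := Ideal.add_mem _ ha h2
    rwa [sub_add_sub_cancel] at this
  · rw [hmap, hmB]
  · intro a
    change algebraMap A B (i (algebraMap l T a)) = _
    rw [hia, ← IsScalarTower.algebraMap_apply]
  · intro I N hI
    have h1 : J ^ N ≤ I.map i := by
      rw [← Ideal.map_pow]
      exact Ideal.map_mono hI
    obtain ⟨e⟩ := compl_quot_equiv (K := K) J hJ (I.map i) N h1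
    rw [hmap, ← e.toLinearEquiv.finrank_eq, hquot]
  · intro S _ _ _ _ g hg hga
    let _ : Algebra l S := ((algebraMap K S).comp (algebraMap l K)).toAlgebra
    have : IsScalarTower l K S := IsScalarTower.of_algebraMap_eq fun _ => rfl
    let g' : T →ₐ[l] S := { g with commutes' := hga }
    let g0 : A →ₐ[K] S := Algebra.TensorProduct.lift (Algebra.ofId K S) g' fun _ _ => .all _ _
    have hg0 : ∀ t, g0 (i t) = g t := by
      intro t
      change g0 ((1 : K) ⊗ₜ[l] t) = g t
      rw [Algebra.TensorProduct.lift_tmul, map_one, one_mul]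
      rfl
    have hJg : J ≤ (maximalIdeal S).comap g0 := by
      rw [Ideal.map_le_iff_le_comap]
      intro x hx
      rw [Ideal.mem_comap, Ideal.mem_comap, hg0]
      exact hg x hx
    obtain ⟨G, hG⟩ := compl_lift J (maximalIdeal S) g0 hJg
    refine ⟨G, ?_⟩
    ext t
    change G (algebraMap A B (i t)) = g t
    rw [hG, hg0]

theorem len_quot_map_of_flat {T T' : Type*} [CommRing T] [IsLocalRing T] [CommRing T']
    [IsLocalRing T'] [Algebra T T'] [IsLocalHom (algebraMap T T')] [Module.Flat T T']
    (I : Ideal T) :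
    len T' (T' ⧸ I.map (algebraMap T T')) = len T (T ⧸ I) *
      len T' (T' ⧸ (maximalIdeal T).map (algebraMap T T')) := by
  unfold len
  rw [length_quot_map_eq, ENat.toNat_mul]

theorem len_quot_map_of_flat_of_eq {T T' : Type*} [CommRing T] [IsLocalRing T] [CommRing T']
    [IsLocalRing T'] [Algebra T T'] [IsLocalHom (algebraMap T T')] [Module.Flat T T']
    (h : (maximalIdeal T).map (algebraMap T T') = maximalIdeal T') (I : Ideal T) :
    len T' (T' ⧸ I.map (algebraMap T T')) = len T (T ⧸ I) := by
  rw [len_quot_map_of_flat, h]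
  have : IsSimpleModule T' (T' ⧸ maximalIdeal T') :=
    isSimpleModule_iff_quot_maximal.mpr ⟨maximalIdeal T', inferInstance, ⟨LinearEquiv.refl _ _⟩⟩
  have h1 : len T' (T' ⧸ maximalIdeal T') = 1 := by
    unfold len
    rw [Module.length_eq_one]
    rfl
  rw [h1, mul_one]

theorem isCL_of_section {T : Type*} [CommRing T] [IsLocalRing T]
    [IsAdicComplete (maximalIdeal T) T] (hfg : (maximalIdeal T).FG)
    (σ : ResidueField T →+* T) (hσ : ∀ a, residue T (σ a) = a) :
    letI := σ.toAlgebra
    IsCL (ResidueField T) T := by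
  let _ := σ.toAlgebra
  refine ⟨inferInstance, hfg, fun x => ⟨residue T x, ?_⟩⟩
  rw [← residue_eq_zero_iff, map_sub]
  change _ - residue T (σ _) = 0
  rw [hσ, sub_self]

/-- Reduction to a finite free map of complete local algebras over an algebraically closed
field. -/
theorem exists_finite_free_model (R S : Type u) [CommRing R] [IsLocalRing R] [IsNoetherianRing R]
    [CommRing S] [IsLocalRing S] [IsNoetherianRing S] [Algebra R S]
    [IsLocalHom (algebraMap R S)] [Module.Flat R S] [PerfectField (ResidueField R)]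
    (k : Type*) [Field k] [PerfectField k] (ι : k →+* R)
    (L : ℕ) (hL : maximalIdeal S ^ L ≤ (maximalIdeal R).map (algebraMap R S)) :
    ∃ (K : Type u) (_ : Field K) (R' : Type u) (_ : CommRing R') (_ : IsLocalRing R')
      (S' : Type u) (_ : CommRing S') (_ : IsLocalRing S') (_ : Algebra K R') (_ : Algebra K S')
      (_ : Algebra R' S') (f : S →+* S'),
      IsAlgClosed K ∧ Nonempty (k →+* K) ∧ IsScalarTower K R' S' ∧ IsCL K R' ∧ IsCL K S' ∧
      IsLocalHom (algebraMap R' S') ∧ Module.Free R' S' ∧ Module.Finite R' S' ∧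
      (∀ N : ℕ, len R' (R' ⧸ maximalIdeal R' ^ N) = len R (R ⧸ maximalIdeal R ^ N)) ∧
      (maximalIdeal S).map f = maximalIdeal S' ∧
      ∀ (I : Ideal S) (N : ℕ), maximalIdeal S ^ N ≤ I →
        Module.finrank K (S' ⧸ I.map f) = len S (S ⧸ I) := by
  obtain ⟨R1, _, _, _, cR, fR, lR, mR, rR, uR⟩ := exists_completion R
  obtain ⟨S1, _, _, _, cS, fS, lS, mS, -, -⟩ := exists_completion S
  have hRS : ∀ x ∈ maximalIdeal R, algebraMap R S x ∈ maximalIdeal S := fun x hx =>
    map_nonunit (algebraMap R S) x hx
  obtain ⟨H, hH⟩ := uR S1 ((algebraMap S S1).comp (algebraMap R S)) fun x hx => by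
    rw [← mS]; exact Ideal.mem_map_of_mem _ (hRS x hx)
  have hHm : ∀ x ∈ maximalIdeal R1, H x ∈ maximalIdeal S1 := by
    change maximalIdeal R1 ≤ (maximalIdeal S1).comap H
    rw [← mR, ← Ideal.map_le_iff_le_comap, Ideal.map_map, hH, Ideal.map_le_iff_le_comap]
    intro x hx
    rw [Ideal.mem_comap, ← mS]
    exact Ideal.mem_map_of_mem _ (hRS x hx)
  have hperf : PerfectField (ResidueField R1) := by
    have hb : Function.Bijective (ResidueField.map (algebraMap R R1)) := by
      refine ⟨RingHom.injective _, fun y => ?_⟩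
      obtain ⟨y, rfl⟩ := residue_surjective y
      obtain ⟨x, hx⟩ := rR y
      refine ⟨residue R x, ?_⟩
      rw [ResidueField.map_residue, eq_comm, ← sub_eq_zero, ← map_sub, residue_eq_zero_iff]
      exact hx
    exact PerfectField.of_ringEquiv (RingEquiv.ofBijective _ hb)
  obtain ⟨σR, hσR, -⟩ := exists_coeffField R1 k ((algebraMap R R1).comp ι)
  obtain ⟨σS, hσS, hσS'⟩ := exists_coeffField S1 (ResidueField R1) (H.comp σR)
  have fgR : (maximalIdeal R1).FG := mR ▸ (maximalIdeal R).fg_of_isNoetherianRing.map _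
  have fgS : (maximalIdeal S1).FG := mS ▸ (maximalIdeal S).fg_of_isNoetherianRing.map _
  let _ : Algebra (ResidueField R1) R1 := σR.toAlgebra
  let _ : Algebra (ResidueField S1) S1 := σS.toAlgebra
  have clR : IsCL (ResidueField R1) R1 := isCL_of_section fgR σR hσR
  have clS : IsCL (ResidueField S1) S1 := isCL_of_section fgS σS hσS
  let K := AlgebraicClosure (ResidueField S1)
  let j : ResidueField R1 →+* K :=
    (algebraMap (ResidueField S1) K).comp ((residue S1).comp (H.comp σR))
  let _ : Algebra (ResidueField R1) K := j.toAlgebra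
  obtain ⟨R', _, _, _, gR, clR', mR', aR', nR', uR'⟩ := clR.exists_baseChange K
  obtain ⟨S', _, _, _, gS, clS', mS', aS', nS', -⟩ := clS.exists_baseChange K
  have := clS'.complete
  obtain ⟨G, hG⟩ := uR' S' (gS.comp H)
    (fun x hx => by rw [← mS']; exact Ideal.mem_map_of_mem _ (hHm x hx))
    (fun a => by
      change gS ((H.comp σR) a) = algebraMap K S' (algebraMap (ResidueField S1) K _)
      rw [← aS', ← hσS']
      rfl)
  let _ : Algebra R' S' := G.toRingHom.toAlgebra
  have tow : IsScalarTower K R' S' := IsScalarTower.of_algebraMap_eq fun a => (G.commutes a).symm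
  let f : S →+* S' := gS.comp (algebraMap S S1)
  have hsq : (algebraMap R' S').comp (gR.comp (algebraMap R R1)) = f.comp (algebraMap R S) := by
    change G.toRingHom.comp _ = _
    rw [← RingHom.comp_assoc, hG, RingHom.comp_assoc, hH]
    rfl
  have mf : (maximalIdeal S).map f = maximalIdeal S' := by
    rw [← Ideal.map_map, mS, mS']
  have mRR : (maximalIdeal R).map (gR.comp (algebraMap R R1)) = maximalIdeal R' := by
    rw [← Ideal.map_map, mR, mR']
  have hext : ∀ I : Ideal R, (I.map (gR.comp (algebraMap R R1))).map (algebraMap R' S') =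
      (I.map (algebraMap R S)).map f := by
    intro I
    rw [Ideal.map_map, hsq, Ideal.map_map]
  have hloc : IsLocalHom (algebraMap R' S') := by
    apply ((IsLocalRing.local_hom_TFAE _).out 0 2).mpr
    rw [← mRR, hext, ← mf]
    exact Ideal.map_mono (Ideal.map_le_iff_le_comap.mpr hRS)
  have numS : ∀ (I : Ideal S) (N : ℕ), maximalIdeal S ^ N ≤ I →
      Module.finrank K (S' ⧸ I.map f) = len S (S ⧸ I) := by
    intro I N hI
    have h1 : maximalIdeal S1 ^ N ≤ I.map (algebraMap S S1) := by
      rw [← mS, ← Ideal.map_pow]; exact Ideal.map_mono hI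
    rw [← Ideal.map_map, nS' _ N h1, (finrank_eq_len _ S1 _ clS.res).1,
      len_quot_map_of_flat_of_eq mS]
  have numR : ∀ N : ℕ, Module.finrank K (R' ⧸ maximalIdeal R' ^ N) =
      len R (R ⧸ maximalIdeal R ^ N) := by
    intro N
    rw [← mR', ← Ideal.map_pow, nR' _ N le_rfl, (finrank_eq_len _ R1 _ clR.res).1, ← mR,
      ← Ideal.map_pow, len_quot_map_of_flat_of_eq mR]
  have hL' : maximalIdeal S' ^ L ≤ (maximalIdeal R').map (algebraMap R' S') := by
    rw [← mRR, hext, ← mf, ← Ideal.map_pow]
    exact Ideal.map_mono hL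
  obtain ⟨hfree, hfin⟩ := free_of_finrank clR' clS' L hL' (fun N => by
    have h1 : maximalIdeal S ^ (L * N) ≤ (maximalIdeal R ^ N).map (algebraMap R S) := by
      rw [pow_mul, Ideal.map_pow]
      exact Ideal.pow_right_mono hL N
    rw [numR, ← mRR, ← Ideal.map_pow, hext, hext, numS _ _ h1, numS _ _ hL, len_quot_map_of_flat])
  refine ⟨K, inferInstance, R', inferInstance, inferInstance, S', inferInstance, inferInstance,
    inferInstance, inferInstance, inferInstance, f, inferInstance,
    ⟨j.comp ((residue R1).comp ((algebraMap R R1).comp ι))⟩, tow, clR', clS', hloc, hfree, hfin,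
    fun N => ?_, mf, numS⟩
  rw [← numR, (finrank_eq_len K R' _ clR'.res).1]

end Vale.Agent.P202
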