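import Mathlib

/-! Coefficient fields of complete local rings containing a field. -/

namespace Vale.Agent.P202

open IsLocalRing Polynomial

section CharP

variable {B L : Type*} [CommRing B] [Field L] (p : ℕ) [hp : Fact p.Prime] [CharP B p]
  (π : B →+* L)

/-- A maximal subring containing the `p`-th powers on which `π` is injective maps onto `L`. -/
theorem surj_of_maximal (hπ : Function.Surjective π) (A : Subring B) (hA : ∀ b : B, b ^ p ∈ A)
    (hinj : ∀ b ∈ A, π b = 0 → b = 0)
    (hmax : ∀ A' : Subring B, A ≤ A' → (∀ b ∈ A', π b = 0 → b = 0) → A' ≤ A) (a : L) :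
    ∃ b ∈ A, π b = a := by
  by_contra hne
  push Not at hne
  have : Nontrivial B := π.domain_nontrivial
  have : CharP L p := by
    have h1 : (p : L) = 0 := by
      rw [← map_natCast π p, CharP.cast_eq_zero, map_zero]
    exact (CharP.charP_iff_prime_eq_zero hp.out).2 h1
  -- the image of `A` is a subfield
  let F : Subfield L :=
    { A.map π with
      inv_mem' := by
        rintro _ ⟨x, hx, rfl⟩
        by_cases h0 : π x = 0
        · rw [h0, inv_zero]; exact ⟨0, A.zero_mem, map_zero π⟩
        obtain ⟨y, hy⟩ := hπ (π x)⁻¹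
        refine ⟨x ^ (p - 1) * y ^ p, A.mul_mem (A.pow_mem hx _) (hA y), ?_⟩
        obtain ⟨q, hq⟩ : ∃ q, p = q + 1 := ⟨p - 1, by have := hp.out.pos; omega⟩
        rw [map_mul, map_pow, map_pow, hy]
        subst hq
        rw [Nat.add_sub_cancel, pow_succ, ← mul_assoc, ← mul_pow, mul_inv_cancel₀ h0, one_pow,
          one_mul] }
  have hF : ∀ x : A, π x ∈ F := fun x => ⟨x, x.2, rfl⟩
  let ρ : A →+* F := (π.comp A.subtype).codRestrict F hF
  have hρ : Function.Injective ρ := by
    rw [injective_iff_map_eq_zero]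
    intro x hx
    have : π x = 0 := congrArg Subtype.val hx
    exact Subtype.ext (hinj x x.2 this)
  obtain ⟨t, ht⟩ := hπ a
  let c : A := ⟨t ^ p, hA t⟩
  have hirr : Irreducible (X ^ p - C (ρ c) : F[X]) := by
    refine X_pow_sub_C_irreducible_of_prime hp.out ?_
    intro b hb
    have hb' : (b : L) ^ p = a ^ p := by
      have h : (b : L) ^ p = π (t ^ p) := congrArg Subtype.val hb
      rw [h, map_pow, ht]
    have hba : (b : L) = a := frobenius_inj L p (by simpa [frobenius_def] using hb')
    obtain ⟨x, hx, hx'⟩ := b.2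
    exact hne x hx (hx'.trans hba)
  have hmon : (X ^ p - C (ρ c) : F[X]).Monic := monic_X_pow_sub_C _ hp.out.ne_zero
  have hroot : aeval a (X ^ p - C (ρ c) : F[X]) = 0 := by
    simp only [map_sub, map_pow, aeval_X, aeval_C]
    change a ^ p - π (t ^ p) = 0
    rw [map_pow, ht, sub_self]
  have hmin : minpoly F a = X ^ p - C (ρ c) := (minpoly.eq_of_irreducible_of_monic hirr hroot hmon).symm
  have hmonA : (X ^ p - C c : A[X]).Monic := monic_X_pow_sub_C _ hp.out.ne_zero
  let A' : Subring B := (eval₂RingHom A.subtype t).range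
  have hle : A ≤ A' := fun x hx => ⟨C ⟨x, hx⟩, by simp⟩
  have hinj' : ∀ b ∈ A', π b = 0 → b = 0 := by
    rintro _ ⟨q, rfl⟩ hq
    have hr : eval₂ A.subtype t q = eval₂ A.subtype t (q %ₘ (X ^ p - C c)) := by
      conv_lhs => rw [← modByMonic_add_div q (X ^ p - C c)]
      simp [eval₂_add, eval₂_mul, eval₂_sub, eval₂_pow, c]
    simp only [coe_eval₂RingHom] at hq ⊢
    rw [hr] at hq ⊢
    set r := q %ₘ (X ^ p - C c) with hrdef
    have hdeg : r.degree < (p : WithBot ℕ) := by
      have := degree_modByMonic_lt q hmonA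
      rwa [degree_X_pow_sub_C hp.out.pos] at this
    have h1 : aeval a (r.map ρ) = 0 := by
      rw [aeval_def, eval₂_map, ← ht, ← hq, hom_eval₂]
      rfl
    have h2 : r.map ρ = 0 := by
      by_contra h3
      have h4 := minpoly.degree_le_of_ne_zero F a h3 h1
      rw [hmin, degree_X_pow_sub_C hp.out.pos] at h4
      exact absurd (h4.trans degree_map_le) (not_le.2 hdeg)
    rw [(Polynomial.map_eq_zero_iff hρ).1 h2, eval₂_zero]
  have htA : t ∈ A := hmax A' hle hinj' ⟨X, by simp⟩
  exact hne t htA ht

theorem exists_section_charP (hπ : Function.Surjective π)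
    (hsq : ∀ x : B, π x = 0 → x ^ 2 = 0) :
    ∃ σ : L →+* B, (∀ a, π (σ a) = a) ∧ ∀ b : B, σ (π (b ^ p)) = b ^ p := by
  let S : Set (Subring B) := {A | ∀ b ∈ A, π b = 0 → b = 0}
  let A0 : Subring B := (frobenius B p).range
  have hA0 : A0 ∈ S := by
    rintro _ ⟨b, rfl⟩ hb
    rw [frobenius_def] at hb ⊢
    rw [map_pow] at hb
    have h1 : π b = 0 := pow_eq_zero_iff hp.out.ne_zero |>.1 hb
    exact pow_eq_zero_of_le hp.out.two_le (hsq b h1)
  obtain ⟨A, hA0A, hAmax⟩ := zorn_le_nonempty₀ S (by
    intro c hcS hc y hy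
    refine ⟨sSup c, ?_, fun z hz => le_sSup hz⟩
    intro b hb hb0
    obtain ⟨A, hAc, hbA⟩ := (Subring.mem_sSup_of_directedOn ⟨y, hy⟩ hc.directedOn).1 hb
    exact hcS hAc b hbA hb0) A0 hA0
  have hA : ∀ b : B, b ^ p ∈ A := fun b => hA0A ⟨b, rfl⟩
  have hsurj := surj_of_maximal p π hπ A hA hAmax.prop
    (fun A' h1 h2 => hAmax.le_of_ge h2 h1)
  have hbij : Function.Bijective (π.comp A.subtype) := by
    constructor
    · rw [injective_iff_map_eq_zero]
      intro x hx
      exact Subtype.ext (hAmax.prop x x.2 hx)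
    · intro a
      obtain ⟨b, hb, hb'⟩ := hsurj a
      exact ⟨⟨b, hb⟩, hb'⟩
  let e : A ≃+* L := RingEquiv.ofBijective _ hbij
  refine ⟨A.subtype.comp e.symm.toRingHom, fun a => e.apply_symm_apply a, fun b => ?_⟩
  have : π (b ^ p) = e ⟨b ^ p, hA b⟩ := rfl
  rw [this]
  simp

end CharP

/-- Every extension field of a perfect field is formally smooth. -/
theorem formallySmooth_of_perfectField (k L : Type*) [Field k] [PerfectField k] [Field L]
    [Algebra k L] : Algebra.FormallySmooth k L := by
  obtain ⟨p, hp⟩ := ExpChar.exists k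
  rcases hp with _ | hp
  · obtain ⟨s, hs⟩ := exists_isTranscendenceBasis k L
    have : CharZero L := charZero_of_injective_algebraMap (algebraMap k L).injective
    have := hs.isAlgebraic_field
    exact Algebra.FormallySmooth.of_algebraicIndependent_of_isSeparable hs.1
  · have : Fact p.Prime := ⟨hp⟩
    refine Algebra.FormallySmooth.of_comp_surjective ?_
    intro B _ _ I hI f
    let B' : Subalgebra k (B × L) :=
      AlgHom.equalizer ((Ideal.Quotient.mkₐ k I).comp (AlgHom.fst k B L))
        (f.comp (AlgHom.snd k B L))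
    let π : B' →ₐ[k] L := (AlgHom.snd k B L).comp B'.val
    have hπ : Function.Surjective π := by
      intro a
      obtain ⟨b, hb⟩ := Ideal.Quotient.mk_surjective (f a)
      exact ⟨⟨(b, a), hb⟩, rfl⟩
    have : Nontrivial B' := π.toRingHom.domain_nontrivial
    have : CharP B' p := charP_of_injective_algebraMap (algebraMap k B').injective p
    obtain ⟨σ, h1, h2⟩ := exists_section_charP p π.toRingHom hπ (by
      rintro ⟨⟨b, a⟩, hba⟩ ha
      have ha' : a = 0 := ha
      subst ha'
      have hb : b ∈ I := by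
        have : Ideal.Quotient.mk I b = f 0 := hba
        rw [map_zero] at this
        exact Ideal.Quotient.eq_zero_iff_mem.1 this
      have hb2 : b ^ 2 = 0 := by
        have := Ideal.pow_mem_pow hb 2
        rwa [hI, Ideal.mem_bot] at this
      apply Subtype.ext
      ext
      · simpa using hb2
      · simp)
    have h3 : ∀ x : k, σ (algebraMap k L x) = algebraMap k B' x := by
      intro x
      obtain ⟨y, rfl⟩ := (bijective_frobenius k p).2 x
      have := h2 (algebraMap k B' y)
      rw [frobenius_def, map_pow, map_pow (algebraMap k B'), ← this]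
      congr 1
    let σ' : L →ₐ[k] B' := { σ with commutes' := h3 }
    refine ⟨((AlgHom.fst k B L).comp B'.val).comp σ', ?_⟩
    ext a
    have h4 : Ideal.Quotient.mk I (σ a).1.1 = f (σ a).1.2 := (σ a).2
    have h5 : (σ a).1.2 = a := h1 a
    rw [h5] at h4
    exact h4

theorem exists_coeffField (T : Type*) [CommRing T] [IsLocalRing T]
    [IsAdicComplete (maximalIdeal T) T] (k : Type*) [Field k] [PerfectField k] (ι : k →+* T) :
    ∃ σ : ResidueField T →+* T, (∀ a, residue T (σ a) = a) ∧
      ∀ x, σ (residue T (ι x)) = ι x := by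
  let : Algebra k T := ι.toAlgebra
  have := formallySmooth_of_perfectField k (ResidueField T)
  obtain ⟨g, hg⟩ := Algebra.FormallySmooth.exists_mkₐ_comp_eq_of_isAdicComplete
    (R := k) (A := ResidueField T) (I := maximalIdeal T) (AlgHom.id k (ResidueField T))
  refine ⟨g.toRingHom, fun a => ?_, fun x => ?_⟩
  · exact congrArg (fun h : ResidueField T →ₐ[k] T ⧸ maximalIdeal T => h a) hg
  · exact g.commutes x

end Vale.Agent.P202
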