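import Mathlib

/-! Auxiliary facts for `FrobRank`: the monomial basis of a power series ring over its
Frobenius image, and additivity of the rank after a flat base change. -/

namespace Vale.Agent.P202

open TensorProduct

universe u

section Basis

variable {K : Type*} [Field K] {d : ℕ}

/-- exponent vector attached to a function with values below `q`. -/
noncomputable def expo {q : ℕ} (α : Fin d → Fin q) : Fin d →₀ ℕ :=
  Finsupp.equivFunOnFinite.symm fun i => (α i : ℕ)

theorem expo_apply {q : ℕ} (α : Fin d → Fin q) (i : Fin d) : expo α i = α i := rfl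

theorem coeff_pow_q (p e : ℕ) [Fact p.Prime] [CharP K p] (f : MvPowerSeries (Fin d) K)
    (β : Fin d →₀ ℕ) :
    MvPowerSeries.coeff (p ^ e • β) (f ^ p ^ e) = (MvPowerSeries.coeff β f) ^ p ^ e := by
  have hp : p ≠ 0 := (Fact.out : p.Prime).ne_zero
  rw [← MvPowerSeries.map_iterateFrobenius_expand p hp f e, MvPowerSeries.coeff_map,
    MvPowerSeries.coeff_expand_smul, iterateFrobenius_def]

theorem coeff_pow_q_of_not_dvd (p e : ℕ) [Fact p.Prime] [CharP K p] (f : MvPowerSeries (Fin d) K)
    (γ : Fin d →₀ ℕ) (i : Fin d) (h : ¬ p ^ e ∣ γ i) :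
    MvPowerSeries.coeff γ (f ^ p ^ e) = 0 := by
  have hp : p ≠ 0 := (Fact.out : p.Prime).ne_zero
  rw [← MvPowerSeries.map_iterateFrobenius_expand p hp f e, MvPowerSeries.coeff_map,
    MvPowerSeries.coeff_expand_of_not_dvd _ _ _ h, map_zero]

theorem coeff_sum_pow_mul (p e : ℕ) [Fact p.Prime] [CharP K p]
    (g : (Fin d → Fin (p ^ e)) → MvPowerSeries (Fin d) K) (β : Fin d →₀ ℕ)
    (α₀ : Fin d → Fin (p ^ e)) :
    MvPowerSeries.coeff (p ^ e • β + expo α₀)
      (∑ α, g α ^ p ^ e * MvPowerSeries.monomial (expo α) (1 : K)) =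
      (MvPowerSeries.coeff β (g α₀)) ^ p ^ e := by
  classical
  rw [map_sum, Finset.sum_eq_single α₀]
  · rw [MvPowerSeries.coeff_mul_monomial, if_pos le_add_self, add_tsub_cancel_right, mul_one,
      coeff_pow_q]
  · intro α _ hα
    rw [MvPowerSeries.coeff_mul_monomial]
    split_ifs with hle
    · obtain ⟨i, hi⟩ : ∃ i, α i ≠ α₀ i := Function.ne_iff.mp hα
      rw [coeff_pow_q_of_not_dvd p e _ _ i, zero_mul]
      intro hd
      apply hi
      have h1 := hle i
      simp only [Finsupp.coe_tsub, Finsupp.coe_add, Finsupp.coe_smul, Pi.sub_apply, Pi.add_apply,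
        Pi.smul_apply, smul_eq_mul, expo_apply] at hd h1
      have h2 : (α i : ℕ) ≡ p ^ e * β i + α₀ i [MOD p ^ e] := (Nat.modEq_iff_dvd' h1).mpr hd
      have h3 : p ^ e * β i + α₀ i ≡ α₀ i [MOD p ^ e] := by
        unfold Nat.ModEq
        rw [Nat.mul_add_mod]
      exact Fin.ext (Nat.ModEq.eq_of_lt_of_lt (h2.trans h3) (α i).2 (α₀ i).2)
    · rfl
  · intro h
    exact absurd (Finset.mem_univ _) h

theorem exists_decomp {q : ℕ} (hq : 0 < q) (γ : Fin d →₀ ℕ) :
    ∃ (β : Fin d →₀ ℕ) (α : Fin d → Fin q), γ = q • β + expo α := by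
  refine ⟨Finsupp.equivFunOnFinite.symm fun i => γ i / q, fun i => ⟨γ i % q, Nat.mod_lt _ hq⟩, ?_⟩
  ext i
  simp only [Finsupp.coe_add, Finsupp.coe_smul, Pi.add_apply, Pi.smul_apply, smul_eq_mul,
    expo_apply, Finsupp.equivFunOnFinite_symm_apply_apply]
  exact (Nat.div_add_mod _ _).symm

theorem sum_pow_mul_eq_zero (p e : ℕ) [Fact p.Prime] [CharP K p]
    (g : (Fin d → Fin (p ^ e)) → MvPowerSeries (Fin d) K)
    (h : ∑ α, g α ^ p ^ e * MvPowerSeries.monomial (expo α) (1 : K) = 0) (α) : g α = 0 := by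
  ext β
  have := coeff_sum_pow_mul p e g β α
  rw [h, map_zero] at this
  rw [map_zero]
  exact pow_eq_zero_iff (pow_ne_zero e (Fact.out : p.Prime).ne_zero) |>.mp this.symm

theorem exists_sum_pow_mul (p e : ℕ) [Fact p.Prime] [CharP K p] [PerfectField K]
    (f : MvPowerSeries (Fin d) K) :
    ∃ g : (Fin d → Fin (p ^ e)) → MvPowerSeries (Fin d) K,
      ∑ α, g α ^ p ^ e * MvPowerSeries.monomial (expo α) (1 : K) = f := by
  have hsurj : ∀ a : K, ∃ b : K, b ^ p ^ e = a := fun a => by
    obtain ⟨b, hb⟩ := (iterateFrobeniusEquiv K p e).surjective a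
    exact ⟨b, by rw [← hb, iterateFrobeniusEquiv_def]⟩
  choose root hroot using hsurj
  obtain ⟨g, hg⟩ : ∃ g : (Fin d → Fin (p ^ e)) → MvPowerSeries (Fin d) K, ∀ α β,
      MvPowerSeries.coeff β (g α) = root (MvPowerSeries.coeff (p ^ e • β + expo α) f) :=
    ⟨fun α β => root (MvPowerSeries.coeff (p ^ e • β + expo α) f), fun _ _ => rfl⟩
  refine ⟨g, ?_⟩
  ext γ
  obtain ⟨β, α, rfl⟩ := exists_decomp (pow_pos (Fact.out : p.Prime).pos e) γ
  rw [coeff_sum_pow_mul, hg, hroot]

end Basis

section Rank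

theorem finrank_add_of_exact {P : Type*} [CommRing P] [IsDomain P] {M₁ M₂ M₃ : Type u}
    [AddCommGroup M₁] [Module P M₁] [AddCommGroup M₂] [Module P M₂] [AddCommGroup M₃] [Module P M₃]
    [Module.Finite P M₂] (f : M₁ →ₗ[P] M₂) (g : M₂ →ₗ[P] M₃) (hf : Function.Injective f)
    (hg : Function.Surjective g) (h : Function.Exact f g) :
    Module.finrank P M₂ = Module.finrank P M₁ + Module.finrank P M₃ := by
  rw [← Submodule.finrank_quotient_add_finrank (LinearMap.ker g),
    (g.quotKerEquivOfSurjective hg).finrank_eq, h.linearMap_ker_eq,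
    (LinearEquiv.ofInjective f hf).finrank_eq, add_comm]

variable (R S P : Type u) [CommRing R] [CommRing S] [CommRing P] [IsDomain P]
  [Algebra R S] [Algebra P S]

/-- rank over `P` after base change to `S`. -/
noncomputable def rkT (N : Type u) [AddCommGroup N] [Module R N] : ℕ :=
  Module.finrank P (S ⊗[R] N)

variable {R}

omit [IsDomain P] in
theorem finite_tensor [Module.Finite P S] (N : Type u) [AddCommGroup N] [Module R N]
    [Module.Finite R N] : Module.Finite P (S ⊗[R] N) :=
  Module.Finite.trans S _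

omit [IsDomain P] in
theorem rkT_congr {N N' : Type u} [AddCommGroup N] [Module R N] [AddCommGroup N'] [Module R N']
    (φ : N ≃ₗ[R] N') : rkT R S P N = rkT R S P N' :=
  ((φ.baseChange R S N N').restrictScalars P).finrank_eq

theorem rkT_add [Module.Flat R S] [Module.Finite P S] {N₁ N₂ N₃ : Type u}
    [AddCommGroup N₁] [Module R N₁] [AddCommGroup N₂] [Module R N₂] [AddCommGroup N₃] [Module R N₃]
    [Module.Finite R N₂] (f : N₁ →ₗ[R] N₂) (g : N₂ →ₗ[R] N₃) (hf : Function.Injective f)
    (hg : Function.Surjective g) (h : Function.Exact f g) :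
    rkT R S P N₂ = rkT R S P N₁ + rkT R S P N₃ := by
  have := finite_tensor S P N₂ (R := R)
  exact finrank_add_of_exact ((f.baseChange S).restrictScalars P)
    ((g.baseChange S).restrictScalars P)
    (Module.Flat.lTensor_preserves_injective_linearMap (M := S) f hf)
    (LinearMap.lTensor_surjective S hg) (Module.Flat.lTensor_exact S h)

theorem rkT_eq_zero [Module.Finite P S] {N : Type u} [AddCommGroup N] [Module R N]
    [Module.Finite R N] (c : R) (hc : ∀ x : N, c • x = 0)
    (hg : ∃ g : P, g ≠ 0 ∧ algebraMap P S g ∈ Ideal.span {algebraMap R S c}) :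
    rkT R S P N = 0 := by
  have := finite_tensor S P N (R := R)
  obtain ⟨g, hg0, hg⟩ := hg
  obtain ⟨s, hs⟩ := Ideal.mem_span_singleton'.mp hg
  unfold rkT
  rw [Module.finrank_eq_zero_iff]
  intro x
  refine ⟨g, hg0, ?_⟩
  induction x using TensorProduct.induction_on with
  | zero => exact smul_zero _
  | add x y hx hy => rw [smul_add, hx, hy, add_zero]
  | tmul t n =>
    rw [TensorProduct.smul_tmul', Algebra.smul_def, ← hs, mul_right_comm, mul_comm,
      ← Algebra.smul_def, TensorProduct.smul_tmul, hc, TensorProduct.tmul_zero]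

theorem rkT_pi [Module.Flat R S] [Module.Finite P S] (B : Type u) [AddCommGroup B] [Module R B]
    [Module.Finite R B] (r : ℕ) : rkT R S P (Fin r → B) = r * rkT R S P B := by
  induction r with
  | zero =>
    rw [zero_mul]
    exact rkT_eq_zero S P 1 (fun x => Subsingleton.elim _ _) ⟨1, one_ne_zero, by simp⟩
  | succ r ih =>
    rw [rkT_congr S P (Fin.consLinearEquiv R (fun _ : Fin (r + 1) => B)).symm,
      rkT_add S P (LinearMap.inl R B (Fin r → B)) (LinearMap.snd R B (Fin r → B))
        LinearMap.inl_injective LinearMap.snd_surjective Function.Exact.inl_snd, ih]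
    ring

/-- multiplicativity of `rkT` on modules over a domain. -/
theorem rkT_eq_mul [Module.Flat R S] [Module.Finite P S] (B M : Type u) [CommRing B]
    [Algebra R B] [Module.Finite R B] [AddCommGroup M] [Module B M] [Module R M]
    [IsScalarTower R B M] [Module.Finite B M] {r : ℕ} (v : Fin r → M)
    (hv : LinearIndependent B v) (c : R)
    (hc : ∀ x : M, c • x ∈ Submodule.span B (Set.range v))
    (hg : ∃ g : P, g ≠ 0 ∧ algebraMap P S g ∈ Ideal.span {algebraMap R S c}) :
    rkT R S P M = r * rkT R S P B := by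
  have : Module.Finite R M := Module.Finite.trans B M
  obtain ⟨f, hf, hr⟩ : ∃ f : (Fin r → B) →ₗ[B] M, Function.Injective f ∧
      LinearMap.range f = Submodule.span B (Set.range v) :=
    ⟨Fintype.linearCombination B v, hv.fintypeLinearCombination_injective,
      Fintype.range_linearCombination B v⟩
  obtain ⟨f', hf', hr'⟩ : ∃ f' : (Fin r → B) →ₗ[R] M, Function.Injective f' ∧
      ∀ x : M, c • x ∈ LinearMap.range f' := by
    refine ⟨f.restrictScalars R, hf, fun x => ?_⟩
    have := hc x
    rw [← hr] at this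
    exact this
  have h1 := rkT_add S P f' (LinearMap.range f').mkQ hf'
    (Submodule.mkQ_surjective _) (LinearMap.exact_map_mkQ_range f')
  have h2 : rkT R S P (M ⧸ LinearMap.range f') = 0 := by
    refine rkT_eq_zero S P c (fun x => ?_) hg
    obtain ⟨x, rfl⟩ := Submodule.mkQ_surjective _ x
    rw [← map_smul, Submodule.mkQ_apply, Submodule.Quotient.mk_eq_zero]
    exact hr' x
  rw [h1, h2, rkT_pi, add_zero]

end Rank

end Vale.Agent.P202
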