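import Vale.Agent.P202.GrowthPS
import Vale.Agent.P202.FrobRankAux

/-! Ranks after Frobenius base change. -/

namespace Vale.Agent.P202

open TensorProduct

universe u

/-- A copy of `R`, seen as an `R`-algebra through the `e`-th iterate of Frobenius. -/
def Frob (p e : ℕ) (R : Type u) : Type u := R

namespace Frob

variable (p e : ℕ) (R : Type u) [CommRing R]

instance : CommRing (Frob p e R) := ‹CommRing R›

/-- the identity map. -/
def toFrob : R ≃+* Frob p e R := RingEquiv.refl R

noncomputable instance [ExpChar R p] : Algebra R (Frob p e R) :=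
  ((toFrob p e R).toRingHom.comp (iterateFrobenius R p e)).toAlgebra

theorem algebraMap_apply [ExpChar R p] (x : R) :
    algebraMap R (Frob p e R) x = toFrob p e R (x ^ p ^ e) := by
  rw [← iterateFrobenius_def]; rfl

end Frob

theorem frob_basis (p e : ℕ) (A : Type u) [CommRing A] [Nontrivial A] [ExpChar A p] {ι : Type}
    [Fintype ι] (m : ι → A) (h0 : ∀ g : ι → A, ∑ α, g α ^ p ^ e * m α = 0 → ∀ α, g α = 0)
    (h1 : ∀ f : A, ∃ g : ι → A, ∑ α, g α ^ p ^ e * m α = f) :
    Module.Finite A (Frob p e A) ∧ Module.finrank A (Frob p e A) = Fintype.card ι := by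
  let v : ι → Frob p e A := fun α => Frob.toFrob p e _ (m α)
  have hsum : ∀ g : ι → A, ∑ α, g α • v α = Frob.toFrob p e _ (∑ α, g α ^ p ^ e * m α) := by
    intro g
    rw [map_sum]
    refine Finset.sum_congr rfl fun α _ => ?_
    rw [Algebra.smul_def, Frob.algebraMap_apply, map_mul]
  have hli : LinearIndependent A v := by
    rw [Fintype.linearIndependent_iff]
    intro g hg
    rw [hsum, map_eq_zero_iff _ (Frob.toFrob p e _).injective] at hg
    exact h0 g hg
  have hsp : ⊤ ≤ Submodule.span A (Set.range v) := by
    intro x _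
    obtain ⟨f, rfl⟩ := (Frob.toFrob p e A).surjective x
    obtain ⟨g, rfl⟩ := h1 f
    rw [← hsum]
    exact Submodule.sum_mem _ fun α _ => Submodule.smul_mem _ _ (Submodule.subset_span ⟨α, rfl⟩)
  let b := Module.Basis.mk hli hsp
  exact ⟨Module.Finite.of_basis b, Module.finrank_eq_card_basis b⟩

section PSFrob

variable (p e : ℕ) [Fact p.Prime] (K : Type u) [Field K] [CharP K p] (d : ℕ)

theorem expChar_PS : ExpChar (PS K d) p :=
  haveI : ExpChar K p := ExpChar.prime Fact.out
  expChar_of_injective_ringHom (f := (MvPowerSeries.C : K →+* PS K d))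
    MvPowerSeries.C_injective p

theorem frob_PS [PerfectField K] [ExpChar (PS K d) p] :
    Module.Finite (PS K d) (Frob p e (PS K d)) ∧
      Module.finrank (PS K d) (Frob p e (PS K d)) = (p ^ e) ^ d := by
  have h := frob_basis p e (PS K d)
    (fun α : Fin d → Fin (p ^ e) => MvPowerSeries.monomial (expo α) (1 : K))
    (sum_pow_mul_eq_zero p e) (exists_sum_pow_mul p e)
  refine ⟨h.1, h.2.trans ?_⟩
  simp

end PSFrob

section Tower

variable (p e : ℕ) (A B : Type u) [CommRing A] [CommRing B] [ExpChar A p] [ExpChar B p]
  [Algebra A B]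

/-- the structure map between the Frobenius copies. -/
noncomputable abbrev frobAlg : Algebra (Frob p e A) (Frob p e B) :=
  inferInstanceAs (Algebra A B)

/-- `A` acting on the Frobenius copy of `B`. -/
noncomputable abbrev frobAlg' : Algebra A (Frob p e B) :=
  ((algebraMap B (Frob p e B)).comp (algebraMap A B)).toAlgebra

omit [ExpChar A p] in
theorem frob_tower₁ : letI := frobAlg' p e A B; IsScalarTower A B (Frob p e B) :=
  letI := frobAlg' p e A B
  IsScalarTower.of_algebraMap_eq fun _ => rfl

theorem frob_tower₂ : letI := frobAlg' p e A B; letI := frobAlg p e A B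
    IsScalarTower A (Frob p e A) (Frob p e B) :=
  letI := frobAlg' p e A B
  letI := frobAlg p e A B
  IsScalarTower.of_algebraMap_eq fun x => by
    change algebraMap B (Frob p e B) (algebraMap A B x) = _
    rw [Frob.algebraMap_apply, Frob.algebraMap_apply, ← map_pow]
    rfl

theorem frob_finite [Module.Finite A B] [Module.Finite A (Frob p e A)] :
    Module.Finite B (Frob p e B) := by
  let := frobAlg' p e A B
  let := frobAlg p e A B
  have := frob_tower₁ p e A B
  have := frob_tower₂ p e A B
  have : Module.Finite (Frob p e A) (Frob p e B) := inferInstanceAs (Module.Finite A B)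
  have : Module.Finite A (Frob p e B) := Module.Finite.trans (Frob p e A) _
  exact Module.Finite.of_restrictScalars_finite A _ _

theorem frob_finrank [IsDomain B] [Module.Finite A B]
    (hinj : Function.Injective (algebraMap A B)) :
    Module.finrank B (Frob p e B) = Module.finrank A (Frob p e A) := by
  let := frobAlg' p e A B
  let := frobAlg p e A B
  have := frob_tower₁ p e A B
  have := frob_tower₂ p e A B
  have : IsDomain A := hinj.isDomain _
  have : IsDomain (Frob p e B) := ‹IsDomain B›
  have hF : FaithfulSMul A B := (faithfulSMul_iff_algebraMap_injective A B).mpr hinj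
  have : FaithfulSMul (Frob p e A) (Frob p e B) :=
    (faithfulSMul_iff_algebraMap_injective _ _).mpr hinj
  have : FaithfulSMul B (Frob p e B) := by
    rw [faithfulSMul_iff_algebraMap_injective, injective_iff_map_eq_zero]
    intro x hx
    rw [Frob.algebraMap_apply, map_eq_zero_iff _ (Frob.toFrob p e B).injective] at hx
    exact pow_eq_zero_iff (pow_ne_zero e (expChar_pos B p).ne') |>.mp hx
  have h1 := Module.finrank_mul_finrank' (R := A) (S := B) (Frob p e B)
  have h2 := Module.finrank_mul_finrank' (R := A) (S := Frob p e A) (Frob p e B)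
  have h3 : Module.finrank (Frob p e A) (Frob p e B) = Module.finrank A B := rfl
  have h4 : 0 < Module.finrank A B := Module.finrank_pos
  rw [h3, ← h1, mul_comm] at h2
  exact (Nat.eq_of_mul_eq_mul_left h4 h2).symm

end Tower

/-- A copy of the module `N`, with scalars acting through the `e`-th iterate of Frobenius. -/
def FrobMod (p e : ℕ) (R N : Type u) : Type u := N

namespace FrobMod

variable (p e : ℕ) (R : Type u) [CommRing R] [ExpChar R p] (N : Type u) [AddCommGroup N]
  [Module R N]

instance : AddCommGroup (FrobMod p e R N) := ‹AddCommGroup N›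

noncomputable instance : Module R (FrobMod p e R N) :=
  Module.compHom N (iterateFrobenius R p e)

/-- the identity map. -/
def toMod : N ≃+ FrobMod p e R N := AddEquiv.refl N

theorem smul_toMod (r : R) (x : N) : r • toMod p e R N x = toMod p e R N (r ^ p ^ e • x) := by
  rw [← iterateFrobenius_def]; rfl

theorem finite [Module.Finite R (Frob p e R)] [Module.Finite R N] :
    Module.Finite R (FrobMod p e R N) := by
  let : Module (Frob p e R) (FrobMod p e R N) := ‹Module R N›
  have : IsScalarTower R (Frob p e R) (FrobMod p e R N) :=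
    IsScalarTower.of_algebraMap_smul fun _ _ => rfl
  have : Module.Finite (Frob p e R) (FrobMod p e R N) := ‹Module.Finite R N›
  exact Module.Finite.trans (Frob p e R) _

variable {R N} {N' : Type u} [AddCommGroup N'] [Module R N']

/-- functoriality. -/
def map (f : N →ₗ[R] N') : FrobMod p e R N →ₗ[R] FrobMod p e R N' where
  toFun := f
  map_add' := f.map_add
  map_smul' r x := f.map_smul (iterateFrobenius R p e r) x

/-- functoriality for isomorphisms. -/
noncomputable def mapEquiv (f : N ≃ₗ[R] N') : FrobMod p e R N ≃ₗ[R] FrobMod p e R N' :=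
  LinearEquiv.ofBijective (map p e f.toLinearMap) f.bijective

end FrobMod

theorem rkT_frobMod_quot (p e : ℕ) (A R S P : Type u) [CommRing A] [IsDomain A] [CommRing R]
    [CommRing S] [CommRing P] [IsDomain P] [ExpChar A p] [ExpChar R p] [Algebra A R]
    [Module.Finite A R] [Module.Finite A (Frob p e A)]
    [Algebra R S] [Module.Flat R S] [Algebra P S] [Module.Finite P S]
    (htors : ∀ c : A, c ≠ 0 → ∃ g : P, g ≠ 0 ∧
      algebraMap P S g ∈ Ideal.span {algebraMap R S (algebraMap A R c)})
    (B : Type u) [CommRing B] [IsDomain B] [Algebra R B] [Module.Finite R B] :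
    rkT R S P (FrobMod p e R B) = Module.finrank A (Frob p e A) * rkT R S P B := by
  have := frob_finite p e A R
  have := FrobMod.finite p e R B
  let : Algebra A B := ((algebraMap R B).comp (algebraMap A R)).toAlgebra
  have : IsScalarTower A R B := IsScalarTower.of_algebraMap_eq fun _ => rfl
  by_cases hinj : Function.Injective (algebraMap A B)
  · have : Module.Finite A B := Module.Finite.trans R B
    have : ExpChar B p := expChar_of_injective_algebraMap hinj p
    have := frob_finite p e A B
    let := frobAlg' p e R B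
    have := frob_tower₁ p e R B
    have φ : FrobMod p e R B ≃ₗ[R] Frob p e B :=
      { (FrobMod.toMod p e R B).symm.trans (Frob.toFrob p e B).toAddEquiv with
        map_smul' := fun r x => by
          obtain ⟨x, rfl⟩ := (FrobMod.toMod p e R B).surjective x
          rw [FrobMod.smul_toMod, RingHom.id_apply, Algebra.smul_def (A := Frob p e B)]
          change Frob.toFrob p e B (r ^ p ^ e • x) =
            algebraMap B (Frob p e B) (algebraMap R B r) * Frob.toFrob p e B x
          rw [Frob.algebraMap_apply, ← map_mul, Algebra.smul_def, map_pow] }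
    obtain ⟨v, g, hv, hg0, hg⟩ := exists_free_part B (Frob p e B)
    have : FaithfulSMul A B := (faithfulSMul_iff_algebraMap_injective A B).mpr hinj
    obtain ⟨c, hc0, b, hb⟩ := (Algebra.IsAlgebraic.isAlgebraic (R := A) g).exists_nonzero_dvd
      (mem_nonZeroDivisors_of_ne_zero hg0)
    rw [rkT_congr S P φ, rkT_eq_mul S P B (Frob p e B) v hv (algebraMap A R c) ?_ (htors c hc0),
      frob_finrank p e A B hinj]
    intro x
    rw [← algebraMap_smul B, ← IsScalarTower.algebraMap_apply, hb, mul_comm, mul_smul]
    exact Submodule.smul_mem _ _ (hg x)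
  · rw [injective_iff_map_eq_zero] at hinj
    push Not at hinj
    obtain ⟨c, hc, hc0⟩ := hinj
    have hk : ∀ x : B, algebraMap A R c • x = 0 := fun x => by
      rw [Algebra.smul_def, ← IsScalarTower.algebraMap_apply, hc, zero_mul]
    rw [rkT_eq_zero S P (N := B) _ hk (htors c hc0), mul_zero]
    refine rkT_eq_zero S P _ (fun x => ?_) (htors c hc0)
    obtain ⟨x, rfl⟩ := (FrobMod.toMod p e R B).surjective x
    obtain ⟨k, hk'⟩ := Nat.exists_eq_succ_of_ne_zero (pow_ne_zero e (expChar_pos R p).ne')
    rw [FrobMod.smul_toMod, hk', pow_succ, mul_smul, hk, smul_zero, map_zero]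

theorem rkT_frobMod (p e : ℕ) (A R S P : Type u) [CommRing A] [IsDomain A] [IsNoetherianRing A]
    [CommRing R] [CommRing S] [CommRing P] [IsDomain P] [ExpChar A p] [ExpChar R p] [Algebra A R]
    [Module.Finite A R] [Module.Finite A (Frob p e A)]
    [Algebra R S] [Module.Flat R S] [Algebra P S] [Module.Finite P S]
    (htors : ∀ c : A, c ≠ 0 → ∃ g : P, g ≠ 0 ∧
      algebraMap P S g ∈ Ideal.span {algebraMap R S (algebraMap A R c)})
    (N : Type u) [AddCommGroup N] [Module R N] [hN : Module.Finite R N] :
    rkT R S P (FrobMod p e R N) = Module.finrank A (Frob p e A) * rkT R S P N := by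
  have : IsNoetherianRing R := IsNoetherianRing.of_finite A R
  have := frob_finite p e A R
  induction hN using IsNoetherianRing.induction_on_isQuotientEquivQuotientPrime R with
  | subsingleton N =>
    have := FrobMod.finite p e R N
    have : Subsingleton (FrobMod p e R N) := ‹Subsingleton N›
    rw [rkT_eq_zero S P (N := N) 1 (fun x => Subsingleton.elim _ _) ⟨1, one_ne_zero, by simp⟩,
      rkT_eq_zero S P (N := FrobMod p e R N) 1 (fun x => Subsingleton.elim _ _)
        ⟨1, one_ne_zero, by simp⟩, mul_zero]
  | quotient N P₀ φ =>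
    rw [rkT_congr S P φ, rkT_congr S P (FrobMod.mapEquiv p e φ)]
    exact rkT_frobMod_quot p e A R S P htors (R ⧸ P₀.1)
  | exact N₁ N₂ N₃ f g hf hg h h₁ h₃ =>
    have := FrobMod.finite p e R N₂
    rw [rkT_add S P f g hf hg h,
      rkT_add S P (FrobMod.map p e f) (FrobMod.map p e g) hf hg h, h₁, h₃, mul_add]

theorem finrank_tensor_frob (p e : ℕ) [Fact p.Prime] (K : Type u) [Field K] [CharP K p]
    [PerfectField K] (d : ℕ) (R S P : Type u) [CommRing R] [CommRing S] [CommRing P] [IsDomain P]
    [ExpChar R p] [Algebra (PS K d) R] [Module.Finite (PS K d) R]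
    [Algebra R S] [Module.Flat R S] [Algebra P S] [Module.Finite P S]
    (htors : ∀ c : PS K d, c ≠ 0 → ∃ g : P, g ≠ 0 ∧
      algebraMap P S g ∈ Ideal.span {algebraMap R S (algebraMap (PS K d) R c)}) :
    Module.Finite P (S ⊗[R] Frob p e R) ∧
      Module.finrank P (S ⊗[R] Frob p e R) = (p ^ e) ^ d * Module.finrank P S := by
  have := expChar_PS p K d
  have : IsDomain (PS K d) := NoZeroDivisors.to_isDomain _
  obtain ⟨hfin, hrk⟩ := frob_PS p e K d
  have := frob_finite p e (PS K d) R
  refine ⟨finite_tensor S P _, ?_⟩
  have φ : FrobMod p e R R ≃ₗ[R] Frob p e R :=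
    { (FrobMod.toMod p e R R).symm.trans (Frob.toFrob p e R).toAddEquiv with
      map_smul' := fun _ _ => rfl }
  have h := rkT_frobMod p e (PS K d) R S P htors R
  rw [rkT_congr S P φ, hrk] at h
  rw [← ((TensorProduct.AlgebraTensorModule.rid R S S).restrictScalars P).finrank_eq]
  exact h

end Vale.Agent.P202
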