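import Vale.Agent.P202.Koszul

/-! Minimal models of complexes of finite free modules over a local ring. -/

namespace Vale.Agent.P202

open IsLocalRing

universe u v

section Aux

variable {R : Type u} [CommRing R] {X : ℕ → Type v} [∀ i, AddCommGroup (X i)]
  [∀ i, Module R (X i)]

/-- an idempotent chain map which is surjective on the bottom homology -/
structure MMProj (d : ∀ i, X (i + 1) →ₗ[R] X i) (p : ∀ i, X i →ₗ[R] X i) : Prop where
  idem : ∀ i x, p i (p i x) = p i x
  comm : ∀ i x, p i (d i x) = d i (p (i + 1) x)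
  bot : ∀ x, ∃ y, x = p 0 x + d 0 y

/-- the null-homotopic map attached to a family `h` -/
def mmD (d : ∀ i, X (i + 1) →ₗ[R] X i) (h : ∀ i, X i →ₗ[R] X (i + 1)) : ∀ i, X i →ₗ[R] X i
  | 0 => d 0 ∘ₗ h 0
  | i + 1 => d (i + 1) ∘ₗ h (i + 1) + h i ∘ₗ d i

theorem MMProj.sub {d : ∀ i, X (i + 1) →ₗ[R] X i} (dd : ∀ i x, d i (d (i + 1) x) = 0)
    {p : ∀ i, X i →ₗ[R] X i} (hp : MMProj d p) (h : ∀ i, X i →ₗ[R] X (i + 1))
    (h1 : ∀ i x, h (i + 1) (h i x) = 0) (h2 : ∀ i x, h i (d i (h i x)) = h i x)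
    (h3 : ∀ i x, p (i + 1) (h i x) = h i x) (h4 : ∀ i x, h i (p i x) = h i x) :
    MMProj d (fun i => p i - mmD d h i) ∧ ∀ i x, p i (mmD d h i x) = mmD d h i x := by
  have e1 : ∀ i x, p i (mmD d h i x) = mmD d h i x := by
    rintro (_ | i) x <;> simp [mmD, hp.comm, h3]
  have e2 : ∀ i x, mmD d h i (p i x) = mmD d h i x := by
    rintro (_ | i) x <;> simp [mmD, ← hp.comm, h4]
  have e3 : ∀ i x, mmD d h i (mmD d h i x) = mmD d h i x := by
    rintro (_ | i) x <;> simp [mmD, h1, h2, dd]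
  refine ⟨⟨fun i x => ?_, fun i x => ?_, fun x => ?_⟩, e1⟩
  · simp [hp.idem, e1, e2, e3]
  · rcases i with _ | i <;> simp [mmD, hp.comm, dd]
  · obtain ⟨y, hy⟩ := hp.bot x
    refine ⟨y + h 0 x, ?_⟩
    simp only [mmD, LinearMap.sub_apply, LinearMap.comp_apply, map_add]
    linear_combination (norm := module) hy

theorem mm_free [IsLocalRing R] {Y : Type*} [AddCommGroup Y] [Module R Y] [Module.Free R Y]
    [Module.Finite R Y] (p : Y →ₗ[R] Y) (hp : ∀ x, p (p x) = p x) :
    Module.Free R (LinearMap.range p) := by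
  have : Module.Projective R (LinearMap.range p) :=
    Module.Projective.of_split (LinearMap.range p).subtype p.rangeRestrict (by
      ext ⟨_, x, rfl⟩
      exact hp x)
  exact Module.free_of_flat_of_isLocalRing

theorem exists_mmProj [IsLocalRing R] [∀ i, Module.Free R (X i)] [∀ i, Module.Finite R (X i)]
    (d : ∀ i, X (i + 1) →ₗ[R] X i) (dd : ∀ i x, d i (d (i + 1) x) = 0) (L : ℕ)
    (hL : ∀ i, L < i → Subsingleton (X i)) :
    ∃ p, MMProj d p ∧ ∀ i (e : X (i + 1)) (lam : X i →ₗ[R] R), p (i + 1) e = e →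
      (∀ x, lam (p i x) = lam x) → lam (d i e) ≠ 1 := by
  classical
  have hex : ∃ n, ∃ p, MMProj d p ∧
      ∑ i ∈ Finset.range (L + 1), Module.finrank R (LinearMap.range (p i)) = n :=
    ⟨_, fun _ => LinearMap.id, ⟨fun _ _ => rfl, fun _ _ => rfl, fun x => ⟨0, by simp⟩⟩, rfl⟩
  obtain ⟨p, hp, hn⟩ := Nat.find_spec hex
  refine ⟨p, hp, fun i e lam he hlam h1 => ?_⟩
  let h : ∀ j, X j →ₗ[R] X (j + 1) :=
    Pi.single (M := fun j => X j →ₗ[R] X (j + 1)) i (lam.smulRight e)
  have hi : ∀ x, h i x = lam x • e := fun x => by simp [h]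
  have hj : ∀ j, j ≠ i → ∀ x, h j x = 0 := fun j hj x => by simp [h, Pi.single_eq_of_ne hj]
  obtain ⟨hq, hD⟩ := hp.sub dd h
    (fun j x => by
      by_cases e : j = i
      · exact hj _ (by omega) _
      · rw [hj j e, map_zero])
    (fun j x => by
      by_cases e : j = i
      · subst e; simp [hi, h1]
      · rw [hj j e, hj j e])
    (fun j x => by
      by_cases e : j = i
      · subst e; simp [hi, he]
      · rw [hj j e, map_zero])
    (fun j x => by
      by_cases e : j = i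
      · subst e; simp [hi, hlam]
      · rw [hj j e, hj j e])
  have hle : ∀ j, LinearMap.range (p j - mmD d h j) ≤ LinearMap.range (p j) := by
    rintro j _ ⟨x, rfl⟩
    exact ⟨x - mmD d h j x, by simp [hD]⟩
  have hiL : i < L + 1 := by
    by_contra hc
    have := hL i (by omega)
    rw [Subsingleton.elim (d i e) 0, map_zero] at h1
    exact zero_ne_one h1
  have hDi : ∀ x, lam (mmD d h i x) = lam x := fun x => by
    rcases i with _ | i
    · simp [mmD, hi, h1]
    · simp [mmD, hi, h1, hj i (by omega)]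
  refine Nat.find_min hex (m := ∑ i ∈ Finset.range (L + 1),
    Module.finrank R (LinearMap.range (p i - mmD d h i))) ?_ ⟨_, hq, rfl⟩
  rw [← hn]
  refine Finset.sum_lt_sum (fun j _ => Submodule.finrank_mono (hle j))
    ⟨i, Finset.mem_range.mpr hiL, ?_⟩
  have := mm_free _ (hq.idem i)
  have hde : d i e ∈ LinearMap.range (p i) := ⟨d i e, by rw [hp.comm, he]⟩
  let f : (LinearMap.range (p i - mmD d h i) × R) →ₗ[R] LinearMap.range (p i) :=
    (Submodule.inclusion (hle i)).coprod (LinearMap.toSpanSingleton R _ ⟨_, hde⟩)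
  have hf : Function.Injective f := by
    rw [injective_iff_map_eq_zero]
    rintro ⟨⟨_, x, rfl⟩, t⟩ h0
    have h2 : (p i - mmD d h i) x + t • d i e = 0 := congrArg Subtype.val h0
    have h3 : t = 0 := by simpa [hlam, hDi, h1] using congrArg lam h2
    subst h3
    exact Prod.ext (Subtype.ext (by simpa using h2)) rfl
  have := LinearMap.finrank_le_finrank_of_injective hf
  rw [Module.finrank_prod, Module.finrank_self] at this
  exact this

end Aux

theorem exists_minimal_model (R : Type u) [CommRing R] [IsLocalRing R] (X : ℕ → Type v)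
    [∀ i, AddCommGroup (X i)] [∀ i, Module R (X i)] [∀ i, Module.Free R (X i)]
    [∀ i, Module.Finite R (X i)] (d : ∀ i, X (i + 1) →ₗ[R] X i)
    (dd : ∀ i x, d i (d (i + 1) x) = 0) (L : ℕ) (hL : ∀ i, L < i → Subsingleton (X i)) :
    ∃ (b : ℕ → ℕ) (φ : ∀ i, Matrix (Fin (b i)) (Fin (b (i + 1))) R)
      (p : ∀ i, X i →ₗ[R] (Fin (b i) → R)) (ι : ∀ i, (Fin (b i) → R) →ₗ[R] X i),
      (∀ i r s, φ i r s ∈ maximalIdeal R) ∧ (∀ i, L < i → b i = 0) ∧
      (∀ i x, p i (d i x) = (φ i).mulVec (p (i + 1) x)) ∧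
      (∀ i v, ι i ((φ i).mulVec v) = d i (ι (i + 1) v)) ∧
      (∀ i v, p i (ι i v) = v) ∧
      (∀ x : X 0, ∃ v y, x = ι 0 v + d 0 y) := by
  obtain ⟨q, hq, hmin⟩ := exists_mmProj d dd L hL
  have hf : ∀ i, Module.Free R (LinearMap.range (q i)) := fun i => mm_free _ (hq.idem i)
  let E : ∀ i, LinearMap.range (q i) ≃ₗ[R] (Fin (Module.finrank R (LinearMap.range (q i))) → R) :=
    fun i => (Module.finBasis R _).equivFun
  let p : ∀ i, X i →ₗ[R] (Fin (Module.finrank R (LinearMap.range (q i))) → R) :=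
    fun i => (E i).toLinearMap ∘ₗ (q i).rangeRestrict
  let ι : ∀ i, (Fin (Module.finrank R (LinearMap.range (q i))) → R) →ₗ[R] X i :=
    fun i => (LinearMap.range (q i)).subtype ∘ₗ (E i).symm.toLinearMap
  have e1 : ∀ i x, ι i (p i x) = q i x := fun i x => by simp [p, ι]
  have e2 : ∀ i v, q i (ι i v) = ι i v := fun i v => by
    obtain ⟨x, hx⟩ := ((E i).symm v).2
    have : ι i v = q i x := hx.symm
    rw [this, hq.idem]
  have e3 : ∀ i v, p i (ι i v) = v := fun i v => by
    have : (q i).rangeRestrict (ι i v) = (E i).symm v := Subtype.ext (e2 i v)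
    simp [p, this]
  have e4 : ∀ i x, p i (q i x) = p i x := fun i x => by rw [← e1, e3]
  refine ⟨_, fun i => LinearMap.toMatrix' (p i ∘ₗ d i ∘ₗ ι (i + 1)), p, ι, ?_, ?_, ?_, ?_, e3, ?_⟩
  · intro i r s
    by_contra hc
    obtain ⟨u, hu⟩ := (notMem_maximalIdeal.mp hc).exists_left_inv
    refine hmin i (ι (i + 1) (Pi.single s 1)) (u • LinearMap.proj r ∘ₗ p i) (e2 _ _)
      (fun x => by simp [e4]) ?_
    exact hu
  · intro i hi
    have := hL i hi
    exact Module.finrank_zero_of_subsingleton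
  · intro i x
    rw [LinearMap.toMatrix'_mulVec]
    simp only [LinearMap.comp_apply]
    rw [e1, ← hq.comm, e4]
  · intro i v
    rw [LinearMap.toMatrix'_mulVec]
    simp only [LinearMap.comp_apply]
    rw [e1, hq.comm, e2]
  · intro x
    obtain ⟨y, hy⟩ := hq.bot x
    exact ⟨p 0 x, y, by rwa [e1]⟩

/-- The minimal model over `R` of the Koszul complex of `w` over a finite free algebra `S`. -/
theorem exists_koszul_minimal (R : Type u) (S : Type v) [CommRing R] [IsLocalRing R] [CommRing S]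
    [Algebra R S] [Module.Free R S] [Module.Finite R S] {d : ℕ} (w : Fin d → S)
    (hne : Ideal.span (Set.range w) ⊔ (maximalIdeal R).map (algebraMap R S) ≠ ⊤) :
    ∃ (b : ℕ → ℕ) (φ : ∀ i, Matrix (Fin (b i)) (Fin (b (i + 1))) R)
      (p : S →ₗ[R] (Fin (b 0) → R)),
      b 0 ≠ 0 ∧ (∀ i, d < i → b i = 0) ∧ (∀ i, φ i * φ (i + 1) = 0) ∧
      (∀ i r s, φ i r s ∈ maximalIdeal R) ∧
      (∀ x : R, algebraMap R S x ∈ Ideal.span (Set.range w) →
        NullHtpy (β := fun i => Fin (b i)) φ x) ∧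
      Function.Surjective p ∧
      (∀ i s, p (w i * s) ∈ LinearMap.range (φ 0).mulVecLin) := by
  obtain ⟨c, ψ, e1, h0, h1, h2, h3, -, h5⟩ := exists_koszul S d w
  have dd : ∀ i x, (ψ i).mulVec ((ψ (i + 1)).mulVec x) = 0 := fun i x => by
    rw [Matrix.mulVec_mulVec, h2, Matrix.zero_mulVec]
  obtain ⟨b, φ, p, ι, a1, a2, a3, a4, a5, a6⟩ := exists_minimal_model R (fun i => Fin (c i) → S)
    (fun i => (ψ i).mulVecLin.restrictScalars R) dd d (fun i hi => by
      rw [h1 i hi]; infer_instance)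
  simp only [LinearMap.restrictScalars_apply, Matrix.mulVecLin_apply] at a3 a4 a6
  have hs : Subsingleton (Fin (c 0)) := by rw [h0]; infer_instance
  let r0 : Fin (c 0) := ⟨0, by omega⟩
  refine ⟨b, φ, p 0 ∘ₗ LinearMap.pi fun _ => LinearMap.id, fun hb => hne ?_, a2, fun i => ?_, a1,
    fun x hx => ?_, fun v => ⟨ι 0 v r0, ?_⟩, fun i s => ⟨p 1 (Pi.single (e1 i) s), ?_⟩⟩
  · obtain ⟨v, y, hy⟩ := a6 fun _ => 1
    have : Subsingleton (Fin (b 0) → R) := by rw [hb]; infer_instance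
    rw [Subsingleton.elim v 0, map_zero, zero_add] at hy
    refine top_le_iff.mp (le_sup_of_le_left ?_)
    rw [top_le_iff, Ideal.eq_top_iff_one, congrFun hy r0]
    have hw : ∀ s, ψ 0 r0 s ∈ Ideal.span (Set.range w) := fun s =>
      Ideal.subset_span ⟨e1.symm s, by rw [← h3 r0, Equiv.apply_symm_apply]⟩
    exact Ideal.sum_mem (t := Finset.univ) _ fun s _ => Ideal.mul_mem_right (y s) _ (hw s)
  · refine Matrix.ext_iff_mulVec.mpr fun v => ?_
    rw [← Matrix.mulVec_mulVec, Matrix.zero_mulVec, ← a5 i ((φ i).mulVec _), a4, a4, dd, map_zero]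
  · obtain ⟨h, hh⟩ := h5 _ hx
    refine ⟨fun i => LinearMap.toMatrix' (p (i + 1) ∘ₗ (h i).mulVecLin.restrictScalars R ∘ₗ ι i),
      fun i => Matrix.ext_iff_mulVec.mpr fun v => ?_⟩
    rw [Matrix.add_mulVec, ← Matrix.mulVec_mulVec, ← Matrix.mulVec_mulVec,
      LinearMap.toMatrix'_mulVec, LinearMap.toMatrix'_mulVec]
    simp only [LinearMap.comp_apply, LinearMap.restrictScalars_apply, Matrix.mulVecLin_apply]
    rw [← a3, a4, ← map_add, Matrix.mulVec_mulVec, Matrix.mulVec_mulVec, ← Matrix.add_mulVec, hh,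
      Matrix.smul_mulVec, Matrix.smul_mulVec, Matrix.one_mulVec, Matrix.one_mulVec,
      algebraMap_smul, map_smul, a5]
  · rw [LinearMap.comp_apply]
    exact (congrArg (p 0) (funext fun r => congrArg (ι 0 v) (Subsingleton.elim _ _))).trans (a5 0 v)
  · rw [Matrix.mulVecLin_apply, ← a3, LinearMap.comp_apply]
    refine congrArg (p 0) (funext fun r => ?_)
    simp [h3]

end Vale.Agent.P202
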