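import Vale.Agent.P202.CoreAux
import Vale.Agent.P202.MinModel
import Vale.Agent.P202.FrobRank

/-! The core inequality in characteristic `p`. -/

namespace Vale.Agent.P202

open IsLocalRing Filter Topology TensorProduct

universe u

/-- The core inequality over the field `K`. -/
def CoreIneq (K : Type u) [Field K] : Prop :=
  ∀ (d : ℕ) (R S : Type u) [CommRing R] [IsLocalRing R] [CommRing S] [IsLocalRing S]
    [Algebra K R] [Algebra K S] [Algebra (PS K d) R] [IsScalarTower K (PS K d) R]
    [Module.Finite (PS K d) R] [Algebra R S] [IsScalarTower K R S] [Module.Free R S]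
    [Module.Finite R S],
    (∀ x : S, ∃ a : K, x - algebraMap K S a ∈ maximalIdeal S) →
    (∃ C : ℕ, ∀ t, maximalIdeal R ^ (t + C) ≤ (varIdeal K d ^ t).map (algebraMap (PS K d) R)) →
    ∀ w : Fin d → S, (∀ i, w i ∈ maximalIdeal S) →
    (∃ L : ℕ, maximalIdeal S ^ L ≤ Ideal.span (Set.range w)) →
    ∀ n : ℕ, Module.finrank (PS K d) R * n ^ d ≤ Module.finrank K (S ⧸ powIdeal w n)

theorem small_quot {K : Type*} [Field K] {d : ℕ} (M : Type*) [AddCommGroup M] [Module (PS K d) M]
    [Module K M] [IsScalarTower K (PS K d) M] [Module.Finite (PS K d) M] (c : PS K d) (hc : c ≠ 0)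
    (κ : ℕ) (ε : ℝ) (hε : 0 < ε) : ∀ᶠ m : ℕ in atTop,
      Module.Finite K (M ⧸ (Ideal.span {c} ⊔ powIdeal (MvPowerSeries.X : Fin d → PS K d) (κ * m)) •
        (⊤ : Submodule (PS K d) M)) ∧
      (Module.finrank K (M ⧸ (Ideal.span {c} ⊔
        powIdeal (MvPowerSeries.X : Fin d → PS K d) (κ * m)) • (⊤ : Submodule (PS K d) M)) : ℝ) ≤
        ε * (m : ℝ) ^ d := by
  have hpos : (0 : ℝ) < ((d * κ + 1 : ℕ) : ℝ) ^ d := by positivity
  have h1 := finrank_quot_span_sup_pow_small M c hc (ε / ((d * κ + 1 : ℕ) : ℝ) ^ d)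
    (div_pos hε hpos)
  have h2 : Tendsto (fun m : ℕ => (d * κ + 1) * m) atTop atTop :=
    tendsto_id.const_mul_atTop' (Nat.succ_pos _)
  filter_upwards [h2.eventually h1, eventually_ge_atTop 1] with m hm hm1
  haveI := finite_quot_of_pow_le M ((d * κ + 1) * m)
    ((Ideal.span {c} ⊔ varIdeal K d ^ ((d * κ + 1) * m)) • (⊤ : Submodule (PS K d) M))
    (Submodule.smul_mono_left le_sup_right)
  have h3 : varIdeal K d ^ ((d * κ + 1) * m) ≤
      powIdeal (MvPowerSeries.X : Fin d → PS K d) (κ * m) :=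
    (Ideal.pow_le_pow_right (by nlinarith)).trans (span_pow_le_powIdeal _ (κ * m))
  have h4 := finrank_quot_le_of_le (K := K)
    ((Ideal.span {c} ⊔ varIdeal K d ^ ((d * κ + 1) * m)) • (⊤ : Submodule (PS K d) M))
    ((Ideal.span {c} ⊔ powIdeal (MvPowerSeries.X : Fin d → PS K d) (κ * m)) •
      (⊤ : Submodule (PS K d) M))
    fun x hx => Submodule.smul_mono_left (sup_le_sup_left h3 _) hx
  refine ⟨h4.1, ((Nat.cast_le (α := ℝ)).mpr h4.2).trans (hm.trans (le_of_eq ?_))⟩
  rw [Nat.cast_mul, mul_pow, ← mul_assoc, div_mul_cancel₀ _ hpos.ne']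

theorem mem_of_mem_smul_top {A D M : Type*} [CommRing A] [CommRing D] [AddCommGroup M]
    [Module A M] (ρ : A →+* D) (f : M →+ D) (hf : ∀ a x, f (a • x) = ρ a * f x) (I : Ideal A)
    (J : Ideal D) (h : I.map ρ ≤ J) {x : M} (hx : x ∈ I • (⊤ : Submodule A M)) : f x ∈ J := by
  refine Submodule.smul_induction_on hx (fun r hr n _ => ?_) (fun y z hy hz => ?_)
  · rw [hf]
    exact J.mul_mem_right _ (h (Ideal.mem_map_of_mem ρ hr))
  · rw [map_add]
    exact J.add_mem hy hz

theorem map_span_sup_powIdeal {A D : Type*} [CommRing A] [CommRing D] (ρ : A →+* D) {d : ℕ}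
    (c : A) (x : Fin d → A) (m : ℕ) (J : Ideal D) (hc : ρ c ∈ J) (hx : ∀ j, ρ (x j) ^ m ∈ J) :
    (Ideal.span {c} ⊔ powIdeal x m).map ρ ≤ J := by
  rw [Ideal.map_le_iff_le_comap]
  refine sup_le ?_ ?_
  · rwa [Ideal.span_singleton_le_iff_mem]
  · rw [powIdeal, Ideal.span_le]
    rintro _ ⟨j, rfl⟩
    simpa using hx j

section Tors

variable {K : Type u} [Field K] {d : ℕ} {R S : Type u} [CommRing R] [CommRing S]
  [Algebra K R] [Algebra K S] [Algebra (PS K d) R] [IsScalarTower K (PS K d) R]
  [Module.Finite (PS K d) R] [Algebra R S] [IsScalarTower K R S] [Module.Finite R S]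
  [Algebra (PS K d) S] [IsScalarTower K (PS K d) S] [Module.Finite (PS K d) S]

theorem exists_torsion (L : ℕ)
    (hL : ∀ j, algebraMap R S (algebraMap (PS K d) R (MvPowerSeries.X j)) ^ L ∈
      Ideal.span (Set.range fun i => algebraMap (PS K d) S (MvPowerSeries.X i)))
    (c : PS K d) (hc : c ≠ 0) : ∃ g : PS K d, g ≠ 0 ∧
      algebraMap (PS K d) S g ∈ Ideal.span {algebraMap R S (algebraMap (PS K d) R c)} := by
  have hdom : IsDomain (PS K d) := NoZeroDivisors.to_isDomain _
  set J : Ideal S := Ideal.span {algebraMap R S (algebraMap (PS K d) R c)}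
  obtain ⟨s, π, hπ⟩ := Module.Finite.exists_fin' R S
  have h0 : Module.finrank (PS K d) (S ⧸ J) = 0 := by
    have h1 : (Module.finrank (PS K d) (S ⧸ J) : ℝ) ≤ 1 / 2 := by
      refine le_of_tendsto (tendsto_finrank_quot_powIdeal (K := K) (d := d) (S ⧸ J)) ?_
      filter_upwards [small_quot (Fin s → R) c hc (L * (d + 1)) (1 / 2) (by norm_num),
        eventually_ge_atTop 1] with n hn hn1
      haveI := hn.1
      have h2 := finrank_quot_le_of_semi (K := K) id
        ((Ideal.Quotient.mk J).toAddMonoidHom.comp π.toAddMonoidHom)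
        (Ideal.Quotient.mk_surjective.comp hπ)
        (fun a v => by
          change Ideal.Quotient.mk J (π (a • v)) = a • Ideal.Quotient.mk J (π v)
          rw [LinearMap.map_smul_of_tower]
          rfl)
        ((Ideal.span {c} ⊔ powIdeal (MvPowerSeries.X : Fin d → PS K d) (L * (d + 1) * n)) •
          (⊤ : Submodule (PS K d) (Fin s → R)))
        (powIdeal (MvPowerSeries.X : Fin d → PS K d) n • (⊤ : Submodule (PS K d) (S ⧸ J)))
        (fun x hx => by
          rw [powIdeal_smul_top]
          refine mem_of_mem_smul_top ((Ideal.Quotient.mk J).comp ((algebraMap R S).comp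
            (algebraMap (PS K d) R))) _ (fun a x => ?_) _ _
            (map_span_sup_powIdeal _ _ _ _ _ ?_ fun j => ?_) hx
          · change Ideal.Quotient.mk J (π (a • x)) = Ideal.Quotient.mk J _ * Ideal.Quotient.mk J _
            rw [← map_mul, ← algebraMap_smul R a x, map_smul, Algebra.smul_def]
            rfl
          · have h3 : Ideal.Quotient.mk J (algebraMap R S (algebraMap (PS K d) R c)) = 0 :=
              Ideal.Quotient.eq_zero_iff_mem.mpr (Ideal.mem_span_singleton_self _)
            change Ideal.Quotient.mk J (algebraMap R S (algebraMap (PS K d) R c)) ∈ _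
            rw [h3]
            exact Ideal.zero_mem _
          · have h3 := Ideal.pow_mem_pow (hL j) ((d + 1) * n)
            have h4 := span_pow_le_powIdeal _ n (Ideal.pow_le_pow_right (by nlinarith) h3)
            have h5 := Ideal.mem_map_of_mem (Ideal.Quotient.mk J) h4
            rw [powIdeal, Ideal.map_span, ← Set.range_comp, ← pow_mul, ← mul_assoc, map_pow] at h5
            exact h5)
      have hpos : (0 : ℝ) < (n : ℝ) ^ d := by positivity
      rw [div_le_iff₀ hpos]
      exact ((Nat.cast_le (α := ℝ)).mpr h2.2).trans hn.2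
    have h2 : (Module.finrank (PS K d) (S ⧸ J) : ℝ) < (1 : ℕ) := by push_cast; linarith
    exact Nat.lt_one_iff.mp (by exact_mod_cast h2)
  obtain ⟨v, g, -, hg, hv⟩ := exists_free_part (PS K d) (S ⧸ J)
  refine ⟨g, hg, Ideal.Quotient.eq_zero_iff_mem.mp ?_⟩
  have h1 := hv 1
  haveI : IsEmpty (Fin (Module.finrank (PS K d) (S ⧸ J))) := by rw [h0]; infer_instance
  rw [Set.range_eq_empty, Submodule.span_empty, Submodule.mem_bot, Algebra.smul_def,
    mul_one] at h1
  exact h1

end Tors

section Frobenius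

variable (p e : ℕ) (R S : Type u) [CommRing R] [CommRing S] [Algebra R S] [ExpChar R p]

/-- the right factor. -/
noncomputable def frobRight : R →+* S ⊗[R] Frob p e R :=
  (Algebra.TensorProduct.includeRight (R := R) (A := S) (B := Frob p e R)).toRingHom.comp
    (Frob.toFrob p e R).toRingHom

theorem frobRight_apply (x : R) : frobRight p e R S x = (1 : S) ⊗ₜ[R] Frob.toFrob p e R x := rfl

theorem smul_tmul_toFrob (r : R) (s : S) (x : R) :
    (r • s) ⊗ₜ[R] Frob.toFrob p e R x = s ⊗ₜ[R] Frob.toFrob p e R (r ^ p ^ e * x) := by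
  rw [TensorProduct.smul_tmul, Algebra.smul_def, Frob.algebraMap_apply, map_mul]

theorem frobRight_pow (x : R) :
    frobRight p e R S x ^ p ^ e = algebraMap S (S ⊗[R] Frob p e R) (algebraMap R S x) := by
  rw [← map_pow, frobRight_apply, ← mul_one (x ^ p ^ e), ← smul_tmul_toFrob, map_one,
    Algebra.smul_def, mul_one]
  rfl

theorem almostReg_frob [Module.Free R S] {d : ℕ} {x : Fin d → R} {c : R} (h : AlmostReg x c) :
    AlmostReg (fun i => frobRight p e R S (x i)) (frobRight p e R S c) := by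
  letI : Algebra (Frob p e R) (S ⊗[R] Frob p e R) := Algebra.TensorProduct.rightAlgebra
  haveI : Module.Free (Frob p e R) (S ⊗[R] Frob p e R) :=
    Module.Free.of_equiv (Algebra.TensorProduct.commRight R (Frob p e R) S).toLinearEquiv
  exact AlmostReg.map_of_free (R := Frob p e R) (D := S ⊗[R] Frob p e R) h

variable {R S}

/-- base change of a linear map to a free module along Frobenius. -/
noncomputable def frobLift {m : Type} (f : S →ₗ[R] (m → R)) : S ⊗[R] Frob p e R →+ (m → R) :=
  (AddMonoidHom.compLeft (Frob.toFrob p e R).symm.toAddMonoidHom m).comp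
    (TensorProduct.lift (LinearMap.mk₂ R (fun (s : S) (r : Frob p e R) (i : m) => f s i • r)
      (fun s s' r => by ext i; simp [add_smul]) (fun c s r => by ext i; simp [mul_smul])
      (fun s r r' => by ext i; simp)
      (fun c s r => by ext i; exact smul_comm _ _ _))).toAddMonoidHom

theorem frobLift_tmul {m : Type} (f : S →ₗ[R] (m → R)) (s : S) (x : R) (i : m) :
    frobLift p e f (s ⊗ₜ[R] Frob.toFrob p e R x) i = f s i ^ p ^ e * x := by
  change (Frob.toFrob p e R).symm (f s i • Frob.toFrob p e R x) = _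
  rw [Algebra.smul_def, Frob.algebraMap_apply, ← map_mul, RingEquiv.symm_apply_apply]

theorem frobLift_surjective {m : Type} [Fintype m] [DecidableEq m] (f : S →ₗ[R] (m → R))
    (hf : Function.Surjective f) : Function.Surjective (frobLift p e f) := by
  intro y
  choose s hs using fun i : m => hf (Pi.single i 1)
  refine ⟨∑ i, s i ⊗ₜ[R] Frob.toFrob p e R (y i), funext fun j => ?_⟩
  rw [map_sum, Finset.sum_apply, Finset.sum_eq_single j]
  · simp [frobLift_tmul, hs]
  · intro i _ hij
    rw [frobLift_tmul, hs, Pi.single_eq_of_ne hij.symm, zero_pow (expChar_pow_pos R p e).ne',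
      zero_mul]
  · simp

theorem frobLift_mem {m n : Type} [Fintype n] (f : S →ₗ[R] (m → R)) (φ : Matrix m n R) {d : ℕ}
    (w : Fin d → S) (hw : ∀ i s, f (w i * s) ∈ LinearMap.range φ.mulVecLin)
    (ξ : S ⊗[R] Frob p e R)
    (hξ : ξ ∈ Ideal.span (Set.range fun i => algebraMap S (S ⊗[R] Frob p e R) (w i))) :
    frobLift p e f ξ ∈ LinearMap.range (φ.map (iterateFrobenius R p e)).mulVecLin := by
  obtain ⟨c, rfl⟩ := Ideal.mem_span_range_iff_exists_fun.mp hξ
  rw [map_sum]
  refine Submodule.sum_mem _ fun i _ => ?_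
  induction c i with
  | zero => simp
  | add x y hx hy => rw [add_mul, map_add]; exact Submodule.add_mem _ hx hy
  | tmul s r =>
    obtain ⟨x, rfl⟩ := (Frob.toFrob p e R).surjective r
    obtain ⟨z, hz⟩ := hw i s
    refine ⟨fun j => z j ^ p ^ e * x, funext fun k => ?_⟩
    rw [Algebra.TensorProduct.algebraMap_apply, Algebra.TensorProduct.tmul_mul_tmul, mul_one,
      frobLift_tmul, Algebra.algebraMap_self, RingHom.id_apply, mul_comm s, ← hz]
    simp only [Matrix.mulVecLin_apply, Matrix.mulVec, dotProduct, Matrix.map_apply,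
      ← iterateFrobenius_def, map_sum, map_mul, Finset.sum_mul, mul_assoc]

/-- a surjection from a free module onto the Frobenius base change. -/
noncomputable def frobGen {s : ℕ} (γ : Fin s → S) : (Fin s → R) →+ S ⊗[R] Frob p e R where
  toFun y := ∑ i, γ i ⊗ₜ[R] Frob.toFrob p e R (y i)
  map_zero' := by simp
  map_add' y z := by simp [TensorProduct.tmul_add, Finset.sum_add_distrib]

theorem frobGen_smul {s : ℕ} (γ : Fin s → S) (x : R) (y : Fin s → R) :
    frobGen p e γ (x • y) = frobRight p e R S x * frobGen p e γ y := by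
  simp [frobGen, frobRight_apply, Finset.mul_sum]

theorem frobGen_surjective {s : ℕ} (π : (Fin s → R) →ₗ[R] S) (hπ : Function.Surjective π) :
    Function.Surjective (frobGen p e (R := R) fun i => π (Pi.single i 1)) := by
  intro ξ
  induction ξ with
  | zero => exact ⟨0, map_zero _⟩
  | add x y hx hy =>
    obtain ⟨x, rfl⟩ := hx
    obtain ⟨y, rfl⟩ := hy
    exact ⟨x + y, map_add _ _ _⟩
  | tmul s r =>
    obtain ⟨x, rfl⟩ := (Frob.toFrob p e R).surjective r
    obtain ⟨z, rfl⟩ := hπ s
    refine ⟨fun i => z i ^ p ^ e * x, ?_⟩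
    conv_rhs => rw [← Finset.univ_sum_single z, map_sum, TensorProduct.sum_tmul]
    change ∑ i, π (Pi.single i 1) ⊗ₜ[R] Frob.toFrob p e R (z i ^ p ^ e * x) = _
    refine Finset.sum_congr rfl fun i _ => ?_
    rw [← smul_tmul_toFrob, ← map_smul, ← Pi.single_smul, smul_eq_mul, mul_one]

end Frobenius

section Step

variable (p e : ℕ) [Fact p.Prime] {K : Type u} [Field K] [CharP K p] {R S : Type u} [CommRing R]
  [CommRing S] [Algebra K R] [Algebra K S] [Algebra R S] [IsScalarTower K R S] [ExpChar R p]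

theorem finrank_coker_frob_le {m n : Type} [Fintype m] [DecidableEq m] [Fintype n]
    (f : S →ₗ[R] (m → R)) (hf : Function.Surjective f) (φ : Matrix m n R) {d : ℕ}
    (w : Fin d → S) (hw : ∀ i s, f (w i * s) ∈ LinearMap.range φ.mulVecLin)
    [Module.Finite K ((S ⊗[R] Frob p e R) ⧸
      Ideal.span (Set.range fun i => algebraMap S (S ⊗[R] Frob p e R) (w i)))] :
    Module.Finite K ((m → R) ⧸ LinearMap.range (φ.map (iterateFrobenius R p e)).mulVecLin) ∧
    Module.finrank K ((m → R) ⧸ LinearMap.range (φ.map (iterateFrobenius R p e)).mulVecLin) ≤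
      Module.finrank K ((S ⊗[R] Frob p e R) ⧸
        Ideal.span (Set.range fun i => algebraMap S (S ⊗[R] Frob p e R) (w i))) := by
  refine finrank_quot_le_of_semi (K := K) (fun a => a ^ p ^ e) (frobLift p e f)
    (frobLift_surjective p e f hf) (fun a v => ?_) _ _ (frobLift_mem p e f φ w hw)
  induction v with
  | zero => simp
  | add x y hx hy => rw [smul_add, map_add, map_add, hx, hy, smul_add]
  | tmul s r =>
    obtain ⟨x, rfl⟩ := (Frob.toFrob p e R).surjective r
    funext i
    rw [TensorProduct.smul_tmul', frobLift_tmul, Pi.smul_apply, frobLift_tmul,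
      LinearMap.map_smul_of_tower, Pi.smul_apply, smul_pow, smul_mul_assoc]

theorem finrank_quot_frob_le [PerfectField K] {A : Type*} [CommRing A] [Algebra K A]
    [Algebra A R] [IsScalarTower K A R] {s : ℕ} (γ : (Fin s → R) →ₗ[R] S)
    (hγ : Function.Surjective γ) (I : Ideal A) (J : Ideal (S ⊗[R] Frob p e R))
    (h : I.map ((frobRight p e R S).comp (algebraMap A R)) ≤ J)
    [Module.Finite K ((Fin s → R) ⧸ I • (⊤ : Submodule A (Fin s → R)))] :
    Module.finrank K ((S ⊗[R] Frob p e R) ⧸ J) ≤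
      Module.finrank K ((Fin s → R) ⧸ I • (⊤ : Submodule A (Fin s → R))) := by
  refine (finrank_quot_le_of_semi (K := K) (iterateFrobeniusEquiv K p e).symm
    (frobGen p e (R := R) fun i => γ (Pi.single i 1)) (frobGen_surjective p e γ hγ)
    (fun a v => ?_) _ _ fun x hx => ?_).2
  · obtain ⟨a, rfl⟩ := (iterateFrobeniusEquiv K p e).surjective a
    rw [RingEquiv.symm_apply_apply, ← algebraMap_smul R, frobGen_smul,
      iterateFrobeniusEquiv_def, map_pow, map_pow, frobRight_pow,
      ← IsScalarTower.algebraMap_apply, ← IsScalarTower.algebraMap_apply, Algebra.smul_def]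
  · exact mem_of_mem_smul_top ((frobRight p e R S).comp (algebraMap A R)) _
      (fun a x => by rw [← algebraMap_smul R, frobGen_smul]; rfl) _ _ h hx

theorem frob_upper [PerfectField K] {d : ℕ} [Algebra (PS K d) R] [IsScalarTower K (PS K d) R]
    [Module.Finite (PS K d) R] [Module.Free R S] [Algebra (PS K d) S]
    [IsScalarTower K (PS K d) S] [Module.Finite (PS K d) S]
    (htors : ∀ c : PS K d, c ≠ 0 → ∃ g : PS K d, g ≠ 0 ∧
      algebraMap (PS K d) S g ∈ Ideal.span {algebraMap R S (algebraMap (PS K d) R c)})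
    (w : Fin d → S) (hwX : ∀ i, algebraMap (PS K d) S (MvPowerSeries.X i) = w i) (L : ℕ)
    (hXL : ∀ j, algebraMap R S (algebraMap (PS K d) R (MvPowerSeries.X j)) ^ L ∈
      Ideal.span (Set.range w)) (c : PS K d)
    (hreg : AlmostReg (fun i => algebraMap (PS K d) R (MvPowerSeries.X i))
      (algebraMap (PS K d) R c)) {s : ℕ} (γ : (Fin s → R) →ₗ[R] S) (hγ : Function.Surjective γ)
    [Module.Finite K ((Fin s → R) ⧸ (Ideal.span {c ^ (d * d)} ⊔
      powIdeal (MvPowerSeries.X : Fin d → PS K d) (L * p ^ e)) •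
        (⊤ : Submodule (PS K d) (Fin s → R)))] :
    Module.Finite K ((S ⊗[R] Frob p e R) ⧸
      Ideal.span (Set.range fun i => algebraMap S (S ⊗[R] Frob p e R) (w i))) ∧
    Module.finrank K ((S ⊗[R] Frob p e R) ⧸
      Ideal.span (Set.range fun i => algebraMap S (S ⊗[R] Frob p e R) (w i))) ≤
      (p ^ e) ^ d * Module.finrank (PS K d) S +
      Module.finrank K ((Fin s → R) ⧸ (Ideal.span {c ^ (d * d)} ⊔
        powIdeal (MvPowerSeries.X : Fin d → PS K d) (L * p ^ e)) •
          (⊤ : Submodule (PS K d) (Fin s → R))) := by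
  have hdom : IsDomain (PS K d) := NoZeroDivisors.to_isDomain _
  obtain ⟨hDfin, hDrank⟩ := finrank_tensor_frob p e K d R S (PS K d) htors
  have hXw' : ∀ j, frobRight p e R S (algebraMap (PS K d) R (MvPowerSeries.X j)) ^ (L * p ^ e) ∈
      Ideal.span (Set.range fun i => algebraMap S (S ⊗[R] Frob p e R) (w i)) := fun j => by
    rw [mul_comm, pow_mul, frobRight_pow, ← map_pow]
    have := Ideal.mem_map_of_mem (algebraMap S (S ⊗[R] Frob p e R)) (hXL j)
    rwa [Ideal.map_span, ← Set.range_comp] at this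
  obtain ⟨hfin, hup⟩ := upper_bound K d (S ⊗[R] Frob p e R)
    (fun i => algebraMap S (S ⊗[R] Frob p e R) (w i))
    (fun i => by rw [← hwX]; rfl) _ _ (almostReg_frob p e R S hreg) (fun j => ⟨_, hXw' j⟩)
  refine ⟨hfin, hup.trans ?_⟩
  rw [hDrank]
  refine Nat.add_le_add_left (finrank_quot_frob_le p e γ hγ _ _ ?_) _
  refine map_span_sup_powIdeal _ _ _ _ _ ?_ fun j => Ideal.mem_sup_left (hXw' j)
  rw [map_pow]
  exact Ideal.mem_sup_right (Ideal.mem_span_singleton_self _)

end Step

theorem finrank_le_charP (p : ℕ) [Fact p.Prime] (K : Type u) [Field K] [CharP K p]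
    [IsAlgClosed K] (d : ℕ) (R S : Type u) [CommRing R] [IsLocalRing R] [CommRing S]
    [IsLocalRing S] [Algebra K R] [Algebra K S] [Algebra (PS K d) R] [IsScalarTower K (PS K d) R]
    [Module.Finite (PS K d) R] [Algebra R S] [IsScalarTower K R S] [Module.Free R S]
    [Module.Finite R S] [Algebra (PS K d) S] [IsScalarTower K (PS K d) S]
    [Module.Finite (PS K d) S] (C : ℕ)
    (hC : ∀ t, maximalIdeal R ^ (t + C) ≤ (varIdeal K d ^ t).map (algebraMap (PS K d) R))
    (w : Fin d → S) (hwX : ∀ i, algebraMap (PS K d) S (MvPowerSeries.X i) = w i)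
    (hw : ∀ i, w i ∈ maximalIdeal S) (L : ℕ)
    (hL : maximalIdeal S ^ L ≤ Ideal.span (Set.range w)) :
    Module.finrank (PS K d) R ≤ Module.finrank (PS K d) S := by
  have hdom : IsDomain (PS K d) := NoZeroDivisors.to_isDomain _
  haveI : ExpChar R p := expChar_of_injective_algebraMap (algebraMap K R).injective p
  have hXL : ∀ j, algebraMap R S (algebraMap (PS K d) R (MvPowerSeries.X j)) ^ L ∈
      Ideal.span (Set.range w) := fun j =>
    hL (Ideal.pow_mem_pow (map_maximalIdeal_le_of_finite R S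
      (map_maximalIdeal_le_of_finite (PS K d) R (by
        rw [← varIdeal_eq_maximalIdeal]; exact Ideal.subset_span ⟨j, rfl⟩))) L)
  obtain ⟨b, φ, f, hb0, hbd, hφφ, hφm, hnull, hf, hfw⟩ := exists_koszul_minimal R S w (by
    refine ne_top_of_le_ne_top (maximalIdeal.isMaximal S).ne_top (sup_le ?_ ?_)
    · rw [Ideal.span_le]
      rintro _ ⟨i, rfl⟩
      exact hw i
    · rw [Ideal.map_le_iff_le_comap]
      exact fun x hx => map_maximalIdeal_le_of_finite R S hx)
  obtain ⟨C', hC'⟩ := lower_bound K d R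
  obtain ⟨c, π, ι, hc, hιπ, -⟩ := exists_pi_iota (A := PS K d) (R := R)
  have hreg := almostReg_of_pi π ι hιπ
  obtain ⟨s, γ, hγ⟩ := Module.Finite.exists_fin' R S
  have htors := exists_torsion (K := K) (d := d) (R := R) (S := S) L
    (by rw [funext hwX]; exact hXL)
  have hq : Tendsto (fun e : ℕ => p ^ e) atTop atTop :=
    tendsto_pow_atTop_atTop_of_one_lt (Fact.out : p.Prime).one_lt
  refine le_of_eventually_pow_le (d := d) _ _ (C + C') _ hq ?_
  filter_upwards [hq.eventually (small_quot (Fin s → R) (c ^ (d * d)) (pow_ne_zero _ hc) L (1 / 2)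
    (by norm_num)), hq.eventually_ge_atTop C] with e he heC
  haveI := he.1
  obtain ⟨hfin, hup⟩ := frob_upper p e htors w hwX L hXL c hreg γ hγ
  have h1 := finrank_coker_frob_le (K := K) p e f hf (φ 0) w hfw
  have h2 := hC' (p ^ e - C) (fun i => Fin (b i)) (fun i => (φ i).map (iterateFrobenius R p e))
    (fun i => by rw [← Matrix.map_mul, hφφ]; simp)
    (fun i hi => by rw [hbd i hi]; infer_instance)
    (fun i r s => hC _ (by
      rw [Nat.sub_add_cancel heC, Matrix.map_apply, iterateFrobenius_def]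
      exact Ideal.pow_mem_pow (hφm i r s) _))
    (fun j => ⟨L * p ^ e, by
      have := (hnull _ (by rw [map_pow]; exact hXL j)).map (iterateFrobenius R p e)
      rwa [iterateFrobenius_def, ← pow_mul] at this⟩) h1.1
  have h4 := le_trans (Nat.mul_le_mul_right _ (Nat.le_mul_of_pos_left _
    (by rw [Fintype.card_fin]; exact Nat.pos_of_ne_zero hb0))) (h2.trans (h1.2.trans hup))
  rw [← Nat.sub_add_eq] at h4
  have h5 := (Nat.cast_le (α := ℝ)).mpr h4
  have h6 := he.2
  rw [Nat.cast_add, Nat.cast_mul, Nat.cast_mul, Nat.cast_pow, Nat.cast_pow] at h5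
  linarith

theorem coreIneq_charP (p : ℕ) [Fact p.Prime] (K : Type u) [Field K] [CharP K p] [IsAlgClosed K] :
    CoreIneq K := by
  rintro d R S _ _ _ _ _ _ _ _ _ _ _ _ _ hres ⟨C, hC⟩ w hw ⟨L, hL⟩ n
  have hS : IsCL K S := by
    letI : Algebra (PS K d) S := ((algebraMap R S).comp (algebraMap (PS K d) R)).toAlgebra
    haveI : IsScalarTower (PS K d) R S := IsScalarTower.of_algebraMap_eq fun _ => rfl
    haveI : IsScalarTower K (PS K d) S := IsScalarTower.of_algebraMap_eq fun a => by
      rw [IsScalarTower.algebraMap_apply K R S, IsScalarTower.algebraMap_apply K (PS K d) R]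
      rfl
    haveI : Module.Finite (PS K d) S := Module.Finite.trans R S
    exact isCL_of_finite (d := d) hres
  obtain ⟨ψ, hψ, hfin, -⟩ := hS.exists_psMap w hw
  letI : Algebra (PS K d) S := ψ.toRingHom.toAlgebra
  haveI : IsScalarTower K (PS K d) S := IsScalarTower.of_algebraMap_eq fun a =>
    (ψ.commutes a).symm
  haveI : Module.Finite (PS K d) S := hfin ⟨L, hL⟩
  have h1 := finrank_le_charP p K d R S C hC w hψ hw L hL
  haveI := finite_quot_of_pow_le (K := K) S (d * n + 1)
    (powIdeal (MvPowerSeries.X : Fin d → PS K d) n • (⊤ : Submodule (PS K d) S))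
    (Submodule.smul_mono_left (span_pow_le_powIdeal _ n))
  have h2 : powIdeal (MvPowerSeries.X : Fin d → PS K d) n • (⊤ : Submodule (PS K d) S) =
      (powIdeal w n).restrictScalars (PS K d) := by
    ext z
    rw [powIdeal_smul_top, ← funext hψ]
    rfl
  have h3 := finrank_mul_pow_le (K := K) (d := d) S n
  rw [h2, ((Submodule.Quotient.restrictScalarsEquiv (PS K d)
    (powIdeal w n)).restrictScalars K).finrank_eq] at h3
  exact (Nat.mul_le_mul_right _ h1).trans h3

end Vale.Agent.P202
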