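import Mathlib

/-! Minimal reductions of the maximal ideal over an infinite residue field. -/

namespace Vale.Agent.P202

open IsLocalRing

/-- analytic independence of a family in the maximal ideal. -/
def AnIndep {T : Type*} [CommRing T] [IsLocalRing T] {δ : ℕ} (x : Fin δ → T) : Prop :=
  ∀ (s : ℕ) (f : MvPolynomial (Fin δ) T), f.IsHomogeneous s →
    MvPolynomial.eval x f ∈ maximalIdeal T ^ (s + 1) → ∀ α, f.coeff α ∈ maximalIdeal T

section RedRel

variable {T : Type*} [CommRing T]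

/-- two elements of `m ^ n` that agree modulo `J m ^ (n - 1)`, in a form without subtraction. -/
def RedRel (J m : Ideal T) (n : ℕ) (a b : T) : Prop :=
  a ∈ m ^ n ∧ b ∈ m ^ n ∧ ∀ z ∈ m, (a - b) * z ∈ J * m ^ n

variable {J m : Ideal T}

theorem RedRel.refl_zero (c : T) : RedRel J m 0 c c :=
  ⟨by simp, by simp, fun z _ => by simp⟩

theorem RedRel.mul {n n' : ℕ} {a b a' b' : T} (h : RedRel J m n a b) (h' : RedRel J m n' a' b') :
    RedRel J m (n + n') (a * a') (b * b') := by
  refine ⟨by rw [pow_add]; exact Ideal.mul_mem_mul h.1 h'.1,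
    by rw [pow_add]; exact Ideal.mul_mem_mul h.2.1 h'.2.1, fun z hz => ?_⟩
  have e : (a * a' - b * b') * z = (a - b) * z * a' + (a' - b') * z * b := by ring
  rw [e]
  refine Ideal.add_mem _ ?_ ?_
  · rw [pow_add, ← mul_assoc]
    exact Ideal.mul_mem_mul (h.2.2 z hz) h'.1
  · rw [add_comm, pow_add, ← mul_assoc]
    exact Ideal.mul_mem_mul (h'.2.2 z hz) h.2.1

theorem RedRel.pow {a b : T} (h : RedRel J m 1 a b) (n : ℕ) : RedRel J m n (a ^ n) (b ^ n) := by
  induction n with
  | zero => simpa using RedRel.refl_zero 1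
  | succ n ih => rw [pow_succ, pow_succ]; exact ih.mul h

theorem RedRel.prod {ι : Type*} (S : Finset ι) (n : ι → ℕ) (a b : ι → T)
    (h : ∀ i, RedRel J m (n i) (a i) (b i)) :
    RedRel J m (∑ i ∈ S, n i) (∏ i ∈ S, a i) (∏ i ∈ S, b i) := by
  classical
  induction S using Finset.induction_on with
  | empty => simpa using RedRel.refl_zero 1
  | insert i S hi ih =>
    rw [Finset.sum_insert hi, Finset.prod_insert hi, Finset.prod_insert hi]
    exact (h i).mul ih

theorem sum_eq_of_homog {σ : Type*} [Fintype σ] {f : MvPolynomial σ T} {s : ℕ}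
    (hf : f.IsHomogeneous s) {d : σ →₀ ℕ} (hd : d ∈ f.support) : ∑ i, d i = s := by
  by_contra hne
  refine (MvPolynomial.mem_support_iff.1 hd) (hf.coeff_eq_zero ?_)
  rwa [Finsupp.degree_eq_sum]

theorem eval_sub_eval_mul_mem {σ : Type*} [Fintype σ] {f : MvPolynomial σ T} {s : ℕ}
    (hf : f.IsHomogeneous s) (u w : σ → T) (h : ∀ i, RedRel J m 1 (u i) (w i)) (z : T)
    (hz : z ∈ m) : (MvPolynomial.eval u f - MvPolynomial.eval w f) * z ∈ J * m ^ s := by
  rw [MvPolynomial.eval_eq', MvPolynomial.eval_eq', ← Finset.sum_sub_distrib, Finset.sum_mul]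
  refine Ideal.sum_mem _ fun d hd => ?_
  have h1 := RedRel.prod Finset.univ (fun i => d i) (fun i => u i ^ d i) (fun i => w i ^ d i)
    (fun i => (h i).pow (d i))
  rw [sum_eq_of_homog hf hd] at h1
  rw [← mul_sub, mul_assoc]
  exact Ideal.mul_mem_left _ _ (h1.2.2 z hz)

theorem eval_mul_homog {σ : Type*} [Fintype σ] {f : MvPolynomial σ T} {s : ℕ}
    (hf : f.IsHomogeneous s) (l : σ → T) (a : T) :
    MvPolynomial.eval (fun i => l i * a) f = MvPolynomial.eval l f * a ^ s := by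
  rw [MvPolynomial.eval_eq', MvPolynomial.eval_eq', Finset.sum_mul]
  refine Finset.sum_congr rfl fun d hd => ?_
  simp only [mul_pow, Finset.prod_mul_distrib, Finset.prod_pow_eq_pow_sum]
  rw [sum_eq_of_homog hf hd, mul_assoc]

theorem sup_pow_mul_le (hJ : J ≤ m) {a : T} (ha : a ∈ m) (n : ℕ) :
    (J ⊔ Ideal.span {a}) ^ n * m ≤ J * m ^ n ⊔ Ideal.span {a ^ n} * m := by
  have ha' : Ideal.span {a} ≤ m := (Ideal.span_singleton_le_iff_mem _).2 ha
  induction n with
  | zero => simp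
  | succ n ih =>
    have e : (J ⊔ Ideal.span {a}) ^ (n + 1) * m =
        ((J ⊔ Ideal.span {a}) ^ n * m) * (J ⊔ Ideal.span {a}) := by ring
    rw [e]
    refine (Ideal.mul_mono_left ih).trans ?_
    rw [Ideal.sup_mul]
    refine sup_le ?_ ?_
    · refine le_sup_of_le_left ?_
      rw [pow_succ, ← mul_assoc]
      exact Ideal.mul_mono_right (sup_le hJ ha')
    · rw [Ideal.mul_sup]
      refine sup_le_sup ?_ ?_
      · have h1 : Ideal.span {a ^ n} ≤ m ^ n :=
          (Ideal.span_singleton_le_iff_mem _).2 (Ideal.pow_mem_pow ha n)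
        rw [mul_comm, pow_succ]
        exact Ideal.mul_mono_right (Ideal.mul_mono_left h1)
      · rw [mul_right_comm, Ideal.span_singleton_mul_span_singleton, ← pow_succ]

theorem pow_add_le_of_succ_le {C : ℕ} (h : m ^ (C + 1) ≤ J * m ^ C) (t : ℕ) :
    m ^ (t + C) ≤ J ^ t * m ^ C := by
  induction t with
  | zero => simp
  | succ t ih =>
    calc m ^ (t + 1 + C) = m ^ (t + C) * m := by ring
      _ ≤ J ^ t * m ^ C * m := Ideal.mul_mono_left ih
      _ = J ^ t * m ^ (C + 1) := by ring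
      _ ≤ J ^ t * (J * m ^ C) := Ideal.mul_mono_right h
      _ = J ^ (t + 1) * m ^ C := by ring

end RedRel

/-- a form with a nonzero coefficient has a nonzero value at a point with first coordinate one. -/
theorem exists_eval_ne_zero_one {k : Type*} [Field k] [Infinite k] {δ s : ℕ}
    {f : MvPolynomial (Fin (δ + 1)) k} (hf : f.IsHomogeneous s) (h0 : f ≠ 0) :
    ∃ v : Fin (δ + 1) → k, v 0 = 1 ∧ MvPolynomial.eval v f ≠ 0 := by
  have h1 : MvPolynomial.X 0 * f ≠ 0 := mul_ne_zero (MvPolynomial.X_ne_zero _) h0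
  obtain ⟨v, hv⟩ : ∃ v, MvPolynomial.eval v (MvPolynomial.X 0 * f) ≠ 0 := by
    by_contra hcon
    push Not at hcon
    exact h1 (MvPolynomial.funext fun v => by rw [hcon v, map_zero])
  rw [map_mul, MvPolynomial.eval_X] at hv
  have hv0 : v 0 ≠ 0 := left_ne_zero_of_mul hv
  refine ⟨fun i => v i * (v 0)⁻¹, mul_inv_cancel₀ hv0, ?_⟩
  rw [eval_mul_homog hf]
  exact mul_ne_zero (right_ne_zero_of_mul hv) (pow_ne_zero _ (inv_ne_zero hv0))

theorem anIndep_zero {T : Type*} [CommRing T] [IsLocalRing T] (x : Fin 0 → T) : AnIndep x := by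
  intro s f hf he α
  have hα : α = 0 := Subsingleton.elim _ _
  subst hα
  rw [MvPolynomial.eq_C_of_isEmpty f, MvPolynomial.eval_C] at he
  exact Ideal.pow_le_self (Nat.succ_ne_zero s) he

/-- one step: a dependent family can be shortened. -/
theorem reduction_step {P T : Type*} [CommRing P] [CommRing T] [IsLocalRing T]
    [Infinite (ResidueField T)] (π : P →+* T) (hπ : Function.Surjective π)
    (hfg : (maximalIdeal T).FG) {δ : ℕ} (x : Fin (δ + 1) → P)
    (hx : ∀ i, π (x i) ∈ maximalIdeal T) (C : ℕ)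
    (hC : maximalIdeal T ^ (C + 1) ≤ Ideal.span (Set.range (π ∘ x)) * maximalIdeal T ^ C)
    (hdep : ¬ AnIndep (π ∘ x)) :
    ∃ (l : Fin δ → P) (C' : ℕ), maximalIdeal T ^ (C' + 1) ≤
      Ideal.span (Set.range (π ∘ fun i => x i.succ - l i * x 0)) * maximalIdeal T ^ C' := by
  unfold AnIndep at hdep
  push Not at hdep
  obtain ⟨s, f, hf, he, α, hα⟩ := hdep
  set m := maximalIdeal T with hm
  have hf0 : MvPolynomial.map (residue T) f ≠ 0 := by
    intro h
    have := congrArg (MvPolynomial.coeff α) h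
    rw [MvPolynomial.coeff_map, MvPolynomial.coeff_zero, residue_eq_zero_iff] at this
    exact hα this
  obtain ⟨v, hv0, hv⟩ := exists_eval_ne_zero_one (hf.map (residue T)) hf0
  have hsurj : Function.Surjective fun y : P => residue T (π y) :=
    residue_surjective.comp hπ
  choose l hl using fun i : Fin δ => hsurj (v i.succ)
  let lam : Fin (δ + 1) → T := Fin.cons 1 fun i => π (l i)
  have hlam : ∀ i, residue T (lam i) = v i := by
    intro i
    refine Fin.cases ?_ (fun j => ?_) i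
    · simp [lam, hv0]
    · simpa [lam] using hl j
  have hunit : IsUnit (MvPolynomial.eval lam f) := by
    rw [← residue_ne_zero_iff_isUnit]
    have : residue T (MvPolynomial.eval lam f) =
        MvPolynomial.eval v (MvPolynomial.map (residue T) f) := by
      rw [MvPolynomial.eval_map, ← MvPolynomial.eval₂_id, MvPolynomial.eval₂_comp_left]
      congr 1
      exact funext hlam
    rwa [this]
  set J := Ideal.span (Set.range (π ∘ fun i : Fin δ => x i.succ - l i * x 0)) with hJ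
  have hJm : J ≤ m := by
    rw [hJ, Ideal.span_le]
    rintro _ ⟨i, rfl⟩
    simp only [Function.comp, map_sub, map_mul]
    exact m.sub_mem (hx _) (m.mul_mem_left _ (hx 0))
  have hrel : ∀ i, RedRel J m 1 ((π ∘ x) i) (lam i * π (x 0)) := by
    intro i
    refine ⟨by simpa using hx i, by simpa using m.mul_mem_left _ (hx 0), fun z hz => ?_⟩
    rw [pow_one]
    refine Ideal.mul_mem_mul ?_ hz
    refine Fin.cases ?_ (fun j => ?_) i
    · simp [lam]
    · refine Ideal.subset_span ⟨j, ?_⟩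
      simp [lam]
  have hkey : Ideal.span {π (x 0) ^ s} * m ≤ J * m ^ s ⊔ m ^ (s + 2) := by
    rw [Ideal.span_singleton_mul_le_iff]
    intro z hz
    have h1 := eval_sub_eval_mul_mem hf _ _ hrel z hz
    rw [eval_mul_homog hf] at h1
    have h2 : MvPolynomial.eval (π ∘ x) f * z ∈ m ^ (s + 2) := by
      rw [pow_succ]; exact Ideal.mul_mem_mul he hz
    have h3 : MvPolynomial.eval lam f * (π (x 0) ^ s * z) ∈ J * m ^ s ⊔ m ^ (s + 2) := by
      have e : MvPolynomial.eval lam f * (π (x 0) ^ s * z) =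
          MvPolynomial.eval (π ∘ x) f * z -
            (MvPolynomial.eval (π ∘ x) f - MvPolynomial.eval lam f * π (x 0) ^ s) * z := by ring
      rw [e]
      exact Ideal.sub_mem _ (Ideal.mem_sup_right h2) (Ideal.mem_sup_left h1)
    exact (Ideal.unit_mul_mem_iff_mem _ hunit).1 h3
  have hI : Ideal.span (Set.range (π ∘ x)) ≤ J ⊔ Ideal.span {π (x 0)} := by
    rw [Ideal.span_le]
    rintro _ ⟨i, rfl⟩
    refine Fin.cases ?_ (fun j => ?_) i
    · exact Ideal.mem_sup_right (Ideal.mem_span_singleton_self _)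
    · have e : (π ∘ x) j.succ = π (x j.succ - l j * x 0) + π (l j) * π (x 0) := by simp
      rw [e]
      exact Ideal.add_mem _ (Ideal.mem_sup_left (Ideal.subset_span ⟨j, rfl⟩))
        (Ideal.mem_sup_right (Ideal.mul_mem_left _ _ (Ideal.mem_span_singleton_self _)))
  refine ⟨l, s + C, ?_⟩
  have h1 : m ^ (s + C + 1) ≤ J * m ^ (s + C) ⊔ m • m ^ (s + C + 1) := by
    calc m ^ (s + C + 1) = m ^ (s + C) * m := by ring
      _ ≤ Ideal.span (Set.range (π ∘ x)) ^ s * m ^ C * m :=
        Ideal.mul_mono_left (pow_add_le_of_succ_le hC s)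
      _ ≤ (J ⊔ Ideal.span {π (x 0)}) ^ s * m ^ C * m :=
        Ideal.mul_mono_left (Ideal.mul_mono_left (Ideal.pow_right_mono hI s))
      _ = ((J ⊔ Ideal.span {π (x 0)}) ^ s * m) * m ^ C := by ring
      _ ≤ (J * m ^ s ⊔ m ^ (s + 2)) * m ^ C :=
        Ideal.mul_mono_left ((sup_pow_mul_le hJm (hx 0) s).trans (sup_le le_sup_left hkey))
      _ = J * m ^ (s + C) ⊔ m • m ^ (s + C + 1) := by
        rw [Ideal.sup_mul, smul_eq_mul]
        congr 1
        · ring
        · ring
  exact Submodule.le_of_le_smul_of_le_jacobson_bot hfg.pow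
    (by rw [jacobson_eq_maximalIdeal ⊥ bot_ne_top]) h1

theorem exists_reduction_aux {P T : Type*} [CommRing P] [CommRing T] [IsLocalRing T]
    [Infinite (ResidueField T)] (π : P →+* T) (hπ : Function.Surjective π)
    (hfg : (maximalIdeal T).FG) (δ : ℕ) :
    ∀ (ε : ℕ) (x : Fin δ → P) (x' : Fin ε → P), (∀ i, π (x i) ∈ maximalIdeal T) →
      (∃ C : ℕ, maximalIdeal T ^ (C + 1) ≤
        Ideal.span (Set.range (π ∘ x)) * maximalIdeal T ^ C) →
      ∃ (δ₂ ε₂ : ℕ) (y : Fin δ₂ → P) (y' : Fin ε₂ → P), δ₂ + ε₂ = δ + ε ∧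
        Ideal.span (Set.range y ∪ Set.range y') = Ideal.span (Set.range x ∪ Set.range x') ∧
        (∃ C : ℕ, maximalIdeal T ^ (C + 1) ≤
          Ideal.span (Set.range (π ∘ y)) * maximalIdeal T ^ C) ∧ AnIndep (π ∘ y) := by
  induction δ with
  | zero => exact fun ε x x' _ hC => ⟨0, ε, x, x', rfl, rfl, hC, anIndep_zero _⟩
  | succ δ ih =>
    rintro ε x x' hx ⟨C, hC⟩
    by_cases hdep : AnIndep (π ∘ x)
    · exact ⟨δ + 1, ε, x, x', rfl, rfl, ⟨C, hC⟩, hdep⟩
    obtain ⟨l, C', hC'⟩ := reduction_step π hπ hfg x hx C hC hdep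
    obtain ⟨δ₂, ε₂, y, y', h1, h2, h3, h4⟩ := ih (ε + 1) (fun i => x i.succ - l i * x 0)
      (Fin.cons (x 0) x') (fun i => by
        rw [map_sub, map_mul]
        exact Ideal.sub_mem _ (hx _) (Ideal.mul_mem_left _ _ (hx 0))) ⟨C', hC'⟩
    refine ⟨δ₂, ε₂, y, y', by omega, h2.trans ?_, h3, h4⟩
    apply le_antisymm
    · rw [Ideal.span_le]
      rintro _ (⟨i, rfl⟩ | ⟨i, rfl⟩)
      · exact Ideal.sub_mem _ (Ideal.subset_span (Or.inl ⟨_, rfl⟩))
          (Ideal.mul_mem_left _ _ (Ideal.subset_span (Or.inl ⟨_, rfl⟩)))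
      · refine Fin.cases ?_ (fun j => ?_) i
        · exact Ideal.subset_span (Or.inl ⟨0, rfl⟩)
        · exact Ideal.subset_span (Or.inr ⟨j, rfl⟩)
    · rw [Ideal.span_le]
      have h0 : x 0 ∈ Ideal.span (Set.range (fun i : Fin δ => x i.succ - l i * x 0) ∪
          Set.range (Fin.cons (x 0) x' : Fin (ε + 1) → P)) :=
        Ideal.subset_span (Or.inr ⟨0, rfl⟩)
      rintro _ (⟨i, rfl⟩ | ⟨i, rfl⟩)
      · refine Fin.cases h0 (fun j => ?_) i
        have e : x j.succ = (x j.succ - l j * x 0) + l j * x 0 := by ring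
        rw [e]
        exact Ideal.add_mem _ (Ideal.subset_span (Or.inl ⟨j, rfl⟩)) (Ideal.mul_mem_left _ _ h0)
      · exact Ideal.subset_span (Or.inr ⟨i.succ, rfl⟩)

theorem exists_reduction (P T : Type*) [CommRing P] [CommRing T] [IsLocalRing T]
    [Infinite (ResidueField T)] (π : P →+* T) (hπ : Function.Surjective π) {r : ℕ} (Y : Fin r → P)
    (hY : Ideal.span (Set.range (π ∘ Y)) = maximalIdeal T) :
    ∃ (δ ε : ℕ) (x : Fin δ → P) (x' : Fin ε → P), δ + ε = r ∧
      Ideal.span (Set.range x ∪ Set.range x') = Ideal.span (Set.range Y) ∧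
      (∃ C : ℕ, ∀ t, maximalIdeal T ^ (t + C) ≤ Ideal.span (Set.range (π ∘ x)) ^ t) ∧
      AnIndep (π ∘ x) := by
  have hfg : (maximalIdeal T).FG := by
    rw [← hY]
    exact Submodule.fg_span (Set.finite_range _)
  obtain ⟨δ, ε, y, y', h1, h2, ⟨C, hC⟩, h4⟩ := exists_reduction_aux π hπ hfg r 0 Y Fin.elim0
    (fun i => by rw [← hY]; exact Ideal.subset_span ⟨i, rfl⟩) ⟨0, by rw [hY]; simp⟩
  refine ⟨δ, ε, y, y', h1, h2.trans (by simp), ⟨C, fun t => ?_⟩, h4⟩
  exact (pow_add_le_of_succ_le hC t).trans Ideal.mul_le_left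

end Vale.Agent.P202
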