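import Vale.Agent.P202.GrowthPS
import Vale.Agent.P202.Reduction

/-! Maps from power series rings into complete local algebras. -/

namespace Vale.Agent.P202

open IsLocalRing

section Complete

variable {R : Type*} [CommRing R] {I : Ideal R}

theorem mem_smul_top_pi_iff {ι : Type*} [Finite ι] (J : Ideal R) (v : ι → R) :
    v ∈ (J • ⊤ : Submodule R (ι → R)) ↔ ∀ i, v i ∈ J := by
  classical
  constructor
  · intro h i
    refine Submodule.smul_induction_on h (fun r hr w _ => ?_) (fun a b ha hb => ?_)
    · exact J.mul_mem_right _ hr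
    · exact J.add_mem ha hb
  · intro h
    have := Fintype.ofFinite ι
    rw [← Finset.univ_sum_single v]
    refine Submodule.sum_mem _ fun i _ => ?_
    have e : (Pi.single i (v i) : ι → R) = v i • (Pi.single i 1 : ι → R) := by
      rw [← Pi.single_smul, smul_eq_mul, mul_one]
    rw [e]
    exact Submodule.smul_mem_smul (h i) Submodule.mem_top

theorem isPrecomplete_pi {ι : Type*} [Finite ι] [h : IsPrecomplete I R] :
    IsPrecomplete I (ι → R) := by
  constructor
  intro f hf
  have key : ∀ i, ∃ L : R, ∀ n, f n i ≡ L [SMOD (I ^ n • ⊤ : Submodule R R)] := by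
    intro i
    refine h.prec (f := fun n => f n i) fun {m n} hmn => ?_
    have := hf hmn
    rw [SModEq.sub_mem] at this ⊢
    simpa using (mem_smul_top_pi_iff _ _).1 this i
  choose L hL using key
  refine ⟨L, fun n => ?_⟩
  rw [SModEq.sub_mem, mem_smul_top_pi_iff]
  intro i
  have := hL i n
  rw [SModEq.sub_mem] at this
  simpa using this

theorem isPrecomplete_of_surjective {M N : Type*} [AddCommGroup M] [Module R M] [AddCommGroup N]
    [Module R N] [IsPrecomplete I M] (g : M →ₗ[R] N) (hg : Function.Surjective g) :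
    IsPrecomplete I N := by
  rw [← AdicCompletion.of_surjective_iff]
  intro y
  obtain ⟨x', rfl⟩ := AdicCompletion.map_surjective I hg y
  obtain ⟨x, rfl⟩ := AdicCompletion.of_surjective I M x'
  exact ⟨g x, (AdicCompletion.map_of I g x).symm⟩

theorem isPrecomplete_of_finite (M : Type*) [AddCommGroup M] [Module R M] [Module.Finite R M]
    [IsPrecomplete I R] : IsPrecomplete I M := by
  obtain ⟨n, g, hg⟩ := Module.Finite.exists_fin' R M
  have : IsPrecomplete I (Fin n → R) := isPrecomplete_pi
  exact isPrecomplete_of_surjective g hg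

theorem isPrecomplete_of_pow_le {J : Ideal R} {L : ℕ} (h1 : J ^ L ≤ I) (h2 : I ≤ J)
    [h : IsPrecomplete I R] : IsPrecomplete J R := by
  constructor
  intro f hf
  simp only [SModEq.sub_mem, smul_eq_mul, Ideal.mul_top] at hf ⊢
  have hle : ∀ n, J ^ ((L + 1) * n) ≤ I ^ n := fun n => by
    rw [pow_mul]
    exact Ideal.pow_right_mono ((Ideal.pow_le_pow_right (Nat.le_succ L)).trans h1) n
  obtain ⟨y, hy⟩ := h.prec (f := fun n => f ((L + 1) * n)) fun {m n} hmn => by
    simp only [SModEq.sub_mem, smul_eq_mul, Ideal.mul_top]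
    exact hle m (hf (Nat.mul_le_mul_left _ hmn))
  simp only [SModEq.sub_mem, smul_eq_mul, Ideal.mul_top] at hy
  refine ⟨y, fun n => ?_⟩
  have e : f n - y = (f n - f ((L + 1) * n)) + (f ((L + 1) * n) - y) := by ring
  rw [e]
  exact Ideal.add_mem _ (hf (Nat.le_mul_of_pos_left n (Nat.succ_pos L)))
    (Ideal.pow_right_mono h2 n (hy n))

/-- complete Nakayama: generators modulo `I` generate. -/
theorem surjective_linearCombination {M : Type*} [AddCommGroup M] [Module R M] [IsPrecomplete I R]
    [IsHausdorff I M] {ι : Type*} [Fintype ι] (t : ι → M)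
    (ht : ∀ y : M, ∃ c : ι → R, y - ∑ i, c i • t i ∈ (I • ⊤ : Submodule R M)) :
    Function.Surjective (Fintype.linearCombination R t) := by
  have : IsPrecomplete I (ι → R) := isPrecomplete_pi
  refine surjective_of_mkQ_comp_surjective (I := I) fun y => ?_
  obtain ⟨y, rfl⟩ := Submodule.mkQ_surjective _ y
  obtain ⟨c, hc⟩ := ht y
  refine ⟨c, ?_⟩
  rw [LinearMap.comp_apply, Submodule.mkQ_apply, Submodule.mkQ_apply, eq_comm,
    Submodule.Quotient.eq, Fintype.linearCombination_apply]
  exact hc

end Complete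

/-- A complete local `K`-algebra with residue field `K` and finitely generated maximal ideal. -/
structure IsCL (K T : Type*) [Field K] [CommRing T] [IsLocalRing T] [Algebra K T] : Prop where
  complete : IsAdicComplete (maximalIdeal T) T
  fg : (maximalIdeal T).FG
  res : ∀ x : T, ∃ a : K, x - algebraMap K T a ∈ maximalIdeal T

variable {K T : Type*} [Field K] [CommRing T] [IsLocalRing T] [Algebra K T]

theorem IsCL.exists_fg_sup (h : IsCL K T) (N : ℕ) :
    ∃ V : Submodule K T, V.FG ∧ ∀ y : T, ∃ v ∈ V, y - v ∈ maximalIdeal T ^ N := by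
  induction N with
  | zero => exact ⟨⊥, Submodule.fg_bot, fun y => ⟨0, Submodule.zero_mem _, by simp⟩⟩
  | succ N ih =>
    obtain ⟨V, hV, hV'⟩ := ih
    obtain ⟨G, hG⟩ := (h.fg.pow : (maximalIdeal T ^ N).FG)
    have key : ∀ z ∈ Ideal.span (G : Set T), ∀ r : T, ∃ w ∈ Submodule.span K (G : Set T),
        r * z - w ∈ maximalIdeal T ^ (N + 1) := by
      intro z hz
      induction hz using Submodule.span_induction with
      | mem g hg =>
        intro r
        obtain ⟨a, ha⟩ := h.res r
        refine ⟨a • g, Submodule.smul_mem _ _ (Submodule.subset_span hg), ?_⟩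
        rw [Algebra.smul_def, ← sub_mul, pow_succ']
        exact Ideal.mul_mem_mul ha (hG ▸ Ideal.subset_span hg)
      | zero => exact fun r => ⟨0, Submodule.zero_mem _, by simp⟩
      | add a b _ _ ha hb =>
        intro r
        obtain ⟨w, hw, hw'⟩ := ha r
        obtain ⟨u, hu, hu'⟩ := hb r
        refine ⟨w + u, Submodule.add_mem _ hw hu, ?_⟩
        have e : r * (a + b) - (w + u) = (r * a - w) + (r * b - u) := by ring
        rw [e]
        exact Ideal.add_mem _ hw' hu'
      | smul c a _ ha =>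
        intro r
        obtain ⟨w, hw, hw'⟩ := ha (r * c)
        exact ⟨w, hw, by rwa [smul_eq_mul, ← mul_assoc]⟩
    refine ⟨V ⊔ Submodule.span K (G : Set T), hV.sup (Submodule.fg_span G.finite_toSet),
      fun y => ?_⟩
    obtain ⟨v, hv, hv'⟩ := hV' y
    obtain ⟨w, hw, hw'⟩ := key (y - v) (hG ▸ hv') 1
    refine ⟨v + w, Submodule.add_mem_sup hv hw, ?_⟩
    rwa [one_mul, sub_sub] at hw'

/-- finitely many elements span `T` over `K` modulo a power of the maximal ideal. -/
theorem IsCL.exists_span (h : IsCL K T) (N : ℕ) :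
    ∃ (l : ℕ) (t : Fin l → T), ∀ y : T, ∃ c : Fin l → K,
      y - ∑ i, c i • t i ∈ maximalIdeal T ^ N := by
  obtain ⟨V, hV, hV'⟩ := h.exists_fg_sup N
  obtain ⟨l, t, ht⟩ := Submodule.fg_iff_exists_fin_generating_family.1 hV
  refine ⟨l, t, fun y => ?_⟩
  obtain ⟨v, hv, hv'⟩ := hV' y
  rw [← ht, Submodule.mem_span_range_iff_exists_fun] at hv
  obtain ⟨c, rfl⟩ := hv
  exact ⟨c, hv'⟩

theorem IsCL.finite_quot (h : IsCL K T) {N : ℕ} {J : Ideal T} (hJ : maximalIdeal T ^ N ≤ J) :
    Module.Finite K (T ⧸ J) := by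
  obtain ⟨l, t, ht⟩ := h.exists_span N
  refine Module.Finite.of_surjective
    (Fintype.linearCombination K fun i => Ideal.Quotient.mkₐ K J (t i)) fun y => ?_
  obtain ⟨y, rfl⟩ := Ideal.Quotient.mkₐ_surjective K J y
  obtain ⟨c, hc⟩ := ht y
  refine ⟨c, ?_⟩
  rw [Fintype.linearCombination_apply]
  simp only [← map_smul, ← map_sum]
  rw [eq_comm, Ideal.Quotient.mkₐ_eq_mk, Ideal.Quotient.eq]
  exact hJ hc

theorem aeval_mem_pow {δ : ℕ} (x : Fin δ → T) (hx : ∀ i, x i ∈ maximalIdeal T) (n : ℕ)
    (p : MvPolynomial (Fin δ) K) (hp : p ∈ MvPolynomial.idealOfVars (Fin δ) K ^ n) :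
    MvPolynomial.aeval x p ∈ maximalIdeal T ^ n := by
  have h1 : (MvPolynomial.idealOfVars (Fin δ) K).map (MvPolynomial.aeval (R := K) x) ≤
      maximalIdeal T := by
    rw [Ideal.map_span, Ideal.span_le]
    rintro _ ⟨_, ⟨i, rfl⟩, rfl⟩
    simpa using hx i
  have h2 := Ideal.mem_map_of_mem (MvPolynomial.aeval (R := K) x) hp
  rw [Ideal.map_pow] at h2
  exact Ideal.pow_right_mono h1 n h2

theorem IsCL.exists_psMap_aux (h : IsCL K T) {δ : ℕ} (x : Fin δ → T)
    (hx : ∀ i, x i ∈ maximalIdeal T) :
    ∃ ψ : PS K δ →ₐ[K] T, ∀ (n : ℕ) (f : PS K δ),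
      ψ f - MvPolynomial.aeval x (MvPowerSeries.truncTotal n f) ∈ maximalIdeal T ^ n := by
  have := h.complete
  let φ : (n : ℕ) → PS K δ →ₐ[K] T ⧸ maximalIdeal T ^ n := fun n =>
    (Ideal.Quotient.liftₐ (MvPolynomial.idealOfVars (Fin δ) K ^ n)
      ((Ideal.Quotient.mkₐ K (maximalIdeal T ^ n)).comp (MvPolynomial.aeval x))
      (fun p hp => Ideal.Quotient.eq_zero_iff_mem.2 (aeval_mem_pow x hx n p hp))).comp
      ((MvPowerSeries.truncTotalAlgHom (Fin δ) K n).restrictScalars K)
  have hφ : ∀ n f, φ n f = Ideal.Quotient.mk (maximalIdeal T ^ n)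
      (MvPolynomial.aeval x (MvPowerSeries.truncTotal n f)) := fun n f => rfl
  have hcomp : ∀ {m n : ℕ} (hle : m ≤ n),
      (Ideal.Quotient.factorₐ K (Ideal.pow_le_pow_right hle)).comp (φ n) = φ m := by
    intro m n hle
    ext f
    rw [AlgHom.comp_apply, hφ, hφ]
    change Ideal.Quotient.mk (maximalIdeal T ^ m) _ = _
    rw [Ideal.Quotient.eq, ← map_sub]
    exact aeval_mem_pow x hx m _
      (MvPowerSeries.truncTotal_sub_truncTotal_mem_pow_idealOfVars hle le_rfl f)
  refine ⟨IsAdicComplete.liftAlgHom (maximalIdeal T) φ hcomp, fun n f => ?_⟩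
  rw [← Ideal.Quotient.eq, ← hφ]
  exact IsAdicComplete.mk_liftAlgHom (maximalIdeal T) φ hcomp n f

theorem IsCL.exists_psMap (h : IsCL K T) {δ : ℕ} (x : Fin δ → T) (hx : ∀ i, x i ∈ maximalIdeal T) :
    ∃ ψ : PS K δ →ₐ[K] T, (∀ i, ψ (MvPowerSeries.X i) = x i) ∧
      ((∃ C : ℕ, maximalIdeal T ^ C ≤ Ideal.span (Set.range x)) → ψ.toRingHom.Finite) ∧
      (Ideal.span (Set.range x) = maximalIdeal T → Function.Surjective ψ) ∧
      (AnIndep x → Function.Injective ψ) := by
  have := h.complete
  obtain ⟨ψ, hψ⟩ := h.exists_psMap_aux x hx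
  have hX : ∀ i, ψ (MvPowerSeries.X i) = x i := by
    intro i
    rw [IsHausdorff.eq_iff_smodEq (I := maximalIdeal T)]
    intro n
    simp only [SModEq.sub_mem, smul_eq_mul, Ideal.mul_top]
    have h1 := hψ n (MvPowerSeries.X i)
    have h2 : MvPowerSeries.truncTotal n (MvPowerSeries.X i : PS K δ) - MvPolynomial.X i ∈
        MvPolynomial.idealOfVars (Fin δ) K ^ n := by
      rw [MvPolynomial.mem_pow_idealOfVars_iff']
      intro α hα
      rw [MvPolynomial.coeff_sub, MvPowerSeries.coeff_truncTotal _ hα, ← MvPolynomial.coe_X,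
        MvPolynomial.coeff_coe, sub_self]
    have h3 := aeval_mem_pow x hx n _ h2
    rw [map_sub, MvPolynomial.aeval_X] at h3
    have := Ideal.add_mem _ h1 h3
    rwa [sub_add_sub_cancel] at this
  have hmap : (Ideal.span (Set.range (MvPowerSeries.X : Fin δ → PS K δ))).map ψ.toRingHom =
      Ideal.span (Set.range x) := by
    rw [Ideal.map_span, ← Set.range_comp]
    congr 2
    exact funext hX
  have hxm : Ideal.span (Set.range x) ≤ maximalIdeal T := by
    rw [Ideal.span_le]
    rintro _ ⟨i, rfl⟩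
    exact hx i
  refine ⟨ψ, hX, ?_, ?_, ?_⟩
  · rintro ⟨C, hC⟩
    let := ψ.toRingHom.toAlgebra
    have hH : IsHausdorff (Ideal.span (Set.range (MvPowerSeries.X : Fin δ → PS K δ))) T :=
      IsHausdorff.of_map (S := T) (J := maximalIdeal T) (hmap.le.trans hxm)
    obtain ⟨l, t, ht⟩ := h.exists_span C
    have hs := surjective_linearCombination
      (I := Ideal.span (Set.range (MvPowerSeries.X : Fin δ → PS K δ))) t (fun y => by
        obtain ⟨c, hc⟩ := ht y
        refine ⟨fun i => algebraMap K _ (c i), ?_⟩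
        rw [Ideal.smul_top_eq_map, Submodule.restrictScalars_mem]
        have e : ∀ i, algebraMap K (PS K δ) (c i) • t i = c i • t i := fun i => by
          change ψ (algebraMap K (PS K δ) (c i)) * t i = _
          rw [ψ.commutes, Algebra.smul_def]
        simp only [e]
        exact hmap.ge (hC hc))
    exact Module.Finite.of_surjective _ hs
  · intro hm
    have hH : IsHausdorff
        ((Ideal.span (Set.range (MvPowerSeries.X : Fin δ → PS K δ))).map ψ.toRingHom) T := by
      rw [hmap, hm]; infer_instance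
    refine surjective_of_mk_map_comp_surjective
      (I := Ideal.span (Set.range (MvPowerSeries.X : Fin δ → PS K δ))) ψ.toRingHom fun y => ?_
    obtain ⟨y, rfl⟩ := Ideal.Quotient.mk_surjective y
    obtain ⟨a, ha⟩ := h.res y
    refine ⟨algebraMap K _ a, ?_⟩
    rw [RingHom.comp_apply, eq_comm, Ideal.Quotient.eq, hmap, hm]
    change y - ψ (algebraMap K _ a) ∈ _
    rwa [ψ.commutes]
  · intro hind
    rw [injective_iff_map_eq_zero]
    intro f hf
    have key : ∀ s : ℕ, ∀ α : Fin δ →₀ ℕ, α.degree = s → MvPowerSeries.coeff α f = 0 := by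
      intro s
      induction s using Nat.strong_induction_on with
      | _ s ih =>
        intro α hα
        have hhom : (MvPowerSeries.truncTotal (s + 1) f).IsHomogeneous s := by
          intro β hβ
          change Finsupp.weight (fun _ => 1) β = s
          rw [← Finsupp.degree_eq_weight_one]
          by_contra hne
          apply hβ
          rw [MvPowerSeries.coeff_truncTotal_eq_ite]
          split_ifs with hlt
          · exact ih _ (by omega) β rfl
          · rfl
        have h1 := hψ (s + 1) f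
        rw [hf, zero_sub, Ideal.neg_mem_iff, MvPolynomial.aeval_def, ← MvPolynomial.eval_map] at h1
        have h2 := hind s _ (hhom.map (algebraMap K T)) h1 α
        rw [MvPolynomial.coeff_map, MvPowerSeries.coeff_truncTotal _ (by omega)] at h2
        by_contra hne
        exact h2 ((IsUnit.mk0 _ hne).map (algebraMap K T))
    ext α
    rw [key _ α rfl, map_zero]

theorem IsCL.exists_surj (h : IsCL K T) :
    ∃ (δ : ℕ) (ψ : PS K δ →ₐ[K] T), Function.Surjective ψ := by
  obtain ⟨δ, x, hx⟩ := Submodule.fg_iff_exists_fin_generating_family.1 h.fg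
  have hx' : Ideal.span (Set.range x) = maximalIdeal T := hx
  obtain ⟨ψ, -, -, h3, -⟩ := h.exists_psMap x fun i => hx' ▸ Ideal.subset_span ⟨i, rfl⟩
  exact ⟨δ, ψ, h3 hx'⟩

theorem IsCL.isNoetherianRing (h : IsCL K T) : IsNoetherianRing T := by
  obtain ⟨δ, ψ, hψ⟩ := h.exists_surj
  exact isNoetherianRing_of_surjective _ _ ψ.toRingHom hψ

/-- a local ring that is finite over a power series ring, with residue field `K`, is complete. -/
theorem isCL_of_finite {d : ℕ} [Algebra (PS K d) T] [IsScalarTower K (PS K d) T]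
    [Module.Finite (PS K d) T]
    (hres : ∀ x : T, ∃ a : K, x - algebraMap K T a ∈ maximalIdeal T) : IsCL K T := by
  have hN : IsNoetherianRing T := IsNoetherianRing.of_finite (PS K d) T
  have hfg : (maximalIdeal T).FG := IsNoetherian.noetherian _
  refine ⟨?_, hfg, hres⟩
  set I : Ideal (PS K d) := Ideal.span (Set.range MvPowerSeries.X) with hI
  have hIm : I = maximalIdeal (PS K d) := varIdeal_eq_maximalIdeal
  have h1 : IsPrecomplete I T := isPrecomplete_of_finite T
  have h2 : IsPrecomplete (I.map (algebraMap (PS K d) T)) T :=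
    IsPrecomplete.map_algebraMap_iff.2 h1
  have h3 : I.map (algebraMap (PS K d) T) ≤ maximalIdeal T := by
    rw [Ideal.map_le_iff_le_comap, hIm]
    exact (eq_maximalIdeal
      (Ideal.isMaximal_comap_of_isIntegral_of_isMaximal (R := PS K d) (maximalIdeal T))).ge
  have h4 : maximalIdeal T ≤ (I.map (algebraMap (PS K d) T)).radical := by
    rw [Ideal.radical_eq_sInf, le_sInf_iff]
    rintro Q ⟨hQ, hQ'⟩
    have h5 : (Q.comap (algebraMap (PS K d) T)).IsMaximal := by
      have h6 : maximalIdeal (PS K d) ≤ Q.comap (algebraMap (PS K d) T) := by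
        rw [← hIm, ← Ideal.map_le_iff_le_comap]; exact hQ
      rw [← (maximalIdeal.isMaximal (PS K d)).eq_of_le (Ideal.comap_ne_top _ hQ'.ne_top) h6]
      infer_instance
    exact (eq_maximalIdeal (Ideal.isMaximal_of_isIntegral_of_isMaximal_comap Q h5)).ge
  obtain ⟨L, hL⟩ := Ideal.exists_pow_le_of_le_radical_of_fg h4 hfg
  have h7 : IsPrecomplete (maximalIdeal T) T := isPrecomplete_of_pow_le hL h3
  exact {}

theorem IsCL.quotient (h : IsCL K T) (I : Ideal T) [Nontrivial (T ⧸ I)] :
    haveI := IsLocalRing.of_surjective' (Ideal.Quotient.mk I) Ideal.Quotient.mk_surjective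
    IsCL K (T ⧸ I) := by
  have := IsLocalRing.of_surjective' (Ideal.Quotient.mk I) Ideal.Quotient.mk_surjective
  obtain ⟨δ, ψ, hψ⟩ := h.exists_surj
  let χ : PS K δ →ₐ[K] T ⧸ I := (Ideal.Quotient.mkₐ K I).comp ψ
  have hχ : Function.Surjective χ := (Ideal.Quotient.mkₐ_surjective K I).comp hψ
  let : Algebra (PS K δ) (T ⧸ I) := χ.toRingHom.toAlgebra
  have : IsScalarTower K (PS K δ) (T ⧸ I) :=
    IsScalarTower.of_algebraMap_eq fun a => (χ.commutes a).symm
  have : Module.Finite (PS K δ) (T ⧸ I) := RingHom.Finite.of_surjective χ.toRingHom hχ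
  refine isCL_of_finite (d := δ) fun y => ?_
  obtain ⟨y, rfl⟩ := Ideal.Quotient.mk_surjective y
  obtain ⟨a, ha⟩ := h.res y
  refine ⟨a, ?_⟩
  have : IsLocalHom (Ideal.Quotient.mk I) :=
    IsLocalHom.of_surjective _ Ideal.Quotient.mk_surjective
  exact map_nonunit (Ideal.Quotient.mk I) _ ha

/-- numerical criterion for freeness. -/
theorem free_of_finrank {R S : Type*} [CommRing R] [IsLocalRing R] [Algebra K R] [CommRing S]
    [IsLocalRing S] [Algebra K S] [Algebra R S] [IsScalarTower K R S]
    [IsLocalHom (algebraMap R S)] (hR : IsCL K R) (hS : IsCL K S) (L : ℕ)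
    (hL : maximalIdeal S ^ L ≤ (maximalIdeal R).map (algebraMap R S))
    (hnum : ∀ N : ℕ, Module.finrank K (S ⧸ (maximalIdeal R ^ N).map (algebraMap R S)) =
      Module.finrank K (R ⧸ maximalIdeal R ^ N) *
        Module.finrank K (S ⧸ (maximalIdeal R).map (algebraMap R S))) :
    Module.Free R S ∧ Module.Finite R S := by
  have := hR.complete
  have := hS.complete
  have hfin := hS.finite_quot hL
  set l := Module.finrank K (S ⧸ (maximalIdeal R).map (algebraMap R S)) with hl
  let b := Module.finBasis K (S ⧸ (maximalIdeal R).map (algebraMap R S))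
  choose t ht using fun i => Ideal.Quotient.mk_surjective (b i)
  have hH : IsHausdorff (maximalIdeal R) S :=
    IsHausdorff.of_map (S := S) (J := maximalIdeal S) (map_maximalIdeal_le _)
  have hs : Function.Surjective (Fintype.linearCombination R t) := by
    refine surjective_linearCombination (I := maximalIdeal R) t fun y => ?_
    refine ⟨fun i => algebraMap K R (b.repr (Ideal.Quotient.mk _ y) i), ?_⟩
    rw [Ideal.smul_top_eq_map, Submodule.restrictScalars_mem, ← Ideal.Quotient.eq]
    conv_lhs => rw [← b.sum_repr (Ideal.Quotient.mk _ y)]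
    rw [map_sum]
    refine Finset.sum_congr rfl fun i _ => ?_
    rw [algebraMap_smul, ← ht]
    rfl
  have hi : Function.Injective (Fintype.linearCombination R t) := by
    rw [injective_iff_map_eq_zero]
    intro v hv
    ext i
    rw [IsHausdorff.eq_iff_smodEq (I := maximalIdeal R)]
    intro N
    simp only [SModEq.sub_mem, smul_eq_mul, Ideal.mul_top, Pi.zero_apply, sub_zero]
    have hfinR : Module.Finite K (R ⧸ maximalIdeal R ^ N) := hR.finite_quot le_rfl
    let q : (R ⧸ maximalIdeal R ^ N) →ₐ[K] S ⧸ (maximalIdeal R ^ N).map (algebraMap R S) :=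
      Ideal.quotientMapₐ _ (IsScalarTower.toAlgHom K R S) Ideal.le_comap_map
    let g : (Fin l → R ⧸ maximalIdeal R ^ N) →ₗ[K]
        S ⧸ (maximalIdeal R ^ N).map (algebraMap R S) :=
      ∑ j, (LinearMap.mulRight K (Ideal.Quotient.mk _ (t j))).comp
        (q.toLinearMap.comp (LinearMap.proj j))
    have hg : ∀ w : Fin l → R, g (fun j => Ideal.Quotient.mk _ (w j)) =
        Ideal.Quotient.mk _ (Fintype.linearCombination R t w) := by
      intro w
      rw [Fintype.linearCombination_apply, map_sum, LinearMap.sum_apply]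
      refine Finset.sum_congr rfl fun j _ => ?_
      rw [Algebra.smul_def, map_mul]
      rfl
    have hgs : Function.Surjective g := by
      intro y
      obtain ⟨y, rfl⟩ := Ideal.Quotient.mk_surjective y
      obtain ⟨w, rfl⟩ := hs y
      exact ⟨_, hg w⟩
    have hfinS : Module.Finite K (S ⧸ (maximalIdeal R ^ N).map (algebraMap R S)) :=
      Module.Finite.of_surjective g hgs
    have hgi : Function.Injective g := by
      refine (LinearMap.injective_iff_surjective_of_finrank_eq_finrank ?_).2 hgs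
      rw [hnum, Module.finrank_pi_fintype, Finset.sum_const, Finset.card_univ, Fintype.card_fin,
        smul_eq_mul, mul_comm]
    have h0 : (fun j => Ideal.Quotient.mk (maximalIdeal R ^ N) (v j)) = 0 := by
      apply hgi
      rw [hg, hv, map_zero, map_zero]
    exact Ideal.Quotient.eq_zero_iff_mem.1 (congrFun h0 i)
  let e := LinearEquiv.ofBijective _ ⟨hi, hs⟩
  exact ⟨Module.Free.of_equiv e, Module.Finite.of_surjective _ hs⟩

end Vale.Agent.P202
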