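import Vale.Agent.P202.LC
import Vale.Agent.P202.Acyc
import Vale.Agent.P202.PSMap

/-! Auxiliary bounds for the core inequality. -/

namespace Vale.Agent.P202

open IsLocalRing Filter Topology

universe u

theorem finrank_le_of_semi {K V W : Type*} [Field K] [AddCommGroup V] [Module K V]
    [AddCommGroup W] [Module K W] (σ : K → K) (f : V →+ W) (hf : Function.Surjective f)
    (hσ : ∀ a v, f (a • v) = σ a • f v) [Module.Finite K V] :
    Module.Finite K W ∧ Module.finrank K W ≤ Module.finrank K V := by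
  let b := Module.finBasis K V
  have hspan : Submodule.span K (Set.range fun i => f (b i)) = ⊤ := by
    rw [eq_top_iff]
    rintro w -
    obtain ⟨v, rfl⟩ := hf w
    rw [← b.sum_repr v, map_sum]
    refine Submodule.sum_mem _ fun i _ => ?_
    rw [hσ]
    exact Submodule.smul_mem _ _ (Submodule.subset_span ⟨i, rfl⟩)
  refine ⟨⟨⟨(Set.finite_range fun i => f (b i)).toFinset, by simpa using hspan⟩⟩, ?_⟩
  simpa using finrank_le_of_span_eq_top hspan

theorem finrank_quot_le_of_semi {K A B V W : Type*} [Field K] [Ring A] [Ring B] [AddCommGroup V]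
    [Module K V] [Module A V] [SMul K A] [IsScalarTower K A V] [AddCommGroup W] [Module K W]
    [Module B W] [SMul K B] [IsScalarTower K B W] (σ : K → K) (f : V →+ W)
    (hf : Function.Surjective f) (hσ : ∀ a v, f (a • v) = σ a • f v) (N : Submodule A V)
    (N' : Submodule B W) (h : ∀ x ∈ N, f x ∈ N') [Module.Finite K (V ⧸ N)] :
    Module.Finite K (W ⧸ N') ∧ Module.finrank K (W ⧸ N') ≤ Module.finrank K (V ⧸ N) := by
  refine finrank_le_of_semi σ
    (QuotientAddGroup.map N.toAddSubgroup N'.toAddSubgroup f h : (V ⧸ N) →+ (W ⧸ N')) ?_ ?_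
  · intro y
    obtain ⟨y, rfl⟩ := Submodule.Quotient.mk_surjective N' y
    obtain ⟨x, rfl⟩ := hf y
    exact ⟨Submodule.Quotient.mk x, rfl⟩
  · intro a v
    obtain ⟨v, rfl⟩ := Submodule.Quotient.mk_surjective N v
    change Submodule.Quotient.mk (f (a • v)) = Submodule.Quotient.mk (σ a • f v)
    rw [hσ]

theorem finrank_quot_le_of_le {K A B V : Type*} [Field K] [Ring A] [Ring B] [AddCommGroup V]
    [Module K V] [Module A V] [SMul K A] [IsScalarTower K A V]
    [Module B V] [SMul K B] [IsScalarTower K B V] (N : Submodule A V)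
    (N' : Submodule B V) (h : ∀ x ∈ N, x ∈ N') [Module.Finite K (V ⧸ N)] :
    Module.Finite K (V ⧸ N') ∧ Module.finrank K (V ⧸ N') ≤ Module.finrank K (V ⧸ N) :=
  finrank_quot_le_of_semi id (AddMonoidHom.id V) Function.surjective_id (fun _ _ => rfl) N N' h

theorem map_maximalIdeal_le_of_finite (A R : Type*) [CommRing A] [IsLocalRing A] [CommRing R]
    [IsLocalRing R] [Algebra A R] [Module.Finite A R] {x : A} (hx : x ∈ maximalIdeal A) :
    algebraMap A R x ∈ maximalIdeal R := by
  have h := Ideal.isMaximal_comap_of_isIntegral_of_isMaximal (R := A) (maximalIdeal R)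
  rw [← eq_maximalIdeal h] at hx
  exact hx

section Free

variable {A R : Type*} [CommRing A] [CommRing R] [Algebra A R]

theorem exists_pi_iota [IsDomain A] [Module.Finite A R] :
    ∃ (c : A) (π : R →ₗ[A] (Fin (Module.finrank A R) → A))
      (ι : (Fin (Module.finrank A R) → A) →ₗ[A] R), c ≠ 0 ∧ (∀ x, ι (π x) = c • x) ∧
      ∀ y, π (ι y) = c • y := by
  obtain ⟨v, c, hv, hc, hx⟩ := exists_free_part A R
  let ι := Fintype.linearCombination A v
  have hι : Function.Injective ι := linearIndependent_iff_injective_fintypeLinearCombination.mp hv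
  have hr : ∀ x, c • x ∈ LinearMap.range ι := fun x => by
    rw [Fintype.range_linearCombination]; exact hx x
  let π := (LinearEquiv.ofInjective ι hι).symm.toLinearMap ∘ₗ
    LinearMap.codRestrict (LinearMap.range ι) (c • LinearMap.id) hr
  have h1 : ∀ x, ι (π x) = c • x := fun x =>
    congrArg Subtype.val ((LinearEquiv.ofInjective ι hι).apply_symm_apply ⟨c • x, hr x⟩)
  exact ⟨c, π, ι, hc, h1, fun y => hι (by rw [h1, map_smul])⟩

variable {E : Type} [Fintype E] [DecidableEq E] (π : R →ₗ[A] (E → A)) (ι : (E → A) →ₗ[A] R)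

/-- the block matrix over `A` of a matrix over `R`. -/
def blk {m n : Type} (φ : Matrix m n R) : Matrix (m × E) (n × E) A :=
  fun i j => π (φ i.1 j.1 * ι (Pi.single j.2 1)) i.2

theorem pi_mul_iota (z : R) (y : E → A) (k : E) :
    π (z * ι y) k = ∑ l, π (z * ι (Pi.single l 1)) k * y l := by
  conv_lhs => rw [← Finset.univ_sum_single y]
  simp only [map_sum, Finset.mul_sum, Finset.sum_apply]
  refine Finset.sum_congr rfl fun l _ => ?_
  have : (Pi.single l (y l) : E → A) = y l • (Pi.single l 1 : E → A) := by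
    rw [← Pi.single_smul, smul_eq_mul, mul_one]
  rw [this, map_smul, mul_smul_comm, map_smul, Pi.smul_apply, smul_eq_mul, mul_comm]

theorem blk_mulVec {m n : Type} [Fintype n] (φ : Matrix m n R) (y : n × E → A) (i : m × E) :
    (blk π ι φ).mulVec y i = π (∑ s, φ i.1 s * ι fun l => y (s, l)) i.2 := by
  simp only [Matrix.mulVec, dotProduct, Fintype.sum_prod_type, map_sum, Finset.sum_apply, blk]
  exact Finset.sum_congr rfl fun s _ => (pi_mul_iota π ι _ _ _).symm

theorem blk_mul {c : A} (h : ∀ x, ι (π x) = c • x) {l m n : Type} [Fintype m] (φ : Matrix l m R)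
    (ψ : Matrix m n R) : blk π ι φ * blk π ι ψ = c • blk π ι (φ * ψ) := by
  ext i j
  have h1 := blk_mulVec π ι φ (fun k => blk π ι ψ k j) i
  change (blk π ι φ).mulVec (fun k => blk π ι ψ k j) i = _
  rw [h1]
  simp only [blk, Matrix.smul_apply, Matrix.mul_apply, Finset.sum_mul]
  rw [← Pi.smul_apply, ← map_smul, Finset.smul_sum]
  refine congrArg (fun z => π z i.2) (Finset.sum_congr rfl fun s _ => ?_)
  rw [h, mul_smul_comm, mul_assoc]

theorem blk_add {m n : Type} (φ ψ : Matrix m n R) :
    blk π ι (φ + ψ) = blk π ι φ + blk π ι ψ := by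
  ext i j
  simp [blk, add_mul]

theorem blk_zero {m n : Type} : blk π ι (0 : Matrix m n R) = 0 := by
  ext i j
  simp [blk]

theorem blk_smul_one {c : A} (h : ∀ y, π (ι y) = c • y) {m : Type} [DecidableEq m] (a : A) :
    blk π ι (algebraMap A R a • (1 : Matrix m m R)) = (c * a) • (1 : Matrix (m × E) (m × E) A) := by
  ext ⟨r, k⟩ ⟨s, l⟩
  by_cases hrs : r = s
  · subst hrs
    simp only [blk, Matrix.smul_apply, Matrix.one_apply_eq, smul_eq_mul, mul_one]
    rw [← Algebra.smul_def, map_smul, h]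
    by_cases hkl : k = l
    · subst hkl; simp [mul_comm]
    · simp [hkl]
  · simp [blk, hrs]

theorem blk_mem (I : Ideal A) {m n : Type} (φ : Matrix m n R)
    (hφ : ∀ r s, φ r s ∈ I.map (algebraMap A R)) (i : m × E) (j : n × E) : blk π ι φ i j ∈ I := by
  have h1 : φ i.1 j.1 * ι (Pi.single j.2 1) ∈ I • (⊤ : Submodule A R) := by
    rw [Ideal.smul_top_eq_map]
    exact Ideal.mul_mem_right _ _ (hφ _ _)
  have h2 : π (φ i.1 j.1 * ι (Pi.single j.2 1)) ∈ I • (⊤ : Submodule A (E → A)) := by
    have := Submodule.mem_map_of_mem (f := π) h1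
    rw [Submodule.map_smul''] at this
    exact Submodule.smul_mono le_rfl le_top this
  exact (mem_smul_top_pi_iff I _).mp h2 i.2

end Free

theorem lower_bound (K : Type u) [Field K] [Infinite K] (d : ℕ) (R : Type*) [CommRing R]
    [Algebra K R] [Algebra (PS K d) R] [IsScalarTower K (PS K d) R] [Module.Finite (PS K d) R] :
    ∃ C : ℕ, ∀ (a : ℕ) (β : ℕ → Type) [∀ i, Fintype (β i)] [∀ i, DecidableEq (β i)]
      (φ : ∀ i, Matrix (β i) (β (i + 1)) R),
      (∀ i, φ i * φ (i + 1) = 0) → (∀ i, d < i → IsEmpty (β i)) →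
      (∀ i r s, φ i r s ∈ (varIdeal K d ^ a).map (algebraMap (PS K d) R)) →
      (∀ j, ∃ N : ℕ, NullHtpy φ (algebraMap (PS K d) R (MvPowerSeries.X j) ^ N)) →
      Module.Finite K ((β 0 → R) ⧸ LinearMap.range (φ 0).mulVecLin) →
      Fintype.card (β 0) * Module.finrank (PS K d) R * (a - C) ^ d ≤
        Module.finrank K ((β 0 → R) ⧸ LinearMap.range (φ 0).mulVecLin) := by
  have hdom : IsDomain (PS K d) := NoZeroDivisors.to_isDomain _
  obtain ⟨c, π, ι, hc, h1, h2⟩ := exists_pi_iota (A := PS K d) (R := R)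
  obtain ⟨C, hC⟩ := length_bound K d (c * c) (mul_ne_zero hc hc)
  refine ⟨C, fun a β _ _ φ hφφ hβ hφ hnull hfin => ?_⟩
  let ι' : (β 0 × Fin (Module.finrank (PS K d) R) → PS K d) →ₗ[PS K d] (β 0 → R) :=
    LinearMap.pi fun r => ι ∘ₗ LinearMap.funLeft _ _ fun l => (r, l)
  let f := ((LinearMap.range (φ 0).mulVecLin).mkQ.restrictScalars (PS K d)) ∘ₗ ι'
  have hinj : Function.Injective (((LinearMap.ker f).liftQ f le_rfl).restrictScalars K) := by
    change Function.Injective ((LinearMap.ker f).liftQ f le_rfl)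
    rw [← LinearMap.ker_eq_bot]
    exact Submodule.ker_liftQ_eq_bot _ _ _ le_rfl
  have key := hC a (fun i => β i × Fin (Module.finrank (PS K d) R)) (fun i => blk π ι (φ i))
    (fun i => by rw [blk_mul π ι h1, hφφ, blk_zero, smul_zero])
    (fun i hi => by haveI := hβ i hi; infer_instance)
    (fun i r s => blk_mem π ι _ _ (hφ i) r s)
    (fun j => by
      obtain ⟨N, h, hh⟩ := hnull j
      refine ⟨N, fun i => blk π ι (h i), fun i => ?_⟩
      rw [blk_mul π ι h1, blk_mul π ι h1, ← smul_add, ← blk_add, hh, ← map_pow,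
        blk_smul_one π ι h2, smul_smul, mul_assoc])
    (LinearMap.ker f)
    (fun y hy => by
      obtain ⟨z, hz⟩ := (Submodule.Quotient.mk_eq_zero _).mp (LinearMap.mem_ker.mp hy)
      refine ⟨fun j => π (z j.1) j.2, funext fun i => ?_⟩
      rw [Matrix.mulVecLin_apply, blk_mulVec]
      have h3 : ∑ s, φ 0 i.1 s * z s = ι fun l => y (i.1, l) := congrFun hz i.1
      simp only [h1, mul_smul_comm]
      rw [← Finset.smul_sum, h3, map_smul, h2, smul_smul]
      rfl)
    (Module.Finite.of_injective _ hinj)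
  rw [Fintype.card_prod, Fintype.card_fin] at key
  exact key.trans (LinearMap.finrank_le_finrank_of_injective hinj)

theorem powIdeal_smul_top {P D : Type*} [CommRing P] [CommRing D] [Algebra P D] {d : ℕ}
    (x : Fin d → P) (n : ℕ) (z : D) :
    z ∈ powIdeal x n • (⊤ : Submodule P D) ↔ z ∈ powIdeal (fun i => algebraMap P D (x i)) n := by
  rw [Ideal.smul_top_eq_map, Submodule.restrictScalars_mem, powIdeal, powIdeal, Ideal.map_span,
    ← Set.range_comp]
  simp only [Function.comp_def, map_pow]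

theorem upper_bound (K : Type*) [Field K] (d : ℕ) (D : Type*) [CommRing D] [Algebra K D]
    [Algebra (PS K d) D] [IsScalarTower K (PS K d) D] [Module.Finite (PS K d) D]
    (w : Fin d → D) (hw : ∀ i, algebraMap (PS K d) D (MvPowerSeries.X i) = w i)
    (x : Fin d → D) (c : D) (hx : AlmostReg x c)
    (hxw : ∀ j, x j ∈ (Ideal.span (Set.range w)).radical) :
    Module.Finite K (D ⧸ Ideal.span (Set.range w)) ∧
    Module.finrank K (D ⧸ Ideal.span (Set.range w)) ≤ Module.finrank (PS K d) D +
      Module.finrank K (D ⧸ (Ideal.span (Set.range w) ⊔ Ideal.span {c ^ (d * d)})) := by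
  obtain rfl : (fun i => algebraMap (PS K d) D (MvPowerSeries.X i)) = w := funext hw
  set w := fun i => algebraMap (PS K d) D (MvPowerSeries.X i)
  have hfin : ∀ n, Module.Finite K (D ⧸ powIdeal (MvPowerSeries.X : Fin d → PS K d) n •
      (⊤ : Submodule (PS K d) D)) := fun n =>
    finite_quot_of_pow_le D (d * n + 1) _ (Submodule.smul_mono_left (span_pow_le_powIdeal _ n))
  have hle := fun n => finrank_quot_le_of_le (K := K) _ (powIdeal w n)
    fun z hz => (powIdeal_smul_top (MvPowerSeries.X : Fin d → PS K d) n z).mp hz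
  have hfin1 : Module.Finite K (D ⧸ Ideal.span (Set.range w)) := by
    have := (hle 1).1
    rwa [powIdeal, show (fun i => w i ^ 1) = w from funext fun i => pow_one _] at this
  refine ⟨hfin1, ?_⟩
  have h1 := (tendsto_finrank_quot_powIdeal (K := K) (d := d) D).add_const
    (Module.finrank K (D ⧸ (Ideal.span (Set.range w) ⊔ Ideal.span {c ^ (d * d)})) : ℝ)
  have h2 : (Module.finrank K (D ⧸ Ideal.span (Set.range w)) : ℝ) ≤ _ :=
    ge_of_tendsto h1 ((eventually_gt_atTop 0).mono fun n hn => by
      haveI := (hle n).1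
      have h3 := (pow_mul_finrank_le K x w c hx hxw n).trans
        (Nat.add_le_add_right (hle n).2 _)
      have hpos : (0 : ℝ) < (n : ℝ) ^ d := by positivity
      rw [div_add' _ _ _ hpos.ne', le_div_iff₀ hpos]
      have h4 := (Nat.cast_le (α := ℝ)).mpr h3
      push_cast at h4
      linarith)
  exact_mod_cast h2

theorem almostReg_of_pi {K : Type*} [Field K] {d : ℕ} {R : Type*} [CommRing R]
    [Algebra (PS K d) R] {E : Type} [Finite E] {c : PS K d} (π : R →ₗ[PS K d] (E → PS K d))
    (ι : (E → PS K d) →ₗ[PS K d] R) (h : ∀ x, ι (π x) = c • x) :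
    AlmostReg (fun i => algebraMap (PS K d) R (MvPowerSeries.X i)) (algebraMap (PS K d) R c) := by
  intro N j t ht
  set I : Ideal (PS K d) :=
    Ideal.span ((fun i => (MvPowerSeries.X i : PS K d) ^ N) '' {i | i < j})
  have hI : ∀ z : R, z ∈ Ideal.span ((fun i => algebraMap (PS K d) R (MvPowerSeries.X i) ^ N) ''
      {i | i < j}) ↔ z ∈ I • (⊤ : Submodule (PS K d) R) := by
    intro z
    rw [Ideal.smul_top_eq_map, Submodule.restrictScalars_mem, Ideal.map_span, Set.image_image]
    simp only [map_pow]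
  rw [hI] at ht ⊢
  have h1 := Submodule.mem_map_of_mem (f := π) ht
  rw [Submodule.map_smul'', ← map_pow, ← Algebra.smul_def, map_smul] at h1
  have h2 := (mem_smul_top_pi_iff I _).mp (Submodule.smul_mono le_rfl le_top h1)
  have h3 : π t ∈ I • (⊤ : Submodule (PS K d) (E → PS K d)) :=
    (mem_smul_top_pi_iff I _).mpr fun e => X_pow_mul_mem N j _ (h2 e)
  have h4 := Submodule.mem_map_of_mem (f := ι) h3
  rw [Submodule.map_smul'', h] at h4
  rw [← Algebra.smul_def]
  exact Submodule.smul_mono le_rfl le_top h4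

theorem AlmostReg.map_of_free {R D : Type*} [CommRing R] [CommRing D] [Algebra R D]
    [Module.Free R D] {d : ℕ} {x : Fin d → R} {c : R} (h : AlmostReg x c) :
    AlmostReg (fun i => algebraMap R D (x i)) (algebraMap R D c) := by
  intro N j t ht
  let b := Module.Free.chooseBasis R D
  set I : Ideal R := Ideal.span ((fun i => x i ^ N) '' {i | i < j})
  have hI : ∀ z : D, z ∈ Ideal.span ((fun i => algebraMap R D (x i) ^ N) '' {i | i < j}) ↔
      ∀ k, b.repr z k ∈ I := by
    intro z
    have h1 : z ∈ Ideal.span ((fun i => algebraMap R D (x i) ^ N) '' {i | i < j}) ↔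
        z ∈ I • (⊤ : Submodule R D) := by
      rw [Ideal.smul_top_eq_map, Submodule.restrictScalars_mem, Ideal.map_span, Set.image_image]
      simp only [map_pow]
    rw [h1]
    refine ⟨fun hz k => ?_, fun hz => ?_⟩
    · refine Submodule.smul_induction_on hz (fun r hr n _ => ?_) (fun y z hy hz => ?_)
      · rw [map_smul, Finsupp.smul_apply, smul_eq_mul]
        exact I.mul_mem_right _ hr
      · rw [map_add, Finsupp.add_apply]
        exact I.add_mem hy hz
    · rw [← b.linearCombination_repr z, Finsupp.linearCombination_apply]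
      exact Submodule.sum_mem _ fun k _ => Submodule.smul_mem_smul (hz k) Submodule.mem_top
  rw [hI] at ht ⊢
  intro k
  have h2 := ht k
  rw [← map_pow, ← Algebra.smul_def, map_smul, Finsupp.smul_apply, smul_eq_mul] at h2
  rw [← Algebra.smul_def, map_smul, Finsupp.smul_apply, smul_eq_mul]
  exact h N j _ h2

theorem le_of_eventually_pow_le {d : ℕ} (e ρ C : ℕ) (q : ℕ → ℕ) (hq : Tendsto q atTop atTop)
    (h : ∀ᶠ n in atTop, (e : ℝ) * ((q n - C : ℕ) : ℝ) ^ d ≤ (ρ + 1 / 2) * (q n : ℝ) ^ d) :
    e ≤ ρ := by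
  have h0 : Tendsto (fun n => (q n : ℝ)) atTop atTop := tendsto_natCast_atTop_atTop.comp hq
  have h1 : Tendsto (fun n => (e : ℝ) * (1 - (C : ℝ) / (q n : ℝ)) ^ d) atTop
      (𝓝 ((e : ℝ) * (1 - 0) ^ d)) :=
    ((tendsto_const_nhds.sub (tendsto_const_nhds.div_atTop h0)).pow d).const_mul _
  have h2 : (e : ℝ) * (1 - 0) ^ d ≤ ρ + 1 / 2 := by
    refine le_of_tendsto h1 ?_
    filter_upwards [h, hq.eventually_ge_atTop (C + 1)] with n hn hn'
    have hpos : (0 : ℝ) < q n := by exact_mod_cast (by omega : 0 < q n)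
    rw [Nat.cast_sub (by omega)] at hn
    rw [one_sub_div hpos.ne', div_pow, ← mul_div_assoc, div_le_iff₀ (by positivity)]
    exact hn
  rw [sub_zero, one_pow, mul_one] at h2
  have h3 : (e : ℝ) < ((ρ + 1 : ℕ) : ℝ) := by push_cast; linarith
  exact Nat.lt_succ_iff.mp (by exact_mod_cast h3)

end Vale.Agent.P202
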