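import Mathlib

/-! The descent through a short complex against a filtered cochain complex. -/

namespace Vale.Agent.P202

variable {A H H' : Type*} [CommRing A] [AddCommGroup H] [Module A H] [AddCommGroup H'] [Module A H']

/-- action of a matrix on a vector with entries in a module. -/
def mact {m n : Type*} [Fintype n] (φ : Matrix m n A) (v : n → H) : m → H :=
  fun r => ∑ s, φ r s • v s

section
variable {l m n : Type*} [Fintype n] [Fintype m]

theorem mact_add (φ : Matrix m n A) (v w : n → H) (r : m) :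
    mact φ (fun s => v s + w s) r = mact φ v r + mact φ w r := by
  simp [mact, smul_add, Finset.sum_add_distrib]

theorem mact_sub (φ : Matrix m n A) (v w : n → H) (r : m) :
    mact φ (fun s => v s - w s) r = mact φ v r - mact φ w r := by
  simp [mact, smul_sub, Finset.sum_sub_distrib]

theorem mact_smul (φ : Matrix m n A) (c : A) (v : n → H) (r : m) :
    mact φ (fun s => c • v s) r = c • mact φ v r := by
  simp only [mact, Finset.smul_sum]
  exact Finset.sum_congr rfl fun s _ => smul_comm _ _ _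

theorem mact_sum {ι : Type*} (t : Finset ι) (φ : Matrix m n A) (v : ι → n → H) (r : m) :
    mact φ (fun s => ∑ i ∈ t, v i s) r = ∑ i ∈ t, mact φ (v i) r := by
  simp only [mact, Finset.smul_sum]
  exact Finset.sum_comm

theorem mact_mact (φ : Matrix l m A) (ψ : Matrix m n A) (v : n → H) (r : l) :
    mact φ (mact ψ v) r = mact (φ * ψ) v r := by
  simp only [mact, Matrix.mul_apply, Finset.smul_sum, Finset.sum_smul, mul_smul]
  exact Finset.sum_comm

theorem mact_zero (v : n → H) (r : m) : mact (0 : Matrix m n A) v r = 0 := by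
  simp [mact]

theorem add_mact (φ ψ : Matrix m n A) (v : n → H) (r : m) :
    mact (φ + ψ) v r = mact φ v r + mact ψ v r := by
  simp [mact, add_smul, Finset.sum_add_distrib]

theorem smul_one_mact [DecidableEq n] (c : A) (v : n → H) (r : n) :
    mact (c • (1 : Matrix n n A)) v r = c • v r := by
  simp only [mact, Matrix.smul_apply, Matrix.one_apply, smul_eq_mul, mul_ite, mul_one, mul_zero,
    ite_smul, zero_smul]
  simp

theorem map_mact (f : H →ₗ[A] H') (φ : Matrix m n A) (v : n → H) (r : m) :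
    f (mact φ v r) = mact φ (fun s => f (v s)) r := by
  simp [mact, map_sum]

theorem mact_mem (N : Submodule A H) (φ : Matrix m n A) {v : n → H} (hv : ∀ s, v s ∈ N) (r : m) :
    mact φ v r ∈ N :=
  N.sum_mem fun s _ => N.smul_mem _ (hv s)

theorem mact_isEmpty [IsEmpty n] (φ : Matrix m n A) (v : n → H) (r : m) : mact φ v r = 0 := by
  simp [mact]

end

theorem descent (d a : ℕ) (θ : ℤ) (g : A) (β : ℕ → Type) [∀ i, Fintype (β i)]
    (φ : ∀ i, Matrix (β i) (β (i + 1)) A) (hφφ : ∀ i, φ i * φ (i + 1) = 0)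
    (hβ : ∀ i, d < i → IsEmpty (β i)) (Ψ J : ℕ → Submodule A H) (D : ℕ → H →ₗ[A] H)
    (Fil : ℤ → Submodule A H)
    (hDΨ : ∀ l, ∀ x ∈ Ψ l, D l x ∈ Ψ (l + 1)) (hDJ : ∀ l, ∀ x ∈ J (l + 1), D (l + 1) x ∈ J (l + 2))
    (hDD : ∀ l, ∀ x ∈ Ψ l, D (l + 1) (D l x) = 0)
    (hFil : ∀ i r s τ, ∀ x ∈ Fil τ, φ i r s • x ∈ Fil (τ + a))
    (hcon : ∀ l, ∀ ζ : β (l + 1) → H, (∀ r, ζ r ∈ Ψ (l + 1)) →
      (∀ r, mact (φ l) ζ r ∈ J (l + 1)) → ∃ ξ : β (l + 2) → H, (∀ r, ξ r ∈ Ψ (l + 1)) ∧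
        ∀ r, g • ζ r - mact (φ (l + 1)) ξ r ∈ J (l + 1))
    (van0 : ∀ x ∈ Ψ 0, D 0 x ∈ (Ψ 1 ⊓ Fil θ) ⊔ J 1 → x ∈ Fil θ)
    (vanS : ∀ l : ℕ, l + 1 < d → ∀ x ∈ Ψ (l + 1),
      D (l + 1) x ∈ (Ψ (l + 2) ⊓ Fil (θ - ((l + 1 : ℕ) : ℤ) * a)) ⊔ J (l + 2) →
      ∃ y ∈ Ψ l, x - D l y ∈ (Ψ (l + 1) ⊓ Fil (θ - ((l + 1 : ℕ) : ℤ) * a)) ⊔ J (l + 1))
    (σ : β 1 → H) (hσ : ∀ r, σ r ∈ Ψ 0) (hσ' : ∀ r, D 0 (mact (φ 0) σ r) ∈ J 1) (r : β 0) :
    g ^ d • mact (φ 0) σ r ∈ Fil (θ + a) := by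
  have hFilm : ∀ i τ (N J' : Submodule A H) (v : β (i + 1) → H),
      (∀ s, v s ∈ (N ⊓ Fil τ) ⊔ J') → ∀ r, mact (φ i) v r ∈ (N ⊓ Fil (τ + a)) ⊔ J' := by
    intro i τ N J' v hv r
    refine Submodule.sum_mem _ fun s _ => ?_
    obtain ⟨y, hy, z, hz, hyz⟩ := Submodule.mem_sup.mp (hv s)
    rw [← hyz, smul_add]
    exact Submodule.add_mem_sup ⟨N.smul_mem _ hy.1, hFil i r s τ y hy.2⟩ (J'.smul_mem _ hz)
  have Q : ∀ k l : ℕ, k + l = d → ∀ ξ : β (l + 1) → H, (∀ r, ξ r ∈ Ψ l) →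
      (∀ r, D l (mact (φ l) ξ r) ∈ J (l + 1)) → ∃ ω : β (l + 2) → H, (∀ r, ω r ∈ Ψ l) ∧
        ∀ r, D l (g ^ k • ξ r - mact (φ (l + 1)) ω r) ∈
          (Ψ (l + 1) ⊓ Fil (θ - (l : ℤ) * a)) ⊔ J (l + 1) := by
    intro k
    induction k with
    | zero =>
      intro l hl ξ _ _
      haveI := hβ (l + 1) (by omega)
      exact ⟨fun _ => 0, fun _ => Submodule.zero_mem _, fun r => isEmptyElim r⟩
    | succ k ih =>
      intro l hl ξ hξ hξ'
      obtain ⟨ξ', hξ'Ψ, hξ'J⟩ := hcon l (fun s => D l (ξ s)) (fun s => hDΨ l _ (hξ s))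
        (fun r => by rw [← map_mact]; exact hξ' r)
      by_cases hld : l + 1 < d
      · obtain ⟨ω', hω'Ψ, hω'⟩ := ih (l + 1) (by omega) ξ' hξ'Ψ (fun r => by
          have h1 := hDJ l _ (hξ'J r)
          rw [map_sub, map_smul, hDD l _ (hξ r), smul_zero, zero_sub] at h1
          simpa using (J (l + 2)).neg_mem h1)
        have hy : ∀ s, ∃ y ∈ Ψ l, (g ^ k • ξ' s - mact (φ (l + 1 + 1)) ω' s) - D l y ∈
            (Ψ (l + 1) ⊓ Fil (θ - ((l + 1 : ℕ) : ℤ) * a)) ⊔ J (l + 1) := fun s =>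
          vanS l hld _ ((Ψ (l + 1)).sub_mem ((Ψ (l + 1)).smul_mem _ (hξ'Ψ s))
            (mact_mem _ _ hω'Ψ s)) (hω' s)
        choose y hyΨ hy using hy
        refine ⟨y, hyΨ, fun r => ?_⟩
        have h2 := hFilm (l + 1) _ _ _ _ hy r
        rw [mact_sub, mact_sub, mact_smul, mact_mact, hφφ, mact_zero, sub_zero, ← map_mact] at h2
        have h3 : θ - ((l + 1 : ℕ) : ℤ) * a + a = θ - (l : ℤ) * a := by push_cast; ring
        rw [h3] at h2
        have h4 := (J (l + 1)).smul_mem (g ^ k) (hξ'J r)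
        have h5 : D l (g ^ (k + 1) • ξ r - mact (φ (l + 1)) y r) =
            (g ^ k • mact (φ (l + 1)) ξ' r - D l (mact (φ (l + 1)) y r)) +
              g ^ k • (g • D l (ξ r) - mact (φ (l + 1)) ξ' r) := by
          rw [map_sub, map_smul, smul_sub, ← mul_smul, ← pow_succ]; abel
        rw [h5]
        exact Submodule.add_mem _ h2 (Submodule.mem_sup_right h4)
      · haveI := hβ (l + 2) (by omega)
        refine ⟨fun _ => 0, fun _ => Submodule.zero_mem _, fun r => ?_⟩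
        have h4 := (J (l + 1)).smul_mem (g ^ k) (hξ'J r)
        rw [mact_isEmpty, sub_zero, ← mul_smul, ← pow_succ] at h4
        rw [mact_isEmpty, sub_zero, map_smul]
        exact Submodule.mem_sup_right h4
  obtain ⟨ω, hωΨ, hω⟩ := Q d 0 rfl σ hσ hσ'
  have h1 : ∀ s, g ^ d • σ s - mact (φ 1) ω s ∈ Fil θ := fun s =>
    van0 _ ((Ψ 0).sub_mem ((Ψ 0).smul_mem _ (hσ s)) (mact_mem _ _ hωΨ s)) (by simpa using hω s)
  have h2 : mact (φ 0) (fun s => g ^ d • σ s - mact (φ 1) ω s) r ∈ Fil (θ + a) :=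
    Submodule.sum_mem _ fun s _ => hFil 0 r s θ _ (h1 s)
  rwa [mact_sub, mact_smul, mact_mact, hφφ, mact_zero, sub_zero] at h2

end Vale.Agent.P202
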