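import Vale.Agent.P202.Growth

/-! Growth of quotients of finite modules over a power series ring over a field. -/

namespace Vale.Agent.P202

open IsLocalRing Filter Topology

/-- power series in `d` variables. -/
abbrev PS (K : Type*) (d : ℕ) : Type _ := MvPowerSeries (Fin d) K

/-- the ideal generated by the variables. -/
noncomputable def varIdeal (K : Type*) [Field K] (d : ℕ) : Ideal (PS K d) :=
  Ideal.span (Set.range (MvPowerSeries.X : Fin d → PS K d))

variable {K : Type*} [Field K] {d : ℕ}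

theorem mon_X (α : Fin d →₀ ℕ) :
    mon (MvPowerSeries.X : Fin d → PS K d) α = MvPowerSeries.monomial α 1 := by
  simp only [mon, MvPowerSeries.X_pow_eq, MvPowerSeries.prod_monomial, Finset.prod_const_one,
    Finsupp.univ_sum_single]

theorem mem_monI_iff {S : Set (Fin d →₀ ℕ)} (hS : S.Finite) (f : PS K d) :
    f ∈ monI (MvPowerSeries.X : Fin d → PS K d) S ↔
      ∀ α, (∀ δ ∈ S, ¬ δ ≤ α) → MvPowerSeries.coeff α f = 0 := by
  constructor
  · intro hf
    induction hf using Submodule.span_induction with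
    | mem x hx =>
      obtain ⟨δ, hδ, rfl⟩ := hx
      intro α hα
      rw [mon_X, MvPowerSeries.coeff_monomial_ne]
      rintro rfl
      exact hα _ hδ le_rfl
    | zero => simp
    | add x y _ _ hx hy => intro α hα; rw [map_add, hx α hα, hy α hα, add_zero]
    | smul a x _ hx =>
      intro α hα
      rw [smul_eq_mul, MvPowerSeries.coeff_mul]
      refine Finset.sum_eq_zero fun p hp => ?_
      rw [hx p.2 fun δ hδ h => hα δ hδ (h.trans ?_), mul_zero]
      rw [← Finset.HasAntidiagonal.mem_antidiagonal.mp hp]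
      exact le_add_self
  · induction S, hS using Set.Finite.induction_on generalizing f with
    | empty =>
      intro h
      rw [show f = 0 from MvPowerSeries.ext fun α => h α (by simp)]
      exact zero_mem _
    | @insert δ S _ _ ih =>
      intro h
      let f' : PS K d := fun β => MvPowerSeries.coeff (δ + β) f
      rw [← sub_add_cancel f (mon MvPowerSeries.X δ * f')]
      refine add_mem (monI_mono _ (Set.subset_insert _ _) (ih _ fun α hα => ?_))
        (Ideal.mul_mem_right _ _ (mon_mem (Set.mem_insert _ _)))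
      rw [map_sub, mon_X, MvPowerSeries.coeff_monomial_mul]
      split_ifs with h1
      · rw [one_mul, sub_eq_zero]
        exact congrArg (fun β => MvPowerSeries.coeff β f) (add_tsub_cancel_of_le h1).symm
      · rw [sub_zero]
        refine h α ?_
        rintro β (rfl | hβ)
        exacts [h1, hα β hβ]

theorem mem_varIdeal_pow_iff (f : PS K d) (N : ℕ) :
    f ∈ varIdeal K d ^ N ↔ ∀ α : Fin d →₀ ℕ, α.degree < N → MvPowerSeries.coeff α f = 0 := by
  have hfin : {α : Fin d →₀ ℕ | α.degree = N}.Finite := (triF d (N + 1)).finite_toSet.subset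
    fun α (hα : α.degree = N) => mem_triF.mpr (by omega)
  rw [varIdeal, span_pow_eq_monI, mem_monI_iff hfin]
  refine forall_congr' fun α => imp_congr_left ⟨fun h => ?_, fun h δ (hδ : δ.degree = N) h' => ?_⟩
  · by_contra hc
    obtain ⟨δ, h1, h2⟩ := Finsupp.exists_le_degree_eq α N (not_lt.mp hc)
    exact h δ h2 h1
  · have := Finsupp.degree_mono h'
    omega

theorem varIdeal_eq_maximalIdeal : varIdeal K d = maximalIdeal (PS K d) := by
  ext f
  rw [← pow_one (varIdeal K d), mem_varIdeal_pow_iff, mem_maximalIdeal, mem_nonunits_iff,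
    MvPowerSeries.isUnit_iff_constantCoeff]
  simp [Finsupp.degree_eq_zero_iff]

theorem exists_notMem_varIdeal_pow {g : PS K d} (hg : g ≠ 0) :
    ∃ γ : ℕ, g ∉ varIdeal K d ^ (γ + 1) := by
  by_contra hc
  refine hg (MvPowerSeries.ext fun α => ?_)
  exact (mem_varIdeal_pow_iff g _).mp (not_not.mp (not_exists.mp hc α.degree)) α (by omega)

theorem PS_residue (f : PS K d) : ∃ a : K, f - algebraMap K (PS K d) a ∈ varIdeal K d := by
  refine ⟨MvPowerSeries.constantCoeff f, ?_⟩
  rw [varIdeal_eq_maximalIdeal, mem_maximalIdeal, mem_nonunits_iff,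
    MvPowerSeries.isUnit_iff_constantCoeff, ← MvPowerSeries.c_eq_algebraMap]
  simp

theorem mem_span_X_pow_iff (N : ℕ) (s : Set (Fin d)) (f : PS K d) :
    f ∈ Ideal.span ((fun i => (MvPowerSeries.X i : PS K d) ^ N) '' s) ↔
      ∀ α : Fin d →₀ ℕ, (∀ i ∈ s, α i < N) → MvPowerSeries.coeff α f = 0 := by
  have : Ideal.span ((fun i => (MvPowerSeries.X i : PS K d) ^ N) '' s) =
      monI MvPowerSeries.X ((fun i => Finsupp.single i N) '' s) := by
    simp only [monI, Set.image_image, mon_single]
  rw [this, mem_monI_iff (s.toFinite.image _)]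
  simp [Finsupp.single_le_iff]

/-- the variables form a regular sequence, in the strong form with powers. -/
theorem X_pow_mul_mem (N : ℕ) (j : Fin d) (f : PS K d)
    (h : MvPowerSeries.X j ^ N * f ∈
      Ideal.span ((fun i => (MvPowerSeries.X i : PS K d) ^ N) '' {i | i < j})) :
    f ∈ Ideal.span ((fun i => (MvPowerSeries.X i : PS K d) ^ N) '' {i | i < j}) := by
  rw [mem_span_X_pow_iff] at h ⊢
  intro α hα
  have := h (Finsupp.single j N + α) fun i (hi : i < j) => by
    simpa [Finsupp.single_eq_of_ne hi.ne] using hα i hi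
  rwa [MvPowerSeries.X_pow_eq, MvPowerSeries.coeff_add_monomial_mul, one_mul] at this

theorem finrank_PS_quot (I : Ideal (PS K d)) (S : Finset (Fin d →₀ ℕ))
    (h : ∀ f, f ∈ I ↔ ∀ α ∈ S, MvPowerSeries.coeff α f = 0) :
    Module.finrank K (PS K d ⧸ I) = S.card := by
  classical
  let φ : PS K d →ₗ[K] (S → K) := LinearMap.pi fun α => MvPowerSeries.coeff α.1
  have h1 : Function.Surjective φ := fun c =>
    ⟨fun α => if h : α ∈ S then c ⟨α, h⟩ else 0, funext fun α => dif_pos α.2⟩
  have h2 : Submodule.restrictScalars K I = LinearMap.ker φ := by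
    ext f
    simp [φ, h, funext_iff]
  rw [← (Submodule.Quotient.restrictScalarsEquiv K I).finrank_eq, h2,
    (φ.quotKerEquivOfSurjective h1).finrank_eq]
  simp

theorem finrank_PS_quot_powIdeal (n : ℕ) :
    Module.finrank K (PS K d ⧸ powIdeal (MvPowerSeries.X : Fin d → PS K d) n) = n ^ d := by
  rw [finrank_PS_quot _ (boxF fun _ => n), card_boxF]
  · simp
  · intro f
    rw [powIdeal, ← Set.image_univ, mem_span_X_pow_iff]
    simp [mem_boxF]

theorem finrank_PS_quot_pow (N : ℕ) :
    Module.finrank K (PS K d ⧸ varIdeal K d ^ N) = (triF d N).card :=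
  finrank_PS_quot _ _ fun f => by simp [mem_varIdeal_pow_iff, mem_triF]

theorem length_quot_ge_of_part {A M : Type*} [CommRing A] [AddCommGroup M] [Module A M] (g : A)
    {ρ : ℕ} (v : Fin ρ → M) (hi : LinearIndependent A v)
    (hv : ∀ x : M, g • x ∈ Submodule.span A (Set.range v)) (I : Ideal A) :
    ρ * Module.length A (A ⧸ I) ≤ ρ * Module.length A (A ⧸ (Ideal.span {g} ⊔ I)) +
      Module.length A (M ⧸ I • (⊤ : Submodule A M)) := by
  let θ : M →ₗ[A] (Fin ρ → A) := (Finsupp.linearEquivFunOnFinite A A _).toLinearMap ∘ₗ hi.repr ∘ₗ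
    (LinearMap.lsmul A M g).codRestrict _ hv
  have hθ : ∀ i, θ (v i) = g • Pi.single i 1 := fun i => by
    have : (LinearMap.lsmul A M g).codRestrict _ hv (v i) =
        g • ⟨v i, Submodule.subset_span (Set.mem_range_self i)⟩ := rfl
    simp only [θ, LinearMap.comp_apply, this, map_smul]
    rw [hi.repr_eq_single i _ rfl]
    simp
  have h1 : ρ * Module.length A (A ⧸ I) ≤
      Module.length A ((Fin ρ → A) ⧸ I • (⊤ : Submodule A (Fin ρ → A))) := by
    have := Module.length_le_of_surjective ((I • (⊤ : Submodule A (Fin ρ → A))).liftQ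
      ((Submodule.mkQ I).compLeft (Fin ρ)) (Submodule.smul_le.mpr fun r hr x _ => funext fun i =>
        (Submodule.Quotient.mk_eq_zero _).mpr (I.mul_mem_right _ hr))) fun z => by
      choose y hy using fun i => Submodule.mkQ_surjective I (z i)
      exact ⟨Submodule.mkQ _ y, funext hy⟩
    simpa [Module.length_pi_of_fintype] using this
  have h2 := gr_step_map (I • ⊤) (I • ⊤) _ θ
    (Submodule.smul_le.mpr fun r hr x _ => by
      rw [Submodule.mem_comap, map_smul]; exact Submodule.smul_mem_smul hr trivial) le_rfl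
  have h3 := gr_step_fam (Ideal.span {g} ⊔ I) (I • ⊤ ⊔ LinearMap.range θ) ⊤
    (fun i => Pi.single i 1) (fun i a ha => by
      obtain ⟨r1, hr1, r2, hr2, rfl⟩ := Submodule.mem_sup.mp ha
      obtain ⟨c, rfl⟩ := Ideal.mem_span_singleton'.mp hr1
      rw [add_comm, add_smul]
      exact Submodule.add_mem_sup (Submodule.smul_mem_smul hr2 trivial)
        ⟨c • v i, by rw [map_smul, hθ, mul_smul]⟩)
    (le_sup_of_le_right (by
      rw [← (Pi.basisFun A (Fin ρ)).span_eq]
      exact Submodule.span_mono (by rintro _ ⟨i, rfl⟩; exact ⟨i, by simp⟩)))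
  rw [gr_top, zero_add, Fintype.card_fin] at h3
  exact h1.trans (h2.trans (add_le_add_left h3 _))

theorem PS_residue' (f : PS K d) :
    ∃ a : K, f - algebraMap K (PS K d) a ∈ maximalIdeal (PS K d) :=
  varIdeal_eq_maximalIdeal (K := K) (d := d) ▸ PS_residue f

variable (M : Type*) [AddCommGroup M] [Module (PS K d) M] [Module K M]
  [IsScalarTower K (PS K d) M] [Module.Finite (PS K d) M]

theorem finite_quot_of_pow_le (N : ℕ) (W : Submodule (PS K d) M)
    (hW : varIdeal K d ^ N • (⊤ : Submodule (PS K d) M) ≤ W) : Module.Finite K (M ⧸ W) :=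
  (finrank_eq_len K (PS K d) (M ⧸ W) PS_residue').2.mpr (length_quot_ne_top
    (varIdeal_eq_maximalIdeal (K := K) (d := d) ▸ Submodule.fg_span (Set.finite_range _)) N W
    (varIdeal_eq_maximalIdeal (K := K) (d := d) ▸ hW))

theorem length_eq_finrank_quot (n : ℕ) (I : Ideal (PS K d))
    (hI : powIdeal (MvPowerSeries.X : Fin d → PS K d) n ≤ I) :
    Module.length (PS K d) (M ⧸ I • (⊤ : Submodule (PS K d) M)) =
      Module.finrank K (M ⧸ I • (⊤ : Submodule (PS K d) M)) := by
  have := finite_quot_of_pow_le M (d * n + 1) (I • ⊤)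
    (Submodule.smul_mono_left ((span_pow_le_powIdeal _ n).trans hI))
  rw [← length_eq_of_residue K (PS K d) _ PS_residue', Module.length_eq_finrank]

theorem tendsto_finrank_small (I : ℕ → Ideal (PS K d))
    (hI : ∀ n, powIdeal (MvPowerSeries.X : Fin d → PS K d) n ≤ I n) (g : PS K d) (hg : g ≠ 0)
    (ε : ℝ) (hε : 0 < ε) : ∀ᶠ N : ℕ in atTop, (Module.finrank K
      (M ⧸ (Ideal.span {g} ⊔ I N) • (⊤ : Submodule (PS K d) M)) : ℝ) ≤ ε * (N : ℝ) ^ d := by
  obtain ⟨γ, hγ⟩ := exists_notMem_varIdeal_pow hg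
  rw [varIdeal_eq_maximalIdeal] at hγ
  obtain ⟨a, h1, h2⟩ := gr_small (M := M) MvPowerSeries.X
    (varIdeal_eq_maximalIdeal (K := K) (d := d)) g γ hγ
  filter_upwards [h2 ε hε] with N hN
  have := (gr_anti (Submodule.smul_mono_left (sup_le_sup_left (hI N) _))).trans (h1 N)
  rw [length_eq_finrank_quot M N _ (le_sup_of_le_right (hI N))] at this
  exact le_trans (by exact_mod_cast this) hN

theorem tendsto_finrank_small' (I : ℕ → Ideal (PS K d))
    (hI : ∀ n, powIdeal (MvPowerSeries.X : Fin d → PS K d) n ≤ I n) (g : PS K d) (hg : g ≠ 0) :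
    Tendsto (fun N : ℕ => (Module.finrank K
      (M ⧸ (Ideal.span {g} ⊔ I N) • (⊤ : Submodule (PS K d) M)) : ℝ) / (N : ℝ) ^ d)
      atTop (𝓝 0) := by
  refine tendsto_order.mpr ⟨fun b hb => Eventually.of_forall fun N => hb.trans_le (by positivity),
    fun b hb => ?_⟩
  filter_upwards [tendsto_finrank_small M I hI g hg (b / 2) (by positivity), eventually_gt_atTop 0]
    with N h1 h2
  exact ((div_le_iff₀ (by positivity)).mpr h1).trans_lt (half_lt_self hb)

theorem tendsto_finrank_quot (I : ℕ → Ideal (PS K d))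
    (hI : ∀ n, powIdeal (MvPowerSeries.X : Fin d → PS K d) n ≤ I n) (c : ℝ) (hc : 0 ≤ c)
    (h : Tendsto (fun N : ℕ => c * (Module.finrank K (PS K d ⧸ I N) : ℝ) / (N : ℝ) ^ d)
      atTop (𝓝 1)) :
    Tendsto (fun N : ℕ => c * (Module.finrank K (M ⧸ I N • (⊤ : Submodule (PS K d) M)) : ℝ) /
      (N : ℝ) ^ d) atTop (𝓝 (Module.finrank (PS K d) M : ℝ)) := by
  have : IsDomain (PS K d) := NoZeroDivisors.to_isDomain _
  obtain ⟨v, g, hi, hg, hv⟩ := exists_free_part (PS K d) M
  generalize Module.finrank (PS K d) M = ρ at v hi hv ⊢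
  have h1 := (h.const_mul (ρ : ℝ)).sub
    ((tendsto_finrank_small' (PS K d) I hI g hg).const_mul (c * ρ))
  have h2 := (h.const_mul (ρ : ℝ)).add ((tendsto_finrank_small' M I hI g hg).const_mul c)
  rw [mul_one, mul_zero] at h1 h2
  rw [sub_zero] at h1
  rw [add_zero] at h2
  refine tendsto_of_tendsto_of_tendsto_of_le_of_le h1 h2 (fun N => ?_) (fun N => ?_)
  all_goals
    have e1 := length_eq_finrank_quot (PS K d) N _ (hI N)
    have e2 := length_eq_finrank_quot M N _ (hI N)
    rw [smul_top_ideal] at e1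
    simp only [← mul_div_assoc, ← sub_div, ← add_div]
    refine div_le_div_of_nonneg_right ?_ (by positivity)
  · have e3 := length_quot_ge_of_part g v hi hv (I N)
    rw [e1, e2, ← smul_top_ideal (Ideal.span {g} ⊔ I N),
      length_eq_finrank_quot (PS K d) N _ (le_sup_of_le_right (hI N))] at e3
    norm_cast at e3
    have e4 := mul_le_mul_of_nonneg_left ((Nat.cast_le (α := ℝ)).mpr e3) hc
    push_cast at e4
    linarith
  · have e3 := length_quot_le_of_part g v hv (I N)
    rw [e1, e2, length_eq_finrank_quot M N _ (le_sup_of_le_right (hI N))] at e3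
    norm_cast at e3
    have e4 := mul_le_mul_of_nonneg_left ((Nat.cast_le (α := ℝ)).mpr e3) hc
    push_cast at e4
    linarith

theorem tendsto_finrank_quot_pow :
    Tendsto (fun N : ℕ => (d.factorial : ℝ) *
      (Module.finrank K (M ⧸ varIdeal K d ^ N • (⊤ : Submodule (PS K d) M)) : ℝ) / (N : ℝ) ^ d)
      atTop (𝓝 (Module.finrank (PS K d) M : ℝ)) :=
  tendsto_finrank_quot M _ (powIdeal_le_span_pow _) _ (Nat.cast_nonneg _)
    ((tendsto_card_triF d).congr fun N => by rw [← finrank_PS_quot_pow (K := K)]; rfl)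

theorem tendsto_finrank_quot_powIdeal :
    Tendsto (fun n : ℕ =>
      (Module.finrank K (M ⧸ powIdeal (MvPowerSeries.X : Fin d → PS K d) n •
        (⊤ : Submodule (PS K d) M)) : ℝ) / (n : ℝ) ^ d)
      atTop (𝓝 (Module.finrank (PS K d) M : ℝ)) := by
  refine (tendsto_finrank_quot M _ (fun _ => le_rfl) 1 zero_le_one
    (tendsto_const_nhds.congr' ?_)).congr fun n => by rw [one_mul]
  filter_upwards [eventually_gt_atTop 0] with n hn
  rw [finrank_PS_quot_powIdeal, one_mul, Nat.cast_pow, div_self (by positivity)]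

theorem finrank_quot_span_sup_pow_small (g : PS K d) (hg : g ≠ 0) (ε : ℝ) (hε : 0 < ε) :
    ∀ᶠ N : ℕ in atTop, (Module.finrank K
      (M ⧸ (Ideal.span {g} ⊔ varIdeal K d ^ N) • (⊤ : Submodule (PS K d) M)) : ℝ) ≤
        ε * (N : ℝ) ^ d :=
  tendsto_finrank_small M _ (powIdeal_le_span_pow _) g hg ε hε

theorem finrank_mul_pow_le_of_pos (n : ℕ) (hn : 0 < n) :
    Module.finrank (PS K d) M * n ^ d ≤ Module.finrank K
      (M ⧸ powIdeal (MvPowerSeries.X : Fin d → PS K d) n • (⊤ : Submodule (PS K d) M)) := by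
  have h1 := (tendsto_finrank_quot_powIdeal (K := K) (d := d) M).comp
    (tendsto_id.const_mul_atTop' hn)
  have h2 := le_of_tendsto h1 (b := (Module.finrank K (M ⧸ powIdeal
      (MvPowerSeries.X : Fin d → PS K d) n • (⊤ : Submodule (PS K d) M)) : ℝ) / (n : ℝ) ^ d) (by
    filter_upwards [eventually_gt_atTop 0] with m hm
    have e1 := length_quot_powIdeal_le (M := M)
      (fun i => (MvPowerSeries.X i : PS K d) ^ n) m
    have e2 : powIdeal (fun i => (MvPowerSeries.X i : PS K d) ^ n) m =
        powIdeal MvPowerSeries.X (n * m) := by simp only [powIdeal, pow_mul]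
    rw [e2, length_eq_finrank_quot M _ _ le_rfl, ← powIdeal,
      length_eq_finrank_quot M n _ le_rfl] at e1
    simp only [Function.comp_apply, id]
    rw [div_le_iff₀ (by positivity), Nat.cast_mul, mul_pow, ← mul_assoc,
      div_mul_cancel₀ _ (by positivity), mul_comm _ ((m : ℝ) ^ d)]
    exact_mod_cast e1)
  rw [le_div_iff₀ (by positivity)] at h2
  exact_mod_cast h2

/-- the rank times `n^d` is a lower bound for every `n`. -/
theorem finrank_mul_pow_le (n : ℕ) :
    Module.finrank (PS K d) M * n ^ d ≤ Module.finrank K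
      (M ⧸ powIdeal (MvPowerSeries.X : Fin d → PS K d) n • (⊤ : Submodule (PS K d) M)) := by
  rcases Nat.eq_zero_or_pos n with rfl | hn
  · rcases Nat.eq_zero_or_pos d with rfl | hd
    · have : powIdeal (MvPowerSeries.X : Fin 0 → PS K 0) 0 = powIdeal MvPowerSeries.X 1 := by
        simp [powIdeal, Set.range_eq_empty]
      rw [this]
      simpa using finrank_mul_pow_le_of_pos (K := K) (d := 0) M 1 one_pos
    · simp [hd.ne']
  · exact finrank_mul_pow_le_of_pos M n hn

end Vale.Agent.P202
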