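import Mathlib

/-! Minimal presentations, purity and exactness modulo ideals, in matrix form. -/

namespace Vale.Agent.P202

open IsLocalRing TensorProduct

section Pure

variable {R Z G P : Type*} [CommRing R] [AddCommGroup Z] [Module R Z] [AddCommGroup G] [Module R G]
  [AddCommGroup P] [Module R P]

theorem resol_flat_ker [Module.Flat R P] [Module.Flat R G] (f : G →ₗ[R] P)
    (hf : Function.Surjective f) (g : Z →ₗ[R] G) (hg : Function.Injective g)
    (H : Function.Exact g f) : Module.Flat R Z := by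
  rw [Module.Flat.iff_rTensor_injective']
  intro I
  have h1 := LinearMap.lTensor_injective_of_exact_of_flat f hf g hg H I
  have h2 : Function.Injective (LinearMap.rTensor G I.subtype) :=
    Module.Flat.rTensor_preserves_injective_linearMap _ I.injective_subtype
  have h3 : (g.lTensor R) ∘ₗ (LinearMap.rTensor Z I.subtype) =
      (LinearMap.rTensor G I.subtype) ∘ₗ (g.lTensor I) := by
    rw [LinearMap.lTensor_comp_rTensor, LinearMap.rTensor_comp_lTensor]
  have h4 : Function.Injective ((g.lTensor R) ∘ₗ (LinearMap.rTensor Z I.subtype)) := by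
    rw [h3]
    exact h2.comp h1
  exact Function.Injective.of_comp (f := g.lTensor R) h4

theorem resol_pure [Module.Flat R P] (f : G →ₗ[R] P)
    (hf : Function.Surjective f) (g : Z →ₗ[R] G) (hg : Function.Injective g)
    (H : Function.Exact g f) (I : Ideal R) (z : Z) (hz : g z ∈ I • (⊤ : Submodule R G)) :
    z ∈ I • (⊤ : Submodule R Z) := by
  have h1 := LinearMap.lTensor_injective_of_exact_of_flat f hf g hg H (R ⧸ I)
  have h2 : (Ideal.Quotient.mk I 1) ⊗ₜ[R] g z = 0 := by
    apply (quotTensorEquivQuotSMul G I).injective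
    rw [quotTensorEquivQuotSMul_mk_tmul, one_smul, map_zero, Submodule.Quotient.mk_eq_zero]
    exact hz
  have h3 : (Ideal.Quotient.mk I 1) ⊗ₜ[R] z = 0 := h1 (by rw [LinearMap.lTensor_tmul, h2, map_zero])
  have h4 := congrArg (quotTensorEquivQuotSMul Z I) h3
  rwa [quotTensorEquivQuotSMul_mk_tmul, one_smul, map_zero, Submodule.Quotient.mk_eq_zero] at h4

end Pure

variable {T : Type*} [CommRing T]

theorem resol_min_step [IsLocalRing T] [IsNoetherianRing T] (n : ℕ)
    (Z : Submodule T (Fin n → T)) :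
    ∃ (n' : ℕ) (φ : Matrix (Fin n) (Fin n') T), LinearMap.range φ.mulVecLin = Z ∧
      ∀ v, φ.mulVec v = 0 → ∀ s, v s ∈ maximalIdeal T := by
  classical
  have hex : ∃ n' : ℕ, ∃ w : Fin n' → (Fin n → T), Submodule.span T (Set.range w) = Z :=
    Submodule.fg_iff_exists_fin_generating_family.mp (IsNoetherian.noetherian Z)
  obtain ⟨w, hw⟩ := Nat.find_spec hex
  have hmin := fun m (hm : m < Nat.find hex) => Nat.find_min hex hm
  generalize Nat.find hex = n' at w hw hmin
  refine ⟨n', (Matrix.of w).transpose, ?_, ?_⟩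
  · rw [Matrix.range_mulVecLin, ← hw]
    rfl
  · intro v hv s
    by_contra hs
    obtain ⟨u, hu⟩ := (notMem_maximalIdeal.mp hs).exists_left_inv
    obtain ⟨m, rfl⟩ : ∃ m, n' = m + 1 := ⟨n' - 1, by have := s.2; omega⟩
    refine hmin m (Nat.lt_succ_self m) ⟨fun t => w (s.succAbove t), ?_⟩
    have hsum : ∑ t, v t • w t = 0 := by
      funext a
      have := congrFun hv a
      simp only [Matrix.mulVec, dotProduct, Matrix.transpose_apply, Matrix.of_apply,
        Pi.zero_apply] at this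
      simp only [Finset.sum_apply, Pi.smul_apply, smul_eq_mul, Pi.zero_apply, ← this]
      exact Finset.sum_congr rfl fun t _ => mul_comm _ _
    rw [Fin.sum_univ_succAbove _ s] at hsum
    rw [← hw]
    refine le_antisymm (Submodule.span_mono ?_) (Submodule.span_le.mpr ?_)
    · rintro _ ⟨t, rfl⟩
      exact ⟨_, rfl⟩
    · rintro _ ⟨t, rfl⟩
      rcases Fin.eq_self_or_eq_succAbove s t with rfl | ⟨t', rfl⟩
      · have h1 : w t = -(u • ∑ i, v (t.succAbove i) • w (t.succAbove i)) := by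
          rw [eq_neg_of_add_eq_zero_right hsum, smul_neg, neg_neg, smul_smul, hu, one_smul]
        rw [h1]
        exact Submodule.neg_mem _ (Submodule.smul_mem _ _ (Submodule.sum_mem _ fun i _ =>
          Submodule.smul_mem _ _ (Submodule.subset_span ⟨i, rfl⟩)))
      · exact Submodule.subset_span ⟨t', rfl⟩

theorem resol_exists_min [IsLocalRing T] [IsNoetherianRing T] (Z0 : Submodule T (Fin 1 → T)) :
    ∃ (b : ℕ → ℕ) (φ : ∀ i, Matrix (Fin (b i)) (Fin (b (i + 1))) T) (e : b 0 = 1),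
      (∀ v : Fin (b 0) → T, v ∈ LinearMap.range (φ 0).mulVecLin ↔
        (fun s => v (Fin.cast e.symm s)) ∈ Z0) ∧
      (∀ i, LinearMap.range (φ (i + 1)).mulVecLin = LinearMap.ker (φ i).mulVecLin) ∧
      ∀ i v, (φ i).mulVec v = 0 → ∀ s, v s ∈ maximalIdeal T := by
  choose nx ψ h1 h2 using resol_min_step (T := T)
  let σ : ℕ → Σ n : ℕ, Submodule T (Fin n → T) := fun i =>
    Nat.rec ⟨1, Z0⟩ (fun _ a => ⟨nx a.1 a.2, LinearMap.ker (ψ a.1 a.2).mulVecLin⟩) i
  refine ⟨fun i => (σ i).1, fun i => ψ (σ i).1 (σ i).2, rfl, fun v => ?_, fun i => ?_,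
    fun i => h2 _ _⟩
  · have := h1 (σ 0).1 (σ 0).2
    exact Iff.of_eq (congrArg (fun N => v ∈ N) this)
  · exact h1 (σ (i + 1)).1 (σ (i + 1)).2

/-- exactness modulo `W` at level `i + 1`. -/
def ExMod {β : ℕ → Type} [∀ i, Fintype (β i)] (φ : ∀ i, Matrix (β i) (β (i + 1)) T)
    (W : Ideal T) (i : ℕ) : Prop :=
  ∀ v : β (i + 1) → T, (∀ s, (φ i).mulVec v s ∈ W) →
    ∃ u : β (i + 2) → T, ∀ s, v s - (φ (i + 1)).mulVec u s ∈ W

theorem resol_mulVec_mem {m n : Type} [Fintype n] (I : Ideal T) (A : Matrix m n T) (v : n → T)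
    (hv : ∀ r, v r ∈ I) (r : m) : A.mulVec v r ∈ I :=
  I.sum_mem fun s _ => I.mul_mem_left _ (hv s)

theorem resol_mulVec_mem' {m n : Type} [Fintype n] (I : Ideal T) (A : Matrix m n T) (v : n → T)
    (r : m) (hA : ∀ s, A r s ∈ I) : A.mulVec v r ∈ I :=
  I.sum_mem fun s _ => I.mul_mem_right _ (hA s)

theorem ExMod.step {β : ℕ → Type} [∀ i, Fintype (β i)] {φ : ∀ i, Matrix (β i) (β (i + 1)) T}
    (hφφ : ∀ i, φ i * φ (i + 1) = 0) {W : Ideal T} {y : T} (hy : ∀ t, y * t ∈ W → t ∈ W)
    {i : ℕ} (h0 : ExMod φ W i) (h1 : ExMod φ W (i + 1)) :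
    ExMod φ (W ⊔ Ideal.span {y}) (i + 1) := by
  intro v hv
  have hs : ∀ s, ∃ a, (φ (i + 1)).mulVec v s - y * a ∈ W := by
    intro s
    obtain ⟨w, hw, t, ht, hwt⟩ := Submodule.mem_sup.mp (hv s)
    obtain ⟨a, rfl⟩ := Ideal.mem_span_singleton'.1 ht
    refine ⟨a, ?_⟩
    rw [← hwt, mul_comm y a, add_sub_cancel_right]
    exact hw
  choose a ha using hs
  obtain ⟨u', hu'⟩ := h0 a (fun s => hy _ (by
    have h2 := resol_mulVec_mem W (φ i) _ ha s
    have e : (fun r => (φ (i + 1)).mulVec v r - y * a r) = (φ (i + 1)).mulVec v - y • a := rfl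
    rw [e, Matrix.mulVec_sub, Matrix.mulVec_mulVec, hφφ, Matrix.zero_mulVec, Matrix.mulVec_smul,
      zero_sub] at h2
    exact (W.neg_mem_iff).mp h2))
  obtain ⟨u, hu⟩ := h1 (v - y • u') (fun s => by
    rw [Matrix.mulVec_sub, Matrix.mulVec_smul]
    have h2 := W.add_mem (ha s) (W.mul_mem_left y (hu' s))
    have e : (φ (i + 1)).mulVec v s - y * a s + y * (a s - (φ (i + 1)).mulVec u' s) =
        ((φ (i + 1)).mulVec v - y • (φ (i + 1)).mulVec u') s := by
      simp only [Pi.sub_apply, Pi.smul_apply, smul_eq_mul]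
      ring
    rwa [e] at h2)
  refine ⟨u, fun s => ?_⟩
  have e : v s - (φ (i + 1 + 1)).mulVec u s =
      ((v - y • u') s - (φ (i + 1 + 1)).mulVec u s) + u' s * y := by
    simp only [Pi.sub_apply, Pi.smul_apply, smul_eq_mul]
    ring
  rw [e]
  exact Submodule.add_mem_sup (hu s) (Ideal.mul_mem_left _ _ (Ideal.mem_span_singleton_self y))

theorem resol_span_succ {r : ℕ} (y : Fin r → T) (k : ℕ) (hk : k < r) :
    Ideal.span (y '' {i | i.val < k + 1}) =
      Ideal.span (y '' {i | i.val < k}) ⊔ Ideal.span {y ⟨k, hk⟩} := by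
  rw [← Ideal.span_union, ← Set.image_singleton (f := y), ← Set.image_union]
  congr 2
  ext l
  simp only [Set.mem_ofPred_eq, Set.mem_union, Set.mem_singleton_iff, Fin.ext_iff]
  omega

theorem ExMod.iter {β : ℕ → Type} [∀ i, Fintype (β i)] {φ : ∀ i, Matrix (β i) (β (i + 1)) T}
    (hφφ : ∀ i, φ i * φ (i + 1) = 0) {W : Ideal T} {r : ℕ} (y : Fin r → T)
    (hreg : ∀ (j : Fin r) (t : T), y j * t ∈ W ⊔ Ideal.span (y '' {i | i < j}) →
      t ∈ W ⊔ Ideal.span (y '' {i | i < j}))
    (h0 : ∀ i, ExMod φ W i) (k : ℕ) (hk : k ≤ r) :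
    ∀ i, k ≤ i → ExMod φ (W ⊔ Ideal.span (y '' {i | i.val < k})) i := by
  induction k with
  | zero =>
    intro i _
    simpa using h0 i
  | succ k ih =>
    intro i hi
    obtain ⟨i, rfl⟩ : ∃ j, i = j + 1 := ⟨i - 1, by omega⟩
    rw [resol_span_succ y k hk, ← sup_assoc]
    exact ExMod.step hφφ (hreg ⟨k, hk⟩) (ih (by omega) i (by omega)) (ih (by omega) _ (by omega))

theorem resol_mem_smul_top {R : Type*} [CommRing R] [Algebra R T] (I : Ideal R) {n : Type}
    [Fintype n] (z : n → T) (hz : ∀ s, z s ∈ I.map (algebraMap R T)) :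
    z ∈ I • (⊤ : Submodule R (n → T)) := by
  classical
  rw [← Finset.univ_sum_single z]
  refine Submodule.sum_mem _ fun s _ => ?_
  have h1 : z s ∈ I • (⊤ : Submodule R T) := by
    rw [Ideal.smul_top_eq_map]
    exact hz s
  exact Submodule.smul_top_le_comap_smul_top I (LinearMap.single R (fun _ : n => T) s) h1

/-- one step: a flat quotient gives a flat and pure submodule. -/
theorem resol_flat_step {R : Type*} [CommRing R] [Algebra R T] [Module.Flat R T] (I : Ideal R)
    {m n : Type} [Fintype m] [Fintype n] (φ : Matrix m n T) {P : Type*} [AddCommGroup P]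
    [Module R P] [Module.Flat R P] (f : (m → T) →ₗ[R] P) (hf : Function.Surjective f)
    (hk : ∀ v, f v = 0 ↔ v ∈ LinearMap.range φ.mulVecLin) :
    Module.Flat R (LinearMap.range φ.mulVecLin) ∧ ∀ v : n → T,
      (∀ s, φ.mulVec v s ∈ I.map (algebraMap R T)) →
      ∃ v' : n → T, (∀ s, v' s ∈ I.map (algebraMap R T)) ∧ φ.mulVec v' = φ.mulVec v := by
  let g : (LinearMap.range φ.mulVecLin) →ₗ[R] (m → T) :=
    (LinearMap.range φ.mulVecLin).subtype.restrictScalars R
  have hg : Function.Injective g := Subtype.val_injective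
  have H : Function.Exact g f := by
    intro v
    rw [hk]
    exact ⟨fun h => ⟨⟨v, h⟩, rfl⟩, fun ⟨z, hz⟩ => hz ▸ z.2⟩
  have : Module.Flat R (m → T) := Module.Flat.trans R T (m → T)
  refine ⟨resol_flat_ker f hf g hg H, fun v hv => ?_⟩
  have h1 := resol_pure f hf g hg H I ⟨φ.mulVec v, v, rfl⟩ (resol_mem_smul_top I _ hv)
  have key : ∀ z ∈ I • (⊤ : Submodule R (LinearMap.range φ.mulVecLin)),
      ∃ v' : n → T, (∀ s, v' s ∈ I.map (algebraMap R T)) ∧ φ.mulVec v' = z.1 := by
    intro z hz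
    induction hz using Submodule.smul_induction_on' with
    | smul r hr x _ =>
      obtain ⟨_, u, rfl⟩ := x
      refine ⟨algebraMap R T r • u, fun s => Ideal.mul_mem_right _ _ (Ideal.mem_map_of_mem _ hr), ?_⟩
      rw [Matrix.mulVec_smul, algebraMap_smul]
      rfl
    | add x _ y _ hx hy =>
      obtain ⟨a, ha, ha'⟩ := hx
      obtain ⟨b, hb, hb'⟩ := hy
      exact ⟨a + b, fun s => Ideal.add_mem _ (ha s) (hb s), by
        rw [Matrix.mulVec_add, ha', hb']; rfl⟩
  exact key _ h1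

theorem resol_exMod {R : Type*} [CommRing R] [Algebra R T] [Module.Flat R T] (I : Ideal R)
    {β : ℕ → Type} [∀ i, Fintype (β i)] (φ : ∀ i, Matrix (β i) (β (i + 1)) T)
    (hex : ∀ i, LinearMap.range (φ (i + 1)).mulVecLin = LinearMap.ker (φ i).mulVecLin)
    {P : Type*} [AddCommGroup P] [Module R P] [Module.Flat R P] (f : (β 0 → T) →ₗ[R] P)
    (hf : Function.Surjective f) (hk : ∀ v, f v = 0 ↔ v ∈ LinearMap.range (φ 0).mulVecLin)
    (i : ℕ) : ExMod φ (I.map (algebraMap R T)) i := by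
  have key : ∀ i, Module.Flat R (LinearMap.range (φ i).mulVecLin) ∧ ∀ v : β (i + 1) → T,
      (∀ s, (φ i).mulVec v s ∈ I.map (algebraMap R T)) →
      ∃ v' : β (i + 1) → T, (∀ s, v' s ∈ I.map (algebraMap R T)) ∧
        (φ i).mulVec v' = (φ i).mulVec v := by
    intro i
    induction i with
    | zero => exact resol_flat_step I _ f hf hk
    | succ i ih =>
      have := ih.1
      refine resol_flat_step I _ ((φ i).mulVecLin.rangeRestrict.restrictScalars R)
        (LinearMap.surjective_rangeRestrict _) fun v => ?_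
      rw [hex, LinearMap.mem_ker, LinearMap.restrictScalars_apply, Subtype.ext_iff]
      rfl
  intro v hv
  obtain ⟨v', h1, h2⟩ := (key i).2 v hv
  have h3 : v - v' ∈ LinearMap.ker (φ i).mulVecLin := by
    rw [LinearMap.mem_ker, Matrix.mulVecLin_apply, Matrix.mulVec_sub, h2, sub_self]
  rw [← hex] at h3
  obtain ⟨u, hu⟩ := h3
  refine ⟨u, fun s => ?_⟩
  rw [← Matrix.mulVecLin_apply, hu, Pi.sub_apply, sub_sub_cancel]
  exact h1 s

theorem resol_lift {l m n : Type} [Fintype m] [Fintype n] [DecidableEq n] (φ : Matrix l m T)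
    (E : Matrix l n T) (h : ∀ s, (fun a => E a s) ∈ LinearMap.range φ.mulVecLin) :
    ∃ H : Matrix m n T, φ * H = E := by
  choose u hu using h
  refine ⟨Matrix.of fun a s => u s a, ?_⟩
  ext a s
  exact congrFun (hu s) a

end Vale.Agent.P202
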