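import Vale.Agent.P202.Koszul
import Vale.Agent.P202.Descent
import Vale.Agent.P202.Acyc
import Vale.Agent.P202.GrowthPS
import Vale.Agent.P202.ResolAux

/-! Short resolutions, cones and almost acyclicity, in matrix form. -/

namespace Vale.Agent.P202

open IsLocalRing

/-- `x` is null-homotopic on the complex `φ` in all levels, level zero included. -/
def FullNull {T : Type*} [CommRing T] {β : ℕ → Type} [∀ i, Fintype (β i)] [∀ i, DecidableEq (β i)]
    (φ : ∀ i, Matrix (β i) (β (i + 1)) T) (x : T) : Prop :=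
  ∃ h : ∀ i, Matrix (β (i + 1)) (β i) T, φ 0 * h 0 = x • (1 : Matrix (β 0) (β 0) T) ∧
    ∀ i, φ (i + 1) * h (i + 1) + h i * φ i = x • (1 : Matrix (β (i + 1)) (β (i + 1)) T)

theorem FullNull.nullHtpy {T : Type*} [CommRing T] {β : ℕ → Type} [∀ i, Fintype (β i)]
    [∀ i, DecidableEq (β i)] {φ : ∀ i, Matrix (β i) (β (i + 1)) T} {x : T} (h : FullNull φ x) :
    NullHtpy φ x :=
  ⟨h.choose, h.choose_spec.2⟩

theorem FullNull.of_mem_span {T : Type*} [CommRing T] {β : ℕ → Type} [∀ i, Fintype (β i)]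
    [∀ i, DecidableEq (β i)] (φ : ∀ i, Matrix (β i) (β (i + 1)) T) {s : Set T}
    (hs : ∀ x ∈ s, FullNull φ x) {x : T} (hx : x ∈ Ideal.span s) : FullNull φ x := by
  induction hx using Submodule.span_induction with
  | mem x hx => exact hs x hx
  | zero => exact ⟨fun _ => 0, by simp, fun i => by simp⟩
  | add x y _ _ hx hy =>
    obtain ⟨h, h0, hh⟩ := hx
    obtain ⟨h', h0', hh'⟩ := hy
    refine ⟨fun i => h i + h' i, by rw [add_smul, ← h0, ← h0', Matrix.mul_add], fun i => ?_⟩
    rw [add_smul, ← hh, ← hh', Matrix.mul_add, Matrix.add_mul]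
    abel
  | smul a x _ hx =>
    obtain ⟨h, h0, hh⟩ := hx
    refine ⟨fun i => a • h i, by rw [smul_eq_mul, mul_smul, ← h0, Matrix.mul_smul], fun i => ?_⟩
    rw [smul_eq_mul, mul_smul, ← hh, Matrix.mul_smul, Matrix.smul_mul, smul_add]

theorem resol_fullNull {T : Type*} [CommRing T] {β : ℕ → Type} [∀ i, Fintype (β i)]
    [∀ i, DecidableEq (β i)] (φ : ∀ i, Matrix (β i) (β (i + 1)) T)
    (hφφ : ∀ i, φ i * φ (i + 1) = 0)
    (hex : ∀ i, LinearMap.range (φ (i + 1)).mulVecLin = LinearMap.ker (φ i).mulVecLin) (x : T)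
    (h0 : Matrix (β 1) (β 0) T) (hh0 : φ 0 * h0 = x • (1 : Matrix (β 0) (β 0) T)) :
    FullNull φ x := by
  have step : ∀ i (h : Matrix (β (i + 1)) (β i) T), φ i * h * φ i = x • φ i →
      ∃ h' : Matrix (β (i + 2)) (β (i + 1)) T,
        φ (i + 1) * h' + h * φ i = x • (1 : Matrix (β (i + 1)) (β (i + 1)) T) ∧
        φ (i + 1) * h' * φ (i + 1) = x • φ (i + 1) := by
    intro i h hh
    have hE : φ i * (x • (1 : Matrix (β (i + 1)) (β (i + 1)) T) - h * φ i) = 0 := by
      rw [Matrix.mul_sub, Matrix.mul_smul, Matrix.mul_one, ← Matrix.mul_assoc, hh, sub_self]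
    obtain ⟨h', hh'⟩ := resol_lift (φ (i + 1))
      (x • (1 : Matrix (β (i + 1)) (β (i + 1)) T) - h * φ i) (fun s => by
        rw [hex, LinearMap.mem_ker]
        funext a
        exact congrFun (congrFun hE a) s)
    refine ⟨h', by rw [hh', sub_add_cancel], ?_⟩
    rw [hh', Matrix.sub_mul, Matrix.smul_mul, Matrix.one_mul, Matrix.mul_assoc, hφφ,
      Matrix.mul_zero, sub_zero]
  choose nx h1 h2 using step
  let H : ∀ i, {h : Matrix (β (i + 1)) (β i) T // φ i * h * φ i = x • φ i} := fun i =>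
    Nat.rec ⟨h0, by rw [hh0, Matrix.smul_mul, Matrix.one_mul]⟩
      (fun i a => ⟨nx i a.1 a.2, h2 i a.1 a.2⟩) i
  exact ⟨fun i => (H i).1, hh0, fun i => h1 i (H i).1 (H i).2⟩

/-- index types of the shifted complex. -/
def coneIx (β : ℕ → Type) : ℕ → Type
  | 0 => Empty
  | i + 1 => β i

instance coneIxFintype (β : ℕ → Type) [h : ∀ i, Fintype (β i)] : ∀ i, Fintype (coneIx β i)
  | 0 => (inferInstance : Fintype Empty)
  | i + 1 => h i

instance coneIxDecEq (β : ℕ → Type) [h : ∀ i, DecidableEq (β i)] :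
    ∀ i, DecidableEq (coneIx β i)
  | 0 => (inferInstance : DecidableEq Empty)
  | i + 1 => h i

/-- differential of the shifted complex. -/
def coneMD {T : Type*} [CommRing T] {β : ℕ → Type} (φ : ∀ i, Matrix (β i) (β (i + 1)) T) :
    ∀ i, Matrix (coneIx β i) (β i) T
  | 0 => 0
  | i + 1 => φ i

/-- homotopy on the shifted complex. -/
def coneH {T : Type*} [CommRing T] {β : ℕ → Type} (h : ∀ i, Matrix (β (i + 1)) (β i) T) :
    ∀ i, Matrix (β i) (coneIx β i) T
  | 0 => 0
  | i + 1 => h i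

theorem resol_cone_one {T : Type*} [CommRing T] (w : T) (m : Ideal T) (hw : w ∈ m)
    (β : ℕ → Type) [∀ i, Fintype (β i)] [∀ i, DecidableEq (β i)]
    (φ : ∀ i, Matrix (β i) (β (i + 1)) T) (r : ℕ) (hβ : ∀ i, r < i → IsEmpty (β i))
    (hφφ : ∀ i, φ i * φ (i + 1) = 0) (hφ : ∀ i s t, φ i s t ∈ m) (J : Ideal T)
    (hJ : ∀ x ∈ J, FullNull φ x) :
    ∃ (β' : ℕ → Type) (_ : ∀ i, Fintype (β' i)) (_ : ∀ i, DecidableEq (β' i))
      (φ' : ∀ i, Matrix (β' i) (β' (i + 1)) T), Fintype.card (β' 0) = Fintype.card (β 0) ∧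
      (∀ i, r + 1 < i → IsEmpty (β' i)) ∧ (∀ i, φ' i * φ' (i + 1) = 0) ∧
      (∀ i s t, φ' i s t ∈ m) ∧ ∀ x ∈ J ⊔ Ideal.span {w}, FullNull φ' x := by
  have hE : IsEmpty (coneIx β 0) := (inferInstance : IsEmpty Empty)
  let Φ : ∀ i, Matrix (β i ⊕ coneIx β i) (β (i + 1) ⊕ β i) T := fun i =>
    Matrix.fromBlocks (φ i) (w • (1 : Matrix (β i) (β i) T)) 0 (-coneMD φ i)
  have hDφ : ∀ i, coneMD φ i * φ i = 0 := by
    intro i
    cases i with
    | zero => exact Matrix.zero_mul _
    | succ i => exact hφφ i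
  have hblk : ∀ (x : T) (A : Matrix (β 0) (β 0) T) (B : Matrix (β 0) (coneIx β 0) T)
      (C : Matrix (coneIx β 0) (β 0) T) (D : Matrix (coneIx β 0) (coneIx β 0) T),
      A = x • (1 : Matrix (β 0) (β 0) T) → Matrix.fromBlocks A B C D =
        x • (1 : Matrix (β 0 ⊕ coneIx β 0) (β 0 ⊕ coneIx β 0) T) := by
    intro x A B C D hA
    rw [← Matrix.fromBlocks_one, Matrix.fromBlocks_smul, hA]
    congr 1 <;> exact Subsingleton.elim _ _
  refine ⟨fun i => β i ⊕ coneIx β i, inferInstance, inferInstance, Φ, ?_, ?_, ?_, ?_, ?_⟩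
  · rw [Fintype.card_sum, Fintype.card_eq_zero (α := coneIx β 0), add_zero]
  · intro i hi
    obtain ⟨i, rfl⟩ : ∃ j, i = j + 1 := ⟨i - 1, by omega⟩
    have := hβ (i + 1) (by omega)
    have : IsEmpty (coneIx β (i + 1)) := hβ i (by omega)
    infer_instance
  · intro i
    have h : Matrix.fromBlocks (φ i) (w • (1 : Matrix (β i) (β i) T)) 0 (-coneMD φ i) *
        Matrix.fromBlocks (φ (i + 1)) (w • (1 : Matrix (β (i + 1)) (β (i + 1)) T)) 0 (-φ i) =
        0 := by
      rw [Matrix.fromBlocks_multiply, ← Matrix.fromBlocks_zero]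
      simp [hφφ, hDφ]
    exact h
  · rintro i (s | s) (t | t)
    · exact hφ i s t
    · exact m.mul_mem_right _ hw
    · exact m.zero_mem
    · cases i with
      | zero => exact isEmptyElim s
      | succ i => exact m.neg_mem (hφ i s t)
  · intro x hx
    rw [← Ideal.span_eq J, ← Ideal.span_union] at hx
    refine FullNull.of_mem_span (β := fun i => β i ⊕ coneIx β i) Φ ?_ hx
    rintro x (hx | rfl)
    · obtain ⟨h, h0, hh⟩ := hJ x hx
      have hlast : ∀ i, φ i * h i + coneH h i * coneMD φ i = x • (1 : Matrix (β i) (β i) T) := by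
        intro i
        cases i with
        | zero =>
          have : coneH h 0 * coneMD φ 0 = 0 := Matrix.zero_mul _
          rw [this, add_zero, h0]
        | succ i => exact hh i
      let H : ∀ i, Matrix (β (i + 1) ⊕ β i) (β i ⊕ coneIx β i) T := fun i =>
        Matrix.fromBlocks (h i) 0 0 (-coneH h i)
      refine ⟨H, ?_, fun i => ?_⟩
      · have e : Φ 0 * H 0 = x • (1 : Matrix (β 0 ⊕ coneIx β 0) (β 0 ⊕ coneIx β 0) T) := by
          simp only [Φ, H]
          rw [Matrix.fromBlocks_multiply]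
          exact hblk _ _ _ _ _ (by simp [h0])
        exact e
      · have e : Matrix.fromBlocks (φ (i + 1)) (w • (1 : Matrix (β (i + 1)) (β (i + 1)) T)) 0
              (-φ i) * Matrix.fromBlocks (h (i + 1)) 0 0 (-h i) +
            Matrix.fromBlocks (h i) 0 0 (-coneH h i) *
              Matrix.fromBlocks (φ i) (w • (1 : Matrix (β i) (β i) T)) 0 (-coneMD φ i) =
            x • (1 : Matrix (β (i + 1) ⊕ β i) (β (i + 1) ⊕ β i) T) := by
          rw [Matrix.fromBlocks_multiply, Matrix.fromBlocks_multiply, Matrix.fromBlocks_add,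
            ← Matrix.fromBlocks_one, Matrix.fromBlocks_smul]
          simp [hh, hlast]
        exact e
    · let H : ∀ i, Matrix (β (i + 1) ⊕ β i) (β i ⊕ coneIx β i) T := fun i =>
        Matrix.fromBlocks 0 0 1 0
      refine ⟨H, ?_, fun i => ?_⟩
      · have e : Φ 0 * H 0 = x • (1 : Matrix (β 0 ⊕ coneIx β 0) (β 0 ⊕ coneIx β 0) T) := by
          simp only [Φ, H]
          rw [Matrix.fromBlocks_multiply]
          exact hblk _ _ _ _ _ (by simp)
        exact e
      · have e : Matrix.fromBlocks (φ (i + 1)) (x • (1 : Matrix (β (i + 1)) (β (i + 1)) T))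
              (0 : Matrix (β i) (β (i + 1 + 1)) T) (-φ i) * Matrix.fromBlocks (0 : Matrix (β (i + 1 + 1)) (β (i + 1)) T)
                (0 : Matrix (β (i + 1 + 1)) (β i) T) (1 : Matrix (β (i + 1)) (β (i + 1)) T)
                (0 : Matrix (β (i + 1)) (β i) T) +
            Matrix.fromBlocks (0 : Matrix (β (i + 1)) (β i) T)
                (0 : Matrix (β (i + 1)) (coneIx β i) T) (1 : Matrix (β i) (β i) T)
                (0 : Matrix (β i) (coneIx β i) T) *
              Matrix.fromBlocks (φ i) (x • (1 : Matrix (β i) (β i) T)) 0 (-coneMD φ i) =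
            x • (1 : Matrix (β (i + 1) ⊕ β i) (β (i + 1) ⊕ β i) T) := by
          rw [Matrix.fromBlocks_multiply, Matrix.fromBlocks_multiply, Matrix.fromBlocks_add,
            ← Matrix.fromBlocks_one, Matrix.fromBlocks_smul]
          simp
        exact e

theorem exists_short_resolution (R T : Type*) [CommRing R] [CommRing T] [IsLocalRing T]
    [IsNoetherianRing T] [Algebra R T] [Module.Flat R T] (J : Ideal T) (hJ : J ≠ ⊤)
    [Module.Flat R (T ⧸ J)] (I : Ideal R) {r : ℕ} (y : Fin r → T)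
    (hm : maximalIdeal T = I.map (algebraMap R T) ⊔ Ideal.span (Set.range y))
    (hreg : ∀ (j : Fin r) (t : T),
      y j * t ∈ I.map (algebraMap R T) ⊔ Ideal.span (y '' {i | i < j}) →
      t ∈ I.map (algebraMap R T) ⊔ Ideal.span (y '' {i | i < j})) :
    ∃ (b : ℕ → ℕ) (φ : ∀ i, Matrix (Fin (b i)) (Fin (b (i + 1))) T), b 0 = 1 ∧
      (∀ i, r < i → b i = 0) ∧ (∀ i, φ i * φ (i + 1) = 0) ∧
      (∀ i s t, φ i s t ∈ maximalIdeal T) ∧ (∀ s, Ideal.span (Set.range (φ 0 s)) = J) ∧
      ∀ x ∈ J, FullNull (β := fun i => Fin (b i)) φ x := by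
  obtain ⟨b, φ, e, h0, hex, hmin⟩ :=
    resol_exists_min (T := T) (Submodule.comap (LinearMap.proj (R := T) (φ := fun _ : Fin 1 => T) 0) J)
  let s0 : Fin (b 0) := Fin.cast e.symm 0
  have hs0 : ∀ s : Fin (b 0), s = s0 := fun s => Fin.ext (by have := s.2; simp [s0]; omega)
  have h0' : ∀ v : Fin (b 0) → T, v ∈ LinearMap.range (φ 0).mulVecLin ↔ v s0 ∈ J := h0
  have hcol : ∀ i t, (fun s => φ i s t) ∈ LinearMap.range (φ i).mulVecLin := fun i t =>
    ⟨Pi.single t 1, by
      funext s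
      simp⟩
  have hφφ : ∀ i, φ i * φ (i + 1) = 0 := by
    intro i
    ext a t
    have := hcol (i + 1) t
    rw [hex, LinearMap.mem_ker] at this
    exact congrFun this a
  have hφm : ∀ i s t, φ i s t ∈ maximalIdeal T := by
    intro i s t
    cases i with
    | zero =>
      rw [hs0 s]
      exact le_maximalIdeal hJ ((h0' _).mp (hcol 0 t))
    | succ i =>
      have := hcol (i + 1) t
      rw [hex, LinearMap.mem_ker] at this
      exact hmin i _ this s
  have hE := resol_exMod I (β := fun i => Fin (b i)) φ hex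
    ((J.mkQ ∘ₗ LinearMap.proj (R := T) (φ := fun _ : Fin (b 0) => T) s0).restrictScalars R)
    (fun z => by
      obtain ⟨t, rfl⟩ := J.mkQ_surjective z
      exact ⟨fun _ => t, rfl⟩)
    (fun v => by
      rw [h0']
      exact Submodule.Quotient.mk_eq_zero J)
  have hE' := ExMod.iter (β := fun i => Fin (b i)) hφφ y hreg hE r le_rfl
  have hr : {i : Fin r | i.val < r} = Set.univ := Set.eq_univ_of_forall fun i => i.2
  rw [hr, Set.image_univ, ← hm] at hE'
  refine ⟨b, φ, e, fun i hi => ?_, hφφ, hφm, fun s => ?_, fun x hx => ?_⟩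
  · obtain ⟨i, rfl⟩ : ∃ j, i = j + 1 := ⟨i - 1, by omega⟩
    by_contra hb
    obtain ⟨u, hu⟩ := hE' i (by omega) (fun _ => 1)
      (fun s => resol_mulVec_mem' _ _ _ s (hφm i s))
    have h1 := hu ⟨0, Nat.pos_of_ne_zero hb⟩
    have h2 : (φ (i + 1)).mulVec u ⟨0, Nat.pos_of_ne_zero hb⟩ ∈ maximalIdeal T :=
      resol_mulVec_mem' _ _ _ _ (hφm _ _)
    have h3 := Ideal.add_mem _ h1 h2
    rw [sub_add_cancel] at h3
    exact (maximalIdeal.isMaximal T).ne_top ((Ideal.eq_top_iff_one _).mpr h3)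
  · rw [hs0 s]
    refine le_antisymm (Ideal.span_le.mpr ?_) fun x hx => ?_
    · rintro _ ⟨t, rfl⟩
      exact (h0' _).mp (hcol 0 t)
    · obtain ⟨u, hu⟩ := (h0' (fun _ => x)).mpr hx
      rw [← congrFun hu s0]
      exact resol_mulVec_mem' _ (φ 0) u s0 fun t => Ideal.subset_span (Set.mem_range_self t)
  · obtain ⟨H, hH⟩ := resol_lift (φ 0) (x • (1 : Matrix (Fin (b 0)) (Fin (b 0)) T))
      (fun s => (h0' _).mpr (J.mul_mem_right _ hx))
    exact resol_fullNull (β := fun i => Fin (b i)) φ hφφ hex x H hH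

theorem exists_cone {T : Type*} [CommRing T] {d : ℕ} (w : Fin d → T) (m : Ideal T)
    (hw : ∀ i, w i ∈ m) (β : ℕ → Type) [∀ i, Fintype (β i)] [∀ i, DecidableEq (β i)]
    (φ : ∀ i, Matrix (β i) (β (i + 1)) T) (r : ℕ) (hβ : ∀ i, r < i → IsEmpty (β i))
    (hφφ : ∀ i, φ i * φ (i + 1) = 0) (hφ : ∀ i s t, φ i s t ∈ m) (J : Ideal T)
    (hJ : ∀ x ∈ J, FullNull φ x) :
    ∃ (β' : ℕ → Type) (_ : ∀ i, Fintype (β' i)) (_ : ∀ i, DecidableEq (β' i))
      (φ' : ∀ i, Matrix (β' i) (β' (i + 1)) T), Fintype.card (β' 0) = Fintype.card (β 0) ∧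
      (∀ i, d + r < i → IsEmpty (β' i)) ∧ (∀ i, φ' i * φ' (i + 1) = 0) ∧
      (∀ i s t, φ' i s t ∈ m) ∧ ∀ x ∈ J ⊔ Ideal.span (Set.range w), FullNull φ' x := by
  induction d with
  | zero =>
    refine ⟨β, inferInstance, inferInstance, φ, rfl, fun i hi => hβ i (by omega), hφφ, hφ, ?_⟩
    simpa using hJ
  | succ d ih =>
    obtain ⟨β1, _, _, φ1, h1, h2, h3, h4, h5⟩ := ih (Fin.tail w) (fun i => hw _)
    obtain ⟨β2, _, _, φ2, k1, k2, k3, k4, k5⟩ :=
      resol_cone_one (w 0) m (hw 0) β1 φ1 (d + r) h2 h3 h4 _ h5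
    refine ⟨β2, inferInstance, inferInstance, φ2, k1.trans h1, fun i hi => k2 i (by omega), k3, k4,
      fun x hx => k5 x ?_⟩
    rwa [Fin.range_fin_succ, Ideal.span_insert, sup_comm (Ideal.span {w 0}), ← sup_assoc] at hx

theorem almost_acyclic {T N : Type*} [CommRing T] [AddCommGroup N] [Module T N] (β : ℕ → Type)
    [∀ i, Fintype (β i)] [∀ i, DecidableEq (β i)] (φ : ∀ i, Matrix (β i) (β (i + 1)) T) (r : ℕ)
    (hβ : ∀ i, r < i → IsEmpty (β i)) (hφφ : ∀ i, φ i * φ (i + 1) = 0) (y : Fin r → T)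
    (hy : ∀ j, NullHtpy φ (y j)) (c : T) (W : Submodule T N)
    (hreg : ∀ (j : Fin r) (n : N),
      y j • n ∈ W ⊔ Ideal.span (y '' {i | i < j}) • (⊤ : Submodule T N) →
      c • n ∈ W ⊔ Ideal.span (y '' {i | i < j}) • (⊤ : Submodule T N))
    (i : ℕ) (ζ : β (i + 1) → N) (hζ : ∀ s, mact (φ i) ζ s ∈ W) :
    ∃ η : β (i + 2) → N, ∀ s, c ^ r • ζ s - mact (φ (i + 1)) η s ∈ W := by
  set V : ℕ → Submodule T N := fun k =>
    W ⊔ Ideal.span (y '' {i | i.val < k}) • (⊤ : Submodule T N) with hV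
  have claim : ∀ m k : ℕ, k + m = r → ∀ i, k ≤ i → ∀ v : β (i + 1) → N,
      (∀ s, mact (φ i) v s ∈ V k) →
      ∃ u : β (i + 2) → N, ∀ s, c ^ m • v s - mact (φ (i + 1)) u s ∈ V k := by
    intro m
    induction m with
    | zero =>
      intro k hk i hi v _
      have := hβ (i + 1) (by omega)
      exact ⟨0, fun s => isEmptyElim s⟩
    | succ m ih =>
      intro k hk i hi v hv
      have hkr : k < r := by omega
      obtain ⟨h, hh⟩ := hy ⟨k, hkr⟩
      have hsucc : V (k + 1) = V k ⊔ Ideal.span {y ⟨k, hkr⟩} • (⊤ : Submodule T N) := by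
        simp only [hV]
        rw [resol_span_succ y k hkr, Submodule.sup_smul, sup_assoc]
      generalize hz : y ⟨k, hkr⟩ = z at hh hsucc
      have e1 : ∀ s, mact (φ (i + 1)) (mact (h (i + 1)) v) s =
          z • v s - mact (h i) (mact (φ i) v) s := by
        intro s
        rw [mact_mact, mact_mact, ← smul_one_mact z v s, ← hh i, add_mact, add_sub_cancel_right]
      obtain ⟨u', hu'⟩ := ih (k + 1) (by omega) (i + 1) (by omega) (mact (h (i + 1)) v) (by
        intro s
        rw [e1, hsucc]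
        exact Submodule.sub_mem _
          (Submodule.mem_sup_right (Submodule.smul_mem_smul (Ideal.mem_span_singleton_self z)
            Submodule.mem_top))
          (Submodule.mem_sup_left (mact_mem _ _ hv s)))
      have hsplit : ∀ s, ∃ a : N, c ^ m • mact (h (i + 1)) v s - mact (φ (i + 1 + 1)) u' s -
          z • a ∈ V k := by
        intro s
        have := hu' s
        rw [hsucc, Submodule.mem_sup] at this
        obtain ⟨n, hn, t, ht, hst⟩ := this
        rw [Submodule.ideal_span_singleton_smul] at ht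
        obtain ⟨a, -, rfl⟩ := (Submodule.mem_smul_pointwise_iff_exists _ _ _).mp ht
        refine ⟨a, ?_⟩
        rw [← hst, add_sub_cancel_right]
        exact hn
      choose a ha using hsplit
      refine ⟨fun s => c • a s, fun s => ?_⟩
      have h1 := mact_mem (V k) (φ (i + 1)) ha s
      rw [mact_sub, mact_sub, mact_smul, mact_smul, mact_mact (φ (i + 1)) (φ (i + 1 + 1)), hφφ,
        mact_zero, sub_zero, e1] at h1
      have h3 : z • (c ^ m • v s - mact (φ (i + 1)) a s) ∈ V k := by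
        have h4 := (V k).add_mem h1 ((V k).smul_mem (c ^ m) (mact_mem _ (h i) hv s))
        have e : c ^ m • (z • v s - mact (h i) (mact (φ i) v) s) - z • mact (φ (i + 1)) a s +
            c ^ m • mact (h i) (mact (φ i) v) s = z • (c ^ m • v s - mact (φ (i + 1)) a s) := by
          rw [smul_sub, smul_sub, smul_comm z]
          abel
        rwa [e] at h4
      rw [← hz] at h3
      have h5 := hreg ⟨k, hkr⟩ _ h3
      rw [mact_smul, pow_succ', mul_smul, ← smul_sub]
      exact h5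
  have h0 : V 0 = W := by simp [hV]
  have := claim r 0 (by omega) i (Nat.zero_le i) ζ (by rw [h0]; exact hζ)
  rwa [h0] at this

/-- every system of parameters of a power series ring is a regular sequence, in any order. -/
theorem sop_regular {K : Type*} [Field K] {D : ℕ} (z : Fin D → PS K D)
    (hm : ∀ i, z i ∈ varIdeal K D)
    (hz : ∃ N : ℕ, ∀ j, MvPowerSeries.X j ^ N ∈ Ideal.span (Set.range z)) (s : Set (Fin D))
    (j : Fin D) (hj : j ∉ s) (t : PS K D) (ht : z j * t ∈ Ideal.span (z '' s)) :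
    t ∈ Ideal.span (z '' s) := by
  classical
  obtain ⟨N, hN⟩ := hz
  have key : ∀ n : ℕ, t ∈ Ideal.span (z '' s) ⊔ varIdeal K D ^ n := by
    intro n
    set ex : Fin D → ℕ := fun i => if i ∈ s ∨ i = j then 1 else n with hex
    have hrad : ∃ M : ℕ, ∀ l, (MvPowerSeries.X l : PS K D) ^ M ∈
        Ideal.span (Set.range fun i => z i ^ ex i) := by
      have h1 : (Ideal.span (Set.range z)).radical ≤
          (Ideal.span (Set.range fun i => z i ^ ex i)).radical := by
        rw [Ideal.radical_le_radical_iff, Ideal.span_le]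
        rintro _ ⟨i, rfl⟩
        exact ⟨ex i, Ideal.subset_span ⟨i, rfl⟩⟩
      choose m hm using fun l => h1 (⟨N, hN l⟩ : MvPowerSeries.X l ∈
        (Ideal.span (Set.range z)).radical)
      exact ⟨∑ l, m l, fun l => Ideal.pow_mem_of_pow_mem _ (hm l)
        (Finset.single_le_sum (fun _ _ => Nat.zero_le _) (Finset.mem_univ l))⟩
    have h1 := colon_killing MvPowerSeries.X (fun i => z i ^ ex i) 1
      (fun M l f hf => by rw [one_mul]; exact X_pow_mul_mem M l f hf) hrad j t (by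
        have e : z j ^ ex j = z j := by simp [hex]
        rw [e]
        refine Ideal.span_mono ?_ ht
        rintro _ ⟨i, hi, rfl⟩
        exact ⟨i, fun h => hj (h ▸ hi), by simp [hex, hi]⟩)
    rw [one_pow, one_mul] at h1
    refine Ideal.span_le.mpr ?_ h1
    rintro _ ⟨i, hi, rfl⟩
    by_cases his : i ∈ s
    · refine Ideal.mem_sup_left (Ideal.subset_span ⟨i, his, ?_⟩)
      simp [hex, his]
    · have hij : i ≠ j := hi
      refine Ideal.mem_sup_right ?_
      simp only [hex, his, hij, or_self, if_false]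
      exact Ideal.pow_mem_pow (hm i) n
  have hK := Ideal.iInf_pow_smul_eq_bot_of_isLocalRing (M := PS K D ⧸ Ideal.span (z '' s))
    (varIdeal K D) (by rw [varIdeal_eq_maximalIdeal]; exact (maximalIdeal.isMaximal _).ne_top)
  rw [← Submodule.Quotient.mk_eq_zero, ← Submodule.mem_bot (PS K D), ← hK, Submodule.mem_iInf]
  intro n
  obtain ⟨a, ha, b, hb, rfl⟩ := Submodule.mem_sup.mp (key n)
  rw [Submodule.Quotient.mk_add, (Submodule.Quotient.mk_eq_zero _).mpr ha, zero_add,
    ← mul_one b, ← smul_eq_mul, Submodule.Quotient.mk_smul]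
  exact Submodule.smul_mem_smul hb Submodule.mem_top

end Vale.Agent.P202
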