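import Vale.Agent.P202.FrobRank
import Vale.Agent.P202.CoreAux
import Vale.Agent.P202.Resol

/-! Additivity of ranks along a quotient of finite projective dimension, and its consequences. -/

namespace Vale.Agent.P202

open TensorProduct

universe u

theorem frt_pi_iota (A M : Type*) [CommRing A] [IsDomain A] [AddCommGroup M] [Module A M]
    [Module.Finite A M] : ∃ (n : ℕ) (c : A) (π : M →ₗ[A] (Fin n → A)) (ι : (Fin n → A) →ₗ[A] M),
      c ≠ 0 ∧ ∀ x, ι (π x) = c • x := by
  obtain ⟨v, c, hv, hc, hx⟩ := exists_free_part A M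
  let ι := Fintype.linearCombination A v
  have hι : Function.Injective ι := linearIndependent_iff_injective_fintypeLinearCombination.mp hv
  have hr : ∀ x, c • x ∈ LinearMap.range ι := fun x => by
    rw [Fintype.range_linearCombination]; exact hx x
  let π := (LinearEquiv.ofInjective ι hι).symm.toLinearMap ∘ₗ
    LinearMap.codRestrict (LinearMap.range ι) (c • LinearMap.id) hr
  exact ⟨_, c, π, ι, hc, fun x =>
    congrArg Subtype.val ((LinearEquiv.ofInjective ι hι).apply_symm_apply ⟨c • x, hr x⟩)⟩

theorem frt_almost_reg {B N : Type*} [CommRing B] [AddCommGroup N] [Module B N] {n : ℕ}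
    (π : N →ₗ[B] (Fin n → B)) (ι : (Fin n → B) →ₗ[B] N) {c : B} (h : ∀ x, ι (π x) = c • x)
    (I : Ideal B) (y : B) (hy : ∀ t, y * t ∈ I → t ∈ I) (x : N)
    (hx : y • x ∈ I • (⊤ : Submodule B N)) : c • x ∈ I • (⊤ : Submodule B N) := by
  have h1 := Submodule.smul_top_le_comap_smul_top I π hx
  rw [Submodule.mem_comap, map_smul, mem_smul_top_pi_iff] at h1
  have h3 : π x ∈ I • (⊤ : Submodule B (Fin n → B)) :=
    (mem_smul_top_pi_iff I _).mpr fun e => hy _ (h1 e)
  have h4 := Submodule.smul_top_le_comap_smul_top I ι h3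
  rwa [Submodule.mem_comap, h] at h4

theorem frt_pi_iota_baseChange (A B C T : Type u) [CommRing A] [IsDomain A] [CommRing B]
    [CommRing C] [CommRing T] [Algebra A B] [Algebra A C] [Module.Finite A C] [Algebra A T]
    [Algebra B T] [Algebra C T] [IsScalarTower A B T] [IsScalarTower A C T]
    [Algebra.IsPushout A B C T] (M : Type u) [AddCommGroup M] [Module C M] [Module.Finite C M] :
    ∃ (n : ℕ) (c : A) (π : T ⊗[C] M →ₗ[B] (Fin n → B)) (ι : (Fin n → B) →ₗ[B] T ⊗[C] M),
      c ≠ 0 ∧ ∀ x, ι (π x) = algebraMap A B c • x := by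
  let : Module A M := Module.compHom M (algebraMap A C)
  have : IsScalarTower A C M := IsScalarTower.of_algebraMap_smul fun _ _ => rfl
  have : Module.Finite A M := Module.Finite.trans C M
  obtain ⟨n, c, π, ι, hc, h⟩ := frt_pi_iota A M
  let e := Algebra.IsPushout.cancelBaseChange A B C T M
  let e' := TensorProduct.piScalarRight A B B (Fin n)
  refine ⟨n, c, e'.toLinearMap ∘ₗ π.baseChange B ∘ₗ e.toLinearMap,
    e.symm.toLinearMap ∘ₗ ι.baseChange B ∘ₗ e'.symm.toLinearMap, hc, fun x => ?_⟩
  have h1 : ∀ z : B ⊗[A] M, ι.baseChange B (π.baseChange B z) = algebraMap A B c • z := by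
    intro z
    induction z using TensorProduct.induction_on with
    | zero => simp
    | add x y hx hy => rw [map_add, map_add, hx, hy, smul_add]
    | tmul b m =>
      rw [LinearMap.baseChange_tmul, LinearMap.baseChange_tmul, h, algebraMap_smul,
        TensorProduct.tmul_smul]
  simp only [LinearMap.comp_apply, LinearEquiv.coe_coe, LinearEquiv.symm_apply_apply, h1, map_smul]

theorem frt_finrank_add {P : Type*} [CommRing P] [IsDomain P] {M₁ M₂ M₃ : Type u}
    [AddCommGroup M₁] [Module P M₁] [AddCommGroup M₂] [Module P M₂] [AddCommGroup M₃] [Module P M₃]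
    [Module.Finite P M₁] [Module.Finite P M₂] (f : M₁ →ₗ[P] M₂) (g : M₂ →ₗ[P] M₃)
    (hf : ∀ x, f x = 0 → ∃ a : P, a ≠ 0 ∧ a • x = 0)
    (hg : Function.Surjective g) (h : Function.Exact f g) :
    Module.finrank P M₂ = Module.finrank P M₁ + Module.finrank P M₃ := by
  have h0 : Module.rank P (LinearMap.ker f) = 0 := by
    rw [rank_eq_zero_iff]
    intro x
    obtain ⟨a, ha, hx⟩ := hf x.1 x.2
    exact ⟨a, ha, Subtype.ext hx⟩
  have h1 : Module.finrank P (LinearMap.ker f) = 0 := by
    rw [Module.finrank, h0, map_zero]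
  rw [← Submodule.finrank_quotient_add_finrank (LinearMap.ker g),
    (g.quotKerEquivOfSurjective hg).finrank_eq, h.linearMap_ker_eq,
    ← Submodule.finrank_quotient_add_finrank (LinearMap.ker f), h1, add_zero,
    f.quotKerEquivRange.finrank_eq, add_comm]

/-- additivity of `rkT` on finite modules. -/
def RkAdd (C D P : Type u) [CommRing C] [CommRing D] [CommRing P] [Algebra C D] [Algebra P D] :
    Prop :=
  ∀ (M₁ M₂ M₃ : Type u) [AddCommGroup M₁] [Module C M₁] [AddCommGroup M₂] [Module C M₂]
    [AddCommGroup M₃] [Module C M₃] [Module.Finite C M₁] [Module.Finite C M₂] [Module.Finite C M₃]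
    (f : M₁ →ₗ[C] M₂) (g : M₂ →ₗ[C] M₃), Function.Injective f → Function.Surjective g →
    Function.Exact f g → rkT C D P M₂ = rkT C D P M₁ + rkT C D P M₃

theorem frt_rkAdd (A B C T D P : Type u) [CommRing A] [IsDomain A] [CommRing B]
    [CommRing C] [CommRing T] [CommRing D] [CommRing P] [IsDomain P]
    [Algebra A B] [Module.Flat A B] [Algebra A C] [Module.Finite A C] [Algebra A T]
    [Algebra B T] [Algebra C T] [IsScalarTower A B T] [IsScalarTower A C T]
    [Algebra.IsPushout A B C T] [Algebra T D] [Algebra C D] [IsScalarTower C T D]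
    [Algebra P D] [Module.Finite P D] (hsurj : Function.Surjective (algebraMap T D))
    (htors : ∀ c : A, c ≠ 0 → ∃ g : P, g ≠ 0 ∧
      algebraMap P D g ∈ Ideal.span {algebraMap C D (algebraMap A C c)})
    (β : ℕ → Type) [∀ i, Fintype (β i)] [∀ i, DecidableEq (β i)]
    (φ : ∀ i, Matrix (β i) (β (i + 1)) T) (r : ℕ) (hβ : ∀ i, r < i → IsEmpty (β i))
    (hφφ : ∀ i, φ i * φ (i + 1) = 0) (s0 : β 0) (hs0 : ∀ s, s = s0)
    (hJ : Ideal.span (Set.range (φ 0 s0)) = RingHom.ker (algebraMap T D))
    (y : Fin r → B) (hy : ∀ j, NullHtpy φ (algebraMap B T (y j)))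
    (hreg : ∀ (j : Fin r) (t : B), y j * t ∈ Ideal.span (y '' {i | i < j}) →
      t ∈ Ideal.span (y '' {i | i < j})) : RkAdd C D P := by
  intro M₁ M₂ M₃ _ _ _ _ _ _ _ _ _ f g hf hg hfg
  have hflat : Module.Flat C T :=
    Module.Flat.isBaseChange (R := A) (S := C) (M := B) T
      (Algebra.IsPushout.symm (inferInstance : Algebra.IsPushout A B C T)).out
  have := finite_tensor D P M₁ (R := C)
  have := finite_tensor D P M₂ (R := C)
  obtain ⟨n, c, π, ι, hc, hπι⟩ := frt_pi_iota_baseChange A B C T M₃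
  obtain ⟨a, ha0, ha⟩ := htors (c ^ r) (pow_ne_zero r hc)
  refine frt_finrank_add ((f.baseChange D).restrictScalars P) ((g.baseChange D).restrictScalars P)
    (fun x hx => ⟨a, ha0, ?_⟩) (LinearMap.lTensor_surjective D hg) (lTensor_exact D hfg hg)
  have hf' : Function.Injective (f.baseChange T) :=
    Module.Flat.lTensor_preserves_injective_linearMap (M := T) f hf
  have hg' : Function.Surjective (g.baseChange T) := LinearMap.lTensor_surjective T hg
  have hfg' : Function.Exact (f.baseChange T) (g.baseChange T) := lTensor_exact T hfg hg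
  let τ₁ : T ⊗[C] M₁ →ₗ[T] D ⊗[C] M₁ :=
    AlgebraTensorModule.map (Algebra.linearMap T D) LinearMap.id
  let τ₂ : T ⊗[C] M₂ →ₗ[T] D ⊗[C] M₂ :=
    AlgebraTensorModule.map (Algebra.linearMap T D) LinearMap.id
  have hτ₁ : Function.Surjective τ₁ :=
    LinearMap.rTensor_surjective M₁ (g := (Algebra.linearMap T D).restrictScalars C) hsurj
  have hcomm : ∀ z, τ₂ (f.baseChange T z) = f.baseChange D (τ₁ z) := by
    intro z
    induction z using TensorProduct.induction_on with
    | zero => simp
    | add x y hx hy => simp only [map_add, hx, hy]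
    | tmul b m => simp [τ₁, τ₂]
  have hker : ∀ z, τ₂ z = 0 → ∃ ζ : β 1 → T ⊗[C] M₂, z = mact (φ 0) ζ s0 := by
    intro z hz
    have hex : Function.Exact ((RingHom.ker (algebraMap T D)).subtype.restrictScalars C)
        ((Algebra.linearMap T D).restrictScalars C) := fun t =>
      ⟨fun h => ⟨⟨t, h⟩, rfl⟩, fun ⟨u, hu⟩ => hu ▸ u.2⟩
    obtain ⟨w, rfl⟩ := (rTensor_exact M₂ hex hsurj z).mp hz
    clear hz
    induction w using TensorProduct.induction_on with
    | zero => exact ⟨fun _ => 0, by simp [mact]⟩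
    | add x y hx hy =>
      obtain ⟨ζ, hζ⟩ := hx
      obtain ⟨ζ', hζ'⟩ := hy
      exact ⟨fun s => ζ s + ζ' s, by rw [map_add, hζ, hζ', mact_add]⟩
    | tmul j m =>
      obtain ⟨j, hj⟩ := j
      have hj' := hj
      rw [← hJ, Ideal.mem_span_range_iff_exists_fun] at hj'
      obtain ⟨b, rfl⟩ := hj'
      refine ⟨fun s => b s ⊗ₜ m, ?_⟩
      change (∑ i, b i * φ 0 s0 i) ⊗ₜ[C] m = _
      simp only [mact, TensorProduct.sum_tmul, TensorProduct.smul_tmul', smul_eq_mul, mul_comm]
  obtain ⟨x, rfl⟩ := hτ₁ x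
  obtain ⟨ζ, hζ⟩ := hker _ ((hcomm x).trans hx)
  obtain ⟨η, hη⟩ := almost_acyclic β φ r hβ hφφ (fun j => algebraMap B T (y j)) hy
    (algebraMap A T c) (LinearMap.range (f.baseChange T)) (fun j z hz => by
      have hI : Ideal.span ((fun j => algebraMap B T (y j)) '' {i | i < j}) =
          (Ideal.span (y '' {i | i < j})).map (algebraMap B T) := by
        rw [Ideal.map_span, Set.image_image]
      have key : ∀ w : T ⊗[C] M₂, w ∈ LinearMap.range (f.baseChange T) ⊔
          Ideal.span ((fun j => algebraMap B T (y j)) '' {i | i < j}) •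
            (⊤ : Submodule T (T ⊗[C] M₂)) ↔
          g.baseChange T w ∈ Ideal.span (y '' {i | i < j}) • (⊤ : Submodule B (T ⊗[C] M₃)) := by
        intro w
        rw [← hfg'.linearMap_ker_eq, sup_comm, ← Submodule.comap_map_eq, Submodule.mem_comap,
          Submodule.map_smul'', Submodule.map_top, LinearMap.range_eq_top.mpr hg', hI,
          ← Submodule.restrictScalars_mem B, Submodule.restrictScalars_map_smul_eq,
          Submodule.restrictScalars_top]
      rw [key, map_smul] at hz ⊢
      rw [algebraMap_smul] at hz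
      rw [IsScalarTower.algebraMap_apply A B T, algebraMap_smul]
      exact frt_almost_reg π ι hπι _ _ (hreg j) _ hz) 0 ζ (fun s => by
        rw [hs0 s, ← hζ]
        exact ⟨x, rfl⟩)
  choose ζ' hζ' using hη
  have h1 : algebraMap A T c ^ r • x = mact (φ 0) ζ' s0 := by
    apply hf'
    rw [map_mact, map_smul, hζ]
    simp only [hζ']
    rw [mact_sub, mact_smul, mact_mact, hφφ, mact_zero, sub_zero]
  have h2 : algebraMap A T c ^ r • τ₁ x = 0 := by
    rw [← map_smul, h1, map_mact]
    refine Finset.sum_eq_zero fun t _ => ?_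
    have h3 : algebraMap T D (φ 0 s0 t) = 0 := by
      rw [← RingHom.mem_ker, ← hJ]
      exact Ideal.subset_span ⟨t, rfl⟩
    rw [← algebraMap_smul D, h3, zero_smul]
  obtain ⟨s, hs⟩ := Ideal.mem_span_singleton'.mp ha
  rw [← algebraMap_smul D, ← hs, mul_smul, IsScalarTower.algebraMap_apply C T D,
    ← IsScalarTower.algebraMap_apply A C T, algebraMap_smul, map_pow, h2, smul_zero]

theorem frt_rkT_self (A C : Type u) [CommRing A] [CommRing C] [Algebra A C] (M : Type u)
    [AddCommGroup M] [Module C M] [Module A M] [IsScalarTower A C M] :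
    rkT C C A M = Module.finrank A M :=
  ((TensorProduct.lid C M).restrictScalars A).finrank_eq

theorem frt_rkAdd_self (A C : Type u) [CommRing A] [IsDomain A] [CommRing C] [Algebra A C]
    [Module.Finite A C] : RkAdd C C A :=
  fun _ _ _ _ _ _ _ _ _ _ _ _ f g hf hg h => rkT_add C A f g hf hg h

theorem frt_prop (A C D P : Type u) [CommRing A] [IsDomain A] [CommRing C] [IsNoetherianRing C]
    [CommRing D] [CommRing P] [IsDomain P] [Algebra A C] [Module.Finite A C] [Algebra C D]
    [Algebra P D] [Module.Finite P D] (hadd : RkAdd C D P)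
    (htors : ∀ c : A, c ≠ 0 → ∃ g : P, g ≠ 0 ∧
      algebraMap P D g ∈ Ideal.span {algebraMap C D (algebraMap A C c)})
    (Z : Set C) (n : Ideal C) [n.IsPrime]
    (hZ : ∀ p : Ideal C, p.IsPrime → Z ⊆ p → n ≤ p)
    (M : Type u) [AddCommGroup M] [Module C M] [hM : Module.Finite C M]
    (hk : ∀ z ∈ Z, ∀ m : M, z • m = 0) :
    rkT C D P M * rkT C C A (C ⧸ n) = rkT C C A M * rkT C D P (C ⧸ n) := by
  induction hM using IsNoetherianRing.induction_on_isQuotientEquivQuotientPrime C with
  | subsingleton N =>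
    rw [rkT_eq_zero D P (N := N) 1 (fun x => Subsingleton.elim _ _) ⟨1, one_ne_zero, by simp⟩,
      rkT_eq_zero C A (N := N) 1 (fun x => Subsingleton.elim _ _) ⟨1, one_ne_zero, by simp⟩,
      zero_mul, zero_mul]
  | quotient N p φ =>
    rw [rkT_congr D P φ, rkT_congr C A φ]
    have hle : n ≤ p.1 := hZ p.1 p.2 fun z hz => by
      have h1 := congrArg φ (hk z hz (φ.symm 1))
      rw [map_smul, LinearEquiv.apply_symm_apply, map_zero, Algebra.smul_def, mul_one] at h1
      exact Ideal.Quotient.eq_zero_iff_mem.mp h1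
    rcases hle.eq_or_lt with h | h
    · rw [← h, mul_comm]
    · obtain ⟨ξ, hξ, hξn⟩ := SetLike.exists_of_lt h
      have hξ0 : Ideal.Quotient.mk n ξ ≠ 0 := fun h0 => hξn (Ideal.Quotient.eq_zero_iff_mem.mp h0)
      obtain ⟨c, hc0, b, hb⟩ :=
        (Algebra.IsAlgebraic.isAlgebraic (R := A) (Ideal.Quotient.mk n ξ)).exists_nonzero_dvd
          (mem_nonZeroDivisors_of_ne_zero hξ0)
      obtain ⟨b, rfl⟩ := Ideal.Quotient.mk_surjective b
      have h2 : algebraMap A C c - ξ * b ∈ n := by
        rw [← Ideal.Quotient.eq, map_mul, ← hb]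
        rfl
      have h3 : algebraMap A C c ∈ p.1 := by
        have := p.1.add_mem (hle h2) (p.1.mul_mem_right b hξ)
        rwa [sub_add_cancel] at this
      have h4 : ∀ x : C ⧸ p.1, algebraMap A C c • x = 0 := fun x => by
        rw [Algebra.smul_def, Ideal.Quotient.algebraMap_eq, Ideal.Quotient.eq_zero_iff_mem.mpr h3,
          zero_mul]
      rw [rkT_eq_zero D P _ h4 (htors c hc0),
        rkT_eq_zero C A _ h4 ⟨c, hc0, Ideal.mem_span_singleton_self _⟩, zero_mul, zero_mul]
  | exact N₁ N₂ N₃ f g hf hg h h₁ h₃ =>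
    rw [hadd _ _ _ f g hf hg h, frt_rkAdd_self A C _ _ _ f g hf hg h, add_mul, add_mul,
      h₁ (fun z hz m => hf (by rw [map_smul, hk z hz, map_zero])),
      h₃ (fun z hz m => by
        obtain ⟨m, rfl⟩ := hg m
        rw [← map_smul, hk z hz, map_zero])]

theorem frt_eq_of_rk (A C D P : Type u) [CommRing A] [IsDomain A] [CommRing C]
    [IsNoetherianRing C] [CommRing D] [CommRing P] [IsDomain P] [Algebra A C] [Module.Finite A C]
    [Algebra C D] [Algebra P D] [Module.Finite P D] (hadd : RkAdd C D P)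
    (htors : ∀ c : A, c ≠ 0 → ∃ g : P, g ≠ 0 ∧
      algebraMap P D g ∈ Ideal.span {algebraMap C D (algebraMap A C c)})
    (Z : Set C) (n : Ideal C) [n.IsPrime] (hn : ∀ a : A, algebraMap A C a ∈ n → a = 0)
    (hZ : ∀ p : Ideal C, p.IsPrime → Z ⊆ p → n ≤ p)
    (M M' : Type u) [AddCommGroup M] [Module C M] [Module.Finite C M]
    [AddCommGroup M'] [Module C M'] [Module.Finite C M']
    (hk : ∀ z ∈ Z, ∀ m : M, z • m = 0) (hk' : ∀ z ∈ Z, ∀ m : M', z • m = 0)
    (h : rkT C C A M = rkT C C A M') : rkT C D P M = rkT C D P M' := by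
  have h1 := frt_prop A C D P hadd htors Z n hZ M hk
  have h2 := frt_prop A C D P hadd htors Z n hZ M' hk'
  have h3 : 0 < rkT C C A (C ⧸ n) := by
    rw [frt_rkT_self]
    have : FaithfulSMul A (C ⧸ n) := by
      rw [faithfulSMul_iff_algebraMap_injective, injective_iff_map_eq_zero]
      intro a ha
      exact hn a (Ideal.Quotient.eq_zero_iff_mem.mp ha)
    exact Module.finrank_pos
  rw [h, ← h2] at h1
  exact Nat.eq_of_mul_eq_mul_right h3 h1

theorem frt_finrank_pi (P X : Type u) [CommRing P] [IsDomain P] [AddCommGroup X] [Module P X]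
    [Module.Finite P X] (r : ℕ) : Module.finrank P (Fin r → X) = r * Module.finrank P X := by
  rw [← frt_rkT_self P P, ← frt_rkT_self P P, rkT_pi]

theorem frt_rkT_tensor (R C S D P : Type u) [CommRing R] [CommRing C] [CommRing S] [CommRing D]
    [CommRing P] [IsDomain P] [Algebra R C] [Algebra C D] [Algebra R D] [IsScalarTower R C D]
    [Algebra R S] [Algebra S D] [IsScalarTower R S D] [Algebra P S] [Algebra P D]
    [IsScalarTower P S D] [Module.Finite P S] {Q : ℕ} (b : Module.Basis (Fin Q) S D)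
    (N : Type u) [AddCommGroup N] [Module R N] [Module.Finite R N] :
    rkT C D P (C ⊗[R] N) = Q * rkT R S P N := by
  have := finite_tensor S P N (R := R)
  unfold rkT
  rw [← frt_finrank_pi,
    ((AlgebraTensorModule.cancelBaseChange R C D D N).restrictScalars P).finrank_eq,
    ← ((AlgebraTensorModule.cancelBaseChange R S D D N).restrictScalars P).finrank_eq]
  exact ((TensorProduct.congr b.equivFun (LinearEquiv.refl S (S ⊗[R] N)) ≪≫ₗ
    TensorProduct.comm S _ _ ≪≫ₗ
    TensorProduct.piScalarRight S S (S ⊗[R] N) (Fin Q)).restrictScalars P).finrank_eq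

/-- A copy of the module `N`, with scalars restricted along `ρ`. -/
def Via {C R : Type u} [CommRing C] [CommRing R] (_ρ : C →+* R) (N : Type u) : Type u := N

namespace Via

variable {C R : Type u} [CommRing C] [CommRing R] (ρ : C →+* R) (N : Type u) [AddCommGroup N]
  [Module R N]

instance : AddCommGroup (Via ρ N) := ‹AddCommGroup N›

instance : Module C (Via ρ N) := Module.compHom N ρ

/-- the identity map. -/
def mk : N ≃+ Via ρ N := AddEquiv.refl N

theorem smul_mk (c : C) (x : N) : c • mk ρ N x = mk ρ N (ρ c • x) := rfl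

variable {N} {N' : Type u} [AddCommGroup N'] [Module R N']

/-- functoriality. -/
def map (f : N →ₗ[R] N') : Via ρ N →ₗ[C] Via ρ N' where
  toFun := f
  map_add' := f.map_add
  map_smul' r x := f.map_smul (ρ r) x

end Via

theorem frt_mid (A A1 R C S D P : Type u) [CommRing A] [IsDomain A] [IsNoetherianRing A]
    [CommRing A1] [CommRing R] [CommRing C] [CommRing S] [CommRing D] [CommRing P] [IsDomain P]
    [Algebra A A1] [FaithfulSMul A A1] [Algebra A R] [Module.Finite A R] [Algebra A C]
    [Algebra A1 C] [Algebra R C] [IsScalarTower A A1 C] [IsScalarTower A R C]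
    [Algebra.IsPushout A A1 R C] [Module.Finite A1 C]
    (σ : A ≃+* A1) (ρ : C →+* R) (q : ℕ) (hq : 0 < q)
    (hσ : ∀ a, ρ (algebraMap A1 C (σ a)) = algebraMap A R a)
    (hρ : ∀ x, ρ (algebraMap R C x) = x ^ q) (hκ : ∀ ξ, algebraMap R C (ρ ξ) = ξ ^ q)
    [Algebra C D] [Algebra R D] [IsScalarTower R C D]
    [Algebra R S] [Module.Flat R S] [Algebra S D] [IsScalarTower R S D] [Algebra P S]
    [Algebra P D] [IsScalarTower P S D] [Module.Finite P S] [Module.Finite P D]
    {Q : ℕ} (b : Module.Basis (Fin Q) S D) (hadd : RkAdd C D P)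
    (htors : ∀ c : A, c ≠ 0 → ∃ g : P, g ≠ 0 ∧
      algebraMap P S g ∈ Ideal.span {algebraMap R S (algebraMap A R c)})
    (htors1 : ∀ c : A1, c ≠ 0 → ∃ g : P, g ≠ 0 ∧
      algebraMap P D g ∈ Ideal.span {algebraMap C D (algebraMap A1 C c)})
    (N : Type u) [AddCommGroup N] [Module R N] [hN : Module.Finite R N] :
    Module.Finite C (Via ρ N) ∧ rkT C D P (Via ρ N) = Q * rkT R S P N := by
  have : IsDomain A1 := σ.symm.injective.isDomain σ.symm.toRingHom
  have : IsNoetherianRing A1 := isNoetherianRing_of_ringEquiv A σ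
  have : IsNoetherianRing R := IsNoetherianRing.of_finite A R
  have : IsNoetherianRing C := IsNoetherianRing.of_finite A1 C
  have hfin : ∀ (N : Type u) [AddCommGroup N] [Module R N] [Module.Finite R N],
      Module.Finite C (Via ρ N) := by
    intro N _ _ _
    let : Module A N := Module.compHom N (algebraMap A R)
    have : IsScalarTower A R N := IsScalarTower.of_algebraMap_smul fun _ _ => rfl
    have : Module.Finite A N := Module.Finite.trans R N
    exact Module.Finite.of_surjective
      ({ toFun := Via.mk ρ N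
         map_add' := map_add _
         map_smul' := fun a x => by
          rw [RingHom.comp_apply, Via.smul_mk]
          exact congrArg (fun t => Via.mk ρ N (t • x)) (hσ a).symm } :
        N →ₛₗ[(algebraMap A1 C).comp σ.toRingHom] Via ρ N) (Via.mk ρ N).surjective
  refine ⟨hfin N, ?_⟩
  induction hN using IsNoetherianRing.induction_on_isQuotientEquivQuotientPrime R with
  | subsingleton N =>
    have := hfin N
    have : Subsingleton (Via ρ N) := ‹Subsingleton N›
    rw [rkT_eq_zero S P (N := N) 1 (fun x => Subsingleton.elim _ _) ⟨1, one_ne_zero, by simp⟩,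
      rkT_eq_zero D P (N := Via ρ N) 1 (fun x => Subsingleton.elim _ _)
        ⟨1, one_ne_zero, by simp⟩, mul_zero]
  | quotient N p φ =>
    have := hfin N
    have hkill : ∀ x ∈ p.1, ∀ m : N, x • m = 0 := fun x hx m => φ.injective (by
      rw [map_smul, map_zero, Algebra.smul_def, Ideal.Quotient.algebraMap_eq,
        Ideal.Quotient.eq_zero_iff_mem.mpr hx, zero_mul])
    by_cases h0 : ∀ a : A, algebraMap A R a ∈ p.1 → a = 0
    · have := p.2
      rw [← frt_rkT_tensor R C S D P b N]
      refine frt_eq_of_rk A1 C D P hadd htors1 (algebraMap R C '' p.1) (p.1.comap ρ) ?_ ?_ _ _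
        ?_ ?_ ?_
      · intro a ha
        obtain ⟨a, rfl⟩ := σ.surjective a
        rw [Ideal.mem_comap, hσ] at ha
        rw [h0 a ha, map_zero]
      · intro p' hp' hsub ξ hξ
        refine hp'.mem_of_pow_mem q ?_
        rw [← hκ]
        exact hsub ⟨_, hξ, rfl⟩
      · rintro _ ⟨x, hx, rfl⟩ m
        obtain ⟨m, rfl⟩ := (Via.mk ρ N).surjective m
        rw [Via.smul_mk, hρ, hkill _ (p.1.pow_mem_of_mem hx q hq), map_zero]
      · rintro _ ⟨x, hx, rfl⟩ m
        induction m using TensorProduct.induction_on with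
        | zero => exact smul_zero _
        | add x y hx hy => rw [smul_add, hx, hy, add_zero]
        | tmul t n =>
          rw [algebraMap_smul, ← TensorProduct.tmul_smul, hkill x hx, TensorProduct.tmul_zero]
      · let : Module A N := Module.compHom N (algebraMap A R)
        have : IsScalarTower A R N := IsScalarTower.of_algebraMap_smul fun _ _ => rfl
        let : Module A1 (Via ρ N) := Module.compHom (Via ρ N) (algebraMap A1 C)
        have : IsScalarTower A1 C (Via ρ N) := IsScalarTower.of_algebraMap_smul fun _ _ => rfl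
        rw [frt_rkT_self, frt_rkT_self,
          (Algebra.IsPushout.cancelBaseChange A A1 R C N).finrank_eq,
          (TensorProduct.isBaseChange A N A1).finrank_eq]
        have h1 := rank_eq_of_equiv_equiv σ (Via.mk ρ N) σ.bijective (fun a x => by
          change _ = algebraMap A1 C (σ a) • Via.mk ρ N x
          rw [Via.smul_mk, hσ]
          rfl)
        rw [Module.finrank, Module.finrank, h1]
    · push Not at h0
      obtain ⟨c, hc, hc0⟩ := h0
      rw [rkT_eq_zero S P (N := N) _ (hkill _ hc) (htors c hc0), mul_zero]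
      refine rkT_eq_zero D P (algebraMap A1 C (σ c)) (fun x => ?_)
        (htors1 _ (fun h => hc0 (σ.injective (h.trans (map_zero σ).symm))))
      obtain ⟨m, rfl⟩ := (Via.mk ρ N).surjective x
      rw [Via.smul_mk, hσ, hkill _ hc, map_zero]
  | exact N₁ N₂ N₃ f g hf hg h h₁ h₃ =>
    have := hfin N₁
    have := hfin N₂
    have := hfin N₃
    rw [rkT_add S P f g hf hg h, hadd _ _ _ (Via.map ρ f) (Via.map ρ g) hf hg h, h₁, h₃, mul_add]

theorem frt_surj (R C D D0 P : Type u) [CommRing R] [CommRing C] [CommRing D] [CommRing D0]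
    [CommRing P] [IsDomain P] [Algebra C D] [Algebra P D] [Module.Finite P D] [Algebra P D0]
    (ρ : C →+* R) [Module.Finite C (Via ρ R)] (α : D →+* D0) (ω : R →+* D0)
    (hP : ∀ g, α (algebraMap P D g) = algebraMap P D0 g)
    (hC : ∀ ξ, α (algebraMap C D ξ) = ω (ρ ξ))
    (hgen : ∀ U : AddSubgroup D0, (∀ d x, α d * ω x ∈ U) → ∀ z, z ∈ U) :
    Module.finrank P D0 ≤ rkT C D P (Via ρ R) := by
  let : Algebra D D0 := α.toAlgebra
  let : Algebra C D0 := (α.comp (algebraMap C D)).toAlgebra
  have : IsScalarTower C D D0 := IsScalarTower.of_algebraMap_eq fun _ => rfl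
  have : IsScalarTower P D D0 := IsScalarTower.of_algebraMap_eq fun g => (hP g).symm
  have := finite_tensor D P (Via ρ R) (R := C)
  let l : Via ρ R →ₗ[C] D0 :=
    { toFun := fun x => ω ((Via.mk ρ R).symm x)
      map_add' := fun x y => by rw [map_add, map_add]
      map_smul' := fun c x => by
        obtain ⟨x, rfl⟩ := (Via.mk ρ R).surjective x
        rw [Via.smul_mk, AddEquiv.symm_apply_apply, AddEquiv.symm_apply_apply, smul_eq_mul,
          map_mul, ← hC, RingHom.id_apply, Algebra.smul_def]
        rfl }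
  refine LinearMap.finrank_le_finrank_of_surjective
    (f := (l.liftBaseChange D).restrictScalars P) fun z => ?_
  refine hgen (LinearMap.range (l.liftBaseChange D)).toAddSubgroup (fun d x => ?_) z
  exact ⟨d ⊗ₜ Via.mk ρ R x, by rw [LinearMap.liftBaseChange_tmul, Algebra.smul_def]; rfl⟩

end Vale.Agent.P202
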