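import Vale.Agent.P202.FrobRank
import Vale.Agent.P202.CoreAux
import Vale.Agent.P202.Resol
import Vale.Agent.P202.FrobRankTAux

/-! Rank after Frobenius base change for a quotient of finite projective dimension. -/

namespace Vale.Agent.P202

open TensorProduct

universe u

theorem frt_add_pow (p e : ℕ) (A C : Type*) [CommRing A] [ExpChar A p] [CommRing C] [Algebra A C]
    (x y : C) : (x + y) ^ p ^ e = x ^ p ^ e + y ^ p ^ e := by
  rcases ‹ExpChar A p› with _ | hp
  · simp
  · obtain ⟨r, hr⟩ := exists_add_pow_prime_pow_eq hp x y e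
    have h0 : (p : C) = 0 := by
      rw [← map_natCast (algebraMap A C), CharP.cast_eq_zero, map_zero]
    rw [hr, h0, zero_mul, zero_mul, zero_mul, add_zero]

theorem frt_tmul (T S U : Type u) [CommRing T] [CommRing S] [CommRing U] [Algebra T S]
    [Algebra T U] (a b : S) (x y : U) : (a ⊗ₜ[T] x) * (b ⊗ₜ[T] y) = (a * b) ⊗ₜ[T] (x * y) :=
  Algebra.TensorProduct.tmul_mul_tmul a b x y

theorem frt_ker (T S T2 : Type u) [CommRing T] [CommRing S] [CommRing T2] [Algebra T S]
    [Algebra T T2] (hsurj : Function.Surjective (algebraMap T S)) :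
    RingHom.ker (Algebra.TensorProduct.includeRight : T2 →ₐ[T] S ⊗[T] T2) =
      (RingHom.ker (algebraMap T S)).map (algebraMap T T2) := by
  refine le_antisymm (fun t ht => ?_) (Ideal.map_le_iff_le_comap.mpr fun x hx => ?_)
  · let ε : (T ⧸ RingHom.ker (algebraMap T S)) ≃ₐ[T] S :=
      Ideal.quotientKerAlgEquivOfSurjective (f := Algebra.ofId T S) hsurj
    have h1 : (1 : S) ⊗ₜ[T] t = 0 := ht
    have h2 := congrArg (TensorProduct.congr ε.symm.toLinearEquiv (LinearEquiv.refl T T2)) h1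
    rw [map_zero, TensorProduct.congr_tmul, AlgEquiv.toLinearEquiv_apply, map_one] at h2
    have h3 := congrArg (quotTensorEquivQuotSMul T2 (RingHom.ker (algebraMap T S))) h2
    rw [← map_one (Ideal.Quotient.mk _), quotTensorEquivQuotSMul_mk_tmul, one_smul, map_zero,
      Submodule.Quotient.mk_eq_zero, Ideal.smul_top_eq_map] at h3
    exact h3
  · rw [Ideal.mem_comap, RingHom.mem_ker, AlgHom.commutes, Algebra.TensorProduct.algebraMap_apply,
      RingHom.mem_ker.mp hx, TensorProduct.zero_tmul]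

theorem finrank_tensor_frob_le (p e : ℕ) (A A' R S P : Type u) [CommRing A] [IsDomain A]
    [IsNoetherianRing A] [CommRing A'] [CommRing R] [CommRing S] [CommRing P] [IsDomain P]
    [Algebra A A'] [Module.Flat A A'] [Algebra A R] [Module.Finite A R]
    [ExpChar A p] [ExpChar A' p] [ExpChar R p] [ExpChar (A' ⊗[A] R) p]
    [Module.Free A' (Frob p e A')] [Module.Finite A' (Frob p e A')]
    [Algebra (A' ⊗[A] R) S] [Algebra R S] [Module.Flat R S]
    (hRS : ∀ x : R, algebraMap R S x = algebraMap (A' ⊗[A] R) S (1 ⊗ₜ x))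
    (hsurj : Function.Surjective (algebraMap (A' ⊗[A] R) S))
    [Algebra P S] [Module.Finite P S]
    (htors : ∀ c : A, c ≠ 0 → ∃ g : P, g ≠ 0 ∧
      algebraMap P S g ∈ Ideal.span {algebraMap R S (algebraMap A R c)})
    (β : ℕ → Type) [∀ i, Fintype (β i)] [∀ i, DecidableEq (β i)]
    (φ : ∀ i, Matrix (β i) (β (i + 1)) (A' ⊗[A] R)) (r : ℕ) (hβ : ∀ i, r < i → IsEmpty (β i))
    (hφφ : ∀ i, φ i * φ (i + 1) = 0) (s0 : β 0) (hs0 : ∀ s, s = s0)
    (hJ : Ideal.span (Set.range (φ 0 s0)) = RingHom.ker (algebraMap (A' ⊗[A] R) S))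
    (y : Fin r → A') (hy : ∀ j, NullHtpy φ (y j ⊗ₜ 1))
    (hreg : ∀ (j : Fin r) (t : A'),
      y j ^ p ^ e * t ∈ Ideal.span ((fun i => y i ^ p ^ e) '' {i | i < j}) →
      t ∈ Ideal.span ((fun i => y i ^ p ^ e) '' {i | i < j})) :
    Module.Finite P (S ⊗[A' ⊗[A] R] Frob p e (A' ⊗[A] R)) ∧
      Module.finrank P (S ⊗[A' ⊗[A] R] Frob p e (A' ⊗[A] R)) ≤
        Module.finrank A' (Frob p e A') * Module.finrank P S := by
  have hfinT : Module.Finite (A' ⊗[A] R) (Frob p e (A' ⊗[A] R)) :=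
    frob_finite p e A' (A' ⊗[A] R)
  have hfin : Module.Finite P (S ⊗[A' ⊗[A] R] Frob p e (A' ⊗[A] R)) := Module.Finite.trans S _
  refine ⟨hfin, ?_⟩
  rcases subsingleton_or_nontrivial A' with hA' | hA'
  · have : Subsingleton S :=
      ((algebraMap (A' ⊗[A] R) S).comp (algebraMap A' (A' ⊗[A] R))).codomain_trivial
    refine (Module.finrank_eq_zero_iff.mpr fun x => ⟨1, one_ne_zero, ?_⟩).le.trans (Nat.zero_le _)
    exact (Module.subsingleton S _).elim _ _
  have hq : 0 < p ^ e := pow_pos (expChar_pos A p) e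
  let := frobAlg' p e A A'
  let := frobAlg p e A A'
  have := frob_tower₁ p e A A'
  have := frob_tower₂ p e A A'
  let := frobAlg' p e A R
  let := frobAlg p e A R
  have := frob_tower₁ p e A R
  have := frob_tower₂ p e A R
  have : IsDomain (Frob p e A) := ‹IsDomain A›
  have : Module.Flat (Frob p e A) (Frob p e A') := ‹Module.Flat A A'›
  have : FaithfulSMul A (Frob p e A) := by
    rw [faithfulSMul_iff_algebraMap_injective, injective_iff_map_eq_zero]
    intro x hx
    rw [Frob.algebraMap_apply, map_eq_zero_iff _ (Frob.toFrob p e A).injective] at hx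
    exact (pow_eq_zero_iff hq.ne').mp hx
  let : Algebra R (A' ⊗[A] R) := Algebra.TensorProduct.rightAlgebra
  let : Algebra R (Frob p e A ⊗[A] R) := Algebra.TensorProduct.rightAlgebra
  let : Algebra R (Frob p e A' ⊗[A] R) := Algebra.TensorProduct.rightAlgebra
  let jC : Frob p e A ⊗[A] R →ₐ[A] Frob p e A' ⊗[A] R :=
    Algebra.TensorProduct.map (IsScalarTower.toAlgHom A (Frob p e A) (Frob p e A')) (AlgHom.id A R)
  let jT : A' ⊗[A] R →ₐ[A] Frob p e A' ⊗[A] R :=
    Algebra.TensorProduct.map (IsScalarTower.toAlgHom A A' (Frob p e A')) (AlgHom.id A R)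
  let : Algebra (Frob p e A ⊗[A] R) (Frob p e A' ⊗[A] R) := jC.toRingHom.toAlgebra
  let : Algebra (A' ⊗[A] R) (Frob p e A' ⊗[A] R) := jT.toRingHom.toAlgebra
  have hjC : ∀ a x, algebraMap (Frob p e A ⊗[A] R) (Frob p e A' ⊗[A] R) (a ⊗ₜ x) =
      algebraMap (Frob p e A) (Frob p e A') a ⊗ₜ x := fun _ _ => rfl
  have hjT : ∀ a x, algebraMap (A' ⊗[A] R) (Frob p e A' ⊗[A] R) (a ⊗ₜ x) =
      algebraMap A' (Frob p e A') a ⊗ₜ x := fun _ _ => rfl
  have : IsScalarTower A (Frob p e A ⊗[A] R) (Frob p e A' ⊗[A] R) :=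
    IsScalarTower.of_algebraMap_eq fun a => (jC.commutes a).symm
  have : IsScalarTower A (A' ⊗[A] R) (Frob p e A' ⊗[A] R) :=
    IsScalarTower.of_algebraMap_eq fun a => (jT.commutes a).symm
  have : IsScalarTower (Frob p e A) (Frob p e A ⊗[A] R) (Frob p e A' ⊗[A] R) :=
    IsScalarTower.of_algebraMap_eq fun a => rfl
  have : IsScalarTower A' (A' ⊗[A] R) (Frob p e A' ⊗[A] R) :=
    IsScalarTower.of_algebraMap_eq fun a => rfl
  have : IsScalarTower R (Frob p e A ⊗[A] R) (Frob p e A' ⊗[A] R) :=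
    IsScalarTower.of_algebraMap_eq fun x => by
      change (1 : Frob p e A') ⊗ₜ[A] x = algebraMap _ _ ((1 : Frob p e A) ⊗ₜ[A] x)
      rw [hjC, map_one]
  have : IsScalarTower R (A' ⊗[A] R) (Frob p e A' ⊗[A] R) :=
    IsScalarTower.of_algebraMap_eq fun x => by
      change (1 : Frob p e A') ⊗ₜ[A] x = algebraMap _ _ ((1 : A') ⊗ₜ[A] x)
      rw [hjT, map_one]
  have : Algebra.IsPushout (Frob p e A) (Frob p e A') (Frob p e A ⊗[A] R) (Frob p e A' ⊗[A] R) :=
    (Algebra.IsPushout.comp_iff A (Frob p e A) R (Frob p e A ⊗[A] R)).mp inferInstance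
  have hpo : Algebra.IsPushout A' (Frob p e A') (A' ⊗[A] R) (Frob p e A' ⊗[A] R) :=
    (Algebra.IsPushout.comp_iff A A' R (A' ⊗[A] R)).mp inferInstance
  let b2 := hpo.symm.out.basis (Module.finBasis A' (Frob p e A'))
  let b := Algebra.TensorProduct.basis S b2
  have : Module.Finite S (S ⊗[A' ⊗[A] R] (Frob p e A' ⊗[A] R)) := Module.Finite.of_basis b
  have : Module.Finite P (S ⊗[A' ⊗[A] R] (Frob p e A' ⊗[A] R)) := Module.Finite.trans S _
  let : Algebra (Frob p e A' ⊗[A] R) (S ⊗[A' ⊗[A] R] (Frob p e A' ⊗[A] R)) :=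
    Algebra.TensorProduct.rightAlgebra
  let : Algebra (Frob p e A ⊗[A] R) (S ⊗[A' ⊗[A] R] (Frob p e A' ⊗[A] R)) :=
    ((algebraMap (Frob p e A' ⊗[A] R) (S ⊗[A' ⊗[A] R] (Frob p e A' ⊗[A] R))).comp
      (algebraMap (Frob p e A ⊗[A] R) (Frob p e A' ⊗[A] R))).toAlgebra
  have hCD : ∀ ξ, algebraMap (Frob p e A ⊗[A] R) (S ⊗[A' ⊗[A] R] (Frob p e A' ⊗[A] R)) ξ =
      1 ⊗ₜ algebraMap (Frob p e A ⊗[A] R) (Frob p e A' ⊗[A] R) ξ := fun _ => rfl
  have : IsScalarTower (Frob p e A ⊗[A] R) (Frob p e A' ⊗[A] R)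
      (S ⊗[A' ⊗[A] R] (Frob p e A' ⊗[A] R)) := IsScalarTower.of_algebraMap_eq fun _ => rfl
  have : IsScalarTower R (Frob p e A ⊗[A] R) (S ⊗[A' ⊗[A] R] (Frob p e A' ⊗[A] R)) :=
    IsScalarTower.of_algebraMap_eq fun x => by
      rw [hCD, ← IsScalarTower.algebraMap_apply,
        IsScalarTower.algebraMap_apply R (A' ⊗[A] R) (Frob p e A' ⊗[A] R),
        Algebra.TensorProduct.algebraMap_apply, hRS, Algebra.algebraMap_eq_smul_one,
        Algebra.algebraMap_eq_smul_one (A := Frob p e A' ⊗[A] R), TensorProduct.smul_tmul]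
      rfl
  let ρ0 : Frob p e A ⊗[A] R →ₐ[A] Frob p e R :=
    Algebra.TensorProduct.productMap (IsScalarTower.toAlgHom A (Frob p e A) (Frob p e R))
      (IsScalarTower.toAlgHom A R (Frob p e R))
  let ρ : Frob p e A ⊗[A] R →+* R := (Frob.toFrob p e R).symm.toRingHom.comp ρ0.toRingHom
  have hρt : ∀ (a : A) (x : R), ρ (Frob.toFrob p e A a ⊗ₜ x) = algebraMap A R a * x ^ p ^ e := by
    intro a x
    apply (Frob.toFrob p e R).injective
    rw [map_mul, ← Frob.algebraMap_apply]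
    rfl
  have hκ : ∀ ξ, algebraMap R (Frob p e A ⊗[A] R) (ρ ξ) = ξ ^ p ^ e := by
    intro ξ
    induction ξ using TensorProduct.induction_on with
    | zero => rw [map_zero, map_zero, zero_pow hq.ne']
    | add x y hx hy => rw [map_add, map_add, hx, hy, frt_add_pow p e A]
    | tmul a x =>
      obtain ⟨a, rfl⟩ := (Frob.toFrob p e A).surjective a
      rw [hρt, Algebra.TensorProduct.tmul_pow, ← map_pow, ← Frob.algebraMap_apply,
        ← Algebra.smul_def, Algebra.algebraMap_eq_smul_one (A := Frob p e A),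
        TensorProduct.smul_tmul]
      rfl
  have hσ : ∀ a, ρ (algebraMap (Frob p e A) (Frob p e A ⊗[A] R) (Frob.toFrob p e A a)) =
      algebraMap A R a := fun a => (hρt a 1).trans (by rw [one_pow, mul_one])
  have htors1 : ∀ c : Frob p e A, c ≠ 0 → ∃ g : P, g ≠ 0 ∧
      algebraMap P (S ⊗[A' ⊗[A] R] (Frob p e A' ⊗[A] R)) g ∈ Ideal.span
        {algebraMap (Frob p e A ⊗[A] R) (S ⊗[A' ⊗[A] R] (Frob p e A' ⊗[A] R))
          (algebraMap (Frob p e A) (Frob p e A ⊗[A] R) c)} := by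
    intro c hc
    obtain ⟨c, rfl⟩ := (Frob.toFrob p e A).surjective c
    obtain ⟨g, hg0, hg⟩ := htors c hc
    obtain ⟨s, hs⟩ := Ideal.mem_span_singleton'.mp hg
    refine ⟨g, hg0, ?_⟩
    rw [IsScalarTower.algebraMap_apply P S, ← hs, map_mul, ← IsScalarTower.algebraMap_apply R S,
      IsScalarTower.algebraMap_apply R (Frob p e A ⊗[A] R), ← hσ, hκ, map_pow]
    exact Ideal.mul_mem_left _ _ (Ideal.pow_mem_of_mem _ (Ideal.mem_span_singleton_self _) _ hq)
  have hadd : RkAdd (Frob p e A ⊗[A] R) (S ⊗[A' ⊗[A] R] (Frob p e A' ⊗[A] R)) P := by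
    refine frt_rkAdd (Frob p e A) (Frob p e A') (Frob p e A ⊗[A] R) (Frob p e A' ⊗[A] R) _ P
      (Algebra.TensorProduct.includeRight_surjective _ hsurj) htors1 β
      (fun i => (φ i).map (algebraMap (A' ⊗[A] R) (Frob p e A' ⊗[A] R))) r hβ
      (fun i => by rw [← Matrix.map_mul, hφφ, Matrix.map_zero _ (map_zero _)]) s0 hs0 ?_
      (fun j => Frob.toFrob p e A' (y j ^ p ^ e)) (fun j => ?_) hreg
    · refine Eq.trans ?_ (frt_ker (A' ⊗[A] R) S (Frob p e A' ⊗[A] R) hsurj).symm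
      rw [← hJ, Ideal.map_span, ← Set.range_comp]
      rfl
    · obtain ⟨h, hh⟩ := hy j
      refine ⟨fun i => (h i).map (algebraMap (A' ⊗[A] R) (Frob p e A' ⊗[A] R)), fun i => ?_⟩
      rw [← Matrix.map_mul, ← Matrix.map_mul, ← Matrix.map_add _ (map_add _), hh,
        ← Frob.algebraMap_apply]
      ext a b
      simp only [Matrix.map_apply, Matrix.smul_apply, Matrix.one_apply, smul_eq_mul, mul_ite,
        mul_one, mul_zero]
      split_ifs
      · rfl
      · exact map_zero _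
  obtain ⟨hV, hmid⟩ := frt_mid A (Frob p e A) R (Frob p e A ⊗[A] R) S
    (S ⊗[A' ⊗[A] R] (Frob p e A' ⊗[A] R)) P (Frob.toFrob p e A) ρ (p ^ e) hq hσ
    (fun x => (hρt 1 x).trans (by rw [map_one, one_mul])) hκ b hadd htors htors1 R
  have hS : rkT R S P R = Module.finrank P S :=
    ((TensorProduct.AlgebraTensorModule.rid R S S).restrictScalars P).finrank_eq
  rw [← hS, ← hmid]
  let ιL : A' →+* Frob p e (A' ⊗[A] R) :=
    (Frob.toFrob p e _).toRingHom.comp (algebraMap A' (A' ⊗[A] R))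
  let ιR : R →+* Frob p e (A' ⊗[A] R) :=
    (Frob.toFrob p e _).toRingHom.comp (algebraMap R (A' ⊗[A] R))
  let := frobAlg' p e A (A' ⊗[A] R)
  let f1 : Frob p e A' →ₐ[A] Frob p e (A' ⊗[A] R) :=
    { ιL.comp (Frob.toFrob p e A').symm.toRingHom with
      commutes' := fun a => by
        change ιL ((Frob.toFrob p e A').symm (algebraMap A' (Frob p e A') (algebraMap A A' a))) =
          algebraMap (A' ⊗[A] R) (Frob p e (A' ⊗[A] R)) (algebraMap A (A' ⊗[A] R) a)
        rw [Frob.algebraMap_apply, Frob.algebraMap_apply, RingEquiv.symm_apply_apply, map_pow,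
          map_pow]
        rfl }
  let f2 : R →ₐ[A] Frob p e (A' ⊗[A] R) :=
    { (algebraMap (A' ⊗[A] R) (Frob p e (A' ⊗[A] R))).comp (algebraMap R (A' ⊗[A] R)) with
      commutes' := fun a => by
        change algebraMap (A' ⊗[A] R) (Frob p e (A' ⊗[A] R))
            (algebraMap R (A' ⊗[A] R) (algebraMap A R a)) =
          algebraMap (A' ⊗[A] R) (Frob p e (A' ⊗[A] R)) (algebraMap A (A' ⊗[A] R) a)
        rw [← IsScalarTower.algebraMap_apply A R (A' ⊗[A] R)] }
  have hrel : ∀ (a : A') (x : R), Algebra.TensorProduct.productMap f1 f2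
      (Frob.toFrob p e A' a ⊗ₜ x) = Frob.toFrob p e _ (a ⊗ₜ (x ^ p ^ e)) := by
    intro a x
    change ιL a * algebraMap (A' ⊗[A] R) (Frob p e (A' ⊗[A] R)) (1 ⊗ₜ x) = _
    rw [Frob.algebraMap_apply, Algebra.TensorProduct.tmul_pow, one_pow]
    change Frob.toFrob p e _ (a ⊗ₜ 1) * _ = _
    rw [← map_mul, Algebra.TensorProduct.tmul_mul_tmul, mul_one, one_mul]
  let rel : Frob p e A' ⊗[A] R →ₐ[A' ⊗[A] R] Frob p e (A' ⊗[A] R) :=
    { (Algebra.TensorProduct.productMap f1 f2).toRingHom with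
      commutes' := fun t => by
        change Algebra.TensorProduct.productMap f1 f2 (algebraMap _ _ t) = _
        induction t using TensorProduct.induction_on with
        | zero => simp only [map_zero]
        | add x y hx hy => simp only [map_add, hx, hy]
        | tmul a x =>
          rw [hjT, Frob.algebraMap_apply, hrel, Frob.algebraMap_apply,
            Algebra.TensorProduct.tmul_pow] }
  have hrel' : ∀ (a : A') (x : R), rel (Frob.toFrob p e A' a ⊗ₜ x) =
      Frob.toFrob p e _ (a ⊗ₜ (x ^ p ^ e)) := hrel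
  refine frt_surj R _ _ _ P ρ (Algebra.TensorProduct.map (AlgHom.id S S) rel).toRingHom
    (Algebra.TensorProduct.includeRight.toRingHom.comp ιR) (fun g => ?_) (fun ξ => ?_)
    (fun U hU z => ?_)
  · change Algebra.TensorProduct.map (AlgHom.id S S) rel (algebraMap P S g ⊗ₜ 1) = _
    rw [Algebra.TensorProduct.map_tmul, map_one]
    rfl
  · rw [hCD]
    change Algebra.TensorProduct.map (AlgHom.id S S) rel _ = (1 : S) ⊗ₜ ιR (ρ ξ)
    rw [Algebra.TensorProduct.map_tmul, map_one]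
    refine congrArg _ ?_
    induction ξ using TensorProduct.induction_on with
    | zero => simp only [map_zero]
    | add x y hx hy => simp only [map_add, hx, hy]
    | tmul a x =>
      obtain ⟨a, rfl⟩ := (Frob.toFrob p e A).surjective a
      rw [hjC, hρt]
      refine (hrel' (algebraMap A A' a) x).trans ?_
      rw [← Algebra.smul_def, Algebra.algebraMap_eq_smul_one, TensorProduct.smul_tmul]
      rfl
  · induction z using TensorProduct.induction_on with
    | zero => exact U.zero_mem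
    | add x y hx hy => exact U.add_mem hx hy
    | tmul s t =>
      obtain ⟨t, rfl⟩ := (Frob.toFrob p e _).surjective t
      induction t using TensorProduct.induction_on with
      | zero => rw [map_zero, TensorProduct.tmul_zero]; exact U.zero_mem
      | add x y hx hy => rw [map_add, TensorProduct.tmul_add]; exact U.add_mem hx hy
      | tmul a x =>
        have h1 := hU (s ⊗ₜ (Frob.toFrob p e A' a ⊗ₜ 1)) x
        have e1 : (Algebra.TensorProduct.map (AlgHom.id S S) rel).toRingHom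
            (s ⊗ₜ (Frob.toFrob p e A' a ⊗ₜ 1)) = s ⊗ₜ Frob.toFrob p e _ (a ⊗ₜ[A] (1 : R)) := by
          change Algebra.TensorProduct.map (AlgHom.id S S) rel _ = _
          rw [Algebra.TensorProduct.map_tmul, hrel', one_pow]
          rfl
        have e2 : ((Algebra.TensorProduct.includeRight (R := A' ⊗[A] R) (A := S)).toRingHom.comp
            ιR) x = (1 : S) ⊗ₜ Frob.toFrob p e _ ((1 : A') ⊗ₜ[A] x) := rfl
        have e3 : (s ⊗ₜ[A' ⊗[A] R] Frob.toFrob p e _ (a ⊗ₜ[A] (1 : R))) *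
            ((1 : S) ⊗ₜ[A' ⊗[A] R] Frob.toFrob p e _ ((1 : A') ⊗ₜ[A] x)) =
            (s * 1) ⊗ₜ[A' ⊗[A] R] (Frob.toFrob p e _ (a ⊗ₜ[A] (1 : R)) *
              Frob.toFrob p e _ ((1 : A') ⊗ₜ[A] x)) :=
          frt_tmul (A' ⊗[A] R) S (Frob p e (A' ⊗[A] R)) _ _ _ _
        rw [← map_mul, Algebra.TensorProduct.tmul_mul_tmul (R := A), mul_one, mul_one,
          one_mul] at e3
        rw [e1, e2] at h1
        exact Eq.mp (congrArg (fun z => z ∈ U) e3) h1

end Vale.Agent.P202
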