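import Vale.Agent.P202.GrowthPS

/-! A numerical criterion for flatness. -/

namespace Vale.Agent.P202

open IsLocalRing Module
open scoped TensorProduct

theorem fc_len_exact {S A B C : Type*} [CommRing S] [AddCommGroup A] [Module S A]
    [AddCommGroup B] [Module S B] [AddCommGroup C] [Module S C] (f : A →ₗ[S] B) (g : B →ₗ[S] C)
    (hg : Function.Surjective g) (h : Function.Exact f g) :
    length S B = length S (LinearMap.range f) + length S C := by
  refine length_eq_add_of_exact (LinearMap.range f).subtype g (Submodule.subtype_injective _) hg ?_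
  rw [LinearMap.exact_iff, Submodule.range_subtype]
  exact LinearMap.exact_iff.mp h

theorem fc_len_ker {S A B : Type*} [CommRing S] [AddCommGroup A] [Module S A]
    [AddCommGroup B] [Module S B] (f : A →ₗ[S] B) :
    length S A = length S (LinearMap.ker f) + length S (LinearMap.range f) := by
  refine length_eq_add_of_exact (LinearMap.ker f).subtype f.rangeRestrict
    (Submodule.subtype_injective _) f.surjective_rangeRestrict ?_
  rw [LinearMap.exact_iff, Submodule.range_subtype, LinearMap.ker_rangeRestrict]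

section

variable {R : Type*} (S : Type*) [CommRing R] [CommRing S] [Algebra R S]

theorem fc_exact_baseChange {A B C : Type*} [AddCommGroup A] [Module R A]
    [AddCommGroup B] [Module R B] [AddCommGroup C] [Module R C] (f : A →ₗ[R] B) (g : B →ₗ[R] C)
    (hg : Function.Surjective g) (h : Function.Exact f g) :
    Function.Surjective (g.baseChange S) ∧ Function.Exact (f.baseChange S) (g.baseChange S) :=
  ⟨LinearMap.lTensor_surjective S hg, lTensor_exact S h hg⟩

variable [IsLocalRing R]

theorem fc_len_tensor_le {M : Type*} [AddCommGroup M] [Module R M] (h : IsFiniteLength R M) :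
    length S (S ⊗[R] M) ≤
      length R M * length S (S ⧸ (maximalIdeal R).map (algebraMap R S)) := by
  induction h with
  | of_subsingleton => simp
  | @of_simple_quotient M _ _ N hs _ ih =>
    obtain ⟨m, hm, ⟨e⟩⟩ := isSimpleModule_iff_quot_maximal.mp hs
    obtain rfl := eq_maximalIdeal hm
    have h1 : length R M = length R N + 1 := by
      rw [length_eq_add_of_exact N.subtype N.mkQ (Submodule.subtype_injective _)
        (Submodule.mkQ_surjective _) (LinearMap.exact_subtype_mkQ _), length_eq_one R (M ⧸ N)]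
    obtain ⟨h2, h3⟩ := fc_exact_baseChange S N.subtype N.mkQ (Submodule.mkQ_surjective _)
      (LinearMap.exact_subtype_mkQ _)
    have h4 : length S (S ⊗[R] (M ⧸ N)) =
        length S (S ⧸ (maximalIdeal R).map (algebraMap R S)) := by
      rw [(Algebra.TensorProduct.quotIdealMapEquivTensorQuot S
        (maximalIdeal R)).toLinearEquiv.length_eq, (e.baseChange R S _ _).length_eq]
    rw [fc_len_exact _ _ h2 h3, h1, h4, add_mul, one_mul]
    refine add_le_add_left (le_trans ?_ ih) _
    exact length_le_of_surjective _ (LinearMap.surjective_rangeRestrict _)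

theorem fc_inj {M M' : Type*} [AddCommGroup M] [Module R M] [AddCommGroup M'] [Module R M']
    (hM : IsFiniteLength R M)
    (hc : length S (S ⧸ (maximalIdeal R).map (algebraMap R S)) ≠ ⊤)
    (heq : length S (S ⊗[R] M) =
      length R M * length S (S ⧸ (maximalIdeal R).map (algebraMap R S)))
    (f : M' →ₗ[R] M) (hf : Function.Injective f) : Function.Injective (f.baseChange S) := by
  have hM' : IsFiniteLength R M' := hM.of_injective hf
  have hQ : IsFiniteLength R (M ⧸ LinearMap.range f) :=
    hM.of_surjective (Submodule.mkQ_surjective _)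
  have h1 := length_eq_add_of_exact f (LinearMap.range f).mkQ hf (Submodule.mkQ_surjective _)
    (LinearMap.exact_map_mkQ_range f)
  obtain ⟨h2, h3⟩ := fc_exact_baseChange S f (LinearMap.range f).mkQ (Submodule.mkQ_surjective _)
    (LinearMap.exact_map_mkQ_range f)
  have h4 := fc_len_exact _ _ h2 h3
  have h5 := fc_len_ker (f.baseChange S)
  have h6 := fc_len_tensor_le S hM'
  have h7 := fc_len_tensor_le S hQ
  rw [heq, h1] at h4
  rw [h5] at h6
  obtain ⟨a, ha⟩ := ENat.ne_top_iff_exists.mp (length_ne_top_iff.mpr hM')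
  obtain ⟨b, hb⟩ := ENat.ne_top_iff_exists.mp (length_ne_top_iff.mpr hQ)
  obtain ⟨c, hc'⟩ := ENat.ne_top_iff_exists.mp hc
  rw [← ha, ← hc'] at h6
  rw [← hb, ← hc'] at h7
  rw [← ha, ← hb, ← hc'] at h4
  have hfin : ∀ {x : ℕ∞} {n : ℕ}, x ≤ n → ∃ m : ℕ, (m : ℕ∞) = x := fun h =>
    ENat.ne_top_iff_exists.mp (ne_top_of_le_ne_top (ENat.natCast_ne_top _) h)
  obtain ⟨u, hu⟩ := hfin (n := a * c) (le_trans le_self_add (by exact_mod_cast h6))
  obtain ⟨v, hv⟩ := hfin (n := a * c) (le_trans le_add_self (by exact_mod_cast h6))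
  obtain ⟨w, hw⟩ := hfin (n := b * c) (by exact_mod_cast h7)
  rw [← hu, ← hv] at h6
  rw [← hw] at h7
  rw [← hv, ← hw] at h4
  have e4 : (a + b) * c = v + w := by exact_mod_cast h4
  have e6 : u + v ≤ a * c := by exact_mod_cast h6
  have e7 : w ≤ b * c := by exact_mod_cast h7
  have e0 : u = 0 := by
    rw [add_mul] at e4
    omega
  rw [e0, Nat.cast_zero, eq_comm, length_eq_zero_iff] at hu
  rw [← LinearMap.ker_eq_bot]
  exact Submodule.subsingleton_iff_eq_bot.mp hu

end

theorem fc_flat_of_len (R S : Type*) [CommRing R] [IsLocalRing R] [IsNoetherianRing R]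
    [CommRing S] [IsLocalRing S] [IsNoetherianRing S] [Algebra R S] [IsLocalHom (algebraMap R S)]
    (L : ℕ) (hL : maximalIdeal S ^ L ≤ (maximalIdeal R).map (algebraMap R S))
    (h : ∀ N : ℕ, len S (S ⧸ (maximalIdeal R ^ N).map (algebraMap R S)) =
      len R (R ⧸ maximalIdeal R ^ N) * len S (S ⧸ (maximalIdeal R).map (algebraMap R S))) :
    Module.Flat R S := by
  have fgR : (maximalIdeal R).FG := IsNoetherian.noetherian _
  have fgS : (maximalIdeal S).FG := IsNoetherian.noetherian _
  have hc : length S (S ⧸ (maximalIdeal R).map (algebraMap R S)) ≠ ⊤ :=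
    length_quot_ne_top fgS L _ (by simpa using hL)
  have hR : ∀ N : ℕ, length R (R ⧸ maximalIdeal R ^ N) ≠ ⊤ := fun N =>
    length_quot_ne_top fgR N _ (by simp)
  have heq : ∀ N : ℕ, length S (S ⊗[R] (R ⧸ maximalIdeal R ^ N)) =
      length R (R ⧸ maximalIdeal R ^ N) *
        length S (S ⧸ (maximalIdeal R).map (algebraMap R S)) := by
    intro N
    have h1 : length S (S ⧸ (maximalIdeal R ^ N).map (algebraMap R S)) ≠ ⊤ := by
      refine length_quot_ne_top fgS (L * N) _ ?_
      rw [smul_top_ideal, pow_mul, Ideal.map_pow]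
      exact Ideal.pow_right_mono hL N
    rw [← (Algebra.TensorProduct.quotIdealMapEquivTensorQuot S
      (maximalIdeal R ^ N)).toLinearEquiv.length_eq, ← ENat.natCast_toNat h1, ← ENat.natCast_toNat hc,
      ← ENat.natCast_toNat (hR N), ← Nat.cast_mul]
    exact congrArg _ (h N)
  rw [Module.Flat.iff_lTensor_injective']
  intro I
  rw [injective_iff_map_eq_zero]
  intro x hx
  have hK := Ideal.iInf_pow_smul_eq_bot_of_isLocalRing (M := S ⊗[R] I) (maximalIdeal S)
    (maximalIdeal.isMaximal S).ne_top
  rw [← Submodule.mem_bot S, ← hK, Submodule.mem_iInf]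
  intro n
  obtain ⟨c, hAR⟩ := Ideal.exists_pow_inf_eq_pow_smul (M := R) (maximalIdeal R) I
  let φ : I →ₗ[R] R ⧸ maximalIdeal R ^ (n + c) := (maximalIdeal R ^ (n + c)).mkQ ∘ₗ I.subtype
  let ψ : (I ⧸ LinearMap.ker φ) →ₗ[R] R ⧸ maximalIdeal R ^ (n + c) :=
    (LinearMap.ker φ).liftQ φ le_rfl
  have hψ : Function.Injective ψ := by
    rw [← LinearMap.ker_eq_bot]
    exact Submodule.ker_liftQ_eq_bot _ _ _ le_rfl
  have hψ' := fc_inj S (length_ne_top_iff.mp (hR (n + c))) hc (heq (n + c)) ψ hψ
  have h1 : ((LinearMap.ker φ).mkQ.baseChange S) x = 0 := by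
    apply hψ'
    rw [map_zero, ← LinearMap.comp_apply, ← LinearMap.baseChange_comp, Submodule.liftQ_mkQ,
      LinearMap.baseChange_comp, LinearMap.comp_apply]
    have : (I.subtype.baseChange S) x = 0 := hx
    rw [this, map_zero]
  obtain ⟨-, h3⟩ := fc_exact_baseChange S (LinearMap.ker φ).subtype (LinearMap.ker φ).mkQ
    (Submodule.mkQ_surjective _) (LinearMap.exact_subtype_mkQ _)
  obtain ⟨y, rfl⟩ := (h3 x).mp h1
  have key : ∀ z : I, z ∈ (maximalIdeal R ^ n • ⊤ : Submodule R I) → ∀ s : S,
      s ⊗ₜ[R] z ∈ (maximalIdeal S ^ n • ⊤ : Submodule S (S ⊗[R] I)) := by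
    intro z hz s
    refine Submodule.smul_induction_on hz (fun r hr w _ => ?_) (fun a b ha hb => ?_)
    · rw [TensorProduct.tmul_smul, ← algebraMap_smul S r]
      refine Submodule.smul_mem_smul ?_ Submodule.mem_top
      have := Ideal.mem_map_of_mem (algebraMap R S) hr
      rw [Ideal.map_pow] at this
      exact Ideal.pow_right_mono (map_maximalIdeal_le _) n this
    · rw [TensorProduct.tmul_add]
      exact add_mem ha hb
  clear hx h1
  induction y using TensorProduct.induction_on with
  | zero => simp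
  | add a b ha hb => rw [map_add]; exact add_mem ha hb
  | tmul s z =>
    rw [LinearMap.baseChange_tmul]
    apply key
    rw [Submodule.mem_smul_top_iff]
    have h4 : ((z : I) : R) ∈ maximalIdeal R ^ (n + c) :=
      (Submodule.Quotient.mk_eq_zero _).mp (LinearMap.mem_ker.mp z.2)
    have h5 := hAR (n + c) (Nat.le_add_left c n)
    rw [Nat.add_sub_cancel] at h5
    have h6 : ((z : I) : R) ∈ (maximalIdeal R ^ (n + c) • ⊤ ⊓ I : Submodule R R) :=
      ⟨by rwa [smul_top_ideal], (z : I).2⟩
    rw [h5] at h6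
    exact Submodule.smul_mono le_rfl inf_le_right h6

end Vale.Agent.P202
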