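import Vale.Agent.P202.GrowthPS
import Vale.Agent.P202.CoeffField

/-! Iterated power series rings, flatness of coefficient extension, lifting of fields. -/

namespace Vale.Agent.P202

open IsLocalRing MvPowerSeries

section Iter

variable {σ₁ σ₂ σ l : Type*} [CommRing l] (e : (σ →₀ ℕ) ≃+ (σ₁ →₀ ℕ) × (σ₂ →₀ ℕ))

/-- flattening of an iterated power series -/
noncomputable def fcFlat (F : MvPowerSeries σ₁ (MvPowerSeries σ₂ l)) : MvPowerSeries σ l :=
  fun α => coeff (e α).2 (coeff (e α).1 F)

theorem fc_coeff_flat (F : MvPowerSeries σ₁ (MvPowerSeries σ₂ l)) (α : σ →₀ ℕ) :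
    coeff α (fcFlat e F) = coeff (e α).2 (coeff (e α).1 F) := rfl

theorem fc_flat_monomial (a : σ₁ →₀ ℕ) (b : σ₂ →₀ ℕ) (x : l) :
    fcFlat e (monomial a (monomial b x)) = monomial (e.symm (a, b)) x := by
  classical
  ext α
  rw [fc_coeff_flat, coeff_monomial, coeff_monomial]
  by_cases h : α = e.symm (a, b)
  · subst h
    simp
  · rw [if_neg h]
    split_ifs with h1
    · rw [coeff_monomial, if_neg]
      intro h2
      apply h
      rw [← h1, ← h2]
      simp
    · simp

theorem fc_flat_mul (F G : MvPowerSeries σ₁ (MvPowerSeries σ₂ l)) :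
    fcFlat e (F * G) = fcFlat e F * fcFlat e G := by
  classical
  ext α
  simp only [fc_coeff_flat, coeff_mul, map_sum]
  rw [← Finset.sum_product']
  refine Finset.sum_nbij' (fun p => (e.symm (p.1.1, p.2.1), e.symm (p.1.2, p.2.2)))
    (fun q => (((e q.1).1, (e q.2).1), ((e q.1).2, (e q.2).2))) ?_ ?_ ?_ ?_ ?_
  · rintro ⟨⟨a, b⟩, ⟨c, d⟩⟩ h
    simp only [Finset.mem_product, Finset.HasAntidiagonal.mem_antidiagonal] at h ⊢
    rw [← map_add, Prod.mk_add_mk, h.1, h.2]
    simp
  · rintro ⟨a, b⟩ h
    simp only [Finset.mem_product, Finset.HasAntidiagonal.mem_antidiagonal] at h ⊢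
    rw [← h, map_add]
    exact ⟨rfl, rfl⟩
  · rintro ⟨⟨a, b⟩, ⟨c, d⟩⟩ _
    simp
  · rintro ⟨a, b⟩ _
    simp
  · rintro ⟨⟨a, b⟩, ⟨c, d⟩⟩ _
    simp

/-- flattening as a ring map -/
noncomputable def fcFlatHom : MvPowerSeries σ₁ (MvPowerSeries σ₂ l) →+* MvPowerSeries σ l where
  toFun := fcFlat e
  map_one' := by
    have := fc_flat_monomial e 0 0 (1 : l)
    rwa [Prod.mk_zero_zero, map_zero] at this
  map_mul' := fc_flat_mul e
  map_zero' := by ext α; simp [fc_coeff_flat]
  map_add' F G := by ext α; simp [fc_coeff_flat]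

theorem fc_flatHom_bijective :
    Function.Bijective (fcFlatHom e : MvPowerSeries σ₁ (MvPowerSeries σ₂ l) →+* _) := by
  constructor
  · intro F G h
    ext a b
    have := congrArg (coeff (e.symm (a, b))) h
    change coeff _ (fcFlat e F) = coeff _ (fcFlat e G) at this
    simpa [fc_coeff_flat] using this
  · intro f
    refine ⟨fun a b => coeff (e.symm (a, b)) f, ?_⟩
    ext α
    change coeff (e.symm ((e α).1, (e α).2)) f = _
    simp

end Iter

theorem fc_flat_map (k V : Type*) [Field k] [CommRing V] (d : ℕ) (j : k →+* V) :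
    (MvPowerSeries.map (σ := Fin d) j).Flat := by
  classical
  let _ : Algebra k V := j.toAlgebra
  let _ : Algebra (PS k d) (PS V d) := (MvPowerSeries.map (σ := Fin d) j).toAlgebra
  change Module.Flat (PS k d) (PS V d)
  have hsm : ∀ (a : PS k d) (x : PS V d) (α : Fin d →₀ ℕ), coeff α (a • x) =
      ∑ p ∈ Finset.HasAntidiagonal.antidiagonal α, coeff p.1 a • coeff p.2 x := by
    intro a x α
    rw [Algebra.smul_def, coeff_mul]
    rfl
  obtain ⟨ρ, hρ⟩ := LinearMap.exists_leftInverse_of_injective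
    (LinearMap.pi fun φ : Module.Dual k V => φ) (by
      rw [LinearMap.ker_eq_bot']
      intro v hv
      exact (Module.forall_dual_apply_eq_zero_iff k v).mp fun φ => congrFun hv φ)
  have hρ' : ∀ v : V, ρ (fun φ => φ v) = v := fun v => LinearMap.congr_fun hρ v
  refine Module.Flat.of_forall_isTrivialRelation fun {n f x} hfx => ?_
  let Syz : Submodule (PS k d) (Fin n → PS k d) := LinearMap.ker (Fintype.linearCombination _ f)
  obtain ⟨m, s, hs⟩ := Submodule.fg_iff_exists_fin_generating_family.mp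
    (IsNoetherian.noetherian Syz)
  have hmem : ∀ u : Fin n → PS k d, u ∈ Syz ↔ ∑ i, f i * u i = 0 := by
    intro u
    rw [LinearMap.mem_ker, Fintype.linearCombination_apply]
    simp only [smul_eq_mul, mul_comm]
  let y : Module.Dual k V → Fin n → PS k d := fun φ i α => φ (coeff α (x i))
  have hy : ∀ φ i α, coeff α (y φ i) = φ (coeff α (x i)) := fun _ _ _ => rfl
  have hyS : ∀ φ, y φ ∈ Syz := by
    intro φ
    rw [hmem]
    ext α
    have := congrArg (fun z => φ (coeff α z)) hfx
    simp only [map_sum, hsm, map_smul, map_zero, smul_eq_mul] at this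
    simp only [map_sum, coeff_mul, hy, map_zero]
    exact this
  have hc : ∀ φ, ∃ c : Fin m → PS k d, ∑ t, c t • s t = y φ := fun φ =>
    (Submodule.mem_span_range_iff_exists_fun _).mp (hs ▸ hyS φ)
  choose c hc using hc
  let z : Fin m → PS V d := fun t α => ρ fun φ => coeff α (c φ t)
  have hz : ∀ t α, coeff α (z t) = ρ fun φ => coeff α (c φ t) := fun _ _ => rfl
  refine ⟨m, fun i t => s t i, z, fun i => ?_, fun t => ?_⟩
  · ext α
    simp only [map_sum, hsm, hz, ← map_smul]
    simp only [← map_sum ρ]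
    rw [← hρ' (coeff α (x i))]
    congr 1
    funext φ
    have := congrArg (coeff α) (congrFun (hc φ) i)
    rw [hy, Finset.sum_apply, map_sum] at this
    rw [← this]
    simp only [Finset.sum_apply, Pi.smul_apply, smul_eq_mul]
    refine Finset.sum_congr rfl fun t _ => ?_
    rw [mul_comm, coeff_mul]
  · exact (hmem _).mp (hs ▸ Submodule.subset_span ⟨t, rfl⟩)

/-- splitting of exponents -/
noncomputable def fcSplit (d r : ℕ) : (Fin (d + r) →₀ ℕ) ≃+ (Fin d →₀ ℕ) × (Fin r →₀ ℕ) :=
  (Finsupp.domCongr finSumFinEquiv.symm).trans Finsupp.sumFinsuppAddEquivProdFinsupp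

theorem fc_split_fst (d r : ℕ) (α : Fin (d + r) →₀ ℕ) (i : Fin d) :
    (fcSplit d r α).1 i = α (Fin.castAdd r i) := rfl

theorem fc_split_snd (d r : ℕ) (α : Fin (d + r) →₀ ℕ) (i : Fin r) :
    (fcSplit d r α).2 i = α (Fin.natAdd d i) := rfl

theorem fc_split_left (d r : ℕ) (i : Fin d) :
    (fcSplit d r).symm (Finsupp.single i 1, 0) = Finsupp.single (Fin.castAdd r i) 1 := by
  rw [AddEquiv.symm_apply_eq]
  refine Prod.ext ?_ ?_
  · ext t
    rw [fc_split_fst]
    simp [Finsupp.single_apply, Fin.ext_iff]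
  · ext t
    rw [fc_split_snd, Finsupp.single_eq_of_ne]
    · rfl
    · intro h
      have := congrArg Fin.val h
      simp at this
      omega

theorem fc_split_right (d r : ℕ) (i : Fin r) :
    (fcSplit d r).symm (0, Finsupp.single i 1) = Finsupp.single (Fin.natAdd d i) 1 := by
  rw [AddEquiv.symm_apply_eq]
  refine Prod.ext ?_ ?_
  · ext t
    rw [fc_split_fst, Finsupp.single_eq_of_ne]
    · rfl
    · intro h
      have := congrArg Fin.val h
      simp at this
      omega
  · ext t
    rw [fc_split_snd]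
    simp [Finsupp.single_apply, Fin.ext_iff]

theorem fc_exists_theta (k l : Type*) [Field k] [Field l] (d r : ℕ) (j : k →+* PS l r) :
    ∃ (θ : PS k d →+* PS l (d + r)) (τ : PS l r →ₐ[l] PS l (d + r)), θ.Flat ∧
      (∀ i, θ (MvPowerSeries.X i) = MvPowerSeries.X (Fin.castAdd r i)) ∧
      (∀ i, τ (MvPowerSeries.X i) = MvPowerSeries.X (Fin.natAdd d i)) ∧
      ∀ a, θ (MvPowerSeries.C a) = τ (j a) := by
  let Φ : PS (PS l r) d →+* PS l (d + r) := fcFlatHom (fcSplit d r)
  have hΦ : ∀ a b x, Φ (monomial a (monomial b x)) = monomial ((fcSplit d r).symm (a, b)) x :=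
    fc_flat_monomial _
  let τ : PS l r →ₐ[l] PS l (d + r) :=
    { Φ.comp MvPowerSeries.C with
      commutes' := fun a => by
        have := hΦ 0 0 a
        rwa [Prod.mk_zero_zero, map_zero] at this }
  refine ⟨Φ.comp (MvPowerSeries.map j), τ,
    RingHom.Flat.comp (fc_flat_map k _ d j) (RingHom.Flat.of_bijective (fc_flatHom_bijective _)),
    fun i => ?_, fun i => ?_, fun a => ?_⟩
  · rw [RingHom.comp_apply, map_X]
    have := hΦ (Finsupp.single i 1) 0 1
    rwa [fc_split_left] at this
  · have := hΦ 0 (Finsupp.single i 1) 1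
    rwa [fc_split_right] at this
  · rw [RingHom.comp_apply, map_C]
    rfl

theorem fc_isAdicComplete {V : Type*} [CommRing V] [IsLocalRing V] [IsNoetherianRing V]
    [h : IsAdicComplete (maximalIdeal V) V] (I : Ideal V) (hI : I ≤ maximalIdeal V) :
    IsAdicComplete I V := by
  have hH : IsHausdorff I V := by
    constructor
    intro x hx
    refine IsHausdorff.haus' (I := maximalIdeal V) x fun n => ?_
    exact (hx n).mono (Submodule.smul_mono_left (Ideal.pow_right_mono hI n))
  have hP : IsPrecomplete I V := by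
    constructor
    intro f hf
    simp only [SModEq.sub_mem, smul_eq_mul, Ideal.mul_top] at hf ⊢
    obtain ⟨y, hy⟩ := h.toIsPrecomplete.prec (f := f) fun {m n} hmn => by
      simp only [SModEq.sub_mem, smul_eq_mul, Ideal.mul_top]
      exact Ideal.pow_right_mono hI m (hf hmn)
    simp only [SModEq.sub_mem, smul_eq_mul, Ideal.mul_top] at hy
    refine ⟨y, fun n => ?_⟩
    have hK := Ideal.iInf_pow_smul_eq_bot_of_isLocalRing (M := V ⧸ I ^ n) (maximalIdeal V)
      (maximalIdeal.isMaximal V).ne_top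
    rw [← Submodule.Quotient.mk_eq_zero, ← Submodule.mem_bot V, ← hK, Submodule.mem_iInf]
    intro N
    have e : f n - y = (f n - f (n + N)) + (f (n + N) - y) := by ring
    rw [e, Submodule.Quotient.mk_add,
      (Submodule.Quotient.mk_eq_zero _).mpr (hf (Nat.le_add_right n N)), zero_add]
    have h1 : f (n + N) - y ∈ maximalIdeal V ^ N :=
      Ideal.pow_le_pow_right (Nat.le_add_left N n) (hy (n + N))
    have h2 : (Submodule.Quotient.mk (f (n + N) - y) : V ⧸ I ^ n) =
        (f (n + N) - y) • (Submodule.Quotient.mk 1 : V ⧸ I ^ n) := by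
      rw [← Submodule.Quotient.mk_smul, smul_eq_mul, mul_one]
    rw [h2]
    exact Submodule.smul_mem_smul h1 Submodule.mem_top
  exact {}

theorem fc_exists_lift_field (p : ℕ) [Fact p.Prime] (k V S : Type*) [Field k] [CharP k p]
    [CommRing V] [IsLocalRing V] [IsNoetherianRing V] [IsAdicComplete (maximalIdeal V) V]
    [CharP V p] [CommRing S] [Nontrivial S] (ω : V →+* S) (hω : Function.Surjective ω)
    (f : k →+* S) : ∃ j : k →+* V, ω.comp j = f := by
  let _ : Algebra (ZMod p) k := ZMod.algebra k p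
  let _ : Algebra (ZMod p) V := ZMod.algebra V p
  have := formallySmooth_of_perfectField (ZMod p) k
  have hI : RingHom.ker ω ≤ maximalIdeal V := le_maximalIdeal (RingHom.ker_ne_top ω)
  have := fc_isAdicComplete (RingHom.ker ω) hI
  let e := RingHom.quotientKerEquivOfSurjective hω
  let g0 : k →+* V ⧸ RingHom.ker ω := e.symm.toRingHom.comp f
  let g1 : k →ₐ[ZMod p] V ⧸ RingHom.ker ω :=
    { g0 with
      commutes' := fun a => RingHom.congr_fun
        (RingHom.ext_zmod (g0.comp (algebraMap (ZMod p) k)) (algebraMap (ZMod p) _)) a }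
  obtain ⟨g, hg⟩ := Algebra.FormallySmooth.exists_mkₐ_comp_eq_of_isAdicComplete
    (R := ZMod p) (A := k) (I := RingHom.ker ω) g1
  refine ⟨g.toRingHom, RingHom.ext fun a => ?_⟩
  have h1 : Ideal.Quotient.mk (RingHom.ker ω) (g a) = e.symm (f a) := AlgHom.congr_fun hg a
  have h2 := congrArg e h1
  rw [RingEquiv.apply_symm_apply] at h2
  exact h2

end Vale.Agent.P202
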