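import Vale.Agent.P202.GrowthPS
import Vale.Agent.P202.CoeffField
import Vale.Agent.P202.FlatCritAux1
import Vale.Agent.P202.FlatCritAux2

/-! A numerical flatness criterion, lifting of fields, and a flat map of power series rings. -/

namespace Vale.Agent.P202

open IsLocalRing

theorem flat_of_len (R S : Type*) [CommRing R] [IsLocalRing R] [IsNoetherianRing R] [CommRing S]
    [IsLocalRing S] [IsNoetherianRing S] [Algebra R S] [IsLocalHom (algebraMap R S)] (L : ℕ)
    (hL : maximalIdeal S ^ L ≤ (maximalIdeal R).map (algebraMap R S))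
    (h : ∀ N : ℕ, len S (S ⧸ (maximalIdeal R ^ N).map (algebraMap R S)) =
      len R (R ⧸ maximalIdeal R ^ N) * len S (S ⧸ (maximalIdeal R).map (algebraMap R S))) :
    Module.Flat R S :=
  fc_flat_of_len R S L hL h

theorem exists_lift_field (p : ℕ) [Fact p.Prime] (k V S : Type*) [Field k] [CharP k p]
    [CommRing V] [IsLocalRing V] [IsNoetherianRing V] [IsAdicComplete (maximalIdeal V) V]
    [CharP V p] [CommRing S] [Nontrivial S] (ω : V →+* S) (hω : Function.Surjective ω)
    (f : k →+* S) : ∃ j : k →+* V, ω.comp j = f :=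
  fc_exists_lift_field p k V S ω hω f

/-- the map `k[[X]] → l[[Y]][[X]] = l[[X, Y]]` induced by `j : k → l[[Y]]`; `τ` is the inclusion
`l[[Y]] → l[[X, Y]]`. -/
theorem exists_theta (k l : Type*) [Field k] [Field l] (d r : ℕ) (j : k →+* PS l r) :
    ∃ (θ : PS k d →+* PS l (d + r)) (τ : PS l r →ₐ[l] PS l (d + r)), θ.Flat ∧
      (∀ i, θ (MvPowerSeries.X i) = MvPowerSeries.X (Fin.castAdd r i)) ∧
      (∀ i, τ (MvPowerSeries.X i) = MvPowerSeries.X (Fin.natAdd d i)) ∧
      ∀ a, θ (MvPowerSeries.C a) = τ (j a) :=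
  fc_exists_theta k l d r j

end Vale.Agent.P202
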