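import Vale.Agent.P202.LocalizeAux

/-! A prime of a power series ring is generated by few elements after localisation. -/

namespace Vale.Agent.P202

open IsLocalRing Filter Topology

/-- If a polynomial ring over a field maps onto the maximal ideal modulo its square, the
maximal ideal needs no more generators than there are variables. -/
theorem exists_gens_of_poly {Ω L : Type*} [Field Ω] [CommRing L] [IsLocalRing L]
    [IsNoetherianRing L] {ε : ℕ} (θ : MvPolynomial (Fin ε) Ω →+* L) (s : Set L)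
    (hs : Ideal.span s = maximalIdeal L)
    (hθ : ∀ y ∈ s, ∃ b, y - θ b ∈ maximalIdeal L ^ 2) :
    ∃ t : Finset L, t.card ≤ ε ∧ Ideal.span (t : Set L) = maximalIdeal L := by
  classical
  let q0 : Ideal (MvPolynomial (Fin ε) Ω) := (maximalIdeal L).comap θ
  have hq0 : q0.IsPrime := Ideal.comap_isPrime θ _
  let L0 := Localization.AtPrime q0
  have hu : ∀ y : q0.primeCompl, IsUnit (θ y) := fun y =>
    notMem_maximalIdeal.mp y.2
  let Θ : L0 →+* L := IsLocalization.lift hu
  have hΘ : ∀ b, Θ (algebraMap _ L0 b) = θ b := fun b => IsLocalization.lift_eq hu b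
  obtain ⟨t0, hc, ht0⟩ :=
    Submodule.FG.exists_span_finset_card_eq_spanFinrank
      (maximalIdeal L0).fg_of_isNoetherianRing
  have hdim : (t0.card : WithBot ℕ∞) ≤ ε := by
    rw [hc, IsRegularLocalRing.spanFinrank_maximalIdeal,
      IsLocalization.AtPrime.ringKrullDim_eq_height q0 L0]
    refine Ideal.height_le_ringKrullDim_of_isPrime.trans ?_
    rw [MvPolynomial.ringKrullDim_of_isNoetherianRing, ringKrullDim_eq_zero_of_field]
    simp
  have hm0 : (maximalIdeal L0).map Θ ≤ maximalIdeal L := by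
    rw [← Localization.AtPrime.map_eq_maximalIdeal, Ideal.map_map, Ideal.map_le_iff_le_comap]
    intro b hb
    rw [Ideal.mem_comap, RingHom.comp_apply, hΘ]
    exact hb
  have hsp : Ideal.span ((t0.image Θ : Finset L) : Set L) = (maximalIdeal L0).map Θ := by
    rw [Finset.coe_image, ← Ideal.map_span, ← ht0]
  refine ⟨t0.image Θ, Finset.card_image_le.trans (by exact_mod_cast hdim), ?_⟩
  rw [hsp]
  refine le_antisymm hm0 ?_
  refine Submodule.le_of_le_smul_of_le_jacobson_bot (I := maximalIdeal L)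
    (maximalIdeal L).fg_of_isNoetherianRing (maximalIdeal_le_jacobson _) ?_
  conv_lhs => rw [← hs]
  rw [Ideal.span_le]
  intro y hy
  obtain ⟨b, hb⟩ := hθ y hy
  have hy' : y ∈ maximalIdeal L := hs ▸ Ideal.subset_span hy
  have hb' : b ∈ q0 := by
    have := sub_mem hy' (Ideal.pow_le_self two_ne_zero hb)
    rwa [sub_sub_cancel] at this
  have h1 : θ b ∈ (maximalIdeal L0).map Θ := by
    rw [← hΘ]
    apply Ideal.mem_map_of_mem
    rw [← Localization.AtPrime.map_eq_maximalIdeal]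
    exact Ideal.mem_map_of_mem _ hb'
  have : y = θ b + (y - θ b) := by ring
  rw [SetLike.mem_coe, this]
  refine Submodule.add_mem_sup h1 ?_
  rwa [smul_eq_mul, ← pow_two]

theorem adjoin_sup_of_finite {K A P : Type*} [CommRing K] [CommRing A] [IsLocalRing A]
    [CommRing P] [Algebra K A] [Algebra K P] [Algebra A P] [IsScalarTower K A P] (J : Ideal P)
    [Module.Finite A (P ⧸ J)] (s s' : Set P)
    (hres : ∀ t : P, ∃ a : K, t - algebraMap K P a ∈ Ideal.span (s ∪ s'))
    (hs : ∀ y ∈ s, ∃ a ∈ maximalIdeal A, algebraMap A P a = y) (C : ℕ)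
    (hC : Ideal.span (s ∪ s') ^ C ≤ Ideal.span s ⊔ J) (f : P) :
    ∃ n ∈ Algebra.adjoin A s', f - n ∈ J := by
  let N : Subalgebra A P := Algebra.adjoin A s'
  let π : P →ₗ[A] (P ⧸ J) := (Ideal.Quotient.mkₐ A J).toLinearMap
  have htop : (⊤ : Submodule A (P ⧸ J)) ≤ N.toSubmodule.map π := by
    refine Submodule.le_of_le_smul_of_le_jacobson_bot (I := maximalIdeal A)
      Module.Finite.fg_top (maximalIdeal_le_jacobson _) ?_
    intro y _
    obtain ⟨f, rfl⟩ := Ideal.Quotient.mk_surjective y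
    obtain ⟨p, hp, hf⟩ := exists_adjoin_sub_mem_pow (K := K) (s ∪ s') hres C f
    obtain ⟨r, hr, r', hr', hrr⟩ := Submodule.mem_sup.mp (hC hf)
    have hpN : p ∈ N := by
      have : Algebra.adjoin K (s ∪ s') ≤ N.restrictScalars K := by
        rw [Algebra.adjoin_le_iff]
        rintro y (hy | hy)
        · obtain ⟨a, -, rfl⟩ := hs y hy
          exact N.algebraMap_mem a
        · exact (Algebra.subset_adjoin (R := A) hy : y ∈ N)
      exact this hp
    have hfe : Ideal.Quotient.mk J f = π p + π r := by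
      rw [← map_add]
      refine Ideal.Quotient.eq.mpr ?_
      have : f - (p + r) = r' := by rw [← sub_sub, ← hrr]; ring
      rw [this]; exact hr'
    rw [hfe]
    refine Submodule.add_mem_sup (Submodule.mem_map_of_mem hpN) ?_
    have h1 : Ideal.span s ≤ (maximalIdeal A).map (algebraMap A P) := by
      rw [Ideal.span_le]
      intro y hy
      obtain ⟨a, ha, rfl⟩ := hs y hy
      exact Ideal.mem_map_of_mem _ ha
    have h2 : r ∈ maximalIdeal A • (⊤ : Submodule A P) := by
      rw [Ideal.smul_top_eq_map]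
      exact h1 hr
    have h3 := Submodule.mem_map_of_mem (f := π) h2
    rw [Submodule.map_smul''] at h3
    exact Submodule.smul_mono le_rfl le_top h3
  obtain ⟨n, hn, hnf⟩ := htop (Submodule.mem_top (x := π f))
  exact ⟨n, hn, Ideal.Quotient.eq.mp hnf.symm⟩

theorem exists_gens_of_adjoin {A P : Type*} [CommRing A] [IsDomain A] [CommRing P]
    [IsNoetherianRing P] [Algebra A P] (q : Ideal P) [q.IsPrime]
    (hq0 : ∀ a : A, algebraMap A P a ∈ q → a = 0) {ε : ℕ} (x' : Fin ε → P)
    (hN : ∀ f : P, ∃ n ∈ Algebra.adjoin A (Set.range x'), f - n ∈ q ^ 2) :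
    ∃ t : Finset (Localization.AtPrime q), t.card ≤ ε ∧
      Ideal.span (t : Set (Localization.AtPrime q)) = maximalIdeal (Localization.AtPrime q) := by
  let Ω := FractionRing A
  let L := Localization.AtPrime q
  have hu : ∀ y : nonZeroDivisors A, IsUnit (((algebraMap P L).comp (algebraMap A P)) y) := by
    intro y
    refine IsLocalization.map_units L (⟨algebraMap A P y, fun h => ?_⟩ : q.primeCompl)
    exact nonZeroDivisors.ne_zero y.2 (hq0 _ h)
  let ω : Ω →+* L := IsLocalization.lift hu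
  let θ : MvPolynomial (Fin ε) Ω →+* L :=
    MvPolynomial.eval₂Hom ω fun i => algebraMap P L (x' i)
  have hθN : ∀ n ∈ Algebra.adjoin A (Set.range x'), algebraMap P L n ∈ θ.range := by
    intro n hn
    induction hn using Algebra.adjoin_induction with
    | mem y hy =>
      obtain ⟨i, rfl⟩ := hy
      exact ⟨MvPolynomial.X i, by simp [θ]⟩
    | algebraMap a =>
      refine ⟨MvPolynomial.C (algebraMap A Ω a), ?_⟩
      rw [MvPolynomial.eval₂Hom_C]
      exact IsLocalization.lift_eq hu a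
    | add y z _ _ hy hz => rw [map_add]; exact add_mem hy hz
    | mul y z _ _ hy hz => rw [map_mul]; exact mul_mem hy hz
  refine exists_gens_of_poly θ (algebraMap P L '' q)
    Localization.AtPrime.map_eq_maximalIdeal ?_
  rintro _ ⟨f, -, rfl⟩
  obtain ⟨n, hn, hf⟩ := hN f
  obtain ⟨b, hb⟩ := hθN n hn
  refine ⟨b, ?_⟩
  rw [hb, ← map_sub, ← Localization.AtPrime.map_eq_maximalIdeal, ← Ideal.map_pow]
  exact Ideal.mem_map_of_mem _ hf

theorem isCL_PS (K : Type*) [Field K] (D : ℕ) : IsCL K (PS K D) :=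
  isCL_of_finite (d := D) fun x => varIdeal_eq_maximalIdeal (K := K) (d := D) ▸ PS_residue x

theorem exists_gens_localization {K : Type*} [Field K] [Infinite K] {D : ℕ}
    (q : Ideal (PS K D)) [q.IsPrime] :
    ∃ (c ε : ℕ) (x : Fin c → PS K D), c + ε = D ∧ (∀ i, x i ∈ maximalIdeal (PS K D)) ∧
      (∃ C : ℕ, maximalIdeal (PS K D) ^ C ≤ Ideal.span (Set.range x) ⊔ q) ∧
      ∃ t : Finset (Localization.AtPrime q), t.card ≤ ε ∧
        Ideal.span (t : Set (Localization.AtPrime q)) = maximalIdeal (Localization.AtPrime q) := by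
  have hP := isCL_PS K D
  have hnt : Nontrivial (PS K D ⧸ q) := inferInstance
  have hloc : IsLocalRing (PS K D ⧸ q) :=
    IsLocalRing.of_surjective' (Ideal.Quotient.mk q) Ideal.Quotient.mk_surjective
  have hP1 : IsCL K (PS K D ⧸ q) := hP.quotient q
  have hinf : Infinite (ResidueField (PS K D ⧸ q)) :=
    Infinite.of_injective _ (algebraMap K (ResidueField (PS K D ⧸ q))).injective
  have hm1 : (maximalIdeal (PS K D)).map (Ideal.Quotient.mk q) = maximalIdeal (PS K D ⧸ q) :=
    IsLocalRing.map_maximalIdeal_of_surjective _ Ideal.Quotient.mk_surjective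
  have hmX : Ideal.span (Set.range (MvPowerSeries.X : Fin D → PS K D)) = maximalIdeal (PS K D) :=
    varIdeal_eq_maximalIdeal
  obtain ⟨c, ε, x, x', hce, hspan, ⟨C, hC⟩, hind⟩ := exists_reduction (PS K D) (PS K D ⧸ q)
    (Ideal.Quotient.mk q) Ideal.Quotient.mk_surjective MvPowerSeries.X
    (by rw [Set.range_comp, ← Ideal.map_span, hmX, hm1])
  rw [hmX] at hspan
  have hx : ∀ i, x i ∈ maximalIdeal (PS K D) := fun i =>
    hspan ▸ Ideal.subset_span (Or.inl ⟨i, rfl⟩)
  have hC1 : maximalIdeal (PS K D) ^ (1 + C) ≤ Ideal.span (Set.range x) ⊔ q := by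
    have h1 := hC 1
    rw [pow_one, ← hm1, ← Ideal.map_pow, Set.range_comp, ← Ideal.map_span,
      Ideal.map_le_iff_le_comap, Ideal.comap_map_of_surjective _ Ideal.Quotient.mk_surjective,
      ← RingHom.ker_eq_comap_bot, Ideal.mk_ker] at h1
    exact h1
  refine ⟨c, ε, x, hce, hx, ⟨_, hC1⟩, ?_⟩
  -- the map from the smaller power series ring
  obtain ⟨φ, hφ, -, -, -⟩ := hP.exists_psMap x hx
  have hx1 : ∀ i, (Ideal.Quotient.mk q ∘ x) i ∈ maximalIdeal (PS K D ⧸ q) := fun i =>
    hm1 ▸ Ideal.mem_map_of_mem _ (hx i)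
  obtain ⟨ψ1, hψ1, -, -, hinj⟩ := hP1.exists_psMap (Ideal.Quotient.mk q ∘ x) hx1
  have e1 : ψ1 = (Ideal.Quotient.mkₐ K q).comp φ := by
    have := hP1.complete
    refine psMap_unique (maximalIdeal _) _ _ (fun i => ?_) (fun i => hψ1 i ▸ hx1 i)
    rw [hψ1, AlgHom.comp_apply, hφ]
    rfl
  have hq0 : ∀ a : PS K c, φ a ∈ q → a = 0 := by
    intro a ha
    apply hinj hind
    rw [map_zero, e1]
    exact Ideal.Quotient.eq_zero_iff_mem.mpr ha
  have hq2 : q ^ 2 ≠ ⊤ := fun h =>
    Ideal.IsPrime.ne_top' (eq_top_iff.mpr (h ▸ Ideal.pow_le_self two_ne_zero : ⊤ ≤ q))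
  have hnt2 : Nontrivial (PS K D ⧸ q ^ 2) := Ideal.Quotient.nontrivial_iff.mpr hq2
  have hloc2 : IsLocalRing (PS K D ⧸ q ^ 2) :=
    IsLocalRing.of_surjective' (Ideal.Quotient.mk _) Ideal.Quotient.mk_surjective
  have hP2 : IsCL K (PS K D ⧸ q ^ 2) := hP.quotient (q ^ 2)
  have hm2 : (maximalIdeal (PS K D)).map (Ideal.Quotient.mk (q ^ 2)) =
      maximalIdeal (PS K D ⧸ q ^ 2) :=
    IsLocalRing.map_maximalIdeal_of_surjective _ Ideal.Quotient.mk_surjective
  have hC2 : maximalIdeal (PS K D) ^ ((1 + C) * 2) ≤ Ideal.span (Set.range x) ⊔ q ^ 2 := by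
    rw [pow_mul]
    refine (Ideal.pow_right_mono hC1 2).trans ?_
    rw [pow_two, Ideal.sup_mul, Ideal.mul_sup, Ideal.mul_sup, ← pow_two q]
    refine sup_le (sup_le ?_ ?_) (sup_le ?_ le_sup_right)
    · exact le_sup_of_le_left Ideal.mul_le_left
    · exact le_sup_of_le_left Ideal.mul_le_left
    · exact le_sup_of_le_left Ideal.mul_le_right
  have hx2 : ∀ i, (Ideal.Quotient.mk (q ^ 2) ∘ x) i ∈ maximalIdeal (PS K D ⧸ q ^ 2) := fun i =>
    hm2 ▸ Ideal.mem_map_of_mem _ (hx i)
  obtain ⟨ψ2, hψ2, hfin, -, -⟩ := hP2.exists_psMap (Ideal.Quotient.mk (q ^ 2) ∘ x) hx2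
  have e2 : ψ2 = (Ideal.Quotient.mkₐ K (q ^ 2)).comp φ := by
    have := hP2.complete
    refine psMap_unique (maximalIdeal _) _ _ (fun i => ?_) (fun i => hψ2 i ▸ hx2 i)
    rw [hψ2, AlgHom.comp_apply, hφ]
    rfl
  have hfin2 : ψ2.toRingHom.Finite := hfin ⟨(1 + C) * 2, by
    rw [← hm2, ← Ideal.map_pow, Set.range_comp, ← Ideal.map_span]
    refine (Ideal.map_mono hC2).trans ?_
    rw [Ideal.map_sup, Ideal.map_quotient_self, sup_bot_eq]⟩
  let _ : Algebra (PS K c) (PS K D) := φ.toRingHom.toAlgebra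
  have tow : IsScalarTower K (PS K c) (PS K D) :=
    IsScalarTower.of_algebraMap_eq fun a => (φ.commutes a).symm
  have hfin3 : Module.Finite (PS K c) (PS K D ⧸ q ^ 2) := by
    rw [← RingHom.finite_algebraMap]
    rw [e2] at hfin2
    exact hfin2
  have hdom : IsDomain (PS K c) := NoZeroDivisors.to_isDomain _
  refine exists_gens_of_adjoin (A := PS K c) q hq0 x' ?_
  refine adjoin_sup_of_finite (K := K) (q ^ 2) (Set.range x) (Set.range x')
    (fun t => hspan ▸ hP.res t) ?_ ((1 + C) * 2) (hspan ▸ hC2)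
  rintro _ ⟨i, rfl⟩
  refine ⟨MvPowerSeries.X i, ?_, hφ i⟩
  rw [← varIdeal_eq_maximalIdeal]
  exact Ideal.subset_span ⟨i, rfl⟩

end Vale.Agent.P202
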