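import Vale.Agent.P202.StepA
import Vale.Agent.P202.LocalizeReg

/-! Localising at a minimal prime of the closed fibre. -/

namespace Vale.Agent.P202

open IsLocalRing Filter Topology
open scoped TensorProduct

universe u

theorem exists_pow_le_map_of_mem_minimalPrimes {S : Type*} [CommRing S] [IsNoetherianRing S]
    (I Q : Ideal S) [Q.IsPrime] (hQ : Q ∈ I.minimalPrimes) :
    ∃ L : ℕ, maximalIdeal (Localization.AtPrime Q) ^ L ≤
      I.map (algebraMap S (Localization.AtPrime Q)) := by
  apply Ideal.exists_pow_le_of_le_radical_of_fg _ (maximalIdeal _).fg_of_isNoetherianRing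
  rw [IsLocalization.AtPrime.radical_map_of_mem_minimalPrimes (Localization.AtPrime Q) Q I hQ,
    Localization.AtPrime.map_eq_maximalIdeal]

theorem exists_fin_family {T : Type*} [CommRing T] (t : Finset T) {d : ℕ} (h : t.card ≤ d) :
    ∃ w : Fin d → T, Ideal.span (Set.range w) = Ideal.span (t : Set T) := by
  classical
  let e := t.equivFin
  refine ⟨fun i => if hi : i.1 < t.card then (e.symm ⟨i.1, hi⟩ : T) else 0, le_antisymm ?_ ?_⟩
  · rw [Ideal.span_le]
    rintro _ ⟨i, rfl⟩
    by_cases hi : i.1 < t.card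
    · simp only [hi, dite_true]
      exact Ideal.subset_span (e.symm ⟨i.1, hi⟩).2
    · simp only [hi, dite_false]
      exact zero_mem _
  · rw [Ideal.span_le]
    intro y hy
    refine Ideal.subset_span ⟨⟨(e ⟨y, hy⟩).1, (e ⟨y, hy⟩).2.trans_le h⟩, ?_⟩
    simp

/-- the length bound at a prime of a finite extension of a domain which is regular there. -/
theorem len_localization_le {P S : Type*} [CommRing P] [IsDomain P] [IsNoetherianRing P]
    [CommRing S] [Algebra P S] [Module.Finite P S] (Q : Ideal S) [Q.IsPrime] {d : ℕ}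
    (w : Fin d → Localization.AtPrime (Q.comap (algebraMap P S)))
    (hw : Ideal.span (Set.range w) = maximalIdeal _) (ε : ℝ) (hε : 0 < ε) :
    ∀ᶠ n : ℕ in atTop,
      (len (Localization.AtPrime Q) (Localization.AtPrime Q ⧸
        powIdeal (Localization.localRingHom _ Q (algebraMap P S) rfl ∘ w) n) : ℝ) ≤
        (Module.finrank P S + ε) * (n : ℝ) ^ d := by
  let q := Q.comap (algebraMap P S)
  let T := Localization.AtPrime q
  let S' := Localization.AtPrime Q
  let lam : T →+* S' := Localization.localRingHom _ Q (algebraMap P S) rfl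
  have hlam : ∀ a : P, lam (algebraMap P T a) = algebraMap P S' a := fun a => by
    rw [Localization.localRingHom_to_map, IsScalarTower.algebraMap_apply P S S']
  let lam' : T →ₐ[P] S' := { lam with commutes' := hlam }
  let M := T ⊗[P] S
  let φ : M →ₐ[P] S' :=
    Algebra.TensorProduct.lift lam' (IsScalarTower.toAlgHom P S S') fun _ _ => .all _ _
  have hφ1 : (φ : M →+* S').comp (algebraMap T M) = lam := by
    refine RingHom.ext fun t => ?_
    change φ (t ⊗ₜ[P] (1 : S)) = lam t
    rw [Algebra.TensorProduct.lift_tmul, map_one, mul_one]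
    rfl
  have hφ2 : (φ : M →+* S').comp
      (Algebra.TensorProduct.includeRight : S →ₐ[P] M).toRingHom = algebraMap S S' := by
    refine RingHom.ext fun t => ?_
    change φ ((1 : T) ⊗ₜ[P] t) = algebraMap S S' t
    rw [Algebra.TensorProduct.lift_tmul, map_one, one_mul]
    rfl
  have hinj : Function.Injective (Ideal.comap (φ : M →+* S') : Ideal S' → Ideal M) := by
    intro J J' h
    have := congrArg
      (Ideal.comap (Algebra.TensorProduct.includeRight : S →ₐ[P] M).toRingHom) h
    rw [Ideal.comap_comap, Ideal.comap_comap, hφ2] at this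
    exact (IsLocalization.orderEmbedding Q.primeCompl S').injective this
  obtain ⟨v, g, -, hg, hv⟩ := exists_free_part P S
  have hgT : algebraMap P T g ≠ 0 := fun h =>
    hg (IsLocalization.injective T q.primeCompl_le_nonZeroDivisors (by rw [h, map_zero]))
  obtain ⟨γ, hγ⟩ : ∃ γ : ℕ, algebraMap P T g ∉ maximalIdeal T ^ (γ + 1) := by
    by_contra! h
    apply hgT
    rw [← Ideal.mem_bot, ← Ideal.iInf_pow_eq_bot_of_isLocalRing (maximalIdeal T)
      Ideal.IsPrime.ne_top', Ideal.mem_iInf]
    intro i
    exact Ideal.pow_le_pow_right (Nat.le_succ i) (h i)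
  let v' : Fin (Module.finrank P S) → M := fun i => (1 : T) ⊗ₜ[P] v i
  have hv' : ∀ x : M, algebraMap P T g • x ∈ Submodule.span T (Set.range v') := by
    intro x
    induction x using TensorProduct.induction_on with
    | zero => simp
    | tmul t s =>
      have h1 : (TensorProduct.mk P T S 1) (g • s) ∈ Submodule.span T (Set.range v') := by
        have h2 := Submodule.mem_map_of_mem (f := TensorProduct.mk P T S 1) (hv s)
        rw [Submodule.map_span, ← Set.range_comp] at h2
        exact Submodule.span_subset_span P T _ h2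
      have h3 : algebraMap P T g • (t ⊗ₜ[P] s : M) = t • (TensorProduct.mk P T S 1) (g • s) := by
        rw [algebraMap_smul, TensorProduct.mk_apply, TensorProduct.smul_tmul',
          TensorProduct.smul_tmul', smul_eq_mul, mul_one, TensorProduct.smul_tmul]
      rw [h3]
      exact Submodule.smul_mem _ _ h1
    | add x y hx hy => rw [smul_add]; exact add_mem hx hy
  filter_upwards [len_quot_powIdeal_le w hw (algebraMap P T g) γ hγ v' hv' ε hε] with n hn
  refine le_trans ?_ hn
  have h1 : powIdeal (lam ∘ w) n = (powIdeal w n).map ((φ : M →+* S').comp (algebraMap T M)) := by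
    rw [hφ1, powIdeal, powIdeal, Ideal.map_span, ← Set.range_comp]
    congr 2
    ext i
    simp
  have h2 := length_quot_le_of_comap_injective (T := T) (φ : M →+* S') hinj (powIdeal w n)
  have h3 : Module.length T (M ⧸ powIdeal w n • (⊤ : Submodule T M)) ≠ ⊤ := by
    refine length_quot_ne_top (maximalIdeal T).fg_of_isNoetherianRing (d * n + 1) _ ?_
    refine Submodule.smul_mono ?_ le_rfl
    rw [← hw]
    exact span_pow_le_powIdeal w n
  rw [← h1] at h2
  exact_mod_cast ENat.toNat_le_toNat h2 h3

theorem exists_localization (R S K : Type u) [CommRing R] [IsLocalRing R] [IsNoetherianRing R]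
    [CommRing S] [IsLocalRing S] [Field K] [Infinite K] [Algebra K S] (hS : IsCL K S)
    [Algebra R S] [IsLocalHom (algebraMap R S)] [Module.Flat R S] :
    ∃ (S' : Type u) (_ : CommRing S') (_ : IsLocalRing S') (_ : Algebra R S')
      (w : Fin (dimNat R) → S'),
      IsNoetherianRing S' ∧ IsLocalHom (algebraMap R S') ∧ Module.Flat R S' ∧
      (∃ L : ℕ, maximalIdeal S' ^ L ≤ (maximalIdeal R).map (algebraMap R S')) ∧
      (∀ i, w i ∈ maximalIdeal S') ∧
      (∃ L : ℕ, maximalIdeal S' ^ L ≤ Ideal.span (Set.range w)) ∧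
      ∀ ε : ℝ, 0 < ε → ∀ᶠ n : ℕ in atTop,
        (len S' (S' ⧸ powIdeal w n) : ℝ) ≤ (mult S + ε) * (n : ℝ) ^ dimNat R := by
  have := hS.isNoetherianRing
  obtain ⟨ψ, hfin, -, hX, ⟨C, hC⟩, -, hlim⟩ := hS.exists_normalization
  let _ : Algebra (PS K (dimNat S)) S := ψ.toRingHom.toAlgebra
  have hfin' : Module.Finite (PS K (dimNat S)) S := hfin
  have hmult : mult S = Module.finrank (PS K (dimNat S)) S := hlim.limUnder_eq
  have hdom : IsDomain (PS K (dimNat S)) := NoZeroDivisors.to_isDomain _
  obtain ⟨Q, hQ, hdim⟩ := exists_minimalPrime_dim R S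
  have hQp : Q.IsPrime := hQ.1.1
  let q := Q.comap (algebraMap (PS K (dimNat S)) S)
  obtain ⟨c, e, x, hce, hx, ⟨C', hC'⟩, t, ht, hspan⟩ := exists_gens_localization q
  have hvm : (maximalIdeal (PS K (dimNat S))).map (algebraMap (PS K (dimNat S)) S) ≤
      maximalIdeal S := by
    rw [← varIdeal_eq_maximalIdeal, varIdeal, Ideal.map_span, Ideal.span_le]
    rintro _ ⟨_, ⟨i, rfl⟩, rfl⟩
    exact hX i
  have hle : dimNat S ≤ dimNat R + c := by
    refine hdim c (algebraMap (PS K (dimNat S)) S ∘ x)
      (fun i => hvm (Ideal.mem_map_of_mem _ (hx i))) ⟨C' + C, (hC C').trans ?_⟩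
    rw [varIdeal_eq_maximalIdeal, Set.range_comp, ← Ideal.map_span]
    refine (Ideal.map_mono (f := algebraMap (PS K (dimNat S)) S) hC').trans ?_
    rw [Ideal.map_sup]
    exact sup_le_sup_left Ideal.map_comap_le _
  obtain ⟨w, hw⟩ := exists_fin_family t (d := dimNat R) (by omega)
  rw [hspan] at hw
  let S' := Localization.AtPrime Q
  let lam : Localization.AtPrime q →+* S' :=
    Localization.localRingHom q Q (algebraMap (PS K (dimNat S)) S) rfl
  have hmap : (maximalIdeal R).map (algebraMap R S') =
      ((maximalIdeal R).map (algebraMap R S)).map (algebraMap S S') := by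
    rw [Ideal.map_map, ← IsScalarTower.algebraMap_eq]
  have hsw : Ideal.span (Set.range (lam ∘ w)) =
      (q.map (algebraMap (PS K (dimNat S)) S)).map (algebraMap S S') := by
    rw [Set.range_comp, ← Ideal.map_span, hw, ← Localization.AtPrime.map_eq_maximalIdeal,
      Ideal.map_map, Ideal.map_map]
    congr 1
    refine RingHom.ext fun a => ?_
    exact Localization.localRingHom_to_map _ _ _ rfl a
  have hQq : Q ∈ (q.map (algebraMap (PS K (dimNat S)) S)).minimalPrimes := by
    refine ⟨⟨hQp, Ideal.map_comap_le⟩, ?_⟩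
    rintro Q' ⟨hQ', h1⟩ h2
    by_contra h3
    have h4 : Q' < Q := lt_of_le_not_ge h2 h3
    exact (Ideal.IsIntegral.comap_lt_comap (R := PS K (dimNat S)) h4).not_ge
      (Ideal.map_le_iff_le_comap.mp h1)
  refine ⟨S', inferInstance, inferInstance, inferInstance, lam ∘ w, inferInstance, ?_,
    Module.Flat.trans R S S', ?_, fun i => ?_, ?_, fun ε hε => ?_⟩
  · apply ((IsLocalRing.local_hom_TFAE _).out 0 2).mpr
    rw [hmap, ← Localization.AtPrime.map_eq_maximalIdeal]
    exact Ideal.map_mono hQ.1.2
  · rw [hmap]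
    exact exists_pow_le_map_of_mem_minimalPrimes _ Q hQ
  · have h1 : (lam ∘ w) i ∈ Ideal.span (Set.range (lam ∘ w)) := Ideal.subset_span ⟨i, rfl⟩
    rw [hsw] at h1
    rw [← Localization.AtPrime.map_eq_maximalIdeal]
    exact Ideal.map_mono Ideal.map_comap_le h1
  · rw [hsw]
    exact exists_pow_le_map_of_mem_minimalPrimes _ Q hQq
  · rw [hmult]
    exact len_localization_le Q w hw ε hε

end Vale.Agent.P202
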