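import Vale.Agent.P202.BaseChange
import Vale.Agent.P202.Localize
import Vale.Agent.P202.FlatCrit

/-! A factorisation of a flat local map with Artinian closed fibre. -/

namespace Vale.Agent.P202

open IsLocalRing Filter Topology

universe u

/-- The properties of the factorisation. -/
structure IsTModel (k l : Type u) [Field k] [Field l] (d r : ℕ) (R S : Type u) [CommRing R]
    [IsLocalRing R] [CommRing S] [IsLocalRing S] [Algebra (PS k d) (PS l (d + r))]
    [Algebra (PS k d) R] [Algebra (PS l (d + r)) S] [Algebra R S] [Algebra l S] : Prop where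
  flatA : Module.Flat (PS k d) (PS l (d + r))
  mapX : ∀ i, algebraMap (PS k d) (PS l (d + r)) (MvPowerSeries.X i) =
    MvPowerSeries.X (Fin.castAdd r i)
  finite : Module.Finite (PS k d) R
  res : ∀ x : R, ∃ a : PS k d, x - algebraMap (PS k d) R a ∈ maximalIdeal R
  red : ∃ C : ℕ, ∀ t, maximalIdeal R ^ (t + C) ≤ (varIdeal k d ^ t).map (algebraMap (PS k d) R)
  compat : ∀ a : PS k d, algebraMap (PS l (d + r)) S (algebraMap (PS k d) (PS l (d + r)) a) =
    algebraMap R S (algebraMap (PS k d) R a)
  tower : IsScalarTower l (PS l (d + r)) S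
  surj : Function.Surjective (algebraMap (PS l (d + r)) S)
  flat : Module.Flat R S
  loc : IsLocalHom (algebraMap R S)
  prim : ∃ L : ℕ, maximalIdeal S ^ L ≤ (maximalIdeal R).map (algebraMap R S)

theorem exists_T_model (p : ℕ) [Fact p.Prime] (R S : Type u) [CommRing R] [IsLocalRing R]
    [IsNoetherianRing R] [CommRing S] [IsLocalRing S] [IsNoetherianRing S] [Algebra R S]
    [IsLocalHom (algebraMap R S)] [Module.Flat R S] [CharP R p] [Infinite (ResidueField R)]
    (L : ℕ) (hL : maximalIdeal S ^ L ≤ (maximalIdeal R).map (algebraMap R S)) :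
    ∃ (k l : Type u) (_ : Field k) (_ : Field l) (r : ℕ) (R' S' : Type u) (_ : CommRing R')
      (_ : IsLocalRing R') (_ : CommRing S') (_ : IsLocalRing S')
      (_ : Algebra (PS k (dimNat R)) (PS l (dimNat R + r))) (_ : Algebra (PS k (dimNat R)) R')
      (_ : Algebra (PS l (dimNat R + r)) S') (_ : Algebra R' S') (_ : Algebra l S')
      (f : S →+* S'), IsAlgClosed l ∧ CharP l p ∧ IsTModel k l (dimNat R) r R' S' ∧
      mult R = (Module.finrank (PS k (dimNat R)) R' : ℝ) ∧
      (maximalIdeal S).map f = maximalIdeal S' ∧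
      ∀ (I : Ideal S) (N : ℕ), maximalIdeal S ^ N ≤ I →
        Module.finrank l (S' ⧸ I.map f) = len S (S ⧸ I) := by
  let ι : ZMod p →+* R := ZMod.castHom (dvd_refl p) R
  obtain ⟨R1, _, _, _, cR, fR, lR, mR, -, uR⟩ := exists_completion R
  obtain ⟨S1, _, _, _, cS, fS, lS, mS, -, -⟩ := exists_completion S
  have hRS : ∀ x ∈ maximalIdeal R, algebraMap R S x ∈ maximalIdeal S := fun x hx =>
    map_nonunit (algebraMap R S) x hx
  obtain ⟨H, hH⟩ := uR S1 ((algebraMap S S1).comp (algebraMap R S)) fun x hx => by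
    rw [← mS]; exact Ideal.mem_map_of_mem _ (hRS x hx)
  obtain ⟨σR, hσR, -⟩ := exists_coeffField R1 (ZMod p) ((algebraMap R R1).comp ι)
  obtain ⟨σS, hσS, -⟩ :=
    exists_coeffField S1 (ZMod p) ((algebraMap S S1).comp ((algebraMap R S).comp ι))
  have fgR : (maximalIdeal R1).FG := mR ▸ (maximalIdeal R).fg_of_isNoetherianRing.map _
  have fgS : (maximalIdeal S1).FG := mS ▸ (maximalIdeal S).fg_of_isNoetherianRing.map _
  let _ : Algebra (ResidueField R1) R1 := σR.toAlgebra
  let _ : Algebra (ResidueField S1) S1 := σS.toAlgebra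
  have clR : IsCL (ResidueField R1) R1 := isCL_of_section fgR σR hσR
  have clS : IsCL (ResidueField S1) S1 := isCL_of_section fgS σS hσS
  let k := ResidueField R1
  let l := AlgebraicClosure (ResidueField S1)
  have : Infinite k := Infinite.of_injective _ (ResidueField.map (algebraMap R R1)).injective
  have chk : CharP k p :=
    charP_of_injective_ringHom ((residue R1).comp ((algebraMap R R1).comp ι)).injective p
  have chl : CharP l p := charP_of_injective_ringHom ((algebraMap (ResidueField S1) l).comp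
    ((residue S1).comp ((algebraMap S S1).comp ((algebraMap R S).comp ι)))).injective p
  obtain ⟨S', _, _, _, gS, clS', mS', -, nS', -⟩ := clS.exists_baseChange l
  have := clS'.complete
  have := clS'.isNoetherianRing
  have := clR.isNoetherianRing
  let _ : Algebra R1 S' := (gS.comp H).toAlgebra
  let f : S →+* S' := gS.comp (algebraMap S S1)
  have hsq : (algebraMap R1 S').comp (algebraMap R R1) = f.comp (algebraMap R S) := by
    change (gS.comp H).comp _ = _
    rw [RingHom.comp_assoc, hH]
    rfl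
  have mf : (maximalIdeal S).map f = maximalIdeal S' := by
    rw [← Ideal.map_map, mS, mS']
  have hext : ∀ I : Ideal R, (I.map (algebraMap R R1)).map (algebraMap R1 S') =
      (I.map (algebraMap R S)).map f := by
    intro I
    rw [Ideal.map_map, hsq, Ideal.map_map]
  have hloc : IsLocalHom (algebraMap R1 S') := by
    apply ((IsLocalRing.local_hom_TFAE _).out 0 2).mpr
    rw [← mR, hext, ← mf]
    exact Ideal.map_mono (Ideal.map_le_iff_le_comap.mpr hRS)
  have numS : ∀ (I : Ideal S) (N : ℕ), maximalIdeal S ^ N ≤ I →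
      Module.finrank l (S' ⧸ I.map f) = len S (S ⧸ I) := by
    intro I N hI
    have h1 : maximalIdeal S1 ^ N ≤ I.map (algebraMap S S1) := by
      rw [← mS, ← Ideal.map_pow]; exact Ideal.map_mono hI
    rw [← Ideal.map_map, nS' _ N h1, (finrank_eq_len _ S1 _ clS.res).1,
      len_quot_map_of_flat_of_eq mS]
  have hL' : maximalIdeal S' ^ L ≤ (maximalIdeal R1).map (algebraMap R1 S') := by
    rw [← mR, hext, ← mf, ← Ideal.map_pow]
    exact Ideal.map_mono hL
  have hflat : Module.Flat R1 S' := flat_of_len R1 S' L hL' fun N => by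
    have h1 : maximalIdeal S ^ (L * N) ≤ (maximalIdeal R ^ N).map (algebraMap R S) := by
      rw [pow_mul, Ideal.map_pow]
      exact Ideal.pow_right_mono hL N
    have h2 : maximalIdeal R1 ^ N = (maximalIdeal R ^ N).map (algebraMap R R1) := by
      rw [Ideal.map_pow, mR]
    rw [← (finrank_eq_len l S' _ clS'.res).1, ← (finrank_eq_len l S' _ clS'.res).1, h2,
      len_quot_map_of_flat_of_eq mR, hext, ← mR, hext, numS _ _ h1, numS _ _ hL,
      len_quot_map_of_flat]
  obtain ⟨hdim, hseq⟩ := hsSeq_eq_of_flat mR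
  have hd : dimNat R1 = dimNat R := by rw [dimNat, dimNat, hdim]
  have hnorm := clR.exists_normalization
  rw [hseq, hd] at hnorm
  obtain ⟨ψ, hψfin, -, hψX, hC, -, hlim⟩ := hnorm
  obtain ⟨r, ω, hω⟩ := clS'.exists_surj
  have := (isCL_PS l r).complete
  have : CharP (PS l r) p := charP_of_injective_algebraMap (algebraMap l (PS l r)).injective p
  obtain ⟨j, hj⟩ := exists_lift_field p k (PS l r) S' ω.toRingHom hω ((algebraMap R1 S').comp σR)
  obtain ⟨θ, τ, hθ, hθX, hτX, hθC⟩ := exists_theta k l (dimNat R) r j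
  have hωX : ∀ i, ω (MvPowerSeries.X i) ∈ maximalIdeal S' := by
    intro i
    have : IsLocalHom ω.toRingHom := IsLocalHom.of_surjective _ hω
    refine map_nonunit ω.toRingHom _ ?_
    rw [← varIdeal_eq_maximalIdeal]
    exact Ideal.subset_span ⟨i, rfl⟩
  have hψX' : ∀ i, algebraMap R1 S' (ψ (MvPowerSeries.X i)) ∈ maximalIdeal S' := fun i =>
    map_nonunit (algebraMap R1 S') _ (hψX i)
  let x : Fin (dimNat R + r) → S' :=
    Fin.addCases (fun i => algebraMap R1 S' (ψ (MvPowerSeries.X i)))
      fun i => ω (MvPowerSeries.X i)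
  have hx : ∀ i, x i ∈ maximalIdeal S' := by
    intro i
    induction i using Fin.addCases with
    | left i => simpa only [x, Fin.addCases_left] using hψX' i
    | right i => simpa only [x, Fin.addCases_right] using hωX i
  obtain ⟨χ, hχ, -⟩ := clS'.exists_psMap x hx
  have hχτ : χ.comp τ = ω := by
    refine psMap_unique (maximalIdeal S') _ _ (fun i => ?_) fun i => ?_
    · rw [AlgHom.comp_apply, hτX, hχ]
      simp only [x, Fin.addCases_right]
    · rw [AlgHom.comp_apply, hτX, hχ]
      exact hx _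
  have hχs : Function.Surjective χ := by
    intro y
    obtain ⟨z, rfl⟩ := hω y
    exact ⟨τ z, AlgHom.congr_fun hχτ z⟩
  have hcompat : ∀ a, χ (θ a) = algebraMap R1 S' (ψ a) := by
    let _ : Algebra k S' := ((algebraMap R1 S').comp σR).toAlgebra
    let φ₁ : PS k (dimNat R) →ₐ[k] S' :=
      { χ.toRingHom.comp θ with
        commutes' := fun a => by
          change χ (θ (MvPowerSeries.C a)) = ((algebraMap R1 S').comp σR) a
          rw [hθC, ← hj]
          exact AlgHom.congr_fun hχτ (j a) }
    let φ₂ : PS k (dimNat R) →ₐ[k] S' :=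
      { (algebraMap R1 S').comp ψ.toRingHom with
        commutes' := fun a => congrArg (algebraMap R1 S') (ψ.commutes a) }
    have h12 : φ₁ = φ₂ := by
      refine psMap_unique (maximalIdeal S') _ _ (fun i => ?_) fun i => ?_
      · change χ (θ (MvPowerSeries.X i)) = algebraMap R1 S' (ψ (MvPowerSeries.X i))
        rw [hθX, hχ]
        simp only [x, Fin.addCases_left]
      · change χ (θ (MvPowerSeries.X i)) ∈ _
        rw [hθX, hχ]
        exact hx _
    exact fun a => AlgHom.congr_fun h12 a
  let a1 : Algebra (PS k (dimNat R)) (PS l (dimNat R + r)) := θ.toAlgebra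
  let a2 : Algebra (PS k (dimNat R)) R1 := ψ.toRingHom.toAlgebra
  let a3 : Algebra (PS l (dimNat R + r)) S' := χ.toRingHom.toAlgebra
  refine ⟨k, l, inferInstance, inferInstance, r, R1, S', inferInstance, inferInstance,
    inferInstance, inferInstance, a1, a2, a3, inferInstance, inferInstance, f, inferInstance, chl,
    ⟨hθ, hθX, hψfin, fun y => ?_, hC, hcompat,
      IsScalarTower.of_algebraMap_eq fun a => (χ.commutes a).symm, hχs, hflat, hloc, ⟨L, hL'⟩⟩,
    hlim.limUnder_eq, mf, numS⟩
  obtain ⟨a, ha⟩ := clR.res y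
  refine ⟨algebraMap k _ a, ?_⟩
  change y - ψ (algebraMap k _ a) ∈ _
  rwa [ψ.commutes]

/-- The core inequality for factorisations over the field `l`. -/
def CoreIneqT (l : Type u) [Field l] : Prop :=
  ∀ (k : Type u) [Field k] (d r : ℕ) (R S : Type u) [CommRing R] [IsLocalRing R] [CommRing S]
    [IsLocalRing S] [Algebra (PS k d) (PS l (d + r))] [Algebra (PS k d) R]
    [Algebra (PS l (d + r)) S] [Algebra R S] [Algebra l S], IsTModel k l d r R S →
    ∀ w : Fin d → S, (∀ i, w i ∈ maximalIdeal S) →
    (∃ L : ℕ, maximalIdeal S ^ L ≤ Ideal.span (Set.range w)) →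
    ∀ n : ℕ, Module.finrank (PS k d) R * n ^ d ≤ Module.finrank l (S ⧸ powIdeal w n)

theorem mult_le_of_coreT (p : ℕ) [Fact p.Prime] (R S : Type u) [CommRing R] [IsLocalRing R]
    [IsNoetherianRing R] [CommRing S] [IsLocalRing S] [IsNoetherianRing S] [Algebra R S]
    [IsLocalHom (algebraMap R S)] [Module.Flat R S] [CharP R p] [Infinite (ResidueField R)]
    (hcore : ∀ (l : Type u) [Field l] [IsAlgClosed l] [CharP l p], CoreIneqT l) :
    mult R ≤ mult S := by
  let ι : ZMod p →+* R := ZMod.castHom (dvd_refl p) R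
  obtain ⟨S1, _, _, _, K1, _, _, _, hCL, _, _, hm1⟩ :=
    exists_stepA S (ZMod p) ((algebraMap R S).comp ι)
  have := hCL.isNoetherianRing
  let : Algebra R S1 := ((algebraMap S S1).comp (algebraMap R S)).toAlgebra
  have : IsScalarTower R S S1 := IsScalarTower.of_algebraMap_eq fun _ => rfl
  have : IsLocalHom (algebraMap R S1) := RingHom.isLocalHom_comp _ _
  have : Module.Flat R S1 := Module.Flat.trans R S S1
  have hmult : mult S1 = mult S := by rw [mult, mult, (hsSeq_eq_of_flat hm1).2]
  obtain ⟨S2, _, _, _, w, _, _, _, ⟨L, hL⟩, hw, ⟨L', hL'⟩, hlen⟩ :=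
    exists_localization R S1 K1 hCL
  obtain ⟨k, l, _, _, r, R', S', _, _, _, _, _, _, _, _, _, f, _, _, hT, hρ, hmf, hfin⟩ :=
    exists_T_model p R S2 L hL
  have hspan : ∀ n, (powIdeal w n).map f = powIdeal (f ∘ w) n := by
    intro n
    rw [powIdeal, powIdeal, Ideal.map_span, ← Set.range_comp]
    congr 2
    funext i
    simp
  have hcore' := hcore l k (dimNat R) r R' S' hT (f ∘ w)
    (fun i => hmf ▸ Ideal.mem_map_of_mem f (hw i))
    ⟨L', by
      rw [← hmf, ← Ideal.map_pow, Set.range_comp, ← Ideal.map_span]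
      exact Ideal.map_mono hL'⟩
  rw [hρ, ← hmult]
  refine le_of_forall_pos_le_add fun ε hε => ?_
  obtain ⟨n, hn, hn0⟩ := ((hlen ε hε).and (eventually_gt_atTop 0)).exists
  have h3 := hcore' n
  have h4 : maximalIdeal S2 ^ (L' * (dimNat R * n + 1)) ≤ powIdeal w n := by
    rw [pow_mul]
    exact (Ideal.pow_right_mono hL' _).trans (span_pow_le_powIdeal w n)
  rw [← hspan, hfin _ _ h4] at h3
  have h5 : (Module.finrank (PS k (dimNat R)) R' : ℝ) * (n : ℝ) ^ dimNat R ≤
      (mult S1 + ε) * (n : ℝ) ^ dimNat R := le_trans (by exact_mod_cast h3) hn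
  exact le_of_mul_le_mul_right h5 (by positivity)

end Vale.Agent.P202
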