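import Vale.Agent.P202.CoreTAux
import Vale.Agent.P202.ModelT
import Vale.Agent.P202.FrobRankT

/-! The core inequality for factorisations. -/

namespace Vale.Agent.P202

open IsLocalRing Filter Topology TensorProduct

universe u

theorem ct_frob_free (p e : ℕ) (A : Type u) [CommRing A] [ExpChar A p] {ι : Type}
    [Fintype ι] (m : ι → A) (h0 : ∀ g : ι → A, ∑ α, g α ^ p ^ e * m α = 0 → ∀ α, g α = 0)
    (h1 : ∀ f : A, ∃ g : ι → A, ∑ α, g α ^ p ^ e * m α = f) :
    Module.Free A (Frob p e A) := by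
  let v : ι → Frob p e A := fun α => Frob.toFrob p e _ (m α)
  have hsum : ∀ g : ι → A, ∑ α, g α • v α = Frob.toFrob p e _ (∑ α, g α ^ p ^ e * m α) := by
    intro g
    rw [map_sum]
    refine Finset.sum_congr rfl fun α _ => ?_
    rw [Algebra.smul_def, Frob.algebraMap_apply, map_mul]
  have hli : LinearIndependent A v := by
    rw [Fintype.linearIndependent_iff]
    intro g hg
    rw [hsum, map_eq_zero_iff _ (Frob.toFrob p e _).injective] at hg
    exact h0 g hg
  have hsp : ⊤ ≤ Submodule.span A (Set.range v) := by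
    intro x _
    obtain ⟨f, rfl⟩ := (Frob.toFrob p e A).surjective x
    obtain ⟨g, rfl⟩ := h1 f
    rw [← hsum]
    exact Submodule.sum_mem _ fun α _ => Submodule.smul_mem _ _ (Submodule.subset_span ⟨α, rfl⟩)
  exact Module.Free.of_basis (Module.Basis.mk hli hsp)

theorem ct_free_frob (p e : ℕ) [Fact p.Prime] (K : Type u) [Field K] [CharP K p] (d : ℕ)
    [PerfectField K] [ExpChar (PS K d) p] : Module.Free (PS K d) (Frob p e (PS K d)) :=
  ct_frob_free p e (PS K d)
    (fun α : Fin d → Fin (p ^ e) => MvPowerSeries.monomial (expo α) (1 : K))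
    (sum_pow_mul_eq_zero p e) (exists_sum_pow_mul p e)

/-- the numerical part, for an abstract intermediate ring `T`. -/
theorem ct_finrank_le (p : ℕ) [Fact p.Prime] (K : Type u) [Field K] [CharP K p] [IsAlgClosed K]
    (d r : ℕ) (T S : Type u) [CommRing T] [CommRing S] [Algebra K T] [Algebra K S]
    [Algebra (PS K (d + r)) T] [IsScalarTower K (PS K (d + r)) T]
    [Module.Finite (PS K (d + r)) T] [Algebra T S] [IsScalarTower K T S] [ExpChar T p]
    (hsurj : Function.Surjective (algebraMap T S)) [Algebra (PS K d) S]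
    [IsScalarTower K (PS K d) S] [Module.Finite (PS K d) S] (m : Ideal T) (C : ℕ)
    (hC : ∀ t, m ^ (t + C) ≤ (varIdeal K (d + r) ^ t).map (algebraMap (PS K (d + r)) T))
    (w : Fin d → T) (hwX : ∀ i, algebraMap (PS K d) S (MvPowerSeries.X i) = algebraMap T S (w i))
    (hw : ∀ i, w i ∈ m) (L : ℕ)
    (hL : ∀ j, algebraMap T S (algebraMap (PS K (d + r)) T (MvPowerSeries.X j)) ^ L ∈
      Ideal.span (Set.range fun i => algebraMap T S (w i)))
    (β : ℕ → Type) [∀ i, Fintype (β i)] [∀ i, DecidableEq (β i)]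
    (φ : ∀ i, Matrix (β i) (β (i + 1)) T) (hβ0 : Fintype.card (β 0) = 1)
    (hβ : ∀ i, r < i → IsEmpty (β i)) (hφφ : ∀ i, φ i * φ (i + 1) = 0)
    (hφ : ∀ i s t, φ i s t ∈ m)
    (hJ : ∀ s, Ideal.span (Set.range (φ 0 s)) = RingHom.ker (algebraMap T S))
    (hnull : ∀ x ∈ RingHom.ker (algebraMap T S), FullNull φ x)
    (y : Fin r → PS K (d + r)) (L' : ℕ) (hL' : L' ≠ 0)
    (hy : ∀ j, MvPowerSeries.X (Fin.natAdd d j) ^ L' - y j ∈
      Ideal.span (Set.range fun i => (MvPowerSeries.X (Fin.castAdd r i) : PS K (d + r))))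
    (hy0 : ∀ j, algebraMap (PS K (d + r)) T (y j) ∈ RingHom.ker (algebraMap T S))
    (hrank : ∀ e, Module.Finite (PS K d) (S ⊗[T] Frob p e T) ∧
      Module.finrank (PS K d) (S ⊗[T] Frob p e T) ≤
        (p ^ e) ^ (d + r) * Module.finrank (PS K d) S) :
    Module.finrank (PS K (d + r)) T ≤ Module.finrank (PS K d) S := by
  have hdom : IsDomain (PS K (d + r)) := NoZeroDivisors.to_isDomain _
  obtain ⟨β', _, _, φ', hβ0', hβ', hφφ', hφ', hnull'⟩ :=
    exists_cone w m hw β φ r hβ hφφ hφ _ hnull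
  rw [hβ0] at hβ0'
  obtain ⟨s0, hs0⟩ := Fintype.card_eq_one_iff.mp hβ0
  obtain ⟨C', hC'⟩ := lower_bound K (d + r) T
  obtain ⟨c, π, ι, hc, hιπ, -⟩ := exists_pi_iota (A := PS K (d + r)) (R := T)
  haveI : Module.Finite T S := Module.Finite.of_surjective (Algebra.linearMap T S) hsurj
  obtain ⟨s, γ, hγ⟩ := Module.Finite.exists_fin' T S
  have hq : Tendsto (fun e : ℕ => p ^ e) atTop atTop :=
    tendsto_pow_atTop_atTop_of_one_lt (Fact.out : p.Prime).one_lt
  have hXL : ∀ j, algebraMap (PS K (d + r)) T (MvPowerSeries.X j) ^ L ∈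
      RingHom.ker (algebraMap T S) ⊔ Ideal.span (Set.range w) := fun j => by
    rw [sup_comm, RingHom.ker_eq_comap_bot, ← Ideal.comap_map_of_surjective _ hsurj,
      Ideal.mem_comap, map_pow, Ideal.map_span, ← Set.range_comp]
    exact hL j
  refine le_of_eventually_pow_le (d := d + r) _ _ (C + C') _ hq ?_
  filter_upwards [hq.eventually (small_quot (Fin s → T) ((c ^ (r + 1)) ^ (d * d))
    (pow_ne_zero _ (pow_ne_zero _ hc)) L (1 / 2) (by norm_num)),
    hq.eventually_ge_atTop C] with e he heC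
  haveI := he.1
  obtain ⟨hDfin, hDrank⟩ := hrank e
  have hq0 : p ^ e ≠ 0 := pow_ne_zero _ (Fact.out : p.Prime).ne_zero
  have hreg : AlmostReg (fun i => frobRight p e T S
      (algebraMap (PS K (d + r)) T (MvPowerSeries.X (Fin.castAdd r i))))
      (frobRight p e T S (algebraMap (PS K (d + r)) T c ^ (r + 1))) := by
    refine ct_almostReg_quot (frobRight p e T S) (ct_frobRight_surjective p e T S hsurj) β
      (fun i => (φ i).map (iterateFrobenius T p e)) r hβ
      (fun i => by rw [← Matrix.map_mul, hφφ]; simp) s0 hs0 ?_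
      (fun j => algebraMap (PS K (d + r)) T (y j ^ p ^ e)) (fun j => ?_) _ _ ?_ ?_
    · rw [ct_ker_frobRight p e T S hsurj, ← hJ s0, Ideal.map_span, ← Set.range_comp]
      rfl
    · have := (hnull _ (hy0 j)).nullHtpy.map (iterateFrobenius T p e)
      rwa [iterateFrobenius_def, ← map_pow] at this
    · intro N j t ht
      have h1 := ct_almost_of_pi π ι hιπ _ _ (ct_X_regular N j) t
      rw [Ideal.map_span, Set.image_image] at h1
      simp only [map_pow] at h1
      exact h1 ht
    · intro N j0 j n hN hn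
      have h1 := ct_almost_of_pi π ι hιπ _ _
        (ct_sop y L' hL' hy N (p ^ e) hN hq0 {i | i ≤ j0} {i | i < j} j (lt_irrefl j)) n
      rw [Ideal.map_sup, Ideal.map_span, Ideal.map_span, Set.image_image, Set.image_image] at h1
      simp only [map_pow] at h1 hn ⊢
      exact h1 hn
  have hXw' : ∀ j, frobRight p e T S (algebraMap (PS K (d + r)) T (MvPowerSeries.X j)) ^
      (L * p ^ e) ∈ Ideal.span (Set.range fun i =>
        algebraMap S (S ⊗[T] Frob p e T) (algebraMap T S (w i))) := fun j => by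
    rw [mul_comm, pow_mul, frobRight_pow, ← map_pow]
    have := Ideal.mem_map_of_mem (algebraMap S (S ⊗[T] Frob p e T)) (hL j)
    rwa [Ideal.map_span, ← Set.range_comp] at this
  obtain ⟨hfin, hup⟩ := upper_bound K d (S ⊗[T] Frob p e T)
    (fun i => algebraMap S (S ⊗[T] Frob p e T) (algebraMap T S (w i)))
    (fun i => by rw [← hwX]; rfl) _ _ hreg (fun j => ⟨_, hXw' _⟩)
  have h1 := ct_finrank_coker_le (K := K) p e hsurj φ' hβ0' w hnull'
  have h2 := hC' (p ^ e - C) β' (fun i => (φ' i).map (iterateFrobenius T p e))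
    (fun i => by rw [← Matrix.map_mul, hφφ']; simp) hβ'
    (fun i r s => hC _ (by
      rw [Nat.sub_add_cancel heC, Matrix.map_apply, iterateFrobenius_def]
      exact Ideal.pow_mem_pow (hφ' i r s) _))
    (fun j => ⟨L * p ^ e, by
      have := (hnull' _ (hXL j)).nullHtpy.map (iterateFrobenius T p e)
      rwa [iterateFrobenius_def, ← pow_mul] at this⟩) h1.1
  have h3 := finrank_quot_frob_le (K := K) p e γ hγ
    (Ideal.span {(c ^ (r + 1)) ^ (d * d)} ⊔
      powIdeal (MvPowerSeries.X : Fin (d + r) → PS K (d + r)) (L * p ^ e))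
    (Ideal.span (Set.range fun i => algebraMap S (S ⊗[T] Frob p e T) (algebraMap T S (w i))) ⊔
      Ideal.span {frobRight p e T S (algebraMap (PS K (d + r)) T c ^ (r + 1)) ^ (d * d)})
    (map_span_sup_powIdeal _ _ _ _ _ (by
      simp only [map_pow, RingHom.comp_apply]
      exact Ideal.mem_sup_right (Ideal.mem_span_singleton_self _))
      fun j => Ideal.mem_sup_left (hXw' j))
  rw [hβ0', one_mul, ← Nat.sub_add_eq] at h2
  have h4 := h2.trans (h1.2.trans (hup.trans (Nat.add_le_add hDrank h3)))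
  have h5 := (Nat.cast_le (α := ℝ)).mpr h4
  have h6 := he.2
  rw [Nat.cast_add, Nat.cast_mul, Nat.cast_mul, Nat.cast_pow, Nat.cast_pow] at h5
  linarith

theorem ct_exists_resolution {A A' R S : Type*} [CommRing A] [IsLocalRing A] [CommRing A']
    [CommRing R] [IsLocalRing R] [CommRing S] [Nontrivial S] [Algebra A A'] [Module.Flat A A']
    [Algebra A R] [Module.Finite A R] [Algebra (A' ⊗[A] R) S] [Algebra R S] [Module.Flat R S]
    [IsLocalRing (A' ⊗[A] R)] [IsNoetherianRing (A' ⊗[A] R)]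
    (hres : ∀ x : R, ∃ a : A, x - algebraMap A R a ∈ maximalIdeal R)
    (hF2 : ∀ x : R, algebraMap R S x = algebraMap (A' ⊗[A] R) S (1 ⊗ₜ x))
    (hsurj : Function.Surjective (algebraMap (A' ⊗[A] R) S)) {r : ℕ} (Y : Fin r → A')
    (hm : maximalIdeal (A' ⊗[A] R) =
      (maximalIdeal R).map (Algebra.TensorProduct.includeRight (R := A) (A := A') (B := R)) ⊔
        (Ideal.span (Set.range Y)).map (algebraMap A' (A' ⊗[A] R)))
    (hreg : ∀ j a, Y j * a ∈ (maximalIdeal A).map (algebraMap A A') ⊔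
      Ideal.span (Y '' {i | i < j}) →
      a ∈ (maximalIdeal A).map (algebraMap A A') ⊔ Ideal.span (Y '' {i | i < j})) :
    ∃ (b : ℕ → ℕ) (φ : ∀ i, Matrix (Fin (b i)) (Fin (b (i + 1))) (A' ⊗[A] R)), b 0 = 1 ∧
      (∀ i, r < i → b i = 0) ∧ (∀ i, φ i * φ (i + 1) = 0) ∧
      (∀ i s t, φ i s t ∈ maximalIdeal (A' ⊗[A] R)) ∧
      (∀ s, Ideal.span (Set.range (φ 0 s)) = RingHom.ker (algebraMap (A' ⊗[A] R) S)) ∧
      ∀ x ∈ RingHom.ker (algebraMap (A' ⊗[A] R) S),
        FullNull (β := fun i => Fin (b i)) φ x := by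
  letI : Algebra R (A' ⊗[A] R) := Algebra.TensorProduct.rightAlgebra
  haveI : Module.Flat R (A' ⊗[A] R) := Module.Flat.of_linearEquiv
    (Algebra.TensorProduct.commRight A R A').toLinearEquiv.symm
  haveI : IsScalarTower R (A' ⊗[A] R) S := IsScalarTower.of_algebraMap_eq hF2
  haveI : Module.Flat R (_ ⧸ RingHom.ker (algebraMap (A' ⊗[A] R) S)) :=
    Module.Flat.of_linearEquiv (Ideal.quotientKerAlgEquivOfSurjective
      (f := IsScalarTower.toAlgHom R (A' ⊗[A] R) S) hsurj).toLinearEquiv
  refine exists_short_resolution R _ _ (RingHom.ker_ne_top _) (maximalIdeal R)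
    (fun j => algebraMap A' _ (Y j)) ?_ fun j t ht => ?_
  · rw [hm, Ideal.map_span, ← Set.range_comp]
    rfl
  · obtain ⟨a, ha⟩ := ct_exists_sub_mem (A' := A') hres t
    have h1 : Ideal.span ((fun j => algebraMap A' (A' ⊗[A] R) (Y j)) '' {i | i < j}) =
        (Ideal.span (Y '' {i | i < j})).map (algebraMap _ _) := by
      rw [Ideal.map_span, Set.image_image]
    rw [h1] at ht ⊢
    have h2 := Ideal.sub_mem _ ht (Ideal.mul_mem_left _ (algebraMap A' _ (Y j))
      (Ideal.mem_sup_left ha))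
    rw [← mul_sub, sub_sub_cancel, ← map_mul] at h2
    have h6 := Ideal.mem_map_of_mem (algebraMap _ (A' ⊗[A] R))
      (hreg j a (ct_mem_of_mem hres _ _ h2))
    rw [Ideal.map_sup] at h6
    have hle : (maximalIdeal A).map (algebraMap A R) ≤ maximalIdeal R :=
      Ideal.map_le_iff_le_comap.mpr fun x hx => map_maximalIdeal_le_of_finite A R hx
    have hle2 := ct_map_le (A := A) (A' := A') (R := R) (maximalIdeal A) (maximalIdeal R) hle
    have h7 := sup_le_sup_right hle2 _ h6
    have h8 := Ideal.add_mem _ (Ideal.mem_sup_left ha) h7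
    rwa [sub_add_cancel] at h8

section Model

variable {k l : Type u} [Field k] [Field l] {d r : ℕ} {R S : Type u} [CommRing R]
  [IsLocalRing R] [CommRing S] [IsLocalRing S] [Algebra (PS k d) (PS l (d + r))]
  [Algebra (PS k d) R] [Algebra (PS l (d + r)) S] [Algebra R S] [Algebra l S]

theorem IsTModel.isCL (h : IsTModel k l d r R S) : IsCL l S := by
  haveI := h.tower
  haveI : Module.Finite (PS l (d + r)) S :=
    Module.Finite.of_surjective (Algebra.linearMap _ S) h.surj
  refine isCL_of_finite (d := d + r) fun x => ?_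
  obtain ⟨a, rfl⟩ := h.surj x
  obtain ⟨b, hb⟩ := PS_residue a
  refine ⟨b, ?_⟩
  rw [IsScalarTower.algebraMap_apply l (PS l (d + r)) S, ← map_sub]
  exact map_maximalIdeal_le_of_finite _ S (varIdeal_eq_maximalIdeal (K := l) ▸ hb)

theorem IsTModel.map_varIdeal (h : IsTModel k l d r R S) :
    (varIdeal k d).map (algebraMap (PS k d) (PS l (d + r))) =
      Ideal.span (Set.range fun i => (MvPowerSeries.X (Fin.castAdd r i) : PS l (d + r))) := by
  rw [varIdeal, Ideal.map_span, ← Set.range_comp]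
  exact congrArg (fun f => Ideal.span (Set.range f)) (funext h.mapX)

theorem IsTModel.exists_pow_le (h : IsTModel k l d r R S) : ∃ L : ℕ, L ≠ 0 ∧
    maximalIdeal S ^ L ≤ ((varIdeal k d).map (algebraMap (PS k d) R)).map (algebraMap R S) := by
  obtain ⟨C, hC⟩ := h.red
  obtain ⟨L, hL⟩ := h.prim
  refine ⟨L * (1 + C) + 1, Nat.succ_ne_zero _, (Ideal.pow_le_pow_right (Nat.le_succ _)).trans ?_⟩
  rw [pow_mul]
  refine (Ideal.pow_right_mono hL _).trans ?_
  rw [← Ideal.map_pow]
  exact Ideal.map_mono (by simpa using hC 1)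

theorem IsTModel.exists_y (h : IsTModel k l d r R S) : ∃ (L : ℕ) (y : Fin r → PS l (d + r)),
    L ≠ 0 ∧ (∀ j, MvPowerSeries.X (Fin.natAdd d j) ^ L - y j ∈
      Ideal.span (Set.range fun i => (MvPowerSeries.X (Fin.castAdd r i) : PS l (d + r)))) ∧
    ∀ j, algebraMap (PS l (d + r)) S (y j) = 0 := by
  obtain ⟨L, hL0, hL⟩ := h.exists_pow_le
  haveI : Module.Finite (PS l (d + r)) S :=
    Module.Finite.of_surjective (Algebra.linearMap _ S) h.surj
  have h1 : ((varIdeal k d).map (algebraMap (PS k d) R)).map (algebraMap R S) =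
      ((varIdeal k d).map (algebraMap (PS k d) (PS l (d + r)))).map
        (algebraMap (PS l (d + r)) S) := by
    rw [Ideal.map_map, Ideal.map_map]
    exact congrArg (fun f => (varIdeal k d).map f) (RingHom.ext fun a => (h.compat a).symm)
  rw [h1, h.map_varIdeal] at hL
  have h2 : ∀ j, ∃ a ∈ Ideal.span (Set.range fun i =>
      (MvPowerSeries.X (Fin.castAdd r i) : PS l (d + r))), algebraMap (PS l (d + r)) S a =
      algebraMap (PS l (d + r)) S (MvPowerSeries.X (Fin.natAdd d j) ^ L) := fun j => by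
    rw [← Ideal.mem_map_iff_of_surjective _ h.surj, map_pow]
    refine hL (Ideal.pow_mem_pow (map_maximalIdeal_le_of_finite _ S ?_) L)
    rw [← varIdeal_eq_maximalIdeal]
    exact Ideal.subset_span ⟨_, rfl⟩
  choose a ha ha' using h2
  exact ⟨L, fun j => MvPowerSeries.X (Fin.natAdd d j) ^ L - a j, hL0,
    fun j => by simpa using ha j, fun j => by rw [map_sub, ha', sub_self]⟩

theorem IsTModel.exists_torsion (h : IsTModel k l d r R S) [Algebra (PS l d) S]
    [IsScalarTower l (PS l d) S] [Module.Finite (PS l d) S] (L : ℕ)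
    (hL : maximalIdeal S ^ L ≤
      Ideal.span (Set.range fun i => algebraMap (PS l d) S (MvPowerSeries.X i)))
    (c : PS k d) (hc : c ≠ 0) : ∃ g : PS l d, g ≠ 0 ∧
      algebraMap (PS l d) S g ∈ Ideal.span {algebraMap R S (algebraMap (PS k d) R c)} := by
  haveI := h.finite
  haveI := h.flat
  haveI := h.loc
  have hS := h.isCL
  letI : Algebra k R := ((algebraMap (PS k d) R).comp (algebraMap k (PS k d))).toAlgebra
  haveI : IsScalarTower k (PS k d) R := IsScalarTower.of_algebraMap_eq fun _ => rfl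
  have hres : ∀ x : R, ∃ a : k, x - algebraMap k R a ∈ maximalIdeal R := fun x => by
    obtain ⟨a, ha⟩ := h.res x
    obtain ⟨b, hb⟩ := PS_residue a
    refine ⟨b, ?_⟩
    have h1 := map_maximalIdeal_le_of_finite _ R (varIdeal_eq_maximalIdeal (K := k) ▸ hb)
    rw [map_sub, ← IsScalarTower.algebraMap_apply] at h1
    have h2 := Ideal.add_mem _ ha h1
    rwa [sub_add_sub_cancel] at h2
  obtain ⟨L', -, hL'⟩ := h.exists_pow_le
  set lam := len S (S ⧸ (maximalIdeal R).map (algebraMap R S))
  refine ct_exists_torsion_of_small (K := l) _ ?_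
  filter_upwards [small_quot R c hc (L * (d + 1)) (1 / (2 * (lam + 1))) (by positivity),
    eventually_ge_atTop 1] with n hn hn1
  set I := Ideal.span {c} ⊔ powIdeal (MvPowerSeries.X : Fin d → PS k d) (L * (d + 1) * n)
  refine ⟨(I.map (algebraMap (PS k d) R)).map (algebraMap R S), ?_, ?_, ?_⟩
  · rw [Ideal.map_map]
    refine map_span_sup_powIdeal _ _ _ _ _
      (Ideal.mem_sup_left (Ideal.mem_span_singleton_self _)) fun j => Ideal.mem_sup_right ?_
    have h1 : algebraMap R S (algebraMap (PS k d) R (MvPowerSeries.X j)) ∈ maximalIdeal S :=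
      map_nonunit _ _ (map_maximalIdeal_le_of_finite _ R (by
        rw [← varIdeal_eq_maximalIdeal]; exact Ideal.subset_span ⟨_, rfl⟩))
    have h3 := Ideal.pow_mem_pow (hL (Ideal.pow_mem_pow h1 L)) ((d + 1) * n)
    have h4 := span_pow_le_powIdeal _ n (Ideal.pow_le_pow_right (by nlinarith) h3)
    rwa [← pow_mul, ← mul_assoc] at h4
  · refine hS.finite_quot (N := L' * (d * (L * (d + 1) * n) + 1)) ?_
    rw [pow_mul]
    refine (Ideal.pow_right_mono hL' _).trans ?_
    rw [← Ideal.map_pow, ← Ideal.map_pow]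
    exact Ideal.map_mono (Ideal.map_mono ((span_pow_le_powIdeal _ _).trans le_sup_right))
  · haveI := hn.1
    have h1 := finrank_quot_le_of_le (K := k) (I • (⊤ : Submodule (PS k d) R))
      (I.map (algebraMap (PS k d) R)) fun x hx => by
        rwa [Ideal.smul_top_eq_map, Submodule.restrictScalars_mem] at hx
    rw [(finrank_eq_len l S _ hS.res).1, len_quot_map_of_flat, ← (finrank_eq_len k R _ hres).1,
      Nat.cast_mul]
    have h2 := ((Nat.cast_le (α := ℝ)).mpr h1.2).trans hn.2
    have h3 : (0 : ℝ) ≤ lam := Nat.cast_nonneg _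
    have h4 : (0 : ℝ) ≤ (n : ℝ) ^ d := by positivity
    calc _ ≤ 1 / (2 * (lam + 1)) * (n : ℝ) ^ d * (lam + 1) :=
          mul_le_mul h2 (le_add_of_nonneg_right zero_le_one) h3 (by positivity)
      _ = _ := by field_simp

theorem IsTModel.Y_regular (h : IsTModel k l d r R S) (j : Fin r) (a : PS l (d + r))
    (ha : MvPowerSeries.X (Fin.natAdd d j) * a ∈
      (maximalIdeal (PS k d)).map (algebraMap (PS k d) (PS l (d + r))) ⊔
      Ideal.span ((fun i => (MvPowerSeries.X (Fin.natAdd d i) : PS l (d + r))) '' {i | i < j})) :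
    a ∈ (maximalIdeal (PS k d)).map (algebraMap (PS k d) (PS l (d + r))) ⊔
      Ideal.span ((fun i => (MvPowerSeries.X (Fin.natAdd d i) : PS l (d + r))) '' {i | i < j}) := by
  rw [← varIdeal_eq_maximalIdeal, h.map_varIdeal, ← Set.image_univ] at ha ⊢
  have h5 := ct_sop (fun i => MvPowerSeries.X (Fin.natAdd d i)) 1 one_ne_zero
    (fun j => by simp) 1 1 one_ne_zero one_ne_zero Set.univ {i | i < j} j (lt_irrefl j) a
  simp only [pow_one] at h5
  exact h5 ha

theorem IsTModel.finrank_tensor (h : IsTModel k l d r R S) :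
    Module.finrank (PS l (d + r)) (PS l (d + r) ⊗[PS k d] R) = Module.finrank (PS k d) R := by
  haveI := h.flatA
  have hdom : IsDomain (PS k d) := NoZeroDivisors.to_isDomain _
  have hdom' : IsDomain (PS l (d + r)) := NoZeroDivisors.to_isDomain _
  exact (TensorProduct.isBaseChange (PS k d) R (PS l (d + r))).finrank_eq

theorem IsTModel.finrank_le (p : ℕ) [Fact p.Prime] [CharP l p] [IsAlgClosed l]
    (h : IsTModel k l d r R S) [Algebra (PS l d) S] [IsScalarTower l (PS l d) S]
    [Module.Finite (PS l d) S]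
    (hw : ∀ i, algebraMap (PS l d) S (MvPowerSeries.X i) ∈ maximalIdeal S) (L : ℕ)
    (hL : maximalIdeal S ^ L ≤
      Ideal.span (Set.range fun i => algebraMap (PS l d) S (MvPowerSeries.X i))) :
    Module.finrank (PS k d) R ≤ Module.finrank (PS l d) S := by
  haveI := h.finite
  haveI := h.flat
  haveI := h.loc
  haveI := h.flatA
  haveI := h.tower
  have hdom : IsDomain (PS k d) := NoZeroDivisors.to_isDomain _
  have hdom' : IsDomain (PS l (d + r)) := NoZeroDivisors.to_isDomain _
  have hdom'' : IsDomain (PS l d) := NoZeroDivisors.to_isDomain _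
  haveI : Module.Finite (PS l (d + r)) S :=
    Module.Finite.of_surjective (Algebra.linearMap _ S) h.surj
  letI : Algebra (PS k d) S := ((algebraMap R S).comp (algebraMap (PS k d) R)).toAlgebra
  let F : PS l (d + r) ⊗[PS k d] R →ₐ[PS k d] S := Algebra.TensorProduct.lift
    { algebraMap (PS l (d + r)) S with commutes' := h.compat }
    { algebraMap R S with commutes' := fun _ => rfl } fun _ _ => .all _ _
  letI : Algebra (PS l (d + r) ⊗[PS k d] R) S := F.toRingHom.toAlgebra
  have hF1 : ∀ a, algebraMap (PS l (d + r) ⊗[PS k d] R) S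
      (algebraMap (PS l (d + r)) _ a) = algebraMap (PS l (d + r)) S a := fun a => by
    change F (a ⊗ₜ 1) = _
    rw [Algebra.TensorProduct.lift_tmul, map_one, mul_one]
    rfl
  have hF2 : ∀ x : R, algebraMap R S x = algebraMap (PS l (d + r) ⊗[PS k d] R) S (1 ⊗ₜ x) :=
    fun x => by
    change _ = F (1 ⊗ₜ x)
    rw [Algebra.TensorProduct.lift_tmul, map_one, one_mul]
    rfl
  have hsurj : Function.Surjective (algebraMap (PS l (d + r) ⊗[PS k d] R) S) := fun x => by
    obtain ⟨a, rfl⟩ := h.surj x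
    exact ⟨_, hF1 a⟩
  haveI : Nontrivial (PS l (d + r) ⊗[PS k d] R) := (algebraMap _ S).domain_nontrivial
  haveI : IsScalarTower l (PS l (d + r) ⊗[PS k d] R) S :=
    IsScalarTower.of_algebraMap_eq (A := S) fun a => by
      rw [IsScalarTower.algebraMap_apply l (PS l (d + r)) (PS l (d + r) ⊗[PS k d] R), hF1,
        ← IsScalarTower.algebraMap_apply]
  haveI : ExpChar l p := ExpChar.prime Fact.out
  haveI : ExpChar (PS l (d + r) ⊗[PS k d] R) p :=
    expChar_of_injective_algebraMap (algebraMap l _).injective p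
  haveI := expChar_PS p l (d + r)
  have hinj : Function.Injective (algebraMap (PS k d) (PS l (d + r))) :=
    FaithfulSMul.algebraMap_injective _ _
  haveI : CharP (PS l (d + r)) p :=
    charP_of_injective_algebraMap (algebraMap l _).injective p
  haveI : CharP (PS k d) p := (algebraMap (PS k d) (PS l (d + r))).charP hinj p
  haveI : ExpChar (PS k d) p := ExpChar.prime Fact.out
  haveI : CharP k p := (algebraMap k (PS k d)).charP (algebraMap k _).injective p
  haveI : CharP R p := charP_of_injective_ringHom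
    ((algebraMap (PS k d) R).comp (algebraMap k (PS k d))).injective p
  haveI : ExpChar R p := ExpChar.prime Fact.out
  obtain ⟨C, hC⟩ := h.red
  obtain ⟨hloc, hm⟩ := ct_isLocalRing (A := PS k d) (A' := PS l (d + r)) h.res (1 + C)
    (by simpa [varIdeal_eq_maximalIdeal] using hC 1)
    (Ideal.span (Set.range fun i => (MvPowerSeries.X (Fin.natAdd d i) : PS l (d + r))))
    (by rw [← varIdeal_eq_maximalIdeal, ← varIdeal_eq_maximalIdeal, h.map_varIdeal,
      ct_varIdeal_add])
  haveI : IsNoetherianRing (PS l (d + r) ⊗[PS k d] R) :=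
    IsNoetherianRing.of_finite (PS l (d + r)) _
  obtain ⟨b, φ, hb0, hb, hφφ, hφ, hJ, hnull⟩ :=
    ct_exists_resolution h.res hF2 hsurj _ hm h.Y_regular
  obtain ⟨L', y, hL', hy, hy0⟩ := h.exists_y
  have hy0' : ∀ j, algebraMap (PS l (d + r)) (PS l (d + r) ⊗[PS k d] R) (y j) ∈
      RingHom.ker (algebraMap (PS l (d + r) ⊗[PS k d] R) S) := fun j => by
    rw [RingHom.mem_ker, hF1, hy0]
  obtain ⟨w, hwX⟩ : ∃ w : Fin d → PS l (d + r) ⊗[PS k d] R, ∀ i,
      algebraMap _ S (w i) = algebraMap (PS l d) S (MvPowerSeries.X i) :=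
    ⟨fun i => (hsurj _).choose, fun i => (hsurj _).choose_spec⟩
  have hβ : ∀ i, r < i → IsEmpty (Fin (b i)) := fun i hi => by rw [hb i hi]; infer_instance
  rw [← h.finrank_tensor]
  refine ct_finrank_le p l d r _ S hsurj (maximalIdeal _) C (fun t => ?_) w
    (fun i => (hwX i).symm) (fun i => ?_) L (fun j => ?_) (fun i => Fin (b i)) φ
    (by rw [Fintype.card_fin, hb0]) hβ hφφ hφ hJ hnull y L' hL' hy hy0' fun e => ?_
  · rw [hm, Ideal.map_pow]
    refine ct_sup_pow_le _ _ _ C (fun t => ?_) (Ideal.map_mono ?_) t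
    · rw [← Ideal.map_pow, ← Ideal.map_pow]
      refine (Ideal.map_mono (hC t)).trans ?_
      rw [ct_map_map, Ideal.map_pow, h.map_varIdeal]
      exact Ideal.map_mono (Ideal.pow_right_mono (ct_varIdeal_add (K := l) ▸ le_sup_left) t)
    · exact ct_varIdeal_add (K := l) ▸ le_sup_right
  · by_contra hu
    have h1 := (notMem_maximalIdeal.mp hu).map (algebraMap _ S)
    rw [hwX] at h1
    exact notMem_maximalIdeal.mpr h1 (hw i)
  · simp only [hwX, hF1]
    refine hL (Ideal.pow_mem_pow (map_maximalIdeal_le_of_finite _ S ?_) L)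
    rw [← varIdeal_eq_maximalIdeal]
    exact Ideal.subset_span ⟨_, rfl⟩
  · haveI := ct_free_frob p e l (d + r)
    obtain ⟨hfin, hrk⟩ := frob_PS p e l (d + r)
    obtain ⟨s0, hs0⟩ := Fintype.card_eq_one_iff.mp
      (show Fintype.card (Fin (b 0)) = 1 by rw [Fintype.card_fin, hb0])
    rw [← hrk]
    refine finrank_tensor_frob_le p e _ _ R S _ hF2 hsurj (h.exists_torsion L hL)
      (fun i => Fin (b i)) φ r hβ hφφ s0 hs0 (hJ s0) y (fun j => (hnull _ (hy0' j)).nullHtpy)
      fun j t ht => ?_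
    have h1 := ct_sop y L' hL' hy 1 (p ^ e) one_ne_zero
      (pow_ne_zero _ (Fact.out : p.Prime).ne_zero) ∅ {i | i < j} j (lt_irrefl j) t
    rw [Set.image_empty, Ideal.span_empty, bot_sup_eq] at h1
    exact h1 ht

end Model

theorem coreIneqT_charP (p : ℕ) [Fact p.Prime] (l : Type u) [Field l] [CharP l p]
    [IsAlgClosed l] : CoreIneqT l := by
  rintro k _ d r R S _ _ _ _ _ _ _ _ _ h w hw ⟨L, hL⟩ n
  obtain ⟨ψ, hψ, hfin, -⟩ := h.isCL.exists_psMap w hw
  letI : Algebra (PS l d) S := ψ.toRingHom.toAlgebra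
  haveI : IsScalarTower l (PS l d) S := IsScalarTower.of_algebraMap_eq fun a =>
    (ψ.commutes a).symm
  haveI : Module.Finite (PS l d) S := hfin ⟨L, hL⟩
  obtain rfl : (fun i => algebraMap (PS l d) S (MvPowerSeries.X i)) = w := funext hψ
  have h1 := h.finrank_le p hw L hL
  have h2 : powIdeal (MvPowerSeries.X : Fin d → PS l d) n • (⊤ : Submodule (PS l d) S) =
      (powIdeal (fun i => algebraMap (PS l d) S (MvPowerSeries.X i)) n).restrictScalars
        (PS l d) := by
    ext z
    rw [powIdeal_smul_top]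
    rfl
  have h3 := finrank_mul_pow_le (K := l) (d := d) S n
  rw [h2, ((Submodule.Quotient.restrictScalarsEquiv (PS l d) _).restrictScalars l).finrank_eq]
    at h3
  exact (Nat.mul_le_mul_right _ h1).trans h3

end Vale.Agent.P202
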