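import Mathlib

/-! A criterion for a finite algebra over a local ring to be local. -/

namespace Vale.Agent.P202

open IsLocalRing

theorem isLocalRing_of_witness {A B : Type*} [CommRing A] [IsLocalRing A] [CommRing B]
    [Nontrivial B] [Algebra A B] [Module.Finite A B] (J : Ideal B)
    (h1 : ∀ b, ∃ a, b - algebraMap A B a ∈ J) (h2 : (maximalIdeal A).map (algebraMap A B) ≤ J)
    (h3 : ∀ x ∈ J, ∃ N : ℕ, x ^ N ∈ (maximalIdeal A).map (algebraMap A B)) :
    ∃ _ : IsLocalRing B, maximalIdeal B = J := by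
  have key : ∀ M : Ideal B, M.IsMaximal → M = J := by
    intro M hM
    have hc : M.comap (algebraMap A B) = maximalIdeal A :=
      eq_maximalIdeal (Ideal.isMaximal_comap_of_isIntegral_of_isMaximal M)
    have hJM : J ≤ M := fun x hx => by
      obtain ⟨N, hN⟩ := h3 x hx
      exact hM.isPrime.mem_of_pow_mem N (Ideal.map_le_iff_le_comap.mpr hc.ge hN)
    refine le_antisymm (fun x hx => ?_) hJM
    obtain ⟨a, ha⟩ := h1 x
    have h4 : a ∈ M.comap (algebraMap A B) := by
      have := M.sub_mem hx (hJM ha)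
      rwa [sub_sub_cancel] at this
    rw [hc] at h4
    have := J.add_mem ha (h2 (Ideal.mem_map_of_mem _ h4))
    rwa [sub_add_cancel] at this
  obtain ⟨M, hM⟩ := Ideal.exists_maximal B
  have hJ : J.IsMaximal := key M hM ▸ hM
  have hloc : IsLocalRing B := IsLocalRing.of_unique_max_ideal ⟨J, hJ, key⟩
  exact ⟨hloc, (eq_maximalIdeal hJ).symm⟩

end Vale.Agent.P202
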