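import Vale.Agent.P202.Core
import Vale.Agent.P202.Resol
import Vale.Agent.P202.LocalW
import Vale.Agent.P202.BaseChange

/-! Auxiliary results for the core inequality for factorisations. -/

namespace Vale.Agent.P202

open IsLocalRing Filter Topology TensorProduct

universe u

section Tensor

variable {A A' R : Type*} [CommRing A] [IsLocalRing A] [CommRing A'] [CommRing R] [IsLocalRing R]
  [Algebra A A'] [Algebra A R]

theorem ct_exists_sub_mem (hres : ∀ x : R, ∃ a : A, x - algebraMap A R a ∈ maximalIdeal R)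
    (t : A' ⊗[A] R) : ∃ a : A', t - algebraMap A' (A' ⊗[A] R) a ∈
      (maximalIdeal R).map (Algebra.TensorProduct.includeRight (R := A) (A := A') (B := R)) := by
  induction t with
  | zero => exact ⟨0, by simp⟩
  | add x y hx hy =>
    obtain ⟨a, ha⟩ := hx
    obtain ⟨b, hb⟩ := hy
    refine ⟨a + b, ?_⟩
    have := Ideal.add_mem _ ha hb
    rwa [map_add, add_sub_add_comm]
  | tmul a x =>
    obtain ⟨b, hb⟩ := hres x
    refine ⟨b • a, ?_⟩
    have h1 : a ⊗ₜ[A] x - algebraMap A' (A' ⊗[A] R) (b • a) =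
        (a ⊗ₜ[A] (1 : R)) * Algebra.TensorProduct.includeRight (R := A) (A := A')
          (x - algebraMap A R b) := by
      rw [Algebra.TensorProduct.includeRight_apply, Algebra.TensorProduct.tmul_mul_tmul, mul_one,
        one_mul, TensorProduct.tmul_sub, Algebra.algebraMap_eq_smul_one b, ← TensorProduct.smul_tmul]
      rfl
    rw [h1]
    exact Ideal.mul_mem_left _ _ (Ideal.mem_map_of_mem _ hb)

theorem ct_map_le (I : Ideal A) (I' : Ideal R) (h : I.map (algebraMap A R) ≤ I') :
    (I.map (algebraMap A A')).map (algebraMap A' (A' ⊗[A] R)) ≤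
      I'.map (Algebra.TensorProduct.includeRight (R := A) (A := A') (B := R)) := by
  rw [Ideal.map_map, ← IsScalarTower.algebraMap_eq, Ideal.map_le_iff_le_comap]
  intro a ha
  rw [Ideal.mem_comap, ← (Algebra.TensorProduct.includeRight (R := A) (A := A')
    (B := R)).commutes]
  exact Ideal.mem_map_of_mem _ (h (Ideal.mem_map_of_mem _ ha))

theorem ct_map_map (I : Ideal A) :
    (I.map (algebraMap A R)).map (Algebra.TensorProduct.includeRight (R := A) (A := A') (B := R)) =
      (I.map (algebraMap A A')).map (algebraMap A' (A' ⊗[A] R)) := by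
  refine le_antisymm ?_ (ct_map_le I _ le_rfl)
  rw [Ideal.map_le_iff_le_comap, Ideal.map_le_iff_le_comap]
  intro a ha
  rw [Ideal.mem_comap, Ideal.mem_comap, AlgHom.commutes, IsScalarTower.algebraMap_apply A A']
  exact Ideal.mem_map_of_mem _ (Ideal.mem_map_of_mem _ ha)

theorem ct_isLocalRing [IsLocalRing A'] [Module.Finite A R] [Nontrivial (A' ⊗[A] R)]
    (hres : ∀ x : R, ∃ a : A, x - algebraMap A R a ∈ maximalIdeal R) (C : ℕ)
    (hC : maximalIdeal R ^ C ≤ (maximalIdeal A).map (algebraMap A R)) (Y : Ideal A')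
    (hY : maximalIdeal A' = (maximalIdeal A).map (algebraMap A A') ⊔ Y) :
    ∃ _ : IsLocalRing (A' ⊗[A] R), maximalIdeal (A' ⊗[A] R) =
      (maximalIdeal R).map (Algebra.TensorProduct.includeRight (R := A) (A := A') (B := R)) ⊔
        Y.map (algebraMap A' (A' ⊗[A] R)) := by
  refine isLocalRing_of_witness (A := A') _ (fun t => ?_) ?_ ?_
  · obtain ⟨a, ha⟩ := ct_exists_sub_mem hres t
    exact ⟨a, Ideal.mem_sup_left ha⟩
  · rw [hY, Ideal.map_sup]
    refine sup_le_sup_right (ct_map_le _ _ ?_) _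
    exact Ideal.map_le_iff_le_comap.mpr fun x hx => map_maximalIdeal_le_of_finite A R hx
  · change _ ≤ Ideal.radical _
    refine sup_le ?_ (le_trans (Ideal.map_mono (hY ▸ le_sup_right)) Ideal.le_radical)
    rw [Ideal.map_le_iff_le_comap]
    intro x hx
    refine ⟨C, ?_⟩
    rw [← map_pow]
    have h1 := Ideal.mem_map_of_mem (Algebra.TensorProduct.includeRight (R := A) (A := A')
      (B := R)) (hC (Ideal.pow_mem_pow hx C))
    rw [ct_map_map] at h1
    exact Ideal.map_mono (hY ▸ le_sup_left) h1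

theorem ct_mem_of_mem [Module.Finite A R]
    (hres : ∀ x : R, ∃ a : A, x - algebraMap A R a ∈ maximalIdeal R) (Y : Ideal A') (a : A')
    (ha : algebraMap A' (A' ⊗[A] R) a ∈
      (maximalIdeal R).map (Algebra.TensorProduct.includeRight (R := A) (A := A') (B := R)) ⊔
        Y.map (algebraMap A' (A' ⊗[A] R))) :
    a ∈ (maximalIdeal A).map (algebraMap A A') ⊔ Y := by
  have hle : maximalIdeal A ≤ (maximalIdeal R).comap (Algebra.ofId A R) := fun x hx =>
    map_maximalIdeal_le_of_finite A R hx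
  let e : (A ⧸ maximalIdeal A) ≃ₐ[A] (R ⧸ maximalIdeal R) :=
    AlgEquiv.ofBijective (Ideal.quotientMapₐ _ (Algebra.ofId A R) hle) (by
      refine ⟨Ideal.quotientMap_injective' (H := hle) fun x hx => ?_, fun x => ?_⟩
      · exact le_maximalIdeal (Ideal.comap_ne_top _ (maximalIdeal.isMaximal R).ne_top) hx
      · obtain ⟨x, rfl⟩ := Ideal.Quotient.mk_surjective x
        obtain ⟨a, ha⟩ := hres x
        exact ⟨Ideal.Quotient.mk _ a, (Ideal.Quotient.eq.mpr ha).symm⟩)
  set I' := (maximalIdeal A).map (algebraMap A A') ⊔ Y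
  let g : (A ⧸ maximalIdeal A) →ₐ[A] A' ⧸ I' :=
    Ideal.quotientMapₐ _ (Algebra.ofId A A') fun x hx =>
      Ideal.mem_sup_left (Ideal.mem_map_of_mem _ hx)
  let ε : A' ⊗[A] R →ₐ[A] A' ⧸ I' := Algebra.TensorProduct.lift (Ideal.Quotient.mkₐ A I')
    (g.comp ((e.symm : (R ⧸ maximalIdeal R) →ₐ[A] _).comp (Ideal.Quotient.mkₐ A _)))
    fun _ _ => .all _ _
  have hε : ∀ a : A', ε (algebraMap A' (A' ⊗[A] R) a) = Ideal.Quotient.mk I' a := fun a => by
    change ε (a ⊗ₜ 1) = _
    rw [Algebra.TensorProduct.lift_tmul, map_one, mul_one]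
    rfl
  rw [← Ideal.Quotient.eq_zero_iff_mem, ← hε, ← RingHom.mem_ker]
  refine (sup_le ?_ ?_ : _ ≤ RingHom.ker ε) ha
  · rw [Ideal.map_le_iff_le_comap]
    intro x hx
    change ε (1 ⊗ₜ x) = 0
    rw [Algebra.TensorProduct.lift_tmul, AlgHom.comp_apply, AlgHom.comp_apply,
      Ideal.Quotient.mkₐ_eq_mk, Ideal.Quotient.mkₐ_eq_mk, Ideal.Quotient.eq_zero_iff_mem.mpr hx]
    simp
  · rw [Ideal.map_le_iff_le_comap]
    intro x hx
    rw [Ideal.mem_comap, RingHom.mem_ker, hε, Ideal.Quotient.eq_zero_iff_mem]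
    exact Ideal.mem_sup_right hx

end Tensor

theorem ct_almost_of_pi {A T : Type*} [CommRing A] [CommRing T] [Algebra A T] {E : Type} [Finite E]
    {c : A} (π : T →ₗ[A] (E → A)) (ι : (E → A) →ₗ[A] T) (h : ∀ x, ι (π x) = c • x) (I : Ideal A)
    (z : A) (hz : ∀ t, z * t ∈ I → t ∈ I) (n : T)
    (hn : algebraMap A T z * n ∈ I.map (algebraMap A T)) :
    algebraMap A T c * n ∈ I.map (algebraMap A T) := by
  rw [← Submodule.restrictScalars_mem A, ← Ideal.smul_top_eq_map, ← Algebra.smul_def] at hn ⊢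
  have h1 := Submodule.mem_map_of_mem (f := π) hn
  rw [Submodule.map_smul'', map_smul] at h1
  have h2 := (mem_smul_top_pi_iff I _).mp (Submodule.smul_mono le_rfl le_top h1)
  have h3 : π n ∈ I • (⊤ : Submodule A (E → A)) :=
    (mem_smul_top_pi_iff I _).mpr fun e => hz _ (h2 e)
  have h4 := Submodule.mem_map_of_mem (f := ι) h3
  rw [Submodule.map_smul'', h] at h4
  exact Submodule.smul_mono le_rfl le_top h4

theorem ct_almostReg_quot {T D : Type*} [CommRing T] [CommRing D] (ρ : T →+* D)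
    (hρ : Function.Surjective ρ) (β : ℕ → Type) [∀ i, Fintype (β i)] [∀ i, DecidableEq (β i)]
    (φ : ∀ i, Matrix (β i) (β (i + 1)) T) (r : ℕ) (hβ : ∀ i, r < i → IsEmpty (β i))
    (hφφ : ∀ i, φ i * φ (i + 1) = 0) (s0 : β 0) (hs0 : ∀ s, s = s0)
    (hJ : Ideal.span (Set.range (φ 0 s0)) = RingHom.ker ρ) (y : Fin r → T)
    (hy : ∀ j, NullHtpy φ (y j)) {d : ℕ} (x : Fin d → T) (c : T) (hx : AlmostReg x c)
    (hxy : ∀ (N : ℕ) (j0 : Fin d) (j : Fin r) (n : T), N ≠ 0 →
      y j * n ∈ Ideal.span ((fun i => x i ^ N) '' {i | i ≤ j0}) ⊔ Ideal.span (y '' {i | i < j}) →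
      c * n ∈ Ideal.span ((fun i => x i ^ N) '' {i | i ≤ j0}) ⊔ Ideal.span (y '' {i | i < j})) :
    AlmostReg (fun i => ρ (x i)) (ρ (c ^ (r + 1))) := by
  intro N j t ht
  rcases eq_or_ne N 0 with rfl | hN
  · rw [pow_zero, one_mul] at ht
    exact Ideal.mul_mem_left _ _ ht
  obtain ⟨t, rfl⟩ := hρ t
  set I := Ideal.span ((fun i => x i ^ N) '' {i | i < j}) with hI
  have hmap : Ideal.span ((fun i => ρ (x i) ^ N) '' {i | i < j}) = I.map ρ := by
    rw [hI, Ideal.map_span, Set.image_image]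
    simp only [map_pow]
  rw [hmap] at ht ⊢
  rw [← map_pow, ← map_mul, ← Ideal.mem_comap, Ideal.comap_map_of_surjective ρ hρ,
    ← RingHom.ker_eq_comap_bot, ← hJ] at ht
  obtain ⟨a, ha, b, hb, hab⟩ := Submodule.mem_sup.mp ht
  obtain ⟨ζ, rfl⟩ := Ideal.mem_span_range_iff_exists_fun.mp hb
  have hW : Ideal.span ((fun i => x i ^ N) '' {i | i ≤ j}) = I ⊔ Ideal.span {x j ^ N} := by
    rw [hI, ← Ideal.span_union, ← Set.image_singleton (f := fun i => x i ^ N), ← Set.image_union]
    refine congrArg (fun s => Ideal.span ((fun i => x i ^ N) '' s)) ?_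
    ext i
    simp [le_iff_lt_or_eq, or_comm]
  have hζ : mact (φ 0) ζ s0 = x j ^ N * t - a := by
    rw [← hab, add_sub_cancel_left]
    simp only [mact, smul_eq_mul, mul_comm]
  obtain ⟨η, hη⟩ := almost_acyclic (N := T) β φ r hβ hφφ y hy c
    (Ideal.span ((fun i => x i ^ N) '' {i | i ≤ j}))
    (fun j' n hn => by
      simp only [smul_eq_mul, Ideal.mul_top] at hn ⊢
      exact hxy N j j' n hN hn) 0 ζ
    (fun s => by
      rw [hs0 s, hζ, hW]
      exact Ideal.sub_mem _ (Ideal.mem_sup_right (Ideal.mul_mem_right _ _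
        (Ideal.mem_span_singleton_self _))) (Ideal.mem_sup_left ha))
  have hη' : ∀ s, ∃ ζ' : T, c ^ r • ζ s - mact (φ 1) η s - x j ^ N • ζ' ∈ I := fun s => by
    have h1 := hη s
    rw [hW] at h1
    obtain ⟨a', ha', b', hb', hab'⟩ := Submodule.mem_sup.mp h1
    obtain ⟨ζ', rfl⟩ := Ideal.mem_span_singleton'.mp hb'
    refine ⟨ζ', ?_⟩
    have h2 : c ^ r • ζ s - mact (φ 1) η s = a' + ζ' * x j ^ N := hab'.symm
    rw [h2, smul_eq_mul, mul_comm, add_sub_cancel_right]
    exact ha'
  choose ζ' hζ' using hη'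
  have h1 := mact_mem (H := T) I (φ 0) hζ' s0
  rw [mact_sub, mact_sub, mact_smul, mact_smul, mact_mact, hφφ, mact_zero, sub_zero, hζ] at h1
  have h2 : x j ^ N * (c ^ r * t - mact (φ 0) ζ' s0) ∈ I := by
    have h3 := I.add_mem h1 (I.mul_mem_left (c ^ r) ha)
    simp only [smul_eq_mul] at h3
    convert h3 using 1
    ring
  have h3 := Ideal.mem_map_of_mem ρ (hx N j _ h2)
  have h4 : ρ (mact (φ 0) ζ' s0) = 0 := by
    rw [← RingHom.mem_ker, ← hJ]
    exact Ideal.sum_mem _ fun s _ => Ideal.mul_mem_right _ _ (Ideal.subset_span ⟨s, rfl⟩)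
  rw [map_mul, map_sub, h4, sub_zero, ← map_mul, ← mul_assoc, ← pow_succ'] at h3
  rwa [← map_mul]

section Frob

variable (p e : ℕ) (T S : Type u) [CommRing T] [CommRing S] [Algebra T S] [ExpChar T p]

theorem ct_frobRight_surjective (hsurj : Function.Surjective (algebraMap T S)) :
    Function.Surjective (frobRight p e T S) := by
  intro ξ
  induction ξ with
  | zero => exact ⟨0, map_zero _⟩
  | add x y hx hy =>
    obtain ⟨x, rfl⟩ := hx
    obtain ⟨y, rfl⟩ := hy
    exact ⟨x + y, map_add _ _ _⟩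
  | tmul s r =>
    obtain ⟨x, rfl⟩ := (Frob.toFrob p e T).surjective r
    obtain ⟨z, rfl⟩ := hsurj s
    refine ⟨z ^ p ^ e * x, ?_⟩
    rw [frobRight_apply, ← smul_tmul_toFrob, Algebra.algebraMap_eq_smul_one]

theorem ct_ker_frobRight (hsurj : Function.Surjective (algebraMap T S)) :
    RingHom.ker (frobRight p e T S) =
      (RingHom.ker (algebraMap T S)).map (iterateFrobenius T p e) := by
  apply le_antisymm
  · set J := (RingHom.ker (algebraMap T S)).map (algebraMap T (Frob p e T))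
    let f : S →ₐ[T] Frob p e T ⧸ J :=
      (Ideal.quotientMapₐ J (Algebra.ofId T (Frob p e T)) Ideal.le_comap_map).comp
        (Ideal.quotientKerAlgEquivOfSurjective (f := Algebra.ofId T S) hsurj).symm.toAlgHom
    let F := Algebra.TensorProduct.lift f (Ideal.Quotient.mkₐ T J) fun _ _ => .all _ _
    intro t ht
    have h1 : F (frobRight p e T S t) = Ideal.Quotient.mk J (Frob.toFrob p e T t) := by
      rw [frobRight_apply, Algebra.TensorProduct.lift_tmul, map_one, one_mul]
      rfl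
    rw [RingHom.mem_ker.mp ht, map_zero, eq_comm, Ideal.Quotient.eq_zero_iff_mem] at h1
    exact h1
  · rw [Ideal.map_le_iff_le_comap]
    intro x hx
    rw [Ideal.mem_comap, RingHom.mem_ker, iterateFrobenius_def, map_pow, frobRight_pow,
      RingHom.mem_ker.mp hx, map_zero]

variable {T S}

theorem ct_finrank_coker_le [Fact p.Prime] {K : Type u} [Field K] [CharP K p] [Algebra K T]
    [Algebra K S] [IsScalarTower K T S] (hsurj : Function.Surjective (algebraMap T S))
    {β : ℕ → Type} [∀ i, Fintype (β i)] [∀ i, DecidableEq (β i)]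
    (φ : ∀ i, Matrix (β i) (β (i + 1)) T) (hβ : Fintype.card (β 0) = 1) {d : ℕ} (w : Fin d → T)
    (hw : ∀ x ∈ RingHom.ker (algebraMap T S) ⊔ Ideal.span (Set.range w), FullNull φ x)
    [Module.Finite K ((S ⊗[T] Frob p e T) ⧸ Ideal.span (Set.range fun i =>
      algebraMap S (S ⊗[T] Frob p e T) (algebraMap T S (w i))))] :
    Module.Finite K ((β 0 → T) ⧸ LinearMap.range ((φ 0).map (iterateFrobenius T p e)).mulVecLin) ∧
    Module.finrank K
        ((β 0 → T) ⧸ LinearMap.range ((φ 0).map (iterateFrobenius T p e)).mulVecLin) ≤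
      Module.finrank K ((S ⊗[T] Frob p e T) ⧸ Ideal.span (Set.range fun i =>
        algebraMap S (S ⊗[T] Frob p e T) (algebraMap T S (w i)))) := by
  set W := Ideal.span (Set.range fun i =>
    algebraMap S (S ⊗[T] Frob p e T) (algebraMap T S (w i))) with hW
  have hρ := ct_frobRight_surjective p e T S hsurj
  let g := (Ideal.Quotient.mk W).comp (frobRight p e T S)
  have hg : Function.Surjective g := Ideal.Quotient.mk_surjective.comp hρ
  let E := RingHom.quotientKerEquivOfSurjective hg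
  have h1 := finrank_le_of_semi (K := K) (fun a => a ^ p ^ e) E.symm.toAddMonoidHom
    E.symm.surjective (fun a v => by
      obtain ⟨v, rfl⟩ := E.surjective v
      change E.symm (a • E v) = a ^ p ^ e • E.symm (E v)
      rw [RingEquiv.symm_apply_apply, RingEquiv.symm_apply_eq]
      obtain ⟨t, rfl⟩ := Ideal.Quotient.mk_surjective v
      change Ideal.Quotient.mk W (a • frobRight p e T S t) =
        Ideal.Quotient.mk W (frobRight p e T S (a ^ p ^ e • t))
      rw [Algebra.smul_def (A := T), map_mul, map_pow, map_pow, frobRight_pow,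
        ← IsScalarTower.algebraMap_apply, ← IsScalarTower.algebraMap_apply, Algebra.smul_def])
  haveI := h1.1
  obtain ⟨s0, hs0⟩ := Fintype.card_eq_one_iff.mp hβ
  let cst : T →ₗ[T] (β 0 → T) := LinearMap.pi fun _ => LinearMap.id
  have h2 := finrank_quot_le_of_semi (K := K) id cst.toAddMonoidHom
    (fun v => ⟨v s0, funext fun s => by rw [hs0 s]; rfl⟩) (fun _ _ => rfl) (RingHom.ker g)
    (LinearMap.range ((φ 0).map (iterateFrobenius T p e)).mulVecLin) (fun t ht => by
      have hker : RingHom.ker g = (RingHom.ker (algebraMap T S) ⊔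
          Ideal.span (Set.range w)).map (iterateFrobenius T p e) := by
        have h3 : W = ((Ideal.span (Set.range w)).map (iterateFrobenius T p e)).map
            (frobRight p e T S) := by
          rw [hW, Ideal.map_map, Ideal.map_span, ← Set.range_comp]
          refine congrArg (fun f => Ideal.span (Set.range f)) (funext fun i => ?_)
          simp only [Function.comp, RingHom.comp_apply, iterateFrobenius_def, map_pow,
            frobRight_pow]
        rw [← RingHom.comap_ker, Ideal.mk_ker, h3, Ideal.comap_map_of_surjective _ hρ,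
          ← RingHom.ker_eq_comap_bot, ct_ker_frobRight p e T S hsurj, Ideal.map_sup, sup_comm]
      rw [hker] at ht
      refine (Ideal.map_le_iff_le_comap.mpr fun x hx => ?_ :
        _ ≤ (LinearMap.range ((φ 0).map (iterateFrobenius T p e)).mulVecLin).comap cst) ht
      obtain ⟨h, hh, -⟩ := hw x hx
      refine ⟨((h 0).map (iterateFrobenius T p e)).mulVec fun _ => 1, ?_⟩
      rw [Matrix.mulVecLin_apply, Matrix.mulVec_mulVec, ← Matrix.map_mul, hh]
      funext s
      rw [Matrix.mulVec, dotProduct, Finset.sum_eq_single s]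
      · simp [cst]
      · intro s' _ h'
        exact absurd ((hs0 s').trans (hs0 s).symm) h'
      · simp)
  exact ⟨h2.1, h2.2.trans h1.2⟩

end Frob

theorem ct_exists_torsion_of_small {K : Type*} [Field K] {d : ℕ} {S : Type*} [CommRing S]
    [Algebra K S] [Algebra (PS K d) S] [IsScalarTower K (PS K d) S] [Module.Finite (PS K d) S]
    (J : Ideal S) (h : ∀ᶠ n : ℕ in atTop, ∃ I : Ideal S,
      I ≤ J ⊔ powIdeal (fun i => algebraMap (PS K d) S (MvPowerSeries.X i)) n ∧
      Module.Finite K (S ⧸ I) ∧ (Module.finrank K (S ⧸ I) : ℝ) ≤ 1 / 2 * (n : ℝ) ^ d) :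
    ∃ g : PS K d, g ≠ 0 ∧ algebraMap (PS K d) S g ∈ J := by
  have hdom : IsDomain (PS K d) := NoZeroDivisors.to_isDomain _
  have h0 : Module.finrank (PS K d) (S ⧸ J) = 0 := by
    have h1 : (Module.finrank (PS K d) (S ⧸ J) : ℝ) ≤ 1 / 2 := by
      refine le_of_tendsto (tendsto_finrank_quot_powIdeal (K := K) (d := d) (S ⧸ J)) ?_
      filter_upwards [h, eventually_ge_atTop 1] with n hn hn1
      obtain ⟨I, hI, hfin, hn⟩ := hn
      have h2 := finrank_quot_le_of_semi (K := K) id (Ideal.Quotient.mk J).toAddMonoidHom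
        Ideal.Quotient.mk_surjective (fun a v => rfl) I
        (powIdeal (MvPowerSeries.X : Fin d → PS K d) n • (⊤ : Submodule (PS K d) (S ⧸ J)))
        (fun x hx => by
          rw [powIdeal_smul_top]
          have h3 := Ideal.mem_map_of_mem (Ideal.Quotient.mk J) (hI hx)
          rw [Ideal.map_sup, Ideal.map_quotient_self, bot_sup_eq, powIdeal, Ideal.map_span,
            ← Set.range_comp] at h3
          exact h3)
      have hpos : (0 : ℝ) < (n : ℝ) ^ d := by positivity
      rw [div_le_iff₀ hpos]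
      exact ((Nat.cast_le (α := ℝ)).mpr h2.2).trans hn
    have h2 : (Module.finrank (PS K d) (S ⧸ J) : ℝ) < (1 : ℕ) := by push_cast; linarith
    exact Nat.lt_one_iff.mp (by exact_mod_cast h2)
  obtain ⟨v, g, -, hg, hv⟩ := exists_free_part (PS K d) (S ⧸ J)
  refine ⟨g, hg, Ideal.Quotient.eq_zero_iff_mem.mp ?_⟩
  have h1 := hv 1
  haveI : IsEmpty (Fin (Module.finrank (PS K d) (S ⧸ J))) := by rw [h0]; infer_instance
  rw [Set.range_eq_empty, Submodule.span_empty, Submodule.mem_bot, Algebra.smul_def,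
    mul_one] at h1
  exact h1

section Sop

variable {K : Type*} [Field K] {d r : ℕ}

theorem ct_sop (y : Fin r → PS K (d + r)) (L : ℕ) (hL : L ≠ 0)
    (hy : ∀ j, MvPowerSeries.X (Fin.natAdd d j) ^ L - y j ∈
      Ideal.span (Set.range fun i => (MvPowerSeries.X (Fin.castAdd r i) : PS K (d + r))))
    (N q : ℕ) (hN : N ≠ 0) (hq : q ≠ 0) (s : Set (Fin d)) (s' : Set (Fin r)) (j : Fin r)
    (hj : j ∉ s') (t : PS K (d + r))
    (ht : y j ^ q * t ∈ Ideal.span ((fun i => (MvPowerSeries.X (Fin.castAdd r i) :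
      PS K (d + r)) ^ N) '' s) ⊔ Ideal.span ((fun i => y i ^ q) '' s')) :
    t ∈ Ideal.span ((fun i => (MvPowerSeries.X (Fin.castAdd r i) : PS K (d + r)) ^ N) '' s) ⊔
      Ideal.span ((fun i => y i ^ q) '' s') := by
  let z1 : Fin (d + r) → PS K (d + r) :=
    Fin.append (fun i => MvPowerSeries.X (Fin.castAdd r i)) y
  let z : Fin (d + r) → PS K (d + r) :=
    Fin.append (fun i => MvPowerSeries.X (Fin.castAdd r i) ^ N) fun i => y i ^ q
  have hXm : ∀ i, (MvPowerSeries.X i : PS K (d + r)) ∈ varIdeal K (d + r) := fun i =>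
    Ideal.subset_span ⟨i, rfl⟩
  have hle : Ideal.span (Set.range fun i => (MvPowerSeries.X (Fin.castAdd r i) : PS K (d + r))) ≤
      Ideal.span (Set.range z1) := Ideal.span_mono (by
    rintro _ ⟨i, rfl⟩
    exact ⟨Fin.castAdd r i, Fin.append_left _ _ i⟩)
  have hym : ∀ j, y j ∈ varIdeal K (d + r) := fun j => by
    have h1 : MvPowerSeries.X (Fin.natAdd d j) ^ L - y j ∈ varIdeal K (d + r) :=
      Ideal.span_mono (by rintro _ ⟨i, rfl⟩; exact ⟨_, rfl⟩) (hy j)
    have h2 := Ideal.sub_mem _ (Ideal.pow_mem_of_mem _ (hXm (Fin.natAdd d j)) L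
      (Nat.pos_of_ne_zero hL)) h1
    rwa [sub_sub_cancel] at h2
  have hset : Ideal.span (z '' (Fin.castAdd r '' s ∪ Fin.natAdd d '' s')) =
      Ideal.span ((fun i => (MvPowerSeries.X (Fin.castAdd r i) : PS K (d + r)) ^ N) '' s) ⊔
        Ideal.span ((fun i => y i ^ q) '' s') := by
    rw [Set.image_union, Ideal.span_union, Set.image_image, Set.image_image]
    simp only [z, Fin.append_left, Fin.append_right]
  rw [← hset] at ht ⊢
  refine sop_regular z (fun i => ?_) ⟨L * ((d + r) * (N + q) + 1), fun i => ?_⟩ _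
    (Fin.natAdd d j) ?_ t (by simpa only [z, Fin.append_right] using ht)
  · refine Fin.addCases (fun i => ?_) (fun i => ?_) i
    · simp only [z, Fin.append_left]
      exact Ideal.pow_mem_of_mem _ (hXm _) N (Nat.pos_of_ne_zero hN)
    · simp only [z, Fin.append_right]
      exact Ideal.pow_mem_of_mem _ (hym _) q (Nat.pos_of_ne_zero hq)
  · have h1 : (MvPowerSeries.X i : PS K (d + r)) ^ L ∈ Ideal.span (Set.range z1) := by
      refine Fin.addCases (fun i => ?_) (fun i => ?_) i
      · exact Ideal.pow_mem_of_mem _ (hle (Ideal.subset_span ⟨i, rfl⟩)) L (Nat.pos_of_ne_zero hL)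
      · have h2 := Ideal.add_mem _ (hle (hy i)) (Ideal.subset_span
          (show y i ∈ Set.range z1 from ⟨Fin.natAdd d i, Fin.append_right _ _ i⟩))
        rwa [sub_add_cancel] at h2
    have h2 := span_pow_le_powIdeal z1 (N + q) (Ideal.pow_mem_pow h1 _)
    rw [← pow_mul] at h2
    refine (Ideal.span_le.mpr ?_ : powIdeal z1 (N + q) ≤ _) h2
    rintro _ ⟨i, rfl⟩
    refine Fin.addCases (fun i => ?_) (fun i => ?_) i
    · simp only [z1, Fin.append_left, pow_add]
      exact Ideal.mul_mem_right _ _ (Ideal.subset_span ⟨Fin.castAdd r i, Fin.append_left _ _ i⟩)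
    · simp only [z1, Fin.append_right, pow_add]
      exact Ideal.mul_mem_left _ _ (Ideal.subset_span ⟨Fin.natAdd d i, Fin.append_right _ _ i⟩)
  · rintro (⟨i, -, hi⟩ | ⟨i, hi, hi'⟩)
    · have := congrArg Fin.val hi
      simp only [Fin.val_castAdd, Fin.val_natAdd] at this
      omega
    · exact hj (Fin.natAdd_injective _ _ hi' ▸ hi)

theorem ct_X_regular (N : ℕ) (j : Fin d) (t : PS K (d + r))
    (ht : MvPowerSeries.X (Fin.castAdd r j) ^ N * t ∈ Ideal.span
      ((fun i => (MvPowerSeries.X (Fin.castAdd r i) : PS K (d + r)) ^ N) '' {i | i < j})) :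
    t ∈ Ideal.span
      ((fun i => (MvPowerSeries.X (Fin.castAdd r i) : PS K (d + r)) ^ N) '' {i | i < j}) := by
  have h1 : (fun i => (MvPowerSeries.X (Fin.castAdd r i) : PS K (d + r)) ^ N) '' {i | i < j} =
      (fun i => (MvPowerSeries.X i : PS K (d + r)) ^ N) '' {i | i < Fin.castAdd r j} := by
    ext f
    constructor
    · rintro ⟨i, hi, rfl⟩
      exact ⟨Fin.castAdd r i, hi, rfl⟩
    · rintro ⟨i, hi, rfl⟩
      have hi' : (i : ℕ) < j := hi
      exact ⟨⟨i, hi'.trans j.2⟩, hi', rfl⟩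
  rw [h1] at ht ⊢
  exact X_pow_mul_mem N _ t ht

theorem ct_varIdeal_add : varIdeal K (d + r) =
    Ideal.span (Set.range fun i => (MvPowerSeries.X (Fin.castAdd r i) : PS K (d + r))) ⊔
      Ideal.span (Set.range fun i => (MvPowerSeries.X (Fin.natAdd d i) : PS K (d + r))) := by
  rw [← Ideal.span_union, varIdeal]
  refine congrArg Ideal.span ?_
  ext f
  constructor
  · rintro ⟨i, rfl⟩
    exact Fin.addCases (fun i => Or.inl ⟨i, rfl⟩) (fun i => Or.inr ⟨i, rfl⟩) i
  · rintro (⟨i, rfl⟩ | ⟨i, rfl⟩) <;> exact ⟨_, rfl⟩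

end Sop

theorem ct_sup_pow_le {T : Type*} [CommRing T] (m Y I : Ideal T) (C : ℕ)
    (h : ∀ t, m ^ (t + C) ≤ I ^ t) (hY : Y ≤ I) (t : ℕ) : (m ⊔ Y) ^ (t + C) ≤ I ^ t := by
  rw [← Ideal.add_eq_sup, add_pow, Ideal.sum_eq_sup, Finset.sup_le_iff]
  intro i hi
  have hi' : i ≤ t + C := Nat.lt_succ_iff.mp (Finset.mem_range.mp hi)
  refine Ideal.mul_le_left.trans ?_
  by_cases hiC : C ≤ i
  · obtain ⟨s, rfl⟩ := Nat.exists_eq_add_of_le' hiC
    have h1 : I ^ t = I ^ s * I ^ (t + C - (s + C)) := by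
      rw [← pow_add]; congr 1; omega
    rw [h1]
    exact Ideal.mul_mono (h s) (Ideal.pow_right_mono hY _)
  · exact Ideal.mul_le_right.trans ((Ideal.pow_right_mono hY _).trans
      (Ideal.pow_le_pow_right (by omega)))

end Vale.Agent.P202
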