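import Mathlib

/-! The dimension count. -/

namespace Vale.Agent.P202

/-- The recursively defined lower bound for the number of sections. -/
def kap (a : ℕ) : ℕ → ℤ → ℤ → ℤ
  | 0, c, _ => if c ≤ 0 then 1 else 0
  | n + 1, c, u => c * (((n + 1 : ℕ) : ℤ) * a + u) * kap a n c u +
      (((n + 1 : ℕ) : ℤ) * a - c) * u * kap a n (c - a) (u + a)

theorem kap_of_nonpos (a n : ℕ) {c : ℤ} (hc : c ≤ 0) (u : ℤ) :
    kap a n c u = (n.factorial : ℤ) * (a : ℤ) ^ n * (c + u) ^ n := by
  induction n generalizing c u with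
  | zero => simp [kap, hc]
  | succ n ih =>
    rw [kap, ih hc, ih (by omega), Nat.factorial_succ]
    push_cast
    rw [show c - a + (u + a) = c + u by ring]
    ring

theorem kap_of_lt (a n : ℕ) {c : ℤ} (hc : (n : ℤ) * a < c) (u : ℤ) : kap a n c u = 0 := by
  induction n generalizing c u with
  | zero => simp only [Nat.cast_zero, zero_mul] at hc; simp [kap, hc]
  | succ n ih =>
    push_cast at hc
    have : (0 : ℤ) ≤ a := Nat.cast_nonneg a
    rw [kap, ih (by linarith), ih (by linarith)]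
    simp

theorem cnt_succ (h : ℤ) (g : ℤ → ℚ) (k : ℕ) (u : ℤ) :
    (fwdDiff h)^[k + 1] g u = (fwdDiff h)^[k] g (u + h) - (fwdDiff h)^[k] g u := by
  rw [Function.iterate_succ_apply']
  rfl

theorem cnt_leibniz (h s : ℤ) (g : ℤ → ℚ) (k : ℕ) (u : ℤ) :
    (fwdDiff h)^[k + 1] (fun x => ((x : ℚ) - s) * g x) u =
      ((u : ℚ) - s) * (fwdDiff h)^[k + 1] g u + (k + 1) * h * (fwdDiff h)^[k] g (u + h) := by
  induction k generalizing u with
  | zero =>
    simp only [zero_add, Function.iterate_one, Function.iterate_zero, id, fwdDiff]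
    push_cast
    ring
  | succ k ih =>
    rw [cnt_succ, ih, ih, cnt_succ h g (k + 1) u, cnt_succ h g k (u + h)]
    push_cast
    ring

theorem cnt_pow (h : ℤ) (j : ℕ) : ∀ (k : ℕ) (u : ℤ), j ≤ k →
    (fwdDiff h)^[k] (fun x : ℤ => (x : ℚ) ^ j) u =
      if j = k then (k.factorial : ℚ) * h ^ k else 0 := by
  induction j with
  | zero =>
    intro k
    induction k with
    | zero => simp
    | succ k ih => intro u _; rw [cnt_succ, ih _ (by omega), ih _ (by omega)]; simp
  | succ j ih =>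
    intro k u hk
    obtain ⟨k, rfl⟩ : ∃ k', k = k' + 1 := ⟨k - 1, by omega⟩
    have := cnt_leibniz h 0 (fun x : ℤ => (x : ℚ) ^ j) k u
    simp only [Int.cast_zero, sub_zero, ← pow_succ'] at this
    rw [this, ih _ _ (by omega), ih _ _ (by omega), if_neg (by omega)]
    by_cases e : j = k
    · simp only [e, if_true, Nat.factorial_succ]
      push_cast
      ring
    · simp [e]

theorem cnt_closed (a : ℕ) (s : ℤ) (n : ℕ) : ∀ u : ℤ, 0 < u → (kap a n (s - u) u : ℚ) =
    (∏ l ∈ Finset.range (n + 1), ((u : ℚ) + l * a)) *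
      (fwdDiff (a : ℤ))^[n] (fun x : ℤ => (if s ≤ x then ((x : ℚ) - s) ^ n else 0) / x) u := by
  induction n with
  | zero =>
    intro u hu
    have : (u : ℚ) ≠ 0 := by exact_mod_cast hu.ne'
    by_cases h : s ≤ u <;> simp [kap, h, this]
  | succ n ih =>
    intro u hu
    have e : (fun x : ℤ => (if s ≤ x then ((x : ℚ) - s) ^ (n + 1) else 0) / x) =
        fun x : ℤ => ((x : ℚ) - s) * ((if s ≤ x then ((x : ℚ) - s) ^ n else 0) / x) := by
      funext x
      split_ifs <;> ring
    have h1 := ih u hu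
    have h2 := ih (u + a) (by omega)
    have p1 := Finset.prod_range_succ (fun l : ℕ => ((u : ℚ) + l * a)) (n + 1)
    have p2 := Finset.prod_range_succ' (fun l : ℕ => ((u : ℚ) + l * a)) (n + 1)
    have p3 : ∏ l ∈ Finset.range (n + 1), (((u + a : ℤ) : ℚ) + l * a) =
        ∏ l ∈ Finset.range (n + 1), ((u : ℚ) + (l + 1 : ℕ) * a) :=
      Finset.prod_congr rfl fun l _ => by push_cast; ring
    rw [p3] at h2
    rw [e, cnt_leibniz, cnt_succ, kap, show s - u - a = s - (u + a) by ring]
    push_cast at *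
    rw [h1, h2]
    generalize (fwdDiff (a : ℤ))^[n] (fun x : ℤ => (if s ≤ x then ((x : ℚ) - s) ^ n else 0) / x) = G
    linear_combination (-(s - u : ℚ) * G u) * p1 - (((n + 1) * a + u - s : ℚ) * G (u + a)) * p2

theorem kap_sum (a n u T : ℕ) (hu : u ≤ a) (hT : n * a + u ≤ T) :
    ((n.factorial : ℤ) ^ 2 * (a : ℤ) ^ n * (u : ℤ) ^ (n + 1)) ≤
      ∑ t ∈ Finset.range T, kap a n ((t : ℤ) + 1 - u) u := by
  rcases Nat.eq_zero_or_pos u with rfl | hu0
  · have key : ∀ (n : ℕ) (c : ℤ), 0 < c → kap a n c 0 = 0 := by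
      intro n c hc
      induction n with
      | zero => simp [kap, hc]
      | succ n ih => simp [kap, ih]
    simp only [Nat.cast_zero, sub_zero]
    rw [Finset.sum_eq_zero fun t _ => key n _ (by omega)]
    simp
  have h1 : (fwdDiff (a : ℤ))^[n] (∑ t ∈ Finset.range T, fun x : ℤ =>
      (if (t : ℤ) + 1 ≤ x then ((x : ℚ) - ((t : ℤ) + 1 : ℤ)) ^ n else 0) / x) u =
      (fwdDiff (a : ℤ))^[n] (∑ i ∈ Finset.range (n + 1),
        (bernoulli i * ((n + 1).choose i) / (n + 1) : ℚ) • fun x : ℤ => (x : ℚ) ^ (n - i)) u := by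
    rw [fwdDiff_iter_eq_sum_shift, fwdDiff_iter_eq_sum_shift]
    refine Finset.sum_congr rfl fun k hk => ?_
    congr 1
    have a1 : k * a ≤ n * a := Nat.mul_le_mul_right _ (Nat.lt_succ_iff.1 (Finset.mem_range.1 hk))
    have a2 : (u : ℤ) + k • (a : ℤ) = (u + k * a : ℕ) := by simp
    rw [a2]
    generalize hx : u + k * a = x
    have a3 : (x : ℚ) ≠ 0 := by exact_mod_cast (by omega : x ≠ 0)
    simp only [Finset.sum_apply, Pi.smul_apply, smul_eq_mul, ← Finset.sum_div, Int.cast_natCast]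
    rw [← Finset.sum_subset (Finset.range_subset_range.2 (by omega : x ≤ T)) (fun t _ ht => by
      rw [if_neg (by simp at ht; omega)]), div_eq_iff a3, Finset.sum_mul]
    have a4 := Finset.sum_range_reflect (fun j : ℕ => (j : ℚ) ^ n) x
    rw [sum_range_pow] at a4
    refine Eq.trans (Finset.sum_congr rfl fun t ht => ?_) (a4.trans
      (Finset.sum_congr rfl fun i hi => ?_))
    · have := Finset.mem_range.1 ht
      rw [if_pos (by omega), Nat.sub_sub, Nat.cast_sub (by omega)]
      push_cast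
      ring
    · rw [show n + 1 - i = n - i + 1 by have := Finset.mem_range.1 hi; omega]
      ring
  rw [fwdDiff_iter_finsetSum, fwdDiff_iter_finsetSum, Finset.sum_apply, Finset.sum_apply,
    Finset.sum_range_succ'] at h1
  simp only [fwdDiff_iter_const_smul, Pi.smul_apply, smul_eq_mul] at h1
  rw [Finset.sum_eq_zero (s := Finset.range n) (fun i hi => by
    have := Finset.mem_range.1 hi
    rw [cnt_pow _ _ _ _ (by omega), if_neg (by omega), mul_zero]),
    cnt_pow _ _ _ _ (by omega), if_pos (by omega)] at h1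
  have h2 : ∀ k : ℕ, ((k + 1).factorial : ℚ) * u ^ (k + 1) ≤
      ∏ l ∈ Finset.range (k + 1), ((u : ℚ) + l * a) := by
    intro k
    have hu' : (u : ℚ) ≤ a := by exact_mod_cast hu
    induction k with
    | zero => simp
    | succ k ih =>
      rw [Finset.prod_range_succ, Nat.factorial_succ]
      calc _ = ((k + 1).factorial : ℚ) * u ^ (k + 1) * (u + (k + 1 : ℕ) * u) := by
            push_cast; ring
        _ ≤ _ := by gcongr
  have h3 : ((∑ t ∈ Finset.range T, kap a n ((t : ℤ) + 1 - u) u : ℤ) : ℚ) =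
      (∏ l ∈ Finset.range (n + 1), ((u : ℚ) + l * a)) * (n.factorial * a ^ n / (n + 1)) := by
    rw [Int.cast_sum, Finset.sum_congr rfl fun (t : ℕ) _ =>
      cnt_closed a ((t : ℤ) + 1) n u (by exact_mod_cast hu0), ← Finset.mul_sum, h1]
    simp
    ring_nf
    simp
  have h4 : (((n.factorial : ℤ) ^ 2 * (a : ℤ) ^ n * (u : ℤ) ^ (n + 1) : ℤ) : ℚ) =
      ((n + 1).factorial * u ^ (n + 1)) * (n.factorial * a ^ n / (n + 1)) := by
    rw [Nat.factorial_succ]
    push_cast
    field_simp
  rw [← Int.cast_le (R := ℚ), h3, h4]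
  exact mul_le_mul_of_nonneg_right (h2 n) (by positivity)

end Vale.Agent.P202
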