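import Mathlib

/-! Hilbert-Samuel multiplicity of a local ring, as a limit of normalised lengths. -/

namespace Vale.Agent.P202

open IsLocalRing Filter

/-- The Krull dimension as a natural number (it is finite for Noetherian local rings). -/
noncomputable def dimNat (A : Type*) [CommRing A] : ℕ :=
  ((ringKrullDim A).unbotD 0).toNat

/-- The normalised length `d! * length(A / a^N) / N^d`, with `d` the Krull dimension. -/
noncomputable def hsSeq (A : Type*) [CommRing A] [IsLocalRing A] (N : ℕ) : ℝ :=
  ((dimNat A).factorial : ℝ) * ((Module.length A (A ⧸ maximalIdeal A ^ N)).toNat : ℝ) /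
    (N : ℝ) ^ dimNat A

/-- The Hilbert-Samuel multiplicity `e(A)`. -/
noncomputable def mult (A : Type*) [CommRing A] [IsLocalRing A] : ℝ :=
  limUnder atTop (hsSeq A)

end Vale.Agent.P202
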