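import Vale.Agent.P202.Core
import Vale.Agent.P202.Localize
import Vale.Agent.P202.BaseChange

/-! Assembly. -/

namespace Vale.Agent.P202

open IsLocalRing Filter Topology

universe u

theorem mult_le_of_core (R S : Type u) [CommRing R] [IsLocalRing R] [IsNoetherianRing R]
    [CommRing S] [IsLocalRing S] [IsNoetherianRing S] [Algebra R S]
    [IsLocalHom (algebraMap R S)] [Module.Flat R S] [PerfectField (ResidueField R)]
    (k : Type*) [Field k] [PerfectField k] (ι : k →+* R)
    (hcore : ∀ (K : Type u) [Field K] [IsAlgClosed K], Nonempty (k →+* K) → CoreIneq K) :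
    mult R ≤ mult S := by
  obtain ⟨S1, _, _, _, K1, _, _, _, hCL, _, _, hm1⟩ :=
    exists_stepA S k ((algebraMap R S).comp ι)
  have := hCL.isNoetherianRing
  let : Algebra R S1 := ((algebraMap S S1).comp (algebraMap R S)).toAlgebra
  have : IsScalarTower R S S1 := IsScalarTower.of_algebraMap_eq fun _ => rfl
  have : IsLocalHom (algebraMap R S1) := RingHom.isLocalHom_comp _ _
  have : Module.Flat R S1 := Module.Flat.trans R S S1
  have hmult : mult S1 = mult S := by rw [mult, mult, (hsSeq_eq_of_flat hm1).2]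
  obtain ⟨S2, _, _, _, w, _, _, _, ⟨L, hL⟩, hw, ⟨L', hL'⟩, hlen⟩ :=
    exists_localization R S1 K1 hCL
  obtain ⟨K, _, R', _, _, S', _, _, _, _, _, f, _, hk, _, hR', hS', _, _, _, hlenR, hmf, hfin⟩ :=
    exists_finite_free_model R S2 k ι L hL
  have hnorm := hR'.exists_normalization
  obtain ⟨hR1, hR2⟩ := tendsto_hsSeq R k ι
  have hseq : hsSeq R' = fun N : ℕ => ((dimNat R').factorial : ℝ) *
      (len R (R ⧸ maximalIdeal R ^ N) : ℝ) / (N : ℝ) ^ dimNat R' := by
    funext N
    rw [← hlenR]
    rfl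
  have hd : dimNat R' = dimNat R := by
    have := hR'.isNoetherianRing
    obtain ⟨ψ, -, -, -, -, h1, h2⟩ := hnorm
    apply le_antisymm
    · obtain ⟨c, hc⟩ := stepA_growth R
      rw [hseq] at h2
      exact stepA_deg_le h2 (by exact_mod_cast h1) (Eventually.of_forall hc)
    · obtain ⟨c, hc⟩ := stepA_growth R'
      simp only [hlenR] at hc
      exact stepA_deg_le hR1 hR2 (Eventually.of_forall hc)
  rw [hseq, hd] at hnorm
  obtain ⟨ψ, hψfin, -, -, hC, -, h2⟩ := hnorm
  let := ψ.toRingHom.toAlgebra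
  have : IsScalarTower K (PS K (dimNat R)) R' :=
    IsScalarTower.of_algebraMap_eq fun a => (ψ.commutes a).symm
  have : Module.Finite (PS K (dimNat R)) R' := hψfin
  have hρ : mult R = (Module.finrank (PS K (dimNat R)) R' : ℝ) := tendsto_nhds_unique hR1 h2
  have hspan : ∀ n, (powIdeal w n).map f = powIdeal (f ∘ w) n := by
    intro n
    rw [powIdeal, powIdeal, Ideal.map_span, ← Set.range_comp]
    congr 2
    funext i
    simp
  have hcore' := hcore K hk (dimNat R) R' S' hS'.res hC (f ∘ w)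
    (fun i => hmf ▸ Ideal.mem_map_of_mem f (hw i))
    ⟨L', by
      rw [← hmf, ← Ideal.map_pow, Set.range_comp, ← Ideal.map_span]
      exact Ideal.map_mono hL'⟩
  rw [hρ, ← hmult]
  refine le_of_forall_pos_le_add fun ε hε => ?_
  obtain ⟨n, hn, hn0⟩ := ((hlen ε hε).and (eventually_gt_atTop 0)).exists
  have h3 := hcore' n
  have h4 : maximalIdeal S2 ^ (L' * (dimNat R * n + 1)) ≤ powIdeal w n := by
    rw [pow_mul]
    exact (Ideal.pow_right_mono hL' _).trans (span_pow_le_powIdeal w n)
  rw [← hspan, hfin _ _ h4] at h3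
  have h5 : (Module.finrank (PS K (dimNat R)) R' : ℝ) * (n : ℝ) ^ dimNat R ≤
      (mult S1 + ε) * (n : ℝ) ^ dimNat R := le_trans (by exact_mod_cast h3) hn
  exact le_of_mul_le_mul_right h5 (by positivity)

end Vale.Agent.P202
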