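import Mathlib

/-! Filtration lemmas and monomial counting for lengths of quotients. -/

namespace Vale.Agent.P202

open IsLocalRing Filter Topology Module

section Filt

variable {T : Type*} [CommRing T] {M : Type*} [AddCommGroup M] [Module T M]

theorem gr_step {Q : Type*} [AddCommGroup Q] [Module T Q] (W W' : Submodule T M)
    (g : Q →ₗ[T] M ⧸ W) (h : ∀ x ∈ W', W.mkQ x ∈ LinearMap.range g) :
    length T (M ⧸ W) ≤ length T (M ⧸ W') + length T Q := by
  rw [length_eq_add_of_exact (LinearMap.range g).subtype (LinearMap.range g).mkQ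
    (Submodule.subtype_injective _) (Submodule.mkQ_surjective _)
    (LinearMap.exact_subtype_mkQ _), add_comm]
  refine add_le_add (length_le_of_surjective (W'.liftQ ((LinearMap.range g).mkQ ∘ₗ W.mkQ) ?_) ?_)
    (length_le_of_surjective g.rangeRestrict g.surjective_rangeRestrict)
  · intro x hx
    exact (Submodule.Quotient.mk_eq_zero _).mpr (h x hx)
  · intro z
    obtain ⟨y, rfl⟩ := Submodule.mkQ_surjective _ z
    obtain ⟨x, rfl⟩ := Submodule.mkQ_surjective _ y
    exact ⟨W'.mkQ x, rfl⟩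

theorem gr_anti {W W' : Submodule T M} (h : W ≤ W') : length T (M ⧸ W') ≤ length T (M ⧸ W) :=
  length_le_of_surjective (Submodule.factor h) (Submodule.factor_surjective h)

theorem gr_step_map {P : Type*} [AddCommGroup P] [Module T P] (U : Submodule T P)
    (W W' : Submodule T M) (f : P →ₗ[T] M) (hU : U ≤ W.comap f) (h : W' ≤ W ⊔ LinearMap.range f) :
    length T (M ⧸ W) ≤ length T (M ⧸ W') + length T (P ⧸ U) := by
  refine gr_step W W' (U.mapQ W f hU) fun x hx => ?_
  obtain ⟨a, ha, _, ⟨y, rfl⟩, rfl⟩ := Submodule.mem_sup.mp (h hx)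
  refine ⟨U.mkQ y, ?_⟩
  rw [map_add, Submodule.mkQ_apply W a, (Submodule.Quotient.mk_eq_zero _).mpr ha, zero_add]
  rfl

theorem gr_step_fam {ι : Type*} [Fintype ι] (J : Ideal T) (W W' : Submodule T M) (v : ι → M)
    (hJ : ∀ i, ∀ a ∈ J, a • v i ∈ W) (h : W' ≤ W ⊔ Submodule.span T (Set.range v)) :
    length T (M ⧸ W) ≤ length T (M ⧸ W') + Fintype.card ι * length T (T ⧸ J) := by
  classical
  let g : (ι → T ⧸ J) →ₗ[T] M ⧸ W := ∑ i,
    Submodule.mapQ J W (LinearMap.toSpanSingleton T M (v i)) (hJ i) ∘ₗ LinearMap.proj i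
  have := gr_step W W' g fun x hx => by
    obtain ⟨a, ha, y, hy, rfl⟩ := Submodule.mem_sup.mp (h hx)
    obtain ⟨c, rfl⟩ := (Submodule.mem_span_range_iff_exists_fun T).mp hy
    refine ⟨fun i => Submodule.Quotient.mk (c i), ?_⟩
    rw [map_add, Submodule.mkQ_apply W a, (Submodule.Quotient.mk_eq_zero _).mpr ha, zero_add,
      map_sum, LinearMap.sum_apply]
    rfl
  simpa [length_pi_of_fintype] using this

theorem gr_top : length T (M ⧸ (⊤ : Submodule T M)) = 0 := length_eq_zero

theorem gr_fin [Module.Finite T M] : ∃ ν : ℕ, ∀ J : Ideal T,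
    length T (M ⧸ J • (⊤ : Submodule T M)) ≤ ν * length T (T ⧸ J) := by
  obtain ⟨ν, v, hv⟩ := Module.Finite.exists_fin (R := T) (M := M)
  refine ⟨ν, fun J => ?_⟩
  simpa [gr_top] using gr_step_fam J (J • ⊤) ⊤ v
    (fun i a ha => Submodule.smul_mem_smul ha trivial) (by rw [hv]; exact le_sup_right)

end Filt

section Mon

variable {T : Type*} [CommRing T] {M : Type*} [AddCommGroup M] [Module T M] {d : ℕ}

/-- the monomial in a family of ring elements -/
def mon (y : Fin d → T) (α : Fin d →₀ ℕ) : T := ∏ i, y i ^ α i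

/-- the ideal generated by a set of monomials -/
def monI (y : Fin d → T) (S : Set (Fin d →₀ ℕ)) : Ideal T := Ideal.span (mon y '' S)

theorem mon_add (y : Fin d → T) (α β : Fin d →₀ ℕ) : mon y (α + β) = mon y α * mon y β := by
  simp [mon, pow_add, Finset.prod_mul_distrib]

theorem mon_zero (y : Fin d → T) : mon y 0 = 1 := by simp [mon]

theorem mon_single (y : Fin d → T) (i : Fin d) (n : ℕ) : mon y (Finsupp.single i n) = y i ^ n := by
  rw [mon, Finset.prod_eq_single i (fun j _ hj => by simp [Finsupp.single_eq_of_ne hj]) (by simp)]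
  simp

theorem mon_mem {y : Fin d → T} {S : Set (Fin d →₀ ℕ)} {α : Fin d →₀ ℕ} (h : α ∈ S) :
    mon y α ∈ monI y S := Ideal.subset_span ⟨α, h, rfl⟩

theorem monI_mono (y : Fin d → T) {S S' : Set (Fin d →₀ ℕ)} (h : S ⊆ S') : monI y S ≤ monI y S' :=
  Ideal.span_mono (Set.image_mono h)

theorem monI_le {y : Fin d → T} {S : Set (Fin d →₀ ℕ)} {J : Ideal T} (h : ∀ α ∈ S, mon y α ∈ J) :
    monI y S ≤ J := Ideal.span_le.mpr (by rintro _ ⟨α, hα, rfl⟩; exact h α hα)

theorem mul_mon_mem {y : Fin d → T} {r : T} (hr : r ∈ Ideal.span (Set.range y)) (α : Fin d →₀ ℕ) :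
    r * mon y α ∈ monI y {β | β.degree = α.degree + 1} := by
  obtain ⟨c, rfl⟩ := (Submodule.mem_span_range_iff_exists_fun T).mp hr
  rw [Finset.sum_mul]
  refine Ideal.sum_mem _ fun i _ => ?_
  have : y i * mon y α = mon y (α + Finsupp.single i 1) := by
    rw [mon_add, mon_single, pow_one, mul_comm]
  rw [smul_eq_mul, mul_assoc, this]
  exact Ideal.mul_mem_left _ _ (mon_mem (by simp))

theorem mon_mem_pow (y : Fin d → T) (α : Fin d →₀ ℕ) :
    mon y α ∈ Ideal.span (Set.range y) ^ α.degree := by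
  rw [Finsupp.degree_eq_sum, ← Finset.prod_pow_eq_pow_sum]
  exact Ideal.prod_mem_prod fun i _ => Ideal.pow_mem_pow (Ideal.subset_span (Set.mem_range_self i)) _

theorem span_pow_eq_monI (y : Fin d → T) (n : ℕ) :
    Ideal.span (Set.range y) ^ n = monI y {α | α.degree = n} := by
  refine le_antisymm ?_ (monI_le fun α hα => hα ▸ mon_mem_pow y α)
  induction n with
  | zero =>
    exact le_top.trans ((Ideal.eq_top_iff_one _).mpr (mon_zero y ▸ mon_mem (by simp))).ge
  | succ n ih =>
    rw [pow_succ']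
    refine (Ideal.mul_mono_right ih).trans (Ideal.mul_le.mpr fun r hr s hs => ?_)
    induction hs using Submodule.span_induction with
    | mem x hx =>
      obtain ⟨α, hα, rfl⟩ := hx
      exact (show α.degree = n from hα) ▸ mul_mon_mem hr α
    | zero => simp
    | add x z _ _ hx hz => rw [mul_add]; exact add_mem hx hz
    | smul a x _ hx => rw [smul_eq_mul, mul_left_comm]; exact Ideal.mul_mem_left _ _ hx

/-- a degree compatible monomial order -/
structure IsOrd {κ : Type} [LinearOrder κ] (o : (Fin d →₀ ℕ) → κ) : Prop where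
  deg : ∀ {α β}, α.degree < β.degree → o α < o β
  inj : Function.Injective o
  add : ∀ {α β} (γ), o α < o β → o (α + γ) < o (β + γ)

theorem exists_isOrd (d : ℕ) :
    ∃ (κ : Type) (_ : LinearOrder κ) (o : (Fin d →₀ ℕ) → κ), IsOrd o :=
  ⟨DegLex (Fin d →₀ ℕ), inferInstance, toDegLex, fun h => Finsupp.DegLex.lt_iff.mpr (Or.inl h),
    toDegLex_injective, fun γ h => add_lt_add_left h (toDegLex γ)⟩

variable {κ : Type} [LinearOrder κ] {o : (Fin d →₀ ℕ) → κ}

theorem gr_mono (ho : IsOrd o) (y : Fin d → T) (J : Ideal T) (B : (Fin d →₀ ℕ) → Prop) [DecidablePred B]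
    (hB : ∀ α, B α → mon y α ∈ J ⊔ monI y {β | o α < o β})
    (S : Finset (Fin d →₀ ℕ)) :
    length T (M ⧸ (J ⊔ monI y (S : Set (Fin d →₀ ℕ))ᶜ) • (⊤ : Submodule T M)) ≤
      (S.filter fun α => ¬ B α).card *
        length T (M ⧸ Ideal.span (Set.range y) • (⊤ : Submodule T M)) := by
  classical
  induction S using Finset.induction_on_max_value o with
  | empty =>
    have : J ⊔ monI y ((∅ : Finset (Fin d →₀ ℕ)) : Set (Fin d →₀ ℕ))ᶜ = ⊤ :=
      (Ideal.eq_top_iff_one _).mpr
        (Ideal.mem_sup_right (mon_zero y ▸ mon_mem (by simp)))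
    rw [this, Submodule.top_smul, gr_top]
    exact zero_le
  | insert a S ha hmax ih =>
    have h1 : monI y {β | o a < o β} ≤
        monI y ((insert a S : Finset (Fin d →₀ ℕ)) : Set (Fin d →₀ ℕ))ᶜ := by
      refine monI_mono y fun β (hβ : o a < o β) hβ' => ?_
      rcases Finset.mem_insert.mp hβ' with rfl | h
      · exact lt_irrefl _ hβ
      · exact not_le.mpr hβ (hmax β h)
    have h2 : J ⊔ monI y (S : Set (Fin d →₀ ℕ))ᶜ ≤
        (J ⊔ monI y ((insert a S : Finset (Fin d →₀ ℕ)) : Set (Fin d →₀ ℕ))ᶜ) ⊔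
          Ideal.span {mon y a} := by
      refine sup_le (le_sup_of_le_left le_sup_left) (monI_le fun β hβ => ?_)
      by_cases e : β = a
      · exact Ideal.mem_sup_right (e ▸ Ideal.mem_span_singleton_self _)
      · exact Ideal.mem_sup_left (Ideal.mem_sup_right (mon_mem (by simpa [e] using hβ)))
    rw [Finset.filter_insert]
    by_cases hb : B a
    · rw [if_neg (not_not.mpr hb)]
      refine (gr_anti (Submodule.smul_mono_left (h2.trans (sup_le le_rfl ?_)))).trans ih
      rw [Ideal.span_singleton_le_iff_mem]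
      exact sup_le_sup_left h1 J (hB a hb)
    · rw [if_pos hb, Finset.card_insert_of_notMem (fun h => ha (Finset.mem_filter.mp h).1),
        Nat.cast_succ, add_mul, one_mul]
      refine (gr_step_map (Ideal.span (Set.range y) • ⊤) _
        ((J ⊔ monI y (S : Set (Fin d →₀ ℕ))ᶜ) • ⊤) (LinearMap.lsmul T M (mon y a)) ?_ ?_).trans
        (add_le_add_left ih _)
      · refine Submodule.smul_le.mpr fun r hr x _ => ?_
        rw [Submodule.mem_comap, LinearMap.lsmul_apply, smul_smul, mul_comm]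
        refine Submodule.smul_mem_smul (Ideal.mem_sup_right (h1 (monI_mono y ?_
          (mul_mon_mem hr a)))) trivial
        exact fun β hβ => ho.deg (by rw [show β.degree = _ from hβ]; omega)
      · refine Submodule.smul_le.mpr fun r hr x _ => ?_
        obtain ⟨r1, hr1, r2, hr2, rfl⟩ := Submodule.mem_sup.mp (h2 hr)
        obtain ⟨c, rfl⟩ := Ideal.mem_span_singleton'.mp hr2
        rw [add_smul]
        exact Submodule.add_mem_sup (Submodule.smul_mem_smul hr1 trivial)
          ⟨c • x, by rw [LinearMap.lsmul_apply, smul_smul, mul_comm]⟩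

theorem gr_mono' (y : Fin d → T) (S : Finset (Fin d →₀ ℕ)) (I : Ideal T)
    (hI : ∀ α ∉ S, mon y α ∈ I) :
    length T (M ⧸ I • (⊤ : Submodule T M)) ≤
      S.card * length T (M ⧸ Ideal.span (Set.range y) • (⊤ : Submodule T M)) := by
  obtain ⟨κ, _, o, ho⟩ := exists_isOrd d
  have := gr_mono (M := M) ho y ⊥ (fun _ => False) (fun _ h => h.elim) S
  rw [Finset.filter_true_of_mem (by simp)] at this
  exact (gr_anti (Submodule.smul_mono_left (sup_le bot_le (monI_le hI)))).trans this

/-- initial monomial of an element outside a power of the maximal ideal -/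
theorem exists_init [IsLocalRing T] (ho : IsOrd o) (w : Fin d → T)
    (hw : Ideal.span (Set.range w) = maximalIdeal T) (g : T) (γ : ℕ)
    (hg : g ∉ maximalIdeal T ^ (γ + 1)) : ∃ α0 : Fin d →₀ ℕ, ∀ α, α0 ≤ α →
      mon w α ∈ Ideal.span {g} ⊔ monI w {β | o α < o β} := by
  classical
  have hex : ∃ n, g ∉ maximalIdeal T ^ (n + 1) := ⟨γ, hg⟩
  have h1 := Nat.find_spec hex
  have h2 : g ∈ maximalIdeal T ^ Nat.find hex := by
    rcases h : Nat.find hex with _ | n
    · simp
    · exact not_not.mp (Nat.find_min hex (by omega))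
  generalize Nat.find hex = n at h1 h2
  rw [← hw] at h1 h2
  obtain ⟨f, hf, rfl⟩ := (Ideal.mem_span_pow_iff_exists_isHomogeneous w g).mp h2
  have hdeg : ∀ α ∈ f.support, α.degree = n := fun α hα => by
    rw [Finsupp.degree_eq_weight_one]
    exact hf (MvPolynomial.mem_support_iff.mp hα)
  have hev : f.eval w = ∑ α ∈ f.support, f.coeff α * mon w α := MvPolynomial.eval_eq' w f
  have hne : (f.support.filter fun α => IsUnit (f.coeff α)).Nonempty := by
    by_contra hc
    refine h1 (hev ▸ Ideal.sum_mem _ fun α hα => ?_)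
    rw [pow_succ', ← hdeg α hα]
    refine Ideal.mul_mem_mul ?_ (mon_mem_pow w α)
    rw [hw]
    exact fun h => hc ⟨α, Finset.mem_filter.mpr ⟨hα, h⟩⟩
  obtain ⟨α0, hα0, hmin⟩ := Finset.exists_min_image _ o hne
  obtain ⟨a1, u, hu⟩ := Finset.mem_filter.mp hα0
  refine ⟨α0, fun α hα => ?_⟩
  obtain ⟨β, rfl⟩ := exists_add_of_le hα
  rw [← Ideal.unit_mul_mem_iff_mem _ u.isUnit, hu]
  have h3 : f.coeff α0 * mon w (α0 + β) = f.eval w * mon w β -
      ∑ α ∈ f.support.erase α0, f.coeff α * mon w (α + β) := by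
    rw [hev, ← Finset.add_sum_erase _ _ a1, add_mul, Finset.sum_mul]
    simp only [mon_add, mul_assoc, add_sub_cancel_right]
  rw [h3]
  refine sub_mem (Ideal.mem_sup_left (Ideal.mul_mem_right _ _ (Ideal.mem_span_singleton_self _)))
    (Ideal.mem_sup_right (Ideal.sum_mem _ fun α hα => ?_))
  obtain ⟨b1, b2⟩ := Finset.mem_erase.mp hα
  by_cases hc : IsUnit (f.coeff α)
  · refine Ideal.mul_mem_left _ _ (mon_mem ?_)
    have := lt_of_le_of_ne (hmin α (Finset.mem_filter.mpr ⟨b2, hc⟩))
      (fun h => b1 (ho.inj h).symm)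
    exact ho.add β this
  · refine monI_mono w (fun δ hδ => ho.deg ?_) (mul_mon_mem (hw ▸ hc) (α + β))
    rw [show δ.degree = _ from hδ, map_add, map_add, hdeg α b2, hdeg α0 a1]
    omega

end Mon

section Count

variable {d : ℕ}

/-- exponents bounded coordinatewise -/
noncomputable def boxF (c : Fin d → ℕ) : Finset (Fin d →₀ ℕ) :=
  (Fintype.piFinset fun i => Finset.range (c i)).map Finsupp.equivFunOnFinite.symm.toEmbedding

theorem mem_boxF {c : Fin d → ℕ} {α : Fin d →₀ ℕ} : α ∈ boxF c ↔ ∀ i, α i < c i := by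
  simp [boxF, Finset.mem_map_equiv]

theorem card_boxF (c : Fin d → ℕ) : (boxF c).card = ∏ i, c i := by
  simp [boxF]

/-- exponents of bounded degree -/
noncomputable def triF (d N : ℕ) : Finset (Fin d →₀ ℕ) :=
  (Finset.range N).biUnion fun i => Finset.finsuppAntidiag Finset.univ i

theorem mem_triF {N : ℕ} {α : Fin d →₀ ℕ} : α ∈ triF d N ↔ α.degree < N := by
  simp [triF, Finsupp.degree_eq_sum]

theorem card_triF (d N : ℕ) : d.factorial * (triF d (N + 1)).card = (N + 1).ascFactorial d := by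
  rw [triF, Finset.card_biUnion, Nat.ascFactorial_eq_factorial_mul_choose,
    ← Nat.sum_range_multichoose]
  · simp [Finset.card_finsuppAntidiag_nat_eq_multichoose]
  · intro i _ j _ hij
    refine Finset.disjoint_left.mpr fun α h1 h2 => hij ?_
    exact (Finset.mem_finsuppAntidiag.mp h1).1.symm.trans (Finset.mem_finsuppAntidiag.mp h2).1

theorem card_box_filter (α0 : Fin d →₀ ℕ) (n : ℕ) :
    n * ((boxF fun _ => n).filter fun α => ¬ α0 ≤ α).card ≤ α0.degree * n ^ d := by
  classical
  have h1 : ((boxF fun _ => n).filter fun α => ¬ α0 ≤ α) ⊆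
      Finset.univ.biUnion fun i => boxF (Function.update (fun _ => n) i (α0 i)) := by
    intro α hα
    obtain ⟨a1, a2⟩ := Finset.mem_filter.mp hα
    obtain ⟨i, hi⟩ := not_forall.mp a2
    refine Finset.mem_biUnion.mpr ⟨i, Finset.mem_univ _, mem_boxF.mpr fun j => ?_⟩
    by_cases e : j = i
    · subst e; simpa using hi
    · simpa [e] using mem_boxF.mp a1 j
  refine (Nat.mul_le_mul_left n ((Finset.card_le_card h1).trans Finset.card_biUnion_le)).trans ?_
  rw [Finsupp.degree_eq_sum, Finset.sum_mul, Finset.mul_sum]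
  refine Finset.sum_le_sum fun i _ => le_of_eq ?_
  have : n ^ d = n * ∏ j ∈ Finset.univ \ {i}, n := by
    rw [← Finset.prod_eq_mul_prod_diff_singleton_of_mem (Finset.mem_univ i) (fun _ => n)]; simp
  rw [card_boxF, Finset.prod_update_of_mem (Finset.mem_univ i), this, mul_left_comm]

theorem eventually_le_of_mul_le (C d : ℕ) (a : ℕ → ℕ) (h : ∀ n, n * a n ≤ C * n ^ d) (ε : ℝ)
    (hε : 0 < ε) : ∀ᶠ n : ℕ in atTop, (a n : ℝ) ≤ ε * (n : ℝ) ^ d := by
  filter_upwards [eventually_gt_atTop 0, tendsto_natCast_atTop_atTop.eventually_ge_atTop (C / ε)]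
    with n h1 h2
  have h3 : (0 : ℝ) < n := by exact_mod_cast h1
  have h4 : (n : ℝ) * a n ≤ C * n ^ d := by exact_mod_cast h n
  rw [div_le_iff₀ hε] at h2
  refine le_of_mul_le_mul_left (h4.trans ?_) h3
  rw [← mul_assoc]
  gcongr

theorem tendsto_card_triF (d : ℕ) :
    Tendsto (fun N : ℕ => (d.factorial : ℝ) * (triF d N).card / (N : ℝ) ^ d) atTop (𝓝 1) := by
  have h1 : Tendsto (fun N : ℕ => (1 + (d : ℝ) / N) ^ d) atTop (𝓝 1) := by
    simpa using ((tendsto_const_div_atTop_nhds_zero_nat (d : ℝ)).const_add 1).pow d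
  refine tendsto_of_tendsto_of_tendsto_of_le_of_le' tendsto_const_nhds h1 ?_ ?_
  all_goals
    filter_upwards [eventually_gt_atTop 0] with N hN
    obtain ⟨N, rfl⟩ := Nat.exists_eq_succ_of_ne_zero hN.ne'
    have h3 : (0 : ℝ) < (N + 1 : ℕ) := by exact_mod_cast hN
    rw [← Nat.cast_mul, card_triF]
  · rw [le_div_iff₀ (by positivity), one_mul]
    exact_mod_cast Nat.pow_succ_le_ascFactorial (N + 1) d
  · rw [div_le_iff₀ (by positivity), ← mul_pow, add_mul, one_mul, div_mul_cancel₀ _ h3.ne']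
    exact_mod_cast (Nat.ascFactorial_le_pow_add N d).trans (Nat.pow_le_pow_left (by omega) d)

end Count

end Vale.Agent.P202
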