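import Mathlib

/-! Laurent series with coefficients in a module. -/

namespace Vale.Agent.P202

open HahnSeries

variable {L V : Type*} [CommRing L] [AddCommGroup V] [Module L V]

/-- Laurent series with coefficients in a module. -/
abbrev HS (L V : Type*) [CommRing L] [AddCommGroup V] [Module L V] : Type _ := HahnModule ℤ L V

/-- coefficients. -/
noncomputable def co (x : HS L V) (t : ℤ) : V := ((HahnModule.of L).symm x).coeff t

theorem HS.ext' {x y : HS L V} (h : ∀ t, co x t = co y t) : x = y :=
  HahnModule.ext x y (funext h)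

@[simp] theorem co_zero (t : ℤ) : co (0 : HS L V) t = 0 := rfl

@[simp] theorem co_add (x y : HS L V) (t : ℤ) : co (x + y) t = co x t + co y t := rfl

@[simp] theorem co_sub (x y : HS L V) (t : ℤ) : co (x - y) t = co x t - co y t := by
  simp [co]

/-- coefficients as an additive map. -/
noncomputable def coHom (t : ℤ) : HS L V →+ V where
  toFun x := co x t
  map_zero' := co_zero t
  map_add' x y := co_add x y t

theorem co_sum {ι : Type*} (s : Finset ι) (x : ι → HS L V) (t : ℤ) :
    co (∑ i ∈ s, x i) t = ∑ i ∈ s, co (x i) t :=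
  map_sum (coHom t) x s

theorem exists_co_eq_zero (x : HS L V) : ∃ τ : ℤ, ∀ t < τ, co x t = 0 :=
  ⟨((HahnModule.of L).symm x).order, fun _ ht => HahnSeries.coeff_eq_zero_of_lt_order ht⟩

/-- a series from a family of coefficients vanishing in low degrees. -/
noncomputable def HS.mk (f : ℤ → V) (h : ∃ τ : ℤ, ∀ t < τ, f t = 0) : HS L V :=
  HahnModule.of L (HahnSeries.ofSuppBddBelow f (by
    obtain ⟨τ, hτ⟩ := h
    exact ⟨τ, fun t ht => not_lt.mp fun h => ht (hτ t h)⟩))

@[simp] theorem co_mk (f : ℤ → V) (h : ∃ τ : ℤ, ∀ t < τ, f t = 0) (t : ℤ) :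
    co (HS.mk (L := L) f h) t = f t := rfl

theorem co_smul_mem (W : AddSubgroup V) (f : HahnSeries ℤ L) (x : HS L V) (t : ℤ)
    (h : ∀ s, f.coeff s ≠ 0 → co x (t - s) ≠ 0 → f.coeff s • co x (t - s) ∈ W) :
    co (f • x) t ∈ W := by
  unfold co
  rw [HahnModule.coeff_smul]
  refine W.sum_mem fun ij hij => ?_
  rw [Finset.mem_vaddAntidiagonal] at hij
  obtain ⟨h1, h2, h3⟩ := hij
  have h4 : ij.2 = t - ij.1 := by rw [← h3, vadd_eq_add]; ring
  rw [h4] at h2 ⊢
  exact h ij.1 h1 h2

theorem co_single_smul (s : ℤ) (b : L) (x : HS L V) (t : ℤ) :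
    co (HahnSeries.single s b • x) t = b • co x (t - s) := by
  have := HahnModule.coeff_single_smul_vadd (r := b) (x := x) (a := t - s) (b := s)
  rw [vadd_eq_add, add_sub_cancel] at this
  exact this

/-- coefficientwise application of a linear map. -/
noncomputable def hmap (φ : V →ₗ[L] V) : HS L V →ₗ[HahnSeries ℤ L] HS L V where
  toFun x := HahnModule.of L (((HahnModule.of L).symm x).map φ)
  map_add' x y := HS.ext' fun t => map_add φ (co x t) (co y t)
  map_smul' f x := HS.ext' fun t => by
    change φ (co (f • x) t) = co (f • HahnModule.of L (((HahnModule.of L).symm x).map φ)) t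
    unfold co
    rw [HahnModule.coeff_smul, HahnModule.coeff_smul_right
      (s := ((HahnModule.of L).symm x).support) ((HahnModule.of L).symm x).isPWO_support, map_sum]
    · exact Finset.sum_congr rfl fun ij _ => map_smul φ _ _
    · intro s hs h0
      apply hs
      change φ _ = 0
      rw [h0, map_zero]

@[simp] theorem co_hmap (φ : V →ₗ[L] V) (x : HS L V) (t : ℤ) : co (hmap φ x) t = φ (co x t) := rfl

/-- the lowest coefficient of a product. -/
theorem co_smul_lowest (f : HahnSeries ℤ L) (x : HS L V) (c τ : ℤ) (hf : ∀ s < c, f.coeff s = 0)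
    (hx : ∀ t < τ, co x t = 0) : co (f • x) (τ + c) = f.coeff c • co x τ := by
  have h1 : f = HahnSeries.single c (f.coeff c) + (f - HahnSeries.single c (f.coeff c)) := by ring
  have h2 : co ((f - HahnSeries.single c (f.coeff c)) • x) (τ + c) ∈ (⊥ : AddSubgroup V) := by
    refine co_smul_mem ⊥ _ x _ fun s hs hs' => ?_
    exfalso
    rcases lt_trichotomy s c with h | h | h
    · apply hs
      simp [hf s h, HahnSeries.coeff_single_of_ne h.ne]
    · apply hs
      simp [h]
    · exact hs' (hx _ (by omega))
  rw [AddSubgroup.mem_bot] at h2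
  conv_lhs => rw [h1, add_smul, co_add, h2, add_zero, co_single_smul, add_sub_cancel_right]

theorem co_smul_eq_zero (f : HahnSeries ℤ L) (x : HS L V) (c τ : ℤ) (hf : ∀ s < c, f.coeff s = 0)
    (hx : ∀ t < τ, co x t = 0) (t : ℤ) (ht : t < τ + c) : co (f • x) t = 0 := by
  rw [← AddSubgroup.mem_bot]
  refine co_smul_mem ⊥ _ x _ fun s hs hs' => ?_
  exfalso
  by_cases h : s < c
  · exact hs (hf s h)
  · exact hs' (hx _ (by omega))

/-- the coefficients of a series times a constant. -/
theorem co_smul_single (f : HahnSeries ℤ L) (v : V) (t : ℤ) :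
    co (f • HahnModule.of L (HahnSeries.single (0 : ℤ) v)) t = f.coeff t • v := by
  have h1 : f = HahnSeries.single t (f.coeff t) + (f - HahnSeries.single t (f.coeff t)) := by ring
  have h2 : co ((f - HahnSeries.single t (f.coeff t)) •
      HahnModule.of L (HahnSeries.single (0 : ℤ) v)) t ∈ (⊥ : AddSubgroup V) := by
    refine co_smul_mem ⊥ _ _ _ fun s hs hs' => ?_
    exfalso
    by_cases h : s = t
    · apply hs
      simp [h]
    · apply hs'
      exact HahnSeries.coeff_single_of_ne (by omega)
  rw [AddSubgroup.mem_bot] at h2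
  conv_lhs => rw [h1, add_smul, co_add, h2, add_zero, co_single_smul, sub_self]
  simp [co]

theorem coeff_ofPowerSeries_neg (f : PowerSeries L) {s : ℤ} (hs : s < 0) :
    (HahnSeries.ofPowerSeries ℤ L f).coeff s = 0 := by
  have := PowerSeries.coeff_coe f s
  rw [if_pos hs] at this
  exact this

end Vale.Agent.P202
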