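import Mathlib

/-! Existence of a Koszul type complex, in matrix form. -/

namespace Vale.Agent.P202

/-- `x` is null-homotopic on the complex `φ` in all positive levels. -/
def NullHtpy {T : Type*} [CommRing T] {β : ℕ → Type} [∀ i, Fintype (β i)] [∀ i, DecidableEq (β i)]
    (φ : ∀ i, Matrix (β i) (β (i + 1)) T) (x : T) : Prop :=
  ∃ h : ∀ i, Matrix (β (i + 1)) (β i) T,
    ∀ i, φ (i + 1) * h (i + 1) + h i * φ i = x • (1 : Matrix (β (i + 1)) (β (i + 1)) T)

theorem NullHtpy.of_mem_span {T : Type*} [CommRing T] {β : ℕ → Type} [∀ i, Fintype (β i)]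
    [∀ i, DecidableEq (β i)] (φ : ∀ i, Matrix (β i) (β (i + 1)) T) {s : Set T}
    (hs : ∀ x ∈ s, NullHtpy φ x) {x : T} (hx : x ∈ Ideal.span s) : NullHtpy φ x := by
  induction hx using Submodule.span_induction with
  | mem x hx => exact hs x hx
  | zero => exact ⟨fun _ => 0, fun i => by simp⟩
  | add x y _ _ hx hy =>
    obtain ⟨h, hh⟩ := hx
    obtain ⟨h', hh'⟩ := hy
    refine ⟨fun i => h i + h' i, fun i => ?_⟩
    rw [add_smul, ← hh, ← hh', Matrix.mul_add, Matrix.add_mul]
    abel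
  | smul a x _ hx =>
    obtain ⟨h, hh⟩ := hx
    refine ⟨fun i => a • h i, fun i => ?_⟩
    rw [smul_eq_mul, mul_smul, ← hh, Matrix.mul_smul, Matrix.smul_mul, smul_add]

/-- the total Koszul complex, graded by a degree function -/
theorem exists_koszul_total (T : Type*) [CommRing T] (d : ℕ) (w : Fin d → T) :
    ∃ (B : Type) (_ : Fintype B) (_ : DecidableEq B) (deg : B → ℕ) (Ψ : Matrix B B T) (b0 : B)
      (e : Fin d → B), (∀ b, deg b ≤ d) ∧ (∀ b, deg b = 0 ↔ b = b0) ∧ Function.Injective e ∧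
      (∀ b, deg b = 1 ↔ b ∈ Set.range e) ∧ (∀ r s, deg s ≠ deg r + 1 → Ψ r s = 0) ∧ Ψ * Ψ = 0 ∧
      (∀ j, Ψ b0 (e j) = w j) ∧ (∀ j s, Ψ (e j) s ∈ Ideal.span (w '' {i | i ≠ j})) ∧
      ∀ j, ∃ H : Matrix B B T, (∀ r s, deg r ≠ deg s + 1 → H r s = 0) ∧
        Ψ * H + H * Ψ = w j • (1 : Matrix B B T) := by
  induction d with
  | zero =>
    exact ⟨Unit, inferInstance, inferInstance, fun _ => 0, 0, (), Fin.elim0, by simp, by simp,
      fun i => i.elim0, by simp, by simp, by simp, fun i => i.elim0, fun i => i.elim0,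
      fun i => i.elim0⟩
  | succ d ih =>
    obtain ⟨B, _, _, deg, Ψ, b0, e, h1, h2, h3, h4, h5, h6, h7, h8, h9⟩ := ih (Fin.tail w)
    refine ⟨B ⊕ B, inferInstance, inferInstance, Sum.elim deg fun b => deg b + 1,
      Matrix.fromBlocks Ψ (w 0 • 1) 0 (-Ψ), .inl b0, Fin.cons (.inr b0) fun j => .inl (e j),
      ?_, ?_, ?_, ?_, ?_, ?_, ?_, ?_, ?_⟩
    · rintro (b | b)
      · exact (h1 b).trans (Nat.le_succ _)
      · exact Nat.succ_le_succ (h1 b)
    · rintro (b | b) <;> simp [h2]
    · rw [Fin.cons_injective_iff]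
      exact ⟨by simp, Sum.inl_injective.comp h3⟩
    · rintro (b | b)
      · simp [h4, Fin.exists_fin_succ]
      · simp [h2, Fin.exists_fin_succ, eq_comm]
    · rintro (r | r) (s | s) h
      · exact h5 r s h
      · have : r ≠ s := by rintro rfl; exact h rfl
        simp [Matrix.one_apply_ne this]
      · rfl
      · simp [h5 r s (by simpa using h)]
    · rw [Matrix.fromBlocks_multiply]
      simp [h6]
    · intro j
      refine Fin.cases ?_ (fun j => ?_) j
      · simp
      · simpa [Fin.tail] using h7 j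
    · intro j
      refine Fin.cases ?_ (fun j => ?_) j
      · rintro (s | s)
        · simp
        · simp only [Fin.cons_zero, Matrix.fromBlocks_apply₂₂, Matrix.neg_apply, neg_mem_iff]
          by_cases hs : deg s = 1
          · obtain ⟨j, rfl⟩ := (h4 s).mp hs
            rw [h7]
            exact Ideal.subset_span ⟨j.succ, Fin.succ_ne_zero j, rfl⟩
          · rw [h5 _ _ (by rwa [(h2 b0).mpr rfl])]
            exact zero_mem _
      · rintro (s | s)
        · simp only [Fin.cons_succ, Matrix.fromBlocks_apply₁₁]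
          refine Ideal.span_mono ?_ (h8 j s)
          rintro _ ⟨i, hi, rfl⟩
          exact ⟨i.succ, fun h => hi (Fin.succ_injective _ h), rfl⟩
        · simp only [Fin.cons_succ, Matrix.fromBlocks_apply₁₂, Matrix.smul_apply, smul_eq_mul]
          exact Ideal.mul_mem_right _ _
            (Ideal.subset_span ⟨0, (Fin.succ_ne_zero j).symm, rfl⟩)
    · intro j
      refine Fin.cases ?_ (fun j => ?_) j
      · refine ⟨Matrix.fromBlocks 0 0 1 0, ?_, ?_⟩
        · rintro (r | r) (s | s) h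
          · rfl
          · rfl
          · have : r ≠ s := by rintro rfl; exact h rfl
            simp [Matrix.one_apply_ne this]
          · rfl
        · rw [Matrix.fromBlocks_multiply, Matrix.fromBlocks_multiply, Matrix.fromBlocks_add,
            ← Matrix.fromBlocks_one, Matrix.fromBlocks_smul]
          simp
      · obtain ⟨H, a1, a2⟩ := h9 j
        refine ⟨Matrix.fromBlocks H 0 0 (-H), ?_, ?_⟩
        · rintro (r | r) (s | s) h
          · exact a1 r s h
          · rfl
          · rfl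
          · simp [a1 r s (by simpa using h)]
        · rw [Matrix.fromBlocks_multiply, Matrix.fromBlocks_multiply, Matrix.fromBlocks_add,
            ← Matrix.fromBlocks_one, Matrix.fromBlocks_smul]
          simp [a2, Fin.tail]

theorem koszul_submatrix_mul {T : Type*} [CommRing T] {B α β γ : Type} [Fintype B] [Fintype β]
    (A A' : Matrix B B T) (f : α → B) (g : β → B) (k : γ → B) (hg : Function.Injective g)
    (h : ∀ a s, s ∉ Set.range g → A (f a) s = 0) :
    A.submatrix f g * A'.submatrix g k = (A * A').submatrix f k := by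
  ext a c
  simp only [Matrix.mul_apply, Matrix.submatrix_apply]
  exact Fintype.sum_of_injective g hg _ _ (fun s hs => by rw [h a s hs, zero_mul]) fun _ => rfl

theorem exists_koszul (T : Type*) [CommRing T] (d : ℕ) (w : Fin d → T) :
    ∃ (b : ℕ → ℕ) (ψ : ∀ i, Matrix (Fin (b i)) (Fin (b (i + 1))) T) (e1 : Fin d ≃ Fin (b 1)),
      b 0 = 1 ∧ (∀ i, d < i → b i = 0) ∧ (∀ i, ψ i * ψ (i + 1) = 0) ∧
      (∀ r j, ψ 0 r (e1 j) = w j) ∧
      (∀ j s, ψ 1 (e1 j) s ∈ Ideal.span (w '' {i | i ≠ j})) ∧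
      (∀ x ∈ Ideal.span (Set.range w), NullHtpy (β := fun i => Fin (b i)) ψ x) := by
  obtain ⟨B, _, _, deg, Ψ, b0, e, h1, h2, h3, h4, h5, h6, h7, h8, h9⟩ := exists_koszul_total T d w
  let q : ∀ i, {b // deg b = i} ≃ Fin (Fintype.card {b // deg b = i}) :=
    fun i => Fintype.equivFin _
  let f : ∀ i, Fin (Fintype.card {b // deg b = i}) → B := fun i r => ((q i).symm r).1
  have f1 : ∀ i, Function.Injective (f i) := fun i =>
    Subtype.val_injective.comp (q i).symm.injective
  have f2 : ∀ i r, deg (f i r) = i := fun i r => ((q i).symm r).2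
  have f3 : ∀ i s, s ∉ Set.range (f i) → deg s ≠ i := fun i s hs h =>
    hs ⟨q i ⟨s, h⟩, by simp [f]⟩
  let e' : Fin d ≃ {b // deg b = 1} := Equiv.ofBijective (fun j => ⟨e j, (h4 _).mpr ⟨j, rfl⟩⟩)
    ⟨fun i j h => h3 (congrArg Subtype.val h), fun b => by
      obtain ⟨j, hj⟩ := (h4 _).mp b.2
      exact ⟨j, Subtype.ext hj⟩⟩
  have f4 : ∀ j, f 1 ((e'.trans (q 1)) j) = e j := fun j => by simp [f]; rfl
  refine ⟨fun i => Fintype.card {b // deg b = i}, fun i => Ψ.submatrix (f i) (f (i + 1)),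
    e'.trans (q 1), ?_, ?_, ?_, ?_, ?_, ?_⟩
  · exact Fintype.card_eq_one_iff.mpr ⟨⟨b0, (h2 _).mpr rfl⟩, fun b => Subtype.ext ((h2 _).mp b.2)⟩
  · intro i hi
    exact Fintype.card_eq_zero_iff.mpr ⟨fun b => by have := h1 b.1; have := b.2; omega⟩
  · intro i
    rw [koszul_submatrix_mul _ _ _ _ _ (f1 _) fun a s hs => h5 _ _ (by rw [f2]; exact f3 _ s hs),
      h6]
    rfl
  · intro r j
    change Ψ (f 0 r) (f 1 _) = _
    rw [f4, (h2 _).mp (f2 0 r), h7]
  · intro j s
    change Ψ (f 1 _) (f 2 s) ∈ _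
    rw [f4]
    exact h8 j _
  · intro x hx
    refine NullHtpy.of_mem_span _ ?_ hx
    rintro _ ⟨j, rfl⟩
    obtain ⟨H, a1, a2⟩ := h9 j
    refine ⟨fun i => H.submatrix (f (i + 1)) (f i), fun i => ?_⟩
    rw [koszul_submatrix_mul _ _ _ _ _ (f1 _) fun a s hs => h5 _ _ (by rw [f2]; exact f3 _ s hs),
      koszul_submatrix_mul _ _ _ _ _ (f1 _) fun a s hs => a1 _ _
        (by rw [f2]; exact fun h => f3 _ s hs (by omega)),
      ← Matrix.submatrix_one _ (f1 (i + 1))]
    exact congrArg (fun A => Matrix.submatrix A (f (i + 1)) (f (i + 1))) a2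

end Vale.Agent.P202
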