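import Vale.Agent.P202.LCAux

/-! The length bound for short complexes with entries of high order. -/

namespace Vale.Agent.P202

universe u

theorem length_bound_zero (K : Type u) [Field K] (g : PS K 0) (hg : g ≠ 0) (β0 β1 : Type)
    [Fintype β0] [Fintype β1] [DecidableEq β0] [IsEmpty β1] (φ : Matrix β0 β1 (PS K 0))
    (Λ : Submodule (PS K 0) (β0 → PS K 0)) (hΛ : ∀ x ∈ Λ, g • x ∈ LinearMap.range φ.mulVecLin)
    [Module.Finite K ((β0 → PS K 0) ⧸ Λ)] :
    Fintype.card β0 ≤ Module.finrank K ((β0 → PS K 0) ⧸ Λ) := by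
  have h0 : ∀ x ∈ Λ, x = 0 := by
    intro x hx
    obtain ⟨y, hy⟩ := hΛ x hx
    rw [Subsingleton.elim y 0, map_zero] at hy
    funext r
    exact (mul_eq_zero.mp (congrFun hy r).symm).resolve_left hg
  refine LinearIndependent.fintype_card_le_finrank
    (b := fun r : β0 => (Submodule.Quotient.mk (Pi.single r 1) : (β0 → PS K 0) ⧸ Λ)) ?_
  rw [Fintype.linearIndependent_iff]
  intro c hc r
  have h1 : (∑ i, c i • Pi.single i (1 : PS K 0) : β0 → PS K 0) ∈ Λ := by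
    rw [← Submodule.Quotient.mk_eq_zero, ← hc]
    change Λ.mkQ _ = _
    rw [map_sum]
    rfl
  have h2 := congrFun (h0 _ h1) r
  simp only [Finset.sum_apply, Pi.smul_apply, Pi.single_apply, smul_ite, smul_zero,
    Finset.sum_ite_eq, Finset.mem_univ, if_true, Pi.zero_apply] at h2
  exact (smul_eq_zero.mp h2).resolve_right one_ne_zero

variable {K : Type u} [Field K] {n : ℕ} {R : SegreRing K n} {a : ℕ}

theorem CechSys.contr (S : CechSys R a) (ψ : PS K (n + 1) →+* R.BL) (m : R.ι → R.BL)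
    (hm : ∀ r, (m r).1 = HahnSeries.single (1 : ℤ) (R.μ r))
    (hrad : ∀ (r : R.ι) (N : ℕ), ∃ (N' : ℕ) (b : Fin (n + 1) → R.BL),
      m r ^ (N' + 1) = ∑ j, ψ (MvPowerSeries.X j) ^ N * b j)
    {β : ℕ → Type} [∀ i, Fintype (β i)] [∀ i, DecidableEq (β i)]
    (φ : ∀ i, Matrix (β i) (β (i + 1)) (PS K (n + 1))) (g : PS K (n + 1))
    (hg : ∀ j, ∃ N : ℕ, NullHtpy φ (g * MvPowerSeries.X j ^ N)) (c : ℤ) (l : ℕ)
    (ζ : β (l + 1) → HS R.L S.M) (hζ : ∀ r, ζ r ∈ S.Ψ (l + 1))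
    (hζ' : ∀ r, mact ((φ l).map ψ) ζ r ∈ S.J c (l + 1)) :
    ∃ ξ : β (l + 2) → HS R.L S.M, (∀ r, ξ r ∈ S.Ψ (l + 1)) ∧
      ∀ r, ψ g • ζ r - mact ((φ (l + 1)).map ψ) ξ r ∈ S.J c (l + 1) := by
  choose N hN using hg
  have hN' : ∀ j, NullHtpy φ (g * MvPowerSeries.X j ^ (∑ i, N i)) := by
    intro j
    have h1 : N j ≤ ∑ i, N i :=
      Finset.single_le_sum (f := N) (fun _ _ => Nat.zero_le _) (Finset.mem_univ j)
    have h2 := (hN j).mul (MvPowerSeries.X j ^ (∑ i, N i - N j))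
    rwa [mul_left_comm, ← pow_add, Nat.sub_add_cancel h1] at h2
  choose N' b hb using fun r => hrad r (∑ i, N i)
  have hpow : ∀ (r : R.ι) (W : Submodule R.BL (HS R.L S.M)), (∀ x ∈ W, S.Θ r x ∈ W) →
      ∀ k : ℕ, ∀ x ∈ W, (S.Θ r ^ k) x ∈ W := by
    intro r W hW k
    induction k with
    | zero => intro x hx; simpa using hx
    | succ k ih => intro x hx; rw [pow_succ, Module.End.mul_apply]; exact ih _ (hW x hx)
  refine contr_of_partition (fun i => (φ i).map ψ) (S.Ψ (l + 1)) (S.J c (l + 1)) (ψ g)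
    (ι := R.ι × Fin (n + 1)) (fun i => b i.1 i.2 • S.Θ i.1 ^ (N' i.1 + 1))
    (fun i => ψ (g * MvPowerSeries.X i.2 ^ (∑ i, N i))) (fun i y hy => ?_) (fun i y hy => ?_)
    (fun y => ?_) (fun i => (hN' i.2).map ψ) l ζ hζ hζ'
  · exact Submodule.smul_mem _ _ (hpow i.1 _ (S.Θ_mem_Ψ i.1 l) _ y hy)
  · exact Submodule.smul_mem _ _ (hpow i.1 _ (S.Θ_mem_J i.1 c l) _ y hy)
  · conv_lhs => rw [← S.sum_chart m hm y]
    rw [Fintype.sum_prod_type, Finset.smul_sum]
    refine Finset.sum_congr rfl fun r _ => ?_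
    rw [← S.chart_pow r (m r) (hm r) (N' r), hb, Finset.sum_smul, Finset.smul_sum]
    refine Finset.sum_congr rfl fun j _ => ?_
    rw [LinearMap.smul_apply, map_mul, map_pow, mul_smul, mul_smul]

/-- a finite family of homogeneous components as a series. -/
noncomputable def CechSys.emb (S : CechSys R a) (T : ℕ) (W : ℕ → Submodule K S.M)
    (s : (t : Fin T) → W t) : HS R.L S.M :=
  ∑ t : Fin T, HahnModule.of R.L (HahnSeries.single ((t : ℕ) : ℤ) (s t : S.M))

theorem CechSys.co_emb (S : CechSys R a) (T : ℕ) (W : ℕ → Submodule K S.M)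
    (s : (t : Fin T) → W t) (t : Fin T) : co (S.emb T W s) ((t : ℕ) : ℤ) = s t := by
  rw [CechSys.emb, co_sum, Finset.sum_eq_single t]
  · simp [co]
  · intro t' _ h
    refine HahnSeries.coeff_single_of_ne fun h' => h ?_
    exact Fin.ext (by exact_mod_cast h'.symm)
  · simp

theorem CechSys.co_emb_cases (S : CechSys R a) (T : ℕ) (W : ℕ → Submodule K S.M)
    (s : (t : Fin T) → W t) (t : ℤ) :
    co (S.emb T W s) t = 0 ∨ ∃ t' : Fin T, t = ((t' : ℕ) : ℤ) := by
  by_cases h : ∃ t' : Fin T, t = ((t' : ℕ) : ℤ)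
  · exact Or.inr h
  · left
    rw [CechSys.emb, co_sum]
    exact Finset.sum_eq_zero fun t' _ => HahnSeries.coeff_single_of_ne fun h' => h ⟨t', h'⟩

theorem CechSys.emb_add (S : CechSys R a) (T : ℕ) (W : ℕ → Submodule K S.M)
    (s s' : (t : Fin T) → W t) : S.emb T W (s + s') = S.emb T W s + S.emb T W s' := by
  simp [CechSys.emb, Finset.sum_add_distrib]

theorem CechSys.emb_smul (S : CechSys R a) (T : ℕ) (W : ℕ → Submodule K S.M) (c : K)
    (c' : R.BL) (hc : c'.1 = HahnSeries.single (0 : ℤ) (algebraMap K R.L c))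
    (s : (t : Fin T) → W t) : S.emb T W (c • s) = c' • S.emb T W s := by
  refine HS.ext' fun t => ?_
  change _ = co (c'.1 • S.emb T W s) t
  rw [hc, co_single_smul, sub_zero, S.smul_def, AlgHom.commutes, Module.algebraMap_end_apply]
  by_cases h : ∃ t' : Fin T, t = ((t' : ℕ) : ℤ)
  · obtain ⟨t', rfl⟩ := h
    rw [S.co_emb, S.co_emb]
    rfl
  · rw [(S.co_emb_cases T W s t).resolve_right h, (S.co_emb_cases T W (c • s) t).resolve_right h,
      smul_zero]

theorem CechSys.key (S : CechSys R a) (ψ : PS K (n + 1) →+* R.BL)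
    (hψK : ∀ c : K, (ψ (algebraMap K _ c)).1 = HahnSeries.single (0 : ℤ) (algebraMap K R.L c))
    (hord : ∀ f ∈ varIdeal K (n + 1) ^ a, ∀ t : ℤ, t < a → (ψ f).1.coeff t = 0)
    (m : R.ι → R.BL) (hm : ∀ r, (m r).1 = HahnSeries.single (1 : ℤ) (R.μ r))
    (hrad : ∀ (r : R.ι) (N : ℕ), ∃ (N' : ℕ) (b : Fin (n + 1) → R.BL),
      m r ^ (N' + 1) = ∑ j, ψ (MvPowerSeries.X j) ^ N * b j)
    (c0 : PS K (n + 1)) (v : Fin n.factorial → R.BL)
    (hv : ∀ x ∈ S.Ψ 0, ∃ α : Fin n.factorial × S.κ → PS K (n + 1),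
      ψ c0 • x = ∑ i, ψ (α i) • v i.1 • S.uh i.2)
    {β : ℕ → Type} [∀ i, Fintype (β i)] [∀ i, DecidableEq (β i)]
    (φ : ∀ i, Matrix (β i) (β (i + 1)) (PS K (n + 1))) (g : PS K (n + 1))
    (hφφ : ∀ i, φ i * φ (i + 1) = 0) (hβ : ∀ i, n + 1 < i → IsEmpty (β i))
    (hφ : ∀ i r s, φ i r s ∈ varIdeal K (n + 1) ^ a)
    (hg : ∀ j, ∃ N : ℕ, NullHtpy φ (g * MvPowerSeries.X j ^ N))
    (Λ : Submodule (PS K (n + 1)) (β 0 → PS K (n + 1)))
    (hΛ : ∀ x ∈ Λ, g • x ∈ LinearMap.range (φ 0).mulVecLin)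
    [Module.Finite K ((β 0 → PS K (n + 1)) ⧸ Λ)] (C u T : ℕ) (hu : u + C = a)
    (hC : (ψ (g ^ (n + 2) * c0)).1.coeff C ≠ 0)
    (hC' : ∀ s : ℤ, s < C → (ψ (g ^ (n + 2) * c0)).1.coeff s = 0) :
    Fintype.card (β 0) * ∑ t : Fin T,
      Module.finrank K ↥(S.U (t : ℕ) ⊓ S.Kc (((t : ℕ) : ℤ) + 1 - u) (t : ℕ) 0) ≤
      n.factorial * Fintype.card S.κ * Module.finrank K ((β 0 → PS K (n + 1)) ⧸ Λ) := by
  classical
  by_contra hlt
  set W : ℕ → Submodule K S.M := fun t => S.U t ⊓ S.Kc ((t : ℤ) + 1 - u) t 0 with hW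
  haveI : ∀ t, Module.Finite K (W t) := fun t =>
    haveI := S.finite_U t
    Submodule.finiteDimensional_of_le (S₂ := S.U t) inf_le_left
  let Rel : Submodule K ((β 0 → (t : Fin T) → W t) ×
      (Fin n.factorial × S.κ → β 0 → PS K (n + 1))) :=
    { carrier := {p | ∀ r, ψ c0 • S.emb T W (p.1 r) = ∑ i, ψ (p.2 i r) • v i.1 • S.uh i.2}
      add_mem' := fun {p q} hp hq r => by
        simp only [Prod.fst_add, Prod.snd_add, Pi.add_apply, S.emb_add, smul_add, hp r, hq r,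
          map_add, add_smul, Finset.sum_add_distrib]
      zero_mem' := fun r => by simp [CechSys.emb]
      smul_mem' := fun c p hp r => by
        simp only [Prod.smul_fst, Prod.smul_snd, Pi.smul_apply]
        rw [S.emb_smul T W c _ (hψK c), smul_comm, hp r, Finset.smul_sum]
        refine Finset.sum_congr rfl fun i _ => ?_
        rw [Algebra.smul_def, map_mul, mul_smul] }
  have hemb : ∀ s : (t : Fin T) → W t, S.emb T W s ∈ S.Ψ 0 := fun s t => by
    rcases S.co_emb_cases T W s t with h | ⟨t', rfl⟩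
    · rw [h]; exact Submodule.zero_mem _
    · rw [S.co_emb]; exact (s t').2.1
  obtain ⟨s, α, hs0, hsα, hα⟩ := exists_ne_zero_of_rel Rel
    (LinearMap.pi fun i => (Λ.mkQ.restrictScalars K) ∘ₗ LinearMap.proj i :
      _ →ₗ[K] (Fin n.factorial × S.κ → (β 0 → PS K (n + 1)) ⧸ Λ))
    (fun s => by
      choose α hα using fun r => hv _ (hemb (s r))
      exact ⟨fun i r => α r i, hα⟩)
    (by
      rw [Module.finrank_pi_fintype, Module.finrank_pi_fintype]
      simp only [Finset.sum_const, Finset.card_univ, smul_eq_mul, Module.finrank_pi_fintype,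
        Fintype.card_prod, Fintype.card_fin]
      exact not_le.mp hlt)
  have hαΛ : ∀ i, α i ∈ Λ := fun i => (Submodule.Quotient.mk_eq_zero Λ).mp (congrFun hα i)
  choose γ hγ using fun i => hΛ _ (hαΛ i)
  have hex : ∃ t : ℕ, ∃ (h : t < T) (r : β 0), (s r ⟨t, h⟩ : S.M) ≠ 0 := by
    by_contra hcon
    refine hs0 (funext fun r => funext fun t => Subtype.ext ?_)
    by_contra h
    exact hcon ⟨t, t.2, r, h⟩
  obtain ⟨ht0, r0, hr0⟩ := Nat.find_spec hex
  set t0 := Nat.find hex with ht0def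
  have hlow : ∀ r, ∀ t : ℤ, t < t0 → co (S.emb T W (s r)) t = 0 := by
    intro r t ht
    rcases S.co_emb_cases T W (s r) t with h | ⟨t', rfl⟩
    · exact h
    · rw [S.co_emb]
      by_contra h
      have ht' : (t' : ℕ) < t0 := by exact_mod_cast ht
      exact Nat.find_min hex ht' ⟨t'.2, r, h⟩
  let σ : β 1 → HS R.L S.M := fun r1 => ∑ i, ψ (γ i r1) • v i.1 • S.uh i.2
  have hσ : ∀ r, mact ((φ 0).map ψ) σ r = ψ (g * c0) • S.emb T W (s r) := by
    intro r
    rw [map_mul, mul_smul, hsα r, mact_sum, Finset.smul_sum]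
    refine Finset.sum_congr rfl fun i _ => ?_
    have h1 := congrFun (hγ i) r
    simp only [Matrix.mulVecLin_apply, Matrix.mulVec, dotProduct, Pi.smul_apply,
      smul_eq_mul] at h1
    simp only [mact, Matrix.map_apply]
    rw [← mul_smul, ← map_mul, ← h1, map_sum, Finset.sum_smul]
    exact Finset.sum_congr rfl fun j _ => by rw [map_mul, mul_smul]
  have hdesc := descent (n + 1) a ((t0 : ℤ) + 1 - u) (ψ g) β (fun i => (φ i).map ψ)
    (fun i => by rw [← Matrix.map_mul, hφφ]; simp) hβ S.Ψ (S.J ((t0 : ℤ) + 1 - u)) S.D S.Fil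
    (fun l x hx t => S.D'_Ψ' l t _ (hx t)) (fun l x hx t => S.D'_J' _ l t _ (hx t))
    (fun l x hx => HS.ext' fun t => S.D'_D' l t _ (hx t))
    (fun i r s τ x hx t ht => co_smul_eq_zero _ x a τ (hord _ (hφ i r s)) hx t ht)
    (S.contr ψ m hm hrad φ g hg _) (S.van0 _) (S.vanS _) σ
    (fun r => Submodule.sum_mem _ fun i _ =>
      Submodule.smul_mem _ _ (Submodule.smul_mem _ _ (S.uh_mem i.2)))
    (fun r => by
      rw [hσ, map_smul]
      refine Submodule.smul_mem _ _ fun t => ?_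
      change co (S.emb T W (s r)) t ∈ S.Kc _ t (0 : ℕ)
      by_cases ht : t < t0
      · rw [hlow r t ht]; exact Submodule.zero_mem _
      rcases S.co_emb_cases T W (s r) t with h | ⟨t', rfl⟩
      · rw [h]; exact Submodule.zero_mem _
      · rw [S.co_emb]
        exact S.Kc_anti _ _ _ _ (by omega) (s r t').2.2) r0
  rw [hσ, ← mul_smul, ← map_pow, ← map_mul, ← mul_assoc, ← pow_succ] at hdesc
  have h1 := hdesc ((t0 : ℤ) + C) (by omega)
  change co ((ψ (g ^ (n + 2) * c0)).1 • _) _ = 0 at h1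
  rw [co_smul_lowest _ _ C t0 hC' (hlow r0), S.co_emb T W (s r0) ⟨t0, ht0⟩] at h1
  exact hr0 (S.torsionFree_U _ _ (s r0 ⟨t0, ht0⟩).2.1 _ hC h1)

theorem length_bound (K : Type u) [Field K] [Infinite K] (d : ℕ) (g : PS K d) (hg : g ≠ 0) :
    ∃ C : ℕ, ∀ (a : ℕ) (β : ℕ → Type) [∀ i, Fintype (β i)] [∀ i, DecidableEq (β i)]
      (φ : ∀ i, Matrix (β i) (β (i + 1)) (PS K d)),
      (∀ i, φ i * φ (i + 1) = 0) → (∀ i, d < i → IsEmpty (β i)) →
      (∀ i r s, φ i r s ∈ varIdeal K d ^ a) →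
      (∀ j, ∃ N : ℕ, NullHtpy φ (g * MvPowerSeries.X j ^ N)) →
      ∀ Λ : Submodule (PS K d) (β 0 → PS K d),
        (∀ x ∈ Λ, g • x ∈ LinearMap.range (φ 0).mulVecLin) →
        Module.Finite K ((β 0 → PS K d) ⧸ Λ) →
        Fintype.card (β 0) * (a - C) ^ d ≤ Module.finrank K ((β 0 → PS K d) ⧸ Λ) := by
  rcases d with _ | n
  · refine ⟨0, fun a β _ _ φ _ hβ _ _ Λ hΛ hfin => ?_⟩
    haveI := hβ 1 one_pos
    rw [pow_zero, mul_one]
    exact length_bound_zero K g hg _ _ (φ 0) Λ hΛ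
  obtain ⟨R, hR⟩ : ∃ R : SegreRing K n, ∀ a, Nonempty (CechSys R a) :=
    ⟨segre K n, exists_cechSys K n⟩
  obtain ⟨ψ0, hHat, hinj, hord, hrad, c0, v0, hc0, hv0, hv⟩ := R.exists_psi
  let ψ : PS K (n + 1) →+* R.BL :=
    ((HahnSeries.ofPowerSeries ℤ R.L).comp ψ0.toRingHom).codRestrict R.BL
      fun f => R.ofPowerSeries_mem (hHat f)
  have hψ : ∀ f, (ψ f).1 = HahnSeries.ofPowerSeries ℤ R.L (ψ0 f) := fun f => rfl
  have hG : ψ0 (g ^ (n + 2) * c0) ≠ 0 := fun h =>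
    mul_ne_zero (pow_ne_zero _ hg) hc0 (hinj (by rw [h, map_zero]))
  refine ⟨(ψ0 (g ^ (n + 2) * c0)).order.toNat, fun a β _ _ φ hφφ hβ hφ hnull Λ hΛ hfin => ?_⟩
  set C := (ψ0 (g ^ (n + 2) * c0)).order.toNat with hCdef
  by_cases haC : a ≤ C
  · simp [Nat.sub_eq_zero_of_le haC]
  obtain ⟨S⟩ := hR a
  have hmHat : ∀ r, R.Hat (PowerSeries.C (R.μ r) * PowerSeries.X) := by
    intro r t
    rcases t with _ | t
    · simp
    · rw [PowerSeries.coeff_succ_mul_X, PowerSeries.coeff_C]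
      split_ifs with h
      · subst h; exact R.μ_mem r
      · exact Submodule.zero_mem _
  let lift : (f : PowerSeries R.L) → R.Hat f → R.BL := fun f hf =>
    ⟨HahnSeries.ofPowerSeries ℤ R.L f, R.ofPowerSeries_mem hf⟩
  have key := S.key ψ
    (fun c => by
      rw [hψ, AlgHom.commutes, PowerSeries.algebraMap_apply, HahnSeries.ofPowerSeries_C]; rfl)
    (fun f hf t ht => by
      rw [hψ]
      by_cases h0 : t < 0
      · exact coeff_ofPowerSeries_neg _ h0
      · obtain ⟨s, rfl⟩ := Int.eq_ofNat_of_zero_le (not_lt.mp h0)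
        rw [HahnSeries.ofPowerSeries_apply_coeff]
        exact hord a f hf s (by exact_mod_cast ht))
    (fun r => lift _ (hmHat r))
    (fun r => by
      simp only [lift, map_mul, HahnSeries.ofPowerSeries_C, HahnSeries.ofPowerSeries_X,
        HahnSeries.C_apply, HahnSeries.single_mul_single, zero_add, mul_one])
    (fun r N => by
      obtain ⟨N', b, hN', hb, h⟩ := hrad r N
      refine ⟨N' - 1, fun j => lift _ (hb j), Subtype.ext ?_⟩
      rw [Nat.sub_add_cancel hN']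
      simp only [lift, SubmonoidClass.coe_pow, AddSubmonoidClass.coe_finset_sum,
        MulMemClass.coe_mul, hψ]
      rw [← map_pow, h, map_sum]
      simp only [map_mul, map_pow])
    c0 (fun i => lift _ (hv0 i))
    (fun x hx => by
      obtain ⟨f, hf, rfl⟩ := S.exists_span x hx
      choose α hα using fun k => hv (f k) (hf k)
      refine ⟨fun i => α i.2 i.1, ?_⟩
      rw [Fintype.sum_prod_type, Finset.sum_comm, Finset.smul_sum]
      refine Finset.sum_congr rfl fun k _ => ?_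
      change (ψ c0).1 • _ = ∑ i, (ψ (α k i)).1 • HahnSeries.ofPowerSeries ℤ R.L (v0 i) • S.uh k
      simp only [hψ, ← mul_smul, ← map_mul]
      rw [hα, map_sum, Finset.sum_smul])
    φ g hφφ hβ hφ hnull Λ hΛ C (a - C) (n * a + (a - C)) (by omega)
    (by rw [hψ, HahnSeries.ofPowerSeries_apply_coeff]; exact PowerSeries.coeff_order hG)
    (fun s hs => by
      rw [hψ]
      by_cases h0 : s < 0
      · exact coeff_ofPowerSeries_neg _ h0
      · obtain ⟨s, rfl⟩ := Int.eq_ofNat_of_zero_le (not_lt.mp h0)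
        rw [HahnSeries.ofPowerSeries_apply_coeff]
        exact PowerSeries.coeff_of_lt_order_toNat s (by exact_mod_cast hs))
  set u := a - C with hu
  have h1 := kap_sum a n u (n * a + u) (by omega) le_rfl
  have h2 : ∑ t ∈ Finset.range (n * a + u), kap a n ((t : ℤ) + 1 - u) u ≤
      ((∑ t : Fin (n * a + u),
        Module.finrank K ↥(S.U (t : ℕ) ⊓ S.Kc (((t : ℕ) : ℤ) + 1 - u) (t : ℕ) 0) : ℕ) : ℤ) := by
    rw [Finset.sum_range, Nat.cast_sum]
    refine Finset.sum_le_sum fun t _ => ?_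
    have h3 := S.count (((t : ℕ) : ℤ) + 1 - u) u (by omega) (by omega)
    have h4 : ((t : ℕ) : ℤ) + 1 - u + u - 1 = (t : ℕ) := by ring
    rwa [h4] at h3
  have h5 : n.factorial ^ 2 * a ^ n * u ^ (n + 1) ≤ ∑ t : Fin (n * a + u),
      Module.finrank K ↥(S.U (t : ℕ) ⊓ S.Kc (((t : ℕ) : ℤ) + 1 - u) (t : ℕ) 0) := by
    exact_mod_cast h1.trans h2
  have h6 := (Nat.mul_le_mul_left (Fintype.card (β 0)) h5).trans key
  rw [S.card_κ] at h6
  have hpos : 0 < n.factorial ^ 2 * a ^ n :=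
    Nat.mul_pos (pow_pos n.factorial_pos 2) (pow_pos (by omega) n)
  refine Nat.le_of_mul_le_mul_left ?_ hpos
  calc n.factorial ^ 2 * a ^ n * (Fintype.card (β 0) * u ^ (n + 1))
      = Fintype.card (β 0) * (n.factorial ^ 2 * a ^ n * u ^ (n + 1)) := by ring
    _ ≤ _ := h6
    _ = _ := by ring

end Vale.Agent.P202
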