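import Vale.Agent.P202.Segre
import Vale.Agent.P202.GrowthPS
import Vale.Agent.P202.PSMap

/-! The completed Segre ring is finite of rank at most `n!` over the power series ring. -/

namespace Vale.Agent.P202

universe u

variable {K : Type u} [Field K] {n : ℕ}

/-- membership in the completed graded ring. -/
def SegreRing.Hat (R : SegreRing K n) (f : PowerSeries R.L) : Prop :=
  ∀ t, PowerSeries.coeff t f ∈ R.B t

open PowerSeries Filter Topology

theorem hat_sum_pow (n N : ℕ) : N ^ (n + 1) ≤ (n + 1) * ∑ t ∈ Finset.range N, (t + 1) ^ n ∧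
    (n + 1) * ∑ t ∈ Finset.range N, (t + 1) ^ n ≤ (N + 1) ^ (n + 1) := by
  have key : ∀ x : ℕ, x ^ (n + 1) + (n + 1) * x ^ n ≤ (x + 1) ^ (n + 1) ∧
      (x + 1) ^ (n + 1) ≤ x ^ (n + 1) + (n + 1) * (x + 1) ^ n := by
    intro x
    induction n with
    | zero => simp
    | succ n ih =>
      obtain ⟨h1, h2⟩ := ih
      have h3 : x ^ (n + 1) ≤ (x + 1) ^ (n + 1) := Nat.pow_le_pow_left (by omega) _
      have h4 := Nat.mul_le_mul_right (x + 1) h1
      have h5 := Nat.mul_le_mul_right x h2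
      have h6 : x * (x + 1) ^ n ≤ (x + 1) ^ (n + 1) := by rw [pow_succ']; gcongr; omega
      have h7 := Nat.mul_le_mul_left (n + 1) h6
      rw [pow_succ (x + 1) (n + 1), pow_succ x (n + 1)]
      rw [pow_succ x n] at *
      constructor <;> nlinarith [Nat.zero_le (x ^ n)]
  induction N with
  | zero => simp
  | succ N ih =>
    rw [Finset.sum_range_succ, mul_add]
    have := (key N).2
    have := (key (N + 1)).1
    omega

theorem hat_finrank_le {M V : Type*} [AddCommGroup M] [Module K M] [AddCommGroup V] [Module K V]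
    [Module.Finite K V] (τ : M →ₗ[K] V) (W : Submodule K M) (h : LinearMap.ker τ ≤ W) :
    Module.finrank K (M ⧸ W) ≤ Module.finrank K V := by
  have := Module.Finite.equiv τ.quotKerEquivRange.symm
  refine le_trans ?_ (τ.quotKerEquivRange.finrank_eq.le.trans (Submodule.finrank_le _))
  exact LinearMap.finrank_le_finrank_of_surjective (Submodule.factor_surjective h)

theorem hat_le_finrank {M V : Type*} [AddCommGroup M] [Module K M] [AddCommGroup V] [Module K V]
    (τ : M →ₗ[K] V) (hτ : Function.Surjective τ) (W : Submodule K M) [Module.Finite K (M ⧸ W)]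
    (h : W ≤ LinearMap.ker τ) : Module.finrank K V ≤ Module.finrank K (M ⧸ W) := by
  refine LinearMap.finrank_le_finrank_of_surjective (f := W.liftQ τ h) fun v => ?_
  obtain ⟨x, rfl⟩ := hτ v
  exact ⟨W.mkQ x, rfl⟩

namespace SegreRing

variable (R : SegreRing K n)

/-- The completed graded ring. -/
def Bh : Subalgebra K (PowerSeries R.L) where
  carrier := {f | R.Hat f}
  mul_mem' := fun {f g} hf hg t => by
    rw [coeff_mul]
    refine Submodule.sum_mem _ fun p hp => ?_
    rw [← Finset.HasAntidiagonal.mem_antidiagonal.1 hp]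
    exact R.mul_mem (hf _) (hg _)
  add_mem' := fun {f g} hf hg t => by
    rw [map_add]
    exact add_mem (hf t) (hg t)
  algebraMap_mem' := fun a t => by
    rw [PowerSeries.algebraMap_apply, coeff_C]
    split_ifs with h
    · rw [h, Algebra.algebraMap_eq_smul_one]
      exact Submodule.smul_mem _ _ R.one_mem
    · exact zero_mem _

/-- a homogeneous element. -/
noncomputable def hom (t : ℕ) (x : R.L) (hx : x ∈ R.B t) : R.Bh :=
  ⟨C x * X ^ t, fun s => by
    rw [coeff_C_mul, coeff_X_pow]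
    split_ifs with h
    · rw [h, mul_one]
      exact hx
    · rw [mul_zero]
      exact zero_mem _⟩

theorem coeff_hom (t : ℕ) (x : R.L) (hx : x ∈ R.B t) (s : ℕ) :
    coeff s (R.hom t x hx).1 = if s = t then x else 0 := by
  simp [hom, coeff_X_pow]

/-- the ideal generated by the linear forms `e j`. -/
noncomputable def eI (N : ℕ) : Ideal R.Bh :=
  Ideal.span (Set.range fun j => R.hom 1 (R.e j) (R.e_mem j) ^ N)

theorem μ_mem_radical (N : ℕ) (r : R.ι) : R.hom 1 (R.μ r) (R.μ_mem r) ∈ (R.eI N).radical := by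
  classical
  rw [Ideal.radical_eq_sInf, Submodule.mem_sInf]
  rintro P ⟨h1, h2⟩
  have h3 := R.prime (R.Bh ⧸ P)
    (fun x => if h : x ∈ R.B 1 then Ideal.Quotient.mk P (R.hom 1 x h) else 0)
    (fun x hx y hy => by
      rw [dif_pos hx, dif_pos hy, dif_pos (add_mem hx hy), ← map_add]
      congr 1
      exact Subtype.ext (by simp [hom, add_mul]))
    (fun x hx y hy x' hx' y' hy' h => by
      rw [dif_pos hx, dif_pos hy, dif_pos hx', dif_pos hy', ← map_mul, ← map_mul]
      congr 1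
      refine Subtype.ext ?_
      simp only [MulMemClass.coe_mul, hom]
      rw [mul_mul_mul_comm, ← map_mul, h, map_mul, mul_mul_mul_comm])
    (fun j => by
      rw [dif_pos (R.e_mem j), Ideal.Quotient.eq_zero_iff_mem]
      exact h2.mem_of_pow_mem N (h1 (Ideal.subset_span ⟨j, rfl⟩))) r
  rwa [dif_pos (R.μ_mem r), Ideal.Quotient.eq_zero_iff_mem] at h3

theorem exists_t0 : ∃ t0 : ℕ, ∀ s, t0 ≤ s + 1 → ∀ x ∈ R.B (s + 1),
    ∃ y : Fin (n + 1) → R.L, (∀ j, y j ∈ R.B s) ∧ x = ∑ j, R.e j * y j := by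
  let J : Ideal R.Bh := Ideal.span (Set.range fun r => R.hom 1 (R.μ r) (R.μ_mem r))
  obtain ⟨t0, h0⟩ := Ideal.exists_pow_le_of_le_radical_of_fg (I := J) (J := R.eI 1)
    (Ideal.span_le.2 (by rintro _ ⟨r, rfl⟩; exact R.μ_mem_radical 1 r))
    (Submodule.fg_span (Set.finite_range _))
  have h1 : ∀ t x (hx : x ∈ R.B t), R.hom t x hx ∈ J ^ t := by
    intro t
    induction t with
    | zero => simp
    | succ t ih =>
      intro x hx
      obtain ⟨y, hy, rfl⟩ := R.B_succ t x hx
      have e : R.hom (t + 1) _ hx = ∑ r, R.hom t (y r) (hy r) * R.hom 1 (R.μ r) (R.μ_mem r) := by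
        refine Subtype.ext ?_
        simp only [hom, AddSubmonoidClass.coe_finsetSum, MulMemClass.coe_mul, map_sum,
          Finset.sum_mul, map_mul]
        exact Finset.sum_congr rfl fun r _ => by ring
      rw [e, pow_succ]
      exact Submodule.sum_mem _ fun r _ => Ideal.mul_mem_mul (ih _ _) (Ideal.subset_span ⟨r, rfl⟩)
  refine ⟨t0, fun s hs x hx => ?_⟩
  obtain ⟨b, hb⟩ := (Ideal.mem_span_range_iff_exists_fun).1
    (h0 (Ideal.pow_le_pow_right hs (h1 _ x hx)))
  refine ⟨fun j => coeff s (b j).1, fun j => (b j).2 s, ?_⟩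
  have := congrArg (fun f : R.Bh => coeff (s + 1) f.1) hb
  simp only [coeff_hom, if_true, AddSubmonoidClass.coe_finsetSum, map_sum, pow_one,
    MulMemClass.coe_mul] at this
  rw [← this]
  refine Finset.sum_congr rfl fun j _ => ?_
  simp [hom, ← mul_assoc, coeff_succ_mul_X, mul_comm (R.e j)]

theorem exists_div {t0 : ℕ} (h0 : ∀ s, t0 ≤ s + 1 → ∀ x ∈ R.B (s + 1),
    ∃ y : Fin (n + 1) → R.L, (∀ j, y j ∈ R.B s) ∧ x = ∑ j, R.e j * y j) (s : ℕ) (hs : t0 ≤ s + 1)
    (f : R.Bh) (hf : ∀ t < s + 1, coeff t f.1 = 0) : ∃ b : Fin (n + 1) → R.Bh,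
      (∀ j, ∀ t < s, coeff t (b j).1 = 0) ∧ f = ∑ j, R.hom 1 (R.e j) (R.e_mem j) * b j := by
  have h1 : ∀ t, ∃ y : Fin (n + 1) → R.L, (∀ j, y j ∈ R.B t) ∧ (t < s → ∀ j, y j = 0) ∧
      coeff (t + 1) f.1 = ∑ j, R.e j * y j := by
    intro t
    by_cases ht : t < s
    · exact ⟨0, fun _ => zero_mem _, fun _ _ => rfl, by simp [hf (t + 1) (by omega)]⟩
    · obtain ⟨y, h2, h3⟩ := h0 t (by omega) _ (f.2 (t + 1))
      exact ⟨y, h2, fun h => (ht h).elim, h3⟩
  choose y hy hy' hy'' using h1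
  refine ⟨fun j => ⟨PowerSeries.mk fun t => y t j, fun t => by simpa using hy t j⟩,
    fun j t ht => by simpa using hy' t ht j, Subtype.ext ?_⟩
  ext t
  simp only [AddSubmonoidClass.coe_finsetSum, map_sum, MulMemClass.coe_mul, hom, pow_one,
    mul_assoc, coeff_C_mul]
  rcases t with _ | t
  · simp only [hf 0 (by omega), coeff_zero_X_mul, mul_zero, Finset.sum_const_zero]
  · simp only [coeff_succ_X_mul, coeff_mk, hy'']

/-- the low coefficients. -/
noncomputable def low (s : ℕ) : R.Bh →ₗ[K] ((t : Fin s) → R.B t) where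
  toFun := fun f t => ⟨coeff t f.1, f.2 t⟩
  map_add' := fun f g => by ext t; simp
  map_smul' := fun c f => by ext t; simp

theorem mem_ker_low {s : ℕ} {f : R.Bh} :
    f ∈ LinearMap.ker (R.low s) ↔ ∀ t < s, coeff t f.1 = 0 :=
  ⟨fun h t ht => congrArg Subtype.val (congrFun h ⟨t, ht⟩),
    fun h => funext fun t => Subtype.ext (h t t.2)⟩

theorem low_surjective (s : ℕ) : Function.Surjective (R.low s) := by
  intro x
  refine ⟨∑ t : Fin s, R.hom t (x t) (x t).2, ?_⟩
  ext t
  simp [low, coeff_hom, Fin.val_inj]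

theorem finrank_low (s : ℕ) :
    Module.finrank K ((t : Fin s) → R.B t) = ∑ t ∈ Finset.range s, (t + 1) ^ n := by
  have := R.finite_B
  rw [Module.finrank_pi_fintype, Finset.sum_range]
  exact Finset.sum_congr rfl fun t _ => R.finrank_B t

end SegreRing

theorem SegreRing.exists_psi (R : SegreRing K n) :
    ∃ ψ : PS K (n + 1) →ₐ[K] PowerSeries R.L,
      (∀ f, R.Hat (ψ f)) ∧
      Function.Injective ψ ∧
      (∀ (a : ℕ) (f : PS K (n + 1)), f ∈ varIdeal K (n + 1) ^ a →
        ∀ t < a, PowerSeries.coeff t (ψ f) = 0) ∧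
      (∀ (r : R.ι) (N : ℕ), ∃ (N' : ℕ) (b : Fin (n + 1) → PowerSeries R.L), 1 ≤ N' ∧
        (∀ j, R.Hat (b j)) ∧
        (PowerSeries.C (R.μ r) * PowerSeries.X) ^ N' = ∑ j, ψ (MvPowerSeries.X j) ^ N * b j) ∧
      (∃ (c : PS K (n + 1)) (v : Fin n.factorial → PowerSeries R.L), c ≠ 0 ∧ (∀ i, R.Hat (v i)) ∧
        ∀ f, R.Hat f → ∃ α : Fin n.factorial → PS K (n + 1), ψ c * f = ∑ i, ψ (α i) * v i) := by
  classical
  have hs : MvPowerSeries.HasSubst (fun j : Fin (n + 1) => (C (R.e j) * X : PowerSeries R.L)) :=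
    MvPowerSeries.hasSubst_of_constantCoeff_zero fun j => by
      change constantCoeff (C (R.e j) * X) = 0
      simp
  obtain ⟨ψ, hX⟩ : ∃ ψ : PS K (n + 1) →ₐ[K] PowerSeries R.L,
      ∀ j, ψ (MvPowerSeries.X j) = C (R.e j) * X :=
    ⟨MvPowerSeries.substAlgHom hs, MvPowerSeries.substAlgHom_X hs⟩
  have hhat : ∀ f, R.Hat (ψ f) := by
    intro f t
    induction t generalizing f with
    | zero =>
      obtain ⟨a, ha⟩ := PS_residue f
      obtain ⟨c, hc⟩ := (Ideal.mem_span_range_iff_exists_fun).1 ha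
      rw [eq_add_of_sub_eq hc.symm, map_add, map_add, ψ.commutes, map_sum, map_sum]
      refine add_mem (Submodule.sum_mem _ fun j _ => ?_) (R.Bh.algebraMap_mem a 0)
      simp [hX]
    | succ t ih =>
      obtain ⟨a, ha⟩ := PS_residue f
      obtain ⟨c, hc⟩ := (Ideal.mem_span_range_iff_exists_fun).1 ha
      rw [eq_add_of_sub_eq hc.symm, map_add, map_add, ψ.commutes, map_sum, map_sum]
      refine add_mem (Submodule.sum_mem _ fun j _ => ?_) (R.Bh.algebraMap_mem a _)
      rw [map_mul, hX, ← mul_assoc, coeff_succ_mul_X, coeff_mul_C]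
      exact R.mul_mem (ih _) (R.e_mem j)
  have hlow : ∀ (a : ℕ) (f : PS K (n + 1)), f ∈ varIdeal K (n + 1) ^ a → X ^ a ∣ ψ f := by
    intro a f hf
    have h1 : (varIdeal K (n + 1)).map ψ ≤ Ideal.span {X} := by
      rw [varIdeal, Ideal.map_span, Ideal.span_le]
      rintro _ ⟨_, ⟨j, rfl⟩, rfl⟩
      rw [hX]
      exact Ideal.mem_span_singleton.2 (dvd_mul_left _ _)
    have h2 := Ideal.mem_map_of_mem ψ hf
    rw [Ideal.map_pow] at h2
    have h3 := Ideal.pow_right_mono h1 a h2
    rwa [Ideal.span_singleton_pow, Ideal.mem_span_singleton] at h3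
  let ψ' : PS K (n + 1) →ₐ[K] R.Bh := ψ.codRestrict R.Bh hhat
  let := ψ'.toRingHom.toAlgebra
  have hsm : ∀ (c : PS K (n + 1)) (x : R.Bh), (c • x).1 = ψ c * x.1 := fun _ _ => rfl
  have : IsScalarTower K (PS K (n + 1)) R.Bh := IsScalarTower.of_algebraMap_eq fun a =>
    (ψ'.commutes a).symm
  obtain ⟨t0, h0⟩ := R.exists_t0
  have A1 : ∀ N, ∀ f ∈ (varIdeal K (n + 1) ^ N • ⊤ : Submodule (PS K (n + 1)) R.Bh),
      f ∈ LinearMap.ker (R.low N) := by
    intro N f hf
    refine Submodule.smul_induction_on hf (fun c hc x _ => R.mem_ker_low.2 ?_)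
      fun _ _ => add_mem
    rw [hsm]
    exact X_pow_dvd_iff.1 ((hlow N c hc).mul_right _)
  have A2 : ∀ N, ∀ f ∈ LinearMap.ker (R.low (N + t0)),
      f ∈ (varIdeal K (n + 1) ^ N • ⊤ : Submodule (PS K (n + 1)) R.Bh) := by
    intro N
    induction N with
    | zero => intro f _; rw [pow_zero, Ideal.one_eq_top, Submodule.top_smul]; trivial
    | succ N ih =>
      intro f hf
      obtain ⟨b, hb, rfl⟩ := R.exists_div h0 (N + t0) (by omega) f
        (fun t ht => R.mem_ker_low.1 hf t (by omega))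
      refine Submodule.sum_mem _ fun j _ => ?_
      have e : R.hom 1 (R.e j) (R.e_mem j) * b j = (MvPowerSeries.X j : PS K (n + 1)) • b j :=
        Subtype.ext (by rw [hsm, hX]; simp [SegreRing.hom])
      rw [e, pow_succ', ← smul_eq_mul, smul_assoc]
      exact Submodule.smul_mem_smul (Ideal.subset_span ⟨j, rfl⟩) (ih _ (R.mem_ker_low.2 (hb j)))
  have fB := R.finite_B
  have hfin : Module.Finite (PS K (n + 1)) R.Bh := by
    have hH : IsHausdorff (varIdeal K (n + 1)) R.Bh := ⟨fun x hx => by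
      ext t
      exact R.mem_ker_low.1 (A1 (t + 1) x (SModEq.zero.1 (hx (t + 1)))) t (by omega)⟩
    have hP : IsPrecomplete (varIdeal K (n + 1)) (PS K (n + 1)) := by
      unfold varIdeal
      infer_instance
    obtain ⟨l, g, hg⟩ := Module.Finite.exists_fin (R := K) (M := (t : Fin (1 + t0)) → R.B t)
    choose w hw using fun i => R.low_surjective _ (g i)
    refine Module.Finite.of_surjective _ (surjective_linearCombination
      (I := varIdeal K (n + 1)) w fun y => ?_)
    obtain ⟨c, hc⟩ := (Submodule.mem_span_range_iff_exists_fun K).1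
      (hg.ge (Submodule.mem_top (x := R.low _ y)))
    refine ⟨fun i => algebraMap K _ (c i), ?_⟩
    have := A2 1 (y - ∑ i, c i • w i) (by simp [map_sum, hw, hc])
    simpa using this
  have hT := tendsto_finrank_quot_pow (K := K) (d := n + 1) R.Bh
  have B : ∀ N, ∑ t ∈ Finset.range N, (t + 1) ^ n ≤ Module.finrank K
      (R.Bh ⧸ (varIdeal K (n + 1) ^ N • ⊤ : Submodule (PS K (n + 1)) R.Bh)) ∧ Module.finrank K
      (R.Bh ⧸ (varIdeal K (n + 1) ^ N • ⊤ : Submodule (PS K (n + 1)) R.Bh)) ≤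
      ∑ t ∈ Finset.range (N + t0), (t + 1) ^ n := by
    intro N
    have := finite_quot_of_pow_le (K := K) (d := n + 1) R.Bh N _ le_rfl
    have e := Submodule.Quotient.restrictScalarsEquiv K
      (varIdeal K (n + 1) ^ N • ⊤ : Submodule (PS K (n + 1)) R.Bh)
    have := Module.Finite.equiv e.symm
    rw [← e.finrank_eq, ← R.finrank_low, ← R.finrank_low]
    exact ⟨hat_le_finrank _ (R.low_surjective N) _ (A1 N), hat_finrank_le _ _ (A2 N)⟩
  have hfac : (((n + 1).factorial : ℕ) : ℝ) = n.factorial * (n + 1 : ℕ) := by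
    rw [Nat.factorial_succ, Nat.cast_mul, mul_comm]
  have hρ1 : (n.factorial : ℝ) ≤ Module.finrank (PS K (n + 1)) R.Bh := by
    refine ge_of_tendsto hT ((eventually_gt_atTop 0).mono fun N hN => ?_)
    rw [le_div_iff₀ (by positivity), hfac, mul_assoc]
    refine mul_le_mul_of_nonneg_left ?_ (by positivity)
    exact_mod_cast (hat_sum_pow n N).1.trans (Nat.mul_le_mul_left _ (B N).1)
  have hρ2 : (Module.finrank (PS K (n + 1)) R.Bh : ℝ) ≤ n.factorial := by
    have lim : Tendsto (fun N : ℕ => (n.factorial : ℝ) * (1 + ((t0 : ℝ) + 1) / N) ^ (n + 1)) atTop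
        (𝓝 (n.factorial * (1 + 0) ^ (n + 1))) :=
      ((tendsto_const_nhds.add (tendsto_const_div_atTop_nhds_zero_nat _)).pow _).const_mul _
    rw [add_zero, one_pow, mul_one] at lim
    refine le_of_tendsto_of_tendsto hT lim ((eventually_gt_atTop 0).mono fun N hN => ?_)
    have hN' : (0 : ℝ) < N := by exact_mod_cast hN
    beta_reduce
    rw [div_le_iff₀ (by positivity), hfac, mul_assoc, mul_assoc, ← mul_pow,
      show (1 + ((t0 : ℝ) + 1) / N) * N = (N + t0 + 1 : ℕ) by push_cast; field_simp; ring]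
    refine mul_le_mul_of_nonneg_left ?_ (by positivity)
    exact_mod_cast (Nat.mul_le_mul_left _ (B N).2).trans (hat_sum_pow n (N + t0)).2
  refine ⟨ψ, hhat, ?_, fun a f hf => X_pow_dvd_iff.1 (hlow a f hf), fun r N => ?_, ?_⟩
  · rw [injective_iff_map_eq_zero]
    intro c hc
    by_contra hne
    have h1 : Module.finrank (PS K (n + 1)) R.Bh = 0 :=
      Module.finrank_eq_zero_iff.2 fun x => ⟨c, hne, Subtype.ext (by rw [hsm, hc]; simp)⟩
    have h2 : (0 : ℝ) < n.factorial := by positivity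
    rw [h1, Nat.cast_zero] at hρ1
    linarith
  · obtain ⟨k, hk⟩ := R.μ_mem_radical N r
    obtain ⟨b, hb⟩ := (Ideal.mem_span_range_iff_exists_fun).1
      (Ideal.mul_mem_right (R.hom 1 (R.μ r) (R.μ_mem r)) _ hk)
    refine ⟨k + 1, fun j => (b j).1, by omega, fun j => (b j).2, ?_⟩
    have := congrArg Subtype.val hb
    simp only [SegreRing.hom, AddSubmonoidClass.coe_finsetSum, MulMemClass.coe_mul,
      SubmonoidClass.coe_pow, pow_one, ← pow_succ] at this
    rw [← this]
    exact Finset.sum_congr rfl fun j _ => by rw [hX, mul_comm]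
  · have : IsDomain (PS K (n + 1)) := NoZeroDivisors.to_isDomain _
    obtain ⟨v, g, -, hg, hv⟩ := exists_free_part (PS K (n + 1)) R.Bh
    have hρ : Module.finrank (PS K (n + 1)) R.Bh ≤ n.factorial := by exact_mod_cast hρ2
    let v' : Fin n.factorial → R.Bh := fun i =>
      if h : (i : ℕ) < Module.finrank (PS K (n + 1)) R.Bh then v ⟨i, h⟩ else 0
    refine ⟨g, fun i => (v' i).1, hg, fun i => (v' i).2, fun f hf => ?_⟩
    obtain ⟨α, hα⟩ := (Submodule.mem_span_range_iff_exists_fun _).1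
      (Submodule.span_mono (t := Set.range v') (by
        rintro _ ⟨i, rfl⟩
        exact ⟨⟨i, i.2.trans_le hρ⟩, dif_pos i.2⟩) (hv ⟨f, hf⟩))
    refine ⟨α, ?_⟩
    have := congrArg Subtype.val hα
    simp only [AddSubmonoidClass.coe_finsetSum, hsm] at this
    exact this.symm

end Vale.Agent.P202
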