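import Vale.Agent.P202.Sys
import Vale.Agent.P202.SegreHat
import Vale.Agent.P202.Koszul
import Vale.Agent.P202.Hahn
import Vale.Agent.P202.Descent

/-! Completed Cech systems. -/

namespace Vale.Agent.P202

universe u

/-- contractibility from a partition of unity. -/
theorem contr_of_partition {B H : Type*} [CommRing B] [AddCommGroup H] [Module B H]
    {β : ℕ → Type} [∀ i, Fintype (β i)] [∀ i, DecidableEq (β i)]
    (φ : ∀ i, Matrix (β i) (β (i + 1)) B) (Ψ J : Submodule B H) (g : B) {ι : Type*} [Fintype ι]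
    (T : ι → H →ₗ[B] H) (x : ι → B) (hTΨ : ∀ i, ∀ y ∈ Ψ, T i y ∈ Ψ) (hTJ : ∀ i, ∀ y ∈ J, T i y ∈ J)
    (hsum : ∀ y, g • y = ∑ i, x i • T i y) (hx : ∀ i, NullHtpy φ (x i)) (l : ℕ)
    (ζ : β (l + 1) → H) (hζ : ∀ r, ζ r ∈ Ψ) (hζ' : ∀ r, mact (φ l) ζ r ∈ J) :
    ∃ ξ : β (l + 2) → H, (∀ r, ξ r ∈ Ψ) ∧ ∀ r, g • ζ r - mact (φ (l + 1)) ξ r ∈ J := by
  choose h hh using hx
  refine ⟨fun s => ∑ i, mact (h i (l + 1)) (fun r => T i (ζ r)) s, fun s => ?_, fun r => ?_⟩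
  · exact Ψ.sum_mem fun i _ => mact_mem Ψ _ (fun r => hTΨ i _ (hζ r)) s
  · rw [mact_sum, hsum, ← Finset.sum_sub_distrib]
    refine J.sum_mem fun i _ => ?_
    have h1 : x i • T i (ζ r) = mact (φ (l + 1) * h i (l + 1) + h i l * φ l)
        (fun r => T i (ζ r)) r := by rw [hh i l, smul_one_mact]
    rw [h1, add_mact, ← mact_mact, add_sub_cancel_left, ← mact_mact]
    refine mact_mem J _ (fun s => ?_) r
    rw [← map_mact]
    exact hTJ i _ (hζ' s)

theorem NullHtpy.mul {T : Type*} [CommRing T] {β : ℕ → Type} [∀ i, Fintype (β i)]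
    [∀ i, DecidableEq (β i)] {φ : ∀ i, Matrix (β i) (β (i + 1)) T} {x : T} (h : NullHtpy φ x)
    (y : T) : NullHtpy φ (y * x) := by
  obtain ⟨h, hh⟩ := h
  refine ⟨fun i => y • h i, fun i => ?_⟩
  rw [Matrix.mul_smul, Matrix.smul_mul, ← smul_add, hh, smul_smul]

theorem NullHtpy.map {T T' : Type*} [CommRing T] [CommRing T'] {β : ℕ → Type} [∀ i, Fintype (β i)]
    [∀ i, DecidableEq (β i)] {φ : ∀ i, Matrix (β i) (β (i + 1)) T} {x : T} (h : NullHtpy φ x)
    (f : T →+* T') : NullHtpy (fun i => (φ i).map f) (f x) := by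
  obtain ⟨h, hh⟩ := h
  refine ⟨fun i => (h i).map f, fun i => ?_⟩
  rw [← Matrix.map_mul, ← Matrix.map_mul, ← Matrix.map_add _ (map_add f), hh]
  ext r s
  by_cases hrs : r = s <;> simp [hrs]

theorem exists_ne_zero_of_rel {K V W Q : Type*} [Field K] [AddCommGroup V] [Module K V]
    [AddCommGroup W] [Module K W] [AddCommGroup Q] [Module K Q] [Module.Finite K Q]
    (Rel : Submodule K (V × W)) (π : W →ₗ[K] Q) (hsurj : ∀ v, ∃ w, (v, w) ∈ Rel)
    (h : Module.finrank K Q < Module.finrank K V) :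
    ∃ v w, v ≠ 0 ∧ (v, w) ∈ Rel ∧ π w = 0 := by
  obtain ⟨σ, hσ⟩ := (LinearMap.fst K V W ∘ₗ Rel.subtype).exists_rightInverse_of_surjective (by
    rw [LinearMap.range_eq_top]
    intro v
    obtain ⟨w, hw⟩ := hsurj v
    exact ⟨⟨(v, w), hw⟩, rfl⟩)
  by_contra hcon
  have hinj : Function.Injective (π ∘ₗ LinearMap.snd K V W ∘ₗ Rel.subtype ∘ₗ σ) := by
    rw [← LinearMap.ker_eq_bot, LinearMap.ker_eq_bot']
    intro v hv
    by_contra hv0
    refine hcon ⟨v, (σ v).1.2, hv0, ?_, hv⟩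
    have h1 : (σ v).1.1 = v := LinearMap.congr_fun hσ v
    have h2 : (v, (σ v).1.2) = (σ v).1 := Prod.ext h1.symm rfl
    rw [h2]
    exact (σ v).2
  exact absurd (LinearMap.finrank_le_finrank_of_injective hinj) (not_le.mpr h)

variable {K : Type u} [Field K] {n : ℕ}

/-- The completed graded ring inside Laurent series. -/
def SegreRing.BL (R : SegreRing K n) : Subring (HahnSeries ℤ R.L) where
  carrier := {f | (∀ s < 0, f.coeff s = 0) ∧ ∀ s : ℕ, f.coeff s ∈ R.B s}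
  mul_mem' := by
    rintro f g ⟨hf, hf'⟩ ⟨hg, hg'⟩
    refine ⟨fun s hs => ?_, fun s => ?_⟩
    · rw [HahnSeries.coeff_mul]
      refine Finset.sum_eq_zero fun ij hij => ?_
      rw [Finset.mem_antidiagonal] at hij
      by_cases h : ij.1 < 0
      · rw [hf _ h, zero_mul]
      · rw [hg _ (by omega), mul_zero]
    · rw [HahnSeries.coeff_mul]
      refine (R.B s).sum_mem fun ij hij => ?_
      rw [Finset.mem_antidiagonal] at hij
      have h1 : 0 ≤ ij.1 := not_lt.mp fun h => hij.1 (hf _ h)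
      have h2 : 0 ≤ ij.2 := not_lt.mp fun h => hij.2.1 (hg _ h)
      obtain ⟨i, hi⟩ := Int.eq_ofNat_of_zero_le h1
      obtain ⟨j, hj⟩ := Int.eq_ofNat_of_zero_le h2
      have h3 : s = i + j := by have := hij.2.2; omega
      rw [hi, hj, h3]
      exact R.mul_mem (hf' i) (hg' j)
  one_mem' := by
    refine ⟨fun s hs => by simp [hs.ne], fun s => ?_⟩
    rcases Nat.eq_zero_or_pos s with rfl | h
    · simpa using R.one_mem
    · simp [h.ne']
  add_mem' := by
    rintro f g ⟨hf, hf'⟩ ⟨hg, hg'⟩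
    refine ⟨fun s hs => by simp [hf s hs, hg s hs], fun s => ?_⟩
    rw [HahnSeries.coeff_add]
    exact (R.B s).add_mem (hf' s) (hg' s)
  zero_mem' := ⟨fun s _ => rfl, fun s => (R.B s).zero_mem⟩
  neg_mem' := by
    rintro f ⟨hf, hf'⟩
    refine ⟨fun s hs => by simp [hf s hs], fun s => ?_⟩
    rw [HahnSeries.coeff_neg]
    exact (R.B s).neg_mem (hf' s)

theorem SegreRing.ofPowerSeries_mem (R : SegreRing K n) {f : PowerSeries R.L} (hf : R.Hat f) :
    HahnSeries.ofPowerSeries ℤ R.L f ∈ R.BL :=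
  ⟨fun _ hs => coeff_ofPowerSeries_neg f hs, fun s => by
    rw [HahnSeries.ofPowerSeries_apply_coeff]; exact hf s⟩

variable {R : SegreRing K n} {a : ℕ}

namespace CechSys

noncomputable instance modL (S : CechSys R a) : Module R.L S.M :=
  Module.compHom S.M (S.act : R.L →+* Module.End K S.M)

variable (S : CechSys R a)

theorem smul_def (b : R.L) (x : S.M) : b • x = S.act b x := rfl

/-- a `K`-linear map commuting with the action is linear. -/
def lin (f : S.M →ₗ[K] S.M) (hf : ∀ b x, f (S.act b x) = S.act b (f x)) : S.M →ₗ[R.L] S.M where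
  toFun := f
  map_add' := f.map_add
  map_smul' := hf

/-- graded families stable under the action. -/
def Stable (W : ℤ → Submodule K S.M) : Prop :=
  ∀ (s : ℕ), ∀ b ∈ R.B s, ∀ t, ∀ x ∈ W t, S.act b x ∈ W (t + s)

/-- the completion of a stable graded family. -/
def hat (W : ℤ → Submodule K S.M) (hW : S.Stable W) : Submodule R.BL (HS R.L S.M) where
  carrier := {x | ∀ t, co x t ∈ W t}
  add_mem' := fun hx hy t => (W t).add_mem (hx t) (hy t)
  zero_mem' := fun t => (W t).zero_mem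
  smul_mem' := fun f x hx t => by
    refine co_smul_mem (W t).toAddSubgroup f.1 x t fun s hs _ => ?_
    have h1 : 0 ≤ s := not_lt.mp fun h => hs (f.2.1 _ h)
    obtain ⟨i, rfl⟩ := Int.eq_ofNat_of_zero_le h1
    have := hW i _ (f.2.2 i) _ _ (hx (t - i))
    rwa [sub_add_cancel] at this

/-- series vanishing below a given degree. -/
def Fil (τ : ℤ) : Submodule R.BL (HS R.L S.M) where
  carrier := {x | ∀ t < τ, co x t = 0}
  add_mem' := fun hx hy t ht => by rw [co_add, hx t ht, hy t ht, add_zero]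
  zero_mem' := fun t _ => rfl
  smul_mem' := fun f x hx t ht => co_smul_eq_zero f.1 x 0 τ f.2.1 hx t (by simpa using ht)

variable {S}

theorem mem_hat {W : ℤ → Submodule K S.M} {hW : S.Stable W} {x : HS R.L S.M} :
    x ∈ S.hat W hW ↔ ∀ t, co x t ∈ W t := Iff.rfl

theorem mem_Fil {τ : ℤ} {x : HS R.L S.M} : x ∈ S.Fil τ ↔ ∀ t < τ, co x t = 0 := Iff.rfl

theorem co_mem_of_mem_sup {W : ℤ → Submodule K S.M} {hW : S.Stable W}
    {N : Submodule R.BL (HS R.L S.M)} {τ : ℤ} {x : HS R.L S.M}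
    (hx : x ∈ (N ⊓ S.Fil τ) ⊔ S.hat W hW) {t : ℤ} (ht : t < τ) : co x t ∈ W t := by
  obtain ⟨y, hy, z, hz, rfl⟩ := Submodule.mem_sup.mp hx
  rw [co_add, hy.2 t ht, zero_add]
  exact hz t

theorem mem_sup_of_co {W W' : ℤ → Submodule K S.M} {hW : S.Stable W} {hW' : S.Stable W'}
    {τ : ℤ} {x : HS R.L S.M} (h : ∀ t < τ, co x t ∈ W' t) (h' : ∀ t, τ ≤ t → co x t ∈ W t) :
    x ∈ (S.hat W hW ⊓ S.Fil τ) ⊔ S.hat W' hW' := by
  classical
  let y : HS R.L S.M := HS.mk (fun t => if t < τ then 0 else co x t) ⟨τ, fun t ht => if_pos ht⟩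
  refine Submodule.mem_sup.mpr ⟨y, ⟨fun t => ?_, fun t ht => ?_⟩, x - y, fun t => ?_, by abel⟩
  · simp only [y, co_mk]
    split_ifs with ht
    · exact (W t).zero_mem
    · exact h' t (not_lt.mp ht)
  · simp only [y, co_mk, if_pos ht]
  · simp only [y, co_sub, co_mk]
    split_ifs with ht
    · simpa using h t ht
    · simp

variable (S)

/-- the augmented complex, degreewise. -/
def Ψ' : ℕ → ℤ → Submodule K S.M
  | 0 => S.U
  | l + 1 => fun t => S.C t l

/-- the subcomplex, degreewise. -/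
def J' (c : ℤ) : ℕ → ℤ → Submodule K S.M
  | 0 => fun _ => ⊥
  | l + 1 => fun t => S.Kc c t l

/-- the augmented differential, degreewise. -/
noncomputable def D' : ℕ → S.M →ₗ[R.L] S.M
  | 0 => LinearMap.id
  | _ + 1 => S.lin S.d S.d_act

theorem stable_Ψ' : ∀ l, S.Stable (S.Ψ' l)
  | 0 => S.act_U
  | l + 1 => fun s b hb t x hx => S.act_C s b hb t l x hx

theorem stable_J' (c : ℤ) : ∀ l, S.Stable (S.J' c l)
  | 0 => fun s b _ t x hx => by
      rw [J', Submodule.mem_bot] at hx ⊢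
      rw [hx, map_zero]
  | l + 1 => fun s b hb t x hx => S.act_Kc s b hb c t l x hx

theorem D'_Ψ' : ∀ l t, ∀ x ∈ S.Ψ' l t, S.D' l x ∈ S.Ψ' (l + 1) t
  | 0, t, x, hx => S.U_le t hx
  | l + 1, t, x, hx => by
      have := S.d_C t l x hx
      change S.d x ∈ S.C t ((l + 1 : ℕ) : ℤ)
      exact_mod_cast this

theorem D'_J' (c : ℤ) (l : ℕ) (t : ℤ) (x : S.M) (hx : x ∈ S.J' c (l + 1) t) :
    S.D' (l + 1) x ∈ S.J' c (l + 2) t := by
  have := S.d_Kc c t l x hx
  change S.d x ∈ S.Kc c t ((l + 1 : ℕ) : ℤ)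
  exact_mod_cast this

theorem D'_D' : ∀ l t, ∀ x ∈ S.Ψ' l t, S.D' (l + 1) (S.D' l x) = 0
  | 0, t, x, hx => S.d_U t x hx
  | _ + 1, _, x, _ => S.d_d x

theorem van0' (c t : ℤ) (ht : t < c) (x : S.M) (hx : x ∈ S.U t) (hx' : x ∈ S.Kc c t 0) :
    x = 0 := by
  by_cases h0 : t < 0
  · rw [S.U_neg t h0] at hx
    exact hx
  · obtain ⟨y, hy, hy'⟩ := S.V1 c t 0 (by omega) (by omega) x hx' (S.d_U t x hx)
    have hy0 : y = 0 := by
      have := S.Kc_le c t _ hy
      rwa [S.C_neg t _ (by omega)] at this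
    simpa [hy0] using hy'

theorem vanS' (c t : ℤ) (l : ℕ) (hl : l + 1 ≤ n) (ht : t < c - ((l + 1 : ℕ) : ℤ) * a) (x : S.M)
    (hx : x ∈ S.C t l) (hx' : S.d x ∈ S.Kc c t (l + 1)) :
    ∃ y ∈ S.Ψ' l t, x - S.D' l y ∈ S.Kc c t l := by
  push_cast at ht
  by_cases h0 : t < 0
  · obtain ⟨y, hy, hy'⟩ := S.V2 c t l (by omega) (by omega) (by omega) x hx hx'
    rcases l with _ | l
    · have hy0 : y = 0 := by rwa [S.C_neg t _ (by omega)] at hy
      exact ⟨0, Submodule.zero_mem _, by simpa [hy0] using hy'⟩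
    · refine ⟨y, ?_, hy'⟩
      change y ∈ S.C t l
      simpa using hy
  · obtain ⟨z, hz, hz'⟩ := S.V1 c t (l + 1) (by omega) (by omega) _ hx' (S.d_d x)
    rw [add_sub_cancel_right] at hz
    rw [Submodule.mem_bot, ← map_sub] at hz'
    have hxz : x - z ∈ S.C t l := (S.C t l).sub_mem hx (S.Kc_le c t l hz)
    rcases l with _ | l
    · refine ⟨x - z, S.V0 t (by omega) _ hxz hz', ?_⟩
      change x - (x - z) ∈ _
      rwa [sub_sub_cancel]
    · obtain ⟨y, hy, hy'⟩ := S.V3 t (l + 1 : ℕ) (by omega) (by omega) _ hxz hz'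
      refine ⟨y, ?_, ?_⟩
      · change y ∈ S.C t l
        simpa using hy
      · rw [Submodule.mem_bot] at hy'
        change x - S.d y ∈ _
        rw [← sub_eq_zero.mp hy', sub_sub_cancel]
        exact hz

/-- the completed augmented complex. -/
def Ψ (l : ℕ) : Submodule R.BL (HS R.L S.M) := S.hat (S.Ψ' l) (S.stable_Ψ' l)

/-- the completed subcomplex. -/
def J (c : ℤ) (l : ℕ) : Submodule R.BL (HS R.L S.M) := S.hat (S.J' c l) (S.stable_J' c l)

/-- the completed differential. -/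
noncomputable def D (l : ℕ) : HS R.L S.M →ₗ[R.BL] HS R.L S.M :=
  (hmap (S.D' l)).restrictScalars R.BL

theorem co_D (l : ℕ) (x : HS R.L S.M) (t : ℤ) : co (S.D l x) t = S.D' l (co x t) := rfl

theorem van0 (c : ℤ) (x : HS R.L S.M) (hx : x ∈ S.Ψ 0)
    (hx' : S.D 0 x ∈ (S.Ψ 1 ⊓ S.Fil c) ⊔ S.J c 1) : x ∈ S.Fil c := fun t ht =>
  S.van0' c t ht _ (hx t) (co_mem_of_mem_sup hx' ht)

theorem vanS (c : ℤ) (l : ℕ) (hl : l + 1 < n + 1) (x : HS R.L S.M) (hx : x ∈ S.Ψ (l + 1))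
    (hx' : S.D (l + 1) x ∈
      (S.Ψ (l + 2) ⊓ S.Fil (c - ((l + 1 : ℕ) : ℤ) * a)) ⊔ S.J c (l + 2)) :
    ∃ y ∈ S.Ψ l, x - S.D l y ∈
      (S.Ψ (l + 1) ⊓ S.Fil (c - ((l + 1 : ℕ) : ℤ) * a)) ⊔ S.J c (l + 1) := by
  have key : ∀ t, ∃ y ∈ S.Ψ' l t, (co x t = 0 → y = 0) ∧
      (t < c - ((l + 1 : ℕ) : ℤ) * a → co x t - S.D' l y ∈ S.Kc c t l) := by
    intro t
    by_cases h0 : co x t = 0
    · exact ⟨0, Submodule.zero_mem _, fun _ => rfl, fun _ => by simp [h0]⟩
    by_cases ht : t < c - ((l + 1 : ℕ) : ℤ) * a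
    · have h1 : S.d (co x t) ∈ S.Kc c t ((l + 1 : ℕ) : ℤ) := co_mem_of_mem_sup hx' ht
      obtain ⟨y, hy, hy'⟩ := S.vanS' c t l (by omega) ht _ (hx t) (by exact_mod_cast h1)
      exact ⟨y, hy, fun h => absurd h h0, fun _ => hy'⟩
    · exact ⟨0, Submodule.zero_mem _, fun _ => rfl, fun h => absurd h ht⟩
  choose y hy hy0 hy' using key
  obtain ⟨τ, hτ⟩ := exists_co_eq_zero x
  refine ⟨HS.mk y ⟨τ, fun t ht => hy0 t (hτ t ht)⟩, hy, mem_sup_of_co (fun t ht => ?_)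
    (fun t _ => ?_)⟩
  · rw [co_sub, co_D, co_mk]
    exact hy' t ht
  · rw [co_sub, co_D, co_mk]
    exact Submodule.sub_mem _ (hx t) (S.D'_Ψ' l t _ (hy t))

/-- the degree lowering chart operator. -/
noncomputable def Θ (r : R.ι) : HS R.L S.M →ₗ[R.BL] HS R.L S.M :=
  ((HahnSeries.single (-1 : ℤ) (1 : R.L)) • hmap (S.lin (S.θ r) (S.θ_act r))).restrictScalars R.BL

theorem co_Θ (r : R.ι) (x : HS R.L S.M) (t : ℤ) : co (S.Θ r x) t = S.θ r (co x (t + 1)) := by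
  change co (HahnSeries.single (-1 : ℤ) (1 : R.L) • hmap (S.lin (S.θ r) (S.θ_act r)) x) t = _
  rw [co_single_smul, one_smul, co_hmap, sub_neg_eq_add]
  rfl

theorem Θ_mem_Ψ (r : R.ι) (l : ℕ) (x : HS R.L S.M) (hx : x ∈ S.Ψ (l + 1)) :
    S.Θ r x ∈ S.Ψ (l + 1) := fun t => by
  rw [co_Θ]
  have := S.θ_C r (t + 1) l _ (hx (t + 1))
  rwa [add_sub_cancel_right] at this

theorem Θ_mem_J (r : R.ι) (c : ℤ) (l : ℕ) (x : HS R.L S.M) (hx : x ∈ S.J c (l + 1)) :
    S.Θ r x ∈ S.J c (l + 1) := fun t => by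
  rw [co_Θ]
  have := S.θ_Kc r c (t + 1) l _ (hx (t + 1))
  rwa [add_sub_cancel_right] at this

theorem co_chart (r : R.ι) (m : R.BL) (hm : m.1 = HahnSeries.single (1 : ℤ) (R.μ r))
    (x : HS R.L S.M) (t : ℤ) : co (m • S.Θ r x) t = S.act (R.μ r) (S.θ r (co x t)) := by
  change co (m.1 • S.Θ r x) t = _
  rw [hm, co_single_smul, co_Θ, sub_add_cancel]
  rfl

theorem chart_pow (r : R.ι) (m : R.BL) (hm : m.1 = HahnSeries.single (1 : ℤ) (R.μ r)) (N : ℕ)
    (x : HS R.L S.M) : m ^ (N + 1) • (S.Θ r ^ (N + 1)) x = m • S.Θ r x := by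
  induction N generalizing x with
  | zero => simp
  | succ N ih =>
    rw [pow_succ (S.Θ r), Module.End.mul_apply, pow_succ m, mul_smul, ← map_smul, ih]
    refine HS.ext' fun t => ?_
    rw [S.co_chart r m hm, S.co_chart r m hm, S.θ_idem]

theorem sum_chart (m : R.ι → R.BL) (hm : ∀ r, (m r).1 = HahnSeries.single (1 : ℤ) (R.μ r))
    (x : HS R.L S.M) : ∑ r, m r • S.Θ r x = x := by
  refine HS.ext' fun t => ?_
  rw [co_sum]
  simp only [fun r => S.co_chart r (m r) (hm r)]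
  exact S.θ_sum _

theorem torsionFree_U (t : ℤ) (x : S.M) (hx : x ∈ S.U t) (b : R.L) (hb : b ≠ 0)
    (h : S.act b x = 0) : x = 0 := by
  by_cases h0 : t < 0
  · rw [S.U_neg t h0] at hx
    exact hx
  obtain ⟨s, rfl⟩ := Int.eq_ofNat_of_zero_le (not_lt.mp h0)
  obtain ⟨f, -, rfl⟩ := S.U_span s x hx
  have h1 : ∑ k, S.act (b * f k) (S.u k) = 0 := by
    rw [← h, map_sum]
    simp only [map_mul, Module.End.mul_apply]
  have h2 : ∀ k, f k = 0 := fun k => (mul_eq_zero.mp (S.u_indep _ h1 k)).resolve_left hb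
  simp [h2]

/-- the generators as constant series. -/
noncomputable def uh (k : S.κ) : HS R.L S.M := HahnModule.of R.L (HahnSeries.single (0 : ℤ) (S.u k))

theorem uh_mem (k : S.κ) : S.uh k ∈ S.Ψ 0 := fun t => by
  by_cases ht : t = 0
  · subst ht
    have : co (S.uh k) 0 = S.u k := by simp [co, uh]
    rw [this]
    exact S.u_mem k
  · have : co (S.uh k) t = 0 := HahnSeries.coeff_single_of_ne ht
    rw [this]
    exact Submodule.zero_mem _

theorem exists_span (x : HS R.L S.M) (hx : x ∈ S.Ψ 0) :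
    ∃ f : S.κ → PowerSeries R.L, (∀ k, R.Hat (f k)) ∧
      x = ∑ k, HahnSeries.ofPowerSeries ℤ R.L (f k) • S.uh k := by
  choose f hf hf' using fun s : ℕ => S.U_span s (co x s) (hx s)
  refine ⟨fun k => PowerSeries.mk fun s => f s k, fun k s => by simpa using hf s k,
    HS.ext' fun t => ?_⟩
  rw [co_sum]
  simp only [uh, co_smul_single]
  by_cases h0 : t < 0
  · have h1 : co x t ∈ S.U t := hx t
    rw [S.U_neg t h0, Submodule.mem_bot] at h1
    simp [h1, coeff_ofPowerSeries_neg _ h0]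
  · obtain ⟨s, rfl⟩ := Int.eq_ofNat_of_zero_le (not_lt.mp h0)
    simp only [HahnSeries.ofPowerSeries_apply_coeff, PowerSeries.coeff_mk]
    exact hf' s

end CechSys

end Vale.Agent.P202
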