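import Mathlib

/-! Tensor products of subspaces and a Kuenneth type vanishing lemma for cones. -/

namespace Vale.Agent.P202

open TensorProduct

variable {K : Type*} [Field K]
variable {M M' P P' P0 P1 : Type*} [AddCommGroup M] [Module K M] [AddCommGroup M'] [Module K M']
  [AddCommGroup P] [Module K P] [AddCommGroup P'] [Module K P']
  [AddCommGroup P0] [Module K P0] [AddCommGroup P1] [Module K P1]

/-- The span of the pure tensors `x ⊗ y` with `x ∈ D`, `y ∈ E`. -/
def tens (D : Submodule K M) (E : Submodule K P) : Submodule K (M ⊗[K] P) :=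
  Submodule.map₂ (TensorProduct.mk K M P) D E

theorem exists_ginv (f : M →ₗ[K] M') (D : Submodule K M) :
    ∃ s : M' →ₗ[K] M, (∀ y, s y ∈ D) ∧ ∀ x ∈ D, f (s (f x)) = f x := by
  obtain ⟨g, hg⟩ := (f.domRestrict D).rangeRestrict.exists_rightInverse_of_surjective
    (LinearMap.range_rangeRestrict _)
  obtain ⟨s, hs⟩ := LinearMap.exists_extend g
  refine ⟨D.subtype ∘ₗ s, fun y => (s y).2, fun x hx => ?_⟩
  have h1 := LinearMap.congr_fun hs ⟨f x, ⟨x, hx⟩, rfl⟩
  have h2 := congrArg Subtype.val (LinearMap.congr_fun hg ⟨f x, ⟨x, hx⟩, rfl⟩)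
  simp only [LinearMap.comp_apply, Submodule.subtype_apply] at h1 h2 ⊢
  rw [h1]
  exact h2

theorem tmul_mem_tens {D : Submodule K M} {E : Submodule K P} {x : M} {y : P}
    (hx : x ∈ D) (hy : y ∈ E) : x ⊗ₜ[K] y ∈ tens D E := by
  exact Submodule.apply_mem_map₂ (TensorProduct.mk K M P) hx hy

theorem tens_mono {D D' : Submodule K M} {E E' : Submodule K P} (h : D ≤ D') (h' : E ≤ E') :
    tens D E ≤ tens D' E' := by
  exact Submodule.map₂_le_map₂ h h'

theorem tens_induction {D : Submodule K M} {E : Submodule K P} {C : M ⊗[K] P → Prop}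
    {ξ : M ⊗[K] P} (hξ : ξ ∈ tens D E) (h0 : C 0)
    (htmul : ∀ x ∈ D, ∀ y ∈ E, C (x ⊗ₜ[K] y)) (hadd : ∀ a b, C a → C b → C (a + b)) : C ξ := by
  have key : ∀ ξ ∈ tens D E, ∀ c : K, C (c • ξ) := by
    intro ξ hξ
    rw [tens, Submodule.map₂_eq_span_image2] at hξ
    induction hξ using Submodule.span_induction with
    | mem x hx =>
      obtain ⟨a, ha, b, hb, rfl⟩ := hx
      intro c
      exact htmul _ (D.smul_mem c ha) _ hb
    | zero => intro c; rw [smul_zero]; exact h0
    | add x y _ _ h1 h2 => intro c; rw [smul_add]; exact hadd _ _ (h1 c) (h2 c)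
    | smul a x _ h1 => intro c; rw [smul_smul]; exact h1 _
  simpa using key ξ hξ 1

@[simp] theorem tens_bot_left (E : Submodule K P) : tens (⊥ : Submodule K M) E = ⊥ := by
  exact Submodule.map₂_bot_left _ _

@[simp] theorem tens_bot_right (D : Submodule K M) : tens D (⊥ : Submodule K P) = ⊥ := by
  exact Submodule.map₂_bot_right _ _

theorem tens_sup_left (D D' : Submodule K M) (E : Submodule K P) :
    tens (D ⊔ D') E = tens D E ⊔ tens D' E := by
  exact Submodule.map₂_sup_left _ _ _ _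

theorem tens_sup_right (D : Submodule K M) (E E' : Submodule K P) :
    tens D (E ⊔ E') = tens D E ⊔ tens D E' := by
  exact Submodule.map₂_sup_right _ _ _ _

theorem map_mem_tens {D : Submodule K M} {E : Submodule K P} {D' : Submodule K M'}
    {E' : Submodule K P'} (f : M →ₗ[K] M') (g : P →ₗ[K] P') (hf : ∀ x ∈ D, f x ∈ D')
    (hg : ∀ y ∈ E, g y ∈ E') {ξ : M ⊗[K] P} (hξ : ξ ∈ tens D E) :
    TensorProduct.map f g ξ ∈ tens D' E' := by
  refine tens_induction (C := fun ξ => TensorProduct.map f g ξ ∈ tens D' E') hξ (by simp) ?_ ?_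
  · intro x hx y hy
    exact tmul_mem_tens (hf x hx) (hg y hy)
  · intro a b ha hb
    rw [map_add]
    exact add_mem ha hb

theorem map_congr_tens {D : Submodule K M} {E : Submodule K P} {f f' : M →ₗ[K] M'}
    {g g' : P →ₗ[K] P'} (hf : ∀ x ∈ D, f x = f' x) (hg : ∀ y ∈ E, g y = g' y)
    {ξ : M ⊗[K] P} (hξ : ξ ∈ tens D E) :
    TensorProduct.map f g ξ = TensorProduct.map f' g' ξ := by
  refine tens_induction (C := fun ξ => TensorProduct.map f g ξ = TensorProduct.map f' g' ξ) hξ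
    (by simp) ?_ ?_
  · intro x hx y hy
    simp [hf x hx, hg y hy]
  · intro a b ha hb
    rw [map_add, map_add, ha, hb]

theorem mem_tens_inf_ker_left {D : Submodule K M} {E : Submodule K P} (f : M →ₗ[K] M')
    {ξ : M ⊗[K] P} (hξ : ξ ∈ tens D E) (h : TensorProduct.map f LinearMap.id ξ = 0) :
    ξ ∈ tens (D ⊓ LinearMap.ker f) E := by
  obtain ⟨s, hs, hs'⟩ := exists_ginv f D
  have h1 : TensorProduct.map (LinearMap.id - s ∘ₗ f) LinearMap.id ξ = ξ := by
    have h2 : TensorProduct.map (s ∘ₗ f) (LinearMap.id : P →ₗ[K] P) ξ = 0 := by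
      rw [← LinearMap.id_comp (LinearMap.id : P →ₗ[K] P), TensorProduct.map_comp,
        LinearMap.comp_apply, h, map_zero]
    rw [← LinearMap.rTensor_def] at h2 ⊢
    rw [LinearMap.rTensor_sub, LinearMap.sub_apply, h2]
    simp
  rw [← h1]
  refine map_mem_tens _ _ (fun x hx => Submodule.mem_inf.2 ⟨sub_mem hx (hs _), ?_⟩) (fun y hy => hy) hξ
  simp [hs' x hx]

theorem mem_tens_inf_ker_right {D : Submodule K M} {E : Submodule K P} (g : P →ₗ[K] P')
    {ξ : M ⊗[K] P} (hξ : ξ ∈ tens D E) (h : TensorProduct.map LinearMap.id g ξ = 0) :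
    ξ ∈ tens D (E ⊓ LinearMap.ker g) := by
  obtain ⟨s, hs, hs'⟩ := exists_ginv g E
  have h1 : TensorProduct.map LinearMap.id (LinearMap.id - s ∘ₗ g) ξ = ξ := by
    have h2 : TensorProduct.map (LinearMap.id : M →ₗ[K] M) (s ∘ₗ g) ξ = 0 := by
      rw [← LinearMap.id_comp (LinearMap.id : M →ₗ[K] M), TensorProduct.map_comp,
        LinearMap.comp_apply, h, map_zero]
    rw [← LinearMap.lTensor_def] at h2 ⊢
    rw [LinearMap.lTensor_sub, LinearMap.sub_apply, h2]
    simp
  rw [← h1]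
  refine map_mem_tens _ _ (fun y hy => hy) (fun x hx => Submodule.mem_inf.2 ⟨sub_mem hx (hs _), ?_⟩) hξ
  simp [hs' x hx]

theorem tens_inf_tens (D D' : Submodule K M) (E E' : Submodule K P) :
    tens D E ⊓ tens D' E' = tens (D ⊓ D') (E ⊓ E') := by
  refine le_antisymm ?_ (le_inf (tens_mono inf_le_left inf_le_left)
    (tens_mono inf_le_right inf_le_right))
  rintro ξ ⟨h1, h2⟩
  have h3 : TensorProduct.map D'.mkQ LinearMap.id ξ = 0 := by
    have := map_mem_tens (D' := ⊥) (E' := ⊤) D'.mkQ LinearMap.id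
      (fun x hx => by simpa using hx) (fun _ _ => trivial) h2
    simpa using this
  have h4 : TensorProduct.map LinearMap.id E'.mkQ ξ = 0 := by
    have := map_mem_tens (D' := ⊤) (E' := ⊥) LinearMap.id E'.mkQ
      (fun _ _ => trivial) (fun x hx => by simpa using hx) h2
    simpa using this
  have h5 := mem_tens_inf_ker_right _ (mem_tens_inf_ker_left _ h1 h3) h4
  rwa [Submodule.ker_mkQ, Submodule.ker_mkQ] at h5

theorem finite_tens (D : Submodule K M) (E : Submodule K P) [Module.Finite K D]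
    [Module.Finite K E] : Module.Finite K (tens D E) := by
  rw [tens, ← TensorProduct.range_mapIncl]
  infer_instance

theorem finrank_tens (D : Submodule K M) (E : Submodule K P) :
    Module.finrank K (tens D E) = Module.finrank K D * Module.finrank K E := by
  rw [tens, ← TensorProduct.range_mapIncl, LinearMap.finrank_range_of_inj,
    Module.finrank_tensorProduct]
  exact TensorProduct.map_injective_of_flat_flat _ _ D.injective_subtype E.injective_subtype

/-- dimension of `D' ⊗ E + D ⊗ E'` for nested subspaces. -/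
theorem finrank_tens_sup {D D' : Submodule K M} {E E' : Submodule K P} [Module.Finite K D]
    [Module.Finite K E] (h : D' ≤ D) (h' : E' ≤ E) :
    Module.finrank K ↥(tens D' E ⊔ tens D E') + Module.finrank K D' * Module.finrank K E' =
      Module.finrank K D' * Module.finrank K E + Module.finrank K D * Module.finrank K E' := by
  have := Submodule.finiteDimensional_of_le h
  have := Submodule.finiteDimensional_of_le h'
  have := finite_tens D' E
  have := finite_tens D E'
  have h1 := Submodule.finrank_sup_add_finrank_inf_eq (tens D' E) (tens D E')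
  rwa [tens_inf_tens, inf_eq_left.2 h, inf_eq_right.2 h', finrank_tens, finrank_tens,
    finrank_tens] at h1

/-- Exactness at level `l` of the subquotient complex `D / D'`. -/
def Ex (d : M →ₗ[K] M) (D D' : ℤ → Submodule K M) (l : ℤ) : Prop :=
  ∀ x ∈ D l, d x ∈ D' (l + 1) → ∃ y ∈ D (l - 1), x - d y ∈ D' l

/-- The differential of the tensor product of a complex with a two-term complex. -/
noncomputable def coneD (d : M →ₗ[K] M) (δ : P0 →ₗ[K] P1) :
    (M ⊗[K] P0) × (M ⊗[K] P1) →ₗ[K] (M ⊗[K] P0) × (M ⊗[K] P1) :=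
  LinearMap.prod (TensorProduct.map d LinearMap.id ∘ₗ LinearMap.fst K _ _)
    (TensorProduct.map LinearMap.id δ ∘ₗ LinearMap.fst K _ _ -
      TensorProduct.map d LinearMap.id ∘ₗ LinearMap.snd K _ _)

theorem coneD_apply (d : M →ₗ[K] M) (δ : P0 →ₗ[K] P1) (ξ : (M ⊗[K] P0) × (M ⊗[K] P1)) :
    coneD d δ ξ = (TensorProduct.map d LinearMap.id ξ.1,
      TensorProduct.map LinearMap.id δ ξ.1 - TensorProduct.map d LinearMap.id ξ.2) := rfl

theorem map_map_comm (d : M →ₗ[K] M') (δ : P0 →ₗ[K] P1) (x : M ⊗[K] P0) :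
    TensorProduct.map LinearMap.id δ (TensorProduct.map d LinearMap.id x) =
      TensorProduct.map d LinearMap.id (TensorProduct.map LinearMap.id δ x) := by
  induction x with
  | zero => simp
  | tmul a b => simp
  | add a b ha hb => simp only [map_add, ha, hb]

theorem map_map_zero (d : M →ₗ[K] M) (hd : ∀ x, d (d x) = 0) (x : M ⊗[K] P) :
    TensorProduct.map d LinearMap.id (TensorProduct.map d LinearMap.id x) = 0 := by
  induction x with
  | zero => simp
  | tmul a b => simp [hd]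
  | add a b ha hb => rw [map_add, map_add, ha, hb, add_zero]

theorem coneD_coneD (d : M →ₗ[K] M) (δ : P0 →ₗ[K] P1) (hd : ∀ x, d (d x) = 0)
    (ξ : (M ⊗[K] P0) × (M ⊗[K] P1)) : coneD d δ (coneD d δ ξ) = 0 := by
  refine Prod.ext (map_map_zero d hd ξ.1) ?_
  simp only [coneD_apply, map_sub, map_map_zero d hd, map_map_comm d δ, sub_zero, sub_self,
    Prod.snd_zero]

/-- The level `l` part of the tensor product of a graded family with a two-term family. -/
def box (D : ℤ → Submodule K M) (E0 : Submodule K P0) (E1 : Submodule K P1) (l : ℤ) :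
    Submodule K ((M ⊗[K] P0) × (M ⊗[K] P1)) :=
  (tens (D l) E0).prod (tens (D (l - 1)) E1)

theorem coneD_mem_box {d : M →ₗ[K] M} {δ : P0 →ₗ[K] P1} {D : ℤ → Submodule K M}
    {E0 : Submodule K P0} {E1 : Submodule K P1} (hD : ∀ l, ∀ x ∈ D l, d x ∈ D (l + 1))
    (hE : ∀ p ∈ E0, δ p ∈ E1) {l : ℤ} {ξ} (hξ : ξ ∈ box D E0 E1 l) :
    coneD d δ ξ ∈ box D E0 E1 (l + 1) := by
  refine ⟨map_mem_tens _ _ (hD l) (fun _ h => h) hξ.1, ?_⟩
  rw [add_sub_cancel_right]
  refine sub_mem (map_mem_tens _ _ (fun _ h => h) hE hξ.1)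
    (map_mem_tens _ _ (fun x hx => ?_) (fun _ h => h) hξ.2)
  simpa using hD _ x hx

theorem box_inf_box (D D' : ℤ → Submodule K M) (E0 E0' : Submodule K P0)
    (E1 E1' : Submodule K P1) (l : ℤ) :
    box D E0 E1 l ⊓ box D' E0' E1' l = box (fun l => D l ⊓ D' l) (E0 ⊓ E0') (E1 ⊓ E1') l := by
  simp only [box, Submodule.prod_inf_prod, tens_inf_tens]

theorem tens_ex (d : M →ₗ[K] M) {D D' : ℤ → Submodule K M} {E E' : Submodule K P} {l : ℤ}
    (h : Ex d D D' l) {x : M ⊗[K] P} (hx : x ∈ tens (D l) E)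
    (hd : TensorProduct.map d LinearMap.id x ∈ tens (D' (l + 1)) E ⊔ tens (D (l + 1)) E') :
    ∃ η ∈ tens (D (l - 1)) E,
      x - TensorProduct.map d LinearMap.id η ∈ tens (D' l) E ⊔ tens (D l) E' := by
  obtain ⟨s, hs, hs'⟩ := exists_ginv E'.mkQ E
  let π : P →ₗ[K] P := s ∘ₗ E'.mkQ
  have h1 : x - TensorProduct.map LinearMap.id π x ∈ tens (D l) E' := by
    have e : x - TensorProduct.map LinearMap.id π x =
        TensorProduct.map LinearMap.id (LinearMap.id - π) x := by
      rw [← LinearMap.lTensor_def, ← LinearMap.lTensor_def, LinearMap.lTensor_sub]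
      simp
    rw [e]
    exact map_mem_tens _ _ (fun _ h => h)
      (fun p hp => (Submodule.Quotient.eq E').1 (hs' p hp).symm) hx
  have h2 : TensorProduct.map ((D' (l + 1)).mkQ ∘ₗ d) LinearMap.id
      (TensorProduct.map LinearMap.id π x) = 0 := by
    obtain ⟨u, hu, v, hv, huv⟩ := Submodule.mem_sup.1 hd
    have a1 := map_mem_tens (D' := ⊥) (E' := ⊤) (D' (l + 1)).mkQ π
      (fun x hx => by simpa using hx) (fun _ _ => trivial) hu
    have a2 := map_mem_tens (D' := ⊤) (E' := ⊥) (D' (l + 1)).mkQ π (fun _ _ => trivial)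
      (fun p hp => by simp [π, (Submodule.Quotient.mk_eq_zero E').2 hp]) hv
    simp only [tens_bot_left, tens_bot_right, Submodule.mem_bot] at a1 a2
    have a3 := congrArg (TensorProduct.map (D' (l + 1)).mkQ π) huv
    rw [map_add, a1, a2, add_zero, ← LinearMap.comp_apply, ← TensorProduct.map_comp] at a3
    rw [← LinearMap.comp_apply, ← TensorProduct.map_comp]
    exact a3.symm
  have h3 := mem_tens_inf_ker_left _ (map_mem_tens (D' := D l) (E' := E) LinearMap.id π
    (fun _ h => h) (fun p _ => hs _) hx) h2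
  obtain ⟨η, h4, h5⟩ : ∃ η ∈ tens (D (l - 1)) E, TensorProduct.map LinearMap.id π x -
      TensorProduct.map d LinearMap.id η ∈ tens (D' l) E := by
    refine tens_induction (C := fun z => ∃ η ∈ tens (D (l - 1)) E,
      z - TensorProduct.map d LinearMap.id η ∈ tens (D' l) E) h3 ⟨0, zero_mem _, by simp⟩ ?_ ?_
    · rintro a ⟨a1, a2⟩ y hy
      obtain ⟨b, b1, b2⟩ := h a a1 ((Submodule.Quotient.mk_eq_zero _).1 a2)
      refine ⟨b ⊗ₜ y, tmul_mem_tens b1 hy, ?_⟩
      rw [TensorProduct.map_tmul, LinearMap.id_apply, ← sub_tmul]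
      exact tmul_mem_tens b2 hy
    · rintro a b ⟨η, a1, a2⟩ ⟨η', b1, b2⟩
      refine ⟨η + η', add_mem a1 b1, ?_⟩
      rw [map_add, add_sub_add_comm]
      exact add_mem a2 b2
  refine ⟨η, h4, ?_⟩
  have := add_mem (Submodule.mem_sup_left (T := tens (D l) E') h5) (Submodule.mem_sup_right h1)
  rwa [sub_add_sub_cancel'] at this

/-- Kuenneth type vanishing. -/
theorem kun (d : M →ₗ[K] M) (δ : P0 →ₗ[K] P1) (D D' : ℤ → Submodule K M)
    (E0 E0' : Submodule K P0) (E1 E1' : Submodule K P1)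
    (hDD : ∀ l, D' l ≤ D l) (hD : ∀ l, ∀ x ∈ D l, d x ∈ D (l + 1))
    (hD' : ∀ l, ∀ x ∈ D' l, d x ∈ D' (l + 1))
    (hE0 : E0' ≤ E0) (hE1 : E1' ≤ E1) (hδ : ∀ p ∈ E0, δ p ∈ E1) (hδ' : ∀ p ∈ E0', δ p ∈ E1')
    (l : ℤ)
    (h0 : (∀ p ∈ E0, δ p ∈ E1' → p ∈ E0') ∨ Ex d D D' l)
    (h1 : (∀ p ∈ E1, ∃ p0 ∈ E0, p - δ p0 ∈ E1') ∨ Ex d D D' (l - 1)) :
    Ex (coneD d δ) (box D E0 E1) (fun l => box D' E0 E1 l ⊔ box D E0' E1' l) l := by
  obtain ⟨s0, hs0, hs0'⟩ := exists_ginv (E1'.mkQ ∘ₗ δ) E0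
  let s : P1 →ₗ[K] P0 := s0 ∘ₗ E1'.mkQ
  have hs1 : ∀ p, s p ∈ E0 := fun p => hs0 _
  have hs2 : ∀ p ∈ E1', s p = 0 := fun p hp => by
    simp [s, (Submodule.Quotient.mk_eq_zero E1').2 hp]
  have hs3 : ∀ p ∈ E0, δ p - δ (s (δ p)) ∈ E1' := fun p hp =>
    (Submodule.Quotient.eq E1').1 (hs0' p hp).symm
  let π0 : P0 →ₗ[K] P0 := LinearMap.id - s ∘ₗ δ
  let π1 : P1 →ₗ[K] P1 := LinearMap.id - δ ∘ₗ s
  have hπ0 : ∀ p ∈ E0, π0 p ∈ E0 := fun p hp => sub_mem hp (hs1 _)
  have hπ0' : ∀ p ∈ E0', π0 p ∈ E0' := fun p hp => by simp [π0, hs2 _ (hδ' p hp), hp]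
  have hπ1 : ∀ p ∈ E1, π1 p ∈ E1 := fun p hp => sub_mem hp (hδ _ (hs1 _))
  have hπ1' : ∀ p ∈ E1', π1 p ∈ E1' := fun p hp => by simp [π1, hs2 _ hp, hp]
  have hδπ : ∀ p ∈ E0, δ (π0 p) ∈ E1' := fun p hp => by simpa [π0] using hs3 p hp
  rintro ⟨x0, x1⟩ ⟨hx0, hx1⟩ hξ
  obtain ⟨⟨a0, a1⟩, ⟨ha0, ha1⟩, ⟨b0, b1⟩, ⟨hb0, hb1⟩, hab⟩ := Submodule.mem_sup.1 hξ
  obtain ⟨e0, e1⟩ := Prod.ext_iff.1 hab
  simp only [coneD_apply, Prod.fst_add, Prod.snd_add] at e0 e1
  simp only [add_sub_cancel_right] at ha1 hb1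
  have id1 : ∀ (x : M ⊗[K] P0), TensorProduct.map LinearMap.id π0 x =
      x - TensorProduct.map LinearMap.id s (TensorProduct.map LinearMap.id δ x) := by
    intro x
    induction x with
    | zero => simp
    | tmul a b => simp [π0, tmul_sub]
    | add a b ha hb => simp only [map_add, ha, hb]; abel
  have id2 : ∀ (x : M ⊗[K] P1), TensorProduct.map LinearMap.id π1 x =
      x - TensorProduct.map LinearMap.id δ (TensorProduct.map LinearMap.id s x) := by
    intro x
    induction x with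
    | zero => simp
    | tmul a b => simp [π1, tmul_sub]
    | add a b ha hb => simp only [map_add, ha, hb]; abel
  have A : ∃ η ∈ tens (D (l - 1)) E0, TensorProduct.map LinearMap.id δ η ∈ tens (D (l - 1)) E1' ∧
      TensorProduct.map LinearMap.id π0 x0 - TensorProduct.map d LinearMap.id η ∈
        tens (D' l) E0 ⊔ tens (D l) E0' := by
    rcases h0 with h0 | h0
    · refine ⟨0, zero_mem _, by simp, ?_⟩
      rw [map_zero, sub_zero]
      exact Submodule.mem_sup_right (map_mem_tens _ _ (fun _ h => h)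
        (fun p hp => h0 _ (hπ0 p hp) (hδπ p hp)) hx0)
    · obtain ⟨η, h2, h3⟩ := tens_ex d h0 hx0 (e0 ▸ add_mem (Submodule.mem_sup_left ha0)
        (Submodule.mem_sup_right hb0))
      refine ⟨TensorProduct.map LinearMap.id π0 η, map_mem_tens _ _ (fun _ h => h) hπ0 h2, ?_, ?_⟩
      · rw [← LinearMap.comp_apply, ← TensorProduct.map_comp]
        exact map_mem_tens _ _ (fun _ h => h) hδπ h2
      · rw [← map_map_comm, ← map_sub]
        obtain ⟨u, hu, v, hv, huv⟩ := Submodule.mem_sup.1 h3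
        rw [← huv, map_add]
        exact add_mem (Submodule.mem_sup_left (map_mem_tens _ _ (fun _ h => h) hπ0 hu))
          (Submodule.mem_sup_right (map_mem_tens _ _ (fun _ h => h) hπ0' hv))
  have B : ∃ η ∈ tens (D (l - 1 - 1)) E1,
      TensorProduct.map LinearMap.id π1 x1 - TensorProduct.map d LinearMap.id η ∈
        tens (D' (l - 1)) E1 ⊔ tens (D (l - 1)) E1' := by
    rcases h1 with h1 | h1
    · refine ⟨0, zero_mem _, ?_⟩
      rw [map_zero, sub_zero]
      refine Submodule.mem_sup_right (map_mem_tens _ _ (fun _ h => h) (fun p hp => ?_) hx1)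
      obtain ⟨p0, h2, h3⟩ := h1 p hp
      have h4 := add_mem (hπ1' _ h3) (hs3 p0 h2)
      have h5 : π1 (p - δ p0) + (δ p0 - δ (s (δ p0))) = π1 p := by
        simp only [π1, LinearMap.sub_apply, LinearMap.id_apply, LinearMap.comp_apply, map_sub]
        abel
      rwa [h5] at h4
    · refine tens_ex d h1 (map_mem_tens _ _ (fun _ h => h) hπ1 hx1) ?_
      have e2 : TensorProduct.map d LinearMap.id x1 =
          TensorProduct.map LinearMap.id δ x0 - a1 - b1 := by
        rw [sub_sub, e1, sub_sub_cancel]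
      rw [sub_add_cancel, ← map_map_comm, e2, map_sub, map_sub, id2]
      refine sub_mem (sub_mem (Submodule.mem_sup_right ?_)
        (Submodule.mem_sup_left (map_mem_tens _ _ (fun _ h => h) hπ1 ha1)))
        (Submodule.mem_sup_right (map_mem_tens _ _ (fun _ h => h) hπ1' hb1))
      rw [← map_sub, ← id1, ← LinearMap.comp_apply, ← TensorProduct.map_comp]
      exact map_mem_tens _ _ (fun _ h => h) hδπ hx0
  obtain ⟨η0, a2, a3, a4⟩ := A
  obtain ⟨η1, b2, b3⟩ := B
  refine ⟨(TensorProduct.map LinearMap.id s x1 + η0, -η1),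
    ⟨add_mem (map_mem_tens _ _ (fun _ h => h) (fun p _ => hs1 p) hx1) a2, neg_mem b2⟩, ?_⟩
  simp only [box, Submodule.prod_sup_prod, coneD_apply, Submodule.mem_prod, Prod.fst_sub,
    Prod.snd_sub]
  constructor
  · have c1 := map_mem_tens (D' := D' l) (E' := E0) LinearMap.id s (fun _ h => h)
      (fun p _ => hs1 p) ha1
    have c2 := map_mem_tens (D' := D l) (E' := ⊥) LinearMap.id s (fun _ h => h) hs2 hb1
    rw [tens_bot_right, Submodule.mem_bot] at c2
    have c3 := congrArg (TensorProduct.map LinearMap.id s) e1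
    rw [map_add, c2, add_zero, map_sub, map_map_comm d s] at c3
    have c4 := add_mem a4 (Submodule.mem_sup_left c1)
    rw [c3, id1] at c4
    rw [map_add]
    convert c4 using 1
    abel
  · have c4 := sub_mem b3 (Submodule.mem_sup_right a3)
    rw [id2] at c4
    rw [map_add, map_neg]
    convert c4 using 1
    abel

end Vale.Agent.P202
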