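import Mathlib

/-! Two-chart cohomology of a flag of balanced subbundles of a trivial bundle on the line. -/

namespace Vale.Agent.P202

variable (K : Type*) [Field K] (m : ℕ)

/-- `m`-tuples of Laurent polynomials, as finitely supported coefficient families. -/
abbrev LW : Type _ := (Fin m × ℤ) →₀ K

/-- tuples of polynomials in `z`. -/
noncomputable def Wp : Submodule K (LW K m) := Finsupp.supported K K {x | 0 ≤ x.2}

/-- tuples of elements of `z^t K[1/z]`. -/
noncomputable def Wm (t : ℤ) : Submodule K (LW K m) := Finsupp.supported K K {x | x.2 ≤ t}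

/-- multiplication by `z^j`. -/
noncomputable def zsh (j : ℤ) : LW K m →ₗ[K] LW K m :=
  Finsupp.lmapDomain K K (fun x => (x.1, x.2 + j))

variable {K m}

/-- the linear form `f ↦ ∑ e, β e ^ i * (coefficient of z^(s-e) in f e)`. -/
noncomputable def lam (β : Fin m → K) (i : ℕ) (s : ℤ) : LW K m →ₗ[K] K :=
  ∑ e : Fin m, β e ^ i • Finsupp.lapply (e, s - (e : ℕ))

/-- the `c`-th member of the flag. -/
noncomputable def Gc (β : Fin m → K) (c : ℤ) : Submodule K (LW K m) :=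
  ⨅ (i : ℕ) (_ : (i : ℤ) < c) (s : ℤ), LinearMap.ker (lam β i s)

theorem mem_Wp {f : LW K m} : f ∈ Wp K m ↔ ∀ e r, r < 0 → f (e, r) = 0 := by
  simp [Wp, Finsupp.mem_supported']

theorem mem_Wm {f : LW K m} {t : ℤ} : f ∈ Wm K m t ↔ ∀ e r, t < r → f (e, r) = 0 := by
  simp [Wm, Finsupp.mem_supported']

theorem mem_Gc {β : Fin m → K} {c : ℤ} {f : LW K m} : f ∈ Gc β c ↔
    ∀ i : ℕ, (i : ℤ) < c → ∀ s : ℤ, ∑ e : Fin m, β e ^ i * f (e, s - (e : ℕ)) = 0 := by
  simp [Gc, lam, Submodule.mem_iInf]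

theorem vand' {β : Fin m → K} (hβ : Function.Injective β) {c : ℤ} (S : Finset (Fin m))
    (hS : (S.card : ℤ) ≤ c) (x : Fin m → K) (hx : ∀ e, e ∉ S → x e = 0)
    (h : ∀ i : ℕ, (i : ℤ) < c → ∑ e, β e ^ i * x e = 0) (e0 : Fin m) : x e0 = 0 := by
  by_contra hne
  have he : e0 ∈ S := by
    by_contra h'
    exact hne (hx _ h')
  let q : Polynomial K := ∏ e ∈ S.erase e0, (Polynomial.X - Polynomial.C (β e))
  have hq : q.natDegree + 1 = S.card := by
    rw [Polynomial.natDegree_prod_of_monic _ _ fun _ _ => Polynomial.monic_X_sub_C _]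
    simp [Finset.card_erase_add_one he]
  have h1 : ∑ e, q.eval (β e) * x e = 0 := by
    simp only [Polynomial.eval_eq_sum_range, Finset.sum_mul]
    rw [Finset.sum_comm]
    refine Finset.sum_eq_zero fun i hi => ?_
    simp only [mul_assoc, ← Finset.mul_sum]
    rw [h i (by have := Finset.mem_range.1 hi; omega), mul_zero]
  rw [Finset.sum_eq_single e0] at h1
  · refine mul_ne_zero ?_ hne h1
    simp only [q, Polynomial.eval_prod, Polynomial.eval_sub, Polynomial.eval_X, Polynomial.eval_C]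
    exact Finset.prod_ne_zero_iff.2 fun e he =>
      sub_ne_zero.2 fun h => (Finset.mem_erase.1 he).1 (hβ h).symm
  · intro e _ hee
    by_cases h2 : e ∈ S
    · rw [Polynomial.eval_prod, Finset.prod_eq_zero (Finset.mem_erase.2 ⟨hee, h2⟩) (by simp),
        zero_mul]
    · rw [hx e h2, mul_zero]
  · simp

theorem vand {β : Fin m → K} (hβ : Function.Injective β) {c : ℤ} (a b : ℤ) (hab : b + 1 - a ≤ c)
    (x : Fin m → K) (hx : ∀ e : Fin m, (e : ℤ) < a ∨ b < e → x e = 0)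
    (h : ∀ i : ℕ, (i : ℤ) < c → ∑ e, β e ^ i * x e = 0) (e0 : Fin m) : x e0 = 0 := by
  by_cases h0 : (e0 : ℤ) < a ∨ b < e0
  · exact hx _ h0
  refine vand' hβ (Finset.univ.filter fun e : Fin m => a ≤ e ∧ (e : ℤ) ≤ b) ?_ x
    (fun e he => hx e (by simp at he; omega)) h e0
  have : (Finset.univ.filter fun e : Fin m => a ≤ e ∧ (e : ℤ) ≤ b).card ≤ (Finset.Icc a b).card := by
    refine Finset.card_le_card_of_injOn (fun e => (e : ℤ)) (fun e he => by simpa using he)
      fun e _ e' _ h => Fin.ext (by simpa using h)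
  rw [Int.card_Icc] at this
  omega

theorem zsh_apply (j : ℤ) (f : LW K m) (e : Fin m) (r : ℤ) : zsh K m j f (e, r) = f (e, r - j) := by
  have h : Function.Injective (fun x : Fin m × ℤ => (x.1, x.2 + j)) := by
    rintro ⟨a, b⟩ ⟨c, d⟩ h
    simpa using h
  have := Finsupp.mapDomain_apply h f (e, r - j)
  simpa [zsh] using this

theorem zsh_zero (f : LW K m) : zsh K m 0 f = f := by
  ext ⟨e, r⟩
  simp [zsh_apply]

theorem zsh_zsh (i j : ℤ) (f : LW K m) : zsh K m i (zsh K m j f) = zsh K m (i + j) f := by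
  ext ⟨e, r⟩
  simp [zsh_apply, sub_sub]

theorem zsh_single (j : ℤ) (e : Fin m) (r : ℤ) (x : K) :
    zsh K m j (Finsupp.single (e, r) x) = Finsupp.single (e, r + j) x := by
  simp [zsh]

theorem zsh_mem_Wp {j : ℤ} (hj : 0 ≤ j) {f : LW K m} (hf : f ∈ Wp K m) : zsh K m j f ∈ Wp K m := by
  refine mem_Wp.2 fun e r hr => ?_
  rw [zsh_apply]
  exact mem_Wp.1 hf _ _ (by omega)

theorem zsh_mem_Wm (j : ℤ) {t : ℤ} {f : LW K m} (hf : f ∈ Wm K m t) :
    zsh K m j f ∈ Wm K m (t + j) := by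
  refine mem_Wm.2 fun e r hr => ?_
  rw [zsh_apply]
  exact mem_Wm.1 hf _ _ (by omega)

theorem Wm_mono {s t : ℤ} (h : s ≤ t) : Wm K m s ≤ Wm K m t := by
  exact fun f hf => mem_Wm.2 fun e r hr => mem_Wm.1 hf _ _ (by omega)

theorem zsh_mem_Gc (β : Fin m → K) (j : ℤ) {c : ℤ} {f : LW K m} (hf : f ∈ Gc β c) :
    zsh K m j f ∈ Gc β c := by
  refine mem_Gc.2 fun i hi s => ?_
  rw [← mem_Gc.1 hf i hi (s - j)]
  refine Finset.sum_congr rfl fun e _ => ?_
  rw [zsh_apply, sub_right_comm]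

theorem Gc_anti (β : Fin m → K) {c c' : ℤ} (h : c ≤ c') : Gc β c' ≤ Gc β c := by
  exact fun f hf => mem_Gc.2 fun i hi s => mem_Gc.1 hf i (by omega) s

theorem Gc_eq_top (β : Fin m → K) {c : ℤ} (h : c ≤ 0) : Gc β c = ⊤ := by
  exact eq_top_iff.2 fun f _ => mem_Gc.2 fun i hi s => by omega

theorem Wp_inf_Wm_eq_bot {t : ℤ} (ht : t ≤ -1) : Wp K m ⊓ Wm K m t = ⊥ := by
  refine eq_bot_iff.2 fun f hf => ?_
  ext ⟨e, r⟩
  by_cases h : r < 0
  · exact mem_Wp.1 hf.1 _ _ h
  · exact mem_Wm.1 hf.2 _ _ (by omega)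

theorem Wp_sup_Wm {t : ℤ} (ht : -1 ≤ t) : Wp K m ⊔ Wm K m t = ⊤ := by
  rw [Wp, Wm, ← Finsupp.supported_union, ← Finsupp.supported_univ]
  congr 1
  ext ⟨e, r⟩
  simp only [Set.mem_union, Set.mem_ofPred_eq, Set.mem_univ, iff_true]
  omega

/-- no global sections of the subbundle in low degree. -/
theorem Wp_inf_Wm_inf_Gc {β : Fin m → K} (hβ : Function.Injective β) {c t : ℤ} (ht : t ≤ c - 1) :
    Wp K m ⊓ Wm K m t ⊓ Gc β c = ⊥ := by
  refine eq_bot_iff.2 fun f hf => ?_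
  ext ⟨e, r⟩
  have h := vand hβ (c := c) (r + e - t) (r + e) (by omega) (fun e' => f (e', r + e - (e' : ℕ)))
    (fun e' he => he.elim (fun h => mem_Wm.1 hf.1.2 _ _ (by omega))
      fun h => mem_Wp.1 hf.1.1 _ _ (by omega)) (fun i hi => mem_Gc.1 hf.2 i hi _) e
  simpa using h

/-- no global sections of the quotient bundle in low degree. -/
theorem mem_Gc_of_sub_mem {β : Fin m → K} (hβ : Function.Injective β) {c t : ℤ} (ht : t ≤ -1)
    (ht' : t ≤ c - 1 - m) {p p' : LW K m} (hp : p ∈ Wp K m) (hp' : p' ∈ Wm K m t)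
    (h : p - p' ∈ Gc β c) : p ∈ Gc β c ∧ p' ∈ Gc β c := by
  have key : ∀ s : ℤ, (∀ e : Fin m, p (e, s - (e : ℕ)) = 0) ∨
      ∀ e : Fin m, p' (e, s - (e : ℕ)) = 0 := by
    intro s
    by_cases h1 : s < 0
    · exact Or.inl fun e => mem_Wp.1 hp _ _ (by omega)
    by_cases h2 : (m : ℤ) - 1 < s - t
    · exact Or.inr fun e => mem_Wm.1 hp' _ _ (by omega)
    left
    intro e
    by_cases h3 : s < e
    · exact mem_Wp.1 hp _ _ (by omega)
    have h4 := vand' hβ (c := c) (Finset.univ.filter fun e' : Fin m => ¬ (s < e' ∧ (e' : ℤ) < s - t))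
      (by
        have a1 := Finset.card_filter_add_card_filter_not (s := Finset.univ)
          (p := fun e' : Fin m => s < e' ∧ (e' : ℤ) < s - t)
        have a2 : (Finset.Ioo s (s - t)).card ≤
            (Finset.univ.filter fun e' : Fin m => s < e' ∧ (e' : ℤ) < s - t).card := by
          refine Finset.card_le_card_of_surjOn (fun e' : Fin m => (e' : ℤ)) fun x hx => ?_
          obtain ⟨b1, b2⟩ := Finset.mem_Ioo.1 (Finset.mem_coe.1 hx)
          refine ⟨⟨x.toNat, by omega⟩, ?_, by simp; omega⟩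
          simp
          omega
        simp only [Finset.card_univ, Fintype.card_fin, Int.card_Ioo] at a1 a2
        omega) (fun e' => (p - p') (e', s - (e' : ℕ))) (fun e' he => by
        simp only [Finset.mem_filter, Finset.mem_univ, true_and, not_not] at he
        rw [Finsupp.sub_apply, mem_Wp.1 hp _ _ (by omega), mem_Wm.1 hp' _ _ (by omega), sub_zero])
      (fun i hi => mem_Gc.1 h i hi s) e
    rwa [Finsupp.sub_apply, mem_Wm.1 hp' _ _ (by omega), sub_zero] at h4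
  have h1 : p ∈ Gc β c := by
    refine mem_Gc.2 fun i hi s => ?_
    rcases key s with h2 | h2
    · simp [h2]
    · simpa [h2] using mem_Gc.1 h i hi s
  exact ⟨h1, by simpa using sub_mem h1 h⟩

theorem Wp_inf_Wm_eq (t : ℤ) : Wp K m ⊓ Wm K m t =
    Finsupp.supported K K ↑((Finset.univ : Finset (Fin m)) ×ˢ Finset.Icc (0 : ℤ) t) := by
  rw [Wp, Wm, ← Finsupp.supported_inter]
  congr 1
  ext ⟨e, r⟩
  simp

theorem finite_Wp_inf_Wm (t : ℤ) : Module.Finite K ↥(Wp K m ⊓ Wm K m t) := by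
  rw [Wp_inf_Wm_eq]
  exact Module.Finite.equiv (Finsupp.supportedEquivFinsupp (R := K) (M := K) _).symm

theorem finrank_Wp_inf_Wm {t : ℤ} (ht : -1 ≤ t) :
    (Module.finrank K ↥(Wp K m ⊓ Wm K m t) : ℤ) = m * (t + 1) := by
  rw [Wp_inf_Wm_eq, (Finsupp.supportedEquivFinsupp (R := K) (M := K) _).finrank_eq,
    Module.finrank_finsupp_self]
  simp only [Finset.coe_sort_coe, Fintype.card_coe, Finset.card_product, Finset.card_univ,
    Fintype.card_fin, Int.card_Icc]
  push_cast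
  congr 1
  omega

theorem le_finrank_Wp_inf_Wm_inf_Gc {β : Fin m → K} (hβ : Function.Injective β) {c t : ℤ}
    (hc : 0 ≤ c) (hcm : c ≤ m) (hct : c ≤ t + 1) :
    ((m : ℤ) - c) * (t + 1 - c) ≤ Module.finrank K ↥(Wp K m ⊓ Wm K m t ⊓ Gc β c) := by
  have := finite_Wp_inf_Wm (K := K) (m := m) t
  obtain ⟨c, rfl⟩ := Int.eq_ofNat_of_zero_le hc
  let J : Finset (Σ _ : ℕ, ℤ) := (Finset.range c).sigma fun i => Finset.Icc (i : ℤ) (t + m - 1 - i)
  let Φ : LW K m →ₗ[K] (J → K) := LinearMap.pi fun j => lam β j.1.1 j.1.2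
  have hJ : ∀ k : ℕ, k ≤ c → ∑ i ∈ Finset.range k, ((Finset.Icc (i : ℤ) (t + m - 1 - i)).card : ℤ) =
      k * (t + m + 1 - k) := by
    intro k
    induction k with
    | zero => simp
    | succ k ih =>
      intro hk
      rw [Finset.sum_range_succ, ih (by omega), Int.card_Icc, Int.toNat_of_nonneg (by omega)]
      push_cast
      ring
  have h1 : (J.card : ℤ) = c * (t + m + 1 - c) := by
    rw [Finset.card_sigma, Nat.cast_sum, hJ c le_rfl]
  have h2 := LinearMap.finrank_range_add_finrank_ker (K := K) (V := ↥(Wp K m ⊓ Wm K m t))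
    (V₂ := J → K) (Φ.domRestrict (Wp K m ⊓ Wm K m t))
  have h3 := Submodule.finrank_le (LinearMap.range (Φ.domRestrict (Wp K m ⊓ Wm K m t)))
  rw [Module.finrank_fintype_fun_eq_card, Fintype.card_coe] at h3
  have h4 : Wp K m ⊓ Wm K m t ⊓ LinearMap.ker Φ ≤ Wp K m ⊓ Wm K m t ⊓ Gc β c := by
    rintro f ⟨hf, hf'⟩
    have a1 : ∀ (i : ℕ) (s : ℤ), i < c → i ≤ s → s ≤ t + m - 1 - i →
        ∑ e : Fin m, β e ^ i * f (e, s - (e : ℕ)) = 0 := by
      intro i s b1 b2 b3
      have := congrFun (LinearMap.mem_ker.1 hf') ⟨⟨i, s⟩, by simp [J, b1, b2, b3]⟩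
      simpa [Φ, lam] using this
    refine ⟨hf, mem_Gc.2 fun i hi s => ?_⟩
    by_cases b : i ≤ s ∧ s ≤ t + m - 1 - i
    · exact a1 i s (by omega) b.1 b.2
    refine Finset.sum_eq_zero fun e _ => ?_
    rw [vand hβ (c := min (s + 1) (t + m - s)) (max 0 (s - t)) (min s (m - 1)) (by omega)
      (fun e' => f (e', s - (e' : ℕ))) (fun e' he => he.elim
        (fun h => mem_Wm.1 hf.2 _ _ (by omega)) fun h => mem_Wp.1 hf.1 _ _ (by omega))
      (fun i' hi' => a1 i' s (by omega) (by omega) (by omega)) e, mul_zero]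
  have h5 : Module.Finite K ↥(Wp K m ⊓ Wm K m t ⊓ Gc β c) :=
    Submodule.finiteDimensional_of_le inf_le_left
  have h6 := Submodule.finrank_mono h4
  rw [LinearMap.ker_domRestrict, ← Submodule.finrank_map_subtype_eq,
    Submodule.map_comap_subtype] at h2
  have h7 := finrank_Wp_inf_Wm (K := K) (m := m) (t := t) (by omega)
  have h8 : ((m : ℤ) - c) * (t + 1 - c) = m * (t + 1) - c * (t + m + 1 - c) := by ring
  omega

/-- polynomial tuples of degree at most `t` are spanned by shifted basis vectors. -/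
theorem Wp_inf_Wm_le_span (t : ℤ) : Wp K m ⊓ Wm K m t ≤
    Submodule.span K {f | ∃ (e : Fin m) (r : ℕ), (r : ℤ) ≤ t ∧ f = Finsupp.single (e, (r : ℤ)) 1} := by
  rw [Wp, Wm, ← Finsupp.supported_inter, Finsupp.supported_eq_span_single]
  refine Submodule.span_mono ?_
  rintro _ ⟨⟨e, r⟩, ⟨h1, h2⟩, rfl⟩
  obtain ⟨r, rfl⟩ := Int.eq_ofNat_of_zero_le h1
  exact ⟨e, r, h2, rfl⟩

end Vale.Agent.P202
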