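import Vale.Agent.P202.Defs
import Vale.Agent.P202.PSMap

/-! Auxiliary results for the localisation step: choice of the prime, generators of a prime of
a power series ring after localisation, comparison of lengths. -/

namespace Vale.Agent.P202

open IsLocalRing Filter Topology

theorem dimNat_eq_height (A : Type*) [CommRing A] [IsLocalRing A] [IsNoetherianRing A] :
    (dimNat A : ℕ∞) = (maximalIdeal A).height := by
  unfold dimNat
  rw [← IsLocalRing.maximalIdeal_height_eq_ringKrullDim]
  exact ENat.natCast_toNat Ideal.height_ne_top_of_isPrime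

theorem ringKrullDim_le_of_primary {A : Type*} [CommRing A] [IsLocalRing A] [IsNoetherianRing A]
    {c : ℕ} (x : Fin c → A) (hx : ∀ i, x i ∈ maximalIdeal A) (L : ℕ)
    (hL : maximalIdeal A ^ L ≤ Ideal.span (Set.range x)) : ringKrullDim A ≤ c := by
  have hmin : maximalIdeal A ∈ (Ideal.span (Set.range x)).minimalPrimes := by
    refine ⟨⟨inferInstance, Ideal.span_le.mpr (Set.range_subset_iff.mpr hx)⟩, ?_⟩
    rintro J ⟨hJ, hxJ⟩ -
    exact Ideal.IsPrime.le_of_pow_le (hL.trans hxJ)
  have h1 := Ideal.height_le_card_of_mem_minimalPrimes_span (Set.finite_range x) hmin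
  have h2 : (Set.range x).ncard ≤ c := by
    have := Set.ncard_image_le (f := x) (s := Set.univ) Set.finite_univ
    rw [Set.image_univ, Set.ncard_univ, Nat.card_eq_fintype_card, Fintype.card_fin] at this
    exact this
  rw [← IsLocalRing.maximalIdeal_height_eq_ringKrullDim]
  exact WithBot.coe_le_coe.mpr (h1.trans (by exact_mod_cast h2))

/-- a minimal prime of the closed fibre of the largest dimension. -/
theorem exists_minimalPrime_dim (R S : Type*) [CommRing R] [IsLocalRing R] [IsNoetherianRing R]
    [CommRing S] [IsLocalRing S] [IsNoetherianRing S] [Algebra R S]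
    [IsLocalHom (algebraMap R S)] :
    ∃ Q ∈ ((maximalIdeal R).map (algebraMap R S)).minimalPrimes,
      ∀ (c : ℕ) (x : Fin c → S), (∀ i, x i ∈ maximalIdeal S) →
        (∃ L : ℕ, maximalIdeal S ^ L ≤ Ideal.span (Set.range x) ⊔ Q) →
        dimNat S ≤ dimNat R + c := by
  set I := (maximalIdeal R).map (algebraMap R S) with hI
  have hIn : I ≤ maximalIdeal S :=
    Ideal.map_le_iff_le_comap.mpr fun x hx => map_nonunit (algebraMap R S) x hx
  have hh := Ideal.height_le_height_add_of_liesOver (maximalIdeal R) (maximalIdeal S)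
  have hp : ((maximalIdeal S).map (Ideal.Quotient.mk I)).IsPrime :=
    Ideal.isPrime_map_quotientMk_of_isPrime hIn
  obtain ⟨lq, -, hlen⟩ :=
    ((maximalIdeal S).map (Ideal.Quotient.mk I)).exists_ltSeries_length_eq_height
  let l' : LTSeries (PrimeSpectrum S) :=
    lq.map (PrimeSpectrum.comap (Ideal.Quotient.mk I))
      (RingHom.strictMono_comap_of_surjective Ideal.Quotient.mk_surjective)
  have hhead : I ≤ l'.head.asIdeal := by
    simp only [LTSeries.head_map, l', PrimeSpectrum.comap_asIdeal]
    intro x hx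
    rw [Ideal.mem_comap, Ideal.Quotient.eq_zero_iff_mem.mpr hx]
    exact zero_mem _
  obtain ⟨Q, hQ, hQle⟩ := Ideal.exists_minimalPrimes_le hhead
  refine ⟨Q, hQ, fun c x hx ⟨L, hL⟩ => ?_⟩
  have hQp : Q.IsPrime := hQ.1.1
  let l'' : LTSeries (PrimeSpectrum.zeroLocus (R := S) Q) :=
    ⟨l'.length, fun i => ⟨l' i, hQle.trans (l'.monotone (Fin.zero_le i))⟩, fun i => l'.step i⟩
  have h1 : (l''.length : WithBot ℕ∞) ≤ ringKrullDim (S ⧸ Q) := by
    rw [ringKrullDim_quotient]
    exact Order.LTSeries.length_le_krullDim l''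
  have hloc : IsLocalRing (S ⧸ Q) :=
    IsLocalRing.of_surjective' (Ideal.Quotient.mk Q) Ideal.Quotient.mk_surjective
  have hm : (maximalIdeal S).map (Ideal.Quotient.mk Q) = maximalIdeal (S ⧸ Q) :=
    IsLocalRing.map_maximalIdeal_of_surjective _ Ideal.Quotient.mk_surjective
  have h2 : ringKrullDim (S ⧸ Q) ≤ c := by
    refine ringKrullDim_le_of_primary (Ideal.Quotient.mk Q ∘ x)
      (fun i => hm ▸ Ideal.mem_map_of_mem _ (hx i)) L ?_
    rw [← hm, ← Ideal.map_pow, Set.range_comp, ← Ideal.map_span]
    refine (Ideal.map_mono hL).trans ?_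
    rw [Ideal.map_sup, Ideal.map_quotient_self, sup_bot_eq]
  have h3 : lq.length ≤ c := by
    have : ((lq.length : ℕ) : WithBot ℕ∞) ≤ c := h1.trans h2
    exact_mod_cast this
  rw [← dimNat_eq_height, ← dimNat_eq_height, ← hlen] at hh
  have : dimNat S ≤ dimNat R + lq.length := by exact_mod_cast hh
  omega

/-- polynomials in generators of the maximal ideal are dense. -/
theorem exists_adjoin_sub_mem_pow {K T : Type*} [CommRing K] [CommRing T] [Algebra K T]
    (s : Set T) (hres : ∀ t : T, ∃ a : K, t - algebraMap K T a ∈ Ideal.span s) (N : ℕ) (t : T) :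
    ∃ p ∈ Algebra.adjoin K s, t - p ∈ Ideal.span s ^ N := by
  induction N generalizing t with
  | zero => exact ⟨0, zero_mem _, by simp⟩
  | succ N ih =>
    have key : ∀ u ∈ Ideal.span s, ∃ p ∈ Algebra.adjoin K s, u - p ∈ Ideal.span s ^ (N + 1) := by
      intro u hu
      have : ∀ r : T, ∃ p ∈ Algebra.adjoin K s, r * u - p ∈ Ideal.span s ^ (N + 1) := by
        induction hu using Submodule.span_induction with
        | mem y hy =>
          intro r
          obtain ⟨p, hp, hr⟩ := ih r
          refine ⟨p * y, mul_mem hp (Algebra.subset_adjoin hy), ?_⟩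
          rw [← sub_mul, pow_succ]
          exact Ideal.mul_mem_mul hr (Ideal.subset_span hy)
        | zero => exact fun r => ⟨0, zero_mem _, by simp⟩
        | add y z _ _ hy hz =>
          intro r
          obtain ⟨p, hp, h1⟩ := hy r
          obtain ⟨q, hq, h2⟩ := hz r
          refine ⟨p + q, add_mem hp hq, ?_⟩
          rw [mul_add, add_sub_add_comm]
          exact add_mem h1 h2
        | smul a y _ hy =>
          intro r
          rw [smul_eq_mul, ← mul_assoc]
          exact hy _
      simpa using this 1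
    obtain ⟨a, ha⟩ := hres t
    obtain ⟨p, hp, h⟩ := key _ ha
    refine ⟨algebraMap K T a + p, add_mem (Subalgebra.algebraMap_mem _ a) hp, ?_⟩
    rwa [← sub_sub]

theorem psMap_unique {K T : Type*} [Field K] [CommRing T] [Algebra K T] {δ : ℕ} (m : Ideal T)
    [IsHausdorff m T] (ψ₁ ψ₂ : PS K δ →ₐ[K] T)
    (h : ∀ i, ψ₁ (MvPowerSeries.X i) = ψ₂ (MvPowerSeries.X i))
    (hm : ∀ i, ψ₁ (MvPowerSeries.X i) ∈ m) : ψ₁ = ψ₂ := by
  ext f
  rw [← sub_eq_zero]
  apply IsHausdorff.haus' (I := m)
  intro N
  rw [SModEq.zero, smul_eq_mul, Ideal.mul_top]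
  obtain ⟨p, hp, hf⟩ := exists_adjoin_sub_mem_pow (K := K)
    (Set.range (MvPowerSeries.X : Fin δ → PS K δ)) PS_residue N f
  have hpe : ψ₁ p = ψ₂ p :=
    AlgHom.eqOn_adjoin_iff.mpr (by rintro _ ⟨i, rfl⟩; exact h i) hp
  have hv : ∀ ψ : PS K δ →ₐ[K] T, (∀ i, ψ (MvPowerSeries.X i) ∈ m) → ψ (f - p) ∈ m ^ N := by
    intro ψ hψ
    have h1 : Ideal.span (Set.range (MvPowerSeries.X : Fin δ → PS K δ)) ≤ m.comap ψ :=
      Ideal.span_le.mpr (Set.range_subset_iff.mpr hψ)
    exact ((Ideal.pow_right_mono h1 N).trans (Ideal.le_comap_pow _ N)) hf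
  have := sub_mem (hv ψ₁ hm) (hv ψ₂ fun i => h i ▸ hm i)
  rwa [map_sub, map_sub, hpe, sub_sub_sub_cancel_right] at this

/-- comparison of lengths along a map which is injective on ideals. -/
theorem length_quot_le_of_comap_injective {T B B' : Type*} [CommRing T] [CommRing B] [CommRing B']
    [Algebra T B] (φ : B →+* B') (hφ : Function.Injective (Ideal.comap φ : Ideal B' → Ideal B))
    (I : Ideal T) :
    Module.length B' (B' ⧸ I.map (φ.comp (algebraMap T B))) ≤
      Module.length T (B ⧸ I • (⊤ : Submodule T B)) := by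
  rw [Module.length_quotient, Module.length_quotient]
  let F : Ideal B' → Submodule T B := fun J => (J.comap φ).restrictScalars T
  have hF : StrictMono F := by
    apply Monotone.strictMono_of_injective
    · intro J J' h x hx
      exact h hx
    · intro J J' h
      exact hφ (Submodule.restrictScalars_injective T B B h)
  refine (Order.coheight_le_coheight_apply_of_strictMono F hF _).trans
    (Order.coheight_anti ?_)
  rw [Ideal.smul_top_eq_map, ← Ideal.map_map]
  intro x hx
  exact Ideal.mem_map_of_mem φ hx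

end Vale.Agent.P202
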