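import Vale.Agent.P202.MxFlat

/-! Faithful flatness modulo an ideal: powers, descent of ideals, the local criterion. -/

namespace Vale.Agent.P202

open TensorProduct

theorem mxf2_mem {A : Type*} [CommRing A] {I : Ideal A} {a x : A} :
    x ∈ I ⊔ Ideal.span {a} ↔ ∃ c, x - a * c ∈ I := by
  constructor
  · intro h
    obtain ⟨u, hu, v, hv, rfl⟩ := Submodule.mem_sup.1 h
    obtain ⟨c, rfl⟩ := Ideal.mem_span_singleton'.1 hv
    exact ⟨c, by simpa [mul_comm] using hu⟩
  · rintro ⟨c, hc⟩
    have : x = (x - a * c) + a * c := by ring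
    rw [this]
    exact add_mem (Ideal.mem_sup_left hc)
      (Ideal.mem_sup_right (Ideal.mul_mem_right _ _ (Ideal.mem_span_singleton_self a)))

theorem mxf2_map {A B : Type*} [CommRing A] [CommRing B] (f : A →+* B) (I : Ideal A) (a : A) :
    (I ⊔ Ideal.span {a}).map f = I.map f ⊔ Ideal.span {f a} := by
  rw [Ideal.map_sup, Ideal.map_span, Set.image_singleton]

theorem mxf2_reg {B : Type*} [CommRing B] {J : Ideal B} {π : B} (hB : ∀ y, π * y ∈ J → y ∈ J)
    (ν : ℕ) (y : B) (h : π ^ ν * y ∈ J) : y ∈ J := by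
  induction ν with
  | zero => simpa using h
  | succ ν ih => exact ih (hB _ (by rwa [← mul_assoc, ← pow_succ']))

theorem mxf2_step {A B : Type*} [CommRing A] [CommRing B] {f : A →+* B} (I : Ideal A) (π : A)
    (hB : ∀ y, f π * y ∈ I.map f → y ∈ I.map f) (hf : QFlat f (I ⊔ Ideal.span {π})) (ν : ℕ)
    (ih : QFlat f (I ⊔ Ideal.span {π ^ ν})) : QFlat f (I ⊔ Ideal.span {π ^ (ν + 1)}) := by
  refine QFlat.of_rel (fun n a x hx => ?_) fun m hm hI => hf.ne_top hm.ne_top
    (sup_le (le_sup_left.trans hI) ((Ideal.span_singleton_le_iff_mem _).2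
      (hm.isPrime.mem_of_pow_mem (ν + 1)
        (hI (Ideal.mem_sup_right (Ideal.mem_span_singleton_self _))))))
  have hle : I ⊔ Ideal.span {π ^ (ν + 1)} ≤ I ⊔ Ideal.span {π ^ ν} :=
    sup_le_sup_left (Ideal.span_singleton_le_span_singleton.2 (pow_dvd_pow _ (Nat.le_succ _))) _
  obtain ⟨m, b, y, h1, h2⟩ := ih.rel a x (Ideal.map_mono hle hx)
  simp only [mxf2_map, mxf2_mem, map_pow] at h1 h2 hx ⊢
  choose z hz using h1
  choose c hc using h2
  obtain ⟨s, hs⟩ := hx
  have hS : (∑ j, f (c j) * y j + ∑ i, f (a i) * z i) - f π * s ∈ I.map f := by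
    refine mxf2_reg hB ν _ ?_
    have e : f π ^ ν * ((∑ j, f (c j) * y j + ∑ i, f (a i) * z i) - f π * s) =
        (∑ i, f (a i) * x i - f π ^ (ν + 1) * s)
          - ∑ i, f (a i) * (x i - ∑ j, f (b i j) * y j - f π ^ ν * z i)
          - ∑ j, f (∑ i, a i * b i j - π ^ ν * c j) * y j := by
      simp only [mul_sub, mul_add, Finset.sum_sub_distrib, Finset.mul_sum, map_sub, map_sum,
        map_mul, map_pow, sub_mul, Finset.sum_mul]
      rw [Finset.sum_comm (f := fun i j => f (a i) * (f (b i j) * y j))]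
      simp only [mul_assoc, mul_left_comm (f π ^ ν), pow_succ]
      ring
    rw [e]
    exact sub_mem (sub_mem hs (sum_mem fun i _ => Ideal.mul_mem_left _ _ (hz i)))
      (sum_mem fun j _ => Ideal.mul_mem_right _ _ (Ideal.mem_map_of_mem _ (hc j)))
  obtain ⟨m', d, w, h3, h4⟩ := hf.rel (Sum.elim c a) (Sum.elim y z) (by
    rw [mxf2_map, mxf2_mem]
    exact ⟨s, by simpa only [Fintype.sum_sum_type, Sum.elim_inl, Sum.elim_inr] using hS⟩)
  simp only [mxf2_map, mxf2_mem, Fintype.sum_sum_type, Sum.elim_inl, Sum.elim_inr] at h3 h4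
  choose y' hy' using fun j => h3 (.inl j)
  choose z' hz' using fun i => h3 (.inr i)
  choose r hr using h4
  simp only [Sum.elim_inl, Sum.elim_inr] at hy' hz'
  refine ⟨Fin m' ⊕ Fin m, inferInstance, fun i => Sum.elim
    (fun k => ∑ j, b i j * d (.inl j) k + π ^ ν * d (.inr i) k) (fun j => π * b i j),
    Sum.elim w y', fun i => ⟨z' i, ?_⟩, fun k => ?_⟩
  · have e : x i - ∑ k, f (Sum.elim (fun k => ∑ j, b i j * d (.inl j) k + π ^ ν * d (.inr i) k)
          (fun j => π * b i j) k) * Sum.elim w y' k - f π ^ (ν + 1) * z' i =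
        (x i - ∑ j, f (b i j) * y j - f π ^ ν * z i)
          + ∑ j, f (b i j) * (y j - ∑ k, f (d (.inl j) k) * w k - f π * y' j)
          + f π ^ ν * (z i - ∑ k, f (d (.inr i) k) * w k - f π * z' i) := by
      simp only [Fintype.sum_sum_type, Sum.elim_inl, Sum.elim_inr, mul_sub, add_mul,
        Finset.sum_sub_distrib, Finset.sum_add_distrib, Finset.mul_sum, map_add, map_sum,
        map_mul, map_pow, Finset.sum_mul]
      rw [Finset.sum_comm (f := fun j k => f (b i j) * (f (d (.inl j) k) * w k))]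
      simp only [mul_assoc, mul_left_comm (f π), pow_succ]
      ring
    rw [e]
    exact add_mem (add_mem (hz i) (sum_mem fun j _ => Ideal.mul_mem_left _ _ (hy' j)))
      (Ideal.mul_mem_left _ _ (hz' i))
  · rcases k with k | j
    · refine ⟨r k, ?_⟩
      have e : ∑ i, a i * (∑ j, b i j * d (.inl j) k + π ^ ν * d (.inr i) k) - π ^ (ν + 1) * r k
          = ∑ j, (∑ i, a i * b i j - π ^ ν * c j) * d (.inl j) k +
            π ^ ν * (∑ j, c j * d (.inl j) k + ∑ i, a i * d (.inr i) k - π * r k) := by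
        simp only [mul_sub, mul_add, sub_mul, Finset.sum_sub_distrib, Finset.sum_add_distrib,
          Finset.mul_sum, Finset.sum_mul]
        rw [Finset.sum_comm (f := fun i j => a i * (b i j * d (.inl j) k))]
        simp only [mul_assoc, mul_left_comm (π ^ ν), pow_succ]
        ring
      simp only [Sum.elim_inl]
      rw [e]
      exact add_mem (sum_mem fun j _ => Ideal.mul_mem_right _ _ (hc j))
        (Ideal.mul_mem_left _ _ (hr k))
    · refine ⟨c j, ?_⟩
      have e : ∑ i, a i * (π * b i j) - π ^ (ν + 1) * c j = π * (∑ i, a i * b i j - π ^ ν * c j) := by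
        simp only [mul_sub, Finset.mul_sum, mul_left_comm π, pow_succ]
        ring
      simp only [Sum.elim_inr]
      rw [e]
      exact Ideal.mul_mem_left _ _ (hc j)

/-- the nilpotent flatness criterion. -/
theorem QFlat.pow {A B : Type*} [CommRing A] [CommRing B] {f : A →+* B} (I : Ideal A) (π : A)
    (hA : ∀ x, π * x ∈ I → x ∈ I) (hB : ∀ y, f π * y ∈ I.map f → y ∈ I.map f)
    (hf : QFlat f (I ⊔ Ideal.span {π})) (ν : ℕ) : QFlat f (I ⊔ Ideal.span {π ^ ν}) := by
  have _ := hA
  induction ν with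
  | zero => exact hf.mono (by simp)
  | succ ν ih => exact mxf2_step I π hB hf ν ih

/-- descent of ideals. -/
theorem QFlat.map_comap_eq {A B : Type*} [CommRing A] [CommRing B] [Algebra A B] {I : Ideal A}
    (hf : QFlat (algebraMap A B) I) (U : Ideal B) (hU : I.map (algebraMap A B) ≤ U)
    (h : ∀ u ∈ U, u ⊗ₜ[A] (1 : B) ∈
      U.map (Algebra.TensorProduct.includeRight (R := A) (A := B) (B := B))) :
    (U.comap (algebraMap A B)).map (algebraMap A B) = U := by
  refine le_antisymm Ideal.map_comap_le fun u hu => ?_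
  let g : (A ⧸ U.comap (algebraMap A B)) →ₐ[A] (B ⧸ U) :=
    Ideal.quotientMapₐ U (Algebra.ofId A B) le_rfl
  have hg : Function.Injective g := Ideal.quotientMap_injective
  have hY : I • (⊤ : Submodule A (B ⧸ U)) = ⊥ := by
    refine eq_bot_iff.2 (Submodule.smul_le.2 fun a ha y _ => ?_)
    obtain ⟨y, rfl⟩ := Ideal.Quotient.mk_surjective y
    rw [Submodule.mem_bot, Algebra.smul_def, IsScalarTower.algebraMap_apply A B (B ⧸ U),
      Ideal.Quotient.algebraMap_eq, ← map_mul, Ideal.Quotient.eq_zero_iff_mem]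
    exact Ideal.mul_mem_right _ _ (hU (Ideal.mem_map_of_mem _ ha))
  have h1 := hf.lTensor_injective hY g.toLinearMap hg
  let φ : B ⊗[A] B →ₐ[A] B ⊗[A] (B ⧸ U) :=
    Algebra.TensorProduct.map (AlgHom.id A B) (Ideal.Quotient.mkₐ A U)
  have h2 : U.map (Algebra.TensorProduct.includeRight (R := A) (A := B) (B := B)) ≤
      RingHom.ker φ := Ideal.map_le_iff_le_comap.2 fun v hv => by
    simp [φ, Ideal.Quotient.eq_zero_iff_mem.2 hv]
  have h3 : u ⊗ₜ[A] (1 : A ⧸ U.comap (algebraMap A B)) = 0 := by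
    apply h1
    have := h2 (h u hu)
    simpa [φ] using this
  rw [← Ideal.Quotient.eq_zero_iff_mem]
  apply (Algebra.TensorProduct.quotIdealMapEquivTensorQuot B
    (U.comap (algebraMap A B))).injective
  rw [map_zero]
  exact h3

/-- the local criterion of flatness. -/
theorem flat_of_qflat_pow {A B : Type*} [CommRing A] [IsNoetherianRing A] [CommRing B]
    [IsLocalRing B] [IsNoetherianRing B] (f : A →+* B) (I : Ideal A)
    (hI : I.map f ≤ IsLocalRing.maximalIdeal B) (h : ∀ n : ℕ, QFlat f (I ^ n)) : f.Flat := by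
  let := f.toAlgebra
  change Module.Flat A B
  rw [Module.Flat.iff_lTensor_injective']
  intro a
  rw [← LinearMap.ker_eq_bot, eq_bot_iff]
  intro t ht
  have hK := (IsLocalRing.maximalIdeal B).iInf_pow_smul_eq_bot_of_isLocalRing (M := B ⊗[A] a)
    (IsLocalRing.maximalIdeal.isMaximal B).ne_top
  suffices t ∈ (⊥ : Submodule B (B ⊗[A] a)) from this
  rw [← hK, Submodule.mem_iInf]
  intro n
  obtain ⟨c, hc⟩ := I.exists_pow_inf_eq_pow_smul (M := A) a
  let W : Submodule A a := Submodule.comap a.subtype (I ^ (n + c) : Ideal A)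
  let g : (a ⧸ W) →ₗ[A] (A ⧸ I ^ (n + c)) := W.mapQ (I ^ (n + c) : Ideal A) a.subtype le_rfl
  have hg : Function.Injective g := by
    rw [← LinearMap.ker_eq_bot, eq_bot_iff]
    intro x hx
    obtain ⟨x, rfl⟩ := W.mkQ_surjective x
    exact (Submodule.Quotient.mk_eq_zero W).2
      ((Submodule.Quotient.mk_eq_zero (I ^ (n + c) : Ideal A) (x := x.1)).1 hx)
  have hY : I ^ (n + c) • (⊤ : Submodule A (A ⧸ I ^ (n + c))) = ⊥ := by
    refine eq_bot_iff.2 (Submodule.smul_le.2 fun r hr y _ => ?_)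
    obtain ⟨y, rfl⟩ := Ideal.Quotient.mk_surjective y
    rw [Submodule.mem_bot, Algebra.smul_def, Ideal.Quotient.algebraMap_eq, ← map_mul,
      Ideal.Quotient.eq_zero_iff_mem]
    exact Ideal.mul_mem_right _ _ hr
  have h1 := QFlat.lTensor_injective (B := B) (h (n + c)) hY g hg
  have h2 : W.mkQ.lTensor B t = 0 := by
    apply h1
    have e : g ∘ₗ W.mkQ = Submodule.mkQ (I ^ (n + c) : Ideal A) ∘ₗ a.subtype := by
      ext x
      rfl
    rw [map_zero, ← LinearMap.comp_apply, ← LinearMap.lTensor_comp, e, LinearMap.lTensor_comp,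
      LinearMap.comp_apply, LinearMap.mem_ker.1 ht, map_zero]
  obtain ⟨s, rfl⟩ := (lTensor_exact B (LinearMap.exact_subtype_mkQ W) W.mkQ_surjective t).1 h2
  clear ht h2
  induction s with
  | zero => simp
  | add s s' hs hs' => rw [map_add]; exact add_mem hs hs'
  | tmul b x =>
    have h3 : (x.1 : A) ∈ I ^ n • (a : Submodule A A) := by
      have h4 : (x.1 : A) ∈ (I ^ (n + c) • ⊤ ⊓ a : Submodule A A) :=
        ⟨by simpa using (show (x.1 : A) ∈ I ^ (n + c) from x.2), x.1.2⟩
      rw [hc (n + c) (Nat.le_add_left _ _), Nat.add_sub_cancel] at h4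
      exact Submodule.smul_mono le_rfl inf_le_right h4
    have h5 : x.1 ∈ I ^ n • (⊤ : Submodule A a) := by
      have e : (I ^ n • (⊤ : Submodule A a)).map a.subtype = I ^ n • (a : Submodule A A) := by
        rw [Submodule.map_smul'', Submodule.map_top, Submodule.range_subtype]
      rw [← e] at h3
      obtain ⟨y, hy, e'⟩ := h3
      rwa [← Subtype.ext e']
    rw [LinearMap.lTensor_tmul, Submodule.subtype_apply]
    refine Submodule.smul_induction_on h5 (fun r hr z _ => ?_) fun y z hy hz => ?_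
    · rw [tmul_smul, ← algebraMap_smul B r]
      refine Submodule.smul_mem_smul (Ideal.pow_right_mono hI n ?_) Submodule.mem_top
      rw [← Ideal.map_pow]
      exact Ideal.mem_map_of_mem _ hr
    · rw [tmul_add]
      exact add_mem hy hz

/-- a map that is bijective modulo `π` is bijective modulo `π ^ ν`, if `π` is regular on the
target. -/
theorem bijective_mod_pow {A B : Type*} [CommRing A] [CommRing B] (f : A →+* B) (π : A)
    (hB : ∀ y, f π * y = 0 → y = 0)
    (hsurj : ∀ y : B, ∃ x : A, y - f x ∈ Ideal.span {f π})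
    (hinj : ∀ x : A, f x ∈ Ideal.span {f π} → x ∈ Ideal.span {π}) (ν : ℕ) :
    (∀ y : B, ∃ x : A, y - f x ∈ Ideal.span {f π ^ ν}) ∧
      ∀ x : A, f x ∈ Ideal.span {f π ^ ν} → x ∈ Ideal.span {π ^ ν} := by
  simp only [Ideal.mem_span_singleton] at hsurj hinj ⊢
  induction ν with
  | zero => exact ⟨fun y => ⟨0, by simp⟩, fun x _ => by simp⟩
  | succ ν ih =>
    refine ⟨fun y => ?_, fun x hx => ?_⟩
    · obtain ⟨x, s, hs⟩ := ih.1 y
      obtain ⟨x', s', hs'⟩ := hsurj s
      refine ⟨x + π ^ ν * x', s', ?_⟩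
      rw [map_add, map_mul, map_pow, ← sub_sub, hs, ← mul_sub, hs', pow_succ, mul_assoc]
    · obtain ⟨x', rfl⟩ := hinj x ((dvd_pow_self _ (Nat.succ_ne_zero ν)).trans hx)
      obtain ⟨s, hs⟩ := hx
      have h1 : f x' = f π ^ ν * s := sub_eq_zero.1 (hB _ (by
        rw [mul_sub, ← map_mul, hs]; ring))
      rw [pow_succ']
      exact mul_dvd_mul_left _ (ih.2 x' ⟨s, h1⟩)

section Perfect

variable (p : ℕ) [Fact p.Prime] {E E' : Type*} [CommRing E] [CharP E p] [PerfectRing E p]
  [CommRing E'] [CharP E' p]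

/-- between perfect rings, flatness modulo `t` gives flatness modulo all powers. -/
theorem QFlat.pow_of_perfect [PerfectRing E' p] {f : E →+* E'} {t : E}
    (hf : QFlat f (Ideal.span {t})) (j : ℕ) : QFlat f (Ideal.span {t ^ j}) := by
  have h := (qflat_iff_of_surjective f f (iterateFrobenius E p j) (iterateFrobenius E' p j)
    (bijective_iterateFrobenius E p j).2 (bijective_iterateFrobenius E' p j).2
    (by ext x; simp [iterateFrobenius_def]) (Ideal.span {t})
    ((RingHom.injective_iff_ker_eq_bot _).1 (bijective_iterateFrobenius E p j).1 ▸ bot_le)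
    ((RingHom.injective_iff_ker_eq_bot _).1 (bijective_iterateFrobenius E' p j).1 ▸ bot_le)).1 hf
  rw [Ideal.map_span, Set.image_singleton, iterateFrobenius_def] at h
  exact h.mono (Ideal.span_singleton_le_span_singleton.2
    (pow_dvd_pow _ (Nat.lt_pow_self (Fact.out : p.Prime).one_lt).le))

theorem QFlat.reg_of_perfect [PerfectRing E' p] {f : E →+* E'} {t : E}
    (ht : ∀ x, t * x = 0 → x = 0) (hf : QFlat f (Ideal.span {t})) (y : E') (hy : f t * y = 0) :
    y = 0 := by
  obtain ⟨m, b, w, h1, h2⟩ := (hf.pow_of_perfect p 2).rel (fun _ : Unit => t) (fun _ => y)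
    (by simp [hy])
  have h3 : ∀ j, t ∣ b () j := fun j => by
    obtain ⟨s, hs⟩ := Ideal.mem_span_singleton.1 (h2 j)
    refine ⟨s, sub_eq_zero.1 (ht _ ?_)⟩
    simp only [Finset.univ_unique, Finset.sum_singleton] at hs
    rw [mul_sub, hs]
    ring
  have h4 : f t ∣ y := by
    have h5 := h1 ()
    rw [Ideal.map_span, Set.image_singleton, Ideal.mem_span_singleton, map_pow] at h5
    have h6 : f t ∣ ∑ j, f (b () j) * w j :=
      Finset.dvd_sum fun j _ => (map_dvd f (h3 j)).mul_right _
    simpa using dvd_add ((dvd_pow_self _ two_ne_zero).trans h5) h6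
  obtain ⟨z, hz⟩ := h4
  have h7 : y ^ 2 = 0 := by
    calc y ^ 2 = (f t * y) * z := by rw [pow_two]; nth_rewrite 1 [hz]; ring
      _ = 0 := by rw [hy, zero_mul]
  refine injective_pow_p E' p ?_
  rw [pow_eq_zero_of_le (Fact.out : p.Prime).two_le h7, zero_pow (Fact.out : p.Prime).ne_zero]

omit [CharP E p] [PerfectRing E p] in
theorem mxf2_roots {ι : Type*} [Fintype ι] (x : ι → PerfectClosure E' p) :
    ∃ (e : ℕ) (x' : ι → E'), ∀ i, PerfectClosure.of E' p (x' i) = x i ^ p ^ e := by
  choose n y h using fun i => IsPRadical.pow_mem (PerfectClosure.of E' p) p (x i)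
  refine ⟨∑ i, n i, fun i => y i ^ p ^ (∑ i, n i - n i), fun i => ?_⟩
  rw [map_pow, h, ← pow_mul, ← pow_add, Nat.add_sub_cancel'
    (Finset.single_le_sum (f := n) (fun _ _ => Nat.zero_le _) (Finset.mem_univ i))]

omit [CharP E p] [PerfectRing E p] in
theorem mxf2_ker {x y : E'} (h : PerfectClosure.of E' p x = PerfectClosure.of E' p y) :
    ∃ k : ℕ, x ^ p ^ k = y ^ p ^ k := by
  obtain ⟨k, hk⟩ := mem_pNilradical.1 (IsPRadical.ker_le (PerfectClosure.of E' p) p
    ((RingHom.sub_mem_ker_iff _).2 h))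
  exact ⟨k, sub_eq_zero.1 (by rwa [sub_pow_expChar_pow] at hk)⟩

theorem QFlat.perfectClosure {f : E →+* E'} {t : E}
    (hf : ∀ j : ℕ, QFlat f (Ideal.span {t ^ j})) :
    QFlat ((PerfectClosure.of E' p).comp f) (Ideal.span {t}) := by
  refine QFlat.of_rel (fun n a x hx => ?_) fun m hm hI ht => ?_
  · simp only [Ideal.map_span, Set.image_singleton, Ideal.mem_span_singleton,
      RingHom.comp_apply] at hx ⊢
    obtain ⟨s, hs⟩ := hx
    obtain ⟨e, x', hx'⟩ := mxf2_roots p (fun o : Option (Fin n) => o.elim s x)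
    have hs' : PerfectClosure.of E' p (x' none) = s ^ p ^ e := hx' none
    have hx'' : ∀ i, PerfectClosure.of E' p (x' (some i)) = x i ^ p ^ e := fun i => hx' (some i)
    obtain ⟨k, hk⟩ := mxf2_ker p (x := ∑ i, f (a i) ^ p ^ e * x' (some i))
      (y := f t ^ p ^ e * x' none) (by
        simp only [map_sum, map_mul, map_pow, hs', hx'', ← mul_pow]
        rw [← hs, sum_pow_char_pow])
    obtain ⟨m, b, y, h1, h2⟩ := (hf (p ^ (e + k))).rel (fun i => a i ^ p ^ (e + k))
      (fun i => x' (some i) ^ p ^ k) (by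
        rw [Ideal.map_span, Set.image_singleton, Ideal.mem_span_singleton]
        refine ⟨x' none ^ p ^ k, ?_⟩
        rw [sum_pow_char_pow] at hk
        simpa only [map_pow, mul_pow, ← pow_mul, ← pow_add] using hk)
    simp only [Ideal.map_span, Set.image_singleton, Ideal.mem_span_singleton] at h1 h2
    let F := iterateFrobeniusEquiv E p (e + k)
    let G := iterateFrobeniusEquiv (PerfectClosure E' p) p (e + k)
    have hF : ∀ z, F z = z ^ p ^ (e + k) := fun _ => rfl
    have hG : ∀ z, G z = z ^ p ^ (e + k) := fun _ => rfl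
    have hGF : ∀ z, G (PerfectClosure.of E' p (f z)) = PerfectClosure.of E' p (f (F z)) :=
      fun z => by rw [hF, hG, map_pow, map_pow]
    refine ⟨Fin m, inferInstance, fun i j => F.symm (b i j),
      fun j => G.symm (PerfectClosure.of E' p (y j)), fun i => ?_, fun j => ?_⟩
    · obtain ⟨w, hw⟩ := h1 i
      refine ⟨G.symm (PerfectClosure.of E' p w), G.injective ?_⟩
      have h3 := congrArg (PerfectClosure.of E' p) hw
      simp only [map_sub, map_sum, map_mul, hGF, RingEquiv.apply_symm_apply]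
      rw [hG, hF]
      simpa only [map_sub, map_sum, map_mul, map_pow, hx'', ← pow_mul, ← pow_add] using h3
    · obtain ⟨w, hw⟩ := h2 j
      refine ⟨F.symm w, F.injective ?_⟩
      simpa only [map_sum, map_mul, RingEquiv.apply_symm_apply, hF (a _), hF t] using hw
  · obtain ⟨n, c, z, hc, e1⟩ := mxf_mem_map ((Ideal.eq_top_iff_one _).1 ht)
    obtain ⟨e, z', hz'⟩ := mxf2_roots p z
    obtain ⟨k, hk⟩ := mxf2_ker p (x := ∑ i, f (c i) ^ p ^ e * z' i) (y := 1) (by
      simp only [map_sum, map_mul, map_pow, hz', ← mul_pow, map_one]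
      rw [← sum_pow_char_pow]
      exact (congrArg (· ^ p ^ e) e1).symm.trans (one_pow _))
    refine (hf 1).ne_top hm.ne_top (by rwa [pow_one]) ((Ideal.eq_top_iff_one _).2 ?_)
    have hp : ∀ e : ℕ, 0 < p ^ e := fun e => pow_pos (Fact.out : p.Prime).pos e
    rw [← one_pow (p ^ k), ← hk]
    exact Ideal.pow_mem_of_mem _ (sum_mem fun i _ => Ideal.mul_mem_right _ _
      (Ideal.pow_mem_of_mem _ (Ideal.mem_map_of_mem _ (hc i)) _ (hp e))) _ (hp k)

/-- a tensor product of perfect rings over a perfect ring is perfect. -/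
theorem perfectRing_tensor {E'' : Type*} [CommRing E''] [CharP E'' p] [PerfectRing E' p]
    [PerfectRing E'' p] [Algebra E E'] [Algebra E E''] [CharP (E' ⊗[E] E'') p] :
    PerfectRing (E' ⊗[E] E'') p := by
  let r : E' ⊗[E] E'' →+ E' ⊗[E] E'' := TensorProduct.liftAddHom
    (((LinearMap.toAddMonoidHom'.comp (TensorProduct.mk E E' E'').toAddMonoidHom).compl₂
      (frobeniusEquiv E'' p).symm.toAddMonoidHom).comp (frobeniusEquiv E' p).symm.toAddMonoidHom)
    fun c x y => by
      change (frobeniusEquiv E' p).symm (c • x) ⊗ₜ[E] (frobeniusEquiv E'' p).symm y =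
        (frobeniusEquiv E' p).symm x ⊗ₜ[E] (frobeniusEquiv E'' p).symm (c • y)
      rw [Algebra.smul_def, Algebra.smul_def, map_mul, map_mul,
        ← RingHom.map_frobeniusEquiv_symm, ← RingHom.map_frobeniusEquiv_symm,
        ← Algebra.smul_def, ← Algebra.smul_def, smul_tmul]
  have hr : ∀ x y, r (x ⊗ₜ y) = (frobeniusEquiv E' p).symm x ⊗ₜ (frobeniusEquiv E'' p).symm y :=
    fun _ _ => rfl
  have h1 : ∀ t, r (frobenius _ p t) = t := fun t => by
    induction t with
    | zero => simp
    | tmul x y => rw [frobenius_def, Algebra.TensorProduct.tmul_pow, hr]; simp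
    | add s t hs ht => rw [map_add, map_add, hs, ht]
  have h2 : ∀ t, frobenius _ p (r t) = t := fun t => by
    induction t with
    | zero => simp
    | tmul x y => rw [hr, frobenius_def, Algebra.TensorProduct.tmul_pow]; simp
    | add s t hs ht => rw [map_add, map_add, hs, ht]
  exact ⟨Function.LeftInverse.injective (g := r) h1, Function.RightInverse.surjective (g := r) h2⟩

end Perfect

end Vale.Agent.P202
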