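import Mathlib

/-! Triangular systems of monic polynomial equations. -/

namespace Vale.Agent.P202

open MvPolynomial

/-- `f i` is monic of degree `n i` in the variable `i` and involves no later variable. -/
structure IsTri {σ A : Type*} [LinearOrder σ] [CommRing A] (f : σ → MvPolynomial σ A)
    (n : σ → ℕ) : Prop where
  pos : ∀ i, 0 < n i
  low : ∀ i, ∀ α ∈ (f i - X i ^ n i).support, α i < n i ∧ ∀ j, i < j → α j = 0

variable {σ A : Type*} [LinearOrder σ] [WellFoundedLT σ] [CommRing A]
  {f : σ → MvPolynomial σ A} {n : σ → ℕ}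

namespace TriAux

/-- the order in which the largest variable is the most significant one. -/
def Lt (α β : σ →₀ ℕ) : Prop := ∃ i, (∀ j, i < j → α j = β j) ∧ α i < β i

theorem wf : WellFounded (Lt (σ := σ)) :=
  Finsupp.Lex.wellFounded' (r := (· > ·)) (s := (· < ·)) (fun m => Nat.not_lt_zero m)
    wellFounded_lt (wellFounded_lt (α := σ))

omit [WellFoundedLT σ] in
theorem Lt.van {α β : σ →₀ ℕ} (h : Lt α β) {k : σ} (hk : ∀ j, k ≤ j → β j = 0) (j : σ)
    (hj : k ≤ j) : α j = 0 := by
  obtain ⟨i, h1, h2⟩ := h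
  have hi : i < k := by
    by_contra hi
    rw [hk i (not_lt.1 hi)] at h2
    exact Nat.not_lt_zero _ h2
  rw [h1 j (hi.trans_le hj), hk j hj]

/-- the statement of the reduction lemma -/
def Red (f : σ → MvPolynomial σ A) (n : σ → ℕ) (s : Set σ) (g : MvPolynomial σ A) : Prop :=
  ∃ r : MvPolynomial σ A, g - r ∈ Ideal.span (f '' s) ∧
    (∀ α ∈ r.support, ∀ i ∈ s, α i < n i) ∧
    ∀ k, (∀ α ∈ g.support, ∀ j, k ≤ j → α j = 0) → ∀ α ∈ r.support, ∀ j, k ≤ j → α j = 0

/-- the same for a monomial -/
def RedM (f : σ → MvPolynomial σ A) (n : σ → ℕ) (s : Set σ) (β : σ →₀ ℕ) : Prop :=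
  ∃ r : MvPolynomial σ A, monomial β 1 - r ∈ Ideal.span (f '' s) ∧
    (∀ α ∈ r.support, ∀ i ∈ s, α i < n i) ∧
    ∀ k, (∀ j, k ≤ j → β j = 0) → ∀ α ∈ r.support, ∀ j, k ≤ j → α j = 0

omit [WellFoundedLT σ] in
theorem red_of {s : Set σ} {g : MvPolynomial σ A} (H : ∀ β ∈ g.support, RedM f n s β) :
    Red f n s g := by
  classical
  choose! r h1 h2 h3 using H
  have hs : ∀ α ∈ (∑ β ∈ g.support, coeff β g • r β).support,
      ∃ β ∈ g.support, α ∈ (r β).support := by
    intro α hα
    obtain ⟨β, hβ, h⟩ := Finset.mem_biUnion.1 (support_sum hα)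
    exact ⟨β, hβ, support_smul h⟩
  refine ⟨∑ β ∈ g.support, coeff β g • r β, ?_, fun α hα => ?_, fun k hk α hα => ?_⟩
  · have : g - ∑ β ∈ g.support, coeff β g • r β =
        ∑ β ∈ g.support, C (coeff β g) * (monomial β 1 - r β) := by
      conv_lhs => rw [g.as_sum]
      rw [← g.as_sum]
      conv_lhs => enter [1]; rw [g.as_sum]
      rw [← Finset.sum_sub_distrib]
      refine Finset.sum_congr rfl fun β _ => ?_
      rw [mul_sub, C_mul_monomial, mul_one, smul_eq_C_mul]
    rw [this]
    exact Ideal.sum_mem _ fun β hβ => Ideal.mul_mem_left _ _ (h1 β hβ)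
  · obtain ⟨β, hβ, h⟩ := hs α hα
    exact h2 β hβ α h
  · obtain ⟨β, hβ, h⟩ := hs α hα
    exact h3 β hβ k (hk β hβ) α h

theorem redM (h : IsTri f n) (s : Set σ) (β : σ →₀ ℕ) : RedM f n s β := by
  classical
  induction β using (wf (σ := σ)).induction with
  | h β ih =>
    by_cases hβ : ∀ i ∈ s, β i < n i
    · refine ⟨monomial β 1, by simp, fun α hα => ?_, fun k hk α hα => ?_⟩
      · rwa [Finset.mem_singleton.1 (support_monomial_subset hα)]
      · rwa [Finset.mem_singleton.1 (support_monomial_subset hα)]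
    · push Not at hβ
      obtain ⟨i, hi, hle⟩ := hβ
      obtain ⟨γ, rfl⟩ : ∃ γ, β = γ + Finsupp.single i (n i) :=
        ⟨β - Finsupp.single i (n i),
          (tsub_add_cancel_of_le (Finsupp.single_le_iff.2 hle)).symm⟩
      have hlt : ∀ α ∈ (-(monomial γ (1 : A) * (f i - X i ^ n i))).support,
          Lt α (γ + Finsupp.single i (n i)) := by
        intro α hα
        rw [support_neg] at hα
        obtain ⟨a, ha, b, hb, rfl⟩ := Finset.mem_add.1 (support_mul _ _ hα)
        rw [Finset.mem_singleton.1 (support_monomial_subset ha)]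
        obtain ⟨l1, l2⟩ := h.low i b hb
        refine ⟨i, fun j hj => ?_, ?_⟩
        · simp [l2 j hj, Finsupp.single_eq_of_ne hj.ne']
        · simpa using l1
      obtain ⟨r, r1, r2, r3⟩ := red_of fun α hα => ih α (hlt α hα)
      refine ⟨r, ?_, r2, fun k hk => r3 k fun α hα => (hlt α hα).van hk⟩
      have e : monomial (γ + Finsupp.single i (n i)) (1 : A) - r =
          monomial γ 1 * f i + (-(monomial γ (1 : A) * (f i - X i ^ n i)) - r) := by
        rw [monomial_add_single]; ring
      rw [e]
      exact Ideal.add_mem _ (Ideal.mul_mem_left _ _ (Ideal.subset_span ⟨i, hi, rfl⟩)) r1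

/-- the part of degree `d` in the variable `k`. -/
noncomputable def part (k : σ) (d : ℕ) (p : MvPolynomial σ A) : MvPolynomial σ A :=
  ∑ α ∈ p.support.filter fun α => α k = d, monomial α (coeff α p)

omit [WellFoundedLT σ] in
theorem coeff_part (k : σ) (d : ℕ) (p : MvPolynomial σ A) (α : σ →₀ ℕ) :
    coeff α (part k d p) = if α k = d then coeff α p else 0 := by
  classical
  simp only [part, coeff_sum, coeff_monomial, Finset.sum_ite_eq', Finset.mem_filter,
    mem_support_iff]
  by_cases h : α k = d <;> by_cases h' : coeff α p = 0 <;> simp [h, h']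

omit [WellFoundedLT σ] in
theorem part_add (k : σ) (d : ℕ) (p q : MvPolynomial σ A) :
    part k d (p + q) = part k d p + part k d q := by
  ext α
  simp only [coeff_part, coeff_add]
  split_ifs <;> simp

omit [WellFoundedLT σ] in
theorem part_eq_zero {k : σ} {d : ℕ} {p : MvPolynomial σ A} (h : ∀ α ∈ p.support, α k < d) :
    part k d p = 0 := by
  ext α
  rw [coeff_part, coeff_zero]
  split_ifs with h1
  · by_contra h2
    exact (h α (mem_support_iff.2 h2)).ne h1
  · rfl

omit [WellFoundedLT σ] in
theorem part_mul {k : σ} {e : ℕ} {q : MvPolynomial σ A} (hq : ∀ α ∈ q.support, α k = e) (d : ℕ)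
    (p : MvPolynomial σ A) : part k (d + e) (p * q) = part k d p * q := by
  classical
  ext α
  rw [coeff_part, coeff_mul, coeff_mul]
  have key : ∀ x ∈ Finset.HasAntidiagonal.antidiagonal α, coeff x.1 (part k d p) * coeff x.2 q =
      if α k = d + e then coeff x.1 p * coeff x.2 q else 0 := by
    intro x hx
    by_cases h0 : coeff x.2 q = 0
    · simp [h0]
    · have h1 := hq _ (mem_support_iff.2 h0)
      have h2 : x.1 k + x.2 k = α k := by
        rw [← Finset.HasAntidiagonal.mem_antidiagonal.1 hx]; rfl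
      rw [coeff_part]
      by_cases h3 : x.1 k = d
      · rw [if_pos h3, if_pos (by omega)]
      · rw [if_neg h3, if_neg (by omega), zero_mul]
  rw [Finset.sum_congr rfl key]
  split_ifs <;> simp

omit [WellFoundedLT σ] in
theorem low_of (h : IsTri f n) {i k : σ} (hik : i < k) : ∀ α ∈ (f i).support, α k = 0 := by
  classical
  intro α hα
  have e : f i = (f i - X i ^ n i) + X i ^ n i := by ring
  rw [e] at hα
  rcases Finset.mem_union.1 (support_add hα) with h1 | h1
  · exact (h.low i α h1).2 k hik
  · rw [X_pow_eq_monomial] at h1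
    rw [Finset.mem_singleton.1 (support_monomial_subset h1), Finsupp.single_eq_of_ne hik.ne']

omit [WellFoundedLT σ] in
theorem part_mem (h : IsTri f n) {s : Set σ} {k : σ} (hk : ∀ i ∈ s, i < k) {p : MvPolynomial σ A}
    (hp : p ∈ Ideal.span (f '' s)) (d : ℕ) : part k d p ∈ Ideal.span (f '' s) := by
  have : ∀ g, part k d (g * p) ∈ Ideal.span (f '' s) := by
    induction hp using Submodule.span_induction with
    | mem x hx =>
      obtain ⟨i, hi, rfl⟩ := hx
      intro g
      have := part_mul (low_of h (hk i hi)) d g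
      rw [add_zero] at this
      rw [this]
      exact Ideal.mul_mem_left _ _ (Ideal.subset_span ⟨i, hi, rfl⟩)
    | zero => intro g; rw [mul_zero, part_eq_zero (p := 0) (by simp)]; exact zero_mem _
    | add x y _ _ h1 h2 => intro g; rw [mul_add, part_add]; exact add_mem (h1 g) (h2 g)
    | smul a x _ h1 => intro g; rw [smul_eq_mul, ← mul_assoc]; exact h1 _
  simpa using this 1

omit [WellFoundedLT σ] in
theorem key (h : IsTri f n) {s : Set σ} {k : σ} (hk : ∀ i ∈ s, i < k)
    (hP : ∀ r ∈ Ideal.span (f '' s), (∀ α ∈ r.support, ∀ i ∈ s, α i < n i) → r = 0)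
    {g r : MvPolynomial σ A} (hg : ∀ α ∈ g.support, ∀ i ∈ s, α i < n i)
    (hr : ∀ α ∈ r.support, α k < n k) (hm : g * f k + r ∈ Ideal.span (f '' s)) : g = 0 := by
  classical
  by_contra h0
  obtain ⟨β, hβ, hmax⟩ := g.support.exists_max_image (fun α => α k) (support_nonempty.2 h0)
  have h1 := part_mem h hk hm (β k + n k)
  have e : g * f k + r = g * X k ^ n k + (g * (f k - X k ^ n k) + r) := by ring
  have hX : ∀ α ∈ (X k ^ n k : MvPolynomial σ A).support, α = Finsupp.single k (n k) := by
    intro α hα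
    rw [X_pow_eq_monomial] at hα
    exact Finset.mem_singleton.1 (support_monomial_subset hα)
  rw [e, part_add, part_mul (fun α hα => by rw [hX α hα, Finsupp.single_eq_same]),
    part_eq_zero (p := g * _ + r), add_zero] at h1
  · have h2 := hP _ h1 fun α hα i hi => by
      obtain ⟨a, ha, b, hb, rfl⟩ := Finset.mem_add.1 (support_mul _ _ hα)
      rw [hX b hb, Finsupp.add_apply, Finsupp.single_eq_of_ne (hk i hi).ne, add_zero]
      refine hg a (mem_support_iff.2 fun h3 => mem_support_iff.1 ha ?_) i hi
      rw [coeff_part, h3, ite_self]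
    have h3 := congrArg (coeff (β + Finsupp.single k (n k))) h2
    rw [X_pow_eq_monomial, coeff_mul_monomial, coeff_part, if_pos rfl, mul_one, coeff_zero] at h3
    exact mem_support_iff.1 hβ h3
  · intro α hα
    rcases Finset.mem_union.1 (support_add hα) with h2 | h2
    · obtain ⟨a, ha, b, hb, rfl⟩ := Finset.mem_add.1 (support_mul _ _ h2)
      have := hmax a ha
      have := (h.low k b hb).1
      rw [Finsupp.add_apply]
      omega
    · have := hr α h2
      omega

theorem fin_zero (h : IsTri f n) (s : Finset σ) :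
    ∀ r ∈ Ideal.span (f '' s), (∀ α ∈ r.support, ∀ i ∈ (s : Set σ), α i < n i) → r = 0 := by
  classical
  induction s using Finset.induction_on_max with
  | empty => intro r hr _; simpa using hr
  | insert k s hk ih =>
    intro r hr hstd
    rw [Finset.coe_insert, Set.image_insert_eq, Ideal.mem_span_insert] at hr
    obtain ⟨a, u, hu, e⟩ := hr
    obtain ⟨a', a1, a2, -⟩ := red_of (f := f) (n := n) (s := s) (g := a) fun β _ => redM h _ β
    have hm : a' * f k + -r ∈ Ideal.span (f '' s) := by
      have : a' * f k + -r = -((a - a') * f k + u) := by rw [e]; ring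
      rw [this]
      exact neg_mem (add_mem (Ideal.mul_mem_right _ _ a1) hu)
    have h0 : a' = 0 := key h (fun i hi => hk i hi) ih a2
      (fun α hα => hstd α (by rwa [support_neg] at hα) k (by simp)) hm
    rw [h0, zero_mul, zero_add, neg_mem_iff] at hm
    exact ih r hm fun α hα i hi => hstd α hα i (by simp [show i ∈ s from hi])

omit [LinearOrder σ] [WellFoundedLT σ] in
theorem exists_fin {s : Set σ} {r : MvPolynomial σ A} (hr : r ∈ Ideal.span (f '' s)) :
    ∃ t : Finset σ, (t : Set σ) ⊆ s ∧ r ∈ Ideal.span (f '' t) := by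
  classical
  obtain ⟨T, hT, h1⟩ := Submodule.mem_span_finite_of_mem_span hr
  obtain ⟨t, ht, rfl⟩ := Finset.subset_set_image_iff.1 hT
  exact ⟨t, ht, by simpa using h1⟩

end TriAux

open TriAux

/-- reduction to standard monomials. -/
theorem IsTri.exists_std (h : IsTri f n) (s : Set σ) (g : MvPolynomial σ A) :
    ∃ r : MvPolynomial σ A, g - r ∈ Ideal.span (f '' s) ∧
      (∀ α ∈ r.support, ∀ i ∈ s, α i < n i) ∧
      ∀ k, (∀ α ∈ g.support, ∀ j, k ≤ j → α j = 0) → ∀ α ∈ r.support, ∀ j, k ≤ j → α j = 0 :=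
  red_of fun β _ => redM h s β

/-- standard monomials are independent modulo the ideal. -/
theorem IsTri.eq_zero_of_std (h : IsTri f n) (s : Set σ) (r : MvPolynomial σ A)
    (hr : r ∈ Ideal.span (f '' s)) (hstd : ∀ α ∈ r.support, ∀ i ∈ s, α i < n i) : r = 0 := by
  obtain ⟨t, ht, h1⟩ := exists_fin hr
  exact fin_zero h t r h1 fun α hα i hi => hstd α hα i (ht hi)

theorem IsTri.regular (h : IsTri f n) (s : Set σ) (k : σ) (hk : ∀ i ∈ s, i < k)
    (g : MvPolynomial σ A) (hg : f k * g ∈ Ideal.span (f '' s)) : g ∈ Ideal.span (f '' s) := by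
  obtain ⟨r, r1, r2, -⟩ := h.exists_std s g
  have hm : r * f k + 0 ∈ Ideal.span (f '' s) := by
    have : r * f k + 0 = f k * g - f k * (g - r) := by ring
    rw [this]
    exact sub_mem hg (Ideal.mul_mem_left _ _ r1)
  have h0 : r = 0 := key h hk (h.eq_zero_of_std s) r2 (by simp) hm
  rwa [h0, sub_zero] at r1

theorem TriAux.exists_equiv (h : IsTri f n) :
    Nonempty ((MvPolynomial σ A ⧸ Ideal.span (Set.range f)) ≃ₗ[A]
      ({α : σ →₀ ℕ | ∀ i, α i < n i} →₀ A)) := by
  let S : Set (σ →₀ ℕ) := {α | ∀ i, α i < n i}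
  let φ : restrictSupport A S →ₗ[A] (MvPolynomial σ A ⧸ Ideal.span (Set.range f)) :=
    (Ideal.Quotient.mkₐ A _).toLinearMap ∘ₗ (restrictSupport A S).subtype
  have hφ : Function.Bijective φ := by
    constructor
    · rw [← LinearMap.ker_eq_bot, LinearMap.ker_eq_bot']
      rintro ⟨r, hr⟩ h0
      have h1 : r ∈ Ideal.span (Set.range f) := Ideal.Quotient.eq_zero_iff_mem.1 h0
      rw [← Set.image_univ] at h1
      exact Subtype.ext (h.eq_zero_of_std _ r h1 fun α hα i _ =>
        (mem_restrictSupport_iff A).1 hr hα i)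
    · intro x
      obtain ⟨g, rfl⟩ := Ideal.Quotient.mk_surjective x
      obtain ⟨r, r1, r2, -⟩ := h.exists_std Set.univ g
      rw [Set.image_univ] at r1
      exact ⟨⟨r, (mem_restrictSupport_iff A).2 fun α hα i => r2 α hα i trivial⟩,
        (Ideal.Quotient.eq.2 r1).symm⟩
  exact ⟨(LinearEquiv.ofBijective φ hφ).symm.trans (basisRestrictSupport A S).repr⟩

theorem IsTri.free (h : IsTri f n) :
    Module.Free A (MvPolynomial σ A ⧸ Ideal.span (Set.range f)) := by
  obtain ⟨e⟩ := exists_equiv h
  exact Module.Free.of_equiv e.symm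

theorem IsTri.faithfullyFlat (h : IsTri f n) :
    Module.FaithfullyFlat A (MvPolynomial σ A ⧸ Ideal.span (Set.range f)) := by
  obtain ⟨e⟩ := exists_equiv h
  have : Nonempty {α : σ →₀ ℕ | ∀ i, α i < n i} := ⟨⟨0, h.pos⟩⟩
  exact Module.FaithfullyFlat.of_linearEquiv A _ e

/-- a regular element stays regular modulo lifts of a triangular system. -/
theorem IsTri.reg_lift (t : A) (ht : ∀ x, t * x = 0 → x = 0) (F : σ → MvPolynomial σ A)
    (h : IsTri (fun i => map (Ideal.Quotient.mk (Ideal.span {t})) (F i)) n)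
    (g : MvPolynomial σ A) (hg : C t * g ∈ Ideal.span (Set.range F)) :
    g ∈ Ideal.span (Set.range F) := by
  classical
  have main : ∀ s : Finset σ, ∀ g, C t * g ∈ Ideal.span (F '' s) → g ∈ Ideal.span (F '' s) := by
    intro s
    induction s using Finset.induction_on_max with
    | empty =>
      intro g hg
      have h0 : C t * g = 0 := by simpa using hg
      have : g = 0 := by
        ext α
        have := congrArg (coeff α) h0
        rw [coeff_C_mul] at this
        exact ht _ this
      rw [this]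
      exact zero_mem _
    | insert k s hk ih =>
      intro g hg
      rw [Finset.coe_insert, Set.image_insert_eq, Ideal.mem_span_insert] at hg ⊢
      obtain ⟨a, u, hu, e⟩ := hg
      set π := map (σ := σ) (Ideal.Quotient.mk (Ideal.span {t})) with hπ
      have hI : Ideal.map π (Ideal.span (F '' s)) = Ideal.span ((fun i => π (F i)) '' s) := by
        rw [Ideal.map_span, Set.image_image]
      have h1 : π (F k) * π a ∈ Ideal.span ((fun i => π (F i)) '' s) := by
        have h2 : π (C t * g) = 0 := by
          rw [map_mul, hπ, map_C, Ideal.Quotient.eq_zero_iff_mem.2 (Ideal.mem_span_singleton_self t),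
            C_0, zero_mul]
        rw [e, map_add, map_mul] at h2
        rw [mul_comm, eq_neg_of_add_eq_zero_left h2, ← hI]
        exact neg_mem (Ideal.mem_map_of_mem _ hu)
      have h3 := h.regular s k (fun i hi => hk i hi) _ h1
      rw [← hI, Ideal.mem_map_iff_of_surjective _
        (map_surjective _ Ideal.Quotient.mk_surjective)] at h3
      obtain ⟨u', hu', e'⟩ := h3
      have h4 : a - u' ∈ RingHom.ker π := by rw [RingHom.mem_ker, map_sub, e', sub_self]
      rw [hπ, ker_map, Ideal.mk_ker, Ideal.map_span, Set.image_singleton,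
        Ideal.mem_span_singleton'] at h4
      obtain ⟨b, hb⟩ := h4
      refine ⟨b, g - b * F k, ih _ ?_, by ring⟩
      have : C t * (g - b * F k) = u + F k * u' := by
        rw [mul_sub, e, ← sub_add_cancel a u', ← hb]; ring
      rw [this]
      exact add_mem hu (Ideal.mul_mem_left _ _ hu')
  rw [← Set.image_univ] at hg ⊢
  obtain ⟨s, hs, h1⟩ := exists_fin hg
  exact Ideal.span_mono (Set.image_mono hs) (main s g h1)

end Vale.Agent.P202
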