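import Vale.Agent.P202.MxWitt
import Vale.Agent.P202.MxFlat2
import Vale.Agent.P202.MxTri

/-! Adjoining Teichmuller roots of monic polynomials. -/

namespace Vale.Agent.P202

open WittVector Polynomial

universe u

variable {p : ℕ} [Fact p.Prime]

theorem andre_coeff_add {R : Type*} [CommRing R] (x y : WittVector p R) (i : ℕ)
    (h : ∀ k < i, y.coeff k = 0) : (x + y).coeff i = x.coeff i + y.coeff i := by
  have h1 : ∀ k < i, (tail i x).coeff k = 0 := fun k hk => if_neg (not_le.2 hk)
  have h2 : tail i x + y = verschiebung^[i] ((tail i x).shift i + y.shift i) := by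
    rw [iterate_map_add, ← eq_iterate_verschiebung h1, ← eq_iterate_verschiebung h]
  have h3 : (init i x).coeff i = 0 := if_neg (lt_irrefl i)
  have h4 : (tail i x).coeff i = x.coeff i := if_pos le_rfl
  have h5 := iterate_verschiebung_coeff ((tail i x).shift i + y.shift i) i 0
  conv_lhs => rw [← init_add_tail x i, add_assoc, h2]
  rw [zero_add] at h5
  rw [coeff_add_of_disjoint, h3, zero_add, h5, add_coeff_zero, shift_coeff, shift_coeff, add_zero, h4]
  intro n
  by_cases hn : n < i
  · exact Or.inr (iterate_verschiebung_coeff_eq_zero _ hn)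
  · exact Or.inl (if_neg hn)

theorem andre_coeff_sub {R : Type*} [CommRing R] (x y : WittVector p R) (i : ℕ)
    (h : ∀ k < i, y.coeff k = 0) : (x - y).coeff i = x.coeff i - y.coeff i := by
  have := andre_coeff_add (x - y) y i h
  rw [sub_add_cancel] at this
  rw [this, add_sub_cancel_right]

theorem andre_map_eval {A B C : Type*} [CommRing A] [CommRing B] [CommRing C] (f : A →+* B)
    (g : B →+* C) (Q : (WittVector p A)[X]) (x : B) :
    WittVector.map g ((Q.map (WittVector.map f)).eval (teichmuller p x)) =
      (Q.map (WittVector.map (g.comp f))).eval (teichmuller p (g x)) := by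
  rw [← map_teichmuller, eval_map, eval_map, hom_eval₂]
  congr 1

theorem andre_map_mk {B C : Type*} [CommRing B] [CommRing C] (g : B →+* C) (x : ℕ → B) :
    WittVector.map g (WittVector.mk p x) = WittVector.mk p fun j => g (x j) := rfl

/-- the coefficients of `Q([X 0]) - p * (X 1, X 2, ...)` form a triangular system, up to sign. -/
theorem isTri_witt {A : Type*} [CommRing A] [CharP A p] (Q : (WittVector p A)[X]) (hQ : Q.Monic)
    (hd : 0 < Q.natDegree) :
    IsTri (fun i : ℕ => (if i = 0 then 1 else -1) *
      ((Q.map (WittVector.map (MvPolynomial.C : A →+* MvPolynomial ℕ A))).eval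
        (teichmuller p (MvPolynomial.X 0)) -
        (p : WittVector p (MvPolynomial ℕ A)) *
          WittVector.mk p fun j => MvPolynomial.X (j + 1)).coeff i)
      (fun i => if i = 0 then Q.natDegree else p) := by
  have hp := (Fact.out : p.Prime).pos
  refine ⟨fun i => by split_ifs <;> assumption, fun i => ?_⟩
  set a := (Q.map (WittVector.map (MvPolynomial.C : A →+* MvPolynomial ℕ A))).eval
        (teichmuller p (MvPolynomial.X 0)) with ha
  set b := (p : WittVector p (MvPolynomial ℕ A)) *
          WittVector.mk p fun j => MvPolynomial.X (j + 1) with hb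
  have b0 : b.coeff 0 = 0 := by rw [hb, mul_comm, mul_charP_coeff_zero]
  have b1 : ∀ j, b.coeff (j + 1) = MvPolynomial.X (j + 1) ^ p := fun j => by
    rw [hb, mul_comm, mul_charP_coeff_succ, WittVector.coeff_mk]
  rcases i with _ | i
  · have e : a.coeff 0 = MvPolynomial.X 0 ^ Q.natDegree + ∑ k ∈ Finset.range Q.natDegree,
        MvPolynomial.monomial (Finsupp.single 0 k) ((Q.coeff k).coeff 0) := by
      have h1 : a.coeff 0 = WittVector.constantCoeff a := rfl
      rw [h1, ha, eval_map, eval₂_eq_sum_range, Finset.sum_range_succ, hQ.coeff_natDegree, map_one,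
        one_mul, map_add, add_comm, map_sum, map_pow]
      refine congrArg₂ _ rfl (Finset.sum_congr rfl fun k _ => ?_)
      rw [map_mul, map_pow, ← MvPolynomial.C_mul_X_pow_eq_monomial]
      rfl
    intro α hα
    simp only [if_true, one_mul] at hα ⊢
    rw [andre_coeff_sub _ _ 0 (fun k hk => absurd hk (Nat.not_lt_zero k)), b0, sub_zero, e,
      add_sub_cancel_left] at hα
    obtain ⟨k, hk, h2⟩ := Finset.mem_biUnion.1 (MvPolynomial.support_sum hα)
    obtain rfl := Finset.mem_singleton.1 (MvPolynomial.support_monomial_subset h2)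
    refine ⟨by simpa using hk, fun j hj => Finsupp.single_eq_of_ne hj.ne'⟩
  · let φ : MvPolynomial ℕ A →ₐ[A] MvPolynomial ℕ A :=
      MvPolynomial.aeval fun j => if j < i + 1 then MvPolynomial.X j else 0
    have φa : WittVector.map φ.toRingHom a = a := by
      have e1 : φ.toRingHom.comp MvPolynomial.C = MvPolynomial.C := RingHom.ext fun c => by simp [φ]
      have e2 : φ.toRingHom (MvPolynomial.X 0) = MvPolynomial.X 0 := by simp [φ]
      rw [ha, andre_map_eval, e1, e2]
    have φb : WittVector.map φ.toRingHom b = init (i + 1) b := by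
      ext1 k
      rw [WittVector.map_coeff, init, select, WittVector.coeff_mk]
      rcases k with _ | k
      · simp [b0]
      · rw [b1]
        rw [Nat.add_lt_add_iff_right]
        split_ifs with h <;> simp [φ, h, hp.ne']
    have e : (a - b).coeff (i + 1) = φ ((a - b).coeff (i + 1)) - MvPolynomial.X (i + 1) ^ p := by
      have h1 : φ ((a - b).coeff (i + 1)) = (WittVector.map φ.toRingHom (a - b)).coeff (i + 1) := rfl
      have h2 : (tail (i + 1) b).coeff (i + 1) = b.coeff (i + 1) := if_pos le_rfl
      rw [h1, map_sub, φa, φb, ← b1, ← h2,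
        ← andre_coeff_sub _ _ _ fun k hk => if_neg (not_le.2 hk), sub_sub, init_add_tail]
    have hs : ∀ g, φ g ∈ MvPolynomial.supported A {j | j < i + 1} := fun g => by
      induction g using MvPolynomial.induction_on with
      | C c => rw [MvPolynomial.algHom_C]; exact Subalgebra.algebraMap_mem _ _
      | add f g h1 h2 => rw [map_add]; exact add_mem h1 h2
      | mul_X f j h1 =>
        rw [map_mul]
        refine mul_mem h1 ?_
        simp only [φ, MvPolynomial.aeval_X]
        split_ifs with h
        · exact Algebra.subset_adjoin ⟨j, h, rfl⟩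
        · exact zero_mem _
    intro α hα
    simp only [if_neg (Nat.succ_ne_zero i)] at hα ⊢
    rw [e, neg_one_mul, neg_sub, sub_sub_cancel_left, MvPolynomial.support_neg] at hα
    have h3 : ∀ j, i + 1 ≤ j → α j = 0 := fun j hj => by
      by_contra h
      exact absurd (MvPolynomial.mem_supported.1 (hs _) ((MvPolynomial.mem_vars_iff_mem_support j).2
        ⟨α, hα, Finsupp.mem_support_iff.2 h⟩)) (not_lt.2 hj)
    exact ⟨by rw [h3 _ le_rfl]; exact hp, fun j hj => h3 j hj.le⟩

theorem qflat_witt {E E' : Type*} [CommRing E] [CharP E p] [PerfectRing E p] [CommRing E']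
    [CharP E' p] [PerfectRing E' p] (f : E →+* E') (t : E) (ht : ∀ x, t * x = 0 → x = 0)
    (hf : QFlat f (Ideal.span {t})) (ν : ℕ) : QFlat (WittVector.map f) (JJ p t ν) := by
  have hx : WittVector.map f (xi p t) = xi p (f t) := by
    rw [xi, xi, map_sub, map_natCast, map_teichmuller]
  rw [JJ, Ideal.span_insert]
  refine QFlat.pow _ _ (mem_xi_of_p_mul ht) (fun y hy => ?_) ?_ ν
  · rw [Ideal.map_span, Set.image_singleton, hx] at hy ⊢
    rw [map_natCast] at hy
    exact mem_xi_of_p_mul (hf.reg_of_perfect p ht) y hy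
  · refine (qflat_iff_of_surjective _ f WittVector.constantCoeff WittVector.constantCoeff
      (WittVector.constantCoeff_surjective p) (WittVector.constantCoeff_surjective p) rfl _ ?_ ?_).2 (hf.mono ?_)
    · rw [WittVector.ker_constantCoeff]; exact le_sup_right
    · rw [WittVector.ker_constantCoeff, Ideal.map_sup]
      refine le_sup_of_le_right (le_of_eq ?_)
      rw [Ideal.map_span, Set.image_singleton, map_natCast]
    · rw [Ideal.span_singleton_le_iff_mem]
      have h1 : (p : WittVector p E) - xi p t ∈
          Ideal.span {xi p t} ⊔ Ideal.span {(p : WittVector p E)} :=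
        sub_mem (Ideal.mem_sup_right (Ideal.mem_span_singleton_self _))
          (Ideal.mem_sup_left (Ideal.mem_span_singleton_self _))
      have h2 := Ideal.mem_map_of_mem WittVector.constantCoeff h1
      rwa [show WittVector.constantCoeff ((p : WittVector p E) - xi p t) = t by
        rw [xi, sub_sub_cancel]; rfl] at h2

theorem andre_qflat_tri {E : Type*} [CommRing E] (I : Ideal E) (F : ℕ → MvPolynomial ℕ E)
    {n : ℕ → ℕ} (h : IsTri (fun i => MvPolynomial.map (Ideal.Quotient.mk I) (F i)) n) :
    QFlat ((Ideal.Quotient.mk (Ideal.span (Set.range F))).comp MvPolynomial.C) I := by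
  have hJ : Ideal.span (Set.range fun i => MvPolynomial.map (Ideal.Quotient.mk I) (F i)) =
      (Ideal.span (Set.range F)).map (MvPolynomial.map (Ideal.Quotient.mk I)) := by
    rw [Ideal.map_span, ← Set.range_comp]; rfl
  have hsurj := MvPolynomial.map_surjective (σ := ℕ) _ (Ideal.Quotient.mk_surjective (I := I))
  have hff := RingHom.faithfullyFlat_algebraMap_iff.2 h.faithfullyFlat
  generalize Ideal.span (Set.range fun i => MvPolynomial.map (Ideal.Quotient.mk I) (F i)) = J'
    at hJ hff
  generalize Ideal.span (Set.range F) = J at hJ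
  have hle : J ≤ J'.comap (MvPolynomial.map (Ideal.Quotient.mk I)) := hJ ▸ Ideal.le_comap_map
  have h1 := QFlat.of_faithfullyFlat hff (I.map (Ideal.Quotient.mk I))
  have h2 := Ideal.quotientMap_surjective (H := hle) hsurj
  refine (qflat_iff_of_surjective _ _ (Ideal.Quotient.mk I) (Ideal.quotientMap J' _ hle)
    Ideal.Quotient.mk_surjective h2 ?_ _
    Ideal.mk_ker.le fun y hy => ?_).2 h1
  · refine RingHom.ext fun c => ?_
    rw [RingHom.comp_apply, RingHom.comp_apply, RingHom.comp_apply, Ideal.quotientMap_mk, MvPolynomial.map_C,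
     ← Ideal.Quotient.mk_algebraMap, MvPolynomial.algebraMap_eq]
  · obtain ⟨g, rfl⟩ := Ideal.Quotient.mk_surjective y
    rw [RingHom.mem_ker, Ideal.quotientMap_mk, Ideal.Quotient.eq_zero_iff_mem, hJ,
      ← Ideal.mem_comap, Ideal.comap_map_of_surjective _ hsurj, ← RingHom.ker_eq_comap_bot,
      MvPolynomial.ker_map, Ideal.mk_ker] at hy
    obtain ⟨u, hu, v, hv, rfl⟩ := Submodule.mem_sup.1 hy
    rw [map_add, Ideal.Quotient.eq_zero_iff_mem.2 hu, zero_add, ← Ideal.map_map]
    exact Ideal.mem_map_of_mem _ hv

theorem andre_perf {E B : Type u} [CommRing E] [CharP E p] [PerfectRing E p] [CommRing B] (t : E)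
    (ht : ∀ x, t * x = 0 → x = 0) (hu : ¬ IsUnit t) (f : E →+* B) (h1 : QFlat f (Ideal.span {t}))
    (hB : ∀ y, f t * y = 0 → y = 0) :
    ∃ (E' : Type u) (_ : CommRing E') (_ : CharP E' p) (_ : PerfectRing E' p) (g : B →+* E'),
      QFlat (g.comp f) (Ideal.span {t}) := by
  have h2 : ∀ j, QFlat f (Ideal.span {t ^ j}) := fun j => by
    have := QFlat.pow (f := f) ⊥ t ht (fun y hy => ?_) (by rwa [bot_sup_eq]) j
    · rwa [bot_sup_eq] at this
    · rw [Ideal.map_bot, Ideal.mem_bot] at hy ⊢
      exact hB y hy
  have : Nontrivial B := by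
    by_contra h
    rw [not_nontrivial_iff_subsingleton] at h
    have h3 := h1.comap_map le_rfl
    rw [Subsingleton.elim ((Ideal.span {t}).map f) ⊤, Ideal.comap_top] at h3
    exact hu (Ideal.span_singleton_eq_top.1 h3.symm)
  have : CharP B p := (CharP.charP_iff_prime_eq_zero Fact.out).2 (by
    rw [← map_natCast f, CharP.cast_eq_zero, map_zero])
  exact ⟨PerfectClosure B p, inferInstance, inferInstance, inferInstance, PerfectClosure.of B p,
    QFlat.perfectClosure p h2⟩

/-- the Witt vector `P([X 0]) - (p - [t]) * (X 1, X 2, ...)`. -/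
noncomputable def andreVec {E : Type*} [CommRing E] (t : E) (P : (WittVector p E)[X]) :
    WittVector p (MvPolynomial ℕ E) :=
  (P.map (WittVector.map (MvPolynomial.C : E →+* MvPolynomial ℕ E))).eval
    (teichmuller p (MvPolynomial.X 0)) -
    xi p (MvPolynomial.C t) * WittVector.mk p fun j => MvPolynomial.X (j + 1)

theorem andre_map_vec {E B : Type*} [CommRing E] [CommRing B] (t : E) (P : (WittVector p E)[X])
    (g : MvPolynomial ℕ E →+* B) : WittVector.map g (andreVec t P) =
      (P.map (WittVector.map (g.comp MvPolynomial.C))).eval (teichmuller p (g (MvPolynomial.X 0))) -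
        xi p (g (MvPolynomial.C t)) * WittVector.mk p fun j => g (MvPolynomial.X (j + 1)) := by
  rw [andreVec, map_sub, andre_map_eval, map_mul, xi, map_sub, map_natCast, map_teichmuller,
    andre_map_mk, xi]

theorem andre_tri {E A : Type*} [CommRing E] [CommRing A] [CharP A p] (t : E) (π : E →+* A)
    (ht : π t = 0) (P : (WittVector p E)[X]) (hP : P.Monic) (hd : 0 < P.natDegree) :
    ∃ n : ℕ → ℕ, IsTri (fun i : ℕ => MvPolynomial.map π
      ((if i = 0 then 1 else -1) * (andreVec t P).coeff i)) n := by
  have : Nontrivial A := CharP.nontrivial_of_char_ne_one (Fact.out : p.Prime).ne_one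
  have : Nontrivial (WittVector p A) := WittVector.constantCoeff.domain_nontrivial
  have htri := isTri_witt (P.map (WittVector.map π)) (hP.map _) (by rwa [hP.natDegree_map])
  have hz := andre_map_vec t P (MvPolynomial.map π)
  simp only [MvPolynomial.map_X, MvPolynomial.map_C, ht, map_zero, xi, teichmuller_zero, sub_zero,
    MvPolynomial.map_comp_C] at hz
  have e : P.map (WittVector.map ((MvPolynomial.C : A →+* MvPolynomial ℕ A).comp π)) =
      (P.map (WittVector.map π)).map (WittVector.map MvPolynomial.C) := by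
    rw [Polynomial.map_map]; rfl
  rw [e] at hz
  rw [← hz] at htri
  have hF : (fun i : ℕ => (if i = 0 then 1 else -1) *
      (WittVector.map (MvPolynomial.map π) (andreVec t P)).coeff i) = fun i : ℕ =>
      MvPolynomial.map π ((if i = 0 then 1 else -1) * (andreVec t P).coeff i) := by
    funext i
    rw [WittVector.map_coeff, map_mul]
    split_ifs <;> simp
  exact ⟨_, hF ▸ htri⟩

theorem exists_andre (E : Type u) [CommRing E] [CharP E p] [PerfectRing E p] (t : E)
    (ht : ∀ x, t * x = 0 → x = 0) (hu : ¬ IsUnit t) (P : (WittVector p E)[X]) (hP : P.Monic)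
    (hd : 0 < P.natDegree) :
    ∃ (E' : Type u) (_ : CommRing E') (_ : CharP E' p) (_ : PerfectRing E' p) (f : E →+* E')
      (τ : E'), QFlat f (Ideal.span {t}) ∧
      (P.map (WittVector.map f)).eval (teichmuller p τ) ∈ Ideal.span {xi p (f t)} := by
  have hnt : Nontrivial (E ⧸ Ideal.span {t}) :=
    Ideal.Quotient.nontrivial_iff.2 (by rwa [Ne, Ideal.span_singleton_eq_top])
  have hch : CharP (E ⧸ Ideal.span {t}) p := (CharP.charP_iff_prime_eq_zero Fact.out).2 (by
    rw [← map_natCast (Ideal.Quotient.mk _), CharP.cast_eq_zero, map_zero])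
  obtain ⟨n, htri⟩ := andre_tri t (Ideal.Quotient.mk (Ideal.span {t}))
    (Ideal.Quotient.eq_zero_iff_mem.2 (Ideal.mem_span_singleton_self t)) P hP hd
  have h1 := andre_qflat_tri _ _ htri
  have h2 := IsTri.reg_lift t ht _ htri
  have h3 : ∀ i : ℕ, (if i = 0 then 1 else -1) * (andreVec t P).coeff i ∈ Ideal.span
      (Set.range fun i : ℕ => (if i = 0 then 1 else -1) * (andreVec t P).coeff i) :=
    fun i => Ideal.subset_span ⟨i, rfl⟩
  generalize Ideal.span (Set.range fun i : ℕ =>
    (if i = 0 then 1 else -1) * (andreVec t P).coeff i) = J at h1 h2 h3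
  obtain ⟨E', i1, i2, i3, g, hg⟩ := andre_perf (p := p) t ht hu _ h1 fun y hy => by
    obtain ⟨g, rfl⟩ := Ideal.Quotient.mk_surjective y
    rw [RingHom.comp_apply, ← map_mul, Ideal.Quotient.eq_zero_iff_mem] at hy
    exact Ideal.Quotient.eq_zero_iff_mem.2 (h2 g hy)
  refine ⟨E', i1, i2, i3, _, g.comp (Ideal.Quotient.mk J) (MvPolynomial.X 0), hg, ?_⟩
  have h4 : WittVector.map (g.comp (Ideal.Quotient.mk J)) (andreVec t P) = 0 := by
    ext1 i
    have h5 := congrArg g (Ideal.Quotient.eq_zero_iff_mem.2 (h3 i))
    rw [WittVector.map_coeff, WittVector.zero_coeff]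
    split_ifs at h5 <;> simpa using h5
  rw [andre_map_vec, sub_eq_zero] at h4
  rw [← RingHom.comp_assoc, h4]
  exact Ideal.mul_mem_right _ _ (Ideal.mem_span_singleton_self _)

end Vale.Agent.P202
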