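import Vale.Agent.P202.MxMult

/-! Reduction to the case of a domain. -/

namespace Vale.Agent.P202

open IsLocalRing Filter Topology

universe u

/-- the colon ideal `(W : x)`. -/
def mxaCol {A : Type*} [CommRing A] (W : Ideal A) (x : A) : Ideal A :=
  Submodule.comap (LinearMap.toSpanSingleton A A x) W

theorem mxa_mem_col {A : Type*} [CommRing A] {W : Ideal A} {x s : A} :
    s ∈ mxaCol W x ↔ s * x ∈ W := Iff.rfl

theorem mxa_length_eq {A : Type*} [CommRing A] (W : Ideal A) (x : A) :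
    Module.length A (A ⧸ W) =
      Module.length A (A ⧸ mxaCol W x) + Module.length A (A ⧸ (W ⊔ Ideal.span {x})) := by
  refine Module.length_eq_add_of_exact
    (Submodule.mapQ (mxaCol W x) W (LinearMap.toSpanSingleton A A x) le_rfl)
    (Submodule.factor (le_sup_left : W ≤ W ⊔ Ideal.span {x})) ?_ (Submodule.factor_surjective _) ?_
  · rw [← LinearMap.ker_eq_bot, eq_bot_iff]
    intro y hy
    obtain ⟨s, rfl⟩ := Submodule.mkQ_surjective _ y
    exact (Submodule.Quotient.mk_eq_zero _).mpr ((Submodule.Quotient.mk_eq_zero W).mp hy)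
  · intro y
    obtain ⟨s, rfl⟩ := Submodule.mkQ_surjective _ y
    constructor
    · intro hs
      have hs' : s ∈ W ⊔ Ideal.span {x} := (Submodule.Quotient.mk_eq_zero _).mp hs
      obtain ⟨a, ha, b, hb, rfl⟩ := Submodule.mem_sup.mp hs'
      obtain ⟨c, rfl⟩ := Ideal.mem_span_singleton'.mp hb
      refine ⟨Submodule.Quotient.mk c, ?_⟩
      refine (Submodule.Quotient.eq W).mpr ?_
      simpa using W.neg_mem ha
    · rintro ⟨z, hz⟩
      obtain ⟨c, rfl⟩ := Submodule.mkQ_surjective _ z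
      have h1 : c * x - s ∈ W := (Submodule.Quotient.eq W).mp hz
      refine (Submodule.Quotient.mk_eq_zero _).mpr ?_
      have h2 : s = -(c * x - s) + c * x := by ring
      rw [h2]
      exact Submodule.add_mem_sup (W.neg_mem h1) (Ideal.mem_span_singleton'.mpr ⟨c, rfl⟩)

/-- flat base change of colon ideals. -/
theorem mxa_col_map {R S : Type*} [CommRing R] [CommRing S] [Algebra R S] [Module.Flat R S]
    (I : Ideal R) (x : R) :
    mxaCol (I.map (algebraMap R S)) (algebraMap R S x) ≤ (mxaCol I x).map (algebraMap R S) := by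
  intro s hs
  let g := Submodule.mapQ (mxaCol I x) I (LinearMap.toSpanSingleton R R x) le_rfl
  have hg : Function.Injective g := by
    rw [← LinearMap.ker_eq_bot, eq_bot_iff]
    intro y hy
    obtain ⟨s, rfl⟩ := Submodule.mkQ_surjective _ y
    exact (Submodule.Quotient.mk_eq_zero _).mpr ((Submodule.Quotient.mk_eq_zero I).mp hy)
  have h1 := Module.Flat.lTensor_preserves_injective_linearMap (M := S) g hg
  rw [← Ideal.Quotient.eq_zero_iff_mem,
    ← (Algebra.TensorProduct.quotIdealMapEquivTensorQuot S (mxaCol I x)).map_eq_zero_iff]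
  refine h1 ?_
  rw [map_zero]
  have h2 := (Algebra.TensorProduct.quotIdealMapEquivTensorQuot S I).map_eq_zero_iff.mpr
    (Ideal.Quotient.eq_zero_iff_mem.mpr (mxa_mem_col.mp hs))
  have h3 : g 1 = x • 1 := by
    change Ideal.Quotient.mk I (1 * x) = x • Ideal.Quotient.mk I 1
    rw [Algebra.smul_def]
    simp
  refine Eq.trans ?_ h2
  change TensorProduct.tmul R s (g 1) = TensorProduct.tmul R (s * algebraMap R S x) 1
  rw [h3, ← TensorProduct.smul_tmul, Algebra.smul_def, mul_comm]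

/-- Artin-Rees for colon ideals. -/
theorem mxa_artin_rees {S : Type*} [CommRing S] [IsNoetherianRing S] (n J : Ideal S) (x : S) :
    ∃ c : ℕ, ∀ N, mxaCol (J ⊔ n ^ N) x ≤ mxaCol J x ⊔ n ^ (N - c) := by
  obtain ⟨c, hc⟩ := Ideal.exists_pow_inf_eq_pow_smul (M := S) n (J ⊔ Ideal.span {x})
  refine ⟨c, fun N s hs => ?_⟩
  rcases lt_or_ge N c with hN | hN
  · rw [Nat.sub_eq_zero_of_le hN.le, pow_zero, Ideal.one_eq_top, sup_top_eq]
    trivial
  obtain ⟨j, hj, t, ht, hjt⟩ := Submodule.mem_sup.mp (mxa_mem_col.mp hs)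
  have h1 : t ∈ n ^ N • (⊤ : Submodule S S) ⊓ (J ⊔ Ideal.span {x}) := by
    refine ⟨by rwa [smul_top_ideal], ?_⟩
    have h2 : t = -j + s * x := by rw [← hjt]; ring
    rw [h2]
    exact Submodule.add_mem_sup (J.neg_mem hj) (Ideal.mem_span_singleton'.mpr ⟨s, rfl⟩)
  rw [hc N hN] at h1
  have h3 : t ∈ n ^ (N - c) * J ⊔ n ^ (N - c) * Ideal.span {x} := by
    rw [← Ideal.mul_sup]
    exact Ideal.mul_mono_right inf_le_right h1
  obtain ⟨a, ha, b, hb, rfl⟩ := Submodule.mem_sup.mp h3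
  obtain ⟨r, hr, rfl⟩ := Ideal.mem_mul_span_singleton.mp hb
  have h4 : s = (s - r) + r := by ring
  rw [h4]
  refine Submodule.add_mem_sup (mxa_mem_col.mpr ?_) hr
  have h5 : (s - r) * x = j + a := by rw [sub_mul, ← hjt]; ring
  rw [h5]
  exact J.add_mem hj (Ideal.mul_le_right ha)

/-- the length of `A / (I + m^N)`. -/
noncomputable def mxaL (A : Type*) [CommRing A] [IsLocalRing A] (I : Ideal A) (N : ℕ) : ℝ :=
  (len A (A ⧸ (I ⊔ maximalIdeal A ^ N)) : ℝ)

theorem mxa_ne_top {A : Type*} [CommRing A] [IsLocalRing A] [IsNoetherianRing A] {W : Ideal A}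
    {N : ℕ} (h : maximalIdeal A ^ N ≤ W) : Module.length A (A ⧸ W) ≠ ⊤ :=
  length_quot_ne_top (maximalIdeal A).fg_of_isNoetherianRing N W (by rwa [smul_top_ideal])

theorem mxa_upper {A : Type*} [CommRing A] [IsLocalRing A] [IsNoetherianRing A] (I : Ideal A)
    (x : A) (N : ℕ) :
    mxaL A I N ≤ mxaL A (mxaCol I x) N + mxaL A (I ⊔ Ideal.span {x}) N := by
  have h1 := mxa_length_eq (I ⊔ maximalIdeal A ^ N) x
  have h2 : mxaCol I x ⊔ maximalIdeal A ^ N ≤ mxaCol (I ⊔ maximalIdeal A ^ N) x :=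
    sup_le (fun s hs => Ideal.mem_sup_left hs) fun s hs =>
      Ideal.mem_sup_right (Ideal.mul_mem_right x _ hs)
  have h3 := gr_anti (T := A) h2
  rw [sup_right_comm] at h1
  have h4 := h1.le.trans (add_le_add h3 le_rfl)
  have h5 := mxa_ne_top (le_sup_right : maximalIdeal A ^ N ≤ mxaCol I x ⊔ maximalIdeal A ^ N)
  have h6 := mxa_ne_top (le_sup_right : maximalIdeal A ^ N ≤ I ⊔ Ideal.span {x} ⊔ _)
  have h7 := ENat.toNat_le_toNat h4 (by simp [h5, h6])
  rw [ENat.toNat_add h5 h6] at h7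
  unfold mxaL len
  exact_mod_cast h7

theorem mxa_lower {A : Type*} [CommRing A] [IsLocalRing A] [IsNoetherianRing A] (I : Ideal A)
    (x : A) : ∃ c : ℕ, ∀ N,
    mxaL A (mxaCol I x) (N - c) + mxaL A (I ⊔ Ideal.span {x}) N ≤ mxaL A I N := by
  obtain ⟨c, hc⟩ := mxa_artin_rees (maximalIdeal A) I x
  refine ⟨c, fun N => ?_⟩
  have h1 := mxa_length_eq (I ⊔ maximalIdeal A ^ N) x
  have h3 := gr_anti (T := A) (hc N)
  rw [sup_right_comm] at h1
  have h4 := (add_le_add h3 le_rfl).trans h1.ge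
  have h5 := mxa_ne_top (le_sup_right : maximalIdeal A ^ (N - c) ≤ mxaCol I x ⊔ _)
  have h6 := mxa_ne_top (le_sup_right : maximalIdeal A ^ N ≤ I ⊔ Ideal.span {x} ⊔ _)
  have h7 := ENat.toNat_le_toNat h4 (mxa_ne_top (le_sup_right : maximalIdeal A ^ N ≤ I ⊔ _))
  rw [ENat.toNat_add h5 h6] at h7
  unfold mxaL len
  exact_mod_cast h7

theorem mxa_quot {A : Type*} [CommRing A] [IsLocalRing A] (I : Ideal A)
    [IsLocalRing (A ⧸ I)] (N : ℕ) :
    mxaL A I N = len (A ⧸ I) ((A ⧸ I) ⧸ maximalIdeal (A ⧸ I) ^ N) := by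
  have h1 : (maximalIdeal A ^ N).map (Ideal.Quotient.mkₐ A I) = maximalIdeal (A ⧸ I) ^ N := by
    rw [← map_maximalIdeal_of_surjective (Ideal.Quotient.mk I) Ideal.Quotient.mk_surjective,
      ← Ideal.map_pow]
    rfl
  unfold mxaL len
  rw [← (DoubleQuot.quotQuotEquivQuotSupₐ A I (maximalIdeal A ^ N)).toLinearEquiv.length_eq, ← h1,
    Module.length_eq_of_surjective (S := A) (R := A ⧸ I) Ideal.Quotient.mk_surjective]

theorem mxa_tendsto (A : Type u) [CommRing A] [IsLocalRing A] [IsNoetherianRing A] (c : ℕ) {d : ℕ}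
    (hd : dimNat A ≤ d) :
    Tendsto (fun N : ℕ => (len A (A ⧸ maximalIdeal A ^ (N - c)) : ℝ) / (N : ℝ) ^ d) atTop
      (𝓝 (mult A / (dimNat A).factorial * 0 ^ (d - dimNat A))) := by
  obtain ⟨e, rfl⟩ := Nat.exists_eq_add_of_le hd
  rw [Nat.add_sub_cancel_left]
  have h1 : Tendsto (fun N : ℕ => hsSeq A (N - c)) atTop (𝓝 (mult A)) :=
    (tendsto_hsSeq_gen A).1.comp (tendsto_sub_atTop_nat c)
  have h2 : Tendsto (fun N : ℕ => (1 - (c : ℝ) / N) ^ dimNat A) atTop (𝓝 1) := by
    simpa using ((tendsto_const_div_atTop_nhds_zero_nat (c : ℝ)).const_sub 1).pow (dimNat A)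
  have h3 : Tendsto (fun N : ℕ => ((1 : ℝ) / N) ^ e) atTop (𝓝 (0 ^ e)) :=
    (tendsto_const_div_atTop_nhds_zero_nat (1 : ℝ)).pow e
  have h4 := ((h1.div_const ((dimNat A).factorial : ℝ)).mul h2).mul h3
  rw [mul_one] at h4
  refine h4.congr' ?_
  filter_upwards [eventually_gt_atTop c] with N hN
  have h5 : (0 : ℝ) < N := by exact_mod_cast (Nat.zero_le c).trans_lt hN
  have h6 : (0 : ℝ) < (N : ℝ) - c := by
    have : (c : ℝ) < N := by exact_mod_cast hN
    linarith
  have h7 : ((dimNat A).factorial : ℝ) ≠ 0 := by exact_mod_cast (dimNat A).factorial_ne_zero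
  have h8 : 1 - (c : ℝ) / N = ((N : ℝ) - c) / N := by field_simp
  unfold hsSeq len
  rw [Nat.cast_sub hN.le, h8, div_pow, div_pow, pow_add, one_pow]
  field_simp

theorem mxa_dimNat_le {A : Type*} [CommRing A] [IsLocalRing A] [IsNoetherianRing A] (I : Ideal A) :
    dimNat (A ⧸ I) ≤ dimNat A := by
  unfold dimNat
  have h1 := ringKrullDim_quotient_le I
  rw [← IsLocalRing.maximalIdeal_height_eq_ringKrullDim (R := A)] at h1 ⊢
  refine ENat.toNat_le_toNat ?_ Ideal.height_ne_top_of_isPrime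
  generalize ringKrullDim (A ⧸ I) = a at h1
  induction a using WithBot.recBotCoe with
  | bot => exact zero_le
  | coe a => exact WithBot.coe_le_coe.mp h1

theorem mxa_anti {A : Type*} [CommRing A] [IsLocalRing A] [IsNoetherianRing A] {I J : Ideal A}
    (h : I ≤ J) (N : ℕ) : mxaL A J N ≤ mxaL A I N :=
  Nat.cast_le.mpr (ENat.toNat_le_toNat (gr_anti (T := A) (sup_le_sup_right h _))
    (mxa_ne_top (le_sup_right : maximalIdeal A ^ N ≤ I ⊔ _)))

theorem mxa_exists_prime {A : Type*} [CommRing A] [IsNoetherianRing A] (I : Ideal A)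
    (hI : I ≠ ⊤) : ∃ x, x ∉ I ∧ (mxaCol I x).IsPrime := by
  have : Nontrivial (A ⧸ I) := Ideal.Quotient.nontrivial_iff.mpr hI
  obtain ⟨P, hP⟩ := associatedPrimes.nonempty A (A ⧸ I)
  obtain ⟨hP, y, rfl⟩ := isAssociatedPrime_iff.mp hP
  obtain ⟨x, rfl⟩ := Ideal.Quotient.mk_surjective y
  have h1 : Submodule.colon (⊥ : Submodule A (A ⧸ I)) {Ideal.Quotient.mk I x} = mxaCol I x := by
    ext s
    rw [Submodule.mem_colon_singleton, Submodule.mem_bot, mxa_mem_col,
      ← Ideal.Quotient.eq_zero_iff_mem]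
    rfl
  rw [h1] at hP
  exact ⟨x, fun hx => hP.ne_top ((Ideal.eq_top_iff_one _).mpr (by simpa [mxa_mem_col])), hP⟩

theorem mxa_prime {R S : Type u} [CommRing R] [IsLocalRing R] [IsNoetherianRing R]
    [CommRing S] [IsLocalRing S] [IsNoetherianRing S] [Algebra R S]
    [IsLocalHom (algebraMap R S)] [Module.Flat R S] (L : ℕ)
    (hL : maximalIdeal S ^ L ≤ (maximalIdeal R).map (algebraMap R S))
    (h : ∀ (R' S' : Type u) [CommRing R'] [IsLocalRing R'] [IsNoetherianRing R'] [IsDomain R']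
      [CommRing S'] [IsLocalRing S'] [IsNoetherianRing S'] [Algebra R' S']
      [IsLocalHom (algebraMap R' S')] [Module.Flat R' S'] (a : R →+* R') (b : S →+* S'),
      Function.Surjective a → Function.Surjective b →
      maximalIdeal S' ^ L ≤ (maximalIdeal R').map (algebraMap R' S') → mult R' ≤ mult S')
    (P : Ideal R) [hP : P.IsPrime] (c : ℕ) :
    ∃ l : ℝ, l ≤ 0 ∧ Tendsto (fun N : ℕ => mxaL R P N / (N : ℝ) ^ dimNat R -
      mxaL S (P.map (algebraMap R S)) (N - c) / (N : ℝ) ^ dimNat R) atTop (𝓝 l) := by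
  have h1 : P.map (algebraMap R S) ≤ maximalIdeal S :=
    (Ideal.map_mono (le_maximalIdeal hP.ne_top)).trans
      (map_maximalIdeal_le (algebraMap R S))
  have : Nontrivial (S ⧸ P.map (algebraMap R S)) := Ideal.Quotient.nontrivial_iff.mpr
    fun h2 => (maximalIdeal.isMaximal S).ne_top (top_le_iff.mp (h2 ▸ h1))
  have : IsLocalRing (R ⧸ P) :=
    .of_surjective' (Ideal.Quotient.mk P) Ideal.Quotient.mk_surjective
  have : IsLocalRing (S ⧸ P.map (algebraMap R S)) :=
    .of_surjective' (Ideal.Quotient.mk _) Ideal.Quotient.mk_surjective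
  have h2 : (maximalIdeal (R ⧸ P)).map (algebraMap (R ⧸ P) (S ⧸ P.map (algebraMap R S))) =
      ((maximalIdeal R).map (algebraMap R S)).map (Ideal.Quotient.mk _) := by
    rw [← map_maximalIdeal_of_surjective (Ideal.Quotient.mk P) Ideal.Quotient.mk_surjective,
      Ideal.map_map, Ideal.map_map]
    rfl
  have h3 := map_maximalIdeal_of_surjective (Ideal.Quotient.mk (P.map (algebraMap R S)))
    Ideal.Quotient.mk_surjective
  have : IsLocalHom (algebraMap (R ⧸ P) (S ⧸ P.map (algebraMap R S))) := by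
    refine ((IsLocalRing.local_hom_TFAE _).out 0 2).mpr ?_
    rw [h2, ← h3]
    exact Ideal.map_mono (map_maximalIdeal_le (algebraMap R S))
  have : Module.Flat (R ⧸ P) (S ⧸ P.map (algebraMap R S)) :=
    .of_linearEquiv (Algebra.TensorProduct.quotIdealMapEquivQuotTensor S P).toLinearEquiv
  have h4 : maximalIdeal (S ⧸ P.map (algebraMap R S)) ^ L ≤
      (maximalIdeal (R ⧸ P)).map (algebraMap (R ⧸ P) (S ⧸ P.map (algebraMap R S))) := by
    rw [h2, ← h3, ← Ideal.map_pow]
    exact Ideal.map_mono hL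
  have h5 := h (R ⧸ P) (S ⧸ P.map (algebraMap R S)) (Ideal.Quotient.mk _) (Ideal.Quotient.mk _)
    Ideal.Quotient.mk_surjective Ideal.Quotient.mk_surjective h4
  have h6 := dimNat_eq_of_flat L h4
  have h7 := mxa_dimNat_le P
  have h8 := (mxa_tendsto (R ⧸ P) 0 h7).sub
    (mxa_tendsto (S ⧸ P.map (algebraMap R S)) c (h6.le.trans h7))
  refine ⟨_, ?_, h8.congr fun N => by rw [mxa_quot, mxa_quot, Nat.sub_zero]⟩
  rw [h6, sub_nonpos]
  gcongr

theorem mult_le_of_domain (R S : Type u) [CommRing R] [IsLocalRing R] [IsNoetherianRing R]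
    [CommRing S] [IsLocalRing S] [IsNoetherianRing S] [Algebra R S]
    [IsLocalHom (algebraMap R S)] [Module.Flat R S] (L : ℕ)
    (hL : maximalIdeal S ^ L ≤ (maximalIdeal R).map (algebraMap R S))
    (h : ∀ (R' S' : Type u) [CommRing R'] [IsLocalRing R'] [IsNoetherianRing R'] [IsDomain R']
      [CommRing S'] [IsLocalRing S'] [IsNoetherianRing S'] [Algebra R' S']
      [IsLocalHom (algebraMap R' S')] [Module.Flat R' S'] (a : R →+* R') (b : S →+* S'),
      Function.Surjective a → Function.Surjective b →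
      maximalIdeal S' ^ L ≤ (maximalIdeal R').map (algebraMap R' S') → mult R' ≤ mult S') :
    mult R ≤ mult S := by
  have key : ∀ I : Ideal R, ∃ (e : ℕ → ℝ) (l : ℝ), l ≤ 0 ∧ Tendsto e atTop (𝓝 l) ∧
      ∀ N, mxaL R I N / (N : ℝ) ^ dimNat R -
        mxaL S (I.map (algebraMap R S)) N / (N : ℝ) ^ dimNat R ≤ e N := by
    intro I
    induction I using WellFoundedGT.induction with
    | ind I ih =>
    by_cases hI : I = ⊤
    · refine ⟨fun _ => 0, 0, le_rfl, tendsto_const_nhds, fun N => ?_⟩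
      subst hI
      simp [mxaL, len, Ideal.map_top]
    obtain ⟨x, hx, hP⟩ := mxa_exists_prime I hI
    obtain ⟨e, l, hl, he, hle⟩ := ih (I ⊔ Ideal.span {x}) (left_lt_sup.mpr fun h =>
      hx (h (Ideal.mem_span_singleton_self x)))
    obtain ⟨c, hc⟩ := mxa_lower (I.map (algebraMap R S)) (algebraMap R S x)
    obtain ⟨l', hl', he'⟩ := mxa_prime L hL h (mxaCol I x) c
    refine ⟨fun N => (mxaL R (mxaCol I x) N / (N : ℝ) ^ dimNat R -
      mxaL S ((mxaCol I x).map (algebraMap R S)) (N - c) / (N : ℝ) ^ dimNat R) + e N, l' + l,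
      add_nonpos hl' hl, he'.add he, fun N => ?_⟩
    have h1 := mxa_upper I x N
    have h2 := hc N
    have h3 := mxa_anti (mxa_col_map (S := S) I x) (N - c)
    have h4 := hle N
    rw [Ideal.map_sup, Ideal.map_span, Set.image_singleton] at h4
    refine le_trans ?_ (add_le_add le_rfl h4)
    rw [← sub_div, ← sub_div, ← sub_div, ← add_div]
    exact div_le_div_of_nonneg_right (by linarith) (by positivity)
  obtain ⟨e, l, hl, he, hle⟩ := key ⊥
  have h1 := le_of_tendsto_of_tendsto'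
    ((tendsto_hsSeq_gen R).1.sub (tendsto_hsSeq_gen S).1)
    (he.const_mul ((dimNat R).factorial : ℝ)) fun N => by
      have h2 := mul_le_mul_of_nonneg_left (hle N) (Nat.cast_nonneg (α := ℝ) (dimNat R).factorial)
      rw [Ideal.map_bot, mxaL, mxaL, bot_sup_eq, bot_sup_eq, mul_sub, ← mul_div_assoc,
        ← mul_div_assoc] at h2
      unfold hsSeq
      rw [dimNat_eq_of_flat (T := R) (T' := S) L hL]
      exact h2
  have h3 := mul_nonpos_of_nonneg_of_nonpos (Nat.cast_nonneg (α := ℝ) (dimNat R).factorial) hl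
  linarith

end Vale.Agent.P202
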