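import Vale.Agent.P202.MxWitt

/-! From Witt vectors to the tilt, for powers of an ideal; consequences. -/

namespace Vale.Agent.P202

open WittVector

universe u

/-- the extended Rees ring. -/
def w5Rees {A : Type u} [CommRing A] (I : Ideal A) : Subring (LaurentPolynomial A) where
  carrier := {w | ∀ n : ℤ, w.coeff n ∈ I ^ n.toNat}
  mul_mem' := by
    intro a b ha hb n
    rw [AddMonoidAlgebra.coeff_mul_apply_left]
    refine Ideal.sum_mem _ fun h _ => ?_
    have := Ideal.mul_mem_mul (ha h) (hb (-h + n))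
    rw [← pow_add] at this
    exact Ideal.pow_le_pow_right (by omega) this
  one_mem' := by
    intro n
    rw [← LaurentPolynomial.T_zero, LaurentPolynomial.T_apply]
    split_ifs with h
    · simp [← h]
    · exact zero_mem _
  add_mem' := fun ha hb n => by simpa using add_mem (ha n) (hb n)
  zero_mem' := fun n => by simp
  neg_mem' := fun ha n => by simpa using ha n

theorem w5_single_mem {A : Type u} [CommRing A] (I : Ideal A) (m : ℤ) {a : A}
    (ha : a ∈ I ^ m.toNat) : LaurentPolynomial.C a * LaurentPolynomial.T m ∈ w5Rees I := by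
  intro n
  rw [← LaurentPolynomial.single_eq_C_mul_T, AddMonoidAlgebra.coeff_single, Finsupp.single_apply]
  split_ifs with h
  · rwa [← h]
  · exact zero_mem _

theorem w5_exists_rees {A : Type u} [CommRing A] (I : Ideal A) :
    ∃ (R : Type u) (_ : CommRing R) (f : A →+* R) (v : R), Function.Injective f ∧
      (∀ x, v * x = 0 → x = 0) ∧ (∀ a ∈ I, v ∣ f a) ∧ ∀ k c, v ^ k ∣ f c → c ∈ I ^ k := by
  have hC : ∀ a : A, LaurentPolynomial.C a ∈ w5Rees I := fun a => by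
    simpa using w5_single_mem I 0 (a := a) (by simp)
  have hT : LaurentPolynomial.T (-1) ∈ w5Rees I := by
    simpa using w5_single_mem I (-1) (a := 1) (by simp)
  refine ⟨w5Rees I, inferInstance, LaurentPolynomial.C.codRestrict _ hC, ⟨_, hT⟩, ?_, ?_, ?_, ?_⟩
  · intro a b h
    have h1 : LaurentPolynomial.C a = LaurentPolynomial.C b := congrArg Subtype.val h
    simpa using congrArg (fun w : LaurentPolynomial A => w.coeff 0) h1
  · intro x h
    exact Subtype.ext ((LaurentPolynomial.isUnit_T (-1)).mul_right_eq_zero.1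
      (congrArg Subtype.val h))
  · intro a ha
    refine ⟨⟨_, w5_single_mem I 1 (a := a) (by simpa using ha)⟩, Subtype.ext ?_⟩
    show LaurentPolynomial.C a = LaurentPolynomial.T (-1) * (LaurentPolynomial.C a * _)
    rw [mul_left_comm, ← LaurentPolynomial.T_add]
    simp
  · rintro k c ⟨w, hw⟩
    have h1 : LaurentPolynomial.C c = LaurentPolynomial.T (-1) ^ k * w.1 := congrArg Subtype.val hw
    have h2 : w.1 = LaurentPolynomial.C c * LaurentPolynomial.T k := by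
      rw [h1, LaurentPolynomial.T_pow, mul_right_comm, ← LaurentPolynomial.T_add]
      simp
    have h3 := w.2 k
    rw [h2, ← LaurentPolynomial.single_eq_C_mul_T, AddMonoidAlgebra.coeff_single] at h3
    simpa using h3

theorem w5_of_eq {R : Type u} [CommRing R] (p : ℕ) [Fact p.Prime] [CharP R p] {x y : R}
    (h : PerfectClosure.of R p x = PerfectClosure.of R p y) : ∃ l, x ^ p ^ l = y ^ p ^ l := by
  obtain ⟨l, hl⟩ := (PerfectClosure.mk_eq_iff R p _ _).1 h
  exact ⟨l, by simpa [iterate_frobenius] using hl⟩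

theorem w5_pow_eq_of {R : Type u} [CommRing R] (p : ℕ) [Fact p.Prime] [CharP R p]
    (w : PerfectClosure R p) : ∃ m y, w ^ p ^ m = PerfectClosure.of R p y := by
  obtain ⟨⟨m, y⟩, rfl⟩ := PerfectClosure.mk_surjective R p w
  exact ⟨m, y, by rw [← iterate_frobenius, PerfectClosure.iterate_frobenius_mk]⟩

theorem w5_mono {R : Type*} [CommRing R] {A A' B B' : Ideal R} {x : R} (hx : x ∈ A ⊔ B)
    (h1 : A ≤ A') (h2 : B ≤ B') : x ∈ A' ⊔ B' := (sup_le_sup h1 h2 : A ⊔ B ≤ A' ⊔ B') hx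

theorem w5_reg_pow {R : Type u} [CommRing R] {v : R} (hv : ∀ x, v * x = 0 → x = 0) (n : ℕ)
    (x : R) (h : v ^ n * x = 0) : x = 0 := by
  induction n with
  | zero => simpa using h
  | succ n ih => exact ih (hv _ (by rw [← h]; ring))

theorem w5_exists_perf {A : Type u} [CommRing A] (p : ℕ) [Fact p.Prime] [CharP A p]
    (I : Ideal A) : ∃ (R : Type u) (_ : CommRing R) (_ : CharP R p) (_ : PerfectRing R p)
      (f : A →+* R) (v : R), (∀ x, v * x = 0 → x = 0) ∧ (∀ a ∈ I, v ∣ f a) ∧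
        ∀ k c, v ^ k ∣ f c → ∃ e, c ^ p ^ e ∈ I ^ (k * p ^ e) := by
  obtain ⟨R, _, f, v, hf, hv, h1, h2⟩ := w5_exists_rees I
  have : CharP R p := charP_of_injective_ringHom hf p
  refine ⟨PerfectClosure R p, inferInstance, inferInstance, inferInstance,
    (PerfectClosure.of R p).comp f, PerfectClosure.of R p v, fun x hx => ?_,
    fun a ha => map_dvd (PerfectClosure.of R p) (h1 a ha), ?_⟩
  · obtain ⟨m, y, hy⟩ := w5_pow_eq_of p x
    have hp : ∀ n, p ^ n ≠ 0 := fun n => pow_ne_zero _ (Fact.out : p.Prime).ne_zero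
    obtain ⟨l, hl⟩ := w5_of_eq p (x := v ^ p ^ m * y) (y := 0) (by
      rw [map_mul, map_pow, ← hy, ← mul_pow, hx, map_zero, zero_pow (hp m)])
    rw [zero_pow (hp l), mul_pow, ← pow_mul] at hl
    have h3 := congrArg (PerfectClosure.of R p) (w5_reg_pow hv _ _ hl)
    rw [map_pow, map_zero, ← hy] at h3
    exact pow_eq_zero_iff (hp m) |>.1 (pow_eq_zero_iff (hp l) |>.1 h3)
  · rintro k c ⟨w, hw⟩
    obtain ⟨m, y, hy⟩ := w5_pow_eq_of p w
    obtain ⟨l, hl⟩ := w5_of_eq p (x := f c ^ p ^ m) (y := (v ^ k) ^ p ^ m * y) (by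
      rw [map_mul, map_pow, map_pow, map_pow, ← hy, ← mul_pow, ← hw]; rfl)
    refine ⟨m + l, h2 _ _ ⟨y ^ p ^ l, ?_⟩⟩
    rw [map_pow, pow_add, pow_mul, hl]
    ring

variable {p : ℕ} [Fact p.Prime] {E : Type*} [CommRing E] [CharP E p] [PerfectRing E p]

/-- from Witt vectors to the tilt. -/
theorem pow_mem_of_teich_mem (t : E) {k : ℕ} (Z : Fin k → E) (N : ℕ)
    (hN : t ^ N ∈ Ideal.span (Set.range Z)) (r : ℕ) (c : E)
    (h : ∀ ν, teichmuller p c ∈ teichI p Z ^ r ⊔ JJ p t ν) :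
    ∃ e : ℕ, c ^ p ^ e ∈ Ideal.span (Set.range Z) ^ (r * p ^ e) := by
  obtain ⟨R, _, _, _, f, v, hv, h1, h2⟩ := w5_exists_perf p (Ideal.span (Set.range Z))
  have hN' : N ≤ p ^ N := (Nat.lt_pow_self (Fact.out : p.Prime).one_lt).le
  have h3 : rt p N v ∣ f t := by
    have := map_dvd (iterateFrobeniusEquiv R p N).symm
      ((h1 _ hN).trans (by rw [map_pow]; exact pow_dvd_pow _ hN' : f (t ^ N) ∣ f t ^ p ^ N))
    rwa [show (iterateFrobeniusEquiv R p N).symm (f t ^ p ^ N) = f t from w4_rt_of_pow N _] at this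
  have h4 : ∀ x, rt p N v * x = 0 → x = 0 := by
    intro x hx
    refine hv x ?_
    obtain ⟨n, hn⟩ := Nat.exists_eq_succ_of_ne_zero
      (pow_ne_zero N (Fact.out : p.Prime).ne_zero)
    rw [← rt_pow (p := p) N v, hn, pow_succ, mul_assoc, hx, mul_zero]
  have h5 := Ideal.mem_map_of_mem (WittVector.map f) (h (p ^ N * r))
  rw [Ideal.map_sup, JJ_map, map_teichmuller, Ideal.map_pow] at h5
  have h6 : (teichI p Z).map (WittVector.map f) ≤ Ideal.span {teichmuller p v} := by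
    rw [teichI, Ideal.map_span, Ideal.span_le]
    rintro _ ⟨_, ⟨i, rfl⟩, rfl⟩
    rw [map_teichmuller]
    exact Ideal.mem_span_singleton.2 (map_dvd _ (h1 _ (Ideal.subset_span ⟨i, rfl⟩)))
  have h7 := dvd_of_teich_mem h4 h3 (p ^ N * r) _ le_rfl (f c) (by
    refine w5_mono h5 ?_ le_rfl
    rw [pow_mul, rt_pow, map_pow, ← Ideal.span_singleton_pow]
    exact Ideal.pow_right_mono h6 r)
  rw [pow_mul, rt_pow] at h7
  exact h2 r c h7

theorem w5_pair (t γ : E) (N r : ℕ) (c : E)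
    (h : ∀ ν, teichmuller p c ∈ Ideal.span {teichmuller p γ ^ r} ⊔ JJ p t ν) :
    ∃ e : ℕ, c ^ p ^ e ∈ (Ideal.span {γ} ⊔ Ideal.span {t ^ N}) ^ (r * p ^ e) := by
  have h1 := pow_mem_of_teich_mem (p := p) t ![γ, t ^ N] N (Ideal.subset_span ⟨1, rfl⟩) r c
    fun ν => w5_mono (h ν) (by
      rw [← Ideal.span_singleton_pow]
      refine Ideal.pow_right_mono (Ideal.span_mono (Set.singleton_subset_iff.2 ?_)) r
      exact ⟨0, rfl⟩) le_rfl
  rwa [Matrix.range_cons_cons_empty, Ideal.span_insert] at h1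

theorem w5_root_pair (m : ℕ) {x y z : E} (a b : E) (h : x ^ p ^ m = a * y ^ p ^ m + b * z ^ p ^ m) :
    x ∈ Ideal.span {y, z} := by
  refine Ideal.mem_span_pair.2 ⟨rt p m a, rt p m b, ?_⟩
  have := congrArg (rt p m) h
  rw [w4_rt_add, w4_rt_mul, w4_rt_mul, w4_rt_of_pow, w4_rt_of_pow, w4_rt_of_pow] at this
  exact this.symm

theorem w5_mem_pair (t γ : E) (ν : ℕ) {x : E} (h : x ∈ Ideal.span {γ, t ^ (ν * p ^ ν)}) :
    teichmuller p x ∈ Ideal.span {teichmuller p γ} ⊔ JJ p t ν := by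
  have h1 := teich_mem_pair (p := p) _ _ _ h ν
  rw [pow_mul, w4_rt_of_pow, Ideal.span_insert, sup_assoc] at h1
  refine w5_mono h1 le_rfl (sup_le ?_ ?_)
  · exact (Ideal.span_singleton_le_iff_mem _).2 (teich_pow_mem_JJ t ν)
  · exact (Ideal.span_singleton_le_iff_mem _).2 (w4_p_pow_mem_JJ t ν)

/-- the extension theorem for Teichmuller elements. -/
theorem hb_teich (t γ c : E)
    (h : ∀ n ν, teichmuller p (γ * c ^ n) ∈ Ideal.span {teichmuller p γ ^ n} ⊔ JJ p t ν)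
    (m ν : ℕ) : teichmuller p (rt p m γ * c) ∈ Ideal.span {teichmuller p γ} ⊔ JJ p t ν := by
  have hp := (Fact.out : p.Prime)
  obtain ⟨e, he⟩ := w5_pair t γ (ν * p ^ ν * p ^ (m + 1)) (p ^ (m + 1)) _ (h (p ^ (m + 1)))
  obtain ⟨δ, hδ⟩ : ∃ δ, p ^ (m + 1) * p ^ e = δ + p ^ e :=
    ⟨_, (Nat.sub_add_cancel (Nat.le_mul_of_pos_left _ (pow_pos hp.pos _))).symm⟩
  obtain ⟨δ', hδ'⟩ : ∃ δ', p ^ (e + 1) = δ' + p ^ e + p ^ e := ⟨p ^ (e + 1) - 2 * p ^ e, by
    have := Nat.mul_le_mul_left (p ^ e) hp.two_le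
    rw [← pow_succ] at this
    omega⟩
  rw [hδ] at he
  have h1 := Ideal.sup_pow_add_le_pow_sup_pow he
  rw [Ideal.span_singleton_pow, Ideal.span_singleton_pow, ← Ideal.span_insert] at h1
  obtain ⟨a, b, hab⟩ := Ideal.mem_span_pair.1 h1
  refine w5_mem_pair t γ ν (w5_root_pair (p := p) (m + 1 + e) (a * γ ^ δ') (b * γ ^ (δ' + p ^ e)) ?_)
  have e1 : (rt p m γ * c) ^ p ^ (m + 1 + e) =
      γ ^ (δ' + p ^ e) * (γ * c ^ p ^ (m + 1)) ^ p ^ e := by
    rw [mul_pow, mul_pow, ← mul_assoc, ← pow_add γ, ← hδ', ← pow_mul c, ← pow_add p, add_assoc,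
      pow_add p m, pow_mul (rt p m γ), rt_pow, add_comm 1 e]
  rw [e1, ← hab, pow_add p (m + 1), hδ, ← pow_mul t, ← pow_mul t, ← hδ, mul_assoc (ν * p ^ ν)]
  rw [hδ]
  ring

/-- two systems of roots of the same element generate the same ideal. -/
theorem sr_teich (t γ₁ γ₂ : E)
    (h : ∀ ν, teichmuller p γ₁ ∈ Ideal.span {teichmuller p γ₂} ⊔ JJ p t ν) (m ν : ℕ) :
    teichmuller p (rt p m γ₁) ∈ Ideal.span {teichmuller p (rt p (m + 2) γ₂)} ⊔ JJ p t ν := by
  have hp := (Fact.out : p.Prime)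
  obtain ⟨e, he⟩ := w5_pair t γ₂ (ν * p ^ ν * p ^ (m + 1)) 1 γ₁ (by simpa using h)
  have h0 := Ideal.pow_mem_pow he p
  rw [← pow_mul, ← pow_mul, one_mul] at h0
  have h1 := Ideal.sup_pow_add_le_pow_sup_pow (Ideal.pow_le_pow_right
    (show p ^ e + p ^ e ≤ p ^ e * p by
      rw [← mul_two]; exact Nat.mul_le_mul_left _ hp.two_le) h0)
  rw [Ideal.span_singleton_pow, Ideal.span_singleton_pow, ← Ideal.span_insert] at h1
  obtain ⟨a, b, hab⟩ := Ideal.mem_span_pair.1 h1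
  have h2 := w5_mem_pair t (rt p (m + 1) γ₂) ν (x := rt p m γ₁)
    (w5_root_pair (p := p) (m + 1 + e) a b (by
      rw [pow_add p (m + 1), pow_mul (rt p (m + 1) γ₂), rt_pow, pow_mul (t ^ _), ← pow_mul t, hab,
        pow_succ, mul_assoc, pow_mul, rt_pow, mul_comm]))
  refine w5_mono h2 ?_ le_rfl
  rw [Ideal.span_singleton_le_span_singleton, ← rt_succ_pow (m + 1), map_pow]
  exact dvd_pow_self _ hp.ne_zero

theorem w5_sup_pow_le {R : Type*} [CommRing R] (A B : Ideal R) (j : ℕ) :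
    (A ⊔ B) ^ j ≤ A ^ j ⊔ B := by
  induction j with
  | zero => simp
  | succ j ih =>
    rw [pow_succ, pow_succ]
    refine (Ideal.mul_mono_left ih).trans ?_
    rw [Ideal.sup_mul, Ideal.mul_sup]
    exact sup_le (sup_le le_sup_left (le_sup_of_le_right Ideal.mul_le_right))
      (le_sup_of_le_right Ideal.mul_le_left)

/-- the Briancon-Skoda containment for Teichmuller elements. -/
theorem bs_teich (t : E) {d : ℕ} (y : Fin d → E) (c : E) (e C : ℕ)
    (h : ∀ n ν, teichmuller p c ^ (n + C) ∈ teichI p (fun i => y i ^ p ^ e) ^ n ⊔ JJ p t ν)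
    (N ν : ℕ) : teichmuller p c ∈
      (teichI p y ⊔ Ideal.span {(p : WittVector p E) ^ N}) ^ (p ^ e - (d + 2)) ⊔ JJ p t ν := by
  have hp := (Fact.out : p.Prime)
  rcases lt_or_ge (p ^ e) (d + 2) with hq | hq
  · rw [Nat.sub_eq_zero_of_le hq.le]
    simp
  obtain ⟨f, hf⟩ : ∃ f, p ^ e * C ≤ p ^ f := ⟨_, (Nat.lt_pow_self hp.one_lt).le⟩
  have hC : C ≤ p ^ f := (Nat.le_mul_of_pos_left _ (pow_pos hp.pos _)).trans hf
  let Y : Fin (d + 1) → E := Fin.cons (t ^ N) y
  obtain ⟨e', he'⟩ := pow_mem_of_teich_mem (p := p) t (fun i => Y i ^ p ^ e) (N * p ^ e)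
    (Ideal.subset_span ⟨0, by simp [Y, pow_mul]⟩) (p ^ f - C) (c ^ p ^ f) fun ν' => by
      have h1 := h (p ^ f - C) ν'
      rw [Nat.sub_add_cancel hC, ← map_pow] at h1
      refine w5_mono h1 (Ideal.pow_right_mono (Ideal.span_mono ?_) _) le_rfl
      rintro _ ⟨i, rfl⟩
      exact ⟨i.succ, by simp [Y]⟩
  have h2 : Ideal.span (Set.range fun i => Y i ^ p ^ e) ≤ Ideal.span (Set.range Y) ^ p ^ e := by
    rw [Ideal.span_le]
    rintro _ ⟨i, rfl⟩
    exact Ideal.pow_mem_pow (Ideal.subset_span (Set.mem_range_self i)) _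
  have h3 := Ideal.pow_right_mono h2 _ he'
  rw [← pow_mul, ← pow_mul, ← pow_add] at h3
  have h4 := teich_mem_pow Y c (f + e') _ (p ^ e - (d + 2)) h3 (by
    rw [pow_add, ← mul_assoc, ← mul_assoc]
    refine Nat.mul_le_mul_right _ ?_
    obtain ⟨j, hj⟩ := Nat.exists_eq_add_of_le hq
    obtain ⟨n, hn⟩ := Nat.exists_eq_add_of_le hC
    rw [hn] at hf ⊢
    rw [hj] at hf ⊢
    rw [Nat.add_sub_cancel_left, Nat.add_sub_cancel_left]
    nlinarith) ν
  have h5 : teichI p Y ≤ (teichI p y ⊔ Ideal.span {(p : WittVector p E) ^ N}) ⊔ JJ p t ν := by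
    rw [teichI, Ideal.span_le]
    rintro _ ⟨i, rfl⟩
    refine Fin.cases ?_ (fun i => ?_) i
    · obtain ⟨w, hw⟩ := w4_xi_dvd_sub (p := p) t N
      have : teichmuller p (t ^ N) = (p : WittVector p E) ^ N + -w * xi p t := by
        linear_combination -hw
      show teichmuller p (t ^ N) ∈ _
      rw [this]
      exact Submodule.add_mem_sup (Ideal.mem_sup_right (Ideal.mem_span_singleton_self _))
        (Ideal.mul_mem_left _ _ (w4_xi_mem_JJ t ν))
    · exact Ideal.mem_sup_left (Ideal.mem_sup_left (Ideal.subset_span ⟨i, rfl⟩))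
  refine sup_le ((Ideal.pow_right_mono h5 _).trans (w5_sup_pow_le _ _ _)) ?_ h4
  exact le_sup_of_le_right ((Ideal.span_singleton_le_iff_mem _).2 (w4_p_pow_mem_JJ t ν))

end Vale.Agent.P202
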