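import Vale.Agent.P202.MxTilt
import Vale.Agent.P202.MxWitt2

/-! A Briancon-Skoda theorem in a finite extension. -/

namespace Vale.Agent.P202

universe u

open WittVector in
theorem BS.mem_pow (p : ℕ) [Fact p.Prime] (O : Type u) [CommRing O] [IsDomain O]
    (hp0 : (p : O) ≠ 0) (hp : ¬ IsUnit (p : O)) (hroot : ∀ x : O, ∃ y : O, y ^ p = x)
    (hnorm : ∀ (x y : O) (n : ℕ), n ≠ 0 → y ^ n ∣ x ^ n → y ∣ x) {d : ℕ} (y : Fin d → O)
    (e C N : ℕ) (hN : (p : O) ^ N ∈ Ideal.span (Set.range fun i => y i ^ p ^ e)) (c : O)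
    (hc : ∀ n, c ^ (n + C) ∈ Ideal.span (Set.range fun i => y i ^ p ^ e) ^ n) :
    c ∈ Ideal.span (Set.range y) ^ (p ^ e - (d + 2)) := by
  obtain ⟨E, _, _, _, t, fl, θ, hs, hk, hθ⟩ := exists_tilt p O hp0 hp hroot hnorm
  have h1 : ∀ ν k, (teichI p fun i => fl (y i) ^ k).map (θ ν) =
      (Ideal.span (Set.range fun i => y i ^ k)).map (Ideal.Quotient.mk _) := fun ν k => by
    simp only [teichI, Ideal.map_span, ← Set.range_comp, Function.comp_def, map_pow, hθ]
  have h2 := bs_teich t (fun i => fl (y i)) (fl c) e C (fun n ν => by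
    rw [← hk, RingHom.ker_eq_comap_bot, ← Ideal.comap_map_of_surjective _ (hs ν), Ideal.mem_comap,
      Ideal.map_pow, h1, ← Ideal.map_pow, map_pow, hθ, ← map_pow]
    exact Ideal.mem_map_of_mem _ (hc n)) N N
  have h3 := h1 N 1
  simp only [pow_one] at h3
  have h4 : (Ideal.span {((p : ℕ) : WittVector p E) ^ N}).map (θ N) = ⊥ := by
    rw [Ideal.map_eq_bot_iff_le_ker, hk]
    exact Ideal.span_mono (by simp)
  rw [← hk, RingHom.ker_eq_comap_bot, ← Ideal.comap_map_of_surjective _ (hs N), Ideal.mem_comap,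
    Ideal.map_pow, Ideal.map_sup, h3, h4, sup_bot_eq, ← Ideal.map_pow, hθ, ← Ideal.mem_comap,
    Ideal.comap_map_of_surjective _ Ideal.Quotient.mk_surjective, ← RingHom.ker_eq_comap_bot,
    Ideal.mk_ker] at h2
  have h5 : Ideal.span (Set.range fun i => y i ^ p ^ e) ≤ Ideal.span (Set.range y) ^ p ^ e := by
    rw [Ideal.span_le]
    rintro _ ⟨i, rfl⟩
    exact Ideal.pow_mem_pow (Ideal.subset_span (Set.mem_range_self i)) _
  have h6 : Ideal.span {(p : O) ^ N} ≤ Ideal.span (Set.range y) ^ (p ^ e - (d + 2)) := by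
    rw [Ideal.span_singleton_le_iff_mem]
    exact Ideal.pow_le_pow_right (Nat.sub_le _ _) (h5 hN)
  exact (sup_le le_rfl h6 : _ ⊔ _ ≤ _) h2

open scoped Pointwise in
theorem BS.exists_coef {O : Type*} [CommRing O] {d k : ℕ} (y : Fin d → O) {c : O}
    (hc : c ∈ Ideal.span (Set.range y) ^ k) :
    ∃ a : (Fin k → Fin d) → O, ∑ σ, a σ * ∏ j, y (σ j) = c := by
  refine Ideal.mem_span_range_iff_exists_fun.1 (SetLike.le_def.1 ?_ hc)
  rw [← Fin.prod_const, Ideal.prod_span]
  refine Ideal.span_mono fun z hz => ?_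
  obtain ⟨g, hg, rfl⟩ := (Set.mem_fintype_prod _ _).1 hz
  choose σ hσ using hg
  exact ⟨σ, by simp only [hσ]⟩

theorem exists_bs_extension (p : ℕ) [Fact p.Prime] (R : Type u) [CommRing R] [IsDomain R]
    (hp0 : (p : R) ≠ 0) (hp : ¬ IsUnit (p : R)) (m : Ideal R) (hfg : m.FG) (hpm : (p : R) ∈ m)
    {d : ℕ} (x : Fin d → R) (C : ℕ) (hC : ∀ t, m ^ (t + C) ≤ Ideal.span (Set.range x) ^ t)
    (e : ℕ) :
    ∃ (R₁ : Type u) (_ : CommRing R₁) (_ : IsDomain R₁) (_ : Algebra R R₁) (y : Fin d → R₁),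
      Module.Finite R R₁ ∧ Function.Injective (algebraMap R R₁) ∧
      (∀ i, y i ^ p ^ e = algebraMap R R₁ (x i)) ∧
      m.map (algebraMap R R₁) ≤ Ideal.span (Set.range y) ^ (p ^ e - (d + 2)) := by
  have pp : p.Prime := Fact.out
  let K := AlgebraicClosure (FractionRing R)
  let O := integralClosure R K
  have hK : Function.Injective (algebraMap R K) :=
    (algebraMap (FractionRing R) K).injective.comp (IsFractionRing.injective R (FractionRing R))
  have hO : Function.Injective (algebraMap R O) := fun a b h => hK (congrArg Subtype.val h)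
  have : FaithfulSMul R O := (faithfulSMul_iff_algebraMap_injective R O).2 hO
  have hroot : ∀ n : ℕ, 0 < n → ∀ x : O, ∃ y : O, y ^ n = x := by
    intro n hn x
    obtain ⟨y, hy⟩ := IsAlgClosed.exists_pow_nat_eq (x : K) hn
    exact ⟨⟨y, IsIntegral.of_pow hn (hy ▸ x.2)⟩, Subtype.ext hy⟩
  have hnorm : ∀ (x y : O) (n : ℕ), n ≠ 0 → y ^ n ∣ x ^ n → y ∣ x := by
    rintro x y n hn ⟨c, hc⟩
    by_cases hy : y = 0
    · rw [hy, zero_pow hn, zero_mul, pow_eq_zero_iff hn] at hc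
      rw [hc]
      exact dvd_zero _
    have hy' : (y : K) ≠ 0 := fun h => hy (Subtype.ext h)
    have hc' : (x : K) ^ n = (y : K) ^ n * c := congrArg Subtype.val hc
    have h1 : ((x : K) / y) ^ n = c := by
      rw [div_pow, hc', mul_div_cancel_left₀ _ (pow_ne_zero n hy')]
    exact ⟨⟨(x : K) / y, IsIntegral.of_pow (Nat.pos_of_ne_zero hn) (h1 ▸ c.2)⟩,
      Subtype.ext (mul_div_cancel₀ (x : K) hy').symm⟩
  choose y hy using fun i => hroot _ (pow_pos pp.pos e) (algebraMap R O (x i))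
  have hmap : ∀ c ∈ m, ∀ n, algebraMap R O c ^ (n + C) ∈
      Ideal.span (Set.range fun i => y i ^ p ^ e) ^ n := by
    intro c hc n
    have := Ideal.mem_map_of_mem (algebraMap R O) (hC n (Ideal.pow_mem_pow hc _))
    rw [Ideal.map_pow, Ideal.map_span, ← Set.range_comp, map_pow] at this
    simpa only [hy, Function.comp_def] using this
  have hmem : ∀ c ∈ m, algebraMap R O c ∈ Ideal.span (Set.range y) ^ (p ^ e - (d + 2)) :=
    fun c hc => BS.mem_pow p O (by rwa [← map_natCast (algebraMap R O), map_ne_zero_iff _ hO])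
      (by rwa [← map_natCast (algebraMap R O), isUnit_map_iff]) (hroot p pp.pos) hnorm y e C (1 + C)
      (by simpa only [map_natCast, pow_one] using hmap _ hpm 1) _ (hmap c hc)
  obtain ⟨s, rfl⟩ := hfg
  choose a ha using fun c : s => BS.exists_coef y (hmem c (Ideal.subset_span c.2))
  let S := Algebra.adjoin R (Set.range y ∪ Set.range fun q : s × _ => a q.1 q.2)
  let y₁ : Fin d → S := fun i => ⟨y i, Algebra.subset_adjoin (Or.inl ⟨i, rfl⟩)⟩
  refine ⟨S, inferInstance, inferInstance, inferInstance, y₁,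
    Algebra.finite_adjoin_of_finite_of_isIntegral ((Set.finite_range _).union (Set.finite_range _))
      fun z _ => Algebra.IsIntegral.isIntegral z,
    fun a b h => hO (congrArg Subtype.val h), fun i => Subtype.ext (hy i), ?_⟩
  rw [Ideal.map_span, Ideal.span_le]
  rintro _ ⟨c, hc, rfl⟩
  have h1 : algebraMap R S c = ∑ σ, (⟨a ⟨c, hc⟩ σ,
      Algebra.subset_adjoin (Or.inr ⟨(⟨c, hc⟩, σ), rfl⟩)⟩ : S) * ∏ j, y₁ (σ j) := by
    refine Subtype.ext ?_
    simpa [y₁] using (ha ⟨c, hc⟩).symm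
  rw [SetLike.mem_coe, h1]
  refine Ideal.sum_mem _ fun σ _ => Ideal.mul_mem_left _ _ ?_
  rw [← Fin.prod_const]
  exact Ideal.prod_mem_prod fun j _ => Ideal.subset_span ⟨σ j, rfl⟩

end Vale.Agent.P202
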