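import Vale.Agent.P202.MxCohen
import Vale.Agent.P202.PSMap

/-! Power series over a `p`-ring and maps out of them. -/

namespace Vale.Agent.P202

open IsLocalRing

universe u

section Coeff

variable {V : Type*} [CommRing V] {d : ℕ}

theorem mxps_exists (c : (Fin d →₀ ℕ) → V) : ∃ g : PS V d, ∀ α, MvPowerSeries.coeff α g = c α :=
  ⟨c, fun _ => rfl⟩

theorem mxps_mon_X (α : Fin d →₀ ℕ) :
    mon (MvPowerSeries.X : Fin d → PS V d) α = MvPowerSeries.monomial α 1 := by
  simp only [mon, MvPowerSeries.X_pow_eq, MvPowerSeries.prod_monomial, Finset.prod_const_one,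
    Finsupp.univ_sum_single]

theorem mxps_mem_monI_iff {S : Set (Fin d →₀ ℕ)} (hS : S.Finite) (f : PS V d) :
    f ∈ monI (MvPowerSeries.X : Fin d → PS V d) S ↔
      ∀ α, (∀ δ ∈ S, ¬ δ ≤ α) → MvPowerSeries.coeff α f = 0 := by
  constructor
  · intro hf
    induction hf using Submodule.span_induction with
    | mem x hx =>
      obtain ⟨δ, hδ, rfl⟩ := hx
      intro α hα
      rw [mxps_mon_X, MvPowerSeries.coeff_monomial_ne]
      rintro rfl
      exact hα _ hδ le_rfl
    | zero => simp
    | add x y _ _ hx hy => intro α hα; rw [map_add, hx α hα, hy α hα, add_zero]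
    | smul a x _ hx =>
      intro α hα
      rw [smul_eq_mul, MvPowerSeries.coeff_mul]
      refine Finset.sum_eq_zero fun p hp => ?_
      rw [hx p.2 fun δ hδ h => hα δ hδ (h.trans ?_), mul_zero]
      rw [← Finset.HasAntidiagonal.mem_antidiagonal.mp hp]
      exact le_add_self
  · induction S, hS using Set.Finite.induction_on generalizing f with
    | empty =>
      intro h
      rw [show f = 0 from MvPowerSeries.ext fun α => h α (by simp)]
      exact zero_mem _
    | @insert δ S _ _ ih =>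
      intro h
      let f' : PS V d := fun β => MvPowerSeries.coeff (δ + β) f
      rw [← sub_add_cancel f (mon MvPowerSeries.X δ * f')]
      refine add_mem (monI_mono _ (Set.subset_insert _ _) (ih _ fun α hα => ?_))
        (Ideal.mul_mem_right _ _ (mon_mem (Set.mem_insert _ _)))
      rw [map_sub, mxps_mon_X, MvPowerSeries.coeff_monomial_mul]
      split_ifs with h1
      · rw [one_mul, sub_eq_zero]
        exact congrArg (fun β => MvPowerSeries.coeff β f) (add_tsub_cancel_of_le h1).symm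
      · rw [sub_zero]
        refine h α ?_
        rintro β (rfl | hβ)
        exacts [h1, hα β hβ]

theorem mxps_mem_pow_iff (f : PS V d) (N : ℕ) :
    f ∈ Ideal.span (Set.range (MvPowerSeries.X : Fin d → PS V d)) ^ N ↔
      ∀ α : Fin d →₀ ℕ, α.degree < N → MvPowerSeries.coeff α f = 0 := by
  have hfin : {α : Fin d →₀ ℕ | α.degree = N}.Finite := (triF d (N + 1)).finite_toSet.subset
    fun α (hα : α.degree = N) => mem_triF.mpr (by omega)
  rw [span_pow_eq_monI, mxps_mem_monI_iff hfin]
  refine forall_congr' fun α => imp_congr_left ⟨fun h => ?_, fun h δ (hδ : δ.degree = N) h' => ?_⟩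
  · by_contra hc
    obtain ⟨δ, h1, h2⟩ := Finsupp.exists_le_degree_eq α N (not_lt.mp hc)
    exact h δ h2 h1
  · have := Finsupp.degree_mono h'
    omega

theorem mxps_sub_C_mem (f : PS V d) : f - MvPowerSeries.C (MvPowerSeries.constantCoeff f) ∈
    Ideal.span (Set.range (MvPowerSeries.X : Fin d → PS V d)) := by
  rw [← pow_one (Ideal.span _), mxps_mem_pow_iff]
  simp [Finsupp.degree_eq_zero_iff]

theorem mxps_mem_sup_iff (a : V) (f : PS V d) (N : ℕ) :
    f ∈ Ideal.span {MvPowerSeries.C a} ⊔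
        Ideal.span (Set.range (MvPowerSeries.X : Fin d → PS V d)) ^ N ↔
      ∀ α : Fin d →₀ ℕ, α.degree < N → a ∣ MvPowerSeries.coeff α f := by
  constructor
  · intro h α hα
    obtain ⟨g, hg, z, hz, rfl⟩ := Submodule.mem_sup.1 h
    obtain ⟨c, rfl⟩ := Ideal.mem_span_singleton.1 hg
    rw [map_add, (mxps_mem_pow_iff z N).1 hz α hα, add_zero, MvPowerSeries.coeff_C_mul]
    exact dvd_mul_right _ _
  · intro h
    choose! c hc using h
    obtain ⟨g, hg⟩ := mxps_exists c
    rw [← add_sub_cancel (MvPowerSeries.C a * g) f]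
    refine Submodule.add_mem_sup (Ideal.mem_span_singleton.2 (dvd_mul_right _ _))
      ((mxps_mem_pow_iff _ N).2 fun α hα => ?_)
    rw [map_sub, MvPowerSeries.coeff_C_mul, hc α hα, hg, sub_self]

theorem mxps_C_reg {a : V} (ha : ∀ x, a * x = 0 → x = 0) (f : PS V d)
    (hf : MvPowerSeries.C a * f = 0) : f = 0 :=
  MvPowerSeries.ext fun α => ha _ (by rw [← MvPowerSeries.coeff_C_mul, hf, map_zero])

theorem mxps_map_pow_le {A B : Type*} [CommRing A] [CommRing B] (ψ : A →+* B) (y : Fin d → A)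
    {I : Ideal B} (h : ∀ i, ψ (y i) ∈ I) (N : ℕ) {f : A} (hf : f ∈ Ideal.span (Set.range y) ^ N) :
    ψ f ∈ I ^ N := by
  have h1 := Ideal.mem_map_of_mem ψ hf
  rw [Ideal.map_pow] at h1
  refine Ideal.pow_right_mono ?_ N h1
  rw [Ideal.map_span, Ideal.span_le]
  rintro _ ⟨_, ⟨i, rfl⟩, rfl⟩
  exact h i

end Coeff

/-- evaluation of power series in a filtered complete ring. -/
theorem exists_psMap_filt {V B : Type*} [CommRing V] [CommRing B] {δ : ℕ} (I : ℕ → Ideal B)
    (hanti : Antitone I) (hsep : ∀ b, (∀ N, b ∈ I N) → b = 0)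
    (hcompl : ∀ b : ℕ → B, (∀ N, b (N + 1) - b N ∈ I N) → ∃ c, ∀ N, c - b N ∈ I N)
    (c : V →+* B) (x : Fin δ → B) (hx : ∀ N, Ideal.span (Set.range x) ^ N ≤ I N) :
    ∃ ψ : PS V δ →+* B, (∀ v, ψ (MvPowerSeries.C v) = c v) ∧
      (∀ i, ψ (MvPowerSeries.X i) = x i) := by
  have _ := hanti
  let e := MvPolynomial.eval₂Hom c x
  have he : ∀ N, ∀ g ∈ MvPolynomial.idealOfVars (Fin δ) V ^ N, e g ∈ I N := fun N g hg =>
    hx N (mxps_map_pow_le e MvPolynomial.X (I := Ideal.span (Set.range x))
      (fun i => Ideal.subset_span ⟨i, by simp [e]⟩) N hg)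
  let φ : (N : ℕ) → PS V δ →+* B ⧸ I N := fun N =>
    (Ideal.Quotient.lift _ ((Ideal.Quotient.mk (I N)).comp e)
      fun g hg => Ideal.Quotient.eq_zero_iff_mem.2 (he N g hg)).comp
      (MvPowerSeries.truncTotalAlgHom (Fin δ) V N).toRingHom
  choose ψ hψ using fun f : PS V δ => hcompl (fun N => e (MvPowerSeries.truncTotal N f)) fun N => by
    rw [← map_sub]
    exact he N _ (MvPowerSeries.truncTotal_sub_truncTotal_mem_pow_idealOfVars N.le_succ le_rfl f)
  have h1 : ∀ N f, Ideal.Quotient.mk (I N) (ψ f) = φ N f := fun N f =>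
    Ideal.Quotient.eq.2 (hψ f N)
  have h2 : ∀ a b, (∀ N, Ideal.Quotient.mk (I N) a = Ideal.Quotient.mk (I N) b) → a = b :=
    fun a b h => sub_eq_zero.1 (hsep _ fun N => Ideal.Quotient.eq.1 (h N))
  have h3 : ∀ g : MvPolynomial (Fin δ) V, ψ g = e g := fun g => h2 _ _ fun N => by
    rw [Ideal.Quotient.eq, ← sub_add_sub_cancel _ (e (MvPowerSeries.truncTotal N (g : PS V δ))),
      ← map_sub]
    refine add_mem (hψ g N) (he N _ ((MvPolynomial.mem_pow_idealOfVars_iff' ..).2 fun α hα => ?_))
    rw [MvPolynomial.coeff_sub, MvPowerSeries.coeff_truncTotal _ hα, MvPolynomial.coeff_coe,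
      sub_self]
  refine ⟨⟨⟨⟨ψ, h2 _ _ fun N => ?_⟩, fun a b => h2 _ _ fun N => ?_⟩, h2 _ _ fun N => ?_,
    fun a b => h2 _ _ fun N => ?_⟩, fun v => ?_, fun i => ?_⟩
  · rw [h1, map_one, map_one]
  · simp only [h1, map_mul]
  · simp only [h1, map_zero]
  · simp only [h1, map_add]
  · simpa [e] using h3 (MvPolynomial.C v)
  · simpa [e] using h3 (MvPolynomial.X i)

/-- a power series is a polynomial up to high order. -/
theorem ps_exists_poly {V : Type*} [CommRing V] {δ : ℕ} (f : PS V δ) (N : ℕ) :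
    ∃ g : MvPolynomial (Fin δ) V,
      f - g ∈ Ideal.span (Set.range (MvPowerSeries.X : Fin δ → PS V δ)) ^ N :=
  ⟨MvPowerSeries.truncTotal N f, (mxps_mem_pow_iff _ N).2 fun α hα => by
    rw [map_sub, MvPolynomial.coeff_coe, MvPowerSeries.coeff_truncTotal _ hα, sub_self]⟩

theorem psMap_unique_filt {V B : Type*} [CommRing V] [CommRing B] {δ : ℕ} (I : Ideal B)
    (hsep : ∀ b, (∀ N : ℕ, b ∈ I ^ N) → b = 0) (ψ₁ ψ₂ : PS V δ →+* B)
    (hC : ∀ v, ψ₁ (MvPowerSeries.C v) = ψ₂ (MvPowerSeries.C v))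
    (hX : ∀ i, ψ₁ (MvPowerSeries.X i) = ψ₂ (MvPowerSeries.X i))
    (hI : ∀ i, ψ₁ (MvPowerSeries.X i) ∈ I) : ψ₁ = ψ₂ := by
  have h1 : ψ₁.comp MvPolynomial.coeToMvPowerSeries.ringHom =
      ψ₂.comp MvPolynomial.coeToMvPowerSeries.ringHom :=
    MvPolynomial.ringHom_ext (fun v => by simpa using hC v) fun i => by simpa using hX i
  refine RingHom.ext fun f => sub_eq_zero.1 (hsep _ fun N => ?_)
  obtain ⟨g, hg⟩ := ps_exists_poly f N
  have h2 : ψ₁ g = ψ₂ g := RingHom.congr_fun h1 g
  have h3 := sub_mem (mxps_map_pow_le ψ₁ _ hI N hg)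
    (mxps_map_pow_le ψ₂ _ (fun i => hX i ▸ hI i) N hg)
  rwa [map_sub, map_sub, h2, sub_sub_sub_cancel_right] at h3

/-- the regular system of parameters `p, X 0, X 1, ...`. -/
noncomputable def pX (p : ℕ) (V : Type*) [CommRing V] (n : ℕ) : Fin (n + 1) → PS V n :=
  Fin.cons (p : PS V n) MvPowerSeries.X

theorem ker_ps_map {V K : Type*} [CommRing V] [CommRing K] (π : V →+* K) (a : V)
    (hπ : ∀ v, π v = 0 ↔ a ∣ v) (n : ℕ) (f : PS V n) :
    MvPowerSeries.map π f = 0 ↔ MvPowerSeries.C a ∣ f := by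
  constructor
  · intro h
    choose c hc using fun α => (hπ (MvPowerSeries.coeff α f)).1
      (by rw [← MvPowerSeries.coeff_map, h, map_zero])
    obtain ⟨g, hg⟩ := mxps_exists c
    exact ⟨g, MvPowerSeries.ext fun α => by rw [MvPowerSeries.coeff_C_mul, hg, hc]⟩
  · rintro ⟨c, rfl⟩
    rw [map_mul, MvPowerSeries.map_C, (hπ a).2 dvd_rfl, map_zero, zero_mul]

theorem ps_map_surjective {V K : Type*} [CommRing V] [CommRing K] (π : V →+* K)
    (hπ : Function.Surjective π) (n : ℕ) :
    Function.Surjective (MvPowerSeries.map (σ := Fin n) π) := fun g =>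
  ⟨fun α => (hπ (MvPowerSeries.coeff α g)).choose,
    MvPowerSeries.ext fun α => (hπ (MvPowerSeries.coeff α g)).choose_spec⟩

theorem mxps_span_pX (p : ℕ) (V : Type*) [CommRing V] (n : ℕ) :
    Ideal.span (Set.range (pX p V n)) =
      Ideal.span {(p : PS V n)} ⊔ Ideal.span (Set.range MvPowerSeries.X) := by
  rw [pX, Fin.range_cons, Ideal.span_insert]

variable {p : ℕ} {V : Type*} [CommRing V] [IsLocalRing V]

theorem mxps_mem_max {n : ℕ} (f : PS V n) :
    f ∈ maximalIdeal (PS V n) ↔ MvPowerSeries.constantCoeff f ∈ maximalIdeal V := by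
  simp only [mem_maximalIdeal, mem_nonunits_iff, MvPowerSeries.isUnit_iff_constantCoeff]

theorem IsPRing.mxps_res (h : IsPRing p V) (v : V) : residue V v = 0 ↔ (p : V) ∣ v := by
  rw [residue_eq_zero_iff, h.max, Ideal.mem_span_singleton]

theorem IsPRing.mxps_ker (h : IsPRing p V) (n : ℕ) :
    RingHom.ker (MvPowerSeries.map (σ := Fin n) (residue V)) = Ideal.span {(p : PS V n)} := by
  ext f
  rw [RingHom.mem_ker, ker_ps_map _ _ h.mxps_res, Ideal.mem_span_singleton, map_natCast]

theorem IsPRing.span_pX (h : IsPRing p V) (n : ℕ) :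
    Ideal.span (Set.range (pX p V n)) = maximalIdeal (PS V n) := by
  ext f
  rw [mxps_span_pX, ← map_natCast (MvPowerSeries.C (σ := Fin n) (R := V)),
    ← pow_one (Ideal.span (Set.range _)), mxps_mem_sup_iff, mxps_mem_max, h.max,
    Ideal.mem_span_singleton]
  simp [Finsupp.degree_eq_zero_iff]

theorem IsPRing.ps_complete (h : IsPRing p V) (n : ℕ) :
    IsAdicComplete (maximalIdeal (PS V n)) (PS V n) := by
  have := h.isNoetherianRing
  have hm : maximalIdeal (PS V n) =
      Ideal.span {MvPowerSeries.C (p : V)} ⊔ Ideal.span (Set.range MvPowerSeries.X) := by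
    rw [← h.span_pX, mxps_span_pX, map_natCast]
  have h1 : ∀ (N k : ℕ) (α : Fin n →₀ ℕ) (f : PS V n), N + (α.degree + 1) ≤ k →
      f ∈ maximalIdeal (PS V n) ^ k → MvPowerSeries.coeff α f ∈ maximalIdeal V ^ N := by
    intro N k α f hk hf
    have h2 := Ideal.pow_le_pow_right hk hf
    rw [hm] at h2
    have h3 := Ideal.sup_pow_add_le_pow_sup_pow h2
    rw [Ideal.span_singleton_pow, ← map_pow, mxps_mem_sup_iff] at h3
    rw [h.max, Ideal.span_singleton_pow, Ideal.mem_span_singleton]
    exact h3 α (Nat.lt_succ_self _)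
  have hP : IsPrecomplete (maximalIdeal (PS V n)) (PS V n) := by
    constructor
    intro f hf
    simp only [SModEq.sub_mem, smul_eq_mul, Ideal.mul_top] at hf ⊢
    choose L hL using fun α : Fin n →₀ ℕ => h.complete.toIsPrecomplete.prec
      (f := fun N => MvPowerSeries.coeff α (f (N + (α.degree + 1)))) fun {M N} hMN => by
        simp only [SModEq.sub_mem, smul_eq_mul, Ideal.mul_top, ← map_sub]
        exact h1 M _ α _ le_rfl (hf (by omega))
    simp only [SModEq.sub_mem, smul_eq_mul, Ideal.mul_top] at hL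
    obtain ⟨g, hg⟩ := mxps_exists L
    refine ⟨g, fun N => ?_⟩
    rw [← sub_add_sub_cancel _ (f (N + N))]
    refine add_mem (hf (Nat.le_add_left N N)) ?_
    have h2 : Ideal.span {MvPowerSeries.C ((p : V) ^ N)} ⊔
        Ideal.span (Set.range MvPowerSeries.X) ^ N ≤ maximalIdeal (PS V n) ^ N := by
      rw [map_pow, ← Ideal.span_singleton_pow, hm]
      exact sup_le (Ideal.pow_right_mono le_sup_left N) (Ideal.pow_right_mono le_sup_right N)
    refine h2 ((mxps_mem_sup_iff _ _ N).2 fun α hα => ?_)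
    rw [← Ideal.mem_span_singleton, ← Ideal.span_singleton_pow, ← h.max]
    have h3 := sub_mem (hL α N) (h1 N _ α _ le_rfl (hf (show N + (α.degree + 1) ≤ N + N by omega)))
    rwa [map_sub, sub_sub_sub_cancel_left, ← hg, ← map_sub] at h3
  exact {}

theorem IsPRing.ps_p_reg (h : IsPRing p V) (n : ℕ) (f : PS V n) (hf : (p : PS V n) * f = 0) :
    f = 0 :=
  mxps_C_reg h.reg f (by rwa [map_natCast])

theorem IsPRing.pX_reg (h : IsPRing p V) (n : ℕ) (j : Fin (n + 1)) (f : PS V n)
    (hf : pX p V n j * f ∈ Ideal.span (pX p V n '' {i | i < j})) :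
    f ∈ Ideal.span (pX p V n '' {i | i < j}) := by
  induction j using Fin.cases with
  | zero =>
    simp only [Fin.not_lt_zero, Set.ofPred_false, Set.image_empty, Ideal.span_empty,
      Ideal.mem_bot] at hf ⊢
    exact h.ps_p_reg n f hf
  | succ i =>
    let π := MvPowerSeries.map (σ := Fin n) (residue V)
    have h0 : π p = 0 := (h.mxps_ker n).ge (Ideal.mem_span_singleton_self _)
    have h1 : (Ideal.span (pX p V n '' {k | k < i.succ})).map π =
        Ideal.span ((fun k => MvPowerSeries.X k ^ 1) '' {k | k < i}) := by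
      rw [Ideal.map_span]
      refine le_antisymm (Ideal.span_le.2 ?_) (Ideal.span_mono ?_)
      · rintro _ ⟨_, ⟨k, hk, rfl⟩, rfl⟩
        induction k using Fin.cases with
        | zero => exact h0 ▸ zero_mem _
        | succ k => exact Ideal.subset_span ⟨k, Fin.succ_lt_succ_iff.1 hk, by simp [pX, π]⟩
      · rintro _ ⟨k, hk, rfl⟩
        exact ⟨_, ⟨k.succ, Fin.succ_lt_succ_iff.2 hk, rfl⟩, by simp [pX, π]⟩
    have h2 := Ideal.mem_map_of_mem π hf
    rw [h1, map_mul] at h2
    have h3 := X_pow_mul_mem 1 i (π f) (by simpa [pX, π] using h2)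
    rw [← h1, ← Ideal.mem_comap,
      Ideal.comap_map_of_surjective _ (ps_map_surjective _ residue_surjective n),
      ← RingHom.ker_eq_comap_bot, h.mxps_ker] at h3
    exact (sup_of_le_left (Ideal.span_mono (Set.singleton_subset_iff.2
      (Set.mem_image_of_mem (pX p V n) (show 0 ∈ {k | k < i.succ} from i.succ_pos))))).le h3

/-- the ideal generated by `p` is prime. -/
theorem IsPRing.ps_prime (h : IsPRing p V) (n : ℕ) : (Ideal.span {(p : PS V n)}).IsPrime := by
  have : IsDomain (PS (ResidueField V) n) := NoZeroDivisors.to_isDomain _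
  exact h.mxps_ker n ▸ RingHom.ker_isPrime _

theorem IsPRing.exists_eq_pow_mul (h : IsPRing p V) (n : ℕ) (G : PS V n) (hG : G ≠ 0) :
    ∃ (a : ℕ) (G' : PS V n), G = (p : PS V n) ^ a * G' ∧ G' ∉ Ideal.span {(p : PS V n)} := by
  have := h.isNoetherianRing
  have := h.isDomain
  have : IsDomain (PS V n) := NoZeroDivisors.to_isDomain _
  obtain ⟨a, G', h1, h2⟩ := WfDvdMonoid.max_power_factor' hG (x := (p : PS V n))
    fun hu => (h.ps_prime n).ne_top (Ideal.span_singleton_eq_top.2 hu)
  exact ⟨a, G', h2, mt Ideal.mem_span_singleton.1 h1⟩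

theorem ps_residue (n : ℕ) (f : PS V n) :
    ∃ v : V, f - algebraMap V (PS V n) v ∈ maximalIdeal (PS V n) := by
  refine ⟨MvPowerSeries.constantCoeff f, ?_⟩
  rw [mxps_mem_max, ← MvPowerSeries.c_eq_algebraMap]
  simp

/-- lengths do not change along a local map that is surjective on residue fields. -/
theorem length_eq_of_res {A B M : Type*} [CommRing A] [IsLocalRing A] [CommRing B] [IsLocalRing B]
    [Algebra A B] [IsLocalHom (algebraMap A B)]
    (hres : ∀ b : B, ∃ a : A, b - algebraMap A B a ∈ maximalIdeal B)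
    [AddCommGroup M] [Module B M] [Module A M] [IsScalarTower A B M] :
    Module.length A M = Module.length B M := by
  have h1 : Function.Surjective (algebraMap (ResidueField A) (ResidueField B)) := fun z => by
    obtain ⟨x, rfl⟩ := residue_surjective z
    obtain ⟨a, ha⟩ := hres x
    exact ⟨residue A a, (Ideal.Quotient.eq.mpr ha).symm⟩
  rw [IsLocalRing.length_restrictScalars A B M, Module.length_eq_of_surjective h1,
    Module.length_eq_one (ResidueField B), mul_one]

/-- maps to complete local rings. -/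
theorem IsPRing.exists_psMap (h : IsPRing p V) {T : Type*} [CommRing T] [IsLocalRing T]
    [IsAdicComplete (maximalIdeal T) T] (hfg : (maximalIdeal T).FG) (c : V →+* T)
    (hres : ∀ t : T, ∃ v, t - c v ∈ maximalIdeal T) (hp : (p : T) ∈ maximalIdeal T) {δ : ℕ}
    (x : Fin δ → T) (hx : ∀ i, x i ∈ maximalIdeal T) :
    ∃ ψ : PS V δ →+* T, (∀ v, ψ (MvPowerSeries.C v) = c v) ∧
      (∀ i, ψ (MvPowerSeries.X i) = x i) ∧
      ((∃ L : ℕ, maximalIdeal T ^ L ≤ Ideal.span {(p : T)} ⊔ Ideal.span (Set.range x)) →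
        ψ.Finite) ∧
      (Ideal.span {(p : T)} ⊔ Ideal.span (Set.range x) = maximalIdeal T →
        Function.Surjective ψ) := by
  have hxm : Ideal.span (Set.range x) ≤ maximalIdeal T :=
    Ideal.span_le.2 (Set.range_subset_iff.2 hx)
  obtain ⟨ψ, hC, hX⟩ := exists_psMap_filt (fun N => maximalIdeal T ^ N)
    (fun _ _ => Ideal.pow_le_pow_right)
    (fun b hb => IsHausdorff.haus' (I := maximalIdeal T) b fun N => by
      simpa [SModEq.zero] using hb N)
    (fun b hb => by
      obtain ⟨y, hy⟩ := IsPrecomplete.prec' (I := maximalIdeal T) b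
        ((AdicCompletion.isAdicCauchy_iff _ _ b).2 fun N =>
          (SModEq.sub_mem.2 (by simpa using hb N)).symm)
      exact ⟨y, fun N => by simpa using SModEq.sub_mem.1 (hy N).symm⟩)
    c x fun N => Ideal.pow_right_mono hxm N
  have hmap : (maximalIdeal (PS V δ)).map ψ =
      Ideal.span {(p : T)} ⊔ Ideal.span (Set.range x) := by
    rw [← h.span_pX, mxps_span_pX, Ideal.map_sup, Ideal.map_span, Ideal.map_span,
      Set.image_singleton, map_natCast, ← Set.range_comp, show ψ ∘ MvPowerSeries.X = x from funext hX]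
  have hle : (maximalIdeal (PS V δ)).map ψ ≤ maximalIdeal T :=
    hmap.trans_le (sup_le ((Ideal.span_singleton_le_iff_mem _).2 hp) hxm)
  have := h.ps_complete δ
  refine ⟨ψ, hC, hX, ?_, fun hm => ?_⟩
  · rintro ⟨L, hL⟩
    let := ψ.toAlgebra
    have : IsLocalHom (algebraMap (PS V δ) T) := ((local_hom_TFAE ψ).out 2 0).1 hle
    have hH : IsHausdorff (maximalIdeal (PS V δ)) T := IsHausdorff.of_map (S := T) hle
    have h1 := length_quot_ne_top (M := T) hfg L ((maximalIdeal (PS V δ)).map ψ)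
      (by rwa [smul_top_ideal, hmap])
    rw [← length_eq_of_res (A := PS V δ) fun t =>
      (hres t).imp' MvPowerSeries.C fun v hv => (hC v).symm ▸ hv, Module.length_ne_top_iff,
      isFiniteLength_iff_isNoetherian_isArtinian] at h1
    have h2 := h1.1
    obtain ⟨l, s, hs⟩ := Module.Finite.exists_fin (R := PS V δ)
      (M := T ⧸ (maximalIdeal (PS V δ)).map ψ)
    choose t ht using fun i => Ideal.Quotient.mk_surjective (s i)
    refine Module.Finite.of_surjective _
      (surjective_linearCombination (I := maximalIdeal (PS V δ)) t fun y => ?_)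
    obtain ⟨a, ha⟩ := (Submodule.mem_span_range_iff_exists_fun _).1
      (hs.ge (Submodule.mem_top (x := Ideal.Quotient.mk _ y)))
    refine ⟨a, ?_⟩
    rw [Ideal.smul_top_eq_map, Submodule.restrictScalars_mem, ← Ideal.Quotient.eq]
    refine ha.symm.trans ?_
    rw [map_sum]
    exact Finset.sum_congr rfl fun i _ => by rw [← ht]; rfl
  · have hH : IsHausdorff ((maximalIdeal (PS V δ)).map ψ) T := by
      rw [hmap, hm]; infer_instance
    refine surjective_of_mk_map_comp_surjective (I := maximalIdeal (PS V δ)) ψ fun y => ?_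
    obtain ⟨y, rfl⟩ := Ideal.Quotient.mk_surjective y
    obtain ⟨a, ha⟩ := hres y
    refine ⟨MvPowerSeries.C a, ?_⟩
    rwa [RingHom.comp_apply, eq_comm, Ideal.Quotient.eq, hmap, hm, hC]

/-- a local ring finite over a complete Noetherian local ring is complete. -/
theorem isAdicComplete_of_finite_local {A B : Type*} [CommRing A] [IsLocalRing A]
    [IsNoetherianRing A] [IsAdicComplete (maximalIdeal A) A] [CommRing B] [IsLocalRing B]
    [Algebra A B] [Module.Finite A B] : IsAdicComplete (maximalIdeal B) B := by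
  have hN : IsNoetherianRing B := IsNoetherianRing.of_finite A B
  have h1 : IsPrecomplete (maximalIdeal A) B := isPrecomplete_of_finite B
  have h2 : IsPrecomplete ((maximalIdeal A).map (algebraMap A B)) B :=
    IsPrecomplete.map_algebraMap_iff.2 h1
  have h3 : (maximalIdeal A).map (algebraMap A B) ≤ maximalIdeal B :=
    Ideal.map_le_iff_le_comap.2 (eq_maximalIdeal
      (Ideal.isMaximal_comap_of_isIntegral_of_isMaximal (R := A) (maximalIdeal B))).ge
  have h4 : maximalIdeal B ≤ ((maximalIdeal A).map (algebraMap A B)).radical := by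
    rw [Ideal.radical_eq_sInf, le_sInf_iff]
    rintro Q ⟨hQ, hQ'⟩
    have h5 : (Q.comap (algebraMap A B)).IsMaximal := by
      rw [← (maximalIdeal.isMaximal A).eq_of_le (Ideal.comap_ne_top _ hQ'.ne_top)
        (Ideal.map_le_iff_le_comap.1 hQ)]
      infer_instance
    exact (eq_maximalIdeal (Ideal.isMaximal_of_isIntegral_of_isMaximal_comap Q h5)).ge
  obtain ⟨L, hL⟩ := Ideal.exists_pow_le_of_le_radical_of_fg h4 (IsNoetherian.noetherian _)
  have h7 : IsPrecomplete (maximalIdeal B) B := isPrecomplete_of_pow_le hL h3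
  exact {}

end Vale.Agent.P202
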