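import Vale.Agent.P202.MxOmega
import Vale.Agent.P202.MxPS
import Vale.Agent.P202.FrobRank

/-! The perfect tower over a power series ring. -/

namespace Vale.Agent.P202

open WittVector IsLocalRing

universe u

variable (p : ℕ) [Fact p.Prime] (K : Type u) [Field K] [CharP K p] (n : ℕ)

instance charP_PS : CharP (PS K n) p :=
  charP_of_injective_ringHom (f := (MvPowerSeries.C : K →+* PS K n))
    (MvPowerSeries.C_injective) p

/-- the perfect closure of the power series ring in `n + 1` variables. -/
abbrev E0 : Type u := PerfectClosure (PS K (n + 1)) p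

/-- the first variable. -/
noncomputable def t0 : E0 p K n := PerfectClosure.of _ p (MvPowerSeries.X 0)

/-- power series in the last `n` variables. -/
noncomputable def psSucc : PS K n →+* PS K (n + 1) :=
  (MvPowerSeries.rename (Fin.succ : Fin n → Fin (n + 1)) : PS K n →ₐ[K] PS K (n + 1)).toRingHom

namespace BaseAux

theorem exists_pow {R : Type*} [CommRing R] [CharP R p] {ι : Type*} [Finite ι]
    (x : ι → PerfectClosure R p) :
    ∃ (e : ℕ) (r : ι → R), ∀ i, x i ^ p ^ e = PerfectClosure.of R p (r i) := by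
  have h : ∀ y : PerfectClosure R p, ∃ (e : ℕ) (r : R), y ^ p ^ e = PerfectClosure.of R p r := by
    intro y
    obtain ⟨⟨e, r⟩, rfl⟩ := PerfectClosure.mk_surjective R p y
    exact ⟨e, r, by rw [← PerfectClosure.iterate_frobenius_mk, iterate_frobenius]⟩
  choose e r h using h
  obtain ⟨M, hM⟩ := (Set.finite_range fun i => e (x i)).bddAbove
  refine ⟨M, fun i => r (x i) ^ p ^ (M - e (x i)), fun i => ?_⟩
  rw [map_pow, ← h, ← pow_mul, ← pow_add, Nat.add_sub_cancel' (hM ⟨i, rfl⟩)]

theorem ps_compl {d : ℕ} (g : ℕ → PS K d) (h : ∀ N, g (N + 1) - g N ∈ varIdeal K d ^ N) :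
    ∃ c, ∀ N, c - g N ∈ varIdeal K d ^ N := by
  obtain ⟨c, hc⟩ : ∃ c : PS K d, ∀ α, MvPowerSeries.coeff α c =
      MvPowerSeries.coeff α (g (α.degree + 1)) :=
    ⟨fun α => MvPowerSeries.coeff α (g (α.degree + 1)), fun _ => rfl⟩
  refine ⟨c, fun N => ?_⟩
  rw [mem_varIdeal_pow_iff]
  intro α hα
  rw [map_sub, sub_eq_zero, hc]
  induction N, hα using Nat.le_induction with
  | base => rfl
  | succ N hN ih =>
    have := (mem_varIdeal_pow_iff _ _).1 (h N) α hN
    rw [map_sub, sub_eq_zero] at this
    rw [ih, this]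

theorem ps_sep {d : ℕ} (g : PS K d) (h : ∀ N, g ∈ varIdeal K d ^ N) : g = 0 :=
  by_contra fun hg => (exists_notMem_varIdeal_pow hg).elim fun _ h' => h' (h _)

theorem sub_mem_ker_map {R : Type*} [CommRing R] (J : Ideal R) (x y : WittVector p R) :
    x - y ∈ RingHom.ker (WittVector.map (Ideal.Quotient.mk J)) ↔
      ∀ k, x.coeff k - y.coeff k ∈ J := by
  rw [RingHom.sub_mem_ker_iff, WittVector.ext_iff]
  simp only [map_coeff, Ideal.Quotient.eq]

omit [CharP K p] in
open Pointwise in
theorem exists_lift : ∃ ψ : PS (WittVector p K) n →+* WittVector p (PS K (n + 1)),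
    ∀ f, (ψ f).coeff 0 = psSucc K n (MvPowerSeries.map WittVector.constantCoeff f) := by
  have hX : ∀ i, (MvPowerSeries.X i : PS K (n + 1)) ∈ varIdeal K (n + 1) := fun i =>
    Ideal.subset_span ⟨i, rfl⟩
  obtain ⟨ψ, hC, hX'⟩ := exists_psMap_filt (fun N => RingHom.ker (WittVector.map (p := p)
    (Ideal.Quotient.mk (varIdeal K (n + 1) ^ N)))) (fun N N' h x hx => by
      rw [← sub_zero x, sub_mem_ker_map] at hx ⊢
      exact fun k => Ideal.pow_le_pow_right h (hx k))
    (fun b hb => WittVector.ext fun k => sub_eq_zero.1 <| ps_sep K _ fun N =>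
      (sub_mem_ker_map p _ b 0).1 (by simpa using hb N) k)
    (fun b hb => by
      choose c hc using fun k => ps_compl K (fun N => (b N).coeff k) fun N =>
        (sub_mem_ker_map p _ _ _).1 (hb N) k
      exact ⟨WittVector.mk p c, fun N => (sub_mem_ker_map p _ _ _).2 fun k => hc k N⟩)
    (WittVector.map (MvPowerSeries.C : K →+* PS K (n + 1)))
    (fun i : Fin n => teichmuller p (MvPowerSeries.X i.succ)) (fun N => by
      have : ∀ N, ∀ y ∈ (Set.range fun i : Fin n =>
          teichmuller p (MvPowerSeries.X i.succ : PS K (n + 1))) ^ N,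
          ∃ z ∈ varIdeal K (n + 1) ^ N, y = teichmuller p z := by
        intro N
        induction N with
        | zero => exact fun y hy => ⟨1, by simp, by simpa using hy⟩
        | succ N ih =>
          intro y hy
          rw [pow_succ] at hy ⊢
          obtain ⟨y, hy, _, ⟨i, rfl⟩, rfl⟩ := hy
          obtain ⟨z, hz, rfl⟩ := ih y hy
          exact ⟨_, Ideal.mul_mem_mul hz (hX i.succ), (map_mul _ _ _).symm⟩
      rw [Ideal.span, Submodule.span_pow, Submodule.span_le]
      intro y hy
      obtain ⟨z, hz, rfl⟩ := this N y hy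
      rw [SetLike.mem_coe, RingHom.mem_ker, map_teichmuller, Ideal.Quotient.eq_zero_iff_mem.2 hz,
        teichmuller_zero])
  refine ⟨ψ, fun f => DFunLike.congr_fun (psMap_unique_filt (varIdeal K (n + 1)) (ps_sep K)
    (WittVector.constantCoeff.comp ψ) ((psSucc K n).comp (MvPowerSeries.map
      WittVector.constantCoeff)) (fun v => ?_) (fun i => ?_) fun i => ?_) f⟩
  · simp [hC, psSucc]
  · simp [hX', psSucc]
  · simpa [hX'] using hX i.succ

/-- setting the first variable to zero. -/
noncomputable def kill : PS K (n + 1) →+* PS K n :=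
  (MvPowerSeries.killCompl (R := K) (Fin.succEmb n)).toRingHom

theorem kill_psSucc (f : PS K n) : kill K n (psSucc K n f) = f :=
  MvPowerSeries.killCompl_rename_app (e := Fin.succEmb n) f

theorem mem_of_kill (g : PS K (n + 1)) (h : kill K n g = 0) :
    g ∈ Ideal.span {(MvPowerSeries.X 0 : PS K (n + 1))} := by
  have := (mem_span_X_pow_iff 1 {0} g).2 fun α hα => by
    have h0 : α 0 = 0 := by simpa using hα
    have e : α = (Finsupp.tail α).embDomain (Fin.succEmb n) := by
      ext i
      refine Fin.cases ?_ (fun i => ?_) i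
      · rw [h0, Finsupp.embDomain_of_notMem_range _ _ _ (by simp)]
      · exact (Finsupp.embDomain_apply_self (Fin.succEmb n) (Finsupp.tail α) i).symm
    rw [e, ← MvPowerSeries.coeff_killCompl]
    exact (congrArg _ h).trans (map_zero _)
  simpa using this

end BaseAux

open BaseAux

theorem of_PS_injective (D : ℕ) : Function.Injective (PerfectClosure.of (PS K D) p) :=
  fun x y h => (PerfectClosure.eq_iff (PS K D) p (0, x) (0, y)).1 h

theorem t0_reg (x : E0 p K n) (h : t0 p K n * x = 0) : x = 0 := by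
  obtain ⟨e, r, hr⟩ := exists_pow p fun _ : Unit => x
  have h1 : (MvPowerSeries.X 0 : PS K (n + 1)) ^ p ^ e * r () = 0 := of_PS_injective p K _ (by
    rw [map_mul, map_pow, ← hr, ← mul_pow, map_zero]
    exact (congrArg (· ^ p ^ e) h).trans (zero_pow (pow_ne_zero e (Fact.out : p.Prime).ne_zero)))
  have h2 : r () = 0 := (mul_eq_zero.1 h1).resolve_left (pow_ne_zero _ fun h0 => by
    simpa using congrArg (MvPowerSeries.coeff (Finsupp.single 0 1)) h0)
  exact IsReduced.eq_zero x ⟨_, by rw [hr (), h2, map_zero]⟩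

theorem t0_not_isUnit : ¬ IsUnit (t0 p K n) := by
  intro h
  obtain ⟨x, hx⟩ := h.exists_right_inv
  obtain ⟨e, r, hr⟩ := exists_pow p fun _ : Unit => x
  have h1 : (MvPowerSeries.X 0 : PS K (n + 1)) ^ p ^ e * r () = 1 := of_PS_injective p K _ (by
    rw [map_mul, map_pow, ← hr, ← mul_pow, map_one]
    exact (congrArg (· ^ p ^ e) hx).trans (one_pow _))
  simpa [(Fact.out : p.Prime).ne_zero] using congrArg MvPowerSeries.constantCoeff h1

/-- contraction of ideals generated by powers of variables. -/
theorem comap_of_X_pow (D : ℕ) (N : ℕ) (s : Set (Fin D)) :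
    ((Ideal.span ((fun i => (MvPowerSeries.X i : PS K D) ^ N) '' s)).map
      (PerfectClosure.of (PS K D) p)).comap (PerfectClosure.of (PS K D) p) =
      Ideal.span ((fun i => (MvPowerSeries.X i : PS K D) ^ N) '' s) := by
  classical
  refine le_antisymm (fun f hf => ?_) Ideal.le_comap_map
  rw [Ideal.mem_comap, Ideal.map_span, Set.image_image, Set.image_eq_range,
    Ideal.mem_span_range_iff_exists_fun] at hf
  obtain ⟨c, hc⟩ := hf
  obtain ⟨e, r, hr⟩ := exists_pow p c
  have h1 : f ^ p ^ e = ∑ i : s, r i * MvPowerSeries.X i.1 ^ (p ^ e * N) :=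
    of_PS_injective p K _ (by
      rw [map_pow, ← hc, sum_pow_char_pow, map_sum]
      refine Finset.sum_congr rfl fun i _ => ?_
      rw [mul_pow, hr, map_mul, ← map_pow, ← pow_mul, mul_comm N])
  have h2 : f ^ p ^ e ∈ Ideal.span ((fun i => (MvPowerSeries.X i : PS K D) ^ (p ^ e * N)) '' s) :=
    h1 ▸ Ideal.sum_mem _ fun i _ => Ideal.mul_mem_left _ _ (Ideal.subset_span ⟨i, i.2, rfl⟩)
  rw [mem_span_X_pow_iff] at h2 ⊢
  intro α hα
  have := h2 (p ^ e • α) fun i hi =>
    Nat.mul_lt_mul_of_pos_left (hα i hi) (pow_pos (Fact.out : p.Prime).pos e)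
  rw [coeff_pow_q] at this
  exact pow_eq_zero_iff (pow_ne_zero e (Fact.out : p.Prime).ne_zero) |>.mp this

variable [PerfectRing K p]

theorem faithfullyFlat_of_PS (D : ℕ) : (PerfectClosure.of (PS K D) p).FaithfullyFlat := by
  let _ := (PerfectClosure.of (PS K D) p).toAlgebra
  have := PerfectRing.toPerfectField K p
  have hf : Module.Flat (PS K D) (PerfectClosure (PS K D) p) := by
    refine Module.Flat.of_forall_isTrivialRelation fun {l} a x h => ?_
    obtain ⟨e, r, hr⟩ := exists_pow p x
    choose g hg using fun i => exists_sum_pow_mul p e (r i)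
    have h1 : ∑ i, a i ^ p ^ e * r i = 0 := of_PS_injective p K _ (by
      rw [map_zero, ← zero_pow (pow_ne_zero e (Fact.out : p.Prime).ne_zero), ← h,
        sum_pow_char_pow, map_sum]
      refine Finset.sum_congr rfl fun i _ => ?_
      rw [map_mul, ← hr, map_pow, ← mul_pow]
      rfl)
    have h2 := sum_pow_mul_eq_zero p e (fun α => ∑ i, a i * g i α) (by
      rw [← h1]
      simp only [← hg, sum_pow_char_pow, Finset.sum_mul, Finset.mul_sum, mul_pow, mul_assoc]
      exact Finset.sum_comm)
    let ε := (Fintype.equivFin (Fin D → Fin (p ^ e))).symm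
    refine ⟨_, fun i j => g i (ε j), fun j => rt p e (PerfectClosure.of (PS K D) p
      (MvPowerSeries.monomial (expo (ε j)) 1)), fun i => ?_, fun j => h2 _⟩
    refine (iterateFrobeniusEquiv _ p e).injective ?_
    rw [iterateFrobeniusEquiv_def, iterateFrobeniusEquiv_def, hr, ← hg, ← ε.sum_comp, map_sum,
      sum_pow_char_pow]
    refine Finset.sum_congr rfl fun j _ => ?_
    rw [Algebra.smul_def, mul_pow, rt_pow, map_mul, map_pow]
    rfl
  refine ⟨fun m hm h => hm.ne_top ?_⟩
  have h1 := comap_of_X_pow p K D 1 Set.univ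
  simp only [pow_one, Set.image_univ] at h1
  rw [Ideal.smul_top_eq_map, Submodule.restrictScalars_eq_top_iff] at h
  rw [eq_maximalIdeal hm, ← varIdeal_eq_maximalIdeal] at h ⊢
  rw [varIdeal, ← h1]
  exact Ideal.comap_eq_top_iff.2 h

theorem exists_base_map : ∃ s : PS (WittVector p K) n →+* WittVector p (E0 p K n),
    (∀ f, (s f).coeff 0 = PerfectClosure.of _ p
      (psSucc K n (MvPowerSeries.map WittVector.constantCoeff f))) ∧
    ∀ ν : ℕ, QFlat ((Om.mk p (t0 p K n)).comp s)
      (Ideal.span {(p : PS (WittVector p K) n) ^ ν}) := by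
  obtain ⟨ψ, hψ⟩ := exists_lift p K n
  obtain ⟨φ, hφ, hker, hφ'⟩ := Om.exists_red (p := p) (t0 p K n)
  have hs : ∀ f, (((WittVector.map (PerfectClosure.of _ p)).comp ψ) f).coeff 0 =
      PerfectClosure.of _ p (psSucc K n (MvPowerSeries.map WittVector.constantCoeff f)) :=
    fun f => by rw [RingHom.comp_apply, map_coeff, hψ]
  refine ⟨_, hs, fun ν => ?_⟩
  generalize (WittVector.map (PerfectClosure.of _ p)).comp ψ = s at hs
  have hmap : (Ideal.span {(MvPowerSeries.X 0 : PS K (n + 1))}).map (PerfectClosure.of _ p) =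
      RingHom.ker φ := by
    rw [hker, Ideal.map_span, Set.image_singleton]
    rfl
  have h1 := (qflat_iff_of_surjective (PerfectClosure.of _ p)
    (φ.comp ((PerfectClosure.of _ p).comp (psSucc K n))) (kill K n) φ
    (fun f => ⟨_, kill_psSucc K n f⟩) hφ (RingHom.ext fun g => by
      refine (RingHom.sub_mem_ker_iff φ).1 ?_
      rw [← hmap, RingHom.comp_apply, ← map_sub]
      exact Ideal.mem_map_of_mem _ (mem_of_kill K n _ (by rw [map_sub, kill_psSucc, sub_self])))
    _ (mem_of_kill K n) hmap.ge).1 (QFlat.of_faithfullyFlat (faithfullyFlat_of_PS p K _) _)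
  have h2 := (qflat_iff_of_surjective ((Om.mk p (t0 p K n)).comp s)
    (φ.comp ((PerfectClosure.of _ p).comp (psSucc K n)))
    (MvPowerSeries.map WittVector.constantCoeff)
    (Ideal.Quotient.mk (Ideal.span {(p : Om p (t0 p K n))}))
    (ps_map_surjective _ (witt_constantCoeff_surjective p K) n) Ideal.Quotient.mk_surjective
    (RingHom.ext fun f => (hφ' (s f)).symm.trans (congrArg φ (hs f)))
    (Ideal.span {(p : PS (WittVector p K) n)}) (fun f hf => Ideal.mem_span_singleton.2 (by
      simpa using (ker_ps_map _ _ (witt_constantCoeff_eq_zero_iff p K) n f).1 hf))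
    (by rw [Ideal.mk_ker, Ideal.map_span, Set.image_singleton, map_natCast])).2
    (h1.mono (by
      rw [Ideal.map_span, Set.image_singleton, show kill K n (MvPowerSeries.X 0) = 0 from
        MvPowerSeries.killCompl_X_eq_zero (by simp), Ideal.span_singleton_zero]
      exact bot_le))
  have h3 := QFlat.pow (f := (Om.mk p (t0 p K n)).comp s) ⊥ (p : PS (WittVector p K) n)
    (fun x hx => (isPRing_witt p K).ps_p_reg n x hx)
    (fun y hy => by
      rw [Ideal.map_bot, Ideal.mem_bot] at hy ⊢
      exact Om.p_reg (t0_reg p K n) y (by rwa [map_natCast] at hy))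
    (by rwa [bot_sup_eq]) ν
  rwa [bot_sup_eq] at h3

end Vale.Agent.P202
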