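import Vale.Agent.P202.GrowthPS
import Vale.Agent.P202.FrobRankAux

/-! A uniform bound for the colength of an element together with powers of the generators. -/

namespace Vale.Agent.P202

open IsLocalRing
open scoped ENNReal

section Init

variable {T : Type*} [CommRing T] [IsLocalRing T] {d : ℕ} {κ : Type} [LinearOrder κ]
  {o : (Fin d →₀ ℕ) → κ}

theorem bl_exists_init (ho : IsOrd o) (w : Fin d → T)
    (hw : Ideal.span (Set.range w) = maximalIdeal T) (g : T) (γ : ℕ)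
    (hg : g ∉ maximalIdeal T ^ (γ + 1)) : ∃ α0 : Fin d →₀ ℕ, α0.degree ≤ γ ∧ ∀ α, α0 ≤ α →
      mon w α ∈ Ideal.span {g} ⊔ monI w {β | o α < o β} := by
  classical
  have hex : ∃ n, g ∉ maximalIdeal T ^ (n + 1) := ⟨γ, hg⟩
  have h1 := Nat.find_spec hex
  have h0 : Nat.find hex ≤ γ := Nat.find_min' hex hg
  have h2 : g ∈ maximalIdeal T ^ Nat.find hex := by
    rcases h : Nat.find hex with _ | n
    · simp
    · exact not_not.mp (Nat.find_min hex (by omega))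
  generalize Nat.find hex = n at h0 h1 h2
  rw [← hw] at h1 h2
  obtain ⟨f, hf, rfl⟩ := (Ideal.mem_span_pow_iff_exists_isHomogeneous w g).mp h2
  have hdeg : ∀ α ∈ f.support, α.degree = n := fun α hα => by
    rw [Finsupp.degree_eq_weight_one]
    exact hf (MvPolynomial.mem_support_iff.mp hα)
  have hev : f.eval w = ∑ α ∈ f.support, f.coeff α * mon w α := MvPolynomial.eval_eq' w f
  have hne : (f.support.filter fun α => IsUnit (f.coeff α)).Nonempty := by
    by_contra hc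
    refine h1 (hev ▸ Ideal.sum_mem _ fun α hα => ?_)
    rw [pow_succ', ← hdeg α hα]
    refine Ideal.mul_mem_mul ?_ (mon_mem_pow w α)
    rw [hw]
    exact fun h => hc ⟨α, Finset.mem_filter.mpr ⟨hα, h⟩⟩
  obtain ⟨α0, hα0, hmin⟩ := Finset.exists_min_image _ o hne
  obtain ⟨a1, u, hu⟩ := Finset.mem_filter.mp hα0
  refine ⟨α0, (hdeg α0 a1).le.trans h0, fun α hα => ?_⟩
  obtain ⟨β, rfl⟩ := exists_add_of_le hα
  rw [← Ideal.unit_mul_mem_iff_mem _ u.isUnit, hu]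
  have h3 : f.coeff α0 * mon w (α0 + β) = f.eval w * mon w β -
      ∑ α ∈ f.support.erase α0, f.coeff α * mon w (α + β) := by
    rw [hev, ← Finset.add_sum_erase _ _ a1, add_mul, Finset.sum_mul]
    simp only [mon_add, mul_assoc, add_sub_cancel_right]
  rw [h3]
  refine sub_mem (Ideal.mem_sup_left (Ideal.mul_mem_right _ _ (Ideal.mem_span_singleton_self _)))
    (Ideal.mem_sup_right (Ideal.sum_mem _ fun α hα => ?_))
  obtain ⟨b1, b2⟩ := Finset.mem_erase.mp hα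
  by_cases hc : IsUnit (f.coeff α)
  · refine Ideal.mul_mem_left _ _ (mon_mem ?_)
    have := lt_of_le_of_ne (hmin α (Finset.mem_filter.mpr ⟨b2, hc⟩))
      (fun h => b1 (ho.inj h).symm)
    exact ho.add β this
  · refine monI_mono w (fun δ hδ => ho.deg ?_) (mul_mon_mem (hw ▸ hc) (α + β))
    rw [show δ.degree = _ from hδ, map_add, map_add, hdeg α b2, hdeg α0 a1]
    omega

end Init

theorem bl_len_small {T : Type*} [CommRing T] [IsLocalRing T] {n : ℕ} (w : Fin (n + 1) → T)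
    (hw : Ideal.span (Set.range w) = maximalIdeal T) (g : T) (γ : ℕ)
    (hg : g ∉ maximalIdeal T ^ (γ + 1)) (M : ℕ) (hM : 0 < M) (J : Ideal T) (hgJ : g ∈ J)
    (hJ : powIdeal w M ≤ J) : Module.length T (T ⧸ J) ≤ (γ * M ^ n : ℕ) := by
  classical
  obtain ⟨κ, _, o, ho⟩ := exists_isOrd (n + 1)
  obtain ⟨α0, hd, h0⟩ := bl_exists_init ho w hw g γ hg
  have h1 := gr_mono (M := T) ho w _ _ h0 (boxF fun _ => M)
  rw [smul_top_ideal, smul_top_ideal, hw, length_residue, mul_one] at h1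
  have h2 := card_box_filter α0 M
  have h3 : ((boxF fun _ => M).filter fun α => ¬ α0 ≤ α).card ≤ γ * M ^ n := by
    refine Nat.le_of_mul_le_mul_left (h2.trans ?_) hM
    rw [pow_succ', mul_left_comm]
    exact Nat.mul_le_mul_left _ (Nat.mul_le_mul_right _ hd)
  refine (gr_anti (sup_le ((Ideal.span_singleton_le_iff_mem _).2 hgJ)
    ((monI_le (mon_mem_powIdeal w M)).trans hJ))).trans (h1.trans ?_)
  exact_mod_cast h3

theorem bl_iInf_zero (f : ℕ → ℝ≥0∞) (C p : ℕ) (hp : 1 < p)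
    (h : ∀ e : ℕ, ∃ e', f e' ≤ (C : ℝ≥0∞) / (p : ℝ≥0∞) ^ e) : ⨅ e, f e = 0 := by
  refine le_antisymm ?_ (zero_le)
  have h1 : Filter.Tendsto (fun e : ℕ => (C : ℝ≥0∞) * ((p : ℝ≥0∞)⁻¹) ^ e) Filter.atTop
      (nhds 0) := by
    have h2 := ENNReal.Tendsto.const_mul (a := (C : ℝ≥0∞))
      (ENNReal.tendsto_pow_atTop_nhds_zero_of_lt_one (r := (p : ℝ≥0∞)⁻¹)
        (ENNReal.inv_lt_one.2 (by exact_mod_cast hp))) (Or.inr (ENNReal.natCast_ne_top C))
    rwa [mul_zero] at h2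
  refine ge_of_tendsto' h1 fun e => ?_
  obtain ⟨e', he⟩ := h e
  refine (iInf_le f e').trans (he.trans (le_of_eq ?_))
  rw [div_eq_mul_inv, ENNReal.inv_pow]

theorem bl_ratio (ℓ : ℕ∞) (C p n e k : ℕ) (hp : p ≠ 0) (A B : ℕ)
    (h : ℓ ≤ ((A * p ^ k) * (B * p ^ (e + k)) ^ n : ℕ)) (hC : C = A * B ^ n) :
    (ℓ : ℝ≥0∞) / ((p ^ (n + 1) : ℕ) : ℝ≥0∞) ^ (e + k) ≤ (C : ℝ≥0∞) / (p : ℝ≥0∞) ^ e := by
  have h1 : (ℓ : ℝ≥0∞) ≤ (((A * p ^ k) * (B * p ^ (e + k)) ^ n : ℕ) : ℝ≥0∞) := by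
    exact_mod_cast h
  refine (ENNReal.div_le_div_right h1 _).trans (le_of_eq ?_)
  have hp' : (p : ℝ≥0∞) ≠ 0 := by exact_mod_cast hp
  rw [ENNReal.div_eq_div_iff (pow_ne_zero _ hp') (ENNReal.pow_ne_top (ENNReal.natCast_ne_top p))
    (pow_ne_zero _ (by exact_mod_cast pow_ne_zero _ hp))
    (ENNReal.pow_ne_top (ENNReal.natCast_ne_top _)), hC]
  push_cast
  ring

/-- one coefficient of the approximate element survives. -/
theorem bl_notMem (p : ℕ) [Fact p.Prime] {K : Type*} [Field K] [CharP K p] {n : ℕ}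
    (G u : PS K (n + 1)) (β : Fin (n + 1) →₀ ℕ) (hβ0 : β 0 = 0)
    (hβ : MvPowerSeries.coeff β G ≠ 0) (a k : ℕ) :
    (MvPowerSeries.X 0 : PS K (n + 1)) ^ (a * p ^ k) *
      (G ^ p ^ k + MvPowerSeries.X 0 ^ p ^ k * u) ∉
      maximalIdeal (PS K (n + 1)) ^ ((a + β.degree) * p ^ k + 1) := by
  rw [← varIdeal_eq_maximalIdeal, mem_varIdeal_pow_iff]
  intro h
  have h1 := h (Finsupp.single 0 (a * p ^ k) + p ^ k • β) (by
    rw [map_add, map_nsmul, Finsupp.degree_single, smul_eq_mul]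
    nlinarith)
  rw [MvPowerSeries.X_pow_eq, MvPowerSeries.coeff_add_monomial_mul, one_mul, map_add,
    coeff_pow_q, MvPowerSeries.X_pow_eq, MvPowerSeries.coeff_monomial_mul, if_neg, add_zero] at h1
  · exact hβ (pow_eq_zero_iff (pow_ne_zero k (Fact.out : p.Prime).ne_zero) |>.mp h1)
  · rw [Finsupp.single_le_iff, Finsupp.smul_apply, hβ0, smul_zero]
    exact not_le.2 (pow_pos (Fact.out : p.Prime).pos k)

end Vale.Agent.P202
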