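import Vale.Agent.P202.MxLen
import Vale.Agent.P202.FlatCritAux1

/-! The normalised length on a tower of local rings. -/

namespace Vale.Agent.P202

open scoped ENNReal
open IsLocalRing

universe u

namespace MxTower

open Module Submodule

/-- the length of a span. -/
noncomputable def sl (P : Type*) [CommRing P] {Y : Type*} [AddCommGroup Y] [Module P Y]
    (S : Set Y) : ℕ∞ :=
  length P (span P S)

section
variable {P : Type*} [CommRing P] {Y Y₁ Y₂ : Type*} [AddCommGroup Y] [Module P Y]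
  [AddCommGroup Y₁] [Module P Y₁] [AddCommGroup Y₂] [Module P Y₂]

theorem len_mono {M N : Submodule P Y} (h : M ≤ N) : length P M ≤ length P N :=
  length_le_of_injective (inclusion h) (inclusion_injective h)

theorem sl_mono {S T : Set Y} (h : S ⊆ span P T) : sl P S ≤ sl P T :=
  len_mono (span_le.2 h)

theorem range_eq (g : Y →ₗ[P] Y₁) (S : Set Y) :
    LinearMap.range (g ∘ₗ (span P S).subtype) = span P (g '' S) := by
  rw [LinearMap.range_comp, range_subtype, span_image]

theorem sl_split (g : Y →ₗ[P] Y₁) (S : Set Y) :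
    sl P S = length P ↥(span P S ⊓ LinearMap.ker g) + sl P (g '' S) := by
  have h := fc_len_ker (g ∘ₗ (span P S).subtype)
  rw [range_eq, LinearMap.ker_comp] at h
  rw [sl, h, sl, ← (comapSubtypeEquivOfLe (inf_le_left : span P S ⊓ LinearMap.ker g ≤ _)).length_eq,
    comap_inf, comap_subtype_self, top_inf_eq]

theorem sl_image (f : Y →ₗ[P] Y₁) (hf : Function.Injective f) (S : Set Y) :
    sl P (f '' S) = sl P S := by
  rw [sl_split f S, LinearMap.ker_eq_bot.2 hf, inf_bot_eq]
  simp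

theorem sl_le_of_ker (g₁ : Y →ₗ[P] Y₁) (g₂ : Y →ₗ[P] Y₂) (S : Set Y)
    (h : span P S ⊓ LinearMap.ker g₂ ≤ LinearMap.ker g₁) : sl P (g₁ '' S) ≤ sl P (g₂ '' S) := by
  have hk : LinearMap.ker (g₂ ∘ₗ (span P S).subtype) ≤ LinearMap.ker (g₁ ∘ₗ (span P S).subtype) :=
    fun x hx => h ⟨x.2, hx⟩
  rw [sl, sl, ← range_eq, ← range_eq, ← (LinearMap.quotKerEquivRange _).length_eq,
    ← (LinearMap.quotKerEquivRange _).length_eq]
  exact length_le_of_surjective (factor hk) (factor_surjective hk)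

theorem sl_le_add (S T : Set Y) : sl P S ≤ sl P T + sl P ((span P T).mkQ '' S) := by
  rw [sl_split (span P T).mkQ S, ker_mkQ]
  exact add_le_add_left (len_mono inf_le_right) _

theorem sl_image_le (g : Y →ₗ[P] Y₁) (S : Set Y) : sl P (g '' S) ≤ sl P S := by
  rw [sl_split g S]
  exact le_add_self

theorem sl_union (S T : Set Y) : sl P (S ∪ T) ≤ sl P S + sl P T := by
  refine (sl_le_add _ S).trans (add_le_add_right (le_trans (sl_mono ?_)
    (sl_image_le (span P S).mkQ T)) _)
  rintro _ ⟨x, hx | hx, rfl⟩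
  · rw [mkQ_apply, (Quotient.mk_eq_zero _).2 (subset_span hx)]
    exact zero_mem _
  · exact subset_span ⟨x, hx, rfl⟩

end

theorem sl_semi {R S : Type*} [CommRing R] [IsLocalRing R] [CommRing S] (φ : R →+* S)
    {Y Y' : Type*} [AddCommGroup Y] [Module R Y] [AddCommGroup Y'] [Module S Y']
    (θ : Y →ₛₗ[φ] Y') (T : Set Y) (hc : length S (S ⧸ (maximalIdeal R).map φ) ≠ 0) :
    sl S (θ '' T) ≤ sl R T * length S (S ⧸ (maximalIdeal R).map φ) := by
  by_cases h : sl R T = ⊤
  · rw [h, ENat.top_mul hc]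
    exact le_top
  let := φ.toAlgebra
  let : Module R Y' := Module.compHom Y' φ
  have : IsScalarTower R S Y' := ⟨fun r s y => mul_smul (φ r) s y⟩
  let θ' : span R T →ₗ[R] Y' :=
    { toFun := fun x => θ x
      map_add' := fun x y => θ.map_add x y
      map_smul' := fun r x => θ.map_smulₛₗ r x }
  refine le_trans ?_ (fc_len_tensor_le S (length_ne_top_iff.1 h))
  refine le_trans (len_mono ?_)
    (length_le_of_surjective _ (θ'.liftBaseChange S).surjective_rangeRestrict)
  rw [LinearMap.range_liftBaseChange]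
  refine span_mono ?_
  rintro _ ⟨x, hx, rfl⟩
  exact ⟨⟨x, subset_span hx⟩, rfl⟩

/-- an `E`-module seen as a `P`-module along `f`. -/
def Tw {P E : Type*} [CommRing P] [CommRing E] (_f : P →+* E) (X : Type u) : Type u := X

section
variable {P E : Type*} [CommRing P] [CommRing E] (f : P →+* E) {X X' : Type u} [AddCommGroup X]
  [Module E X] [AddCommGroup X'] [Module E X']

instance : AddCommGroup (Tw f X) := inferInstanceAs (AddCommGroup X)

instance : Module P (Tw f X) := Module.compHom X f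

/-- a linear map seen along `f`. -/
def twMap (g : X →ₗ[E] X') : Tw f X →ₗ[P] Tw f X' where
  toFun := g
  map_add' := g.map_add
  map_smul' r x := g.map_smul (f r) x

/-- the length of the span along `f`. -/
noncomputable def tl (S : Set X) : ℕ∞ := sl P (Y := Tw f X) S

/-- the relative length along `f`. -/
noncomputable def rl (S T : Set X) : ℕ∞ :=
  sl P ((span P (M := Tw f X) T).mkQ '' S)

variable {f} {f' : P →+* E} {F : P →+* P}

/-- the identity is semilinear. -/
def twStep (h : f'.comp F = f) (X : Type u) [AddCommGroup X] [Module E X] :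
    Tw f X →ₛₗ[F] Tw f' X where
  toFun x := x
  map_add' _ _ := rfl
  map_smul' r x := by
    subst h
    rfl

theorem tl_step [IsLocalRing P] (h : f'.comp F = f) {c : ℕ∞} (hc0 : c ≠ 0)
    (hc : length P (P ⧸ (maximalIdeal P).map F) = c) (S : Set X) : tl f' S ≤ tl f S * c := by
  have h1 := sl_semi F (twStep h X) S (hc ▸ hc0)
  have e : twStep h X '' S = S := Set.image_id S
  rwa [e, hc] at h1

theorem rl_step [IsLocalRing P] (h : f'.comp F = f) {c : ℕ∞} (hc0 : c ≠ 0)
    (hc : length P (P ⧸ (maximalIdeal P).map F) = c) (S T : Set X) :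
    rl f' S T ≤ rl f S T * c := by
  have hle : span P (M := Tw f X) T ≤ (span P (M := Tw f' X) T).comap (twStep h X) :=
    span_le.2 fun x hx => subset_span (R := P) (M := Tw f' X) (s := T) hx
  have h1 := sl_semi F (mapQ _ _ (twStep h X) hle) ((span P (M := Tw f X) T).mkQ '' S) (hc ▸ hc0)
  rw [hc] at h1
  exact le_trans (le_of_eq (congrArg (sl P) (Set.image_image (mapQ _ _ (twStep h X) hle)
    (span P (M := Tw f X) T).mkQ S).symm)) h1

theorem tl_image (f : P →+* E) (g : X →ₗ[E] X') (hg : Function.Injective g) (S : Set X) :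
    tl f (g '' S) = tl f S :=
  sl_image (twMap f g) hg S

theorem tl_empty (f : P →+* E) : tl f (∅ : Set X) = 0 := by
  change length P (span P (∅ : Set (Tw f X))) = 0
  rw [span_empty]
  simp

end

theorem div_step {a b : ℕ∞} {c : ℕ} (hc0 : c ≠ 0) (h : a ≤ b * c) (e : ℕ) :
    (a : ℝ≥0∞) / (c : ℝ≥0∞) ^ (e + 1) ≤ (b : ℝ≥0∞) / (c : ℝ≥0∞) ^ e := by
  have h1 : (a : ℝ≥0∞) ≤ b * c := by
    have := ENat.toENNReal_le.2 h
    rwa [ENat.toENNReal_mul, ENat.toENNReal_coe] at this
  refine (ENNReal.div_le_div_right h1 _).trans (le_of_eq ?_)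
  rw [pow_succ, ENNReal.mul_div_mul_right _ _ (by exact_mod_cast hc0) (ENNReal.natCast_ne_top c)]

section
variable {P E : Type u} [CommRing P] [CommRing E] (ι : ℕ → P →+* E) (c : ℕ)

/-- the normalised length of a span. -/
noncomputable def nv {X : Type u} [AddCommGroup X] [Module E X] (S : Set X) (e : ℕ) : ℝ≥0∞ :=
  (tl (ι e) S : ℝ≥0∞) / (c : ℝ≥0∞) ^ e

/-- the normalised length of a module. -/
noncomputable def val (X : Type u) [AddCommGroup X] [Module E X] : ℝ≥0∞ :=
  ⨆ S : {S : Set X // S.Finite}, ⨅ e, nv ι c S.1 e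

variable {ι c} {X' X X'' : Type u} [AddCommGroup X'] [Module E X'] [AddCommGroup X] [Module E X]
  [AddCommGroup X''] [Module E X'']

theorem le_val {S : Set X} (h : S.Finite) : ⨅ e, nv ι c S e ≤ val ι c X :=
  le_iSup (fun S : {S : Set X // S.Finite} => ⨅ e, nv ι c S.1 e) ⟨S, h⟩

theorem nv_le_add {a b d : ℕ∞} (h : a ≤ b + d) (r : ℝ≥0∞) :
    (a : ℝ≥0∞) / r ≤ (b : ℝ≥0∞) / r + (d : ℝ≥0∞) / r := by
  rw [← ENNReal.add_div, ← ENat.toENNReal_add]
  exact ENNReal.div_le_div_right (ENat.toENNReal_le.2 h) _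

theorem add_le_val (f : X' →ₗ[E] X) (g : X →ₗ[E] X'') (hf : Function.Injective f)
    (hfg : Function.Exact f g) (hg : Function.Surjective g) :
    val ι c X' + val ι c X'' ≤ val ι c X := by
  have : Nonempty {S : Set X' // S.Finite} := ⟨⟨∅, Set.finite_empty⟩⟩
  have : Nonempty {S : Set X'' // S.Finite} := ⟨⟨∅, Set.finite_empty⟩⟩
  refine ENNReal.iSup_add_iSup_le fun S' S'' => ?_
  obtain ⟨s, hs⟩ := hg.hasRightInverse
  refine le_trans (le_iInf fun e => ?_)
    (le_val (S := f '' S'.1 ∪ s '' S''.1) ((S'.2.image _).union (S''.2.image _)))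
  refine (add_le_add (iInf_le _ e) (iInf_le _ e)).trans ?_
  rw [nv, nv, nv, ← ENNReal.add_div, ← ENat.toENNReal_add]
  refine ENNReal.div_le_div_right (ENat.toENNReal_le.2 ?_) _
  rw [← tl_image (ι e) f hf]
  refine le_trans ?_ (sl_split (twMap (ι e) g) _).ge
  refine add_le_add (len_mono (span_le.2 ?_)) (sl_mono fun x hx => subset_span ?_)
  · rintro _ ⟨x, hx, rfl⟩
    exact ⟨subset_span (Or.inl ⟨x, hx, rfl⟩), hfg.apply_apply_eq_zero x⟩
  · exact ⟨s x, Or.inr ⟨x, hx, rfl⟩, hs x⟩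

variable [IsLocalRing P] {F : P →+* P}

theorem nv_anti (hι : ∀ e, (ι (e + 1)).comp F = ι e) (hc0 : c ≠ 0)
    (hc : length P (P ⧸ (maximalIdeal P).map F) = c) (S : Set X) : Antitone (nv ι c S) :=
  antitone_nat_of_succ_le fun e => div_step hc0 (tl_step (hι e) (by exact_mod_cast hc0) hc S) e

theorem val_le_add [IsNoetherianRing P] (hι : ∀ e, (ι (e + 1)).comp F = ι e) (hc0 : c ≠ 0)
    (hc : length P (P ⧸ (maximalIdeal P).map F) = c)
    (f : X' →ₗ[E] X) (g : X →ₗ[E] X'') (hf : Function.Injective f)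
    (hfg : Function.Exact f g) : val ι c X ≤ val ι c X' + val ι c X'' := by
  refine iSup_le fun S => le_trans ?_ (add_le_add_right (le_val (S.2.image g)) _)
  rw [ENNReal.add_iInf]
  refine le_iInf fun e₀ => ?_
  have hfg' : (span P (M := Tw (ι e₀) X) S.1 ⊓ LinearMap.ker (twMap (ι e₀) g)).FG :=
    FG.of_le (fg_span S.2) inf_le_left
  obtain ⟨T, hT, eT⟩ := fg_def.1 hfg'
  have hTr : ∀ x ∈ T, ∃ y, f y = x := fun x hx =>
    (hfg x).1 (eT.le (subset_span hx)).2
  have eS : f '' (f ⁻¹' T) = T := Set.image_preimage_eq_of_subset hTr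
  refine le_trans ?_ (add_le_add_left (le_val (S := f ⁻¹' T) (hT.preimage hf.injOn)) _)
  rw [ENNReal.iInf_add]
  refine le_iInf fun e => (iInf_le _ (max e e₀)).trans ?_
  have h1 : Antitone fun e => (rl (ι e) S.1 T : ℝ≥0∞) / (c : ℝ≥0∞) ^ e :=
    antitone_nat_of_succ_le fun e =>
      div_step hc0 (rl_step (hι e) (by exact_mod_cast hc0) hc S.1 T) e
  have h2 : tl (X := X) (ι (max e e₀)) T = tl (ι (max e e₀)) (f ⁻¹' T) :=
    (congrArg _ eS.symm).trans (tl_image _ f hf _)
  have h3 : rl (ι e₀) S.1 T ≤ tl (ι e₀) (g '' S.1) :=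
    sl_le_of_ker _ (twMap (ι e₀) g) _ (by rw [ker_mkQ]; exact eT.ge)
  refine (nv_le_add (sl_le_add (P := P) (Y := Tw (ι (max e e₀)) X) S.1 T) _).trans
    (add_le_add ?_ ?_)
  · exact le_trans (le_of_eq (congrArg (fun a : ℕ∞ => (a : ℝ≥0∞) / _) h2))
      (nv_anti hι hc0 hc (f ⁻¹' T) (le_max_left e e₀))
  · exact (h1 (le_max_right e e₀)).trans (ENNReal.div_le_div_right (ENat.toENNReal_le.2 h3) _)

theorem val_cont (hι : ∀ e, (ι (e + 1)).comp F = ι e) (hc0 : c ≠ 0)
    (hc : length P (P ⧸ (maximalIdeal P).map F) = c)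
    (h : ∀ x : X, val ι c (span E {x}) = 0) : val ι c X = 0 := by
  refine le_antisymm (iSup_le ?_) zero_le
  rintro ⟨S, hS⟩
  change ⨅ e, nv ι c S e ≤ 0
  induction S, hS using Set.Finite.induction_on with
  | empty => exact (iInf_le _ 0).trans (by simp [nv, tl_empty])
  | @insert x S _ _ ih =>
    have h1 : ⨅ e, nv ι c {x} e ≤ 0 := by
      rw [← h x]
      refine le_trans (le_of_eq (iInf_congr fun e => ?_))
        (le_val (S := {⟨x, mem_span_singleton_self x⟩}) (Set.finite_singleton _))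
      rw [nv, nv, ← tl_image (ι e) (span E {x}).subtype (subtype_injective _), Set.image_singleton]
      rfl
    refine le_trans ?_ ((add_le_add h1 ih).trans (by simp))
    rw [ENNReal.iInf_add_iInf fun i j => ⟨max i j, add_le_add
      (nv_anti hι hc0 hc _ (le_max_left i j)) (nv_anti hι hc0 hc _ (le_max_right i j))⟩]
    exact iInf_mono fun e => nv_le_add (sl_union (P := P) (Y := Tw (ι e) X) {x} S) _

omit [IsLocalRing P] in
theorem tl_one (f : P →+* E) (J : Ideal E) :
    tl f ({1} : Set (E ⧸ J)) = length P (P ⧸ J.comap f) := by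
  have e : LinearMap.ker (LinearMap.toSpanSingleton P (Tw f (E ⧸ J)) (1 : E ⧸ J)) = J.comap f := by
    ext a
    change f a • (1 : E ⧸ J) = 0 ↔ f a ∈ J
    rw [Algebra.smul_def, mul_one, Ideal.Quotient.algebraMap_eq, Ideal.Quotient.eq_zero_iff_mem]
  rw [← e, (LinearMap.quotKerEquivRange _).length_eq]
  exact congrArg (fun M : Submodule P (Tw f (E ⧸ J)) => length P M)
    (LinearMap.range_toSpanSingleton _).symm

theorem val_quot (hι : ∀ e, (ι (e + 1)).comp F = ι e) (hsurj : ∀ x : E, ∃ e a, ι e a = x)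
    (hc0 : c ≠ 0) (hc : length P (P ⧸ (maximalIdeal P).map F) = c) (J : Ideal E) :
    val ι c (E ⧸ J) = ⨅ e, nv ι c ({1} : Set (E ⧸ J)) e := by
  refine le_antisymm (iSup_le ?_) (le_val (Set.finite_singleton _))
  rintro ⟨S, hS⟩
  have h1 : ∀ x : E, ∀ᶠ e in Filter.atTop, ∃ a, ι e a = x := fun x => by
    obtain ⟨e₀, a, rfl⟩ := hsurj x
    refine Filter.eventually_atTop.2 ⟨e₀, fun e he => ?_⟩
    induction he with
    | refl => exact ⟨a, rfl⟩
    | step _ ih =>
      obtain ⟨b, hb⟩ := ih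
      exact ⟨F b, (RingHom.congr_fun (hι _) b).trans hb⟩
  choose s hs using Ideal.Quotient.mk_surjective (I := J)
  obtain ⟨e₀, h2⟩ := Filter.eventually_atTop.1
    ((Filter.eventually_all_finite hS).2 fun x _ => h1 (s x))
  refine le_iInf fun e => (iInf_le _ (max e e₀)).trans
    (le_trans ?_ (nv_anti hι hc0 hc _ (le_max_left e e₀)))
  refine ENNReal.div_le_div_right (ENat.toENNReal_le.2 (sl_mono fun x hx => ?_)) _
  obtain ⟨a, ha⟩ := h2 _ (le_max_right e e₀) x hx
  refine mem_span_singleton.2 ⟨a, ?_⟩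
  change ι (max e e₀) a • (1 : E ⧸ J) = x
  rw [Algebra.smul_def, mul_one, Ideal.Quotient.algebraMap_eq, ha]
  exact hs x

end

end MxTower

theorem exists_lenFn_tower (P E : Type u) [CommRing P] [IsLocalRing P] [IsNoetherianRing P]
    [CommRing E] (ι : ℕ → P →+* E) (F : P →+* P) (hι : ∀ e, (ι (e + 1)).comp F = ι e)
    (hsurj : ∀ x : E, ∃ e a, ι e a = x) (c : ℕ) (hc0 : c ≠ 0)
    (hc : Module.length P (P ⧸ (maximalIdeal P).map F) = c) (N : ℕ) :
    ∃ l : LenFn E ((maximalIdeal P ^ N).map (ι 0)), ∀ J : Ideal E,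
      (maximalIdeal P ^ N).map (ι 0) ≤ J →
      l.val (E ⧸ J) = ⨅ e : ℕ, (Module.length P (P ⧸ J.comap (ι e)) : ℝ≥0∞) / (c : ℝ≥0∞) ^ e := by
  refine ⟨⟨MxTower.val ι c, fun X' X X'' _ _ _ _ _ _ f g h1 h2 h3 _ => le_antisymm
    (MxTower.val_le_add hι hc0 hc f g h1 h2) (MxTower.add_le_val f g h1 h2 h3),
    fun X _ _ hX => ?_, fun X _ _ _ h => MxTower.val_cont hι hc0 hc h⟩, fun J _ => ?_⟩
  · refine le_antisymm (iSup_le fun S => (iInf_le _ 0).trans (le_of_eq ?_)) zero_le
    have : Subsingleton (MxTower.Tw (ι 0) X) := hX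
    simp [MxTower.nv, MxTower.tl, MxTower.sl]
  · change MxTower.val ι c (E ⧸ J) = _
    rw [MxTower.val_quot hι hsurj hc0 hc J]
    exact iInf_congr fun e => by rw [MxTower.nv, MxTower.tl_one]

end Vale.Agent.P202
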