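import Vale.Agent.P202.MxBase
import Vale.Agent.P202.MxTower
import Vale.Agent.P202.MxBaseLenAux

/-! The normalised length on the perfect tower. -/

namespace Vale.Agent.P202

open WittVector IsLocalRing
open scoped ENNReal

universe u

variable (p : ℕ) [Fact p.Prime] (K : Type u) [Field K] [CharP K p] [PerfectRing K p] (n : ℕ)

/-- the maps of the tower. -/
noncomputable def blIota (e : ℕ) : PS K (n + 1) →+* E0 p K n :=
  (iterateFrobeniusEquiv (E0 p K n) p e).symm.toRingHom.comp (PerfectClosure.of _ p)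

omit [PerfectRing K p] in
theorem blIota_apply (e : ℕ) (x : PS K (n + 1)) :
    blIota p K n e x = rt p e (PerfectClosure.of _ p x) := rfl

omit [PerfectRing K p] in
theorem blIota_zero : blIota p K n 0 = PerfectClosure.of _ p :=
  RingHom.ext fun x => by rw [blIota_apply, rt_zero]

omit [PerfectRing K p] in
theorem blIota_succ (e : ℕ) :
    (blIota p K n (e + 1)).comp (frobenius (PS K (n + 1)) p) = blIota p K n e :=
  RingHom.ext fun x => by
    rw [RingHom.comp_apply, blIota_apply, blIota_apply, frobenius_def, map_pow, w4_rt_npow,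
      rt_succ_pow]

omit [PerfectRing K p] in
theorem bl_exists_pow (x : E0 p K n) : ∃ (k : ℕ) (a : PS K (n + 1)),
    x ^ p ^ k = PerfectClosure.of _ p a := by
  obtain ⟨⟨k, a⟩, rfl⟩ := PerfectClosure.mk_surjective _ p x
  exact ⟨k, a, by rw [← PerfectClosure.iterate_frobenius_mk _ p k a, iterate_frobenius]⟩

omit [PerfectRing K p] in
theorem blIota_surj (x : E0 p K n) : ∃ e a, blIota p K n e a = x := by
  obtain ⟨k, a, h⟩ := bl_exists_pow p K n x
  exact ⟨k, a, by rw [blIota_apply, ← h, w4_rt_of_pow]⟩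

omit [PerfectRing K p] [CharP K p] in
theorem bl_len_powIdeal (D M : ℕ) : Module.length (PS K D)
    (PS K D ⧸ powIdeal (MvPowerSeries.X : Fin D → PS K D) M) = (M ^ D : ℕ) := by
  have h := length_eq_finrank_quot (K := K) (d := D) (PS K D) M _ le_rfl
  rw [smul_top_ideal] at h
  rw [h, finrank_PS_quot_powIdeal]

omit [PerfectRing K p] in
theorem bl_comap_max (e : ℕ) :
    ((maximalIdeal (PS K (n + 1))).map (PerfectClosure.of _ p)).comap (blIota p K n e) =
      powIdeal MvPowerSeries.X (p ^ e) := by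
  have h := comap_of_X_pow p K (n + 1) (p ^ e) Set.univ
  rw [Set.image_univ] at h
  rw [powIdeal, ← h, blIota, ← Ideal.comap_comap]
  congr 1
  rw [RingEquiv.toRingHom_eq_coe, Ideal.comap_coe, Ideal.comap_symm, ← varIdeal_eq_maximalIdeal,
    varIdeal, Ideal.map_span, Ideal.map_span, Ideal.map_span, ← Set.range_comp, ← Set.range_comp,
    ← Set.range_comp]
  congr 2
  funext i
  simp [iterateFrobenius_def]

omit [PerfectRing K p] [CharP K p] [Fact p.Prime] in
theorem bl_psSucc_coeff (G : PS K n) (hG : G ≠ 0) : ∃ β : Fin (n + 1) →₀ ℕ, β 0 = 0 ∧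
    MvPowerSeries.coeff β (psSucc K n G) ≠ 0 := by
  obtain ⟨α, hα⟩ : ∃ α, MvPowerSeries.coeff α G ≠ 0 := by
    by_contra hc
    exact hG (MvPowerSeries.ext fun α => not_not.mp (not_exists.mp hc α))
  refine ⟨α.embDomain (Fin.succEmb n), Finsupp.embDomain_of_notMem_range _ _ _ (by simp), ?_⟩
  exact (MvPowerSeries.coeff_embDomain_rename (Fin.succEmb n) G α).symm ▸ hα

/-- the normalised length in characteristic `p`. -/
theorem exists_lenFn_E0 (N : ℕ) :
    ∃ l : LenFn (E0 p K n) ((maximalIdeal (PS K (n + 1)) ^ N).map (PerfectClosure.of _ p)),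
      (N ≠ 0 → l.val (E0 p K n ⧸ (maximalIdeal (PS K (n + 1))).map (PerfectClosure.of _ p)) = 1) ∧
      ∀ (J : Ideal (E0 p K n)) (a : ℕ) (G : PS K n), G ≠ 0 →
        (maximalIdeal (PS K (n + 1)) ^ N).map (PerfectClosure.of _ p) ≤ J →
        (∀ e : ℕ, ∃ η ∈ J, η ^ p ^ e - t0 p K n ^ a * PerfectClosure.of _ p (psSucc K n G) ∈
          Ideal.span {t0 p K n ^ (a + 1)}) →
        l.val (E0 p K n ⧸ J) = 0 := by
  have hp : p.Prime := Fact.out
  have hc : Module.length (PS K (n + 1)) (PS K (n + 1) ⧸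
      (maximalIdeal (PS K (n + 1))).map (frobenius (PS K (n + 1)) p)) = (p ^ (n + 1) : ℕ) := by
    have : (maximalIdeal (PS K (n + 1))).map (frobenius (PS K (n + 1)) p) =
        powIdeal MvPowerSeries.X p := by
      rw [← varIdeal_eq_maximalIdeal, varIdeal, Ideal.map_span, ← Set.range_comp]
      rfl
    rw [this, bl_len_powIdeal]
  obtain ⟨l, hl⟩ := exists_lenFn_tower (PS K (n + 1)) (E0 p K n) (blIota p K n)
    (frobenius (PS K (n + 1)) p) (blIota_succ p K n) (blIota_surj p K n) (p ^ (n + 1))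
    (pow_ne_zero _ hp.ne_zero) hc N
  refine ⟨l.mono (by rw [blIota_zero]), fun hN => ?_, fun J a G hG hJ hη => ?_⟩
  · refine (hl _ (by rw [blIota_zero]; exact Ideal.map_mono (Ideal.pow_le_self hN))).trans ?_
    have : ∀ e : ℕ, (Module.length (PS K (n + 1)) (PS K (n + 1) ⧸
        ((maximalIdeal (PS K (n + 1))).map (PerfectClosure.of _ p)).comap (blIota p K n e)) :
        ℝ≥0∞) / ((p ^ (n + 1) : ℕ) : ℝ≥0∞) ^ e = 1 := fun e => by
      rw [bl_comap_max, bl_len_powIdeal, ← Nat.cast_pow, ← pow_mul, ← pow_mul, mul_comm e]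
      exact ENNReal.div_self (by exact_mod_cast pow_ne_zero _ hp.ne_zero)
        (ENNReal.natCast_ne_top _)
    simp only [this, ciInf_const]
  · refine (hl J (by rw [blIota_zero]; exact hJ)).trans ?_
    obtain ⟨β, hβ0, hβ⟩ := bl_psSucc_coeff K n G hG
    refine bl_iInf_zero _ ((a + β.degree) * (N + 1) ^ n) p hp.one_lt fun e => ?_
    obtain ⟨η, hηJ, h1⟩ := hη e
    obtain ⟨u, hu⟩ := Ideal.mem_span_singleton'.1 h1
    obtain ⟨k, u', hu'⟩ := bl_exists_pow p K n u
    refine ⟨e + k, bl_ratio _ _ p n e k hp.ne_zero (a + β.degree) (N + 1) ?_ rfl⟩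
    refine bl_len_small MvPowerSeries.X (varIdeal_eq_maximalIdeal (K := K) (d := n + 1)) _ _
      (bl_notMem p (psSucc K n G) u' β hβ0 hβ a k) _
      (Nat.mul_pos N.succ_pos (pow_pos hp.pos _)) _ ?_ ?_
    · have h2 : η ^ p ^ e = t0 p K n ^ a * (PerfectClosure.of _ p (psSucc K n G) +
          t0 p K n * u) := by
        rw [← sub_add_cancel (η ^ p ^ e) (t0 p K n ^ a * PerfectClosure.of _ p (psSucc K n G)),
          ← hu]
        ring
      rw [Ideal.mem_comap, blIota_apply]
      refine (congrArg (· ∈ J) (?_ : _ = η)).mpr hηJ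
      refine w4_pow_p_pow_inj (p := p) (e + k) ?_
      rw [rt_pow, pow_add p, pow_mul η, h2, mul_pow, add_pow_char_pow, mul_pow, hu', ← pow_mul]
      simp only [map_mul, map_pow, map_add, t0]
    · refine Ideal.span_le.2 ?_
      rintro _ ⟨i, rfl⟩
      beta_reduce
      rw [SetLike.mem_coe, Ideal.mem_comap, blIota_apply, pow_mul, map_pow, w4_rt_of_pow]
      refine hJ (Ideal.mem_map_of_mem _ (Ideal.pow_le_pow_right N.le_succ
        (Ideal.pow_mem_pow ?_ _)))
      rw [← varIdeal_eq_maximalIdeal]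
      exact Ideal.subset_span (Set.mem_range_self i)

/-- the normalised length on the untilt. -/
theorem exists_lenFn_Om (s : PS (WittVector p K) n →+* WittVector p (E0 p K n))
    (hs : ∀ f, (s f).coeff 0 = PerfectClosure.of _ p
      (psSucc K n (MvPowerSeries.map WittVector.constantCoeff f)))
    (φ : E0 p K n →+* Om p (t0 p K n) ⧸ Ideal.span {(p : Om p (t0 p K n))})
    (hφ : Function.Surjective φ) (hφ' : RingHom.ker φ = Ideal.span {t0 p K n})
    (hφ'' : ∀ x : WittVector p (E0 p K n),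
      φ (x.coeff 0) = Ideal.Quotient.mk _ (Om.mk p (t0 p K n) x)) (ν : ℕ) :
    ∃ l : LenFn (Om p (t0 p K n)) ((Ideal.span (Set.range (pX p (WittVector p K) n)) ^ ν).map
        ((Om.mk p (t0 p K n)).comp s)),
      (ν ≠ 0 → l.val (Om p (t0 p K n) ⧸ (Ideal.span (Set.range (pX p (WittVector p K) n))).map
        ((Om.mk p (t0 p K n)).comp s)) = 1) ∧
      ∀ (J : Ideal (Om p (t0 p K n))) (a : ℕ) (G : PS K n), G ≠ 0 → (p : Om p (t0 p K n)) ∈ J →
        (Ideal.span (Set.range (pX p (WittVector p K) n)) ^ ν).map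
          ((Om.mk p (t0 p K n)).comp s) ≤ J →
        (∀ e : ℕ, ∃ η ∈ (J.map (Ideal.Quotient.mk _)).comap φ,
          η ^ p ^ e - t0 p K n ^ a * PerfectClosure.of _ p (psSucc K n G) ∈
            Ideal.span {t0 p K n ^ (a + 1)}) →
        l.val (Om p (t0 p K n) ⧸ J) = 0 := by
  set ψ := (Om.mk p (t0 p K n)).comp s with hψ
  set π := Ideal.Quotient.mk (Ideal.span {(p : Om p (t0 p K n))}) with hπ
  set I := Ideal.span (Set.range (MvPowerSeries.X : Fin n → PS (WittVector p K) n)) with hI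
  have hker : Ideal.comap π ⊥ = Ideal.span {(p : Om p (t0 p K n))} := Ideal.mk_ker
  have hπp : π (p : Om p (t0 p K n)) = 0 :=
    Ideal.Quotient.eq_zero_iff_mem.2 (Ideal.mem_span_singleton_self _)
  have hX : Ideal.span (Set.range (pX p (WittVector p K) n)) =
      I ⊔ Ideal.span {(p : PS (WittVector p K) n)} := by
    rw [pX, Fin.range_cons, Ideal.span_insert, sup_comm]
  have hpX : (Ideal.span (Set.range (pX p (WittVector p K) n))).map ψ =
      I.map ψ ⊔ Ideal.span {(p : Om p (t0 p K n))} := by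
    rw [hX, Ideal.map_sup, Ideal.map_span ψ {_}, Set.image_singleton, map_natCast]
  have h0 : φ (PerfectClosure.of _ p (MvPowerSeries.X 0)) = 0 := by
    rw [← RingHom.mem_ker, hφ']
    exact Ideal.mem_span_singleton_self _
  have hi : ∀ i : Fin n, φ (PerfectClosure.of _ p (MvPowerSeries.X i.succ)) =
      π (ψ (MvPowerSeries.X i)) := fun i => by
    rw [hψ, RingHom.comp_apply, ← hφ'', hs, MvPowerSeries.map_X]
    simp [psSucc]
  have h1 : ((maximalIdeal (PS K (n + 1))).map (PerfectClosure.of _ p)).map φ =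
      (I.map ψ).map π := by
    rw [← varIdeal_eq_maximalIdeal, varIdeal, hI]
    simp only [Ideal.map_span, ← Set.range_comp]
    rw [Fin.range_fin_succ, Function.comp_apply, Function.comp_apply, h0, Ideal.span_insert_zero]
    congr 2
    funext i
    exact hi i
  have h2 : ((maximalIdeal (PS K (n + 1)) ^ ν).map (PerfectClosure.of _ p)).map φ =
      ((I ^ ν).map ψ).map π := by
    simp only [Ideal.map_pow, h1]
  obtain ⟨l0, a1, a2⟩ := exists_lenFn_E0 p K n ν
  obtain ⟨l1, b1⟩ := l0.exists_transport _ φ hφ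
  have h3 : (((maximalIdeal (PS K (n + 1)) ^ ν).map (PerfectClosure.of _ p)).map φ).comap π =
      (I ^ ν).map ψ ⊔ Ideal.span {(p : Om p (t0 p K n))} := by
    rw [h2, Ideal.comap_map_of_surjective π Ideal.Quotient.mk_surjective, hker]
  obtain ⟨l2, c1⟩ := LenFn.exists_devissage ((I ^ ν).map ψ) (p : Om p (t0 p K n))
    (l1.mono h3.le) ν
  have h4 : (I ^ ν).map ψ ≤ (Ideal.span (Set.range (pX p (WittVector p K) n)) ^ ν).map ψ :=
    Ideal.map_mono (Ideal.pow_right_mono (hX ▸ le_sup_left) ν)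
  have h5 : (I ^ ν).map ψ ⊔ Ideal.span {(p : Om p (t0 p K n)) ^ (ν + 1)} ≤
      (Ideal.span (Set.range (pX p (WittVector p K) n)) ^ ν).map ψ := by
    refine sup_le h4 ((Ideal.span_singleton_le_iff_mem _).2 ?_)
    rw [pow_succ, Ideal.map_pow, hpX]
    exact Ideal.mul_mem_right _ _ (Ideal.pow_mem_pow
      (Ideal.mem_sup_right (Ideal.mem_span_singleton_self _)) ν)
  have key : ∀ J : Ideal (Om p (t0 p K n)), (I ^ ν).map ψ ≤ J → (p : Om p (t0 p K n)) ∈ J →
      l2.val (Om p (t0 p K n) ⧸ J) = l0.val (E0 p K n ⧸ (J.map π).comap φ) := fun J hJ hp => by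
    have h6 : (I ^ ν).map ψ ⊔ Ideal.span {(p : Om p (t0 p K n))} ≤ J :=
      sup_le hJ ((Ideal.span_singleton_le_iff_mem _).2 hp)
    refine (c1 _ fun a ha x => ?_).trans (b1 J (h3.le.trans h6))
    obtain ⟨y, rfl⟩ := Ideal.Quotient.mk_surjective x
    exact Ideal.Quotient.eq_zero_iff_mem.2 (J.mul_mem_right y (h6 ha))
  refine ⟨l2.mono h5, fun hν => ?_, fun J a G hG hp hJ hη => ?_⟩
  · refine (key _ (h4.trans (Ideal.map_mono (Ideal.pow_le_self hν)))
      (hpX ▸ Ideal.mem_sup_right (Ideal.mem_span_singleton_self _))).trans ?_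
    have h7 : (((Ideal.span (Set.range (pX p (WittVector p K) n))).map ψ).map π).comap φ =
        (maximalIdeal (PS K (n + 1))).map (PerfectClosure.of _ p) := by
      rw [hpX, Ideal.map_sup, Ideal.map_span π {_}, Set.image_singleton, hπp,
        Ideal.span_singleton_zero, sup_bot_eq, ← h1, Ideal.comap_map_of_surjective φ hφ,
        ← RingHom.ker_eq_comap_bot, hφ', sup_eq_left, Ideal.span_singleton_le_iff_mem]
      refine Ideal.mem_map_of_mem _ ?_
      rw [← varIdeal_eq_maximalIdeal]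
      exact Ideal.subset_span (Set.mem_range_self 0)
    rw [h7]
    exact a1 hν
  · refine (key J (h4.trans hJ) hp).trans (a2 _ a G hG ?_ hη)
    rw [← Ideal.map_le_iff_le_comap, h2]
    exact Ideal.map_mono (h4.trans hJ)

end Vale.Agent.P202
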