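import Vale.Agent.P202.CoeffField
import Vale.Agent.P202.FlatCritAux2

/-! Complete discrete valuation rings with uniformiser `p` and their lifting property. -/

namespace Vale.Agent.P202

open IsLocalRing

universe u

/-- a complete local ring whose maximal ideal is generated by the regular element `p`. -/
structure IsPRing (p : ℕ) (V : Type*) [CommRing V] [IsLocalRing V] : Prop where
  max : maximalIdeal V = Ideal.span {(p : V)}
  reg : ∀ x : V, (p : V) * x = 0 → x = 0
  complete : IsAdicComplete (maximalIdeal V) V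

variable {p : ℕ} {V : Type*} [CommRing V] [IsLocalRing V]

theorem IsPRing.cohen_pow_reg (h : IsPRing p V) (a : ℕ) (x : V) (hx : (p : V) ^ a * x = 0) :
    x = 0 := by
  induction a with
  | zero => simpa using hx
  | succ a ih => exact ih (h.reg _ (by rw [← mul_assoc, ← pow_succ']; exact hx))

theorem IsPRing.cohen_factor (h : IsPRing p V) (x : V) (hx : x ≠ 0) :
    ∃ (a : ℕ) (u : V), IsUnit u ∧ x = (p : V) ^ a * u := by
  classical
  have hex : ∃ N : ℕ, ¬(p : V) ^ N ∣ x := by
    by_contra hc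
    push Not at hc
    refine hx (h.complete.toIsHausdorff.haus x fun N => ?_)
    rw [SModEq.zero, smul_eq_mul, Ideal.mul_top, h.max, Ideal.span_singleton_pow,
      Ideal.mem_span_singleton]
    exact hc N
  have h1 := Nat.find_spec hex
  have h0 : Nat.find hex ≠ 0 := fun e => h1 (by rw [e, pow_zero]; exact one_dvd x)
  obtain ⟨a, ha⟩ := Nat.exists_eq_succ_of_ne_zero h0
  have h2 : (p : V) ^ a ∣ x := by
    by_contra hc
    exact Nat.find_min hex (by omega) hc
  obtain ⟨u, rfl⟩ := h2
  refine ⟨a, u, ?_, rfl⟩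
  by_contra hu
  have : u ∈ maximalIdeal V := hu
  rw [h.max, Ideal.mem_span_singleton] at this
  exact h1 (by rw [ha, pow_succ]; exact mul_dvd_mul_left _ this)

theorem IsPRing.isDomain (h : IsPRing p V) : IsDomain V := by
  have : NoZeroDivisors V := ⟨fun {x y} hxy => by
    by_contra hc
    push Not at hc
    obtain ⟨a, u, hu, rfl⟩ := h.cohen_factor x hc.1
    obtain ⟨b, v, hv, rfl⟩ := h.cohen_factor y hc.2
    refine (hu.mul hv).ne_zero (h.cohen_pow_reg (a + b) _ ?_)
    rw [← hxy]
    ring⟩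
  exact NoZeroDivisors.to_isDomain V

theorem IsPRing.isNoetherianRing (h : IsPRing p V) : IsNoetherianRing V := by
  classical
  have : IsPrincipalIdealRing V := ⟨fun I => by
    by_cases hI : I = ⊥
    · exact hI ▸ bot_isPrincipal
    have hpow : ∀ x ∈ I, x ≠ 0 → ∃ a : ℕ, (p : V) ^ a ∈ I ∧ (p : V) ^ a ∣ x := by
      intro x hx h0
      obtain ⟨a, u, hu, rfl⟩ := h.cohen_factor x h0
      exact ⟨a, (Ideal.mul_unit_mem_iff_mem I hu).1 hx, dvd_mul_right _ _⟩
    have hex : ∃ a : ℕ, (p : V) ^ a ∈ I := by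
      obtain ⟨x, hx, h0⟩ := Submodule.exists_mem_ne_zero_of_ne_bot hI
      exact (hpow x hx h0).imp fun _ h => h.1
    refine ⟨⟨(p : V) ^ Nat.find hex, le_antisymm (fun x hx => ?_) ?_⟩⟩
    · by_cases h0 : x = 0
      · rw [h0]
        exact zero_mem _
      obtain ⟨a, h1, h2⟩ := hpow x hx h0
      exact Ideal.mem_span_singleton.2 ((pow_dvd_pow _ (Nat.find_min' hex h1)).trans h2)
    · exact (Ideal.span_singleton_le_iff_mem I).2 (Nat.find_spec hex)⟩
  infer_instance

theorem isPRing_witt (p : ℕ) [Fact p.Prime] (K : Type*) [Field K] [CharP K p] [PerfectRing K p] :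
    IsPRing p (WittVector p K) := by
  have hm : maximalIdeal (WittVector p K) = Ideal.span {(p : WittVector p K)} :=
    (WittVector.irreducible p).maximalIdeal_eq
  refine ⟨hm, fun x hx => (mul_eq_zero.1 hx).resolve_left (WittVector.p_nonzero p K), ?_⟩
  rw [hm]
  infer_instance

theorem witt_constantCoeff_surjective (p : ℕ) [Fact p.Prime] (K : Type*) [CommRing K] :
    Function.Surjective (WittVector.constantCoeff : WittVector p K →+* K) := by
  exact WittVector.constantCoeff_surjective p

theorem witt_constantCoeff_eq_zero_iff (p : ℕ) [Fact p.Prime] (K : Type*) [CommRing K] [CharP K p]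
    [PerfectRing K p] (v : WittVector p K) :
    WittVector.constantCoeff v = 0 ↔ (p : WittVector p K) ∣ v := by
  rw [← RingHom.mem_ker, WittVector.ker_constantCoeff, Ideal.mem_span_singleton]

/-- One step of the lifting property. -/
theorem IsPRing.cohen_step [Fact p.Prime] (h : IsPRing p V) {B S : Type*} [CommRing B]
    [CommRing S] (θ : B →+* S) (hθ : Function.Surjective θ)
    (hsq : ∀ x, θ x = 0 → x ^ 2 = 0) (hp : ∀ x, θ x = 0 → (p : B) * x = 0) (f : V →+* S) :
    ∃ g : V →+* B, θ.comp g = f := by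
  let E : Subring (B × V) := RingHom.eqLocus (θ.comp (RingHom.fst B V)) (f.comp (RingHom.snd B V))
  let pr : E →+* V := (RingHom.snd B V).comp E.subtype
  have hpr : Function.Surjective pr := fun v => by
    obtain ⟨b, hb⟩ := hθ (f v)
    exact ⟨⟨(b, v), hb⟩, rfl⟩
  have hker : ∀ e : E, pr e = 0 → e ^ 2 = 0 ∧ (p : E) * e = 0 := by
    rintro ⟨⟨b, v⟩, hbv⟩ hv
    have hv' : v = 0 := hv
    subst hv'
    have hb : θ b = 0 := by
      have : θ b = f 0 := hbv
      rwa [map_zero] at this
    constructor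
    · apply Subtype.ext
      ext
      · simpa using hsq b hb
      · simp
    · apply Subtype.ext
      ext
      · simpa using hp b hb
      · simp
  have hres : ∀ v : V, residue V v = 0 ↔ (p : V) ∣ v := fun v => by
    rw [residue_eq_zero_iff, h.max, Ideal.mem_span_singleton]
  let J : Ideal E := Ideal.span {(p : E)}
  let π : E ⧸ J →+* ResidueField V := Ideal.Quotient.lift J ((residue V).comp pr) fun a ha => by
    obtain ⟨c, rfl⟩ := Ideal.mem_span_singleton.1 ha
    rw [RingHom.comp_apply, hres, map_mul, map_natCast]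
    exact dvd_mul_right _ _
  have hπ : ∀ e : E, π (Ideal.Quotient.mk J e) = residue V (pr e) := fun e => rfl
  have hπs : Function.Surjective π := fun a => by
    obtain ⟨v, rfl⟩ := residue_surjective a
    obtain ⟨e, rfl⟩ := hpr v
    exact ⟨_, hπ e⟩
  have : Nontrivial (E ⧸ J) := π.domain_nontrivial
  have hp0 : (p : E ⧸ J) = 0 := by
    rw [← map_natCast (Ideal.Quotient.mk J), Ideal.Quotient.eq_zero_iff_mem]
    exact Ideal.mem_span_singleton_self _
  have : CharP (E ⧸ J) p := (CharP.charP_iff_prime_eq_zero Fact.out).2 hp0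
  obtain ⟨σ, hσ, -⟩ := exists_section_charP p π hπs (by
    intro x hx
    obtain ⟨e, rfl⟩ := Ideal.Quotient.mk_surjective x
    obtain ⟨w, hw⟩ := (hres _).1 ((hπ e).symm.trans hx)
    obtain ⟨e1, rfl⟩ := hpr w
    have h1 := (hker (e - p * e1) (by rw [map_sub, map_mul, map_natCast, hw, sub_self])).1
    have h2 := congrArg (Ideal.Quotient.mk J) h1
    rwa [map_pow, map_sub, map_mul, map_natCast, hp0, zero_mul, sub_zero, map_zero] at h2)
  let E' : Subring E := RingHom.eqLocus (Ideal.Quotient.mk J) (σ.comp ((residue V).comp pr))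
  have hbij : Function.Bijective (pr.comp E'.subtype) := by
    constructor
    · rw [injective_iff_map_eq_zero]
      rintro ⟨e, he⟩ h0
      have h1 : pr e = 0 := h0
      have h2 : Ideal.Quotient.mk J e = σ (residue V (pr e)) := he
      rw [h1, map_zero, map_zero, Ideal.Quotient.eq_zero_iff_mem] at h2
      obtain ⟨c, rfl⟩ := Ideal.mem_span_singleton.1 h2
      rw [map_mul, map_natCast] at h1
      exact Subtype.ext (hker c (h.reg _ h1)).2
    · intro v
      obtain ⟨e0, he0⟩ := Ideal.Quotient.mk_surjective (σ (residue V v))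
      have h1 : residue V (v - pr e0) = 0 := by rw [map_sub, ← hπ, he0, hσ, sub_self]
      obtain ⟨w, hw⟩ := (hres _).1 h1
      obtain ⟨e1, rfl⟩ := hpr w
      have h2 : pr (e0 + p * e1) = v := by
        rw [map_add, map_mul, map_natCast, ← hw, add_sub_cancel]
      refine ⟨⟨e0 + p * e1, ?_⟩, h2⟩
      change Ideal.Quotient.mk J _ = σ (residue V (pr _))
      rw [h2, map_add, map_mul, map_natCast, hp0, zero_mul, add_zero, he0]
  let e : E' ≃+* V := RingEquiv.ofBijective _ hbij
  refine ⟨((RingHom.fst B V).comp E.subtype).comp (E'.subtype.comp e.symm.toRingHom),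
    RingHom.ext fun v => ?_⟩
  have h1 : θ (e.symm v).1.1.1 = f (e.symm v).1.1.2 := (e.symm v).1.2
  have h2 : (e.symm v).1.1.2 = v := e.apply_symm_apply v
  rw [h2] at h1
  exact h1

/-- the lifting property. -/
theorem IsPRing.exists_lift [Fact p.Prime] (h : IsPRing p V) {B S : Type*} [CommRing B]
    [IsLocalRing B] [IsAdicComplete (maximalIdeal B) B] [CommRing S] [Nontrivial S]
    (ω : B →+* S) (hω : Function.Surjective ω)
    (hcl : ∀ b : B, (∀ N : ℕ, b ∈ RingHom.ker ω ⊔ maximalIdeal B ^ N) → b ∈ RingHom.ker ω)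
    (hp : (p : B) ∈ maximalIdeal B) (f : V →+* S) : ∃ j : V →+* B, ω.comp j = f := by
  set I := RingHom.ker ω with hI
  set n := maximalIdeal B with hn
  have hIn : I ≤ n := le_maximalIdeal (RingHom.ker_ne_top ω)
  have hle : ∀ N : ℕ, I * n ^ (N + 1) ≤ I * n ^ N := fun N =>
    Ideal.mul_mono_right (Ideal.pow_le_pow_right N.le_succ)
  have hI1 : ∀ N : ℕ, I * n ^ N ≤ I := fun N => Ideal.mul_le_inf.trans inf_le_left
  have hI2 : ∀ N : ℕ, I * n ^ N ≤ n ^ N := fun N => Ideal.mul_le_inf.trans inf_le_right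
  have hmul : ∀ (N : ℕ) (c b : B), c ∈ n → b ∈ I * n ^ N → c * b ∈ I * n ^ (N + 1) := by
    intro N c b hc hb
    rw [pow_succ, ← mul_assoc, mul_comm c]
    exact Ideal.mul_mem_mul hb hc
  have step : ∀ (N : ℕ) (g : V →+* B ⧸ I * n ^ N), ∃ g' : V →+* B ⧸ I * n ^ (N + 1),
      (Ideal.Quotient.factor (hle N)).comp g' = g := by
    intro N g
    refine h.cohen_step _ (Ideal.Quotient.factor_surjective (hle N)) (fun x hx => ?_)
      (fun x hx => ?_) g
    · obtain ⟨b, rfl⟩ := Ideal.Quotient.mk_surjective x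
      rw [Ideal.Quotient.factor_mk, Ideal.Quotient.eq_zero_iff_mem] at hx
      rw [← map_pow, Ideal.Quotient.eq_zero_iff_mem, pow_two]
      exact hmul N b b (hIn (hI1 N hx)) hx
    · obtain ⟨b, rfl⟩ := Ideal.Quotient.mk_surjective x
      rw [Ideal.Quotient.factor_mk, Ideal.Quotient.eq_zero_iff_mem] at hx
      rw [← map_natCast (Ideal.Quotient.mk _), ← map_mul, Ideal.Quotient.eq_zero_iff_mem]
      exact hmul N _ b hp hx
  choose nxt hnxt using step
  have h0 : I ≤ I * n ^ 0 := by rw [pow_zero, mul_one]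
  let e := RingHom.quotientKerEquivOfSurjective hω
  let g0 : V →+* B ⧸ I * n ^ 0 := (Ideal.Quotient.factor h0).comp (e.symm.toRingHom.comp f)
  let g : ∀ N : ℕ, V →+* B ⧸ I * n ^ N := fun N => Nat.rec g0 nxt N
  have hg : ∀ N, (Ideal.Quotient.factor (hle N)).comp (g (N + 1)) = g N := fun N => hnxt N (g N)
  have hω' : ∀ (N : ℕ) (v : V) (b : B), Ideal.Quotient.mk _ b = g N v → ω b = f v := by
    intro N
    induction N with
    | zero =>
      intro v b hb
      obtain ⟨c, hc⟩ := hω (f v)
      have h1 : e.symm (f v) = Ideal.Quotient.mk I c := by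
        rw [RingEquiv.symm_apply_eq, ← hc]
        rfl
      have h2 : g 0 v = Ideal.Quotient.mk _ c := by
        change Ideal.Quotient.factor h0 (e.symm (f v)) = _
        rw [h1, Ideal.Quotient.factor_mk]
      rw [h2, Ideal.Quotient.eq] at hb
      have h3 : ω (b - c) = 0 := hI1 0 hb
      rwa [map_sub, hc, sub_eq_zero] at h3
    | succ N ih =>
      intro v b hb
      refine ih v b ?_
      rw [← hg N, RingHom.comp_apply, ← hb, Ideal.Quotient.factor_mk]
  let j : ∀ N : ℕ, V →+* B ⧸ n ^ N := fun N =>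
    (Ideal.Quotient.factor (hI2 N)).comp (g N)
  have hj : ∀ {m : ℕ}, (Ideal.Quotient.factorPow n (strictMono_id.monotone m.le_succ)).comp
      (j (m + 1)) = j m := by
    intro m
    ext v
    obtain ⟨b, hb⟩ := Ideal.Quotient.mk_surjective (g (m + 1) v)
    have h1 : g m v = Ideal.Quotient.mk _ b := by
      rw [← hg m, RingHom.comp_apply, ← hb, Ideal.Quotient.factor_mk]
    simp only [j, RingHom.comp_apply, ← hb, h1, Ideal.Quotient.factor_mk]
    rfl
  refine ⟨IsAdicComplete.StrictMono.liftRingHom n strictMono_id j hj, RingHom.ext fun v => ?_⟩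
  obtain ⟨c, hc⟩ := hω (f v)
  rw [RingHom.comp_apply, ← hc, ← sub_eq_zero, ← map_sub]
  refine hcl _ fun N => ?_
  obtain ⟨b, hb⟩ := Ideal.Quotient.mk_surjective (g N v)
  have h1 := IsAdicComplete.StrictMono.mk_liftRingHom n strictMono_id j hj (n := N) v
  have h2 : j N v = Ideal.Quotient.mk _ b := by
    simp only [j, RingHom.comp_apply, ← hb, Ideal.Quotient.factor_mk]
  have h3 := Ideal.Quotient.eq.1 (h1.trans h2)
  have h4 : b - c ∈ I := by
    rw [hI, RingHom.mem_ker, map_sub, hc, hω' N v b hb, sub_self]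
  rw [← sub_add_sub_cancel _ b, add_comm]
  exact Submodule.add_mem_sup h4 h3

end Vale.Agent.P202
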