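import Vale.Agent.P202.Resol

/-! Colon properties of modules on which a system of parameters is regular. -/

namespace Vale.Agent.P202

variable {T : Type*} [CommRing T] {H : Type*} [AddCommGroup H] [Module T H]

/-- all powers of the sequence are weakly regular on the module. -/
def RegPow {D : ℕ} (x : Fin D → T) (H : Type*) [AddCommGroup H] [Module T H] : Prop :=
  ∀ (N : ℕ) (j : Fin D) (h : H),
    x j ^ N • h ∈ Ideal.span ((fun i => x i ^ N) '' {i | i < j}) • (⊤ : Submodule T H) →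
    h ∈ Ideal.span ((fun i => x i ^ N) '' {i | i < j}) • (⊤ : Submodule T H)

/-- every relation among the `y j` with coefficients in the module is a combination of universal
relations. -/
def KoszulInj (V : Type*) [CommRing V] [Algebra V T] {D : ℕ} (y : Fin D → T) (H : Type*)
    [AddCommGroup H] [Module T H] : Prop :=
  ∀ h : Fin D → H, ∑ j, y j • h j = 0 →
    ∃ (m : ℕ) (c : Fin m → Fin D → MvPolynomial (Fin D) V) (h' : Fin m → H),
      (∀ l, ∑ j, MvPolynomial.X j * c l j = 0) ∧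
      ∀ j, h j = ∑ l, MvPolynomial.aeval y (c l j) • h' l

/-- weak regularity modulo a submodule. -/
def MxcReg (W : Submodule T H) {D : ℕ} (x : Fin D → T) : Prop :=
  ∀ (j : Fin D) (h : H), x j • h ∈ W ⊔ Ideal.span (x '' {i | i < j}) • (⊤ : Submodule T H) →
    h ∈ W ⊔ Ideal.span (x '' {i | i < j}) • (⊤ : Submodule T H)

theorem mxc_mem (W : Submodule T H) (a : T) (h : H) :
    h ∈ W ⊔ Ideal.span {a} • (⊤ : Submodule T H) ↔ ∃ k, h - a • k ∈ W := by
  rw [Submodule.mem_sup, Submodule.ideal_span_singleton_smul]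
  constructor
  · rintro ⟨n, hn, t, ht, rfl⟩
    obtain ⟨k, -, rfl⟩ := (Submodule.mem_smul_pointwise_iff_exists _ _ _).mp ht
    exact ⟨k, by rwa [add_sub_cancel_right]⟩
  · rintro ⟨k, hk⟩
    exact ⟨_, hk, _, Submodule.smul_mem_pointwise_smul k a ⊤ Submodule.mem_top,
      sub_add_cancel _ _⟩

theorem mxc_reg_succ (W : Submodule T H) {D : ℕ} (x : Fin (D + 1) → T) :
    MxcReg W x ↔ (∀ h, x 0 • h ∈ W → h ∈ W) ∧
      MxcReg (W ⊔ Ideal.span {x 0} • (⊤ : Submodule T H)) (Fin.tail x) := by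
  have e : ∀ j : Fin D, x '' {i | i < j.succ} = {x 0} ∪ Fin.tail x '' {i | i < j} := by
    intro j
    ext t
    simp [Fin.exists_fin_succ, Fin.tail, eq_comm]
  unfold MxcReg
  rw [Fin.forall_fin_succ]
  refine and_congr (by simp) (forall_congr' fun j => ?_)
  rw [e, Ideal.span_union, Submodule.sup_smul, ← sup_assoc]
  rfl

theorem mxc_reg_mul (a b : T) (D : ℕ) : ∀ (W : Submodule T H) (x : Fin D → T),
    (∀ h, a • h ∈ W → h ∈ W) → MxcReg (W ⊔ Ideal.span {a} • (⊤ : Submodule T H)) x →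
    MxcReg (W ⊔ Ideal.span {b} • (⊤ : Submodule T H)) x →
    MxcReg (W ⊔ Ideal.span {a * b} • (⊤ : Submodule T H)) x := by
  induction D with
  | zero => intro W x _ _ _ j; exact j.elim0
  | succ D ih =>
    intro W x ha h1 h2
    rw [mxc_reg_succ] at h1 h2 ⊢
    refine ⟨fun h hh => ?_, ?_⟩
    · obtain ⟨k, hk⟩ := (mxc_mem W _ _).1 hh
      obtain ⟨h', hh'⟩ := (mxc_mem W _ _).1 (h1.1 h ((mxc_mem W _ _).2 ⟨b • k, by
        rwa [← mul_smul]⟩))
      have h3 : x 0 • h' - b • k ∈ W := ha _ (by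
        have := W.sub_mem hk (W.smul_mem (x 0) hh')
        convert this using 1
        module)
      obtain ⟨k', hk'⟩ := (mxc_mem W _ _).1 (h2.1 h' ((mxc_mem W _ _).2 ⟨k, h3⟩))
      refine (mxc_mem W _ _).2 ⟨k', ?_⟩
      convert W.add_mem hh' (W.smul_mem a hk') using 1
      module
    · rw [sup_right_comm] at h1 h2 ⊢
      refine ih _ _ (fun h hh => ?_) h1.2 h2.2
      obtain ⟨k, hk⟩ := (mxc_mem W _ _).1 hh
      obtain ⟨k', hk'⟩ := (mxc_mem W _ _).1 (h1.1 k ((mxc_mem W _ _).2 ⟨h, by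
        rw [← neg_sub]; exact W.neg_mem hk⟩))
      refine (mxc_mem W _ _).2 ⟨k', ha _ ?_⟩
      convert W.add_mem hk (W.smul_mem (x 0) hk') using 1
      module

theorem mxc_reg_pow (N D : ℕ) : ∀ (W : Submodule T H) (x : Fin D → T), MxcReg W x →
    MxcReg W fun i => x i ^ N := by
  induction D with
  | zero => intro W x _ j; exact j.elim0
  | succ D ih =>
    intro W x hx
    rw [mxc_reg_succ] at hx ⊢
    have h1 : ∀ n : ℕ, (∀ h, x 0 ^ n • h ∈ W → h ∈ W) ∧
        MxcReg (W ⊔ Ideal.span {x 0 ^ n} • (⊤ : Submodule T H)) (Fin.tail x) := by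
      intro n
      induction n with
      | zero => exact ⟨fun h hh => by simpa using hh, fun j h _ => by simp⟩
      | succ n ihn =>
        rw [pow_succ']
        exact ⟨fun h hh => ihn.1 h (hx.1 _ (by rwa [← mul_smul])),
          mxc_reg_mul _ _ D W _ hx.1 hx.2 ihn.2⟩
    exact ⟨(h1 N).1, ih _ _ (h1 N).2⟩

theorem regPow_of_one {D : ℕ} (x : Fin D → T)
    (hx : ∀ (j : Fin D) (h : H), x j • h ∈ Ideal.span (x '' {i | i < j}) • (⊤ : Submodule T H) →
      h ∈ Ideal.span (x '' {i | i < j}) • (⊤ : Submodule T H)) : RegPow x H := by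
  intro N j h hh
  have := mxc_reg_pow N D (⊥ : Submodule T H) x (fun j h => by simpa using hx j h) j h
    (by simpa using hh)
  simpa using this

theorem RegPow.exact {D : ℕ} {x : Fin D → T} (hx : RegPow x H) {β : ℕ → Type}
    [∀ i, Fintype (β i)] [∀ i, DecidableEq (β i)] (φ : ∀ i, Matrix (β i) (β (i + 1)) T)
    (hβ : ∀ i, D < i → IsEmpty (β i)) (hφφ : ∀ i, φ i * φ (i + 1) = 0) (I : Ideal T)
    (hI : ∀ i, x i ∈ I.radical) (hn : ∀ a ∈ I, NullHtpy φ a) (ζ : β 1 → H)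
    (hζ : ∀ s, mact (φ 0) ζ s = 0) : ∃ η : β 2 → H, ∀ s, ζ s = mact (φ 1) η s := by
  choose m hm using hI
  obtain ⟨η, hη⟩ := almost_acyclic β φ D hβ hφφ (fun i => x i ^ ∑ l, m l)
    (fun j => hn _ (Ideal.pow_mem_of_pow_mem _ (hm j)
      (Finset.single_le_sum (fun _ _ => Nat.zero_le _) (Finset.mem_univ j)))) 1 ⊥
    (fun j n h => by simpa using hx _ j n (by simpa using h)) 0 ζ (fun s => by simp [hζ])
  exact ⟨η, fun s => by simpa [sub_eq_zero] using hη s⟩

theorem RegPow.koszulInj (V : Type*) [CommRing V] [Algebra V T] {D : ℕ} {x : Fin D → T}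
    (hx : RegPow x H) (y : Fin D → T) (hy : ∀ i, x i ∈ (Ideal.span (Set.range y)).radical) :
    KoszulInj V y H := by
  intro h hh
  obtain ⟨b, ψ, e1, hb0, hbd, hψψ, hψ0, -, hnull⟩ :=
    exists_koszul (MvPolynomial (Fin D) V) D MvPolynomial.X
  let f : MvPolynomial (Fin D) V →+* T := (MvPolynomial.aeval y : _ →ₐ[V] T)
  obtain ⟨η, hη⟩ := hx.exact (β := fun i => Fin (b i)) (fun i => (ψ i).map f)
    (fun i hi => by rw [hbd i hi]; infer_instance)
    (fun i => by rw [← Matrix.map_mul, hψψ, Matrix.map_zero _ (map_zero f)]) _ hy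
    (fun a ha => NullHtpy.of_mem_span (β := fun i => Fin (b i)) _ (by
      rintro _ ⟨j, rfl⟩
      obtain ⟨k, hk⟩ := hnull _ (Ideal.subset_span ⟨j, rfl⟩)
      refine ⟨fun i => (k i).map f, fun i => ?_⟩
      rw [← Matrix.map_mul, ← Matrix.map_mul, ← Matrix.map_add _ (map_add f), hk]
      ext s t
      by_cases hst : s = t <;> simp [f, hst]) ha)
    (fun s => h (e1.symm s)) (fun r => by
      rw [mact, ← Equiv.sum_comp e1, ← hh]
      simp [hψ0, f])
  refine ⟨b 2, fun l j => ψ 1 (e1 j) l, η, fun l => ?_, fun j => ?_⟩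
  · have := congrFun (congrFun (hψψ 0) ⟨0, by omega⟩) l
    rw [Matrix.mul_apply, ← Equiv.sum_comp e1] at this
    simp only [hψ0] at this
    exact this
  · have := hη (e1 j)
    rw [e1.symm_apply_apply] at this
    exact this

theorem mxc_mem_range {ι : Type*} [Fintype ι] (a : ι → T) {h : H}
    (hh : h ∈ Ideal.span (Set.range a) • (⊤ : Submodule T H)) : ∃ ζ : ι → H, h = ∑ t, a t • ζ t := by
  refine Submodule.smul_induction_on hh (fun r hr n _ => ?_) ?_
  · obtain ⟨c, rfl⟩ := Ideal.mem_span_range_iff_exists_fun.1 hr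
    exact ⟨fun t => c t • n, by simp only [Finset.sum_smul, smul_smul, mul_comm]⟩
  · rintro _ _ ⟨ζ, rfl⟩ ⟨ζ', rfl⟩
    exact ⟨fun t => ζ t + ζ' t, by simp only [smul_add, Finset.sum_add_distrib]⟩

/-- the cone of multiplication by `w`. -/
def mxcCone (w : T) {β : ℕ → Type} [∀ i, DecidableEq (β i)]
    (φ : ∀ i, Matrix (β i) (β (i + 1)) T) :
    ∀ i, Matrix (β i ⊕ coneIx β i) (β (i + 1) ⊕ coneIx β (i + 1)) T := fun i =>
  (Matrix.fromBlocks (φ i) (w • (1 : Matrix (β i) (β i) T)) 0 (-coneMD φ i) :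
    Matrix (β i ⊕ coneIx β i) (β (i + 1) ⊕ β i) T)

theorem mxc_cone (w : T) (β : ℕ → Type) [∀ i, Fintype (β i)] [∀ i, DecidableEq (β i)]
    (φ : ∀ i, Matrix (β i) (β (i + 1)) T) (r : ℕ) (hβ : ∀ i, r < i → IsEmpty (β i))
    (hφφ : ∀ i, φ i * φ (i + 1) = 0) (J : Ideal T) (hJ : ∀ x ∈ J, FullNull φ x) :
    (∀ i, r + 1 < i → IsEmpty (β i ⊕ coneIx β i)) ∧
      (∀ i, mxcCone w φ i * mxcCone w φ (i + 1) = 0) ∧
      ∀ x ∈ J ⊔ Ideal.span {w}, FullNull (β := fun i => β i ⊕ coneIx β i) (mxcCone w φ) x := by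
  have hE : IsEmpty (coneIx β 0) := (inferInstance : IsEmpty Empty)
  let Φ : ∀ i, Matrix (β i ⊕ coneIx β i) (β (i + 1) ⊕ β i) T := fun i =>
    Matrix.fromBlocks (φ i) (w • (1 : Matrix (β i) (β i) T)) 0 (-coneMD φ i)
  have hDφ : ∀ i, coneMD φ i * φ i = 0 := by
    intro i
    cases i with
    | zero => exact Matrix.zero_mul _
    | succ i => exact hφφ i
  have hblk : ∀ (x : T) (A : Matrix (β 0) (β 0) T) (B : Matrix (β 0) (coneIx β 0) T)
      (C : Matrix (coneIx β 0) (β 0) T) (D : Matrix (coneIx β 0) (coneIx β 0) T),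
      A = x • (1 : Matrix (β 0) (β 0) T) → Matrix.fromBlocks A B C D =
        x • (1 : Matrix (β 0 ⊕ coneIx β 0) (β 0 ⊕ coneIx β 0) T) := by
    intro x A B C D hA
    rw [← Matrix.fromBlocks_one, Matrix.fromBlocks_smul, hA]
    congr 1 <;> exact Subsingleton.elim _ _
  refine ⟨?_, ?_, ?_⟩
  · intro i hi
    obtain ⟨i, rfl⟩ : ∃ j, i = j + 1 := ⟨i - 1, by omega⟩
    have := hβ (i + 1) (by omega)
    have : IsEmpty (coneIx β (i + 1)) := hβ i (by omega)
    infer_instance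
  · intro i
    have h : Matrix.fromBlocks (φ i) (w • (1 : Matrix (β i) (β i) T)) 0 (-coneMD φ i) *
        Matrix.fromBlocks (φ (i + 1)) (w • (1 : Matrix (β (i + 1)) (β (i + 1)) T)) 0 (-φ i) =
        0 := by
      rw [Matrix.fromBlocks_multiply, ← Matrix.fromBlocks_zero]
      simp [hφφ, hDφ]
    exact h
  · intro x hx
    rw [← Ideal.span_eq J, ← Ideal.span_union] at hx
    refine FullNull.of_mem_span (β := fun i => β i ⊕ coneIx β i) Φ ?_ hx
    rintro x (hx | rfl)
    · obtain ⟨h, h0, hh⟩ := hJ x hx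
      have hlast : ∀ i, φ i * h i + coneH h i * coneMD φ i = x • (1 : Matrix (β i) (β i) T) := by
        intro i
        cases i with
        | zero =>
          have : coneH h 0 * coneMD φ 0 = 0 := Matrix.zero_mul _
          rw [this, add_zero, h0]
        | succ i => exact hh i
      let H : ∀ i, Matrix (β (i + 1) ⊕ β i) (β i ⊕ coneIx β i) T := fun i =>
        Matrix.fromBlocks (h i) 0 0 (-coneH h i)
      refine ⟨H, ?_, fun i => ?_⟩
      · have e : Φ 0 * H 0 = x • (1 : Matrix (β 0 ⊕ coneIx β 0) (β 0 ⊕ coneIx β 0) T) := by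
          simp only [Φ, H]
          rw [Matrix.fromBlocks_multiply]
          exact hblk _ _ _ _ _ (by simp [h0])
        exact e
      · have e : Matrix.fromBlocks (φ (i + 1)) (w • (1 : Matrix (β (i + 1)) (β (i + 1)) T)) 0
              (-φ i) * Matrix.fromBlocks (h (i + 1)) 0 0 (-h i) +
            Matrix.fromBlocks (h i) 0 0 (-coneH h i) *
              Matrix.fromBlocks (φ i) (w • (1 : Matrix (β i) (β i) T)) 0 (-coneMD φ i) =
            x • (1 : Matrix (β (i + 1) ⊕ β i) (β (i + 1) ⊕ β i) T) := by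
          rw [Matrix.fromBlocks_multiply, Matrix.fromBlocks_multiply, Matrix.fromBlocks_add,
            ← Matrix.fromBlocks_one, Matrix.fromBlocks_smul]
          simp [hh, hlast]
        exact e
    · let H : ∀ i, Matrix (β (i + 1) ⊕ β i) (β i ⊕ coneIx β i) T := fun i =>
        Matrix.fromBlocks 0 0 1 0
      refine ⟨H, ?_, fun i => ?_⟩
      · have e : Φ 0 * H 0 = x • (1 : Matrix (β 0 ⊕ coneIx β 0) (β 0 ⊕ coneIx β 0) T) := by
          simp only [Φ, H]
          rw [Matrix.fromBlocks_multiply]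
          exact hblk _ _ _ _ _ (by simp)
        exact e
      · have e : Matrix.fromBlocks (φ (i + 1)) (x • (1 : Matrix (β (i + 1)) (β (i + 1)) T))
              (0 : Matrix (β i) (β (i + 1 + 1)) T) (-φ i) *
              Matrix.fromBlocks (0 : Matrix (β (i + 1 + 1)) (β (i + 1)) T)
                (0 : Matrix (β (i + 1 + 1)) (β i) T) (1 : Matrix (β (i + 1)) (β (i + 1)) T)
                (0 : Matrix (β (i + 1)) (β i) T) +
            Matrix.fromBlocks (0 : Matrix (β (i + 1)) (β i) T)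
                (0 : Matrix (β (i + 1)) (coneIx β i) T) (1 : Matrix (β i) (β i) T)
                (0 : Matrix (β i) (coneIx β i) T) *
              Matrix.fromBlocks (φ i) (x • (1 : Matrix (β i) (β i) T)) 0 (-coneMD φ i) =
            x • (1 : Matrix (β (i + 1) ⊕ β i) (β (i + 1) ⊕ β i) T) := by
          rw [Matrix.fromBlocks_multiply, Matrix.fromBlocks_multiply, Matrix.fromBlocks_add,
            ← Matrix.fromBlocks_one, Matrix.fromBlocks_smul]
          simp
        exact e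

theorem mxc_cone_iter {d : ℕ} (w : Fin d → T) (β : ℕ → Type) [∀ i, Fintype (β i)]
    [∀ i, DecidableEq (β i)] (φ : ∀ i, Matrix (β i) (β (i + 1)) T) (r : ℕ)
    (hβ : ∀ i, r < i → IsEmpty (β i)) (hφφ : ∀ i, φ i * φ (i + 1) = 0) (s0 : β 0)
    (hs0 : ∀ s, s = s0) (J : Ideal T) (hJ : Ideal.span (Set.range (φ 0 s0)) = J)
    (hnull : ∀ a ∈ J, FullNull φ a) :
    ∃ (β' : ℕ → Type) (_ : ∀ i, Fintype (β' i)) (_ : ∀ i, DecidableEq (β' i))
      (φ' : ∀ i, Matrix (β' i) (β' (i + 1)) T) (s' : β' 0), (∀ s, s = s') ∧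
      (∀ i, d + r < i → IsEmpty (β' i)) ∧ (∀ i, φ' i * φ' (i + 1) = 0) ∧
      Ideal.span (Set.range (φ' 0 s')) = J ⊔ Ideal.span (Set.range w) ∧
      ∀ x ∈ J ⊔ Ideal.span (Set.range w), FullNull φ' x := by
  induction d with
  | zero =>
    refine ⟨β, inferInstance, inferInstance, φ, s0, hs0, fun i hi => hβ i (by omega), hφφ, ?_, ?_⟩
    · simpa using hJ
    · simpa using hnull
  | succ d ih =>
    obtain ⟨β1, _, _, φ1, s1, h1, h2, h3, h4, h5⟩ := ih (Fin.tail w)
    obtain ⟨k1, k2, k3⟩ := mxc_cone (w 0) β1 φ1 (d + r) h2 h3 _ h5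
    have e : J ⊔ Ideal.span (Set.range w) =
        J ⊔ Ideal.span (Set.range (Fin.tail w)) ⊔ Ideal.span {w 0} := by
      rw [Fin.range_fin_succ, Ideal.span_insert, sup_comm (Ideal.span {w 0}), ← sup_assoc]
    refine ⟨fun i => β1 i ⊕ coneIx β1 i, inferInstance, inferInstance, mxcCone (w 0) φ1,
      Sum.inl s1, ?_, fun i hi => k1 i (by omega), k2, ?_, by rw [e]; exact k3⟩
    · rintro (s | s)
      · rw [h1 s]
      · exact Empty.elim s
    · have hw : mxcCone (w 0) φ1 0 (Sum.inl s1) (Sum.inr s1) = w 0 := by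
        change w 0 * (1 : Matrix (β1 0) (β1 0) T) s1 s1 = w 0
        rw [Matrix.one_apply_eq, mul_one]
      rw [e, ← h4, ← Ideal.span_union]
      congr 1
      ext t
      constructor
      · rintro ⟨u | u, rfl⟩
        · exact Or.inl ⟨u, rfl⟩
        · obtain rfl : u = s1 := h1 u
          exact Or.inr hw
      · rintro (⟨u, rfl⟩ | rfl)
        · exact ⟨Sum.inl u, rfl⟩
        · exact ⟨Sum.inr s1, hw⟩

/-- the colon property for a full system of parameters modulo an ideal with a short complex. -/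
theorem RegPow.colon {D d r : ℕ} {x : Fin D → T} (hx : RegPow x H) (hD : d + r = D)
    (β : ℕ → Type) [∀ i, Fintype (β i)] [∀ i, DecidableEq (β i)]
    (φ : ∀ i, Matrix (β i) (β (i + 1)) T) (hβ : ∀ i, r < i → IsEmpty (β i))
    (hφφ : ∀ i, φ i * φ (i + 1) = 0) (s0 : β 0) (hs0 : ∀ s, s = s0) (J : Ideal T)
    (hJ : Ideal.span (Set.range (φ 0 s0)) = J) (hnull : ∀ a ∈ J, FullNull φ a)
    (w : Fin d → T) (hw : ∀ i, x i ∈ (J ⊔ Ideal.span (Set.range w)).radical) (j : Fin d) (h : H)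
    (hh : w j • h ∈ (J ⊔ Ideal.span (w '' {i | i ≠ j})) • (⊤ : Submodule T H)) :
    h ∈ (J ⊔ Ideal.span (w '' {i | i ≠ j})) • (⊤ : Submodule T H) := by
  obtain ⟨d, rfl⟩ : ∃ d', d = d' + 1 := ⟨d - 1, by have := j.2; omega⟩
  have e : w '' {i | i ≠ j} = Set.range (w ∘ j.succAbove) := by
    rw [Set.range_comp, Fin.range_succAbove]; rfl
  obtain ⟨β', _, _, φ', s', k1, k2, k3, k4, k5⟩ :=
    mxc_cone_iter (w ∘ j.succAbove) β φ r hβ hφφ s0 hs0 J hJ hnull
  obtain ⟨c1, c2, c3⟩ := mxc_cone (w j) β' φ' (d + r) k2 k3 _ k5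
  rw [e, ← k4] at hh ⊢
  obtain ⟨ζ, hζ⟩ := mxc_mem_range _ hh
  rw [acyc_span_range w j, e, ← sup_assoc] at hw
  obtain ⟨η, hη⟩ := hx.exact (β := fun i => β' i ⊕ coneIx β' i) (mxcCone (w j) φ')
    (fun i hi => c1 i (by omega)) c2 _ hw (fun a ha => (c3 a ha).nullHtpy)
    (Sum.elim (fun t => -ζ t) fun _ => h) (by
      rintro (s | s)
      · have : Unique (β' 0) := ⟨⟨s'⟩, k1⟩
        rw [k1 s]
        change ∑ t : β' 1 ⊕ β' 0, Matrix.fromBlocks (φ' 0) (w j • (1 : Matrix (β' 0) (β' 0) T)) 0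
          (-coneMD φ' 0) (Sum.inl s') t • Sum.elim (fun t => -ζ t) (fun _ => h) t = 0
        rw [Fintype.sum_sum_type, Fintype.sum_subsingleton _ s']
        simp [hζ]
      · exact Empty.elim s)
  have h1 : h = ∑ t : β' 2 ⊕ β' 1, Matrix.fromBlocks (φ' 1) (w j • (1 : Matrix (β' 1) (β' 1) T)) 0
      (-φ' 0) (Sum.inr s') t • η t := hη (Sum.inr s')
  rw [h1, Fintype.sum_sum_type]
  refine Submodule.add_mem _ (by simp) (Submodule.sum_mem _ fun t _ => ?_)
  exact Submodule.smul_mem_smul (neg_mem (Ideal.subset_span ⟨t, rfl⟩)) Submodule.mem_top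

/-- the colon property for a full system of parameters. -/
theorem RegPow.colon_sop {D : ℕ} {x : Fin D → T} (hx : RegPow x H) (w : Fin D → T)
    (hw : ∀ i, x i ∈ (Ideal.span (Set.range w)).radical) (j : Fin D) (h : H)
    (hh : w j • h ∈ Ideal.span (w '' {i | i ≠ j}) • (⊤ : Submodule T H)) :
    h ∈ Ideal.span (w '' {i | i ≠ j}) • (⊤ : Submodule T H) := by
  have := hx.colon (r := 0) rfl (fun i => {_u : Unit // i = 0}) (fun _ => 0)
    (fun i hi => ⟨fun u => hi.ne' u.2⟩) (fun i => Matrix.zero_mul _) ⟨(), rfl⟩ (fun _ => rfl) ⊥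
    (by simp) (fun a ha => ⟨fun _ => 0, by simp [Ideal.mem_bot.1 ha], fun i => by
      simp [Ideal.mem_bot.1 ha]⟩) w (by simpa using hw) j h (by simpa using hh)
  simpa using this

end Vale.Agent.P202
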