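import Mathlib

/-! Additive length functions on modules killed by an ideal. -/

namespace Vale.Agent.P202

open scoped ENNReal

universe u

/-- the ideal kills the module. -/
def Kills {R : Type*} [CommRing R] (I : Ideal R) (X : Type*) [AddCommGroup X] [Module R X] :
    Prop :=
  ∀ a ∈ I, ∀ x : X, a • x = 0

theorem kills_iff {R : Type*} [CommRing R] (I : Ideal R) (X : Type*) [AddCommGroup X]
    [Module R X] : Kills I X ↔ I • (⊤ : Submodule R X) = ⊥ := by
  rw [eq_bot_iff, Submodule.smul_le]
  simp [Kills]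

section kills

variable {R : Type*} [CommRing R] {I : Ideal R} {X Y : Type*} [AddCommGroup X] [Module R X]
  [AddCommGroup Y] [Module R Y]

theorem Kills.of_injective (h : Kills I Y) (f : X →ₗ[R] Y) (hf : Function.Injective f) :
    Kills I X := fun a ha x => hf (by rw [map_smul, h a ha, map_zero])

theorem Kills.of_surjective (h : Kills I X) (f : X →ₗ[R] Y) (hf : Function.Surjective f) :
    Kills I Y := fun a ha y => by
  obtain ⟨x, rfl⟩ := hf y
  rw [← map_smul, h a ha, map_zero]

theorem Kills.submodule (h : Kills I X) (N : Submodule R X) : Kills I N :=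
  h.of_injective N.subtype N.injective_subtype

theorem Kills.quotient (h : Kills I X) (N : Submodule R X) : Kills I (X ⧸ N) :=
  h.of_surjective N.mkQ N.mkQ_surjective

theorem Kills.anti {I' : Ideal R} (h : Kills I X) (hI : I' ≤ I) : Kills I' X :=
  fun a ha => h a (hI ha)

theorem kills_quot {J : Ideal R} (h : I ≤ J) : Kills I (R ⧸ J) := by
  intro a ha x
  obtain ⟨x, rfl⟩ := Ideal.Quotient.mk_surjective x
  change Ideal.Quotient.mk J (a * x) = 0
  exact Ideal.Quotient.eq_zero_iff_mem.2 (J.mul_mem_right x (h ha))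

theorem kills_sup_span {π : R} : Kills (I ⊔ Ideal.span {π}) X ↔ Kills I X ∧ ∀ x : X, π • x = 0 := by
  constructor
  · intro h
    exact ⟨h.anti le_sup_left, h π (Ideal.mem_sup_right (Ideal.mem_span_singleton_self π))⟩
  · rintro ⟨h1, h2⟩ a ha x
    obtain ⟨b, hb, c, hc, rfl⟩ := Submodule.mem_sup.1 ha
    obtain ⟨d, rfl⟩ := Ideal.mem_span_singleton'.1 hc
    rw [add_smul, h1 b hb, mul_smul, h2, smul_zero, add_zero]

end kills

/-- additivity on modules killed by `I`. -/
def LenAdd {R : Type u} [CommRing R] (I : Ideal R)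
    (v : ∀ (X : Type u) [AddCommGroup X] [Module R X], ℝ≥0∞) : Prop :=
  ∀ (X' X X'' : Type u) [AddCommGroup X'] [Module R X'] [AddCommGroup X] [Module R X]
    [AddCommGroup X''] [Module R X''] (f : X' →ₗ[R] X) (g : X →ₗ[R] X''), Function.Injective f →
    Function.Exact f g → Function.Surjective g → Kills I X → v X = v X' + v X''

section lenAdd

variable {R : Type u} [CommRing R] {I : Ideal R}
  {v : ∀ (X : Type u) [AddCommGroup X] [Module R X], ℝ≥0∞} {X' X X'' : Type u}
  [AddCommGroup X'] [Module R X'] [AddCommGroup X] [Module R X] [AddCommGroup X''] [Module R X'']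

theorem LenAdd.le_of_injective (hv : LenAdd I v) (f : X' →ₗ[R] X) (hf : Function.Injective f)
    (h : Kills I X) : v X' ≤ v X := by
  rw [hv X' X (X ⧸ LinearMap.range f) f (LinearMap.range f).mkQ hf f.exact_map_mkQ_range
    (Submodule.mkQ_surjective _) h]
  exact le_self_add

theorem LenAdd.le_of_surjective (hv : LenAdd I v) (g : X →ₗ[R] X'') (hg : Function.Surjective g)
    (h : Kills I X) : v X'' ≤ v X := by
  rw [hv (LinearMap.ker g) X X'' (LinearMap.ker g).subtype g (Submodule.injective_subtype _)
    g.exact_subtype_ker_map hg h]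
  exact le_add_self

end lenAdd

/-- a length function, additive on modules killed by `I`. -/
structure LenFn (R : Type u) [CommRing R] (I : Ideal R) where
  val : ∀ (X : Type u) [AddCommGroup X] [Module R X], ℝ≥0∞
  add : ∀ (X' X X'' : Type u) [AddCommGroup X'] [Module R X'] [AddCommGroup X] [Module R X]
    [AddCommGroup X''] [Module R X''] (f : X' →ₗ[R] X) (g : X →ₗ[R] X''), Function.Injective f →
    Function.Exact f g → Function.Surjective g → Kills I X → val X = val X' + val X''
  zero : ∀ (X : Type u) [AddCommGroup X] [Module R X], Subsingleton X → val X = 0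
  cont : ∀ (X : Type u) [AddCommGroup X] [Module R X], Kills I X →
    (∀ x : X, val (Submodule.span R {x}) = 0) → val X = 0

namespace LenFn

variable {R : Type u} [CommRing R] {I : Ideal R} (l : LenFn R I) {X' X X'' : Type u}
  [AddCommGroup X'] [Module R X'] [AddCommGroup X] [Module R X] [AddCommGroup X''] [Module R X'']

theorem lenAdd : LenAdd I l.val := l.add

theorem congr (e : X' ≃ₗ[R] X) (h : Kills I X) : l.val X' = l.val X :=
  le_antisymm (l.lenAdd.le_of_injective e.toLinearMap e.injective h)
    (l.lenAdd.le_of_surjective e.toLinearMap e.surjective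
      (h.of_injective e.toLinearMap e.injective))

theorem le_of_injective (f : X' →ₗ[R] X) (hf : Function.Injective f) (h : Kills I X) :
    l.val X' ≤ l.val X := l.lenAdd.le_of_injective f hf h

theorem le_of_surjective (g : X →ₗ[R] X'') (hg : Function.Surjective g) (h : Kills I X) :
    l.val X'' ≤ l.val X := l.lenAdd.le_of_surjective g hg h

theorem eq_ker_add_range (f : X' →ₗ[R] X) (h : Kills I X') :
    l.val X' = l.val (LinearMap.ker f) + l.val (LinearMap.range f) := by
  refine l.add _ _ _ (LinearMap.ker f).subtype f.rangeRestrict (Submodule.injective_subtype _) ?_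
    f.surjective_rangeRestrict h
  rw [LinearMap.exact_iff, LinearMap.ker_rangeRestrict, Submodule.range_subtype]

theorem le_add (f : X' →ₗ[R] X) (g : X →ₗ[R] X'') (hfg : Function.Exact f g) (h' : Kills I X')
    (h : Kills I X) (h'' : Kills I X'') : l.val X ≤ l.val X' + l.val X'' := by
  rw [l.eq_ker_add_range g h, LinearMap.exact_iff.1 hfg]
  exact add_le_add (l.le_of_surjective f.rangeRestrict f.surjective_rangeRestrict h')
    (l.le_of_injective _ (Submodule.injective_subtype _) h'')

/-- a smaller class of modules. -/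
def mono {I' : Ideal R} (h : I ≤ I') : LenFn R I' where
  val := l.val
  add X' X X'' _ _ _ _ _ _ f g h1 h2 h3 h4 := l.add X' X X'' f g h1 h2 h3 fun a ha => h4 a (h ha)
  zero := l.zero
  cont X _ _ h1 h2 := l.cont X (fun a ha => h1 a (h ha)) h2

/-- restriction of scalars along an algebra. -/
theorem exists_comap (R' : Type u) [CommRing R'] [Algebra R R'] :
    ∃ l' : LenFn R' (I.map (algebraMap R R')), ∀ (X : Type u) [AddCommGroup X] [Module R' X]
      [Module R X] [IsScalarTower R R' X], l'.val X = l.val X := by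
  let v : ∀ (X : Type u) [AddCommGroup X] [Module R' X], ℝ≥0∞ := fun X _ _ =>
    @LenFn.val R _ I l X _ (Module.compHom X (algebraMap R R'))
  have hv : ∀ (X : Type u) [AddCommGroup X] [Module R' X] [Module R X] [IsScalarTower R R' X],
      v X = l.val X := by
    intro X _ _ inst _
    have : Module.compHom X (algebraMap R R') = inst :=
      Module.ext' _ _ fun r x => algebraMap_smul R' r x
    exact congrArg (@LenFn.val R _ I l X _) this
  have hk : ∀ (X : Type u) [AddCommGroup X] [Module R' X] [Module R X] [IsScalarTower R R' X],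
      Kills (I.map (algebraMap R R')) X → Kills I X := by
    intro X _ _ _ _ h a ha x
    rw [← algebraMap_smul R']
    exact h _ (Ideal.mem_map_of_mem _ ha) x
  refine ⟨⟨v, ?_, fun X _ _ h => @LenFn.zero R _ I l X _ (Module.compHom X _) h, ?_⟩, hv⟩
  · intro X' X X'' _ _ _ _ _ _ f g h1 h2 h3 h4
    let : Module R X' := Module.compHom X' (algebraMap R R')
    let : Module R X := Module.compHom X (algebraMap R R')
    let : Module R X'' := Module.compHom X'' (algebraMap R R')
    have : IsScalarTower R R' X' := IsScalarTower.of_compHom R R' X'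
    have : IsScalarTower R R' X := IsScalarTower.of_compHom R R' X
    have : IsScalarTower R R' X'' := IsScalarTower.of_compHom R R' X''
    exact l.add X' X X'' (f.restrictScalars R) (g.restrictScalars R) h1 h2 h3 (hk X h4)
  · intro X _ _ h1 h2
    let : Module R X := Module.compHom X (algebraMap R R')
    have : IsScalarTower R R' X := IsScalarTower.of_compHom R R' X
    refine l.cont X (hk X h1) fun x => le_antisymm ?_ zero_le
    rw [← h2 x, hv]
    have hle : Submodule.span R {x} ≤ (Submodule.span R' {x}).restrictScalars R :=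
      Submodule.span_le_restrictScalars R R' _
    refine l.le_of_injective (X := Submodule.span R' {x}) (Submodule.inclusion hle)
      (Submodule.inclusion_injective hle) (hk _ (h1.submodule _))

/-- passing from a quotient ring to the ring. -/
theorem exists_quot {A : Type u} [CommRing A] (J : Ideal A) {I' : Ideal (A ⧸ J)}
    (m : LenFn (A ⧸ J) I') :
    ∃ l' : LenFn A (I'.comap (Ideal.Quotient.mk J)), ∀ (X : Type u) [AddCommGroup X] [Module A X]
      [Module (A ⧸ J) X] [IsScalarTower A (A ⧸ J) X], l'.val X = m.val X := by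
  classical
  have htor : ∀ (X : Type u) [AddCommGroup X] [Module A X], Kills J X →
      Module.IsTorsionBySet A X J := fun X _ _ h x a => h a.1 a.2 x
  let v : ∀ (X : Type u) [AddCommGroup X] [Module A X], ℝ≥0∞ := fun X _ _ =>
    if h : Kills J X then @LenFn.val _ _ I' m X _ (htor X h).module else 0
  have hv : ∀ (X : Type u) [AddCommGroup X] [Module A X] [Module (A ⧸ J) X]
      [IsScalarTower A (A ⧸ J) X], v X = m.val X := by
    intro X _ _ inst _
    have h : Kills J X := by
      intro a ha x
      rw [← algebraMap_smul (A ⧸ J), Ideal.Quotient.algebraMap_eq,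
        Ideal.Quotient.eq_zero_iff_mem.2 ha, zero_smul]
    have : (htor X h).module = inst := by
      refine Module.ext' _ _ fun r x => ?_
      obtain ⟨r, rfl⟩ := Ideal.Quotient.mk_surjective r
      exact (algebraMap_smul (A ⧸ J) r x).symm
    exact (dif_pos h).trans (congrArg (@LenFn.val _ _ I' m X _) this)
  have hJ : J ≤ I'.comap (Ideal.Quotient.mk J) := by
    intro a ha
    rw [Ideal.mem_comap, Ideal.Quotient.eq_zero_iff_mem.2 ha]
    exact zero_mem _
  have hk : ∀ (X : Type u) [AddCommGroup X] [Module A X] [Module (A ⧸ J) X]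
      [IsScalarTower A (A ⧸ J) X], Kills (I'.comap (Ideal.Quotient.mk J)) X → Kills I' X := by
    intro X _ _ _ _ h a ha x
    obtain ⟨a, rfl⟩ := Ideal.Quotient.mk_surjective a
    exact (algebraMap_smul (A ⧸ J) a x).trans (h a ha x)
  have hs : Function.Surjective (algebraMap A (A ⧸ J)) := Ideal.Quotient.mk_surjective
  refine ⟨⟨v, ?_, ?_, ?_⟩, hv⟩
  · intro X' X X'' _ _ _ _ _ _ f g h1 h2 h3 h4
    have t := htor X (h4.anti hJ)
    have t' := htor X' ((h4.anti hJ).of_injective f h1)
    have t'' := htor X'' ((h4.anti hJ).of_surjective g h3)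
    let := t.module
    let := t'.module
    let := t''.module
    have : IsScalarTower A (A ⧸ J) X := t.isScalarTower
    have : IsScalarTower A (A ⧸ J) X' := t'.isScalarTower
    have : IsScalarTower A (A ⧸ J) X'' := t''.isScalarTower
    rw [hv, hv, hv]
    exact m.add X' X X'' (f.extendScalarsOfSurjective hs) (g.extendScalarsOfSurjective hs) h1 h2 h3
      (hk X h4)
  · intro X _ _ h
    simp only [v]
    split_ifs with h1
    · exact @LenFn.zero _ _ I' m X _ (htor X h1).module h
    · rfl
  · intro X _ _ h1 h2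
    have t := htor X (h1.anti hJ)
    let := t.module
    have : IsScalarTower A (A ⧸ J) X := t.isScalarTower
    rw [hv]
    refine m.cont X (hk X h1) fun x => le_antisymm ?_ zero_le
    have t' := htor (Submodule.span A {x}) ((h1.anti hJ).submodule _)
    let := t'.module
    have : IsScalarTower A (A ⧸ J) (Submodule.span A {x}) := t'.isScalarTower
    rw [← h2 x, hv]
    have hle : Submodule.span A {x} ≤ (Submodule.span (A ⧸ J) {x}).restrictScalars A :=
      Submodule.span_le_restrictScalars A (A ⧸ J) _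
    let j : Submodule.span A {x} →ₗ[A] Submodule.span (A ⧸ J) {x} := Submodule.inclusion hle
    refine m.le_of_surjective (j.extendScalarsOfSurjective hs) ?_ (hk _ (h1.submodule _))
    rintro ⟨y, hy⟩
    obtain ⟨a, rfl⟩ := Submodule.mem_span_singleton.1 hy
    obtain ⟨a, rfl⟩ := hs a
    exact ⟨⟨a • x, Submodule.mem_span_singleton.2 ⟨a, rfl⟩⟩,
      Subtype.ext (algebraMap_smul (A ⧸ J) a x).symm⟩

/-- transport along two surjections `E → A / J ← A`. -/
theorem exists_transport {A : Type u} [CommRing A] (J : Ideal A) (φ : R →+* A ⧸ J)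
    (hφ : Function.Surjective φ) :
    ∃ l' : LenFn A ((I.map φ).comap (Ideal.Quotient.mk J)),
      ∀ J' : Ideal A, (I.map φ).comap (Ideal.Quotient.mk J) ≤ J' →
        l'.val (A ⧸ J') = l.val (R ⧸ (J'.map (Ideal.Quotient.mk J)).comap φ) := by
  let : Algebra R (A ⧸ J) := φ.toAlgebra
  obtain ⟨m, hm⟩ := l.exists_comap (A ⧸ J)
  obtain ⟨l', hl'⟩ := exists_quot J m
  refine ⟨l', fun J' hJ' => ?_⟩
  have hJ : J ≤ J' := fun a ha => hJ' (by
    rw [Ideal.mem_comap, Ideal.Quotient.eq_zero_iff_mem.2 ha]
    exact zero_mem _)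
  set K := J'.map (Ideal.Quotient.mk J) with hK
  have hI : I ≤ K.comap φ := by
    intro a ha
    obtain ⟨b, hb⟩ := Ideal.Quotient.mk_surjective (φ a)
    rw [Ideal.mem_comap, ← hb]
    refine Ideal.mem_map_of_mem _ (hJ' ?_)
    rw [Ideal.mem_comap, hb]
    exact Ideal.mem_map_of_mem _ ha
  have e1 : ((A ⧸ J) ⧸ K) ≃ₗ[A] (A ⧸ J') := (DoubleQuot.quotQuotEquivQuotOfLEₐ A hJ).toLinearEquiv
  have hsurj : Function.Surjective (Algebra.linearMap R ((A ⧸ J) ⧸ K)) :=
    Ideal.Quotient.mk_surjective.comp hφ
  have hker : LinearMap.ker (Algebra.linearMap R ((A ⧸ J) ⧸ K)) = K.comap φ := by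
    ext a
    exact Ideal.Quotient.eq_zero_iff_mem
  have e2 : ((A ⧸ J) ⧸ K) ≃ₗ[R] (R ⧸ K.comap φ) :=
    (LinearMap.quotKerEquivOfSurjective _ hsurj).symm.trans (Submodule.quotEquivOfEq _ _ hker)
  rw [← l'.congr e1 (kills_quot hJ'), hl', hm, l.congr e2 (kills_quot hI)]

end LenFn

/-- the multiples of an element. -/
abbrev lenMul {R : Type u} [CommRing R] (π : R) (X : Type u) [AddCommGroup X] [Module R X] :
    Submodule R X := LinearMap.range (LinearMap.lsmul R X π)

theorem mem_lenMul {R : Type u} [CommRing R] {π : R} {X : Type u} [AddCommGroup X] [Module R X]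
    {y : X} : y ∈ lenMul π X ↔ ∃ x : X, π • x = y := Iff.rfl

theorem kills_lenMul {R : Type u} [CommRing R] {I : Ideal R} {π : R} {ν : ℕ} {X : Type u}
    [AddCommGroup X] [Module R X] (h : Kills (I ⊔ Ideal.span {π ^ (ν + 1)}) X) :
    Kills (I ⊔ Ideal.span {π ^ ν}) (lenMul π X) := by
  rw [kills_sup_span] at h ⊢
  refine ⟨h.1.submodule _, ?_⟩
  rintro ⟨_, x, rfl⟩
  ext
  simpa [smul_smul, pow_succ] using h.2 x

theorem kills_quot_lenMul {R : Type u} [CommRing R] {I : Ideal R} {π : R} {ν : ℕ} {X : Type u}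
    [AddCommGroup X] [Module R X] (h : Kills I X) :
    Kills (I ⊔ Ideal.span {π ^ (ν + 1)}) (X ⧸ lenMul π X) := by
  rw [kills_sup_span]
  refine ⟨h.quotient _, fun x => ?_⟩
  obtain ⟨x, rfl⟩ := Submodule.Quotient.mk_surjective _ x
  rw [← Submodule.Quotient.mk_smul, Submodule.Quotient.mk_eq_zero]
  exact ⟨π ^ ν • x, by simp [smul_smul, pow_succ', mul_comm]⟩

theorem LenFn.lenAdd_step {R : Type u} [CommRing R] {I : Ideal R} {π : R} {ν : ℕ}
    (m : LenFn R (I ⊔ Ideal.span {π ^ (ν + 1)})) :
    LenAdd (I ⊔ Ideal.span {π ^ (ν + 1 + 1)})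
      fun X _ _ => m.val (X ⧸ lenMul π X) + m.val (lenMul π X) := by
  intro X' X X'' _ _ _ _ _ _ f g hf hfg hg hX
  have hI : Kills I X := hX.anti le_sup_left
  let K : Submodule R X' := (lenMul π X).comap f
  have hPK : lenMul π X' ≤ K := by
    rintro _ ⟨x, rfl⟩
    exact ⟨f x, by simp⟩
  have hg' : ∀ x ∈ lenMul π X, g x ∈ lenMul π X'' := by
    rintro _ ⟨x, rfl⟩
    exact ⟨g x, by simp⟩
  let a : K →ₗ[R] lenMul π X := f.restrict fun x hx => hx
  have ha : Function.Injective a := fun x y e => Subtype.ext (hf (congrArg Subtype.val e))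
  have h1 : m.val (lenMul π X) = m.val K + m.val (lenMul π X'') := by
    refine m.add _ _ _ a (g.restrict hg') ha ?_ ?_ (kills_lenMul hX)
    · rintro ⟨x, hx⟩
      constructor
      · intro h
        obtain ⟨y, rfl⟩ := (hfg x).1 (congrArg Subtype.val h)
        exact ⟨⟨y, hx⟩, rfl⟩
      · rintro ⟨y, hy⟩
        exact Subtype.ext ((hfg x).2 ⟨y, congrArg Subtype.val hy⟩)
    · rintro ⟨_, y, rfl⟩
      obtain ⟨x, rfl⟩ := hg y
      exact ⟨⟨π • x, x, rfl⟩, Subtype.ext (by simp)⟩
  let Q : Submodule R K := (lenMul π X').comap K.subtype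
  have h2 : m.val K = m.val (lenMul π X') + m.val (K ⧸ Q) := by
    refine m.add _ _ _ (Submodule.inclusion hPK) Q.mkQ (Submodule.inclusion_injective hPK) ?_
      Q.mkQ_surjective ((kills_lenMul hX).of_injective a ha)
    rw [LinearMap.exact_iff, Submodule.ker_mkQ, Submodule.range_inclusion]
  have h3 : m.val (X ⧸ lenMul π X) = m.val (X' ⧸ K) + m.val (X'' ⧸ lenMul π X'') := by
    refine m.add _ _ _ (K.mapQ (lenMul π X) f le_rfl) ((lenMul π X).mapQ (lenMul π X'') g hg')
      ?_ ?_ ?_ (kills_quot_lenMul hI)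
    · rw [← LinearMap.ker_eq_bot, Submodule.ker_mapQ, Submodule.mkQ_map_self]
    · intro x
      obtain ⟨x, rfl⟩ := Submodule.Quotient.mk_surjective _ x
      rw [Submodule.mapQ_apply, Submodule.Quotient.mk_eq_zero]
      constructor
      · rintro ⟨y, hy⟩
        obtain ⟨z, rfl⟩ := hg y
        obtain ⟨w, hw⟩ := (hfg (x - π • z)).1 (by simpa [sub_eq_zero] using hy.symm)
        refine ⟨Submodule.Quotient.mk w, ?_⟩
        rw [Submodule.mapQ_apply, Submodule.Quotient.eq, hw]
        exact ⟨-z, by simp⟩
      · rintro ⟨w, hw⟩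
        obtain ⟨w, rfl⟩ := Submodule.Quotient.mk_surjective _ w
        rw [Submodule.mapQ_apply, Submodule.Quotient.eq] at hw
        have := hg' _ hw
        rw [map_sub, hfg.apply_apply_eq_zero, zero_sub] at this
        exact (neg_mem_iff).1 this
    · intro y
      obtain ⟨y, rfl⟩ := Submodule.Quotient.mk_surjective _ y
      obtain ⟨x, rfl⟩ := hg y
      exact ⟨Submodule.Quotient.mk x, rfl⟩
  have h4 : m.val (X' ⧸ lenMul π X') = m.val (K ⧸ Q) + m.val (X' ⧸ K) := by
    refine m.add _ _ _ (Q.mapQ (lenMul π X') K.subtype le_rfl)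
      ((lenMul π X').mapQ K LinearMap.id hPK) ?_ ?_ ?_ (kills_quot_lenMul (hI.of_injective f hf))
    · rw [← LinearMap.ker_eq_bot, Submodule.ker_mapQ, Submodule.mkQ_map_self]
    · intro x
      obtain ⟨x, rfl⟩ := Submodule.Quotient.mk_surjective _ x
      rw [Submodule.mapQ_apply, Submodule.Quotient.mk_eq_zero]
      constructor
      · intro hx
        exact ⟨Submodule.Quotient.mk ⟨x, hx⟩, rfl⟩
      · rintro ⟨w, hw⟩
        obtain ⟨w, rfl⟩ := Submodule.Quotient.mk_surjective _ w
        rw [Submodule.mapQ_apply, Submodule.Quotient.eq] at hw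
        have := K.sub_mem w.2 (hPK hw)
        simpa using this
    · intro y
      obtain ⟨y, rfl⟩ := Submodule.Quotient.mk_surjective _ y
      exact ⟨Submodule.Quotient.mk y, rfl⟩
  simp only
  rw [h1, h2, h3, h4]
  ring

theorem LenFn.exists_step {R : Type u} [CommRing R] {I : Ideal R} {π : R} {ν : ℕ}
    (m : LenFn R (I ⊔ Ideal.span {π ^ (ν + 1)})) :
    ∃ l' : LenFn R (I ⊔ Ideal.span {π ^ (ν + 1 + 1)}), ∀ (X : Type u) [AddCommGroup X]
      [Module R X], Kills (I ⊔ Ideal.span {π ^ (ν + 1)}) X → l'.val X = m.val X := by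
  have hv : ∀ (X : Type u) [AddCommGroup X] [Module R X],
      Kills (I ⊔ Ideal.span {π ^ (ν + 1)}) X →
      m.val (X ⧸ lenMul π X) + m.val (lenMul π X) = m.val X := by
    intro X _ _ h
    rw [m.add _ X _ (lenMul π X).subtype (lenMul π X).mkQ (Submodule.injective_subtype _)
      (LinearMap.exact_subtype_mkQ _) (Submodule.mkQ_surjective _) h, add_comm]
  refine ⟨⟨fun X _ _ => m.val (X ⧸ lenMul π X) + m.val (lenMul π X), m.lenAdd_step,
    fun X _ _ h => ?_, fun X _ _ h1 h2 => ?_⟩, hv⟩
  · rw [m.zero _ inferInstance, m.zero _ inferInstance, add_zero]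
  · have k1 : Kills (I ⊔ Ideal.span {π ^ (ν + 1)}) (X ⧸ lenMul π X) :=
      kills_quot_lenMul (h1.anti le_sup_left)
    have k2 := kills_lenMul h1
    rw [m.cont _ k1, m.cont _ k2, add_zero]
    · intro y
      refine le_antisymm ?_ zero_le
      rw [← hv _ (k2.submodule _), ← h2 y]
      let j : Submodule.span R {y} →ₗ[R] Submodule.span R {(y : X)} :=
        (lenMul π X).subtype.restrict fun z hz => by
          obtain ⟨a, rfl⟩ := Submodule.mem_span_singleton.1 hz
          exact Submodule.mem_span_singleton.2 ⟨a, rfl⟩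
      exact m.lenAdd_step.le_of_injective j
        (fun a b e => Subtype.ext (Subtype.ext
          (congrArg (fun z : Submodule.span R {(y : X)} => (z : X)) e))) (h1.submodule _)
    · intro y
      obtain ⟨x, rfl⟩ := Submodule.Quotient.mk_surjective _ y
      refine le_antisymm ?_ zero_le
      rw [← hv _ (k1.submodule _), ← h2 x]
      let j : Submodule.span R {x} →ₗ[R]
          Submodule.span R {(Submodule.Quotient.mk x : X ⧸ lenMul π X)} :=
        (lenMul π X).mkQ.restrict fun z hz => by
          obtain ⟨a, rfl⟩ := Submodule.mem_span_singleton.1 hz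
          exact Submodule.mem_span_singleton.2 ⟨a, rfl⟩
      refine m.lenAdd_step.le_of_surjective j ?_ (h1.submodule _)
      rintro ⟨z, hz⟩
      obtain ⟨a, rfl⟩ := Submodule.mem_span_singleton.1 hz
      exact ⟨⟨a • x, Submodule.mem_span_singleton.2 ⟨a, rfl⟩⟩, rfl⟩

/-- extension of a length function along the filtration by powers of an element. -/
theorem LenFn.exists_devissage {R : Type u} [CommRing R] (I : Ideal R) (π : R)
    (l : LenFn R (I ⊔ Ideal.span {π})) (ν : ℕ) :
    ∃ l' : LenFn R (I ⊔ Ideal.span {π ^ (ν + 1)}), ∀ (X : Type u) [AddCommGroup X] [Module R X],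
      Kills (I ⊔ Ideal.span {π}) X → l'.val X = l.val X := by
  induction ν with
  | zero => exact ⟨l.mono (by simp), fun X _ _ _ => rfl⟩
  | succ ν ih =>
    obtain ⟨m, hm⟩ := ih
    obtain ⟨l', hl'⟩ := m.exists_step
    refine ⟨l', fun X _ _ h => (hl' X (h.anti (sup_le_sup_left ?_ _))).trans (hm X h)⟩
    exact Ideal.span_singleton_le_span_singleton.2 (dvd_pow_self π (by omega))

/-- a module all of whose cyclic layers are negligible is negligible. -/
theorem LenFn.eq_zero_of_layer {R : Type u} [CommRing R] {I : Ideal R} (l : LenFn R I)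
    (J : Ideal R) (hJ : I ≤ J) (π : R) (ν : ℕ) (hπ : π ^ ν ∈ J)
    (h0 : l.val (R ⧸ (J ⊔ Ideal.span {π})) = 0) (X : Type u) [AddCommGroup X] [Module R X]
    (hX : Kills J X) : l.val X = 0 := by
  have key : ∀ i : ℕ, l.val (R ⧸ (J ⊔ Ideal.span {π ^ i})) = 0 := by
    intro i
    induction i with
    | zero => exact l.zero _ (Ideal.Quotient.subsingleton_iff.2 (by simp))
    | succ i ih =>
      have h1 : J ⊔ Ideal.span {π} ≤
          Submodule.comap (LinearMap.lsmul R R (π ^ i)) (J ⊔ Ideal.span {π ^ (i + 1)}) := by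
        refine sup_le (fun a ha => Ideal.mem_sup_left (J.mul_mem_left _ ha)) ?_
        rw [Ideal.span_le, Set.singleton_subset_iff]
        exact Ideal.mem_sup_right (Ideal.mem_span_singleton.2 (by simp [pow_succ]))
      have h2 : J ⊔ Ideal.span {π ^ (i + 1)} ≤ J ⊔ Ideal.span {π ^ i} :=
        sup_le_sup_left (Ideal.span_singleton_le_span_singleton.2 (pow_dvd_pow π (by omega))) _
      have := l.le_add (Submodule.mapQ _ _ (LinearMap.lsmul R R (π ^ i)) h1)
        (Submodule.mapQ _ (J ⊔ Ideal.span {π ^ i}) LinearMap.id h2) ?_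
        (kills_quot (hJ.trans le_sup_left)) (kills_quot (hJ.trans le_sup_left))
        (kills_quot (hJ.trans le_sup_left))
      · rw [h0, ih, add_zero] at this
        exact le_antisymm this zero_le
      · intro x
        obtain ⟨x, rfl⟩ := Submodule.Quotient.mk_surjective _ x
        rw [Submodule.mapQ_apply, Submodule.Quotient.mk_eq_zero]
        constructor
        · intro hx
          obtain ⟨b, hb, c, hc, e⟩ := Submodule.mem_sup.1 hx
          obtain ⟨d, rfl⟩ := Ideal.mem_span_singleton'.1 hc
          refine ⟨Submodule.Quotient.mk d, ?_⟩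
          rw [Submodule.mapQ_apply, Submodule.Quotient.eq]
          have e' : (LinearMap.lsmul R R (π ^ i)) d - x = -b := by
            simp only [LinearMap.id_coe, id_eq] at e
            rw [← e]
            simp [mul_comm]
          rw [e']
          exact Ideal.mem_sup_left (J.neg_mem hb)
        · rintro ⟨w, hw⟩
          obtain ⟨w, rfl⟩ := Submodule.Quotient.mk_surjective _ w
          rw [Submodule.mapQ_apply, Submodule.Quotient.eq] at hw
          have h3 : (LinearMap.lsmul R R (π ^ i)) w ∈ J ⊔ Ideal.span {π ^ i} :=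
            Ideal.mem_sup_right (Ideal.mem_span_singleton.2 (by simp))
          simpa using Submodule.sub_mem _ h3 (h2 hw)
  have h1 : l.val (R ⧸ J) = 0 := by
    have := key ν
    rwa [sup_eq_left.2 ((Ideal.span_singleton_le_iff_mem J).2 hπ)] at this
  refine l.cont X (hX.anti hJ) fun x => le_antisymm ?_ zero_le
  rw [← h1]
  let j : R →ₗ[R] Submodule.span R {x} :=
    (LinearMap.toSpanSingleton R X x).codRestrict _ fun a =>
      Submodule.mem_span_singleton.2 ⟨a, rfl⟩
  refine l.le_of_surjective (J.liftQ j fun a ha => Subtype.ext (hX a ha x)) ?_ (kills_quot hJ)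
  rintro ⟨y, hy⟩
  obtain ⟨a, rfl⟩ := Submodule.mem_span_singleton.1 hy
  exact ⟨Submodule.Quotient.mk a, rfl⟩

end Vale.Agent.P202
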