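import Vale.Agent.P202.MxFlat
import Vale.Agent.P202.MxLen
import Vale.Agent.P202.MxPS

/-! The interface between the perfectoid constructions and commutative algebra. -/

namespace Vale.Agent.P202

open Polynomial TensorProduct
open scoped ENNReal

universe u

/-- A ring `A` with a normalised length and a cover `B` that splits `P` and has roots of `G`. -/
structure PerfCover (p : ℕ) (V : Type u) [CommRing V] (n : ℕ) (P : (PS V n)[X]) (G : PS V n) where
  A : Type u
  B : Type u
  [crA : CommRing A]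
  [crB : CommRing B]
  [alA : Algebra (PS V n) A]
  [alAB : Algebra A B]
  [alB : Algebra (PS V n) B]
  [tower : IsScalarTower (PS V n) A B]
  regB : ∀ x : B, (p : B) * x = 0 → x = 0
  complete : IsAdicComplete (Ideal.span {(p : B)}) B
  flatA : ∀ ν : ℕ, QFlat (algebraMap (PS V n) A) (Ideal.span {(p : PS V n) ^ ν})
  flatB : ∀ ν : ℕ, QFlat (algebraMap A B) (Ideal.span {(p : A) ^ ν})
  θ : Fin P.natDegree → B
  split : P.map (algebraMap (PS V n) B) = ∏ i, (X - C (θ i))
  g : ℕ → B
  g_zero : g 0 = algebraMap (PS V n) B G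
  g_succ : ∀ m, g (m + 1) ^ p = g m
  hb : ∀ x : B, (∀ k : ℕ, g 0 ^ k ∣ g 0 * x ^ k) → ∀ m ν : ℕ,
    g m * x ∈ Ideal.span {g 0, (p : B) ^ ν}
  hbD : ∀ x : B ⊗[A] B, x * x = (g 0 ⊗ₜ[A] (1 : B)) * x → ∀ m ν : ℕ,
    (g m ⊗ₜ[A] (1 : B)) * x ∈ Ideal.span {g 0 ⊗ₜ[A] (1 : B), (p : B ⊗[A] B) ^ ν}
  sr : ∀ m ν : ℕ, g m ⊗ₜ[A] (1 : B) ∈ Ideal.span {(1 : B) ⊗ₜ[A] g (m + 2), (p : B ⊗[A] B) ^ ν}
  len : ∀ ν : ℕ, LenFn A ((Ideal.span (Set.range (pX p V n)) ^ ν).map (algebraMap (PS V n) A))
  len_one : ∀ ν : ℕ, (len (ν + 1)).val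
    (A ⧸ (Ideal.span (Set.range (pX p V n))).map (algebraMap (PS V n) A)) = 1
  len_negl : ∀ (ν : ℕ) (J : Ideal A), (p : A) ∈ J →
    (Ideal.span (Set.range (pX p V n)) ^ ν).map (algebraMap (PS V n) A) ≤ J →
    (∀ m, g m ∈ J.map (algebraMap A B)) → (len ν).val (A ⧸ J) = 0

attribute [instance] PerfCover.crA PerfCover.crB PerfCover.alA PerfCover.alAB PerfCover.alB
  PerfCover.tower

/-- generically etale monogenic data for a finite algebra. -/
structure EtData (A T : Type*) [CommRing A] [CommRing T] [Algebra A T] where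
  P : A[X]
  monic : P.Monic
  θ : T
  G : A
  a : A[X]
  b : A[X]
  bezout : a * P + b * derivative P = C G
  root : aeval θ P = 0
  indep : ∀ f : A[X], aeval θ f = 0 → P ∣ f
  span : ∀ τ : T, ∃ f : A[X], aeval θ f = G • τ

/-- a function on modules that is additive along maps that stay injective on `H`, and that is
close to the length. -/
structure LenData (V T H : Type u) [CommRing V] [CommRing T] [Algebra V T] [AddCommGroup H]
    [Module T H] (I : Ideal T) (G : T) where
  Λ : ∀ (X : Type u) [AddCommGroup X] [Module T X], ℝ≥0∞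
  le_add : ∀ (X' X X'' : Type u) [AddCommGroup X'] [Module T X'] [AddCommGroup X] [Module T X]
    [AddCommGroup X''] [Module T X''] (f : X' →ₗ[T] X) (g : X →ₗ[T] X''), Function.Exact f g →
    Function.Surjective g → Kills I X' → Kills I X → Λ X ≤ Λ X' + Λ X''
  mono : ∀ (X X'' : Type u) [AddCommGroup X] [Module T X] [AddCommGroup X''] [Module T X'']
    (g : X →ₗ[T] X''), Function.Surjective g → Kills I X → Λ X'' ≤ Λ X
  add : ∀ (X' X X'' : Type u) [AddCommGroup X'] [Module T X'] [AddCommGroup X] [Module T X]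
    [AddCommGroup X''] [Module T X''] (f : X' →ₗ[T] X) (g : X →ₗ[T] X''), Function.Exact f g →
    Function.Surjective g → Function.Injective (f.lTensor H) → Kills I X' → Kills I X →
    Λ X' + Λ X'' ≤ Λ X
  zero : ∀ (X : Type u) [AddCommGroup X] [Module T X], Subsingleton X → Λ X = 0
  upper : ∀ (X : Type u) [AddCommGroup X] [Module T X] [Module V X] [IsScalarTower V T X],
    Kills I X → Λ X ≤ Module.length V X + Λ (X ⧸ Ideal.span {G} • (⊤ : Submodule T X))
  upper' : ∀ (X' X : Type u) [AddCommGroup X'] [Module T X'] [AddCommGroup X] [Module T X]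
    [Module V X] [IsScalarTower V T X] (f : X' →ₗ[T] X), Function.Injective (f.lTensor H) →
    LinearMap.range f ≤ Ideal.span {G} • (⊤ : Submodule T X) → Kills I X' → Kills I X →
    Λ X' ≤ Module.length V X
  lower : ∀ (X : Type u) [AddCommGroup X] [Module T X] [Module V X] [IsScalarTower V T X],
    Kills I X → Module.length V X ≠ ⊤ → (Module.length V X : ℝ≥0∞) ≤
      Λ X + Module.length V (X ⧸ Ideal.span {G} • (⊤ : Submodule T X))

end Vale.Agent.P202
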