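import Vale.Agent.P202.MxOmega

/-! The untilt of a tensor square. -/

namespace Vale.Agent.P202

open WittVector TensorProduct

universe u

variable {p : ℕ} [Fact p.Prime] {E E' : Type u} [CommRing E] [CharP E p] [PerfectRing E p]
  [CommRing E'] [CharP E' p] [PerfectRing E' p]

theorem tn_map_rt (f : E →+* E') (m : ℕ) (x : E) : f (rt p m x) = rt p m (f x) :=
  w4_pow_p_pow_inj (p := p) m (by rw [← map_pow, rt_pow, rt_pow])

omit [CharP E p] [PerfectRing E p] [CharP E' p] [PerfectRing E' p] in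
theorem tn_exists_map (f : E →+* E') (t : E) (t' : E') (h : f t = t') :
    ∃ φ : Om p t →+* Om p t', ∀ x, φ (Om.mk p t x) = Om.mk p t' (WittVector.map f x) := by
  subst h
  exact ⟨Om.map p f t, fun _ => rfl⟩

theorem tn_pull {A B : Type*} [CommRing A] [CommRing B] (μ : A →+* B) (q : A)
    (h1 : ∀ y : B, ∃ x : A, y - μ x ∈ Ideal.span {μ q})
    (h2 : ∀ x : A, μ x ∈ Ideal.span {μ q} → x ∈ Ideal.span {q}) (z g : A)
    (h : μ z ∈ Ideal.span {μ g, μ q}) : z ∈ Ideal.span {g, q} := by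
  obtain ⟨a, b, hab⟩ := Ideal.mem_span_pair.1 h
  obtain ⟨a', ha'⟩ := h1 a
  obtain ⟨c, hc⟩ := Ideal.mem_span_singleton'.1 ha'
  obtain ⟨e, he⟩ := Ideal.mem_span_singleton'.1 (h2 (z - a' * g) (Ideal.mem_span_singleton'.2
    ⟨c * μ g + b, by rw [map_sub, map_mul, ← hab]; linear_combination μ g * hc⟩))
  exact Ideal.mem_span_pair.2 ⟨a', e, by rw [he]; ring⟩

theorem tn_exists_lift {A B C : Type*} [CommRing A] [CommRing B] [CommRing C] [Algebra A B]
    (φ₁ φ₂ : B →+* C) (h : ∀ a, φ₁ (algebraMap A B a) = φ₂ (algebraMap A B a)) :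
    ∃ μ : B ⊗[A] B →+* C, ∀ x y, μ (x ⊗ₜ[A] y) = φ₁ x * φ₂ y := by
  let : Algebra A C := (φ₁.comp (algebraMap A B)).toAlgebra
  exact ⟨(Algebra.TensorProduct.productMap (R := A) { φ₁ with commutes' := fun _ => rfl }
    { φ₂ with commutes' := fun a => (h a).symm }).toRingHom, fun _ _ => rfl⟩

omit [CharP E p] [PerfectRing E p] in
/-- the comparison map is bijective modulo `p`. -/
theorem tn_bij [Algebra E E'] {t : E} [CharP (E' ⊗[E] E') p] [PerfectRing (E' ⊗[E] E') p]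
    [Algebra (Om p t) (Om p (algebraMap E E' t))]
    (halg : algebraMap (Om p t) (Om p (algebraMap E E' t)) = Om.map p (algebraMap E E') t)
    (tD : E' ⊗[E] E') (htD : tD = algebraMap E E' t ⊗ₜ[E] 1)
    (μ : Om p (algebraMap E E' t) ⊗[Om p t] Om p (algebraMap E E' t) →+* Om p tD)
    (hμ : ∀ x y, μ (Om.mk p _ x ⊗ₜ Om.mk p _ y) =
      Om.mk p tD (WittVector.map (algebraMap E' (E' ⊗[E] E')) x * WittVector.map
        (Algebra.TensorProduct.includeRight (R := E) (A := E') (B := E')).toRingHom y)) :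
    (∀ y, ∃ x, y - μ x ∈ Ideal.span {(p : Om p tD)}) ∧
      ∀ x, μ x ∈ Ideal.span {(p : Om p tD)} → x ∈ Ideal.span
        {(p : Om p (algebraMap E E' t) ⊗[Om p t] Om p (algebraMap E E' t))} := by
  obtain ⟨φ, -, hφ2, hφ3⟩ := Om.exists_red (p := p) (algebraMap E E' t)
  obtain ⟨ρ, hρ1, hρ2, hρ3⟩ := Om.exists_red (p := p) tD
  have hρ : ∀ x y : WittVector p E', ρ (x.coeff 0 ⊗ₜ[E] y.coeff 0) =
      Ideal.Quotient.mk _ (μ (Om.mk p _ x ⊗ₜ Om.mk p _ y)) := fun x y => by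
    rw [hμ, ← hρ3, ← constantCoeff_apply (_ * _), map_mul]
    congr 1
    simp
  constructor
  · intro y
    obtain ⟨d, hd⟩ := hρ1 (Ideal.Quotient.mk _ y)
    have : ∀ d : E' ⊗[E] E', ∃ x, ρ d = Ideal.Quotient.mk _ (μ x) := fun d => by
      induction d using TensorProduct.induction_on with
      | zero => exact ⟨0, by simp only [map_zero]⟩
      | tmul a b => exact ⟨_, hρ (teichmuller p a) (teichmuller p b)⟩
      | add a b ha hb =>
        obtain ⟨x, hx⟩ := ha
        obtain ⟨y, hy⟩ := hb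
        exact ⟨x + y, by rw [map_add, hx, hy, map_add, map_add]⟩
    obtain ⟨x, hx⟩ := this d
    exact ⟨x, Ideal.Quotient.eq.1 (hd.symm.trans hx)⟩
  · set B := Om p (algebraMap E E' t)
    let I : Ideal (B ⊗[Om p t] B) := Ideal.span {(p : B ⊗[Om p t] B)}
    have hq : ∀ i : B →+* B ⊗[Om p t] B, Ideal.span {(p : B)} ≤ I.comap i := fun i => by
      rw [Ideal.span_singleton_le_iff_mem, Ideal.mem_comap, map_natCast]
      exact Ideal.mem_span_singleton_self _
    let i₁ : B →+* B ⊗[Om p t] B := algebraMap _ _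
    let i₂ : B →+* B ⊗[Om p t] B :=
      (Algebra.TensorProduct.includeRight (R := Om p t) (A := B) (B := B)).toRingHom
    have hj : ∀ (i : B →+* B ⊗[Om p t] B) (x : WittVector p E'),
        ((Ideal.quotientMap I i (hq i)).comp φ) (x.coeff 0) =
          Ideal.Quotient.mk I (i (Om.mk p _ x)) := fun i x => by
      rw [RingHom.comp_apply, hφ3, Ideal.quotientMap_mk]
    obtain ⟨lam, hlam⟩ := tn_exists_lift (A := E) ((Ideal.quotientMap I i₁ (hq i₁)).comp φ)
      ((Ideal.quotientMap I i₂ (hq i₂)).comp φ) fun a => by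
        have e1 : algebraMap E E' a =
            (WittVector.map (algebraMap E E') (teichmuller p a)).coeff 0 := rfl
        rw [e1, hj, hj, ← Om.map_mk, ← halg]
        congr 1
        exact (Algebra.TensorProduct.includeLeft (S := Om p t).commutes _).trans
          (Algebra.TensorProduct.includeRight.commutes _).symm
    have h0 : lam tD = 0 := by
      have : φ (algebraMap E E' t) = 0 := by
        rw [← RingHom.mem_ker, hφ2]
        exact Ideal.mem_span_singleton_self _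
      rw [htD, hlam, RingHom.comp_apply, this, map_zero, zero_mul]
    have : ∀ x : B ⊗[Om p t] B, ∃ d, lam d = Ideal.Quotient.mk I x ∧
        ρ d = Ideal.Quotient.mk _ (μ x) := fun x => by
      induction x using TensorProduct.induction_on with
      | zero => exact ⟨0, by simp only [map_zero], by simp only [map_zero]⟩
      | tmul a b =>
        obtain ⟨x, rfl⟩ := Om.mk_surjective _ a
        obtain ⟨y, rfl⟩ := Om.mk_surjective _ b
        refine ⟨x.coeff 0 ⊗ₜ y.coeff 0, ?_, hρ x y⟩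
        rw [hlam, hj, hj, ← map_mul]
        congr 1
        exact (Algebra.TensorProduct.tmul_mul_tmul _ _ _ _).trans (by rw [mul_one, one_mul]; rfl)
      | add a b ha hb =>
        obtain ⟨x, hx, hx'⟩ := ha
        obtain ⟨y, hy, hy'⟩ := hb
        exact ⟨x + y, by rw [map_add, hx, hy, map_add],
          by rw [map_add, hx', hy', map_add, map_add]⟩
    intro x hx
    obtain ⟨d, hd, hd'⟩ := this x
    rw [Ideal.Quotient.eq_zero_iff_mem.2 hx, ← RingHom.mem_ker, hρ2] at hd'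
    obtain ⟨c, rfl⟩ := Ideal.mem_span_singleton'.1 hd'
    rw [map_mul, h0, mul_zero] at hd
    exact Ideal.Quotient.eq_zero_iff_mem.1 hd.symm

theorem Om.tensor_hb_sr (f : E →+* E') {t : E} (ht : ∀ x, t * x = 0 → x = 0) (hu : ¬ IsUnit t)
    (hf : QFlat f (Ideal.span {t})) [Algebra (Om p t) (Om p (f t))]
    (halg : algebraMap (Om p t) (Om p (f t)) = Om.map p f t) (G : Om p t) (γ : E')
    (hγ : Om.map p f t G = Om.sh p (f t) γ) :
    (∀ x : Om p (f t) ⊗[Om p t] Om p (f t),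
      x * x = (Om.sh p (f t) γ ⊗ₜ[Om p t] (1 : Om p (f t))) * x → ∀ m ν : ℕ,
      (Om.sh p (f t) (rt p m γ) ⊗ₜ[Om p t] (1 : Om p (f t))) * x ∈
        Ideal.span {Om.sh p (f t) γ ⊗ₜ[Om p t] (1 : Om p (f t)),
          (p : Om p (f t) ⊗[Om p t] Om p (f t)) ^ ν}) ∧
    ∀ m ν : ℕ, Om.sh p (f t) (rt p m γ) ⊗ₜ[Om p t] (1 : Om p (f t)) ∈
      Ideal.span {(1 : Om p (f t)) ⊗ₜ[Om p t] Om.sh p (f t) (rt p (m + 2) γ),
        (p : Om p (f t) ⊗[Om p t] Om p (f t)) ^ ν} := by
  let : Algebra E E' := f.toAlgebra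
  let i₁ : E' →+* E' ⊗[E] E' := algebraMap _ _
  let i₂ : E' →+* E' ⊗[E] E' :=
    (Algebra.TensorProduct.includeRight (R := E) (A := E') (B := E')).toRingHom
  have hi : ∀ a, i₂ (f a) = i₁ (f a) := fun a =>
    (Algebra.TensorProduct.includeRight.commutes a).trans
      (Algebra.TensorProduct.includeLeft (S := E).commutes a).symm
  have hD : QFlat (i₁.comp f) (Ideal.span {t}) :=
    hf.comp (QFlat.baseChange_left (A := E) (B := E') (C := E') hf)
  have hne := hD.ne_top (mt Ideal.span_singleton_eq_top.1 hu) le_rfl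
  rw [Ideal.map_span, Set.image_singleton] at hne
  have : Nontrivial (E' ⊗[E] E') := by
    by_contra hc
    rw [not_nontrivial_iff_subsingleton] at hc
    exact hne (Subsingleton.elim _ _)
  have : CharP (E' ⊗[E] E') p := (CharP.charP_iff_prime_eq_zero (Fact.out : p.Prime)).2 (by
    rw [← map_natCast i₁, CharP.cast_eq_zero, map_zero])
  have : PerfectRing (E' ⊗[E] E') p := perfectRing_tensor p
  have htD : ∀ x, i₁ (f t) * x = 0 → x = 0 := QFlat.reg_of_perfect p (f := i₁.comp f) ht hD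
  have huD : ¬ IsUnit (i₁ (f t)) := mt Ideal.span_singleton_eq_top.2 hne
  obtain ⟨φ₁, h₁⟩ := tn_exists_map (p := p) i₁ (f t) _ rfl
  obtain ⟨φ₂, h₂⟩ := tn_exists_map (p := p) i₂ (f t) _ (hi t)
  have h12 : ∀ a, φ₁ (algebraMap (Om p t) (Om p (f t)) a) =
      φ₂ (algebraMap (Om p t) (Om p (f t)) a) := fun a => by
    obtain ⟨x, rfl⟩ := Om.mk_surjective _ a
    rw [halg, Om.map_mk, h₁, h₂]
    congr 1
    ext k
    exact (hi _).symm
  obtain ⟨μ, hμ⟩ := tn_exists_lift φ₁ φ₂ h12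
  obtain ⟨b1, b2⟩ := tn_bij (p := p) (t := t) halg (i₁ (f t)) rfl μ fun x y => by
    rw [map_mul]
    exact (hμ _ _).trans (congrArg₂ _ (h₁ x) (h₂ y))
  have hμp : μ (p : Om p (f t) ⊗[Om p t] Om p (f t)) = p := map_natCast μ p
  have pull : ∀ (ν : ℕ) (z g : Om p (f t) ⊗[Om p t] Om p (f t)),
      μ z ∈ Ideal.span {μ g, (p : Om p (i₁ (f t))) ^ ν} →
      z ∈ Ideal.span {g, (p : Om p (f t) ⊗[Om p t] Om p (f t)) ^ ν} := fun ν z g h => by
    obtain ⟨c1, c2⟩ := bijective_mod_pow μ (p : Om p (f t) ⊗[Om p t] Om p (f t))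
      (by rw [hμp]; exact Om.p_reg htD) (by rw [hμp]; exact b1) (by rw [hμp]; exact b2) ν
    rw [← map_pow] at c1 c2
    exact tn_pull μ _ c1 c2 z g (by rwa [map_pow, hμp])
  have s₁ : ∀ y, μ (Om.sh p (f t) y ⊗ₜ[Om p t] (1 : Om p (f t))) = Om.sh p _ (i₁ y) := fun y => by
    rw [hμ, map_one, mul_one, Om.sh, h₁, map_teichmuller]
    rfl
  have s₂ : ∀ y, μ ((1 : Om p (f t)) ⊗ₜ[Om p t] Om.sh p (f t) y) = Om.sh p _ (i₂ y) := fun y => by
    rw [hμ, map_one, one_mul, Om.sh, h₂, map_teichmuller]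
    rfl
  refine ⟨fun x hx m ν => pull ν _ _ ?_, fun m ν => pull ν _ _ ?_⟩
  · have hx' := congrArg μ hx
    rw [map_mul, map_mul, s₁] at hx'
    rw [map_mul, s₁, s₁, tn_map_rt]
    refine Om.hb htD huD _ _ (fun n => ?_) m ν
    have : ∀ n : ℕ, μ x ^ (n + 1) = Om.sh p _ (i₁ γ) ^ n * μ x := fun n => by
      induction n with
      | zero => simp
      | succ n ih => rw [pow_succ, ih, mul_assoc, hx']; ring
    rcases n with _ | n
    · exact pow_zero (Om.sh p _ (i₁ γ)) ▸ one_dvd _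
    · exact ⟨μ x, by rw [this]; ring⟩
  · rw [s₁, s₂, tn_map_rt, tn_map_rt]
    refine Om.sr _ _ _ ?_ m ν
    rw [← s₁, ← s₂, hμ, hμ, map_one, map_one, mul_one, one_mul, ← hγ, ← halg, h12]

/-- approximate roots in an ideal whose extension contains all roots. -/
theorem exists_approx_root (f : E →+* E') {t : E} (hf : QFlat f (Ideal.span {t})) (γ : E')
    (J : Ideal E) (hJ : ∀ m, rt p m γ ∈ J.map f) (a : ℕ) (η₀ : E)
    (h0 : f η₀ - γ ∈ Ideal.span {f t ^ a}) (e : ℕ) :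
    ∃ η ∈ J, η ^ p ^ e - η₀ ∈ Ideal.span {t ^ a} := by
  have h1 : f (rt p e η₀) - rt p e γ ∈ Ideal.span {f (rt p e (t ^ a))} := by
    obtain ⟨c, hc⟩ := Ideal.mem_span_singleton'.1 h0
    refine Ideal.mem_span_singleton'.2 ⟨rt p e c, ?_⟩
    rw [tn_map_rt, tn_map_rt, ← w4_rt_mul, map_pow, hc, eq_sub_iff_add_eq, ← w4_rt_add,
      sub_add_cancel]
  have h2 : Ideal.span {t ^ a} ≤ J ⊔ Ideal.span {rt p e (t ^ a)} := by
    refine le_sup_of_le_right (Ideal.span_singleton_le_span_singleton.2 ?_)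
    conv_rhs => rw [← rt_pow (p := p) e (t ^ a)]
    exact dvd_pow_self _ (pow_ne_zero _ (Fact.out : p.Prime).ne_zero)
  have h3 : rt p e η₀ ∈ J ⊔ Ideal.span {rt p e (t ^ a)} := by
    rw [← (hf.pow_of_perfect p a).comap_map h2, Ideal.mem_comap, Ideal.map_sup,
      Ideal.map_span f {_}, Set.image_singleton, ← add_sub_cancel (rt p e γ) (f (rt p e η₀))]
    exact Submodule.add_mem_sup (hJ e) h1
  obtain ⟨η, hη, z, hz, h4⟩ := Submodule.mem_sup.1 h3
  obtain ⟨c, rfl⟩ := Ideal.mem_span_singleton'.1 hz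
  refine ⟨η, hη, Ideal.mem_span_singleton'.2 ⟨-c ^ p ^ e, ?_⟩⟩
  have h5 := congrArg (· ^ p ^ e) h4
  simp only [add_pow_char_pow, mul_pow, rt_pow] at h5
  rw [← h5]
  ring

end Vale.Agent.P202
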