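import Vale.Agent.P202.MxBaseLen
import Vale.Agent.P202.MxTensor
import Vale.Agent.P202.MxCoverDef

/-! Existence of the perfectoid cover. -/

namespace Vale.Agent.P202

open Polynomial

universe u

section Aux

variable {p : ℕ} [Fact p.Prime] {E E' : Type u} [CommRing E] [CharP E p] [PerfectRing E p]
  [CommRing E'] [CharP E' p] [PerfectRing E' p]

omit [CharP E p] [PerfectRing E p] in
/-- the tilt of an element is determined to first order. -/
theorem cv_approx (f : E →+* E') {t : E} (ht : ∀ x, f t * x = 0 → x = 0) (γ : E') (a : ℕ)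
    (w : WittVector p E)
    (h : Om.map p f t ((p : Om p t) ^ a * Om.mk p t w) = Om.sh p (f t) γ) :
    f (t ^ a * w.coeff 0) - γ ∈ Ideal.span {f t ^ (a + 1)} := by
  rw [map_mul, map_pow, map_natCast, Om.map_mk] at h
  have h1 : WittVector.teichmuller p γ ∈ JJ p (f t) a := by
    have := (Om.mk_mem_iff (p := p) (f t) ⊥ a (WittVector.teichmuller p γ)).1
      (Ideal.mem_sup_right (Ideal.mem_span_singleton.2 ⟨_, h.symm⟩))
    rwa [bot_sup_eq] at this
  obtain ⟨γ', rfl⟩ := dvd_of_teich_mem_JJ ht a γ h1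
  rw [Om.sh_mul, Om.sh_pow, Om.sh_t] at h
  have h2 : ∀ (a : ℕ) (x : Om p (f t)), (p : Om p (f t)) ^ a * x = 0 → x = 0 := fun a => by
    induction a with
    | zero => intro x hx; rwa [pow_zero, one_mul] at hx
    | succ a ih => intro x hx; exact Om.p_reg ht x (ih _ (by rw [← hx]; ring))
  have h3 : Om.mk p (f t) (WittVector.map f w) = Om.sh p (f t) γ' :=
    sub_eq_zero.1 (h2 a _ (by rw [mul_sub, h, sub_self]))
  obtain ⟨φ, -, hφ2, hφ3⟩ := Om.exists_red (p := p) (f t)
  have h4 : f (w.coeff 0) - γ' ∈ Ideal.span {f t} := by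
    rw [← hφ2, RingHom.mem_ker, map_sub, sub_eq_zero]
    exact (hφ3 (WittVector.map f w)).trans
      ((congrArg _ h3).trans (hφ3 (WittVector.teichmuller p γ')).symm)
  obtain ⟨c, hc⟩ := Ideal.mem_span_singleton'.1 h4
  refine Ideal.mem_span_singleton'.2 ⟨c, ?_⟩
  rw [map_mul, map_pow, ← mul_sub, ← hc]
  ring

omit [CharP E p] [PerfectRing E p] in
/-- membership in an extended ideal, read in the tilt. -/
theorem cv_mem (f : E →+* E') {t : E} (φ : E →+* Om p t ⧸ Ideal.span {(p : Om p t)})
    (hφ' : RingHom.ker φ = Ideal.span {t})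
    (hφ'' : ∀ x : WittVector p E, φ (x.coeff 0) = Ideal.Quotient.mk _ (Om.mk p t x))
    (J : Ideal (Om p t)) (y : E') (hy : Om.sh p (f t) y ∈ J.map (Om.map p f t)) :
    y ∈ ((J.map (Ideal.Quotient.mk _)).comap φ).map f := by
  obtain ⟨ρ, hρ1, hρ2, hρ3⟩ := Om.exists_red (p := p) (f t)
  have h1 : (J.map (Om.map p f t)).map (Ideal.Quotient.mk _) ≤
      (((J.map (Ideal.Quotient.mk _)).comap φ).map f).map ρ := by
    rw [Ideal.map_map, Ideal.map_le_iff_le_comap]
    intro j hj
    obtain ⟨w, rfl⟩ := Om.mk_surjective t j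
    rw [Ideal.mem_comap, RingHom.comp_apply, Om.map_mk, ← hρ3]
    refine Ideal.mem_map_of_mem ρ (Ideal.mem_map_of_mem f (x := w.coeff 0) ?_)
    rw [Ideal.mem_comap, hφ'']
    exact Ideal.mem_map_of_mem _ hj
  have h2 : ρ y ∈ (((J.map (Ideal.Quotient.mk _)).comap φ).map f).map ρ :=
    (hρ3 (WittVector.teichmuller p y)).symm ▸ h1 (Ideal.mem_map_of_mem _ hy)
  refine (mxf_mem_iff hρ1 ?_ y).1 h2
  rw [hρ2, Ideal.span_singleton_le_iff_mem]
  refine Ideal.mem_map_of_mem f ?_
  have h3 : φ t = 0 := by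
    rw [← RingHom.mem_ker, hφ']
    exact Ideal.mem_span_singleton_self _
  rw [Ideal.mem_comap, h3]
  exact zero_mem _

end Aux

theorem exists_perfCover (p : ℕ) [Fact p.Prime] (K : Type u) [Field K] [CharP K p]
    [PerfectRing K p] (n : ℕ) (P : (PS (WittVector p K) n)[X]) (hP : P.Monic)
    (G : PS (WittVector p K) n) (hG : G ≠ 0) :
    Nonempty (PerfCover p (WittVector p K) n P G) := by
  obtain ⟨s, hs, hflat⟩ := exists_base_map p K n
  obtain ⟨φ, hφ, hφ', hφ''⟩ := Om.exists_red (p := p) (t0 p K n)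
  have : Nontrivial (Om p (t0 p K n)) := by
    by_contra hc
    rw [not_nontrivial_iff_subsingleton] at hc
    have := Ideal.Quotient.mk_surjective (I := Ideal.span {(p : Om p (t0 p K n))}).subsingleton
    refine t0_not_isUnit p K n (Ideal.span_singleton_eq_top.1 ?_)
    rw [← hφ', Ideal.eq_top_iff_one]
    exact Subsingleton.elim (φ 1) 0
  let ψ := (Om.mk p (t0 p K n)).comp s
  obtain ⟨E', _, _, _, f, θ, γ, hf, hsplit, hγ⟩ := Om.exists_split (p := p) (t0_reg p K n)
    (t0_not_isUnit p K n) (P.map ψ) (hP.map ψ) (ψ G)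
  have hdeg : (P.map ψ).natDegree = P.natDegree := hP.natDegree_map ψ
  have ht' : ∀ x, f (t0 p K n) * x = 0 → x = 0 := QFlat.reg_of_perfect p (t0_reg p K n) hf
  have hu' : ¬ IsUnit (f (t0 p K n)) := by
    have hne := hf.ne_top (mt Ideal.span_singleton_eq_top.1 (t0_not_isUnit p K n)) le_rfl
    rw [Ideal.map_span, Set.image_singleton] at hne
    exact mt Ideal.span_singleton_eq_top.2 hne
  let : Algebra (PS (WittVector p K) n) (Om p (t0 p K n)) := ψ.toAlgebra
  let : Algebra (Om p (t0 p K n)) (Om p (f (t0 p K n))) := (Om.map p f (t0 p K n)).toAlgebra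
  let : Algebra (PS (WittVector p K) n) (Om p (f (t0 p K n))) :=
    ((Om.map p f (t0 p K n)).comp ψ).toAlgebra
  have : IsScalarTower (PS (WittVector p K) n) (Om p (t0 p K n)) (Om p (f (t0 p K n))) :=
    IsScalarTower.of_algebraMap_eq fun _ => rfl
  obtain ⟨c1, c2⟩ := Om.tensor_hb_sr f (t0_reg p K n) (t0_not_isUnit p K n) hf rfl (ψ G) γ hγ
  choose l l1 l2 using exists_lenFn_Om p K n s hs φ hφ hφ' hφ''
  obtain ⟨a, G', hG1, hG2⟩ := (isPRing_witt p K).exists_eq_pow_mul n G hG
  have hG3 : MvPowerSeries.map (WittVector.constantCoeff : WittVector p K →+* K) G' ≠ 0 := by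
    rw [Ne, ker_ps_map _ (p : WittVector p K) (witt_constantCoeff_eq_zero_iff p K), map_natCast]
    exact mt Ideal.mem_span_singleton.2 hG2
  have hG4 := cv_approx f ht' γ a (s G') (by rw [← hγ, hG1, map_mul ψ, map_pow, map_natCast]; rfl)
  rw [hs] at hG4
  refine ⟨{ A := Om p (t0 p K n)
            B := Om p (f (t0 p K n))
            regB := Om.p_reg ht'
            complete := Om.complete _
            flatA := hflat
            flatB := Om.qflat f (t0_reg p K n) hf
            θ := fun i => θ (Fin.cast hdeg.symm i)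
            split := ?_
            g := fun m => Om.sh p _ (rt p m γ)
            g_zero := by rw [rt_zero]; exact hγ.symm
            g_succ := fun m => by rw [← Om.sh_pow, rt_succ_pow]
            hb := ?_
            hbD := ?_
            sr := c2
            len := l
            len_one := fun ν => l1 (ν + 1) ν.succ_ne_zero
            len_negl := fun ν J hp hJ hg => l2 ν J a _ hG3 hp hJ
              (exists_approx_root f hf γ _ (fun m => cv_mem f φ hφ' hφ'' J _ (hg m)) _ _ hG4) }⟩
  · rw [Polynomial.map_map] at hsplit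
    exact hsplit.trans (Equiv.prod_comp (finCongr hdeg.symm) fun i => X - C (θ i)).symm
  · simp only [rt_zero]
    exact Om.hb ht' hu' γ
  · simp only [rt_zero]
    exact c1

end Vale.Agent.P202
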