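import Vale.Agent.P202.MxCoverDef
import Vale.Agent.P202.MxFlat2

/-! Length data from descent. -/

namespace Vale.Agent.P202

open TensorProduct
open scoped ENNReal

universe u

namespace DescB

open AlgebraTensorModule

theorem kills_sub {R X : Type*} [CommRing R] [AddCommGroup X] [Module R X] {I : Ideal R}
    (h : Kills I X) (P : Submodule R X) : Kills I P :=
  fun a ha x => Subtype.ext (h a ha x)

theorem kills_surj {R X Y : Type*} [CommRing R] [AddCommGroup X] [Module R X] [AddCommGroup Y]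
    [Module R Y] {I : Ideal R} (h : Kills I X) (g : X →ₗ[R] Y) (hg : Function.Surjective g) :
    Kills I Y := fun a ha y => by
  obtain ⟨x, rfl⟩ := hg y
  rw [← map_smul, h a ha, map_zero]

theorem val_le_add {R X A B : Type u} [CommRing R] [AddCommGroup X] [Module R X] [AddCommGroup A]
    [Module R A] [AddCommGroup B] [Module R B] {I : Ideal R} (l : LenFn R I) (f : A →ₗ[R] X)
    (g : X →ₗ[R] B) (h : LinearMap.ker g ≤ LinearMap.range f) (hA : Kills I A) (hX : Kills I X)
    (hB : Kills I B) : l.val X ≤ l.val A + l.val B := by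
  rw [l.eq_ker_add_range g hX]
  exact add_le_add ((l.le_of_injective _ (Submodule.inclusion_injective h) (kills_sub hX _)).trans
    (l.le_of_surjective _ f.surjective_rangeRestrict hA))
    (l.le_of_injective _ (Submodule.subtype_injective _) hB)

variable {T TA : Type u} [CommRing T] [CommRing TA] [Algebra T TA] {M : Type u} [AddCommGroup M]
  [Module TA M] [Module T M] [IsScalarTower T TA M] {X X' : Type u} [AddCommGroup X] [Module T X]
  [AddCommGroup X'] [Module T X']

theorem smul_tmul_zero {a : T} (h : ∀ x : X, a • x = 0) (ξ : M ⊗[T] X) : a • ξ = 0 := by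
  induction ξ with
  | zero => exact smul_zero _
  | tmul m x => rw [← tmul_smul, h, tmul_zero]
  | add x y hx hy => rw [smul_add, hx, hy, add_zero]

theorem kills_tensor {I : Ideal T} (h : Kills I X) :
    Kills (I.map (algebraMap T TA)) (M ⊗[T] X) := fun a ha ξ => by
  refine (Ideal.map_le_iff_le_comap (K := Ideal.torsionOf TA _ ξ)).2 (fun b hb => ?_) ha
  rw [Ideal.mem_comap, Ideal.mem_torsionOf_iff, algebraMap_smul]
  exact smul_tmul_zero (h b hb) ξ

theorem range_le {G : T} (P : Submodule TA (M ⊗[T] X)) (hP : ∀ m x, (G • m) ⊗ₜ[T] x ∈ P)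
    (f : X' →ₗ[T] X) (hf : LinearMap.range f ≤ Ideal.span {G} • (⊤ : Submodule T X)) :
    LinearMap.range (lTensor TA M f) ≤ P := by
  rintro _ ⟨ξ, rfl⟩
  induction ξ with
  | zero => rw [map_zero]; exact P.zero_mem
  | tmul m x =>
    have := hf ⟨x, rfl⟩
    rw [Submodule.ideal_span_singleton_smul] at this
    obtain ⟨y, -, hy⟩ := (Submodule.mem_smul_pointwise_iff_exists _ _ _).1 this
    rw [lTensor_tmul, ← hy, ← smul_tmul]
    exact hP m y
  | add x y hx hy => rw [map_add]; exact P.add_mem hx hy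

theorem ker_le {G : T} (P : Submodule TA (M ⊗[T] X)) (hP : ∀ m x, (G • m) ⊗ₜ[T] x ∈ P) :
    LinearMap.ker (lTensor TA M (Ideal.span {G} • (⊤ : Submodule T X)).mkQ) ≤ P := fun ξ hξ =>
  range_le P hP (Submodule.subtype _) (Submodule.range_subtype _).le
    ((lTensor_exact M (LinearMap.exact_subtype_mkQ _) (Submodule.mkQ_surjective _) ξ).1 hξ)

variable {TB H : Type u} [CommRing TB] [Algebra TA TB] [Algebra T TB] [IsScalarTower T TA TB]
  [AddCommGroup H] [Module TB H] [Module T H] [IsScalarTower T TB H]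

theorem ker_kill {W : Type u} [AddCommGroup W] [Module TB W] [Module T W] [IsScalarTower T TB W]
    (b : H →ₗ[TB] W) (hb : Function.Surjective b) {π : T} {g : TB}
    (hk : ∀ h, b h = 0 → ∃ h', g • h = π • h') (hX : ∀ x : X, π • x = 0) (ξ : H ⊗[T] X)
    (hξ : rTensor T X b ξ = 0) : g • ξ = 0 := by
  obtain ⟨η, rfl⟩ := (rTensor_exact X (f := (LinearMap.ker b).subtype.restrictScalars T)
    (g := b.restrictScalars T) (LinearMap.exact_subtype_ker_map b) hb ξ).1 hξ
  clear hξ
  induction η with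
  | zero => rw [map_zero, smul_zero]
  | tmul a x =>
    obtain ⟨h', e⟩ := hk a a.2
    rw [LinearMap.rTensor_tmul, smul_tmul']
    show (g • (a : H)) ⊗ₜ[T] x = 0
    rw [e, smul_tmul, hX, tmul_zero]
  | add x y hx hy => rw [map_add, smul_add, hx, hy, add_zero]

theorem core (V H : Type u) [CommRing V] [Algebra V T] [AddCommGroup H] [Module T H]
    (π' G : T) (I : Ideal T) (hI : π' ∈ I) {Q : Type u} [AddCommGroup Q] [Module TA Q] [Module T Q]
    [IsScalarTower T TA Q] (q : TA →ₗ[TA] Q) (hq : Function.Surjective q)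
    (hq' : ∀ a, q a = 0 → ∃ b, (1 : TA) • a = π' • b) (μ : TA →ₗ[TA] M)
    (ι : M →ₗ[TA] Q) (hμ : ∀ m, ∃ a, μ a = G • m)
    (hι : ∀ q, ∃ m, ι m = G • q) (l : LenFn TA (I.map (algebraMap T TA)))
    (hbase : ∀ (X : Type u) [AddCommGroup X] [Module T X] [Module V X] [IsScalarTower V T X],
      Kills I X → Module.length V X ≠ ⊤ → l.val (TA ⊗[T] X) = Module.length V X)
    (key : ∀ (X' X : Type u) [AddCommGroup X'] [Module T X'] [AddCommGroup X] [Module T X]
      (f : X' →ₗ[T] X), Function.Injective (f.lTensor H) → Kills I X' → Kills I X →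
      l.val (LinearMap.ker (lTensor TA M f)) = 0) : Nonempty (LenData V T H I G) := by
  have hP : ∀ (X : Type u) [AddCommGroup X] [Module T X] (m : M) (x : X),
      (G • m) ⊗ₜ[T] x ∈ LinearMap.range (rTensor T X μ) := fun X _ _ m x => by
    obtain ⟨a, ha⟩ := hμ m
    exact ⟨a ⊗ₜ x, by rw [rTensor_tmul, ha]⟩
  refine ⟨⟨fun X _ _ => l.val (M ⊗[T] X), ?_, ?_, ?_, ?_, ?_, ?_, ?_⟩⟩
  · intro X' X X'' _ _ _ _ _ _ f g h1 h2 h3 h4
    exact l.le_add (lTensor TA M f) (lTensor TA M g) (lTensor_exact M h1 h2) (kills_tensor h3)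
      (kills_tensor h4) (kills_tensor (kills_surj h4 g h2))
  · intro X X'' _ _ _ _ g h1 h2
    exact l.le_of_surjective (lTensor TA M g) (LinearMap.lTensor_surjective M h1) (kills_tensor h2)
  · intro X' X X'' _ _ _ _ _ _ f g h1 h2 h3 h4 h5
    rw [l.eq_ker_add_range (lTensor TA M f) (kills_tensor h4), key X' X f h3 h4 h5, zero_add]
    refine (l.add _ _ _ (Submodule.subtype _) (lTensor TA M g) (Submodule.subtype_injective _)
      (fun ξ => (lTensor_exact M h1 h2 ξ).trans ?_) (LinearMap.lTensor_surjective M h2)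
      (kills_tensor h5)).ge
    exact ⟨fun h => ⟨⟨ξ, h⟩, rfl⟩, fun ⟨y, hy⟩ => hy ▸ y.2⟩
  · intro X _ _ _
    exact l.zero _ inferInstance
  · intro X _ _ _ _ h
    rcases eq_or_ne (Module.length V X) ⊤ with e | e
    · simp [e]
    rw [← hbase X h e]
    exact val_le_add l (rTensor T X μ) _ (ker_le _ (hP X)) (kills_tensor h) (kills_tensor h)
      (kills_tensor (kills_surj h _ (Submodule.mkQ_surjective _)))
  · intro X' X _ _ _ _ _ _ f h1 h2 h3 h4
    rcases eq_or_ne (Module.length V X) ⊤ with e | e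
    · simp [e]
    rw [← hbase X h4 e, l.eq_ker_add_range (lTensor TA M f) (kills_tensor h3),
      key X' X f h1 h3 h4, zero_add]
    exact (l.le_of_injective _ (Submodule.inclusion_injective (range_le _ (hP X) f h2))
      (kills_sub (kills_tensor h4) _)).trans
      (l.le_of_surjective _ (rTensor T X μ).surjective_rangeRestrict (kills_tensor h4))
  · intro X _ _ _ _ h e
    have h' := kills_surj h _ (Submodule.mkQ_surjective (Ideal.span {G} • (⊤ : Submodule T X)))
    have hs := Submodule.mkQ_surjective (Ideal.span {G} • (⊤ : Submodule T X))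
    rw [← hbase X h e, ← hbase _ h' (ne_top_of_le_ne_top e (Module.length_le_of_surjective
      ((Ideal.span {G} • (⊤ : Submodule T X)).mkQ.restrictScalars V) hs))]
    refine (l.le_of_injective (rTensor T X q) ((injective_iff_map_eq_zero _).2 fun ξ hξ =>
      (one_smul TA ξ).symm.trans (ker_kill q hq hq' (h _ hI) ξ hξ)) (kills_tensor h)).trans ?_
    refine (val_le_add l (rTensor T X ι) _ (ker_le (G := G) _ fun q x => ?_) (kills_tensor h)
      (kills_tensor h) (kills_tensor h')).trans (add_le_add le_rfl (l.le_of_surjective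
        (rTensor T _ q) (LinearMap.rTensor_surjective _ (g := q.restrictScalars T) hq)
        (kills_tensor h')))
    obtain ⟨m, hm⟩ := hι q
    exact ⟨m ⊗ₜ x, by rw [rTensor_tmul, hm]⟩

theorem key {π π' : T} (hflat : QFlat (algebraMap TA TB) (Ideal.span {algebraMap T TA π'}))
    (hM : ∀ m : M, π' • m = 0) (𝔤 : Ideal TB) (b : H →ₗ[TB] TB ⊗[TA] M)
    (hb : Function.Surjective b) (hk : ∀ h, b h = 0 → ∀ g ∈ 𝔤, ∃ h', g • h = π • h')
    (f : X' →ₗ[T] X) (hf : Function.Injective (f.lTensor H)) (hX : ∀ x : X, π • x = 0) :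
    Kills ((𝔤 ⊔ Ideal.span {algebraMap T TB π'}).comap (algebraMap TA TB))
      (LinearMap.ker (lTensor TA M f)) := by
  rintro c hc ⟨n, hn⟩
  obtain ⟨g, hg, _, hb', e⟩ := Submodule.mem_sup.1 hc
  obtain ⟨b', rfl⟩ := Ideal.mem_span_singleton'.1 hb'
  have k0 : ∀ ξ : M ⊗[T] X', π' • ξ = 0 := fun ξ => by
    induction ξ with
    | zero => exact smul_zero _
    | tmul m x => rw [smul_tmul', hM, zero_tmul]
    | add x y hx hy => rw [smul_add, hx, hy, add_zero]
  refine Subtype.ext (hflat.eq_zero_of_one_tmul ((kills_iff _ _).1 fun a ha ξ => ?_) (c • n) ?_)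
  · obtain ⟨a, rfl⟩ := Ideal.mem_span_singleton'.1 ha
    rw [mul_smul, algebraMap_smul, k0, smul_zero]
  obtain ⟨ξ, hξ⟩ := LinearMap.rTensor_surjective X' (g := b.restrictScalars T) hb
    ((assoc T TA TB TB M X').symm (1 ⊗ₜ n))
  have nat : ∀ ζ, lTensor TB _ f ((assoc T TA TB TB M X').symm (1 ⊗ₜ ζ)) =
      (assoc T TA TB TB M X).symm (1 ⊗ₜ lTensor TA M f ζ) := fun ζ => by
    induction ζ with
    | zero => simp
    | tmul m x => rfl
    | add x y hx hy => simp only [map_add, tmul_add, hx, hy]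
  have k1 : rTensor T X b (lTensor TB H f ξ) = 0 := by
    have := nat n
    rw [← hξ, LinearMap.mem_ker.1 hn, tmul_zero, map_zero] at this
    rw [← this]
    exact LinearMap.congr_fun ((LinearMap.rTensor_comp_lTensor H (b.restrictScalars T) f).trans
      (LinearMap.lTensor_comp_rTensor _ (b.restrictScalars T) f).symm) ξ
  have k2 : g • ξ = 0 := hf ((map_smul (lTensor TB H f) g ξ).trans
    ((ker_kill b hb (fun h hh => hk h hh g hg) hX _ k1).trans (map_zero _).symm))
  have k3 : g • ((1 : TB) ⊗ₜ[TA] n) = 0 := by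
    have e1 : assoc T TA TB TB M X' (rTensor T X' b ξ) = 1 ⊗ₜ n := by
      rw [show rTensor T X' b ξ = _ from hξ, LinearEquiv.apply_symm_apply]
    rw [← e1, ← map_smul, ← map_smul, k2, map_zero, map_zero]
  rw [← smul_tmul, Algebra.smul_def, mul_one, ← e, add_tmul, ← mul_one g, ← smul_eq_mul,
    ← smul_tmul', k3, zero_add, IsScalarTower.algebraMap_apply T TA TB, mul_comm,
    ← Algebra.smul_def, smul_tmul, algebraMap_smul, k0, tmul_zero]

theorem key' {π π' : T} (hflat : QFlat (algebraMap TA TB) (Ideal.span {algebraMap T TA π'}))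
    (hM : ∀ m : M, π' • m = 0) (𝔤 : Ideal TB) (b : H →ₗ[TB] TB ⊗[TA] M)
    (hb : Function.Surjective b) (hk : ∀ h, b h = 0 → ∀ g ∈ 𝔤, ∃ h', g • h = π • h')
    {I : Ideal T} (hI : π ∈ I) (l : LenFn TA (I.map (algebraMap T TA)))
    (hnegl : ∀ (X : Type u) [AddCommGroup X] [Module TA X], Kills (I.map (algebraMap T TA)) X →
      Kills ((𝔤 ⊔ Ideal.span {algebraMap T TB π'}).comap (algebraMap TA TB)) X → l.val X = 0)
    (X' X : Type u) [AddCommGroup X'] [Module T X'] [AddCommGroup X] [Module T X]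
    (f : X' →ₗ[T] X) (h1 : Function.Injective (f.lTensor H)) (h2 : Kills I X') (h3 : Kills I X) :
    l.val (LinearMap.ker (lTensor TA M f)) = 0 :=
  hnegl _ (kills_sub (kills_tensor h2) _) (key hflat hM 𝔤 b hb hk f h1 (h3 π hI))

end DescB

theorem lenData_of_descent (V T TA TB H : Type u) [CommRing V] [CommRing T] [CommRing TA]
    [CommRing TB] [Algebra V T] [Algebra T TA] [Algebra TA TB] [Algebra T TB]
    [IsScalarTower T TA TB] [AddCommGroup H] [Module TB H] [Module T H] [IsScalarTower T TB H]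
    (π π' G : T) (hπ : π ∣ π') (I : Ideal T) (hI : π ∈ I)
    (hflat : QFlat (algebraMap TA TB) (Ideal.span {algebraMap T TA π'})) (𝔤 : Ideal TB)
    (α : TB →ₗ[TB] H) (β : H →ₗ[TB] TB) (hαβ : ∀ h, α (β h) = G • h)
    (hβα : ∀ b, β (α b) = G • b)
    (hker : ∀ h, β h ∈ Ideal.span {algebraMap T TB π'} → ∀ g ∈ 𝔤, ∃ h', g • h = π • h')
    (hdesc : ∀ h, β h ⊗ₜ[TA] (1 : TB) ∈
      Ideal.map (Algebra.TensorProduct.includeRight (R := TA) (A := TB) (B := TB))
        (LinearMap.range β ⊔ Ideal.span {algebraMap T TB π'}))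
    (l : LenFn TA (I.map (algebraMap T TA)))
    (hbase : ∀ (X : Type u) [AddCommGroup X] [Module T X] [Module V X] [IsScalarTower V T X],
      Kills I X → Module.length V X ≠ ⊤ → l.val (TA ⊗[T] X) = Module.length V X)
    (hnegl : ∀ (X : Type u) [AddCommGroup X] [Module TA X], Kills (I.map (algebraMap T TA)) X →
      Kills ((𝔤 ⊔ Ideal.span {algebraMap T TB π'}).comap (algebraMap TA TB)) X → l.val X = 0) :
    Nonempty (LenData V T H I G) := by
  have hI' : π' ∈ I := hπ.elim fun c e => e ▸ I.mul_mem_right c hI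
  set J := Ideal.span {algebraMap T TA π'} with hJ
  have hJB : J.map (algebraMap TA TB) = Ideal.span {algebraMap T TB π'} := by
    rw [hJ, Ideal.map_span, Set.image_singleton, ← IsScalarTower.algebraMap_apply]
  set U : Ideal TB := LinearMap.range β ⊔ Ideal.span {algebraMap T TB π'} with hU
  have hUU := hflat.map_comap_eq U (hJB.trans_le le_sup_right) fun u hu => by
    obtain ⟨_, ⟨h, rfl⟩, _, hb, rfl⟩ := Submodule.mem_sup.1 hu
    obtain ⟨b, rfl⟩ := Ideal.mem_span_singleton'.1 hb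
    rw [add_tmul]
    refine add_mem (hdesc h) ?_
    rw [IsScalarTower.algebraMap_apply T TA TB, mul_comm, ← Algebra.smul_def, smul_tmul,
      Algebra.smul_def, mul_one, ← mul_one b, ← one_mul (algebraMap TA TB _),
      ← Algebra.TensorProduct.tmul_mul_tmul, ← IsScalarTower.algebraMap_apply]
    exact Ideal.mul_mem_left _ _ (Ideal.mem_map_of_mem _
      (Submodule.mem_sup_right (Ideal.mem_span_singleton_self _)))
  let M : Submodule TA (TA ⧸ J) := Submodule.map J.mkQ (U.comap (algebraMap TA TB))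
  have hG : ∀ q : TA ⧸ J, G • q ∈ M := fun q => by
    obtain ⟨a, rfl⟩ := J.mkQ_surjective q
    refine ⟨G • a, Submodule.mem_sup_left ⟨α (algebraMap TA TB a), ?_⟩, rfl⟩
    rw [hβα, Algebra.smul_def, Algebra.smul_def, map_mul, ← IsScalarTower.algebraMap_apply]
  have hJq : Kills J (TA ⧸ J) := fun a ha q => by
    obtain ⟨b, rfl⟩ := J.mkQ_surjective q
    exact Ideal.Quotient.eq_zero_iff_mem.2 (J.mul_mem_right b ha)
  let j := AlgebraTensorModule.lTensor TB TB M.subtype
  have hj : Function.Injective j :=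
    hflat.lTensor_injective ((kills_iff _ _).1 hJq) _ M.subtype_injective
  let γ := Algebra.linearMap TB (TB ⊗[TA] (TA ⧸ J))
  have hγ0 : ∀ b, γ b = 0 ↔ b ∈ Ideal.span {algebraMap T TB π'} := fun b => by
    rw [← hJB, ← Ideal.Quotient.eq_zero_iff_mem,
      ← map_eq_zero_iff _ (Algebra.TensorProduct.quotIdealMapEquivTensorQuot TB J).injective]
    rfl
  have hγ1 : ∀ a : TA, γ (algebraMap TA TB a) = 1 ⊗ₜ J.mkQ a := fun a => by
    show algebraMap TA TB a ⊗ₜ[TA] (1 : TA ⧸ J) = _
    rw [Algebra.algebraMap_eq_smul_one, smul_tmul]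
    exact congrArg _ (congrArg J.mkQ (mul_one a))
  have hγ : ∀ h, (γ ∘ₗ β) h ∈ LinearMap.range j := fun h => by
    refine hUU.ge.trans ((Ideal.map_le_iff_le_comap (K := (LinearMap.range j).comap γ)).2
      fun a ha => ?_) (Submodule.mem_sup_left ⟨h, rfl⟩)
    exact ⟨1 ⊗ₜ ⟨J.mkQ a, a, ha, rfl⟩, (hγ1 a).symm⟩
  refine DescB.core V H π' G I hI' J.mkQ J.mkQ_surjective (fun a ha => ?_)
    (LinearMap.toSpanSingleton TA M ⟨G • 1, hG 1⟩) M.subtype
    (fun m => ?_) (fun q => ⟨⟨_, hG q⟩, rfl⟩) l hbase (DescB.key' hflat (fun m => ?_) 𝔤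
      (LinearMap.codRestrictOfInjective (γ ∘ₗ β) j hj hγ) (fun w => ?_) (fun h hh => ?_) hI l hnegl)
  · obtain ⟨b, rfl⟩ := Ideal.mem_span_singleton'.1 (Ideal.Quotient.eq_zero_iff_mem.1 ha)
    exact ⟨b, by rw [one_smul, Algebra.smul_def, mul_comm]⟩
  · obtain ⟨a, ha⟩ := J.mkQ_surjective m
    refine ⟨a, Subtype.ext ?_⟩
    show a • G • (1 : TA ⧸ J) = G • (m : TA ⧸ J)
    rw [smul_comm, ← ha]
    exact congrArg _ (congrArg J.mkQ (mul_one a))
  · rw [← algebraMap_smul TA]
    exact DescB.kills_sub hJq M _ (Ideal.mem_span_singleton_self _) m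
  · induction w with
    | zero => exact ⟨0, map_zero _⟩
    | tmul b m =>
      obtain ⟨_, a, ha, rfl⟩ := m
      obtain ⟨_, ⟨h, rfl⟩, c, hc, e⟩ := Submodule.mem_sup.1 ha
      refine ⟨b • h, hj ?_⟩
      rw [LinearMap.codRestrictOfInjective_comp_apply, map_smul, LinearMap.comp_apply,
        ← add_zero (γ _), ← (hγ0 c).2 hc, ← map_add, e, hγ1, smul_tmul', smul_eq_mul, mul_one]
      rfl
    | add x y hx hy => exact (LinearMap.range _).add_mem hx hy
  · refine hker h ((hγ0 _).1 ?_)
    rw [← LinearMap.comp_apply, ← LinearMap.codRestrictOfInjective_comp_apply _ j hj hγ, hh,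
      map_zero]

end Vale.Agent.P202
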