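import Vale.Agent.P202.MxDescA
import Vale.Agent.P202.MxDescB

/-! Length data for generically etale finite algebras. -/

namespace Vale.Agent.P202

open TensorProduct Polynomial IsLocalRing
open scoped ENNReal

universe u

theorem mxDC_kills {A A' : Type u} [CommRing A] [CommRing A'] [Algebra A A'] {I : Ideal A}
    {X : Type u} [AddCommGroup X] [Module A X] (hX : Kills I X) :
    Kills (I.map (algebraMap A A')) (A' ⊗[A] X) := by
  intro a ha z
  induction z with
  | zero => exact smul_zero _
  | add z z' h h' => rw [smul_add, h, h', add_zero]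
  | tmul b x => exact mxf_tmul_zero hX (Ideal.mul_mem_right b _ ha) x

/-- a length function normalised on the residue field computes lengths after base change. -/
theorem LenFn.val_tensor {A A' : Type u} [CommRing A] [IsLocalRing A] [CommRing A'] [Algebra A A']
    (I₀ I : Ideal A) (hI : I₀ ≤ I) (hf : QFlat (algebraMap A A') I₀)
    (l : LenFn A' (I.map (algebraMap A A')))
    (h1 : I ≠ ⊤ → l.val (A' ⧸ (maximalIdeal A).map (algebraMap A A')) = 1)
    (X : Type u) [AddCommGroup X] [Module A X] (hX : Kills I X) (hfin : Module.length A X ≠ ⊤) :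
    l.val (A' ⊗[A] X) = Module.length A X := by
  induction Module.length_ne_top_iff.1 hfin with
  | of_subsingleton => rw [l.zero _ inferInstance, Module.length_eq_zero, ENat.toENNReal_zero]
  | @of_simple_quotient M _ _ N hs hN ih =>
    have e1 := Module.length_eq_add_of_exact N.subtype N.mkQ N.injective_subtype N.mkQ_surjective
      (LinearMap.exact_subtype_mkQ N)
    have e2 := l.add _ _ _ (N.subtype.baseChange A') (N.mkQ.baseChange A')
      (hf.lTensor_injective ((kills_iff _ _).1 (hX.anti hI)) N.subtype N.injective_subtype)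
      (lTensor_exact A' (LinearMap.exact_subtype_mkQ N) N.mkQ_surjective)
      (LinearMap.lTensor_surjective A' N.mkQ_surjective) (mxDC_kills hX)
    obtain ⟨m, hm, ⟨e⟩⟩ := isSimpleModule_iff_quot_maximal.1 hs
    obtain rfl := eq_maximalIdeal hm
    have hne : I ≠ ⊤ := fun h => by
      have := IsSimpleModule.nontrivial A (M ⧸ N)
      obtain ⟨x, hx⟩ := exists_ne (0 : M ⧸ N)
      exact hx ((one_smul A x).symm.trans (hX.quotient N 1 (h ▸ trivial) x))
    have e3 := l.congr ((Algebra.TensorProduct.quotIdealMapEquivTensorQuot A'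
      (maximalIdeal A)).toLinearEquiv.trans (e.symm.baseChange A A' _ _))
      (mxDC_kills (hX.quotient N))
    rw [e2, e1, ih (hX.submodule N) (Module.length_ne_top_iff.2 hN), ← e3, h1 hne,
      Module.length_eq_one A (M ⧸ N), ENat.toENNReal_add, ENat.toENNReal_one]

section BC

variable {R A B : Type u} (T : Type u) [CommRing R] [CommRing A] [CommRing B] [CommRing T]
  [Algebra R A] [Algebra A B] [Algebra R B] [IsScalarTower R A B] [Algebra R T]

theorem mxDC_flat (a : R) (hf : QFlat (algebraMap A B) (Ideal.span {algebraMap R A a})) :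
    QFlat (Algebra.TensorProduct.map (AlgHom.id T T) (IsScalarTower.toAlgHom R A B)).toRingHom
      (Ideal.span {algebraMap R (T ⊗[R] A) a}) := by
  let e := (Algebra.TensorProduct.cancelBaseChange R A A B T).toRingEquiv.trans
    (Algebra.TensorProduct.comm R B T).toRingEquiv
  have h := (qflat_iff_of_surjective
    (Algebra.TensorProduct.includeRight (R := A) (A := B) (B := A ⊗[R] T)).toRingHom
    (Algebra.TensorProduct.map (AlgHom.id T T) (IsScalarTower.toAlgHom R A B)).toRingHom
    (Algebra.TensorProduct.comm R A T).toRingEquiv.toRingHom e.toRingHom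
    (Algebra.TensorProduct.comm R A T).surjective e.surjective (by
      refine RingHom.ext fun z => ?_
      induction z with
      | zero => simp
      | add z z' h h' => simp only [map_add, h, h']
      | tmul x t => simp [e, Algebra.algebraMap_eq_smul_one]) _
    (fun x hx => by
      rw [show x = 0 from (Algebra.TensorProduct.comm R A T).injective
        (hx.trans (map_zero _).symm)]
      exact zero_mem _)
    (fun x hx => by
      rw [show x = 0 from e.injective (hx.trans (map_zero _).symm)]
      exact zero_mem _)).1 hf.baseChange_right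
  rw [Ideal.map_span, Ideal.map_span, Set.image_singleton, Set.image_singleton,
    ← IsScalarTower.algebraMap_apply] at h
  exact (congrArg (fun z => QFlat _ (Ideal.span {z}))
    ((Algebra.TensorProduct.comm R A T).commutes a)).mp h

attribute [local instance] Algebra.TensorProduct.rightAlgebra in
theorem mxDC_len {I : Ideal R} (l : LenFn A (I.map (algebraMap R A))) :
    ∃ l' : LenFn (T ⊗[R] A) ((I.map (algebraMap R T)).map (algebraMap T (T ⊗[R] A))),
      (∀ (X : Type u) [AddCommGroup X] [Module T X] [Module R X] [IsScalarTower R T X],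
        Kills I X → l'.val ((T ⊗[R] A) ⊗[T] X) = l.val (A ⊗[R] X)) ∧
      ∀ (J : Ideal A) (J' : Ideal (T ⊗[R] A)), (∀ a ∈ J, (1 : T) ⊗ₜ[R] a ∈ J') →
        (∀ (X : Type u) [AddCommGroup X] [Module A X], Kills (I.map (algebraMap R A)) X →
          Kills J X → l.val X = 0) →
        ∀ (X : Type u) [AddCommGroup X] [Module (T ⊗[R] A) X],
          Kills ((I.map (algebraMap R T)).map (algebraMap T (T ⊗[R] A))) X → Kills J' X →
          l'.val X = 0 := by
  obtain ⟨l', hl⟩ := l.exists_comap (T ⊗[R] A)
  have e : (I.map (algebraMap R A)).map (algebraMap A (T ⊗[R] A)) =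
      (I.map (algebraMap R T)).map (algebraMap T (T ⊗[R] A)) := by
    rw [Ideal.map_map, Ideal.map_map, ← IsScalarTower.algebraMap_eq, ← IsScalarTower.algebraMap_eq]
  refine ⟨l'.mono e.le, fun X _ _ _ _ hX => ?_, fun J J' hJ h0 X _ _ h1 h2 => ?_⟩
  · exact (hl _).trans (l.congr (Algebra.IsPushout.cancelBaseChange R A T (T ⊗[R] A) X)
      (mxDC_kills hX))
  · let : Module A X := Module.compHom X (algebraMap A (T ⊗[R] A))
    have : IsScalarTower A (T ⊗[R] A) X := IsScalarTower.of_compHom A _ X
    exact (hl X).trans (h0 X (fun a ha x => h1 _ (e ▸ Ideal.mem_map_of_mem _ ha) x)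
      fun a ha x => h2 _ (hJ a ha) x)

end BC

theorem PerfCover.mxDC_negl {p : ℕ} {V : Type u} [CommRing V] {n : ℕ} {P : (PS V n)[X]}
    {G : PS V n} (c : PerfCover p V n P G) (ν μ : ℕ) (X : Type u) [AddCommGroup X] [Module c.A X]
    (h1 : Kills ((Ideal.span (Set.range (pX p V n)) ^ ν).map (algebraMap (PS V n) c.A)) X)
    (h2 : Kills ((Ideal.span (Set.range c.g) ⊔ Ideal.span {(p : c.B) ^ μ}).comap
      (algebraMap c.A c.B)) X) : (c.len ν).val X = 0 := by
  set U := Ideal.span (Set.range c.g) ⊔ Ideal.span {(p : c.B) ^ μ} with hU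
  have hp : (p : c.B) ^ μ ∈ U := Ideal.mem_sup_right (Ideal.mem_span_singleton_self _)
  have hg : ∀ m, c.g m ∈ U := fun m => Ideal.mem_sup_left (Ideal.subset_span ⟨m, rfl⟩)
  have hp' : (p : c.B ⊗[c.A] c.B) ^ μ ∈ U.map
      (Algebra.TensorProduct.includeRight (R := c.A) (A := c.B) (B := c.B)) := by
    have := Ideal.mem_map_of_mem
      (Algebra.TensorProduct.includeRight (R := c.A) (A := c.B) (B := c.B)) hp
    rwa [map_pow, map_natCast] at this
  have hle : U ≤ (U.map (Algebra.TensorProduct.includeRight (R := c.A) (A := c.B)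
      (B := c.B))).comap (Algebra.TensorProduct.includeLeftRingHom) := by
    refine sup_le (Ideal.span_le.2 ?_) ((Ideal.span_singleton_le_iff_mem _).2 ?_)
    · rintro _ ⟨m, rfl⟩
      refine (Ideal.span_le.2 ?_ : _ ≤ U.map _) (c.sr m μ)
      rintro _ (rfl | rfl)
      · exact Ideal.mem_map_of_mem _ (hg (m + 2))
      · exact hp'
    · rwa [Ideal.mem_comap, map_pow, map_natCast]
  have e := (c.flatB μ).map_comap_eq U (by
    rw [Ideal.map_span, Set.image_singleton, map_pow, map_natCast]
    exact le_sup_right) hle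
  refine (c.len ν).eq_zero_of_layer (_ ⊔ U.comap (algebraMap c.A c.B)) le_sup_left p μ
    (Ideal.mem_sup_right (by rwa [Ideal.mem_comap, map_pow, map_natCast]))
    (c.len_negl ν _ (Ideal.mem_sup_right (Ideal.mem_span_singleton_self _))
      (le_sup_left.trans le_sup_left) fun m =>
        Ideal.map_mono (le_sup_right.trans le_sup_left) (e.ge (hg m))) X fun a ha x => ?_
  obtain ⟨a₁, ha₁, a₂, ha₂, rfl⟩ := Submodule.mem_sup.1 ha
  rw [add_smul, h1 a₁ ha₁, h2 a₂ ha₂, add_zero]

theorem exists_lenData {p : ℕ} [Fact p.Prime] {V : Type u} [CommRing V] [IsLocalRing V]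
    (hV : IsPRing p V) {n : ℕ} {T : Type u} [CommRing T] [Algebra (PS V n) T]
    [Module.Finite (PS V n) T] [Algebra V T] [IsScalarTower V (PS V n) T]
    (D : EtData (PS V n) T) (hG : D.G ≠ 0) (c : PerfCover p V n D.P D.G) :
    ∃ (H : Type u) (_ : AddCommGroup H) (_ : Module T H),
      RegPow (fun i => algebraMap (PS V n) T (pX p V n i)) H ∧
      ∀ ν : ℕ, Nonempty (LenData V T H
        (Ideal.span (Set.range fun i => algebraMap (PS V n) T (pX p V n i)) ^ ν)
        (algebraMap (PS V n) T (D.G ^ 3))) := by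
  let := c.algT T
  obtain ⟨H, _, _, _, _, α, β, hreg, hαβ, hβα, ⟨k, hk⟩, hdesc⟩ := exists_bcm hV D hG c
  refine ⟨H, inferInstance, inferInstance, hreg, fun ν => ?_⟩
  have : IsScalarTower T (T ⊗[PS V n] c.A) (T ⊗[PS V n] c.B) :=
    IsScalarTower.of_algebraMap_eq fun t => ((Algebra.TensorProduct.map (AlgHom.id T T)
      (IsScalarTower.toAlgHom (PS V n) c.A c.B)).commutes t).symm
  have eI : Ideal.span (Set.range fun i => algebraMap (PS V n) T (pX p V n i)) ^ ν =
      (Ideal.span (Set.range (pX p V n)) ^ ν).map (algebraMap (PS V n) T) := by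
    rw [Ideal.map_pow, Ideal.map_span, ← Set.range_comp]
    rfl
  have hpI : (p : PS V n) ^ ν ∈ Ideal.span (Set.range (pX p V n)) ^ ν :=
    Ideal.pow_mem_pow (Ideal.subset_span (Set.mem_range_self (f := pX p V n) 0)) ν
  have eB : algebraMap T (T ⊗[PS V n] c.B) ((p : T) ^ (ν + k)) =
      (p : T ⊗[PS V n] c.B) ^ (ν + k) := by rw [map_pow, map_natCast]
  rw [eI]
  obtain ⟨l, hl1, hl2⟩ := mxDC_len T (c.len ν)
  refine lenData_of_descent V T (T ⊗[PS V n] c.A) (T ⊗[PS V n] c.B) H ((p : T) ^ ν)
    ((p : T) ^ (ν + k)) _ (pow_dvd_pow _ le_self_add) _ ?_ ?_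
    (Ideal.span (Set.range fun m => (1 : T) ⊗ₜ[PS V n] c.g m)) α β hαβ hβα
    (fun h hh g hg => ?_) (fun h => eB ▸ hdesc _ h) l (fun X _ _ _ _ hX hfin => ?_)
    (hl2 _ _ (fun a ha => ?_) (c.mxDC_negl ν (ν + k)))
  · have := Ideal.mem_map_of_mem (algebraMap (PS V n) T) hpI
    rwa [map_pow, map_natCast] at this
  · have := mxDC_flat (A := c.A) (B := c.B) T ((p : PS V n) ^ (ν + k))
      (by rw [map_pow, map_natCast]; exact c.flatB _)
    rw [map_pow, map_natCast] at this ⊢
    exact this
  · rw [eB] at hh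
    induction hg using Submodule.span_induction with
    | mem x hx => obtain ⟨m, rfl⟩ := hx; exact hk ν h hh m
    | zero => exact ⟨0, by rw [zero_smul, smul_zero]⟩
    | add x y _ _ hx hy =>
      obtain ⟨x', hx⟩ := hx
      obtain ⟨y', hy⟩ := hy
      exact ⟨x' + y', by rw [add_smul, smul_add, hx, hy]⟩
    | smul r x _ hx =>
      obtain ⟨x', hx⟩ := hx
      exact ⟨r • x', by rw [smul_assoc, hx, smul_comm]⟩
  · let : Module (PS V n) X := Module.compHom X (algebraMap (PS V n) T)
    have : IsScalarTower (PS V n) T X := IsScalarTower.of_compHom _ _ X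
    have : IsScalarTower V (PS V n) X := IsScalarTower.of_algebraMap_smul fun v x => by
      rw [← algebraMap_smul T, ← IsScalarTower.algebraMap_apply, algebraMap_smul]
    have : IsLocalHom (algebraMap V (PS V n)) := ⟨fun v hv => by
      simpa [MvPowerSeries.algebraMap_apply] using hv.map MvPowerSeries.constantCoeff⟩
    have hX' : Kills (Ideal.span (Set.range (pX p V n)) ^ ν) X := fun a ha x =>
      hX _ (Ideal.mem_map_of_mem _ ha) x
    have e := length_eq_of_res (M := X) (ps_residue (V := V) n)
    rw [hl1 X hX', e]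
    refine LenFn.val_tensor _ _ ((Ideal.span_singleton_le_iff_mem _).2 hpI) (c.flatA ν) (c.len ν)
      (fun h => ?_) X hX' (e ▸ hfin)
    obtain _ | ν := ν
    · exact (h (by rw [pow_zero, Ideal.one_eq_top])).elim
    · rw [← hV.span_pX]
      exact c.len_one ν
  · have h1 : Ideal.span (Set.range c.g) ⊔ Ideal.span {(p : c.B) ^ (ν + k)} ≤
        (Ideal.span (Set.range fun m => (1 : T) ⊗ₜ[PS V n] c.g m) ⊔
          Ideal.span {(p : T ⊗[PS V n] c.B) ^ (ν + k)}).comap
          (Algebra.TensorProduct.includeRight (R := PS V n) (A := T) (B := c.B)) := by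
      refine sup_le (Ideal.span_le.2 ?_) ((Ideal.span_singleton_le_iff_mem _).2 ?_)
      · rintro _ ⟨m, rfl⟩
        exact Ideal.mem_sup_left (Ideal.subset_span ⟨m, rfl⟩)
      · rw [Ideal.mem_comap, map_pow, map_natCast]
        exact Ideal.mem_sup_right (Ideal.mem_span_singleton_self _)
    rw [eB]
    exact h1 ha

end Vale.Agent.P202
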