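import Vale.Agent.P202.SegreHat

/-! Homogeneous generic freeness of the Segre ring, generators in one degree. -/

namespace Vale.Agent.P202

open MvPolynomial Filter Topology

universe u

theorem mxLR_finrank (K : Type u) [Field K] (n s : ℕ) :
    n.factorial * Module.finrank K (homogeneousSubmodule (Fin (n + 1)) K s) =
      (s + 1).ascFactorial n := by
  classical
  have e : homogeneousSubmodule (Fin (n + 1)) K s =
      restrictSupport K ((Finset.univ : Finset (Fin (n + 1))).finsuppAntidiag s : Set _) := by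
    rw [homogeneousSubmodule_eq_finsupp_supported, restrictSupport]
    congr 1
    ext d
    simp [Finsupp.degree_eq_sum]
  rw [e, Module.finrank_eq_card_basis (basisRestrictSupport K _)]
  erw [Fintype.card_coe]
  rw [Finset.card_finsuppAntidiag_nat_eq_choose,
    Nat.ascFactorial_eq_factorial_mul_choose, Finset.card_univ, Fintype.card_fin,
    show n + 1 + s - 1 = s + n by omega, Nat.choose_symm_add]

theorem mxLR_lim {a b D n : ℕ} (h : ∀ s : ℕ, a * (s + 1) ^ n ≤ b * (s + 1 + D) ^ n) : a ≤ b := by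
  have lim : Tendsto (fun N : ℕ => (b : ℝ) * (1 + (D : ℝ) / N) ^ n) atTop
      (𝓝 (b * (1 + 0) ^ n)) :=
    ((tendsto_const_nhds.add (tendsto_const_div_atTop_nhds_zero_nat _)).pow _).const_mul _
  rw [add_zero, one_pow, mul_one] at lim
  have : (a : ℝ) ≤ b := by
    refine ge_of_tendsto lim ((eventually_gt_atTop 0).mono fun N hN => ?_)
    have hN' : (0 : ℝ) < N := by exact_mod_cast hN
    obtain ⟨s, rfl⟩ := Nat.exists_eq_succ_of_ne_zero hN.ne'
    rw [show (1 + (D : ℝ) / (s.succ : ℕ)) = ((s + 1 + D : ℕ) : ℝ) / (s + 1 : ℕ) by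
      push_cast; field_simp, div_pow, ← mul_div_assoc, le_div_iff₀ (by positivity)]
    exact_mod_cast h s
  exact_mod_cast this

section HS

variable {V L : Type u} [CommRing V] [CommRing L] [Algebra V L] {σ κ : Type} [Fintype κ]

/-- homogeneous combinations of degree `s` of a family. -/
def mxHS (V : Type u) [CommRing V] [Algebra V L] (e : σ → L) (v : κ → L) (s : ℕ) :
    Submodule V L where
  carrier := {x | ∃ α : κ → MvPolynomial σ V, (∀ k, (α k).IsHomogeneous s) ∧
    x = ∑ k, aeval e (α k) * v k}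
  add_mem' := by
    rintro _ _ ⟨α, hα, rfl⟩ ⟨β, hβ, rfl⟩
    exact ⟨α + β, fun k => (hα k).add (hβ k), by simp [add_mul, Finset.sum_add_distrib]⟩
  zero_mem' := ⟨0, fun _ => isHomogeneous_zero _ _ _, by simp⟩
  smul_mem' := by
    rintro c _ ⟨α, hα, rfl⟩
    exact ⟨fun k => C c * α k, fun k => (hα k).C_mul c, by
      simp [Finset.mul_sum, Algebra.smul_def, mul_assoc]⟩

theorem mxHS_mul {e : σ → L} {v : κ → L} {r s : ℕ} {β : MvPolynomial σ V}
    (hβ : β.IsHomogeneous r) {x : L} (hx : x ∈ mxHS V e v s) :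
    aeval e β * x ∈ mxHS V e v (r + s) := by
  obtain ⟨α, hα, rfl⟩ := hx
  exact ⟨fun k => β * α k, fun k => hβ.mul (hα k), by simp [Finset.mul_sum, mul_assoc]⟩

theorem mxHS_single {e : σ → L} {v : κ → L} {s : ℕ} {β : MvPolynomial σ V}
    (hβ : β.IsHomogeneous s) (k : κ) : aeval e β * v k ∈ mxHS V e v s := by
  classical
  refine ⟨Pi.single k β, fun k' => ?_, ?_⟩
  · rcases eq_or_ne k' k with rfl | h
    · rwa [Pi.single_eq_same]
    · rw [Pi.single_eq_of_ne h]; exact isHomogeneous_zero _ _ _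
  · rw [Finset.sum_eq_single k (fun k' _ h => by simp [h]) (by simp), Pi.single_eq_same]

theorem mxLR_aeval_mem {e : σ → L} (B : ℕ → Submodule V L) (h1 : (1 : L) ∈ B 0)
    (hm : ∀ {s t : ℕ} {x y : L}, x ∈ B s → y ∈ B t → x * y ∈ B (s + t)) (he : ∀ j, e j ∈ B 1)
    {s : ℕ} {f : MvPolynomial σ V} (hf : f.IsHomogeneous s) : aeval e f ∈ B s := by
  have hp : ∀ j m, e j ^ m ∈ B m := fun j m => by
    induction m with
    | zero => rwa [pow_zero]
    | succ m ih => rw [pow_succ]; exact hm ih (he j)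
  have hd : ∀ d : σ →₀ ℕ, (d.prod fun j m => e j ^ m) ∈ B d.degree := fun d => by
    induction d using Finsupp.induction_linear with
    | zero => simpa using h1
    | add d d' ih ih' =>
      rw [Finsupp.prod_add_index' (fun _ => pow_zero _) (fun _ => pow_add _), map_add]
      exact hm ih ih'
    | single j m =>
      rw [Finsupp.prod_single_index (h := fun j m => e j ^ m) (pow_zero _),
        Finsupp.degree_single]
      exact hp j m
  rw [f.as_sum, map_sum]
  refine Submodule.sum_mem _ fun d hd' => ?_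
  rw [aeval_monomial, ← Algebra.smul_def]
  refine Submodule.smul_mem _ _ ?_
  have : d.degree = s := by
    by_contra h
    exact mem_support_iff.1 hd' (hf.coeff_eq_zero h)
  exact this ▸ hd d

end HS

variable {K : Type u} [Field K] {n : ℕ}

namespace SegreRing

variable (R : SegreRing K n)

theorem mxLR_mem {s : ℕ} {f : MvPolynomial (Fin (n + 1)) K} (hf : f.IsHomogeneous s) :
    aeval R.e f ∈ R.B s :=
  mxLR_aeval_mem R.B R.one_mem R.mul_mem R.e_mem hf

theorem mxLR_gen : ∃ (D N : ℕ) (g : Fin N → R.L), (∀ i, g i ∈ R.B D) ∧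
    ∀ s, R.B (s + D) ≤ mxHS K R.e g s := by
  obtain ⟨D, h0⟩ := R.exists_t0
  have := R.finite_B D
  obtain ⟨N, g, hg⟩ := Module.Finite.exists_fin (R := K) (M := R.B D)
  refine ⟨D, N, fun i => g i, fun i => (g i).2, fun s => ?_⟩
  induction s with
  | zero =>
    intro x hx
    rw [zero_add] at hx
    obtain ⟨c, hc⟩ := (Submodule.mem_span_range_iff_exists_fun K).1
      (hg.ge (Submodule.mem_top (x := ⟨x, hx⟩)))
    refine ⟨fun i => C (c i), fun i => isHomogeneous_C _ _, ?_⟩
    have := congrArg Subtype.val hc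
    simpa [Algebra.smul_def] using this.symm
  | succ s ih =>
    intro x hx
    obtain ⟨y, hy, rfl⟩ := h0 (s + D) (by omega) x (by rwa [add_right_comm] at hx)
    refine Submodule.sum_mem _ fun j _ => ?_
    have := mxHS_mul (isHomogeneous_X K j) (ih (hy j))
    rwa [aeval_X, add_comm 1 s] at this

/-- the map of homogeneous combinations. -/
noncomputable def mxLRmap {N : ℕ} (g : Fin N → R.L) (s : ℕ) :
    (Fin N → homogeneousSubmodule (Fin (n + 1)) K s) →ₗ[K] R.L where
  toFun := fun α => ∑ k, aeval R.e (α k).1 * g k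
  map_add' := fun α β => by simp [add_mul, Finset.sum_add_distrib]
  map_smul' := fun c α => by simp [Finset.smul_sum]

theorem mxLR_ne {C : ℕ} {c : MvPolynomial (Fin (n + 1)) K} (hc : c.IsHomogeneous C)
    (h0 : c ≠ 0) : aeval R.e c ≠ 0 := by
  intro hz
  obtain ⟨D, N, g, -, hg⟩ := R.mxLR_gen
  have hfin : ∀ s, Module.Finite K (homogeneousSubmodule (Fin (n + 1)) K s) := fun s =>
    Module.Finite.iff_fg.2 (homogeneousSubmodule_fg _ _ s)
  have key : ∀ s, (n.factorial + N) * (s + 1) ^ n ≤ N * (s + 1 + (C + n)) ^ n := by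
    intro s
    let m : (Fin N → homogeneousSubmodule (Fin (n + 1)) K s) →ₗ[K]
        LinearMap.ker (R.mxLRmap g (C + s)) :=
      { toFun := fun α => ⟨fun k => ⟨c * (α k).1, hc.mul (α k).2⟩, by simp [mxLRmap, hz]⟩
        map_add' := fun α β => by ext; simp [mul_add]
        map_smul' := fun a α => by ext; simp }
    have hm : Function.Injective m := by
      intro α β h
      funext k
      have := congrArg (fun x => (x.1 k).1) h
      exact Subtype.ext (mul_left_cancel₀ h0 this)
    have h1 := LinearMap.finrank_le_finrank_of_injective hm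
    have h2 := (R.mxLRmap g (C + s)).finrank_range_add_finrank_ker
    have h3 : Module.finrank K (R.B (C + s + D)) ≤
        Module.finrank K (LinearMap.range (R.mxLRmap g (C + s))) := by
      refine Submodule.finrank_mono fun x hx => ?_
      obtain ⟨α, hα, rfl⟩ := hg _ hx
      exact ⟨fun k => ⟨α k, hα k⟩, rfl⟩
    rw [Module.finrank_pi_fintype, Finset.sum_const, Finset.card_univ, Fintype.card_fin,
      smul_eq_mul] at h1 h2
    rw [R.finrank_B] at h3
    have h4 := mxLR_finrank K n s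
    have h5 := mxLR_finrank K n (C + s)
    have h6 := Nat.pow_succ_le_ascFactorial (s + 1) n
    have h7 := Nat.ascFactorial_le_pow_add (C + s) n
    have h8 : (s + 1) ^ n ≤ (C + s + D + 1) ^ n := Nat.pow_le_pow_left (by omega) _
    have h9 : (C + s + n) ^ n ≤ (s + 1 + (C + n)) ^ n := Nat.pow_le_pow_left (by omega) _
    have h10 := Nat.mul_le_mul_left n.factorial (add_le_add (h8.trans h3) h1)
    rw [h2, mul_add, mul_left_comm, h4, mul_left_comm, h5] at h10
    calc _ ≤ n.factorial * (s + 1) ^ n + N * (s + 1).ascFactorial n := by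
          rw [add_mul]; gcongr
      _ ≤ _ := h10.trans (Nat.mul_le_mul_left _ (h7.trans h9))
  have := mxLR_lim key
  have := n.factorial_pos
  omega

theorem mxLR_le {D ρ : ℕ} (v : Fin ρ → R.L) (hv : ∀ k, v k ∈ R.B D)
    (h : ∀ s, Function.Injective (R.mxLRmap v s)) : ρ ≤ n.factorial := by
  refine mxLR_lim (D := D) (n := n) fun s => ?_
  have := R.finite_B (s + D)
  have : Module.Finite K (homogeneousSubmodule (Fin (n + 1)) K s) :=
    Module.Finite.iff_fg.2 (homogeneousSubmodule_fg _ _ s)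
  have h0 : ∀ α, R.mxLRmap v s α ∈ R.B (s + D) := fun α => by
    change ∑ k : Fin ρ, aeval R.e (α k).1 * v k ∈ _
    exact Submodule.sum_mem _ fun k _ => R.mul_mem (R.mxLR_mem (α k).2) (hv k)
  have h1 := LinearMap.finrank_le_finrank_of_injective
    ((LinearMap.injective_codRestrict_iff h0).2 (h s))
  rw [Module.finrank_pi_fintype, Finset.sum_const, Finset.card_univ, Fintype.card_fin,
      smul_eq_mul, R.finrank_B] at h1
  have h2 := Nat.mul_le_mul_left n.factorial h1
  rw [mul_left_comm, mxLR_finrank, add_right_comm] at h2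
  exact (Nat.mul_le_mul_left _ (Nat.pow_succ_le_ascFactorial (s + 1) n)).trans h2

theorem mxLR_free : ∃ (D C' : ℕ) (c : MvPolynomial (Fin (n + 1)) K) (v : Fin n.factorial → R.L),
    c.IsHomogeneous (D + C') ∧ aeval R.e c ≠ 0 ∧ (∀ k, v k ∈ R.B D) ∧
      ∀ t, ∀ b ∈ R.B t, aeval R.e c * b ∈ mxHS K R.e v (t + C') := by
  classical
  obtain ⟨D, N, g, hgD, hg⟩ := R.mxLR_gen
  let p : ℕ → Prop := fun ρ => ∃ v : Fin ρ → R.L, (∀ k, v k ∈ R.B D) ∧
    ∀ s, Function.Injective (R.mxLRmap v s)
  have hp0 : p 0 := ⟨Fin.elim0, fun k => k.elim0, fun s α β _ => funext fun k => k.elim0⟩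
  obtain ⟨ρ, ⟨v, hv, hinj⟩, hmax⟩ : ∃ ρ, p ρ ∧ ¬ p (ρ + 1) := by
    by_contra hne
    have : ∀ ρ, p ρ := fun ρ => by
      induction ρ with
      | zero => exact hp0
      | succ ρ ih => by_contra h; exact hne ⟨ρ, ih, h⟩
    obtain ⟨v, hv, h⟩ := this (n.factorial + 1)
    have := R.mxLR_le v hv h
    omega
  have hρ := R.mxLR_le v hv hinj
  let v' : Fin n.factorial → R.L := fun i => if h : (i : ℕ) < ρ then v ⟨i, h⟩ else 0
  have hv' : ∀ s, mxHS K R.e v s ≤ mxHS K R.e v' s := by
    rintro s _ ⟨α, hα, rfl⟩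
    refine Submodule.sum_mem _ fun k _ => ?_
    have : v' ⟨k, k.2.trans_le hρ⟩ = v k := dif_pos k.2
    rw [← this]
    exact mxHS_single (hα k) _
  have hx : ∀ x ∈ R.B D, ∃ (s : ℕ) (c : MvPolynomial (Fin (n + 1)) K), c.IsHomogeneous s ∧
      c ≠ 0 ∧ aeval R.e c * x ∈ mxHS K R.e v s := by
    intro x hx
    have h1 : ¬ ∀ s, Function.Injective (R.mxLRmap (Fin.cons x v : Fin (ρ + 1) → R.L) s) :=
      fun h => hmax ⟨Fin.cons x v, fun k => Fin.cases hx hv k, h⟩
    obtain ⟨s, hs⟩ := not_forall.1 h1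
    rw [injective_iff_map_eq_zero] at hs
    obtain ⟨α, hα⟩ := not_forall.1 hs
    obtain ⟨h2, h3⟩ := Classical.not_imp.1 hα
    have h4 : aeval R.e (α 0).1 * x + R.mxLRmap v s (fun k => α k.succ) = 0 := by
      simpa [mxLRmap, Fin.sum_univ_succ] using h2
    refine ⟨s, α 0, (α 0).2, fun h => h3 ?_, ?_⟩
    · rw [h, map_zero, zero_mul, zero_add] at h4
      have h5 := (injective_iff_map_eq_zero _).1 (hinj s) _ h4
      funext k
      exact Fin.cases (Subtype.ext h) (congrFun h5) k
    · rw [eq_neg_of_add_eq_zero_left h4]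
      exact neg_mem ⟨fun k => α k.succ, fun k => (α k.succ).2, rfl⟩
  choose s c hc hc0 hcg using fun i => hx (g i) (hgD i)
  refine ⟨D, ∑ i, s i, X 0 ^ D * ∏ i, c i, v', (isHomogeneous_X_pow 0 D).mul
    (IsHomogeneous.prod _ _ _ fun i _ => hc i), ?_, fun k => ?_, fun t b hb => hv' _ ?_⟩
  · exact R.mxLR_ne ((isHomogeneous_X_pow 0 D).mul (IsHomogeneous.prod _ _ _ fun i _ => hc i))
      (mul_ne_zero (pow_ne_zero _ (X_ne_zero _)) (Finset.prod_ne_zero_iff.2 fun i _ => hc0 i))
  · simp only [v']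
    split_ifs
    · exact hv _
    · exact zero_mem _
  · obtain ⟨β, hβ, h⟩ := hg t (R.mul_mem hb (R.mxLR_mem (isHomogeneous_X_pow 0 D)))
    rw [map_mul, mul_right_comm, mul_comm _ b, h, Finset.sum_mul]
    refine Submodule.sum_mem _ fun i _ => ?_
    have := mxHS_mul ((hβ i).mul (IsHomogeneous.prod (Finset.univ.erase i) c s fun j _ => hc j))
      (hcg i)
    rw [add_assoc, Finset.sum_erase_add _ _ (Finset.mem_univ i)] at this
    rw [← Finset.prod_erase_mul _ _ (Finset.mem_univ i)]
    refine (congrArg (· ∈ _) ?_).mp this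
    simp only [map_mul]
    ring

theorem mxLR_rad (N : ℕ) : ∃ N' : ℕ, ∀ x ∈ R.B (N + N'), ∃ b : Fin (n + 1) → R.L,
    (∀ j, b j ∈ R.B N') ∧ x = ∑ j, R.e j ^ N * b j := by
  let J : Ideal R.Bh := Ideal.span (Set.range fun r => R.hom 1 (R.μ r) (R.μ_mem r))
  obtain ⟨t0, h0⟩ := Ideal.exists_pow_le_of_le_radical_of_fg (I := J) (J := R.eI N)
    (Ideal.span_le.2 (by rintro _ ⟨r, rfl⟩; exact R.μ_mem_radical N r))
    (Submodule.fg_span (Set.finite_range _))
  have h1 : ∀ t x (hx : x ∈ R.B t), R.hom t x hx ∈ J ^ t := by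
    intro t
    induction t with
    | zero => simp
    | succ t ih =>
      intro x hx
      obtain ⟨y, hy, rfl⟩ := R.B_succ t x hx
      have e : R.hom (t + 1) _ hx = ∑ r, R.hom t (y r) (hy r) * R.hom 1 (R.μ r) (R.μ_mem r) := by
        refine Subtype.ext ?_
        simp only [hom, AddSubmonoidClass.coe_finsetSum, MulMemClass.coe_mul, map_sum,
          Finset.sum_mul, map_mul]
        exact Finset.sum_congr rfl fun r _ => by ring
      rw [e, pow_succ]
      exact Submodule.sum_mem _ fun r _ => Ideal.mul_mem_mul (ih _ _) (Ideal.subset_span ⟨r, rfl⟩)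
  refine ⟨t0, fun x hx => ?_⟩
  obtain ⟨b, hb⟩ := (Ideal.mem_span_range_iff_exists_fun).1
    (h0 (Ideal.pow_le_pow_right (by omega) (h1 _ x hx)))
  refine ⟨fun j => PowerSeries.coeff t0 (b j).1, fun j => (b j).2 t0, ?_⟩
  have := congrArg (fun f : R.Bh => PowerSeries.coeff (N + t0) f.1) hb
  simp only [coeff_hom, if_true, AddSubmonoidClass.coe_finsetSum, map_sum,
    MulMemClass.coe_mul] at this
  rw [← this]
  refine Finset.sum_congr rfl fun j _ => ?_
  simp only [hom, SubmonoidClass.coe_pow, pow_one, mul_pow, ← mul_assoc, ← map_pow]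
  rw [add_comm, PowerSeries.coeff_mul_X_pow, PowerSeries.coeff_mul_C, mul_comm]

end SegreRing

end Vale.Agent.P202
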