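import Vale.Agent.P202.MxLiftDef
import Vale.Agent.P202.SegreHat
import Vale.Agent.P202.MxLiftRingAux

/-! Finiteness and generic freeness of the lifted Segre ring. -/

namespace Vale.Agent.P202

open MvPolynomial

universe u

/-- homogeneous generic freeness over the field. -/
theorem SegreRing.exists_generic_free {K : Type u} [Field K] {n : ℕ} (R : SegreRing K n) :
    ∃ (C : ℕ) (c : MvPolynomial (Fin (n + 1)) K) (δ : Fin n.factorial → ℕ)
      (v : Fin n.factorial → R.L), c.IsHomogeneous C ∧ aeval R.e c ≠ 0 ∧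
      (∀ k, v k ∈ R.B (δ k)) ∧ ∀ t, ∀ b ∈ R.B t,
        ∃ α : Fin n.factorial → MvPolynomial (Fin (n + 1)) K,
          (∀ k, (δ k ≤ t + C ∧ (α k).IsHomogeneous (t + C - δ k)) ∨ α k = 0) ∧
          aeval R.e c * b = ∑ k, aeval R.e (α k) * v k := by
  obtain ⟨D, C', c, v, hc, h0, hv, h⟩ := R.mxLR_free
  refine ⟨D + C', c, fun _ => D, v, hc, h0, hv, fun t b hb => ?_⟩
  obtain ⟨α, hα, e⟩ := h t b hb
  refine ⟨α, fun k => Or.inl ⟨by beta_reduce; omega, ?_⟩, e⟩
  rw [show t + (D + C') - D = t + C' by omega]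
  exact hα k

variable {V K : Type u} [CommRing V] [IsLocalRing V] [Field K] [Algebra V K] {π : V} {n : ℕ}
  {R : SegreRing K n} (RV : LiftRing V π R)

theorem LiftRing.aeval_mem {s : ℕ} {f : MvPolynomial (Fin (n + 1)) V} (hf : f.IsHomogeneous s) :
    aeval RV.e f ∈ RV.B s := by
  exact mxLR_aeval_mem RV.B RV.one_mem RV.mul_mem RV.e_mem hf

theorem LiftRing.red_aeval (f : MvPolynomial (Fin (n + 1)) V) :
    RV.red (aeval RV.e f) = aeval R.e (map (algebraMap V K) f) := by
  induction f using MvPolynomial.induction_on with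
  | C a => simp [RV.red_algebraMap]
  | add p q hp hq => simp [hp, hq]
  | mul_X p j hp => simp [hp, RV.red_e]

/-- in high degree, every element lies in the ideal generated by powers of the parameters. -/
theorem LiftRing.exists_rad (hπ : algebraMap V K π = 0) (N : ℕ) : ∃ N' : ℕ,
    ∀ x ∈ RV.B (N + N'), ∃ b : Fin (n + 1) → RV.L, (∀ j, b j ∈ RV.B N') ∧
      x = ∑ j, RV.e j ^ N * b j := by
  obtain ⟨N', h⟩ := R.mxLR_rad N
  refine ⟨N', ?_⟩
  let W : Submodule V RV.L :=
    { carrier := {x | ∃ b : Fin (n + 1) → RV.L, (∀ j, b j ∈ RV.B N') ∧ x = ∑ j, RV.e j ^ N * b j}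
      add_mem' := by
        rintro _ _ ⟨b, hb, rfl⟩ ⟨b', hb', rfl⟩
        exact ⟨b + b', fun j => add_mem (hb j) (hb' j), by simp [mul_add, Finset.sum_add_distrib]⟩
      zero_mem' := ⟨0, fun _ => zero_mem _, by simp⟩
      smul_mem' := by
        rintro c _ ⟨b, hb, rfl⟩
        exact ⟨c • b, fun j => Submodule.smul_mem _ _ (hb j), by simp [Finset.smul_sum]⟩ }
  have hπ' : Ideal.span {π} ≤ Ideal.jacobson ⊥ := by
    rw [IsLocalRing.jacobson_eq_maximalIdeal _ bot_ne_top, Ideal.span_singleton_le_iff_mem,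
      IsLocalRing.mem_maximalIdeal]
    intro hu
    exact (hu.map (algebraMap V K)).ne_zero hπ
  change RV.B (N + N') ≤ W
  refine Submodule.le_of_le_smul_of_le_jacobson_bot (RV.fg_B _) hπ' fun x hx => ?_
  obtain ⟨b, hb, e⟩ := h _ (RV.red_mem _ x hx)
  choose b' hb' hb'' using fun j => RV.red_lift _ _ (hb j)
  have hm : ∑ j, RV.e j ^ N * b' j ∈ RV.B (N + N') := Submodule.sum_mem _ fun j _ => by
    have := RV.aeval_mem (isHomogeneous_X_pow (R := V) j N)
    rw [map_pow, aeval_X] at this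
    exact RV.mul_mem this (hb' j)
  obtain ⟨x', hx', e'⟩ := RV.red_pure _ _ (sub_mem hx hm) (by simp [e, hb'', RV.red_e])
  rw [eq_add_of_sub_eq' e']
  exact Submodule.add_mem_sup ⟨b', hb', rfl⟩
    (Submodule.smul_mem_smul (Ideal.mem_span_singleton_self π) hx')

/-- homogeneous generic freeness modulo a power of `π`. -/
theorem LiftRing.exists_generic_free (hsurj : Function.Surjective (algebraMap V K)) (s : ℕ) :
    ∃ (C : ℕ) (c : MvPolynomial (Fin (n + 1)) V) (δ : Fin n.factorial → ℕ)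
      (v : Fin n.factorial → RV.L), c.IsHomogeneous C ∧ RV.red (aeval RV.e c) ≠ 0 ∧
      (∀ k, v k ∈ RV.B (δ k)) ∧ ∀ t, ∀ b ∈ RV.B t,
        ∃ (α : Fin n.factorial → MvPolynomial (Fin (n + 1)) V) (b' : RV.L),
          (∀ k, (δ k ≤ t + C ∧ (α k).IsHomogeneous (t + C - δ k)) ∨ α k = 0) ∧
          b' ∈ RV.B (t + C) ∧
          aeval RV.e c * b = ∑ k, aeval RV.e (α k) * v k + π ^ s • b' := by
  have lift : ∀ (r : ℕ) (f : MvPolynomial (Fin (n + 1)) K), f.IsHomogeneous r →
      ∃ g : MvPolynomial (Fin (n + 1)) V, g.IsHomogeneous r ∧ map (algebraMap V K) g = f := by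
    intro r f hf
    obtain ⟨g, rfl⟩ := map_surjective _ hsurj f
    refine ⟨homogeneousComponent r g, homogeneousComponent_isHomogeneous _ _, ?_⟩
    ext d
    rw [coeff_map, coeff_homogeneousComponent]
    split_ifs with h
    · rw [coeff_map]
    · rw [map_zero, hf.coeff_eq_zero h]
  obtain ⟨D, C', c, v, hc, h0, hv, h⟩ := R.mxLR_free
  obtain ⟨c', hc', rfl⟩ := lift _ c hc
  choose v' hv' hvv using fun k => RV.red_lift _ _ (hv k)
  have one : ∀ t, ∀ b ∈ RV.B t, ∃ x ∈ mxHS V RV.e v' (t + C'), ∃ b' ∈ RV.B (D + C' + t),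
      aeval RV.e c' * b = x + π • b' := by
    intro t b hb
    obtain ⟨α, hα, e⟩ := h t _ (RV.red_mem _ b hb)
    choose α' hα' hαα using fun k => lift _ _ (hα k)
    have hm : ∑ k, aeval RV.e (α' k) * v' k ∈ RV.B (D + C' + t) := Submodule.sum_mem _ fun k _ => by
      rw [show D + C' + t = t + C' + D by omega]
      exact RV.mul_mem (RV.aeval_mem (hα' k)) (hv' k)
    obtain ⟨b', hb', e'⟩ := RV.red_pure _ _ (sub_mem (RV.mul_mem (RV.aeval_mem hc') hb) hm)
      (by simp only [map_sub, map_mul, map_sum, RV.red_aeval, hαα, hvv, e, sub_self])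
    exact ⟨_, ⟨α', hα', rfl⟩, b', hb', eq_add_of_sub_eq' e'⟩
  have iter : ∀ s t, ∀ b ∈ RV.B t, ∃ x ∈ mxHS V RV.e v' (t + (D + C') * s + C'),
      ∃ b' ∈ RV.B (t + (D + C') * (s + 1)), aeval RV.e (c' ^ (s + 1)) * b = x + π ^ s • b' := by
    intro s t b hb
    induction s with
    | zero =>
      refine ⟨0, zero_mem _, aeval RV.e c' * b, ?_, by simp⟩
      rw [zero_add, mul_one, add_comm]
      exact RV.mul_mem (RV.aeval_mem hc') hb
    | succ s ih =>
      obtain ⟨x, hx, b', hb', e⟩ := ih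
      obtain ⟨x', hx', b'', hb'', e'⟩ := one _ b' hb'
      refine ⟨aeval RV.e c' * x + π ^ s • x', add_mem ?_ (Submodule.smul_mem _ _ hx'), b'', ?_, ?_⟩
      · rw [show t + (D + C') * (s + 1) + C' = D + C' + (t + (D + C') * s + C') by ring]
        exact mxHS_mul hc' hx
      · rwa [show t + (D + C') * (s + 1 + 1) = D + C' + (t + (D + C') * (s + 1)) by ring]
      · rw [pow_succ' c', map_mul, mul_assoc, e, mul_add, mul_smul_comm, e', smul_add, smul_smul,
          ← pow_succ, add_assoc]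
  refine ⟨(D + C') * (s + 1), c' ^ (s + 1), fun _ => D, v', hc'.pow _, ?_, hv', fun t b hb => ?_⟩
  · rw [map_pow, map_pow, RV.red_aeval]
    exact pow_ne_zero _ h0
  · obtain ⟨_, ⟨α, hα, rfl⟩, b', hb', e⟩ := iter s t b hb
    have e1 : t + (D + C') * (s + 1) = t + (D + C') * s + C' + D := by ring
    refine ⟨α, b', fun k => Or.inl ⟨by beta_reduce; omega, ?_⟩, hb', e⟩
    rw [e1, Nat.add_sub_cancel]
    exact hα k

end Vale.Agent.P202
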