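import Vale.Agent.P202.MxLBAux2
import Vale.Agent.P202.MxLiftRing
import Vale.Agent.P202.LCAux

/-! The descent argument for a lifted system. -/

namespace Vale.Agent.P202.LB

open TensorProduct

universe u

variable {V K : Type u} [CommRing V] [Field K] [Algebra V K] {π : V} {n : ℕ}
  {R : SegreRing K n} {RV : LiftRing V π R} {a : ℕ} {S : CechSys R a} (SV : LiftSys RV S)
  (T H : Type*) [CommRing T] [Algebra V T] [AddCommGroup H] [Module T H] [Module V H]
  [IsScalarTower V T H] (y : Fin (n + 1) → T)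

/-- the parameters as operators. -/
noncomputable def EE (j : Fin (n + 1)) : Module.End T (H ⊗[V] SV.M) := lT T H (SV.act (RV.e j))

theorem comm_EE (f : Module.End V SV.M) (hf : ∀ b x, f (SV.act b x) = SV.act b (f x))
    (j : Fin (n + 1)) : lT T H f * EE SV T H j = EE SV T H j * lT T H f := by
  rw [EE, ← lT_mul, ← lT_mul]
  exact congrArg _ (LinearMap.ext (hf _))

theorem act_comm (b b' : RV.L) (x : SV.M) : SV.act b (SV.act b' x) = SV.act b' (SV.act b x) := by
  rw [← Module.End.mul_apply, ← map_mul, mul_comm, map_mul, Module.End.mul_apply]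

theorem EE_comm (i j : Fin (n + 1)) : EE SV T H i * EE SV T H j = EE SV T H j * EE SV T H i :=
  comm_EE SV T H _ (fun _ _ => act_comm SV _ _ _) j

/-- the augmented complex. -/
def Ψv : ℕ → ℤ → Submodule V SV.M
  | 0 => SV.U
  | l + 1 => fun t => SV.C t l

/-- the augmented differential. -/
noncomputable def Dv : ℕ → Module.End V SV.M
  | 0 => LinearMap.id
  | _ + 1 => SV.d

theorem Dv_act : ∀ l b x, Dv SV l (SV.act b x) = SV.act b (Dv SV l x)
  | 0, _, _ => rfl
  | _ + 1, b, x => SV.d_act b x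

theorem Dv_Ψv : ∀ l t, ∀ x ∈ Ψv SV l t, Dv SV l x ∈ SV.C t l
  | 0, t, _, hx => SV.U_le t hx
  | l + 1, t, x, hx => by
      have := SV.d_C t l x hx
      exact_mod_cast this

theorem d_Dv : ∀ l t, ∀ x ∈ Ψv SV l t, SV.d (Dv SV l x) = 0
  | 0, t, x, hx => SV.d_U t x hx
  | _ + 1, _, x, _ => SV.d_d x

theorem lift_Ψv : ∀ l t, ∀ x' ∈ S.Ψ' l t, ∃ x ∈ Ψv SV l t, SV.red x = x'
  | 0, t => SV.lift_U t
  | l + 1, t => SV.lift_C t l

/-- the differential over the field. -/
noncomputable def Dk (S : CechSys R a) : ℕ → Module.End K S.M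
  | 0 => LinearMap.id
  | _ + 1 => S.d

theorem Dk_eq (S : CechSys R a) : ∀ l x, Dk S l x = S.D' l x
  | 0, _ => rfl
  | _ + 1, _ => rfl

theorem red_Dv : ∀ l x, SV.red (Dv SV l x) = Dk S l (SV.red x)
  | 0, _ => rfl
  | _ + 1, x => SV.red_d x

/-- elementary classes. -/
noncomputable def el (t : ℤ) (m : SV.M) : H →ₗ[T] MM y (EE SV T H) :=
  (rel y (EE SV T H)).mkQ ∘ₗ Finsupp.lsingle t ∘ₗ (AlgebraTensorModule.mk V T H SV.M).flip m

theorem el_apply (t : ℤ) (m : SV.M) (h : H) :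
    el SV T H y t m h = (rel y (EE SV T H)).mkQ (Finsupp.single t (h ⊗ₜ m)) := rfl

theorem smul_homog {k : ℕ} {α : MvPolynomial (Fin (n + 1)) V} (hα : α.IsHomogeneous k)
    (g : ℤ →₀ H ⊗[V] SV.M) : MvPolynomial.aeval y α • (rel y (EE SV T H)).mkQ g =
      (rel y (EE SV T H)).mkQ (sh k (lT T H (SV.act (MvPolynomial.aeval RV.e α))) g) := by
  have hsm : ∀ (v : V) (b : RV.L) (k : ℤ) (g : ℤ →₀ H ⊗[V] SV.M),
      sh k (lT T H (SV.act (v • b))) g = algebraMap V T v • sh k (lT T H (SV.act b)) g := by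
    intro v b k g
    refine Finsupp.ext fun t => ?_
    rw [Finsupp.smul_apply, sh_apply, sh_apply, map_smul, lT, map_smul, algebraMap_smul]
    rfl
  have hadd : ∀ (b b' : RV.L) (k : ℤ) (g : ℤ →₀ H ⊗[V] SV.M), sh k (lT T H (SV.act (b + b'))) g =
      sh k (lT T H (SV.act b)) g + sh k (lT T H (SV.act b')) g := by
    intro b b' k g
    refine Finsupp.ext fun t => ?_
    rw [Finsupp.add_apply, sh_apply, sh_apply, sh_apply, map_add, lT, map_add]
    rfl
  rw [← MvPolynomial.mem_homogeneousSubmodule, ← MvPolynomial.homogeneousSubmodule_one_pow] at hα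
  induction hα using Submodule.pow_induction_on_left' with
  | algebraMap r =>
    rw [AlgHom.commutes, AlgHom.commutes, Algebra.algebraMap_eq_smul_one (A := RV.L), hsm, map_smul]
    congr 2
    refine Finsupp.ext fun t => ?_
    rw [sh_apply, map_one, Nat.cast_zero, sub_zero, lT, Module.End.one_eq_id,
      AlgebraTensorModule.lTensor_id]
    rfl
  | add p p' i _ _ h h' => rw [map_add, add_smul, h, h', map_add, hadd, map_add]
  | mem_mul m hm i p _ h =>
    rw [MvPolynomial.homogeneousSubmodule_one_eq_span_X] at hm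
    induction hm using Submodule.span_induction with
    | mem m hm =>
      obtain ⟨j, rfl⟩ := hm
      rw [map_mul, mul_smul, h, MvPolynomial.aeval_X, smul_mk, ← Module.End.mul_apply, sh_mul,
        map_mul, map_mul, lT_mul, MvPolynomial.aeval_X, Nat.cast_succ, add_comm (1 : ℤ)]
      rfl
    | zero =>
      rw [zero_mul, map_zero, map_zero, zero_smul, ← zero_smul V (0 : RV.L), hsm, map_zero,
        zero_smul, map_zero]
    | add m m' _ _ h1 h2 => rw [add_mul, map_add, add_smul, h1, h2, map_add, hadd, map_add]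
    | smul v m _ h1 =>
      rw [smul_mul_assoc, map_smul, map_smul, hsm, map_smul, ← h1, ← algebraMap_smul T v,
        smul_assoc]

theorem el_homog {k : ℕ} {α : MvPolynomial (Fin (n + 1)) V} (hα : α.IsHomogeneous k) (t : ℤ)
    (m : SV.M) (h : H) : el SV T H y (t + k) (SV.act (MvPolynomial.aeval RV.e α) m) h =
      el SV T H y t m (MvPolynomial.aeval y α • h) := by
  rw [map_smul, el_apply, el_apply, smul_homog SV T H y hα, sh_single, lT_tmul]

theorem el_mem {W : ℤ → Submodule V SV.M} {t : ℤ} {m : SV.M} (hm : m ∈ W t) (h : H) :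
    el SV T H y t m h ∈ im y (EE SV T H) fun t => tT T H (W t) :=
  ⟨_, single_mem_fam (W := fun t => tT T H (W t)) (tmul_mem_tT h hm), rfl⟩

theorem contr [IsLocalRing V] (hπ0 : algebraMap V K π = 0) {β : ℕ → Type} [∀ i, Fintype (β i)]
    [∀ i, DecidableEq (β i)] (φ : ∀ i, Matrix (β i) (β (i + 1)) T)
    (hy : ∀ j, ∃ N₀ : ℕ, NullHtpy φ (y j ^ N₀)) (c : ℤ) (l : ℕ)
    (ζ : β (l + 1) → MM y (EE SV T H))
    (hζ : ∀ r, ζ r ∈ im y (EE SV T H) fun t => tT T H (SV.C t l))
    (hζ' : ∀ r, mact (φ l) ζ r ∈ im y (EE SV T H) fun t => tT T H (SV.Kc c t l)) :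
    ∃ ξ : β (l + 2) → MM y (EE SV T H),
      (∀ r, ξ r ∈ im y (EE SV T H) fun t => tT T H (SV.C t l)) ∧
      ∀ r, (1 : T) • ζ r - mact (φ (l + 1)) ξ r ∈
        im y (EE SV T H) fun t => tT T H (SV.Kc c t l) := by
  choose N₀ hN₀ using hy
  obtain ⟨N, hN⟩ : ∃ N : ℕ, ∀ j, NullHtpy φ (y j ^ (N + 1)) := by
    refine ⟨∑ i, N₀ i, fun j => ?_⟩
    have h1 : N₀ j ≤ ∑ i, N₀ i :=
      Finset.single_le_sum (f := N₀) (fun _ _ => Nat.zero_le _) (Finset.mem_univ j)
    have h2 := (hN₀ j).mul (y j ^ (∑ i, N₀ i + 1 - N₀ j))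
    rwa [← pow_add, Nat.sub_add_cancel (by omega)] at h2
  obtain ⟨N', hN'⟩ := RV.exists_rad hπ0 (N + 1)
  have hμ : ∀ r (k : ℕ), RV.μ r ^ k ∈ RV.B k := fun r k => by
    induction k with
    | zero => simpa using RV.one_mem
    | succ k ih => rw [pow_succ]; exact RV.mul_mem ih (RV.μ_mem r)
  choose b hb hb' using fun r => hN' _ (hμ r (N + 1 + N'))
  have hθ : ∀ r (k : ℕ) b x, (SV.θ r ^ k) (SV.act b x) = SV.act b ((SV.θ r ^ k) x) := by
    intro r k b x
    induction k with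
    | zero => rfl
    | succ k ih => rw [pow_succ', Module.End.mul_apply, ih, SV.θ_act, Module.End.mul_apply]
  have hW : ∀ (W : ℤ → Submodule V SV.M),
      (∀ (s : ℕ), ∀ b ∈ RV.B s, ∀ t, ∀ x ∈ W t, SV.act b x ∈ W (t + s)) →
      (∀ r t, ∀ x ∈ W t, SV.θ r x ∈ W (t - 1)) → ∀ r j t, ∀ x ∈ W t,
      (SV.act (b r j) * SV.θ r ^ (N + 1 + N')) x ∈ W (t + -((N + 1 : ℕ) : ℤ)) := by
    intro W h1 h2 r j t x hx
    have h3 : ∀ k : ℕ, (SV.θ r ^ k) x ∈ W (t - k) := fun k => by
      induction k with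
      | zero => simpa using hx
      | succ k ih =>
        have := h2 r _ _ ih
        rw [pow_succ', Module.End.mul_apply, Nat.cast_succ, ← sub_sub]
        exact this
    have h4 := h1 N' _ (hb r j) _ _ (h3 (N + 1 + N'))
    have e : t - ((N + 1 + N' : ℕ) : ℤ) + N' = t + -((N + 1 : ℕ) : ℤ) := by push_cast; ring
    rwa [e] at h4
  refine contr_of_partition φ _ _ 1 (ι := R.ι × Fin (n + 1))
    (fun i => op y (EE SV T H) (-((N + 1 : ℕ) : ℤ))
      (lT T H (SV.act (b i.1 i.2) * SV.θ i.1 ^ (N + 1 + N')))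
      (comm_EE SV T H _ fun b' x => by
        rw [Module.End.mul_apply, Module.End.mul_apply, hθ, act_comm]))
    (fun i => y i.2 ^ (N + 1)) (fun i x hx => op_mem_im _ _ _ _ _ (fun t x hx => lT_mem_tT _
      (hW (fun t => SV.C t l) (fun s b hb t => SV.act_C s b hb t l) (fun r t => SV.θ_C r t l)
        i.1 i.2 t) hx) hx)
    (fun i x hx => op_mem_im _ _ _ _ _ (fun t x hx => lT_mem_tT _
      (hW (fun t => SV.Kc c t l) (fun s b hb t => SV.act_Kc s b hb c t l)
        (fun r t => SV.θ_Kc r c t l) i.1 i.2 t) hx) hx) (fun x => ?_) (fun i => hN i.2) l ζ hζ hζ'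
  obtain ⟨g, rfl⟩ := Submodule.mkQ_surjective _ x
  have e1 : ∀ j : Fin (n + 1), y j ^ (N + 1) = MvPolynomial.aeval y
      ((MvPolynomial.X j : MvPolynomial (Fin (n + 1)) V) ^ (N + 1)) := fun j => by simp
  simp only [op_mk, e1, smul_homog SV T H y (MvPolynomial.isHomogeneous_X_pow _ _)]
  rw [one_smul, ← map_sum]
  refine congrArg _ (Finsupp.ext fun t => ?_)
  rw [Finsupp.finset_sum_apply]
  simp only [sh_apply, sub_neg_eq_add, sub_add_cancel]
  induction g t using TensorProduct.induction_on with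
  | zero => simp
  | add x x' h h' =>
    simp only [map_add, Finset.sum_add_distrib]
    rw [← h, ← h']
  | tmul h m =>
    simp only [lT_tmul]
    rw [← tmul_sum, Fintype.sum_prod_type]
    congr 1
    conv_lhs => rw [← SV.θ_sum m]
    refine Finset.sum_congr rfl fun r _ => ?_
    have e2 : IsIdempotentElem (SV.act (RV.μ r) * SV.θ r) := LinearMap.ext (SV.θ_idem r)
    have e3 : Commute (SV.act (RV.μ r)) (SV.θ r) := LinearMap.ext fun x => (SV.θ_act r _ x).symm
    have e4 := e2.pow_succ_eq (N + N')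
    rw [e3.mul_pow, ← map_pow, show N + N' + 1 = N + 1 + N' by ring, hb' r] at e4
    rw [← Module.End.mul_apply, ← e4, map_sum, Finset.sum_mul, LinearMap.sum_apply]
    exact Finset.sum_congr rfl fun j _ => by simp

variable {T H y}

theorem good_tT (hsurj : Function.Surjective (algebraMap V K))
    (hker : ∀ v, algebraMap V K v = 0 ↔ π ∣ v) (hπ : algebraMap V T π ∈ Ideal.span (Set.range y))
    (W : ℤ → Submodule V SV.M)
    (h1 : ∀ (s : ℕ), ∀ b ∈ RV.B s, ∀ t, ∀ x ∈ W t, SV.act b x ∈ W (t + s))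
    (h2 : ∀ t, ∀ x ∈ W t, SV.red x = 0 → ∃ x' ∈ W t, x = π • x') :
    Good y (EE SV T H) fun t => tT T H (W t) := by
  obtain ⟨_, q, hq, hq0⟩ := exists_quot (H := H) π hsurj hker hπ
  exact ⟨fun j t x hx => lT_mem_tT _ (by simpa using h1 1 _ (RV.e_mem j) t) hx,
    fun t x hx hx' => mem_yW_of_rho hsurj hπ hq hq0 (h2 t) hx (rho_yW hq0 hx')⟩

theorem desc [IsLocalRing V] (hsurj : Function.Surjective (algebraMap V K))
    (hker : ∀ v, algebraMap V K v = 0 ↔ π ∣ v) (hπ : algebraMap V T π ∈ Ideal.span (Set.range y))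
    (hK : Kos y (H ⊗[V] SV.M)) {β : ℕ → Type} [∀ i, Fintype (β i)] [∀ i, DecidableEq (β i)]
    (φ : ∀ i, Matrix (β i) (β (i + 1)) T) (hφφ : ∀ i, φ i * φ (i + 1) = 0)
    (hβ : ∀ i, n + 1 < i → IsEmpty (β i)) (hφ : ∀ i r r', φ i r r' ∈ Ideal.span (Set.range y) ^ a)
    (hy : ∀ j, ∃ N₀ : ℕ, NullHtpy φ (y j ^ N₀)) (c : ℤ) (σ : β 1 → MM y (EE SV T H))
    (hσ : ∀ r, σ r ∈ im y (EE SV T H) fun t => tT T H (SV.U t))
    (hσ' : ∀ r, mact (φ 0) σ r ∈ im y (EE SV T H) fun t => tT T H (SV.Kc c t 0)) (r : β 0) :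
    mact (φ 0) σ r ∈ Fil y (EE SV T H) (c + a) := by
  obtain ⟨_, q, hq, hq0⟩ := exists_quot (H := H) π hsurj hker hπ
  have gU := good_tT (H := H) SV hsurj hker hπ SV.U SV.act_U SV.pure_U
  have gC := fun l => good_tT (H := H) SV hsurj hker hπ (fun t => SV.C t l)
    (fun s b hb t => SV.act_C s b hb t l) fun t => SV.pure_C t l
  have gK := fun l => good_tT (H := H) SV hsurj hker hπ (fun t => SV.Kc c t l)
    (fun s b hb t => SV.act_Kc s b hb c t l) fun t => SV.pure_Kc c t l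
  have hid : ∀ x, op y (EE SV T H) 0 (lT T H (Dv SV 0)) (comm_EE SV T H _ (Dv_act SV 0)) x = x := by
    intro x
    obtain ⟨g, rfl⟩ := Submodule.mkQ_surjective _ x
    rw [op_mk]
    refine congrArg _ (Finsupp.ext fun t => ?_)
    rw [sh_apply, sub_zero, Dv, lT, AlgebraTensorModule.lTensor_id]
    rfl
  have hdK : ∀ (l : ℕ) t, ∀ x ∈ SV.Kc c t l, SV.d x ∈ SV.Kc c t (l + 1 : ℕ) := fun l t x hx => by
    exact_mod_cast SV.d_Kc c t l x hx
  have hsup : ∀ A B C : Submodule T (MM y (EE SV T H)), A ⊓ B ⊔ C ≤ B ⊔ C :=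
    fun _ _ _ => sup_le_sup_right inf_le_right _
  have h := descent (n + 1) a c 1 β φ hφφ hβ
    (fun l => im y (EE SV T H) fun t => tT T H (Ψv SV l t))
    (fun l => im y (EE SV T H) fun t => tT T H (SV.Kc c t (l - 1 : ℕ)))
    (fun l => op y (EE SV T H) 0 (lT T H (Dv SV l)) (comm_EE SV T H _ (Dv_act SV l)))
    (Fil y (EE SV T H))
    (fun l x hx => op_mem_im _ _ _ _ _ (fun t x hx => lT_mem_tT _
      (by rw [add_zero]; exact Dv_Ψv SV l t) hx) hx)
    (fun l x hx => op_mem_im _ _ _ _ _ (fun t x hx => lT_mem_tT _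
      (by rw [add_zero]; exact hdK l t) hx) hx)
    (fun l x hx => by
      obtain ⟨g, hg, rfl⟩ := hx
      rw [op_mk, op_mk, ← map_zero (rel y (EE SV T H)).mkQ]
      refine congrArg _ (Finsupp.ext fun t => ?_)
      rw [sh_apply, sh_apply, sub_zero, sub_zero, ← Module.End.mul_apply, ← lT_mul]
      exact lT_eq_zero _ (d_Dv SV l t) (hg t))
    (fun i r s τ x hx => smul_mem_Fil _ _ (hφ i r s) τ hx)
    (contr SV T H y ((hker π).2 dvd_rfl) φ hy c)
    (fun x hx hx' => by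
      obtain ⟨z, -, hz⟩ := van (K₀ := fun _ => tT T H ⊥) (Y := fun _ => tT T H ⊥) (EE_comm SV T H)
        hK gU (gK 0) (lT T H (Dv SV 0)) 0 (comm_EE SV T H _ (Dv_act SV 0)) (by simp)
        (by simp) (fun t x hx => lT_mem_tT _ (by simp) hx) (by simp)
        (fun t => tT_mono bot_le) c
        (fun t ht x hx hx' => by
          simpa [lT] using van_pt (Y := ⊥) (K₀ := ⊥) (Y' := ⊥) (K₀' := ⊥) hsurj hπ hq hq0
            (SV.pure_U t) (SV.red_U t) (SV.red_Kc c t 0) (by simp) (by simp) (Dv SV 0) 0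
            LinearMap.id 0 (fun _ => rfl) (by simp) (by simp) bot_le
            (fun x hx hx' => ⟨0, zero_mem _, by simpa using S.van0' c t ht x hx hx'⟩) x hx hx')
        hx (hsup _ _ _ hx')
      have h0 : op y (EE SV T H) 0 0 (by simp) z = 0 := by
        obtain ⟨g, rfl⟩ := Submodule.mkQ_surjective _ z
        rw [op_mk, ← map_zero (rel y (EE SV T H)).mkQ]
        exact congrArg _ (Finsupp.ext fun t => by simp [sh_apply])
      rw [h0, sub_zero] at hz
      obtain ⟨f, hf, _, ⟨g, hg, rfl⟩, rfl⟩ := Submodule.mem_sup.1 (hsup _ _ _ hz)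
      refine add_mem hf ⟨g, fun t _ => ?_, rfl⟩
      simpa [lT] using lT_eq_zero (T := T) (H := H) LinearMap.id (by simp) (hg t))
    (fun l hl x hx hx' => van (K₀ := fun t => tT T H (SV.Kc c t l))
      (Y := fun t => tT T H (Ψv SV l t)) (EE_comm SV T H) hK (gC l) (gK (l + 1 : ℕ))
      (lT T H SV.d) (lT T H (Dv SV l)) (comm_EE SV T H _ SV.d_act)
      (comm_EE SV T H _ (Dv_act SV l))
      (fun t x hx => by
        rw [← Module.End.mul_apply, ← lT_mul]
        exact lT_eq_zero _ (d_Dv SV l t) hx)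
      (fun t x hx => lT_mem_tT _ (hdK l t) hx) (fun t x hx => lT_mem_tT _ (Dv_Ψv SV l t) hx)
      (fun t => tT_mono (SV.Kc_le c t l)) _
      (fun t ht => van_pt hsurj hπ hq hq0 (SV.pure_C t l) (SV.red_C t l)
        (SV.red_Kc c t (l + 1 : ℕ)) (SV.lift_Kc c t l) (lift_Ψv SV l t) SV.d (Dv SV l) S.d
        (Dk S l) SV.red_d (red_Dv SV l) (Dv_Ψv SV l t) (SV.Kc_le c t l) fun x hx hx' => by
          simpa only [Dk_eq] using S.vanS' c t l (by omega) ht x hx (by exact_mod_cast hx'))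
      hx (hsup _ _ _ hx'))
    σ hσ (fun r => by rw [hid]; exact hσ' r) r
  rwa [one_pow, one_smul] at h

end Vale.Agent.P202.LB
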