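import Mathlib

/-! Projections onto the members of the Vandermonde flag over a local ring. -/

namespace Vale.Agent.P202

/-- the `c`-th member of the flag, over a ring. -/
def GcV {V : Type*} [CommRing V] {m : ℕ} (β : Fin m → V) (c : ℤ) :
    Submodule V (Fin m × ℤ →₀ V) where
  carrier := {f | ∀ i : ℕ, (i : ℤ) < c → ∀ s : ℤ, ∑ e : Fin m, β e ^ i * f (e, s - (e : ℕ)) = 0}
  add_mem' := fun {f g} hf hg i hi s => by
    simp only [Finsupp.add_apply, mul_add, Finset.sum_add_distrib, hf i hi s, hg i hi s, add_zero]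
  zero_mem' := fun i _ s => by simp
  smul_mem' := fun a f hf i hi s => by
    simp only [Finsupp.smul_apply, smul_eq_mul, mul_left_comm _ a, ← Finset.mul_sum, hf i hi s,
      mul_zero]

open Polynomial in
/-- Lagrange interpolation at nodes with unit differences. -/
theorem mxVand_lagr {V : Type*} [CommRing V] [Nontrivial V] {m : ℕ} (β : Fin m → V)
    (hβ : ∀ e e', e ≠ e' → IsUnit (β e - β e')) (S : Finset (Fin m)) :
    ∃ l : Fin m → V[X], (∀ e' ∈ S, (l e').natDegree < S.card) ∧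
      (∀ e' ∈ S, ∀ e ∈ S, (l e').eval (β e) = if e = e' then 1 else 0) ∧
      ∀ i < S.card, ∀ x, ∑ e' ∈ S, β e' ^ i * (l e').eval x = x ^ i := by
  have hu : ∀ e', IsUnit (∏ e ∈ S.erase e', (β e' - β e)) := fun e' =>
    IsUnit.prod_iff.2 fun e he => hβ _ _ (Finset.ne_of_mem_erase he).symm
  let l : Fin m → V[X] := fun e' => C ((hu e').unit⁻¹ : Vˣ).1 * ∏ e ∈ S.erase e', (X - C (β e))
  have h1 : ∀ e' ∈ S, (l e').natDegree < S.card := fun e' he' => by
    refine (natDegree_C_mul_le _ _).trans_lt ?_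
    rw [natDegree_prod_of_monic _ _ fun _ _ => monic_X_sub_C _]
    simp only [natDegree_X_sub_C, Finset.sum_const, smul_eq_mul, mul_one]
    exact Finset.card_erase_lt_of_mem he'
  have h2 : ∀ e' ∈ S, ∀ e ∈ S, (l e').eval (β e) = if e = e' then 1 else 0 := by
    intro e' _ e he
    simp only [l, eval_mul, eval_C, eval_prod, eval_sub, eval_X]
    split_ifs with h
    · rw [h]; exact (hu e').val_inv_mul
    · exact mul_eq_zero_of_right _ (Finset.prod_eq_zero (Finset.mem_erase.2 ⟨h, he⟩) (sub_self _))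
  refine ⟨l, h1, h2, fun i hi x => ?_⟩
  have h3 : ∑ e' ∈ S, C (β e' ^ i) * l e' - X ^ i = 0 := by
    by_contra h0
    refine (monic_prod_of_monic S _ fun e _ => monic_X_sub_C (β e)).not_dvd_of_natDegree_lt h0 ?_ ?_
    · rw [natDegree_prod_of_monic _ _ fun _ _ => monic_X_sub_C _]
      simp only [natDegree_X_sub_C, Finset.sum_const, smul_eq_mul, mul_one]
      refine (natDegree_sub_le _ _).trans_lt (max_lt ?_ ((natDegree_X_pow_le _).trans_lt hi))
      refine (natDegree_sum_le_of_forall_le S _ (n := S.card - 1) fun e he => ?_).trans_lt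
        (by omega)
      exact (natDegree_C_mul_le _ _).trans (by have := h1 e he; omega)
    · refine Finset.prod_dvd_of_coprime (fun e _ e' _ h =>
        isCoprime_X_sub_C_of_isUnit_sub (hβ e e' h)) fun e he => dvd_iff_isRoot.2 ?_
      rw [IsRoot, eval_sub, eval_finsetSum, Finset.sum_eq_single_of_mem e he]
      · simp [h2 e he e he]
      · intro e' he' h
        simp [h2 e' he' e he, h.symm]
  have h4 := congrArg (eval x) h3
  rw [eval_sub, eval_finsetSum, eval_zero, sub_eq_zero] at h4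
  simpa using h4

open Polynomial in
theorem mxVand_piv {V : Type*} [CommRing V] [Nontrivial V] {m : ℕ} (β : Fin m → V)
    (hβ : ∀ e e', e ≠ e' → IsUnit (β e - β e')) (c : ℤ) (E : Finset (Fin m)) :
    ∃ (S : Finset (Fin m)) (l : Fin m → V[X]), S ⊆ E ∧ (∀ e' ∈ S, ((l e').natDegree : ℤ) < c) ∧
      ∀ i : ℕ, (i : ℤ) < c → ∀ e ∈ E, ∑ e' ∈ S, β e' ^ i * (l e').eval (β e) = β e ^ i := by
  by_cases h : E.card ≤ c.toNat
  · obtain ⟨l, h1, h2, -⟩ := mxVand_lagr β hβ E
    refine ⟨E, l, subset_rfl, fun e he => by have := h1 e he; omega, fun i _ e he => ?_⟩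
    rw [Finset.sum_eq_single_of_mem e he]
    · simp [h2 e he e he]
    · intro e' he' h
      simp [h2 e' he' e he, h.symm]
  · obtain ⟨S, hS, hc⟩ := Finset.exists_subset_card_eq (not_le.1 h).le
    obtain ⟨l, h1, -, h3⟩ := mxVand_lagr β hβ S
    exact ⟨S, l, hS, fun e he => by have := h1 e he; omega, fun i hi e _ => h3 i (by omega) _⟩

theorem mxVand_kill {V W : Type*} [CommRing V] [CommRing W] (ρ : V →+* W) {m : ℕ} (β : Fin m → V)
    {c : ℤ} {q : Polynomial V} (hq : (q.natDegree : ℤ) < c) (x : Fin m → V)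
    (h : ∀ i : ℕ, (i : ℤ) < c → ∑ e, ρ (β e) ^ i * ρ (x e) = 0) :
    ρ (∑ e, q.eval (β e) * x e) = 0 := by
  simp only [Polynomial.eval_eq_sum_range, Finset.sum_mul, map_sum, map_mul, map_pow]
  rw [Finset.sum_comm]
  refine Finset.sum_eq_zero fun i hi => ?_
  simp only [mul_assoc, ← Finset.mul_sum]
  rw [h i (by have := Finset.mem_range.1 hi; omega), mul_zero]

theorem exists_proj_GcV {V K : Type*} [CommRing V] [Field K] (ρ : V →+* K) {m : ℕ}
    (β : Fin m → V) (hβ : ∀ e e', e ≠ e' → IsUnit (β e - β e')) (c : ℤ) (A : Set (Fin m × ℤ)) :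
    ∃ P : (Fin m × ℤ →₀ V) →ₗ[V] (Fin m × ℤ →₀ V),
      (∀ f, P f ∈ Finsupp.supported V V A ⊓ GcV β c) ∧
      (∀ f ∈ Finsupp.supported V V A ⊓ GcV β c, P f = f) ∧
      ∀ f ∈ Finsupp.supported V V A,
        Finsupp.mapRange ρ (map_zero ρ) f ∈ GcV (fun e => ρ (β e)) c →
        Finsupp.mapRange ρ (map_zero ρ) (P f) = Finsupp.mapRange ρ (map_zero ρ) f := by
  classical
  have := ρ.domain_nontrivial
  choose S l hS hl hi using fun s : ℤ =>
    mxVand_piv β hβ c (Finset.univ.filter fun e : Fin m => (e, s - (e : ℕ)) ∈ A)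
  let Q : (Fin m × ℤ →₀ V) →ₗ[V] (Fin m × ℤ →₀ V) :=
    { toFun := fun f => Finsupp.onFinset
        ((Finset.univ ×ˢ f.support).image fun x => (x.1, x.2.2 + (x.2.1 : ℕ) - (x.1 : ℕ)))
        (fun x => if x.1 ∈ S (x.2 + (x.1 : ℕ)) then
          ∑ e, (l (x.2 + (x.1 : ℕ)) x.1).eval (β e) * f (e, x.2 + (x.1 : ℕ) - (e : ℕ)) else 0)
        fun x hx => by
          obtain ⟨e, -, he⟩ := Finset.exists_ne_zero_of_sum_ne_zero (ite_ne_right_iff.1 hx).2
          exact Finset.mem_image.2 ⟨(x.1, e, x.2 + (x.1 : ℕ) - (e : ℕ)), Finset.mem_product.2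
            ⟨Finset.mem_univ _, Finsupp.mem_support_iff.2 (right_ne_zero_of_mul he)⟩, by simp⟩
      map_add' := fun f g => by
        ext x
        simp only [Finsupp.onFinset_apply, Finsupp.add_apply, mul_add, Finset.sum_add_distrib]
        split_ifs <;> simp
      map_smul' := fun a f => by
        ext x
        simp only [Finsupp.onFinset_apply, Finsupp.smul_apply, smul_eq_mul, RingHom.id_apply,
          mul_left_comm _ a, ← Finset.mul_sum]
        split_ifs <;> simp }
  have hQ : ∀ f x, Q f x = if x.1 ∈ S (x.2 + (x.1 : ℕ)) then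
      ∑ e, (l (x.2 + (x.1 : ℕ)) x.1).eval (β e) * f (e, x.2 + (x.1 : ℕ) - (e : ℕ)) else 0 :=
    fun _ _ => rfl
  let F : (Fin m × ℤ →₀ V) →ₗ[V] (Fin m × ℤ →₀ V) :=
    (Finsupp.supported V V A).subtype ∘ₗ Finsupp.restrictDom V V A
  have hF : ∀ f, F f ∈ Finsupp.supported V V A := fun f => (Finsupp.restrictDom V V A f).2
  have hF' : ∀ f ∈ Finsupp.supported V V A, F f = f := fun f hf =>
    congrArg Subtype.val (LinearMap.congr_fun (Finsupp.restrictDom_comp_subtype A) ⟨f, hf⟩)
  refine ⟨F - Q ∘ₗ F, fun f => ?_, fun f hf => ?_, fun f hf hf' => ?_⟩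
  · have hA := (Finsupp.mem_supported' _ _).1 (hF f)
    change F f - Q (F f) ∈ _
    generalize F f = g at hA
    refine ⟨(Finsupp.mem_supported' _ _).2 fun x hx => ?_, fun i hic s => ?_⟩
    · rw [Finsupp.sub_apply, hA x hx, hQ, if_neg, sub_zero]
      exact fun h => hx (by simpa using hS _ h)
    · simp only [Finsupp.sub_apply, hQ, sub_add_cancel, mul_sub, Finset.sum_sub_distrib, mul_ite,
        mul_zero, Finset.sum_ite_mem, Finset.univ_inter, Finset.mul_sum, ← mul_assoc]
      rw [Finset.sum_comm, sub_eq_zero]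
      refine Finset.sum_congr rfl fun e _ => ?_
      by_cases he : (e, s - (e : ℕ)) ∈ A
      · rw [← Finset.sum_mul, hi s i hic e (by simpa using he)]
      · simp [hA _ he]
  · change F f - Q (F f) = f
    rw [hF' f hf.1, sub_eq_self]
    ext x
    rw [hQ]
    split_ifs with h
    · exact mxVand_kill (RingHom.id V) β (hl _ _ h) _ fun i hi => hf.2 i hi _
    · rfl
  · ext x
    change ρ ((F f - Q (F f)) x) = ρ (f x)
    rw [hF' f hf, Finsupp.sub_apply, map_sub, sub_eq_self, hQ]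
    split_ifs with h
    · exact mxVand_kill ρ β (hl _ _ h) _ fun i hi => hf' i hi _
    · exact map_zero ρ

end Vale.Agent.P202
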