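import Vale.Agent.P202.SysAux
import Vale.Agent.P202.MxVand

/-! Versions over a commutative ring of the constructions used for the Cech system. -/

namespace Vale.Agent.P202.LV

open TensorProduct

section General

variable {K : Type*} [CommRing K]
variable {M M' P P' P0 P1 : Type*} [AddCommGroup M] [Module K M] [AddCommGroup M'] [Module K M']
  [AddCommGroup P] [Module K P] [AddCommGroup P'] [Module K P']
  [AddCommGroup P0] [Module K P0] [AddCommGroup P1] [Module K P1]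

/-- The span of the pure tensors `x ⊗ y` with `x ∈ D`, `y ∈ E`. -/
def tens (D : Submodule K M) (E : Submodule K P) : Submodule K (M ⊗[K] P) :=
  Submodule.map₂ (TensorProduct.mk K M P) D E

theorem tmul_mem_tens {D : Submodule K M} {E : Submodule K P} {x : M} {y : P}
    (hx : x ∈ D) (hy : y ∈ E) : x ⊗ₜ[K] y ∈ tens D E := by
  exact Submodule.apply_mem_map₂ (TensorProduct.mk K M P) hx hy

theorem tens_mono {D D' : Submodule K M} {E E' : Submodule K P} (h : D ≤ D') (h' : E ≤ E') :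
    tens D E ≤ tens D' E' := by
  exact Submodule.map₂_le_map₂ h h'

theorem tens_induction {D : Submodule K M} {E : Submodule K P} {C : M ⊗[K] P → Prop}
    {ξ : M ⊗[K] P} (hξ : ξ ∈ tens D E) (h0 : C 0)
    (htmul : ∀ x ∈ D, ∀ y ∈ E, C (x ⊗ₜ[K] y)) (hadd : ∀ a b, C a → C b → C (a + b)) : C ξ := by
  have key : ∀ ξ ∈ tens D E, ∀ c : K, C (c • ξ) := by
    intro ξ hξ
    rw [tens, Submodule.map₂_eq_span_image2] at hξ
    induction hξ using Submodule.span_induction with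
    | mem x hx =>
      obtain ⟨a, ha, b, hb, rfl⟩ := hx
      intro c
      exact htmul _ (D.smul_mem c ha) _ hb
    | zero => intro c; rw [smul_zero]; exact h0
    | add x y _ _ h1 h2 => intro c; rw [smul_add]; exact hadd _ _ (h1 c) (h2 c)
    | smul a x _ h1 => intro c; rw [smul_smul]; exact h1 _
  simpa using key ξ hξ 1

@[simp] theorem tens_bot_left (E : Submodule K P) : tens (⊥ : Submodule K M) E = ⊥ := by
  exact Submodule.map₂_bot_left _ _

@[simp] theorem tens_bot_right (D : Submodule K M) : tens D (⊥ : Submodule K P) = ⊥ := by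
  exact Submodule.map₂_bot_right _ _

theorem map_mem_tens {D : Submodule K M} {E : Submodule K P} {D' : Submodule K M'}
    {E' : Submodule K P'} (f : M →ₗ[K] M') (g : P →ₗ[K] P') (hf : ∀ x ∈ D, f x ∈ D')
    (hg : ∀ y ∈ E, g y ∈ E') {ξ : M ⊗[K] P} (hξ : ξ ∈ tens D E) :
    TensorProduct.map f g ξ ∈ tens D' E' := by
  refine tens_induction (C := fun ξ => TensorProduct.map f g ξ ∈ tens D' E') hξ (by simp) ?_ ?_
  · intro x hx y hy
    exact tmul_mem_tens (hf x hx) (hg y hy)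
  · intro a b ha hb
    rw [map_add]
    exact add_mem ha hb

/-- The differential of the tensor product of a complex with a two-term complex. -/
noncomputable def coneD (d : M →ₗ[K] M) (δ : P0 →ₗ[K] P1) :
    (M ⊗[K] P0) × (M ⊗[K] P1) →ₗ[K] (M ⊗[K] P0) × (M ⊗[K] P1) :=
  LinearMap.prod (TensorProduct.map d LinearMap.id ∘ₗ LinearMap.fst K _ _)
    (TensorProduct.map LinearMap.id δ ∘ₗ LinearMap.fst K _ _ -
      TensorProduct.map d LinearMap.id ∘ₗ LinearMap.snd K _ _)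

theorem coneD_apply (d : M →ₗ[K] M) (δ : P0 →ₗ[K] P1) (ξ : (M ⊗[K] P0) × (M ⊗[K] P1)) :
    coneD d δ ξ = (TensorProduct.map d LinearMap.id ξ.1,
      TensorProduct.map LinearMap.id δ ξ.1 - TensorProduct.map d LinearMap.id ξ.2) := rfl

theorem map_map_comm (d : M →ₗ[K] M') (δ : P0 →ₗ[K] P1) (x : M ⊗[K] P0) :
    TensorProduct.map LinearMap.id δ (TensorProduct.map d LinearMap.id x) =
      TensorProduct.map d LinearMap.id (TensorProduct.map LinearMap.id δ x) := by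
  induction x with
  | zero => simp
  | tmul a b => simp
  | add a b ha hb => simp only [map_add, ha, hb]

theorem map_map_zero (d : M →ₗ[K] M) (hd : ∀ x, d (d x) = 0) (x : M ⊗[K] P) :
    TensorProduct.map d LinearMap.id (TensorProduct.map d LinearMap.id x) = 0 := by
  induction x with
  | zero => simp
  | tmul a b => simp [hd]
  | add a b ha hb => rw [map_add, map_add, ha, hb, add_zero]

theorem coneD_coneD (d : M →ₗ[K] M) (δ : P0 →ₗ[K] P1) (hd : ∀ x, d (d x) = 0)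
    (ξ : (M ⊗[K] P0) × (M ⊗[K] P1)) : coneD d δ (coneD d δ ξ) = 0 := by
  refine Prod.ext (map_map_zero d hd ξ.1) ?_
  simp only [coneD_apply, map_sub, map_map_zero d hd, map_map_comm d δ, sub_zero, sub_self,
    Prod.snd_zero]

/-- The level `l` part of the tensor product of a graded family with a two-term family. -/
def box (D : ℤ → Submodule K M) (E0 : Submodule K P0) (E1 : Submodule K P1) (l : ℤ) :
    Submodule K ((M ⊗[K] P0) × (M ⊗[K] P1)) :=
  (tens (D l) E0).prod (tens (D (l - 1)) E1)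

theorem coneD_mem_box {d : M →ₗ[K] M} {δ : P0 →ₗ[K] P1} {D : ℤ → Submodule K M}
    {E0 : Submodule K P0} {E1 : Submodule K P1} (hD : ∀ l, ∀ x ∈ D l, d x ∈ D (l + 1))
    (hE : ∀ p ∈ E0, δ p ∈ E1) {l : ℤ} {ξ} (hξ : ξ ∈ box D E0 E1 l) :
    coneD d δ ξ ∈ box D E0 E1 (l + 1) := by
  refine ⟨map_mem_tens _ _ (hD l) (fun _ h => h) hξ.1, ?_⟩
  rw [add_sub_cancel_right]
  refine sub_mem (map_mem_tens _ _ (fun _ h => h) hE hξ.1)
    (map_mem_tens _ _ (fun x hx => ?_) (fun _ h => h) hξ.2)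
  simpa using hD _ x hx

/-- Tensor product operators on the cone. -/
noncomputable def sop (φ : Module.End K M) (ψ0 : Module.End K P0) (ψ1 : Module.End K P1) :
    Module.End K ((M ⊗[K] P0) × (M ⊗[K] P1)) :=
  LinearMap.prodMap (TensorProduct.map φ ψ0) (TensorProduct.map φ ψ1)

theorem sop_apply (φ : Module.End K M) (ψ0 : Module.End K P0) (ψ1 : Module.End K P1) (ξ) :
    sop φ ψ0 ψ1 ξ = (TensorProduct.map φ ψ0 ξ.1, TensorProduct.map φ ψ1 ξ.2) := rfl

theorem sop_mul (φ φ' : Module.End K M) (ψ0 ψ0' : Module.End K P0) (ψ1 ψ1' : Module.End K P1) :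
    sop φ ψ0 ψ1 * sop φ' ψ0' ψ1' = sop (φ * φ') (ψ0 * ψ0') (ψ1 * ψ1') := by
  simp only [sop, TensorProduct.map_mul, LinearMap.prodMap_mul]

theorem sop_sop (φ φ' : Module.End K M) (ψ0 ψ0' : Module.End K P0) (ψ1 ψ1' : Module.End K P1)
    (ξ) : sop φ ψ0 ψ1 (sop φ' ψ0' ψ1' ξ) = sop (φ * φ') (ψ0 * ψ0') (ψ1 * ψ1') ξ := by
  rw [← sop_mul]
  rfl

theorem sop_mem_box {φ : Module.End K M} {ψ0 : Module.End K P0} {ψ1 : Module.End K P1}
    {D D' : ℤ → Submodule K M} {E0 E0' : Submodule K P0} {E1 E1' : Submodule K P1}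
    (h : ∀ l, ∀ x ∈ D l, φ x ∈ D' l) (h0 : ∀ p ∈ E0, ψ0 p ∈ E0') (h1 : ∀ p ∈ E1, ψ1 p ∈ E1')
    {l : ℤ} {ξ} (hξ : ξ ∈ box D E0 E1 l) : sop φ ψ0 ψ1 ξ ∈ box D' E0' E1' l :=
  ⟨map_mem_tens _ _ (h l) h0 hξ.1, map_mem_tens _ _ (h _) h1 hξ.2⟩

theorem coneD_sop {φ d : Module.End K M} {ψ0 : Module.End K P0} {ψ1 : Module.End K P1}
    {δ : P0 →ₗ[K] P1} (h : ∀ x, d (φ x) = φ (d x)) (h' : ∀ p, δ (ψ0 p) = ψ1 (δ p)) (ξ) :
    coneD d δ (sop φ ψ0 ψ1 ξ) = sop φ ψ0 ψ1 (coneD d δ ξ) := by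
  have e1 : d ∘ₗ φ = φ ∘ₗ d := LinearMap.ext h
  have e2 : δ ∘ₗ ψ0 = ψ1 ∘ₗ δ := LinearMap.ext h'
  simp only [coneD_apply, sop_apply, map_sub, ← LinearMap.comp_apply, ← TensorProduct.map_comp,
    e1, e2, LinearMap.id_comp, LinearMap.comp_id]

theorem box_mono {D D' : ℤ → Submodule K M} {E0 E0' : Submodule K P0} {E1 E1' : Submodule K P1}
    (h : ∀ l, D l ≤ D' l) (h0 : E0 ≤ E0') (h1 : E1 ≤ E1') (l : ℤ) :
    box D E0 E1 l ≤ box D' E0' E1' l :=
  Submodule.prod_mono (tens_mono (h _) h0) (tens_mono (h _) h1)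

theorem sum_sop {ι : Type*} [Fintype ι] (ε : ι → Module.End K M) (π0 : Fin 3 → Module.End K P0)
    (π1 : Fin 3 → Module.End K P1) (h : ∀ x, ∑ r, ε r x = x) (h0 : ∀ p, ∑ j, π0 j p = p)
    (h1 : ∀ p, ∑ j, π1 j p = p) (ξ) : ∑ r : ι × Fin 3, sop (ε r.1) (π0 r.2) (π1 r.2) ξ = ξ := by
  refine Prod.ext ?_ ?_
  · rw [Prod.fst_sum]
    simp only [sop_apply]
    induction ξ.1 with
    | zero => simp
    | tmul a b => simp only [map_tmul, Fintype.sum_prod_type, ← tmul_sum, ← sum_tmul, h, h0]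
    | add a b ha hb => simp only [map_add, Finset.sum_add_distrib, ha, hb]
  · rw [Prod.snd_sum]
    simp only [sop_apply]
    induction ξ.2 with
    | zero => simp
    | tmul a b => simp only [map_tmul, Fintype.sum_prod_type, ← tmul_sum, ← sum_tmul, h, h1]
    | add a b ha hb => simp only [map_add, Finset.sum_add_distrib, ha, hb]

end General

section Line

variable (K : Type*) [CommRing K] (m : ℕ)

/-- `m`-tuples of Laurent polynomials, as finitely supported coefficient families. -/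
abbrev LW : Type _ := (Fin m × ℤ) →₀ K

/-- tuples of polynomials in `z`. -/
noncomputable def Wp : Submodule K (LW K m) := Finsupp.supported K K {x | 0 ≤ x.2}

/-- tuples of elements of `z^t K[1/z]`. -/
noncomputable def Wm (t : ℤ) : Submodule K (LW K m) := Finsupp.supported K K {x | x.2 ≤ t}

/-- multiplication by `z^j`. -/
noncomputable def zsh (j : ℤ) : LW K m →ₗ[K] LW K m :=
  Finsupp.lmapDomain K K (fun x => (x.1, x.2 + j))

/-- The Cech differential of the line. -/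
noncomputable def lδ : (LW K m × LW K m) →ₗ[K] LW K m := LinearMap.fst K _ _ - LinearMap.snd K _ _

/-- The diagonal. -/
noncomputable def ldiag : LW K m →ₗ[K] LW K m × LW K m := LinearMap.prod LinearMap.id LinearMap.id

/-- The shift on both charts. -/
noncomputable def zsh2 (j : ℤ) : Module.End K (LW K m × LW K m) :=
  LinearMap.prodMap (zsh K m j) (zsh K m j)

noncomputable def W0 (t : ℤ) : Submodule K (LW K m × LW K m) := (Wp K m).prod (Wm K m t)

noncomputable def lθ0 (j : Fin 3) : Module.End K (LW K m × LW K m) :=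
  if j = 0 then LinearMap.prodMap LinearMap.id 0
  else if j = 1 then LinearMap.prodMap 0 (zsh K m (-1)) else 0

noncomputable def lθ1 (j : Fin 3) : Module.End K (LW K m) := if j = 2 then LinearMap.id else 0

variable {K m}

theorem mem_Wp {f : LW K m} : f ∈ Wp K m ↔ ∀ e r, r < 0 → f (e, r) = 0 := by
  simp [Wp, Finsupp.mem_supported']

theorem mem_Wm {f : LW K m} {t : ℤ} : f ∈ Wm K m t ↔ ∀ e r, t < r → f (e, r) = 0 := by
  simp [Wm, Finsupp.mem_supported']

theorem zsh_apply (j : ℤ) (f : LW K m) (e : Fin m) (r : ℤ) : zsh K m j f (e, r) = f (e, r - j) := by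
  have h : Function.Injective (fun x : Fin m × ℤ => (x.1, x.2 + j)) := by
    rintro ⟨a, b⟩ ⟨c, d⟩ h
    simpa using h
  have := Finsupp.mapDomain_apply h f (e, r - j)
  simpa [zsh] using this

theorem zsh_zero (f : LW K m) : zsh K m 0 f = f := by
  ext ⟨e, r⟩
  simp [zsh_apply]

theorem zsh_zsh (i j : ℤ) (f : LW K m) : zsh K m i (zsh K m j f) = zsh K m (i + j) f := by
  ext ⟨e, r⟩
  simp [zsh_apply, sub_sub]

theorem zsh_single (j : ℤ) (e : Fin m) (r : ℤ) (x : K) :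
    zsh K m j (Finsupp.single (e, r) x) = Finsupp.single (e, r + j) x := by
  simp [zsh]

theorem zsh_mem_Wp {j : ℤ} (hj : 0 ≤ j) {f : LW K m} (hf : f ∈ Wp K m) : zsh K m j f ∈ Wp K m := by
  refine mem_Wp.2 fun e r hr => ?_
  rw [zsh_apply]
  exact mem_Wp.1 hf _ _ (by omega)

theorem zsh_mem_Wm (j : ℤ) {t : ℤ} {f : LW K m} (hf : f ∈ Wm K m t) :
    zsh K m j f ∈ Wm K m (t + j) := by
  refine mem_Wm.2 fun e r hr => ?_
  rw [zsh_apply]
  exact mem_Wm.1 hf _ _ (by omega)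

theorem Wm_mono {s t : ℤ} (h : s ≤ t) : Wm K m s ≤ Wm K m t := by
  exact fun f hf => mem_Wm.2 fun e r hr => mem_Wm.1 hf _ _ (by omega)

/-- polynomial tuples of degree at most `t` are spanned by shifted basis vectors. -/
theorem Wp_inf_Wm_le_span (t : ℤ) : Wp K m ⊓ Wm K m t ≤
    Submodule.span K {f | ∃ (e : Fin m) (r : ℕ), (r : ℤ) ≤ t ∧ f = Finsupp.single (e, (r : ℤ)) 1} := by
  rw [Wp, Wm, ← Finsupp.supported_inter, Finsupp.supported_eq_span_single]
  refine Submodule.span_mono ?_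
  rintro _ ⟨⟨e, r⟩, ⟨h1, h2⟩, rfl⟩
  obtain ⟨r, rfl⟩ := Int.eq_ofNat_of_zero_le h1
  exact ⟨e, r, h2, rfl⟩

theorem zsh_mem_Gc (β : Fin m → K) (j : ℤ) {c : ℤ} {f : LW K m} (hf : f ∈ GcV β c) :
    zsh K m j f ∈ GcV β c := by
  intro i hi s
  rw [← hf i hi (s - j)]
  refine Finset.sum_congr rfl fun e _ => ?_
  rw [zsh_apply, sub_right_comm]

theorem Gc_anti (β : Fin m → K) {c c' : ℤ} (h : c ≤ c') : GcV β c' ≤ GcV β c :=
  fun _ hf i hi s => hf i (by omega) s

noncomputable def G0 (β : Fin m → K) (c t : ℤ) : Submodule K (LW K m × LW K m) :=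
  (Wp K m ⊓ GcV β c).prod (Wm K m t ⊓ GcV β c)

theorem lδ_apply (p : LW K m × LW K m) : lδ K m p = p.1 - p.2 := rfl

theorem ldiag_apply (p : LW K m) : ldiag K m p = (p, p) := rfl

theorem zsh2_apply (j : ℤ) (p : LW K m × LW K m) :
    zsh2 K m j p = (zsh K m j p.1, zsh K m j p.2) := rfl

theorem zsh_mul (i j : ℤ) : (zsh K m i : Module.End K _) * zsh K m j = zsh K m (i + j) :=
  LinearMap.ext (zsh_zsh i j)

theorem zsh2_mul (i j : ℤ) : zsh2 K m i * zsh2 K m j = zsh2 K m (i + j) :=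
  LinearMap.ext fun p => Prod.ext (zsh_zsh i j p.1) (zsh_zsh i j p.2)

theorem G0_le (β : Fin m → K) (c t : ℤ) : G0 β c t ≤ W0 K m t :=
  Submodule.prod_mono inf_le_left inf_le_left

theorem lδ_G0 (β : Fin m → K) (c t : ℤ) : ∀ p ∈ G0 β c t, lδ K m p ∈ GcV β c :=
  fun _ hp => sub_mem hp.1.2 hp.2.2

theorem zsh2_W0 {i s : ℕ} (h : i ≤ s) (t : ℤ) : ∀ p ∈ W0 K m t, zsh2 K m i p ∈ W0 K m (t + s) :=
  fun _ hp => ⟨zsh_mem_Wp (by omega) hp.1, Wm_mono (by omega) (zsh_mem_Wm _ hp.2)⟩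

theorem zsh2_G0 (β : Fin m → K) (c : ℤ) {i s : ℕ} (h : i ≤ s) (t : ℤ) :
    ∀ p ∈ G0 β c t, zsh2 K m i p ∈ G0 β c (t + s) :=
  fun _ hp => ⟨⟨zsh_mem_Wp (by omega) hp.1.1, zsh_mem_Gc _ _ hp.1.2⟩,
    Wm_mono (by omega) (zsh_mem_Wm _ hp.2.1), zsh_mem_Gc _ _ hp.2.2⟩

theorem lθ0_W0 (j : Fin 3) (t : ℤ) : ∀ p ∈ W0 K m t, lθ0 K m j p ∈ W0 K m (t - 1) := by
  intro p hp
  unfold lθ0
  split_ifs
  · exact ⟨hp.1, zero_mem _⟩
  · exact ⟨zero_mem _, zsh_mem_Wm _ hp.2⟩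
  · exact zero_mem _

theorem lθ0_G0 (β : Fin m → K) (c : ℤ) (j : Fin 3) (t : ℤ) :
    ∀ p ∈ G0 β c t, lθ0 K m j p ∈ G0 β c (t - 1) := by
  intro p hp
  unfold lθ0
  split_ifs
  · exact ⟨hp.1, zero_mem _⟩
  · exact ⟨zero_mem _, zsh_mem_Wm _ hp.2.1, zsh_mem_Gc _ _ hp.2.2⟩
  · exact zero_mem _

theorem lθ1_mem (j : Fin 3) (E : Submodule K (LW K m)) : ∀ p ∈ E, lθ1 K m j p ∈ E := by
  intro p hp
  unfold lθ1
  split_ifs
  · exact hp
  · exact zero_mem _

theorem lθ0_comm (j : Fin 3) (i : ℤ) : lθ0 K m j * zsh2 K m i = zsh2 K m i * lθ0 K m j := by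
  refine LinearMap.ext fun p => ?_
  unfold lθ0
  split_ifs <;> simp [zsh2_apply, zsh_zsh, add_comm]

theorem lθ1_comm (j : Fin 3) (i : ℤ) : lθ1 K m j * zsh K m i = zsh K m i * lθ1 K m j := by
  refine LinearMap.ext fun p => ?_
  unfold lθ1
  split_ifs <;> simp

theorem lθ0_idem (j : Fin 3) : zsh2 K m (lex j) * lθ0 K m j * (zsh2 K m (lex j) * lθ0 K m j) =
    zsh2 K m (lex j) * lθ0 K m j := by
  refine LinearMap.ext fun p => ?_
  fin_cases j <;> simp [lθ0, lex, zsh2_apply, zsh_zsh, zsh_zero]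

theorem lθ1_idem (j : Fin 3) : zsh K m (lex j) * lθ1 K m j * (zsh K m (lex j) * lθ1 K m j) =
    zsh K m (lex j) * lθ1 K m j := by
  refine LinearMap.ext fun p => ?_
  fin_cases j <;> simp [lθ1, lex, zsh_zero]

theorem lθ0_sum (p : LW K m × LW K m) : ∑ j, (zsh2 K m (lex j) * lθ0 K m j) p = p := by
  simp [Fin.sum_univ_three, lθ0, lex, zsh2_apply, zsh_zsh, zsh_zero]

theorem lθ1_sum (p : LW K m) : ∑ j, (zsh K m (lex j) * lθ1 K m j) p = p := by
  simp [Fin.sum_univ_three, lθ1, lex, zsh_zero]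

end Line

end Vale.Agent.P202.LV
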