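import Vale.Agent.P202.MxLiftDef
import Vale.Agent.P202.MxLiftSysAux1

/-! The lifted ring and the action on the lifted system, one line at a time. -/

namespace Vale.Agent.P202

open TensorProduct

universe u

variable {V K : Type u} [CommRing V] [Field K] [Algebra V K] {π : V} {n : ℕ} {R : SegreRing K n}

/-- degree `t` part after adding a line: polynomials of degree at most `t` with coefficients
of degree `t`. -/
def LiftRing.stepB (RV : LiftRing V π R) (t : ℕ) : Submodule V (Polynomial RV.L) where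
  carrier := {f | (∀ i, f.coeff i ∈ RV.B t) ∧ ∀ i, t < i → f.coeff i = 0}
  add_mem' := by
    rintro f g ⟨hf, hf'⟩ ⟨hg, hg'⟩
    refine ⟨fun i => ?_, fun i hi => ?_⟩
    · rw [Polynomial.coeff_add]; exact (RV.B t).add_mem (hf i) (hg i)
    · rw [Polynomial.coeff_add, hf' i hi, hg' i hi, add_zero]
  zero_mem' := ⟨fun i => by simp, fun i _ => by simp⟩
  smul_mem' := by
    rintro c f ⟨hf, hf'⟩
    refine ⟨fun i => ?_, fun i hi => ?_⟩
    · rw [Polynomial.coeff_smul]; exact (RV.B t).smul_mem c (hf i)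
    · rw [Polynomial.coeff_smul, hf' i hi, smul_zero]

/-- chart monomials after adding a line: chart `0` is `z ≠ ∞`, chart `1` is `z ≠ 0`,
chart `2` is their intersection. -/
noncomputable def LiftRing.stepμ (RV : LiftRing V π R) (r : R.ι × Fin 3) : Polynomial RV.L :=
  if r.2 = 1 then Polynomial.X * Polynomial.C (RV.μ r.1) else Polynomial.C (RV.μ r.1)

/-- the coefficients of `(∑ e j T^j) * (1 + z T)`. -/
noncomputable def LiftRing.stepe (RV : LiftRing V π R) (j : Fin (n + 2)) : Polynomial RV.L :=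
  Fin.lastCases (motive := fun _ => Polynomial RV.L) 0 (fun i => Polynomial.C (RV.e i)) j +
    Fin.cases (motive := fun _ => Polynomial RV.L) 0 (fun i => Polynomial.X * Polynomial.C (RV.e i)) j

theorem LiftRing.C_mem_stepB (RV : LiftRing V π R) {t : ℕ} {x : RV.L} (hx : x ∈ RV.B t) :
    Polynomial.C x ∈ RV.stepB t := by
  refine ⟨fun i => ?_, fun i hi => ?_⟩ <;> rw [Polynomial.coeff_C]
  · split_ifs
    · exact hx
    · exact zero_mem _
  · rw [if_neg (by omega)]

theorem LiftRing.monomial_mem_stepB (RV : LiftRing V π R) {t i : ℕ} {x : RV.L} (hx : x ∈ RV.B t)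
    (hi : i ≤ t) : Polynomial.monomial i x ∈ RV.stepB t := by
  refine ⟨fun j => ?_, fun j hj => ?_⟩ <;> rw [Polynomial.coeff_monomial]
  · split_ifs
    · exact hx
    · exact zero_mem _
  · rw [if_neg (by omega)]

theorem LiftRing.X_mul_C_mem_stepB (RV : LiftRing V π R) {x : RV.L} (hx : x ∈ RV.B 1) :
    Polynomial.X * Polynomial.C x ∈ RV.stepB 1 := by
  rw [mul_comm, Polynomial.C_mul_X_eq_monomial]
  exact RV.monomial_mem_stepB hx le_rfl

theorem LiftRing.stepB_mul (RV : LiftRing V π R) {s t : ℕ} {x y : Polynomial RV.L}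
    (hx : x ∈ RV.stepB s) (hy : y ∈ RV.stepB t) : x * y ∈ RV.stepB (s + t) := by
  refine ⟨fun i => ?_, fun i hi => ?_⟩ <;> rw [Polynomial.coeff_mul]
  · exact Submodule.sum_mem _ fun p _ => RV.mul_mem (hx.1 _) (hy.1 _)
  · refine Finset.sum_eq_zero fun p hp => ?_
    have := Finset.HasAntidiagonal.mem_antidiagonal.1 hp
    by_cases h : s < p.1
    · rw [hx.2 _ h, zero_mul]
    · rw [hy.2 _ (by omega), mul_zero]

theorem LiftRing.stepB_eq_sum (RV : LiftRing V π R) {t : ℕ} {f : Polynomial RV.L}
    (hf : f ∈ RV.stepB t) :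
    f = ∑ i ∈ Finset.range (t + 1), Polynomial.monomial i (f.coeff i) :=
  f.as_sum_range' _ (Nat.lt_succ_of_le (Polynomial.natDegree_le_iff_coeff_eq_zero.2 hf.2))

theorem LiftRing.stepB_fg (RV : LiftRing V π R) (t : ℕ) : (RV.stepB t).FG := by
  have : RV.stepB t = ⨆ i ∈ Finset.range (t + 1),
      (RV.B t).map ((Polynomial.monomial i).restrictScalars V) := by
    refine le_antisymm (fun f hf => ?_) (iSup₂_le fun i hi => ?_)
    · rw [RV.stepB_eq_sum hf]
      exact Submodule.sum_mem _ fun i hi => Submodule.mem_iSup_of_mem i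
        (Submodule.mem_iSup_of_mem hi ⟨_, hf.1 i, rfl⟩)
    · rintro _ ⟨x, hx, rfl⟩
      exact RV.monomial_mem_stepB hx (Nat.lt_succ_iff.1 (Finset.mem_range.1 hi))
  rw [this]
  exact Submodule.fg_biSup _ _ fun i _ => (RV.fg_B t).map _

/-- The lift of the point. -/
noncomputable def LiftRing.base (K : Type u) [Field K] [Algebra V K] (π : V)
    (hsurj : Function.Surjective (algebraMap V K))
    (hker : ∀ v, algebraMap V K v = 0 ↔ π ∣ v) : LiftRing V π (SegreRing.base K) where
  L := V
  B := fun _ => ⊤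
  one_mem := trivial
  mul_mem := fun _ _ => trivial
  fg_B := fun _ => Module.Finite.fg_top
  μ := fun _ => 1
  μ_mem := fun _ => trivial
  e := fun _ => 1
  e_mem := fun _ => trivial
  red := algebraMap V K
  red_algebraMap := fun _ => rfl
  red_e := fun _ => map_one _
  red_mem := fun _ _ _ => trivial
  red_lift := fun _ y _ => (hsurj y).imp fun _ h => ⟨trivial, h⟩
  red_pure := fun _ x _ h => ((hker x).1 h).imp fun _ h => ⟨trivial, h⟩

/-- Adding one line to the lift. -/
noncomputable def LiftRing.step (RV : LiftRing V π R) : LiftRing V π R.step where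
  L := Polynomial RV.L
  B := RV.stepB
  one_mem := RV.C_mem_stepB RV.one_mem
  mul_mem := RV.stepB_mul
  fg_B := RV.stepB_fg
  μ := RV.stepμ
  μ_mem := fun r => by
    unfold LiftRing.stepμ
    split_ifs
    · exact RV.X_mul_C_mem_stepB (RV.μ_mem _)
    · exact RV.C_mem_stepB (RV.μ_mem _)
  e := RV.stepe
  e_mem := fun j => by
    refine add_mem ?_ ?_
    · induction j using Fin.lastCases with
      | last => simp
      | cast i => simpa using RV.C_mem_stepB (RV.e_mem i)
    · induction j using Fin.cases with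
      | zero => simp
      | succ i => exact RV.X_mul_C_mem_stepB (RV.e_mem i)
  red := Polynomial.mapRingHom RV.red
  red_algebraMap := fun v => by
    change Polynomial.map RV.red (Polynomial.C (algebraMap V RV.L v)) =
      Polynomial.C (algebraMap K R.L (algebraMap V K v))
    rw [Polynomial.map_C, RV.red_algebraMap]
  red_e := fun j => by
    change Polynomial.map RV.red (RV.stepe j) = R.stepe j
    rw [LiftRing.stepe, SegreRing.stepe, Polynomial.map_add]
    congr 1
    · induction j using Fin.lastCases with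
      | last => simp
      | cast i => simp [RV.red_e]
    · induction j using Fin.cases with
      | zero => simp
      | succ i => simp [RV.red_e]
  red_mem := fun t x hx => by
    change Polynomial.map RV.red x ∈ R.stepB t
    refine ⟨fun i => ?_, fun i hi => ?_⟩ <;> rw [Polynomial.coeff_map]
    · exact RV.red_mem t _ (hx.1 i)
    · rw [hx.2 i hi, map_zero]
  red_lift := fun t (y : Polynomial R.L) (hy : y ∈ R.stepB t) => by
    choose x hx hx' using fun i => RV.red_lift t _ (hy.1 i)
    refine ⟨∑ i ∈ Finset.range (t + 1), Polynomial.monomial i (x i), Submodule.sum_mem _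
      fun i hi => RV.monomial_mem_stepB (hx i) (Nat.lt_succ_iff.1 (Finset.mem_range.1 hi)), ?_⟩
    change Polynomial.map RV.red _ = y
    rw [R.stepB_eq_sum hy, Polynomial.map_sum]
    simp only [Polynomial.map_monomial, hx']
  red_pure := fun t x hx h0 => by
    have h1 : ∀ i, RV.red (x.coeff i) = 0 := fun i => by
      rw [← Polynomial.coeff_map, show Polynomial.map RV.red x = 0 from h0, Polynomial.coeff_zero]
    choose x' hx' hx'' using fun i => RV.red_pure t _ (hx.1 i) (h1 i)
    refine ⟨∑ i ∈ Finset.range (t + 1), Polynomial.monomial i (x' i), Submodule.sum_mem _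
      fun i hi => RV.monomial_mem_stepB (hx' i) (Nat.lt_succ_iff.1 (Finset.mem_range.1 hi)), ?_⟩
    rw [Finset.smul_sum]
    simp only [Polynomial.smul_monomial, ← hx'']
    exact RV.stepB_eq_sum hx

namespace LV

variable {RV : LiftRing V π R} {a : ℕ} {S : CechSys R a} (LS : LiftSys RV S) (m : ℕ)

/-- The action of the coefficients. -/
noncomputable def act0 : RV.L →ₐ[V]
    Module.End V ((LS.M ⊗[V] (LW V m × LW V m)) × (LS.M ⊗[V] LW V m)) :=
  (LinearMap.prodMapAlgHom V _ _).comp
    (((Module.End.rTensorAlgHom V LS.M _).comp LS.act).prod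
      ((Module.End.rTensorAlgHom V LS.M _).comp LS.act))

theorem act0_eq (b : RV.L) : act0 LS m b = sop (LS.act b) 1 1 := rfl

/-- The action of the polynomial ring. -/
noncomputable def act1 : Polynomial RV.L →ₐ[V]
    Module.End V ((LS.M ⊗[V] (LW V m × LW V m)) × (LS.M ⊗[V] LW V m)) :=
  Polynomial.eval₂AlgHom (act0 LS m) (sop 1 (zsh2 V m 1) (zsh V m 1)) fun b => by
    simp only [Commute, SemiconjBy, act0_eq, sop_mul, mul_one, one_mul]

theorem act1_monomial (i : ℕ) (b : RV.L) :
    act1 LS m (Polynomial.monomial i b) = sop (LS.act b) (zsh2 V m i) (zsh V m i) := by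
  have h : ∀ i : ℕ, (sop (1 : Module.End V LS.M) (zsh2 V m 1) (zsh V m 1)) ^ i =
      sop 1 (zsh2 V m i) (zsh V m i) := by
    intro i
    induction i with
    | zero =>
      have e1 : zsh V m 0 = (1 : Module.End V _) := LinearMap.ext zsh_zero
      have e2 : zsh2 V m 0 = 1 := LinearMap.ext fun p => Prod.ext (zsh_zero _) (zsh_zero _)
      simp only [pow_zero, Nat.cast_zero, e1, e2, sop, TensorProduct.map_one,
        LinearMap.prodMap_one]
    | succ i ih => rw [pow_succ, ih, sop_mul, zsh_mul, zsh2_mul, mul_one, Nat.cast_succ]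
  have e : act1 LS m (Polynomial.monomial i b) =
      act0 LS m b * (sop (1 : Module.End V LS.M) (zsh2 V m 1) (zsh V m 1)) ^ i :=
    Polynomial.eval₂_monomial _ _
  rw [e, h, act0_eq, sop_mul, mul_one, one_mul, one_mul]

theorem act1_mem {s : ℕ} {b : Polynomial RV.L} (hb : b ∈ RV.stepB s) {ξ}
    {X : Submodule V ((LS.M ⊗[V] (LW V m × LW V m)) × (LS.M ⊗[V] LW V m))}
    (h : ∀ i ≤ s, ∀ x ∈ RV.B s, sop (LS.act x) (zsh2 V m i) (zsh V m i) ξ ∈ X) :
    act1 LS m b ξ ∈ X := by
  rw [RV.stepB_eq_sum hb, map_sum, LinearMap.sum_apply]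
  refine Submodule.sum_mem _ fun i hi => ?_
  rw [act1_monomial]
  exact h i (Nat.lt_succ_iff.1 (Finset.mem_range.1 hi)) _ (hb.1 i)

theorem act1_comm (T : Module.End V ((LS.M ⊗[V] (LW V m × LW V m)) × (LS.M ⊗[V] LW V m)))
    (h : ∀ (i : ℕ) b x, T (sop (LS.act b) (zsh2 V m i) (zsh V m i) x) =
      sop (LS.act b) (zsh2 V m i) (zsh V m i) (T x)) (b : Polynomial RV.L) (x) :
    T (act1 LS m b x) = act1 LS m b (T x) := by
  induction b using Polynomial.induction_on' with
  | add p q hp hq => simp only [map_add, LinearMap.add_apply, hp, hq]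
  | monomial i b => rw [act1_monomial, h]

theorem act1_μ (r : R.ι × Fin 3) :
    act1 LS m (RV.stepμ r) = sop (LS.act (RV.μ r.1)) (zsh2 V m (lex r.2)) (zsh V m (lex r.2)) := by
  rw [← act1_monomial, LiftRing.stepμ, lex]
  split_ifs
  · rw [mul_comm, Polynomial.C_mul_X_eq_monomial]
  · rw [Polynomial.monomial_zero_left]

/-- global sections after adding a line. -/
noncomputable def U1 (t : ℤ) :
    Submodule V ((LS.M ⊗[V] (LW V m × LW V m)) × (LS.M ⊗[V] LW V m)) :=
  (tens (LS.U t) ((Wp V m ⊓ Wm V m t).map (ldiag V m))).prod ⊥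

/-- generators after adding a line. -/
noncomputable def u1 (k : S.κ × Fin m) : (LS.M ⊗[V] (LW V m × LW V m)) × (LS.M ⊗[V] LW V m) :=
  (LS.u k.1 ⊗ₜ ldiag V m (Finsupp.single (k.2, 0) 1), 0)

theorem act1_u1 (i : ℕ) (b : RV.L) (k : S.κ × Fin m) :
    act1 LS m (Polynomial.monomial i b) (u1 LS m k) =
      (LS.act b (LS.u k.1) ⊗ₜ ldiag V m (Finsupp.single (k.2, (i : ℤ)) 1), 0) := by
  simp [act1_monomial, sop_apply, u1, ldiag_apply, zsh2_apply, zsh_single]

theorem U1_span (t : ℕ) (x) (hx : x ∈ U1 LS m t) : ∃ f : S.κ × Fin m → Polynomial RV.L,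
    (∀ k, f k ∈ RV.stepB t) ∧ x = ∑ k, act1 LS m (f k) (u1 LS m k) := by
  classical
  let Φ : (S.κ × Fin m → Polynomial RV.L) →ₗ[V]
      ((LS.M ⊗[V] (LW V m × LW V m)) × (LS.M ⊗[V] LW V m)) :=
    { toFun := fun f => ∑ k, act1 LS m (f k) (u1 LS m k)
      map_add' := fun f g => by simp [Finset.sum_add_distrib]
      map_smul' := fun c f => by simp [Finset.smul_sum] }
  let P := ((Submodule.pi Set.univ fun _ => RV.stepB t).map Φ).comap (LinearMap.inl V _ _)
  obtain ⟨x0, x1⟩ := x
  obtain ⟨h0, h1⟩ := hx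
  obtain rfl : x1 = 0 := h1
  have key : x0 ∈ P := by
    refine tens_induction (C := fun z => z ∈ P) h0 (zero_mem _) ?_ fun _ _ => add_mem
    rintro y hy _ ⟨w, hw, rfl⟩
    obtain ⟨g, hg, rfl⟩ := LS.U_span t y hy
    have hw' := Wp_inf_Wm_le_span t hw
    clear hw
    induction hw' using Submodule.span_induction with
    | mem w hw =>
      obtain ⟨e, r, hr, rfl⟩ := hw
      refine ⟨fun k => if k.2 = e then Polynomial.monomial r (g k.1) else 0, fun k _ => ?_, ?_⟩
      · beta_reduce
        split_ifs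
        · exact RV.monomial_mem_stepB (hg _) (by exact_mod_cast hr)
        · exact zero_mem _
      · change ∑ k : S.κ × Fin m, act1 LS m _ (u1 LS m k) = _
        rw [Fintype.sum_prod_type, sum_tmul, map_sum]
        refine Finset.sum_congr rfl fun k _ => ?_
        rw [Finset.sum_eq_single e (fun e' _ h => by simp [h]) (by simp), if_pos rfl, act1_u1]
        rfl
    | zero => simp
    | add w w' _ _ h1 h2 => rw [map_add, tmul_add]; exact add_mem h1 h2
    | smul c w _ h1 => rw [map_smul, tmul_smul]; exact P.smul_mem c h1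
  obtain ⟨f, h2, h3⟩ := key
  exact ⟨f, fun k => h2 k trivial, h3.symm⟩

end LV

end Vale.Agent.P202
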