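import Vale.Agent.P202.MxLiftSysAux3
import Vale.Agent.P202.Count

/-! The dimension count for the lifted system. -/

namespace Vale.Agent.P202

open TensorProduct

section Count

variable {V K : Type*} [CommRing V] [Field K] {σ : V →+* K} [RingHomSurjective σ]
  {M M' : Type*} [AddCommGroup M] [Module V M] [AddCommGroup M'] [Module K M']

theorem lsys_toCount (ρ : M →ₛₗ[σ] M') (X : Submodule V M) [Module.Finite K (X.map ρ)] {k : ℤ}
    (hk : k ≤ Module.finrank K (X.map ρ)) : ∃ (N : ℕ) (w : Fin N → M), k ≤ N ∧ (∀ i, w i ∈ X) ∧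
      LinearIndependent K fun i => ρ (w i) := by
  let b := Module.finBasis K (X.map ρ)
  choose w hw hw' using fun i => (b i).2
  refine ⟨_, w, hk, hw, ?_⟩
  simp only [hw']
  exact b.linearIndependent.map' (X.map ρ).subtype (Submodule.ker_subtype _)

theorem lsys_ofCount (ρ : M →ₛₗ[σ] M') (X : Submodule V M) [Module.Finite K (X.map ρ)] {k : ℤ}
    (h : ∃ (N : ℕ) (w : Fin N → M), k ≤ N ∧ (∀ i, w i ∈ X) ∧
      LinearIndependent K fun i => ρ (w i)) : k ≤ Module.finrank K (X.map ρ) := by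
  obtain ⟨N, w, h1, h2, h3⟩ := h
  have h4 : LinearIndependent K fun i => (⟨ρ (w i), w i, h2 i, rfl⟩ : X.map ρ) :=
    LinearIndependent.of_comp (X.map ρ).subtype h3
  have h5 := h4.fintype_card_le_finrank
  rw [Fintype.card_fin] at h5
  exact h1.trans (by exact_mod_cast h5)

end Count

variable {K : Type*} [Field K] {M : Type*} [AddCommGroup M] [Module K M]

theorem lsys_count {a n : ℕ} {β : Fin ((n + 1) * a) → K} (hβ : Function.Injective β)
    {c v t : ℤ} (h1 : 0 ≤ v) (h2 : 0 ≤ t) (ht : t = c + v - 1) {D D' : Submodule K M}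
    [Module.Finite K D] (l1 : D' ≤ D) (c1 : kap a n c v ≤ Module.finrank K D')
    (c2 : kap a n (c - a) (v + a) ≤ Module.finrank K D) :
    kap a (n + 1) c v ≤ Module.finrank K
      ↥(tens D' ((Wp K ((n + 1) * a) ⊓ Wm K _ t).map (ldiag K _)) ⊔
        tens D ((Wp K _ ⊓ Wm K _ t ⊓ Gc β c).map (ldiag K _))) := by
  have fW := finite_Wp_inf_Wm (K := K) (m := (n + 1) * a) t
  have rW := finrank_Wp_inf_Wm (K := K) (m := (n + 1) * a) (t := t) (by omega)
  have hdiag : ∀ E : Submodule K (LW K ((n + 1) * a)),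
      Module.finrank K (E.map (ldiag K _)) = Module.finrank K E :=
    fun E => (Submodule.equivMapOfInjective _ ldiag_injective E).finrank_eq.symm
  have c4 := finrank_tens_sup l1 (Submodule.map_mono (f := ldiag K _)
    (inf_le_left : Wp K _ ⊓ Wm K _ t ⊓ Gc β c ≤ _))
  have c6 := Submodule.finrank_mono l1
  rw [hdiag, hdiag] at c4
  zify at c4 c6
  rw [rW] at c4
  by_cases hc : c ≤ 0
  · have d1 := mul_le_mul_of_nonneg_right c6
      (Nat.cast_nonneg (Module.finrank K ↥(Wp K _ ⊓ Wm K _ t ⊓ Gc β c)))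
    have d2 := mul_le_mul_of_nonneg_right c1
      (show (0 : ℤ) ≤ (((n + 1) * a : ℕ) : ℤ) * (t + 1) by positivity)
    have d3 : kap a (n + 1) c v = kap a n c v * ((((n + 1) * a : ℕ) : ℤ) * (t + 1)) := by
      rw [kap_of_nonpos _ _ hc, kap_of_nonpos _ _ hc, Nat.factorial_succ,
        show t + 1 = c + v by omega]
      push_cast
      ring
    linarith
  by_cases hc' : ((n + 1 : ℕ) : ℤ) * a < c
  · rw [kap_of_lt _ _ hc']
    exact Nat.cast_nonneg _
  have c3 := le_finrank_Wp_inf_Wm_inf_Gc hβ (c := c) (t := t) (by omega)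
    (by push_cast at hc' ⊢; omega) (by omega)
  rw [kap]
  push_cast at hc' c3 c4 ⊢
  rw [show t + 1 - c = v by omega] at c3
  rw [show t + 1 = c + v by omega] at c4
  have d1 := mul_le_mul_of_nonneg_left c3 (sub_nonneg.2 c6)
  have d2 := mul_le_mul_of_nonneg_left c1
    (mul_nonneg (show 0 ≤ c by omega) (show (0 : ℤ) ≤ (n + 1) * a + v by positivity))
  have d3 := mul_le_mul_of_nonneg_left c2
    (mul_nonneg (show (0 : ℤ) ≤ (n + 1) * a - c by omega) h1)
  linarith

end Vale.Agent.P202
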