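import Vale.Agent.P202.MxLiftDef
import Vale.Agent.P202.MxVand
import Vale.Agent.P202.MxLiftSysAux2
import Vale.Agent.P202.MxLiftSysAux4
import Vale.Agent.P202.MxLiftSysAux5

/-! Existence of the lifted system. -/

namespace Vale.Agent.P202

universe u

section Steps

open TensorProduct

variable {V K : Type u} [CommRing V] [Field K] [Algebra V K] {π : V} {n : ℕ} {R : SegreRing K n}

theorem lsys_ite (hsurj : Function.Surjective (algebraMap V K))
    (hker : ∀ v, algebraMap V K v = 0 ↔ π ∣ v) (p : Prop) [Decidable p] :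
    Lifts π (algebraMap V K).toSemilinearMap (if p then ⊤ else ⊥) (if p then ⊤ else ⊥) := by
  split_ifs
  · exact ⟨fun _ _ => trivial, fun y _ => (hsurj y).imp fun _ h => ⟨trivial, h⟩,
      fun x _ h => ((hker x).1 h).imp fun _ h => ⟨trivial, h⟩⟩
  · exact Lifts.bot

theorem LiftSys.nonempty_base (hsurj : Function.Surjective (algebraMap V K))
    (hker : ∀ v, algebraMap V K v = 0 ↔ π ∣ v) (a : ℕ) :
    Nonempty (LiftSys (LiftRing.base K π hsurj hker) (CechSys.baseS K a)) := by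
  refine ⟨{
    M := V
    free := inferInstance
    act := (Algebra.lsmul V V V : V →ₐ[V] Module.End V V)
    d := 0
    d_act := fun b x => by simp
    d_d := fun x => rfl
    C := fun _ l => if l = 0 then ⊤ else ⊥
    Kc := fun c _ l => if l = 0 ∧ c ≤ 0 then ⊤ else ⊥
    U := fun t => if 0 ≤ t then ⊤ else ⊥
    act_C := fun s b _ t l x hx => Submodule.smul_mem _ (show V from b) hx
    act_Kc := fun s b _ c t l x hx => Submodule.smul_mem _ (show V from b) hx
    act_U := fun s b _ t x hx => ?_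
    d_C := fun _ _ _ _ => zero_mem _
    d_Kc := fun _ _ _ _ _ => zero_mem _
    Kc_le := fun c t l => ?_
    Kc_anti := fun c c' t l h => ?_
    U_le := fun t => by simp
    d_U := fun _ _ _ => rfl
    θ := fun _ => LinearMap.id
    θ_act := fun _ _ _ => rfl
    θ_C := fun _ _ _ _ h => h
    θ_Kc := fun _ _ _ _ _ h => h
    θ_idem := fun r x => one_smul V _
    θ_sum := fun x => (Finset.sum_unique_nonempty _ _ ⟨(), Finset.mem_univ _⟩).trans (one_smul V x)
    u := fun _ => 1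
    u_mem := fun _ => by simp
    U_span := fun t x _ => ⟨fun _ => x, fun _ => trivial,
      ((Finset.sum_unique_nonempty _ _ ⟨(), Finset.mem_univ _⟩).trans (mul_one x)).symm⟩
    red := (algebraMap V K).toSemilinearMap
    red_act := fun b x => map_mul (algebraMap V K) b x
    red_d := fun x => map_zero (algebraMap V K)
    red_C := fun t l => (lsys_ite hsurj hker (l = 0)).red
    red_Kc := fun c t l => (lsys_ite hsurj hker (l = 0 ∧ c ≤ 0)).red
    red_U := fun t => (lsys_ite hsurj hker (0 ≤ t)).red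
    lift_C := fun t l => (lsys_ite hsurj hker (l = 0)).lift
    lift_Kc := fun c t l => (lsys_ite hsurj hker (l = 0 ∧ c ≤ 0)).lift
    lift_U := fun t => (lsys_ite hsurj hker (0 ≤ t)).lift
    pure_C := fun t l => (lsys_ite hsurj hker (l = 0)).pure
    pure_Kc := fun c t l => (lsys_ite hsurj hker (l = 0 ∧ c ≤ 0)).pure
    pure_U := fun t => (lsys_ite hsurj hker (0 ≤ t)).pure
    count := fun c v h1 h2 => ?_ }⟩
  · by_cases h : 0 ≤ t
    · rw [if_pos (by omega)]
      trivial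
    · rw [if_neg h, Submodule.mem_bot] at hx
      rw [hx, map_zero]
      exact zero_mem _
  · by_cases h : l = 0 <;> simp [h]
  · by_cases h1 : l = 0 ∧ c' ≤ 0
    · rw [if_pos (show l = 0 ∧ c ≤ 0 from ⟨h1.1, h.trans h1.2⟩)]
      exact le_top
    · rw [if_neg h1]
      exact bot_le
  · by_cases h : c ≤ 0
    · refine ⟨1, fun _ => 1, by simp [kap, h], fun _ => by simp [h, show 1 ≤ c + v by omega], ?_⟩
      change LinearIndependent K fun _ : Fin 1 => algebraMap V K 1
      simp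
    · exact ⟨0, fun _ => 0, by simp [kap, h], fun i => i.elim0, linearIndependent_empty_type⟩

theorem LiftSys.nonempty_step (hsurj : Function.Surjective (algebraMap V K))
    (hker : ∀ v, algebraMap V K v = 0 ↔ π ∣ v) {RV : LiftRing V π R} {a : ℕ} {S : CechSys R a}
    (LS : LiftSys RV S) (β : Fin ((n + 1) * a) → V) (hβ : ∀ e e', e ≠ e' → IsUnit (β e - β e'))
    (hβ' : Function.Injective fun e => algebraMap V K (β e)) :
    Nonempty (LiftSys RV.step (S.stepS _ hβ')) := by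
  have hπ : algebraMap V K π = 0 := (hker π).2 dvd_rfl
  have : RingHomSurjective (algebraMap V K) := ⟨hsurj⟩
  have := LS.free
  have hδz : ∀ (i : ℤ) p, LV.lδ V ((n + 1) * a) (LV.zsh2 V _ i p) = LV.zsh V _ i (LV.lδ V _ p) :=
    fun i p => (map_sub (LV.zsh V _ i) p.1 p.2).symm
  have hC : ∀ t l, Lifts π LS.red (LS.C t l) (S.C t l) := fun t l =>
    ⟨LS.red_C t l, LS.lift_C t l, LS.pure_C t l⟩
  have hK : ∀ c t l, Lifts π LS.red (LS.Kc c t l) (S.Kc c t l) := fun c t l =>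
    ⟨LS.red_Kc c t l, LS.lift_Kc c t l, LS.pure_Kc c t l⟩
  have hU : ∀ t, Lifts π LS.red (LS.U t) (S.U t) := fun t =>
    ⟨LS.red_U t, LS.lift_U t, LS.pure_U t⟩
  set τ := lred (algebraMap V K) ((n + 1) * a) with hτ
  have hW : ∀ t, Lifts π (sprod τ τ) (LV.W0 V _ t) (W0 K _ t) := fun t =>
    (lifts_supported hsurj hker _).prod (lifts_supported hsurj hker _)
  have hT : Lifts π τ ⊤ ⊤ := by
    simpa only [Finsupp.supported_univ] using lifts_supported hsurj hker (m := (n + 1) * a) Set.univ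
  have hG0 : ∀ c t, Lifts π (sprod τ τ) (LV.G0 β c t) (G0 (fun e => algebraMap V K (β e)) c t) :=
    fun c t => (lifts_Gc hsurj hker hβ c _).prod (lifts_Gc hsurj hker hβ c _)
  have hG1 : ∀ c, Lifts π τ (GcV β c) (Gc (fun e => algebraMap V K (β e)) c) := fun c => by
    simpa only [Finsupp.supported_univ, top_inf_eq] using lifts_Gc hsurj hker hβ c Set.univ
  have hE : ∀ t, Lifts π (sprod τ τ) ((LV.Wp V _ ⊓ LV.Wm V _ t).map (LV.ldiag V _))
      ((Wp K _ ⊓ Wm K _ t).map (ldiag K _)) := fun t => by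
    rw [LV.Wp, LV.Wm, Wp, Wm, ← Finsupp.supported_inter, ← Finsupp.supported_inter]
    exact (lifts_supported hsurj hker _).map _ _ (fun _ => rfl) ldiag_injective
  have hE' : ∀ c t, Lifts π (sprod τ τ) ((LV.Wp V _ ⊓ LV.Wm V _ t ⊓ GcV β c).map (LV.ldiag V _))
      ((Wp K _ ⊓ Wm K _ t ⊓ Gc (fun e => algebraMap V K (β e)) c).map (ldiag K _)) := fun c t => by
    rw [LV.Wp, LV.Wm, Wp, Wm, ← Finsupp.supported_inter, ← Finsupp.supported_inter]
    exact (lifts_Gc hsurj hker hβ c _).map _ _ (fun _ => rfl) ldiag_injective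
  have hC1 := fun t => Lifts.box hsurj hπ (hC t) (hW t) hT
  have hK1 := fun c t => Lifts.box_sup hsurj hπ (hK c t) (hK (c - a) t) (hW t) hT (hG0 c t) (hG1 c)
    (fun l => LS.Kc_anti _ _ t l (by omega)) (LV.G0_le β c t) le_top
  have hU1 : ∀ t, Lifts π (sred LS.red (sprod τ τ) τ) (LV.U1 LS _ t) (S.U1 _ t) := fun t =>
    ((hU t).tens hsurj hπ (hE t)).prod Lifts.bot
  refine ⟨{
    M := (LS.M ⊗[V] (LV.LW V ((n + 1) * a) × LV.LW V ((n + 1) * a))) ×
      (LS.M ⊗[V] LV.LW V ((n + 1) * a))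
    free := inferInstance
    act := LV.act1 LS _
    d := LV.coneD LS.d (LV.lδ V _)
    d_act := LV.act1_comm LS _ _ fun i b x => LV.coneD_sop (LS.d_act b) (hδz i) x
    d_d := LV.coneD_coneD _ _ LS.d_d
    C := fun t => LV.box (LS.C t) (LV.W0 V _ t) ⊤
    Kc := fun c t l => LV.box (LS.Kc c t) (LV.W0 V _ t) ⊤ l ⊔
      LV.box (LS.Kc (c - a) t) (LV.G0 β c t) (GcV β c) l
    U := LV.U1 LS _
    act_C := fun s b hb t l x hx => LV.act1_mem LS _ hb fun i hi y hy =>
      LV.sop_mem_box (LS.act_C s y hy t) (LV.zsh2_W0 hi t) (fun _ _ => Submodule.mem_top) hx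
    act_Kc := fun s b hb c t l x hx => LV.act1_mem LS _ hb fun i hi y hy => ?_
    act_U := fun s b hb t x hx => LV.act1_mem LS _ hb fun i hi y hy => ⟨LV.map_mem_tens _ _
      (LS.act_U s y hy t) ?_ hx.1, ?_⟩
    d_C := fun t l x hx => LV.coneD_mem_box (LS.d_C t) (fun _ _ => Submodule.mem_top) hx
    d_Kc := fun c t l x hx => ?_
    Kc_le := fun c t l => sup_le (LV.box_mono (LS.Kc_le c t) le_rfl le_rfl l)
      (LV.box_mono (LS.Kc_le _ t) (LV.G0_le β c t) le_top l)
    Kc_anti := fun c c' t l h => sup_le_sup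
      (LV.box_mono (fun l => LS.Kc_anti _ _ t l h) le_rfl le_rfl l)
      (LV.box_mono (fun l => LS.Kc_anti _ _ t l (by omega)) (Submodule.prod_mono
        (inf_le_inf_left _ (LV.Gc_anti β h)) (inf_le_inf_left _ (LV.Gc_anti β h)))
        (LV.Gc_anti β h) l)
    U_le := fun t => Submodule.prod_mono
      (LV.tens_mono (LS.U_le t) (by rintro _ ⟨w, hw, rfl⟩; exact hw)) bot_le
    d_U := fun t x hx => ?_
    θ := fun r => LV.sop (LS.θ r.1) (LV.lθ0 V _ r.2) (LV.lθ1 V _ r.2)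
    θ_act := fun r => LV.act1_comm LS _ _ fun i b x => ?_
    θ_C := fun r t l x hx => LV.sop_mem_box (LS.θ_C r.1 t) (LV.lθ0_W0 r.2 t)
      (fun _ _ => Submodule.mem_top) hx
    θ_Kc := fun r c t l x hx => ?_
    θ_idem := fun (r : R.ι × Fin 3) x => ?_
    θ_sum := fun x => ?_
    u := LV.u1 LS _
    u_mem := fun k => ⟨LV.tmul_mem_tens (LS.u_mem k.1) ⟨_, ⟨LV.mem_Wp.2 fun e r hr => ?_,
      LV.mem_Wm.2 fun e r hr => ?_⟩, rfl⟩, rfl⟩
    U_span := LV.U1_span LS _
    red := sred LS.red (sprod τ τ) τ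
    red_act := fun (b : Polynomial RV.L) x => ?_
    red_d := sred_coneD LS.red_d fun p => map_sub τ p.1 p.2
    red_C := fun t l => (hC1 t l).red
    red_Kc := fun c t l => (hK1 c t l).red
    red_U := fun t => (hU1 t).red
    lift_C := fun t l => (hC1 t l).lift
    lift_Kc := fun c t l => (hK1 c t l).lift
    lift_U := fun t => (hU1 t).lift
    pure_C := fun t l => (hC1 t l).pure
    pure_Kc := fun c t l => (hK1 c t l).pure
    pure_U := fun t => (hU1 t).pure
    count := fun c v h1 h2 => ?_ }⟩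
  · obtain ⟨α, hα, γ, hγ, rfl⟩ := Submodule.mem_sup.1 hx
    rw [map_add]
    exact add_mem (Submodule.mem_sup_left (LV.sop_mem_box (LS.act_Kc s y hy c t) (LV.zsh2_W0 hi t)
      (fun _ _ => Submodule.mem_top) hα)) (Submodule.mem_sup_right (LV.sop_mem_box
      (LS.act_Kc s y hy _ t) (LV.zsh2_G0 β c hi t) (fun _ => LV.zsh_mem_Gc β _) hγ))
  · rintro _ ⟨w, hw, rfl⟩
    exact ⟨LV.zsh V _ i w, LV.zsh2_W0 hi t (w, w) hw, rfl⟩
  · rw [LV.sop_apply, (Submodule.mem_bot V).1 hx.2, map_zero]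
    exact zero_mem _
  · obtain ⟨α, hα, γ, hγ, rfl⟩ := Submodule.mem_sup.1 hx
    rw [map_add]
    exact add_mem (Submodule.mem_sup_left (LV.coneD_mem_box (LS.d_Kc c t)
      (fun _ _ => Submodule.mem_top) hα))
      (Submodule.mem_sup_right (LV.coneD_mem_box (LS.d_Kc _ t) (LV.lδ_G0 β c t) hγ))
  · have a1 := LV.map_mem_tens (D' := ⊥) (E' := ⊤) LS.d LinearMap.id (LS.d_U t)
      (fun _ _ => Submodule.mem_top) hx.1
    have a2 := LV.map_mem_tens (D' := ⊤) (E' := ⊥) LinearMap.id (LV.lδ V _)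
      (fun _ _ => Submodule.mem_top) (by rintro _ ⟨w, -, rfl⟩; exact sub_self w) hx.1
    simp only [LV.tens_bot_left, LV.tens_bot_right, Submodule.mem_bot] at a1 a2
    rw [LV.coneD_apply, a1, a2, (Submodule.mem_bot V).1 hx.2, map_zero, sub_zero]
    rfl
  · have e : LS.θ r.1 * LS.act b = LS.act b * LS.θ r.1 := LinearMap.ext (LS.θ_act r.1 b)
    rw [LV.sop_sop, LV.sop_sop, e, LV.lθ0_comm, LV.lθ1_comm]
  · obtain ⟨α, hα, γ, hγ, rfl⟩ := Submodule.mem_sup.1 hx
    rw [map_add]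
    exact add_mem (Submodule.mem_sup_left (LV.sop_mem_box (LS.θ_Kc r.1 c t) (LV.lθ0_W0 r.2 t)
      (fun _ _ => Submodule.mem_top) hα)) (Submodule.mem_sup_right (LV.sop_mem_box
      (LS.θ_Kc r.1 _ t) (LV.lθ0_G0 β c r.2 t) (LV.lθ1_mem r.2 _) hγ))
  · have e : LS.act (RV.μ r.1) * LS.θ r.1 * (LS.act (RV.μ r.1) * LS.θ r.1) =
        LS.act (RV.μ r.1) * LS.θ r.1 := LinearMap.ext (LS.θ_idem r.1)
    change LV.act1 LS _ (RV.stepμ r) (LV.sop _ _ _ (LV.act1 LS _ (RV.stepμ r) _)) =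
      LV.act1 LS _ (RV.stepμ r) _
    rw [LV.act1_μ, LV.sop_sop, LV.sop_sop _ _ _ _ _ _ x, LV.sop_sop, e, LV.lθ0_idem, LV.lθ1_idem]
  · change ∑ r : R.ι × Fin 3, LV.act1 LS _ (RV.stepμ r) _ = x
    simp only [LV.act1_μ, LV.sop_sop]
    exact LV.sum_sop (fun r => LS.act (RV.μ r) * LS.θ r) _ _ LS.θ_sum LV.lθ0_sum LV.lθ1_sum x
  · exact Finsupp.single_eq_of_ne (by simp; omega)
  · exact Finsupp.single_eq_of_ne (by simp; omega)
  · change sred LS.red (sprod τ τ) τ (LV.act1 LS _ b x) =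
      S.act1 _ (Polynomial.map RV.red b) (sred LS.red (sprod τ τ) τ x)
    induction b using Polynomial.induction_on' with
    | add p q hp hq => simp only [Polynomial.map_add, map_add, LinearMap.add_apply, hp, hq]
    | monomial i b =>
      rw [Polynomial.map_monomial, LV.act1_monomial, S.act1_monomial]
      exact sred_sop (LS.red_act b) (fun p => Prod.ext (lred_zsh _ _) (lred_zsh _ _))
        (lred_zsh _) x
  · have c1 := LS.count c v h1 h2
    have c2 := LS.count (c - a) (v + a) (by omega) (by omega)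
    rw [show c - a + (v + a) - 1 = c + v - 1 by ring] at c2
    obtain ⟨t, ht⟩ : ∃ t, t = c + v - 1 := ⟨_, rfl⟩
    rw [← ht] at c1 c2 h2 ⊢
    have fU := S.finite_U t
    have fW := finite_Wp_inf_Wm (K := K) (m := (n + 1) * a) t
    have f1 : ∀ c, Module.Finite K ((LS.U t ⊓ LS.Kc c t 0).map LS.red) := fun c =>
      Submodule.finiteDimensional_of_le (S₂ := S.U t) (by
        rintro _ ⟨x, hx, rfl⟩
        exact LS.red_U t x hx.1)
    have f2 : Module.Finite K (S.U1 ((n + 1) * a) t) := by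
      have := finite_tens (S.U t) ((Wp K ((n + 1) * a) ⊓ Wm K _ t).map (ldiag K _))
      exact finite_prod_bot _
    have f3 : Module.Finite K ((LV.U1 LS ((n + 1) * a) t ⊓ (LV.box (LS.Kc c t) (LV.W0 V _ t) ⊤ 0 ⊔
        LV.box (LS.Kc (c - a) t) (LV.G0 β c t) (GcV β c) 0)).map (sred LS.red (sprod τ τ) τ)) :=
      Submodule.finiteDimensional_of_le (S₂ := S.U1 _ t) (by
        rintro _ ⟨x, hx, rfl⟩
        exact (hU1 t).red x hx.1)
    have c3 := lsys_count hβ' h1 h2 ht (Submodule.map_mono (f := LS.red)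
      (inf_le_inf_left _ (LS.Kc_anti _ _ _ _ (by omega)))) (lsys_ofCount _ _ c1)
      (lsys_ofCount _ _ c2)
    refine lsys_toCount (sred LS.red (sprod τ τ) τ) _ (c3.trans ?_)
    rw [← finrank_prod_bot (P0 := S.M ⊗[K] LW K ((n + 1) * a))]
    refine Nat.cast_le.2 (Submodule.finrank_mono ?_)
    rintro ⟨y, y'⟩ ⟨hy, hy'⟩
    obtain rfl : y' = 0 := hy'
    obtain ⟨y1, hy1, y2, hy2, rfl⟩ := Submodule.mem_sup.1 hy
    obtain ⟨x1, hx1, rfl⟩ := lift_mem_tens (fun _ h => h) (hE t).lift hy1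
    obtain ⟨x2, hx2, rfl⟩ := lift_mem_tens (fun _ h => h) (hE' c t).lift hy2
    refine ⟨(x1 + x2, 0), ⟨⟨add_mem (LV.tens_mono inf_le_left le_rfl hx1)
      (LV.tens_mono inf_le_left (Submodule.map_mono inf_le_left) hx2), rfl⟩, ?_⟩,
      Prod.ext (map_add _ x1 x2) (map_zero _)⟩
    rw [LV.box, LV.box, Submodule.prod_sup_prod]
    refine ⟨Submodule.add_mem_sup (LV.tens_mono inf_le_right ?_ hx1)
      (LV.tens_mono inf_le_right ?_ hx2), zero_mem _⟩
    · rintro _ ⟨w, hw, rfl⟩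
      exact hw
    · rintro _ ⟨w, hw, rfl⟩
      exact ⟨⟨hw.1.1, hw.2⟩, hw.1.2, hw.2⟩

end Steps

theorem exists_liftSys (V K : Type u) [CommRing V] [IsLocalRing V] [Field K] [Infinite K]
    [Algebra V K] (π : V) (hsurj : Function.Surjective (algebraMap V K))
    (hker : ∀ v, algebraMap V K v = 0 ↔ π ∣ v) (n : ℕ) :
    ∃ (R : SegreRing K n) (RV : LiftRing V π R), ∀ a : ℕ, ∃ S : CechSys R a,
      Nonempty (LiftSys RV S) := by
  induction n with
  | zero => exact ⟨_, _, fun a => ⟨_, LiftSys.nonempty_base hsurj hker a⟩⟩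
  | succ n ih =>
    obtain ⟨R, RV, h⟩ := ih
    refine ⟨R.step, RV.step, fun a => ?_⟩
    obtain ⟨S, ⟨LS⟩⟩ := h a
    choose β hβ using fun i : Fin ((n + 1) * a) => hsurj (Infinite.natEmbedding K i)
    have hi : Function.Injective fun e => algebraMap V K (β e) := by
      simp only [hβ]
      exact (Infinite.natEmbedding K).injective.comp Fin.val_injective
    have := IsLocalHom.of_surjective (algebraMap V K) hsurj
    refine ⟨_, LS.nonempty_step hsurj hker β (fun e e' he => ?_) hi⟩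
    refine IsUnit.of_map (algebraMap V K) _ (IsUnit.mk0 _ ?_)
    rw [map_sub]
    exact sub_ne_zero.2 fun h => he (hi h)

end Vale.Agent.P202
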