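import Vale.Agent.P202.MxLBDef
import Vale.Agent.P202.MxLiftSys
import Vale.Agent.P202.MxLBAux3

/-! The injectivity form of the length bound. -/

namespace Vale.Agent.P202

universe u

namespace LB

open TensorProduct

variable {V K : Type u} [CommRing V] [Field K] [Algebra V K] {π : V} {n : ℕ}
  {R : SegreRing K n} {RV : LiftRing V π R} {a : ℕ} {S : CechSys R a} (SV : LiftSys RV S)
  {T H : Type*} [CommRing T] [Algebra V T] [AddCommGroup H] [Module T H] [Module V H]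
  [IsScalarTower V T H] {y : Fin (n + 1) → T}

theorem el_sum {ι : Type*} (s : Finset ι) (t : ℤ) (m : ι → SV.M) (h : H) :
    el SV T H y t (∑ i ∈ s, m i) h = ∑ i ∈ s, el SV T H y t (m i) h := by
  simp only [el_apply, tmul_sum, Finsupp.single_finset_sum, map_sum]

theorem el_add (t : ℤ) (m m' : SV.M) (h : H) :
    el SV T H y t (m + m') h = el SV T H y t m h + el SV T H y t m' h := by
  simp only [el_apply, tmul_add, Finsupp.single_add, map_add]

theorem el_smul (t : ℤ) (v : V) (m : SV.M) (h : H) :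
    el SV T H y t (v • m) h = algebraMap V T v • el SV T H y t m h := by
  rw [← map_smul, el_apply, el_apply, algebraMap_smul, smul_tmul]

theorem main [IsLocalRing V] (hsurj : Function.Surjective (algebraMap V K))
    (hker : ∀ v, algebraMap V K v = 0 ↔ π ∣ v) (hπ : algebraMap V T π ∈ Ideal.span (Set.range y))
    (hK : KoszulInj V y H) {β : ℕ → Type} [∀ i, Fintype (β i)] [∀ i, DecidableEq (β i)]
    (φ : ∀ i, Matrix (β i) (β (i + 1)) T) (hφφ : ∀ i, φ i * φ (i + 1) = 0)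
    (hβ : ∀ i, n + 1 < i → IsEmpty (β i)) (hφ : ∀ i r r', φ i r r' ∈ Ideal.span (Set.range y) ^ a)
    (hy : ∀ j, ∃ N₀ : ℕ, NullHtpy φ (y j ^ N₀)) {s : ℕ} (hs : FullNull φ (algebraMap V T π ^ s))
    {C u : ℕ} (hu : u + C = a) {c : RV.L} (hc : c ∈ RV.B C) (hc' : RV.red c ≠ 0)
    {T₀ : ℕ} {Nt : Fin T₀ → ℕ} (w : (t : Fin T₀) → Fin (Nt t) → SV.M)
    (hw : ∀ (t : Fin T₀) i, w t i ∈ SV.U (t : ℕ) ⊓ SV.Kc (((t : ℕ) : ℤ) + 1 - u) (t : ℕ) 0)
    (hind : ∀ t, LinearIndependent K fun i => SV.red (w t i))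
    {κ : Type} [Fintype κ] (δ : κ → ℕ) (g : κ → SV.M) (hg : ∀ k, g k ∈ SV.U (δ k))
    (α : (Σ t, Fin (Nt t)) → κ → MvPolynomial (Fin (n + 1)) V)
    (hα : ∀ i k, (δ k ≤ i.1 + C ∧ (α i k).IsHomogeneous (i.1 + C - δ k)) ∨ α i k = 0)
    (w' : (Σ t, Fin (Nt t)) → SV.M) (hw' : ∀ i, w' i ∈ SV.U ((i.1 : ℕ) + C : ℕ))
    (hrel : ∀ i, SV.act c (w i.1 i.2) =
      ∑ k, SV.act (MvPolynomial.aeval RV.e (α i k)) (g k) + π ^ s • w' i)
    (t₀ : Fin T₀) (h : (Σ t, Fin (Nt t)) → β 0 → H) (h0 : ∀ i, i.1 < t₀ → h i = 0)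
    (hh : ∀ k, ∃ σ : β 1 → H, ∀ r, ∑ i, MvPolynomial.aeval y (α i k) • h i r = mact (φ 0) σ r)
    (i : Fin (Nt t₀)) (r : β 0) : h ⟨t₀, i⟩ r ∈ yW y ⊤ := by
  classical
  haveI := SV.free
  obtain ⟨_, q, hq, hq0⟩ := exists_quot (H := H) π hsurj hker hπ
  choose σ hσ using hh
  obtain ⟨η, hη, -⟩ := hs
  let z : β 0 → MM y (EE SV T H) := fun r => ∑ i, el SV T H y ((i.1 : ℕ) + C : ℕ) (w' i) (h i r)
  let σ' : β 1 → MM y (EE SV T H) := fun r => ∑ k, el SV T H y (δ k) (g k) (σ k r) + mact (η 0) z r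
  let G : β 0 → (ℤ →₀ H ⊗[V] SV.M) := fun r =>
    ∑ i, Finsupp.single ((i.1 : ℕ) + C : ℕ) (h i r ⊗ₜ SV.act c (w i.1 i.2))
  have e1 : ∀ r, mact (φ 0) σ' r = (rel y (EE SV T H)).mkQ (G r) := by
    intro r
    rw [mact_add, mact_sum, mact_mact, hη, smul_one_mact, map_sum, Finset.smul_sum]
    simp only [← map_mact, ← hσ, map_sum]
    rw [Finset.sum_comm, ← Finset.sum_add_distrib]
    refine Finset.sum_congr rfl fun i _ => ?_
    rw [← el_apply, hrel, el_add, el_sum, el_smul, map_pow]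
    congr 1
    refine Finset.sum_congr rfl fun k _ => ?_
    rcases hα i k with ⟨h1, h2⟩ | h1
    · rw [← el_homog SV T H y h2, ← Nat.cast_add, Nat.add_sub_cancel' h1]
    · simp [h1, el_apply]
  have hlow : G r ∈ low T (H ⊗[V] SV.M) ((t₀ : ℕ) + C : ℕ) := by
    refine Submodule.sum_mem _ fun i _ => ?_
    by_cases hi : i.1 < t₀
    · simp [h0 i hi]
    · exact single_mem_low (by have : (t₀ : ℕ) ≤ i.1 := not_lt.1 hi; omega) _
  obtain ⟨f, hf, hf'⟩ := desc SV hsurj hker hπ (kos_tensor hK) φ hφφ hβ hφ hy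
    (((t₀ : ℕ) : ℤ) + 1 - u) σ'
    (fun r => add_mem (Submodule.sum_mem _ fun k _ => el_mem SV T H y (hg k) _)
      (mact_mem _ _ (fun r => Submodule.sum_mem _ fun i _ => el_mem SV T H y (hw' i) _) r))
    (fun r => by
      rw [e1, map_sum]
      refine Submodule.sum_mem _ fun i _ => ?_
      by_cases hi : i.1 < t₀
      · simp [h0 i hi]
      · refine el_mem SV T H y (W := fun t => SV.Kc _ t 0) ?_ _
        have h1 : (t₀ : ℕ) ≤ i.1 := not_lt.1 hi
        exact_mod_cast SV.Kc_anti (((t₀ : ℕ) : ℤ) + 1 - u) _ _ _ (by omega)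
          (SV.act_Kc C c hc _ _ _ _ (hw i.1 i.2).2)) r
  rw [e1] at hf'
  have h1 := symbol_mem (EE_comm SV T H) (kos_tensor hK) ((Submodule.Quotient.eq _).1 hf'.symm)
    (sub_mem hlow (low_anti (by omega) hf))
  rw [Finsupp.sub_apply, hf _ (by omega), sub_zero] at h1
  have h2 : G r ((t₀ : ℕ) + C : ℕ) = ∑ j, h ⟨t₀, j⟩ r ⊗ₜ SV.act c (w t₀ j) := by
    rw [Finsupp.finset_sum_apply, Fintype.sum_sigma, Finset.sum_eq_single t₀]
    · simp
    · refine fun t _ ht => Finset.sum_eq_zero fun j _ => Finsupp.single_eq_of_ne fun e => ht ?_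
      dsimp only at e
      exact Fin.ext (by omega)
    · simp
  rw [h2] at h1
  refine mem_yW_of_indep (red := SV.red) hq0 (fun j => SV.act c (w t₀ j)) ?_
    (fun j => h ⟨t₀, j⟩ r) h1 i
  rw [Fintype.linearIndependent_iff]
  intro b hb
  refine Fintype.linearIndependent_iff.1 (hind t₀) b (S.torsionFree_U (t₀ : ℕ) _
    (Submodule.sum_mem _ fun j _ => Submodule.smul_mem _ _ (SV.red_U _ _ (hw t₀ j).1)) _ hc' ?_)
  simpa only [map_sum, map_smul, SV.red_act] using hb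

end LB

theorem exists_lbInj (V K : Type u) [CommRing V] [IsLocalRing V] [Field K] [Infinite K]
    [Algebra V K] (π : V) (hsurj : Function.Surjective (algebraMap V K))
    (hker : ∀ v, algebraMap V K v = 0 ↔ π ∣ v) (n s : ℕ) :
    ∃ C : ℕ, ∀ a : ℕ, ∃ (N κ : ℕ) (α : Fin N → Fin κ → MvPolynomial (Fin (n + 1)) V),
      0 < κ ∧ κ * (a - C) ^ (n + 1) ≤ N ∧ LBInj V π (n + 1) s a α := by
  obtain ⟨R, RV, hS⟩ := exists_liftSys V K π hsurj hker n
  obtain ⟨C, c, δ, v, hc, hc', hv, hgen⟩ := RV.exists_generic_free hsurj s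
  refine ⟨C, fun a => ?_⟩
  by_cases haC : a ≤ C
  · refine ⟨0, 1, fun i => i.elim0, one_pos, by simp [Nat.sub_eq_zero_of_le haC], ?_⟩
    intro T H _ _ _ _ y β _ _ φ _ _ _ _ _ _ _ i₀
    exact i₀.elim0
  obtain ⟨S, ⟨SV⟩⟩ := hS a
  obtain ⟨u, hu⟩ : ∃ u, u + C = a := ⟨a - C, by omega⟩
  have hcount : ∀ t : Fin (n * a + u), ∃ (N : ℕ) (w : Fin N → SV.M),
      kap a n (((t : ℕ) : ℤ) + 1 - u) u ≤ N ∧
      (∀ i, w i ∈ SV.U (t : ℕ) ⊓ SV.Kc (((t : ℕ) : ℤ) + 1 - u) (t : ℕ) 0) ∧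
      LinearIndependent K fun i => SV.red (w i) := fun t => by
    have h3 := SV.count (((t : ℕ) : ℤ) + 1 - u) u (by omega) (by omega)
    have h4 : ((t : ℕ) : ℤ) + 1 - u + u - 1 = (t : ℕ) := by ring
    rwa [h4] at h3
  choose Nt w hNt hw hind using hcount
  choose f hf hf' using fun i : Σ t, Fin (Nt t) => SV.U_span i.1 _ (hw i.1 i.2).1
  choose α b hα hb hb' using fun (i : Σ t, Fin (Nt t)) k => hgen _ _ (hf i k)
  let e₀ := (Fintype.equivFin (Σ t, Fin (Nt t))).symm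
  let e := (Tuple.sort fun i => (e₀ i).1).trans e₀
  have he : Monotone fun i => (e i).1 := Tuple.monotone_sort fun i => (e₀ i).1
  let eκ := (Fintype.equivFin (S.κ × Fin n.factorial)).symm
  have ha : 0 < a := by omega
  refine ⟨_, _, fun i k => α (e i) (eκ k).1 (eκ k).2, ?_, ?_, ?_⟩
  · rw [Fintype.card_prod, S.card_κ, Fintype.card_fin]
    positivity
  · have h1 := kap_sum a n u (n * a + u) (by omega) le_rfl
    rw [Finset.sum_range] at h1
    have h2 := h1.trans (Finset.sum_le_sum fun t _ => hNt t)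
    rw [Fintype.card_prod, S.card_κ, Fintype.card_fin, Fintype.card_sigma,
      show a - C = u by omega]
    simp only [Fintype.card_fin]
    have h3 : n.factorial ^ 2 * a ^ n * u ^ (n + 1) ≤ ∑ t, Nt t := by exact_mod_cast h2
    exact le_trans (le_of_eq (by ring)) h3
  intro T H _ _ _ _ y β _ _ φ hφφ hβ hφ hy hπ hs hK i₀ h h0 hh r
  letI : Module V H := Module.compHom H (algebraMap V T)
  haveI : IsScalarTower V T H := ⟨fun v t x => by rw [Algebra.smul_def, mul_smul]; rfl⟩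
  have key := LB.main SV hsurj hker hπ hK φ hφφ hβ hφ hy hs hu (RV.aeval_mem hc) hc' w hw hind
    (κ := S.κ × Fin n.factorial) (fun k => δ k.2) (fun k => SV.act (v k.2) (SV.u k.1))
    (fun k => by simpa using SV.act_U _ _ (hv k.2) 0 _ (SV.u_mem k.1))
    (fun i k => α i k.1 k.2) (fun i k => hα i k.1 k.2) (fun i => ∑ k, SV.act (b i k) (SV.u k))
    (fun i => Submodule.sum_mem _ fun k _ => by
      simpa using SV.act_U _ _ (hb i k) 0 _ (SV.u_mem k))
    (fun i => by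
      rw [hf' i, map_sum, Fintype.sum_prod_type, Finset.smul_sum, ← Finset.sum_add_distrib]
      refine Finset.sum_congr rfl fun k _ => ?_
      rw [← Module.End.mul_apply, ← map_mul, hb']
      simp [LinearMap.sum_apply])
    (e i₀).1 (fun i => h (e.symm i))
    (fun i hi => h0 _ (lt_of_not_ge fun h1 => hi.not_ge (by simpa using he h1)))
    (fun k => by
      obtain ⟨σ, hσ⟩ := hh (eκ.symm k)
      refine ⟨σ, fun r => ?_⟩
      rw [← hσ r, ← e.sum_comp]
      simp)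
    (e i₀).2 r
  simpa [LB.yW] using key

end Vale.Agent.P202
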