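import Vale.Agent.P202.MxCount
import Vale.Agent.P202.MxLB
import Vale.Agent.P202.MxDescC
import Vale.Agent.P202.MxCover
import Vale.Agent.P202.Localize

/-! The basic inequality for a finite generically etale algebra. -/

namespace Vale.Agent.P202

open IsLocalRing

universe u

/-- a nonzero element of the maximal ideal is part of a system of parameters. -/
theorem IsPRing.exists_sop {p : ℕ} {V : Type*} [CommRing V] [IsLocalRing V] (hV : IsPRing p V)
    (n : ℕ) (G : PS V n) (hG : G ≠ 0) (hG' : G ∈ maximalIdeal (PS V n)) :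
    ∃ w : Fin n → PS V n, (∀ i, w i ∈ maximalIdeal (PS V n)) ∧
      ∀ i, pX p V n i ∈ (Ideal.span (Set.range w) ⊔ Ideal.span {G}).radical := by
  have := hV.isDomain
  have := hV.isNoetherianRing
  have h1 := ringKrullDim_le_of_primary (pX p V n) (fun i => hV.span_pX n ▸
    Ideal.subset_span ⟨i, rfl⟩) 1 (by rw [pow_one, hV.span_pX])
  have h2 := (ringKrullDim_quotient_succ_le_of_nonZeroDivisor
    (mem_nonZeroDivisors_of_ne_zero hG)).trans h1
  have hI : Ideal.span {G} ≤ maximalIdeal (PS V n) := (Ideal.span_singleton_le_iff_mem _).2 hG'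
  have := Ideal.Quotient.nontrivial_iff.2 (hI.trans_lt (maximalIdeal.isMaximal _).lt_top).ne
  have := IsLocalRing.of_surjective' _ (Ideal.Quotient.mk_surjective (I := Ideal.span {G}))
  have := IsLocalHom.of_surjective _ (Ideal.Quotient.mk_surjective (I := Ideal.span {G}))
  obtain ⟨s, hs, hcard⟩ :=
    (maximalIdeal (PS V n ⧸ Ideal.span {G})).exists_finset_card_eq_height_of_isNoetherianRing
  rw [← maximalIdeal_height_eq_ringKrullDim, ← hcard] at h2
  obtain ⟨w, hw⟩ := exists_fin_family s (d := n) (Nat.le_of_succ_le_succ (by exact_mod_cast h2))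
  choose w' hw' using fun i => Ideal.Quotient.mk_surjective (w i)
  refine ⟨w', fun i => ?_, fun i => ?_⟩
  · have := hs.1.2 (hw.le (Ideal.subset_span ⟨i, rfl⟩))
    rw [← hw'] at this
    exact fun h => this (h.map _)
  · have hrad : maximalIdeal _ ≤ (Ideal.span (s : Set (PS V n ⧸ Ideal.span {G}))).radical := by
      rw [Ideal.radical_eq_sInf]
      exact le_sInf fun q hq => hs.2 ⟨hq.2, hq.1⟩ (le_maximalIdeal hq.2.ne_top)
    obtain ⟨N, hN⟩ := hrad (map_nonunit (Ideal.Quotient.mk _) _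
      ((hV.span_pX n).le (Ideal.subset_span ⟨i, rfl⟩)))
    refine ⟨N, Ideal.mem_quotient_iff_mem_sup.1 ?_⟩
    rwa [Ideal.map_span, ← Set.range_comp, Function.comp_def, funext hw', hw, map_pow]

theorem IsPRing.length_ne_top {p : ℕ} {V : Type*} [CommRing V] [IsLocalRing V] (hV : IsPRing p V)
    {n : ℕ} {T : Type*} [CommRing T] [Algebra (PS V n) T] [Module.Finite (PS V n) T] [Algebra V T]
    [IsScalarTower V (PS V n) T] (I : Ideal T)
    (hI : ∀ i, algebraMap (PS V n) T (pX p V n i) ∈ I.radical) : Module.length V (T ⧸ I) ≠ ⊤ := by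
  have hfg : (maximalIdeal (PS V n)).FG := hV.span_pX n ▸ Submodule.fg_span (Set.finite_range _)
  have : IsLocalHom (algebraMap V (PS V n)) := ⟨fun a ha => by
    simpa [MvPowerSeries.algebraMap_apply] using
      ha.map (MvPowerSeries.constantCoeff (σ := Fin n) (R := V))⟩
  obtain ⟨N, hN⟩ := Ideal.exists_pow_le_of_le_radical_of_fg
    (J := I.comap (algebraMap (PS V n) T)) ((hV.span_pX n).ge.trans (Ideal.span_le.2
      (Set.range_subset_iff.2 fun i => by rw [← Ideal.comap_radical]; exact hI i))) hfg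
  rw [length_eq_of_res (B := PS V n) (ps_residue n),
    ← (Submodule.Quotient.restrictScalarsEquiv (PS V n) I).length_eq]
  refine length_quot_ne_top hfg N _ (Submodule.smul_le.2 fun a ha t _ => ?_)
  rw [Algebra.smul_def]
  exact I.mul_mem_right _ (hN ha)

namespace CoreAux

theorem rad_pow {T : Type*} [CommRing T] {d : ℕ} (J : Ideal T) (w : Fin d → T) (c : Fin d → ℕ) :
    (J ⊔ Ideal.span (Set.range w)).radical ≤
      (J ⊔ Ideal.span (Set.range fun i => w i ^ c i)).radical :=
  Ideal.radical_le_radical_iff.2 (sup_le (le_sup_left.trans Ideal.le_radical) (Ideal.span_le.2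
    (Set.range_subset_iff.2 fun i => ⟨c i, Ideal.mem_sup_right (Ideal.subset_span ⟨i, rfl⟩)⟩)))

theorem powIdeal_le {T : Type*} [CommRing T] {d m : ℕ} (w : Fin d → T) (hm : m ≠ 0) :
    powIdeal w m ≤ Ideal.span (Set.range w) :=
  (powIdeal_le_span_pow w m).trans (Ideal.pow_le_self hm)

theorem kills_quot {T : Type*} [CommRing T] {I J : Ideal T} (h : I ≤ J) : Kills I (T ⧸ J) :=
  fun a ha q => by
    obtain ⟨b, rfl⟩ := Ideal.Quotient.mk_surjective q
    exact Ideal.Quotient.eq_zero_iff_mem.2 (J.mul_mem_right b (h ha))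

theorem len_quot (V : Type*) {T : Type*} [CommRing V] [CommRing T] [Algebra V T] (I : Ideal T)
    (G : T) : Module.length V ((T ⧸ I) ⧸ Ideal.span {G} • (⊤ : Submodule T (T ⧸ I))) ≤
      Module.length V (T ⧸ (I ⊔ Ideal.span {G})) := by
  refine Module.length_le_of_surjective ((Submodule.liftQ (I ⊔ Ideal.span {G})
    ((Ideal.span {G} • (⊤ : Submodule T (T ⧸ I))).mkQ ∘ₗ I.mkQ)
    (sup_le (fun a ha => ?_) fun a ha => ?_)).restrictScalars V) fun q => ?_
  · rw [LinearMap.mem_ker, LinearMap.comp_apply, (I.mkQ_apply a).trans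
      ((Submodule.Quotient.mk_eq_zero _).2 ha), map_zero]
  · refine (Submodule.Quotient.mk_eq_zero _).2 ?_
    have := Submodule.smul_mem_smul (n := I.mkQ 1) ha Submodule.mem_top
    rwa [← map_smul, smul_eq_mul, mul_one] at this
  · obtain ⟨q, rfl⟩ := Submodule.mkQ_surjective _ q
    obtain ⟨a, rfl⟩ := I.mkQ_surjective q
    exact ⟨Submodule.Quotient.mk a, rfl⟩

theorem err {p : ℕ} {V : Type u} [CommRing V] [IsLocalRing V] (hV : IsPRing p V) {n : ℕ}
    {T : Type u} [CommRing T] [Algebra (PS V n) T] [Module.Finite (PS V n) T] [Algebra V T]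
    [IsScalarTower V (PS V n) T] {H : Type u} [AddCommGroup H] [Module T H]
    (hH : RegPow (fun i => algebraMap (PS V n) T (pX p V n i)) H) {G : PS V n} (hG : G ≠ 0) :
    ∃ (C₀ : ℕ) (I₀ : Ideal T), (∀ i, algebraMap (PS V n) T (pX p V n i) ∈ I₀.radical) ∧
      ∀ (ν : ℕ) (L : LenData V T H
        (Ideal.span (Set.range fun i => algebraMap (PS V n) T (pX p V n i)) ^ ν)
        (algebraMap (PS V n) T G)) (I : Ideal T), ν ≠ 0 →
        Ideal.span (Set.range fun i => algebraMap (PS V n) T (pX p V n i)) ^ ν ≤ I ⊓ I₀ →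
        Module.length V (T ⧸ I) ≠ ⊤ →
        L.Λ ((T ⧸ I) ⧸ Ideal.span {algebraMap (PS V n) T G} • (⊤ : Submodule T (T ⧸ I))) ≤
          C₀ * Module.length V (T ⧸ (I ⊔ Ideal.span {algebraMap (PS V n) T G})) := by
  by_cases hu : IsUnit G
  · refine ⟨0, ⊤, fun i => Ideal.le_radical trivial, fun ν L I _ _ _ => (L.zero _ ?_).trans_le zero_le⟩
    rw [Ideal.span_singleton_eq_top.2 (hu.map _), Submodule.top_smul]
    infer_instance
  obtain ⟨w, h1, h2⟩ := hV.exists_sop n G hG hu
  set J := Ideal.span (Set.range fun i => algebraMap (PS V n) T (w i)) with hJ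
  set g := algebraMap (PS V n) T G with hg
  have h3 : ∀ i, algebraMap (PS V n) T (pX p V n i) ∈ (J ⊔ Ideal.span {g}).radical := fun i => by
    have := Ideal.map_radical_le (algebraMap (PS V n) T) (Ideal.mem_map_of_mem _ (h2 i))
    rwa [Ideal.map_sup, Ideal.map_span, Ideal.map_span, Set.image_singleton,
      ← Set.range_comp] at this
  have h4 : ∀ i, algebraMap (PS V n) T (pX p V n i) ∈ (J ⊔ Ideal.span {g ^ 2}).radical := fun i =>
    Ideal.radical_le_radical_iff.2 (sup_le (le_sup_left.trans Ideal.le_radical)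
      ((Ideal.span_singleton_le_iff_mem _).2 (Ideal.mem_radical_iff.2
        ⟨2, Ideal.mem_sup_right (Ideal.mem_span_singleton_self _)⟩))) (h3 i)
  obtain ⟨C₀, hC⟩ := ENat.ne_top_iff_exists.1 (hV.length_ne_top _ h4)
  have hm : ∀ a ∈ maximalIdeal (PS V n), algebraMap (PS V n) T a ∈
      Ideal.span (Set.range fun i => algebraMap (PS V n) T (pX p V n i)) := fun a ha => by
    have := Ideal.mem_map_of_mem (algebraMap (PS V n) T) ((hV.span_pX n).ge ha)
    rwa [Ideal.map_span, ← Set.range_comp] at this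
  refine ⟨C₀, _, h4, fun ν L I hν hI hf => ?_⟩
  obtain ⟨k1, k2⟩ := le_inf_iff.1 hI
  have hl := len_quot V I g
  refine (L.le_mul_length _ ν le_rfl (Ideal.pow_le_self hν) _ (DescB.kills_surj (kills_quot k1) _
    (Submodule.mkQ_surjective _)) (ne_top_of_le_ne_top hf (Module.length_le_of_surjective
      ((Ideal.span {g} • (⊤ : Submodule T (T ⧸ I))).mkQ.restrictScalars V)
      (Ideal.span {g} • (⊤ : Submodule T (T ⧸ I))).mkQ_surjective))).trans ?_
  rw [mul_comm]
  refine mul_le_mul' ((L.quot_anti (J := J ⊔ Ideal.span {g}) (k2.trans (sup_le_sup_left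
    (Ideal.span_singleton_le_span_singleton.2 (dvd_pow_self g two_ne_zero)) _))
    (sup_le (Ideal.span_le.2 (Set.range_subset_iff.2 fun i => hm _ (h1 i)))
      ((Ideal.span_singleton_le_iff_mem _).2 (hm G hu)))).trans
    ((L.quot_le_length J (fun h hh => ?_) k2).trans_eq (by rw [← hC]; rfl)))
    (ENat.toENNReal_le.2 hl)
  have e : (Fin.cons g fun i => algebraMap (PS V n) T (w i) : Fin (n + 1) → T) '' {i | i ≠ 0} =
      Set.range fun i => algebraMap (PS V n) T (w i) := by
    ext a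
    simp [Fin.exists_fin_succ]
  have := hH.colon_sop (Fin.cons g fun i => algebraMap (PS V n) T (w i)) (fun i => by
    rw [Fin.range_cons, Ideal.span_insert, sup_comm]
    exact h3 i) 0 h
  rw [e] at this
  exact this hh

end CoreAux

theorem core_ineq (p : ℕ) [Fact p.Prime] (K : Type u) [Field K] [CharP K p] [PerfectRing K p]
    [Infinite K] (n s : ℕ) : ∃ C : ℕ, ∀ (T : Type u) [CommRing T]
      [Algebra (PS (WittVector p K) n) T] [Module.Finite (PS (WittVector p K) n) T]
      [Algebra (WittVector p K) T] [IsScalarTower (WittVector p K) (PS (WittVector p K) n) T]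
      (D : EtData (PS (WittVector p K) n) T), D.G ≠ 0 → ∀ (a : ℕ) (y : Fin (n + 1) → T),
      (∀ i, algebraMap (PS (WittVector p K) n) T (pX p (WittVector p K) n i) ∈
        (Ideal.span (Set.range y)).radical) →
      (p : T) ∈ Ideal.span (Set.range y) → ∀ (d r : ℕ), d + r = n + 1 →
      ∀ (β : ℕ → Type) [∀ i, Fintype (β i)] [∀ i, DecidableEq (β i)]
        (φ : ∀ i, Matrix (β i) (β (i + 1)) T), (∀ i, r < i → IsEmpty (β i)) →
      (∀ i, φ i * φ (i + 1) = 0) → (∀ i s t, φ i s t ∈ Ideal.span (Set.range y) ^ a) →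
      ∀ (s0 : β 0), (∀ s, s = s0) → ∀ J : Ideal T, Ideal.span (Set.range (φ 0 s0)) = J →
      (∀ x ∈ J, FullNull φ x) → ∀ w : Fin d → T, (∀ i, w i ∈ Ideal.span (Set.range y) ^ a) →
      (∀ i, algebraMap (PS (WittVector p K) n) T (pX p (WittVector p K) n i) ∈
        (J ⊔ Ideal.span (Set.range w)).radical) →
      (∀ i, y i ∈ (J ⊔ Ideal.span (Set.range w)).radical) →
      (p : T) ^ s ∈ J ⊔ Ideal.span (Set.range w) →
      ∃ C₀ : ℕ, ∀ j m : ℕ, j ≠ 0 → m ≠ 0 →
        (((a - C) ^ (n + 1) * m ^ d : ℕ) : ℕ∞) *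
            Module.length (WittVector p K) (T ⧸ powIdeal y j) ≤
          ((j ^ (n + 1) : ℕ) : ℕ∞) * (Module.length (WittVector p K) (T ⧸ (J ⊔ powIdeal w m)) +
            C₀ * Module.length (WittVector p K) (T ⧸ (J ⊔ powIdeal w m ⊔
              Ideal.span {algebraMap (PS (WittVector p K) n) T (D.G ^ 3)}))) +
          (((a - C) ^ (n + 1) * m ^ d : ℕ) : ℕ∞) *
            Module.length (WittVector p K) (T ⧸ (powIdeal y j ⊔
              Ideal.span {algebraMap (PS (WittVector p K) n) T (D.G ^ 3)})) := by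
  have hV := isPRing_witt p K
  let _ : Algebra (WittVector p K) K := WittVector.constantCoeff.toAlgebra
  obtain ⟨C, hC⟩ := exists_lbInj (WittVector p K) K p (witt_constantCoeff_surjective p K)
    (witt_constantCoeff_eq_zero_iff p K) n s
  refine ⟨C, fun T _ _ _ _ _ D hG a y hy hp d r hdr β _ _ φ hβ hφφ hφ s0 hs0 J hJ hnull w hw hx hy'
    hps => ?_⟩
  obtain ⟨N, κ, α, hκ, hN, hLB⟩ := hC a
  obtain ⟨c⟩ := exists_perfCover p K n D.P D.monic D.G hG
  obtain ⟨H, _, _, hH, hL⟩ := exists_lenData hV D hG c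
  obtain ⟨C₀, I₀, h0, hE⟩ := CoreAux.err hV hH (pow_ne_zero 3 hG)
  refine ⟨C₀, fun j m hj hm => ?_⟩
  have r1 : ∀ i, algebraMap (PS (WittVector p K) n) T (pX p (WittVector p K) n i) ∈
      (powIdeal y j).radical := fun i => by
    simpa [powIdeal] using CoreAux.rad_pow ⊥ y (fun _ => j) (by simpa using hy i)
  have r2 := fun i => CoreAux.rad_pow J w (fun _ => m) (hx i)
  obtain ⟨ν, hν⟩ := Ideal.exists_pow_le_of_le_radical_of_fg
    (J := powIdeal y j ⊓ ((J ⊔ powIdeal w m) ⊓ I₀)) (Ideal.span_le.2 (Set.range_subset_iff.2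
      fun i => by simp only [Ideal.radical_inf]; exact ⟨r1 i, r2 i, h0 i⟩))
    (Submodule.fg_span (Set.finite_range _))
  replace hν := (Ideal.pow_le_pow_right ν.le_succ).trans hν
  obtain ⟨L⟩ := hL (ν + 1)
  obtain ⟨n1, n2⟩ := le_inf_iff.1 hν
  have n3 := n2.trans inf_le_left
  obtain ⟨β', _, _, φ', c1, c2, c3, c4, c5⟩ := exists_cone w _ hw β φ r hβ hφφ hφ J hnull
  have k1 := L.le_of_inj y (n1.trans (CoreAux.powIdeal_le y hj))
    (c1.trans (Fintype.card_eq_one_iff.2 ⟨s0, hs0⟩)) (φ' 0) _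
    (n3.trans (sup_le_sup_left (CoreAux.powIdeal_le w hm) J))
    (fun a ha => (c5 a ha).elim fun h k => ⟨h 0, k.1⟩) (fun i k => MvPolynomial.aeval y (α i k))
    (hLB T H y β' φ' c3 (hdr ▸ c2) c4 (fun i => (hy' i).imp fun N k => (c5 _ k).nullHtpy)
      (by rwa [map_natCast]) (c5 _ (by rwa [map_natCast])) (hH.koszulInj _ y hy))
  have k2 : (((a - C) ^ (n + 1) : ℕ) : ENNReal) * L.Λ (T ⧸ Ideal.span (Set.range y)) ≤
      L.Λ (T ⧸ (J ⊔ Ideal.span (Set.range w))) := by
    refine (ENNReal.mul_le_mul_iff_right (a := κ) (by simpa using hκ.ne') (by simp)).1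
      (le_trans ?_ k1)
    rw [← mul_assoc, ← Nat.cast_mul]
    exact mul_le_mul_left (Nat.cast_le.2 hN) _
  have k3 := L.pow_mul_le J w (fun c i h _ => hH.colon hdr β φ hβ hφφ s0 hs0 J hJ hnull
    (fun i => w i ^ c i) (fun i => CoreAux.rad_pow J w c (hx i)) i h) m n3
  have k4 := (L.upper _ (CoreAux.kills_quot n3)).trans (add_le_add le_rfl
    (hE _ L _ ν.succ_ne_zero n2 (hV.length_ne_top _ r2)))
  have k5 := (L.lower _ (CoreAux.kills_quot n1) (hV.length_ne_top _ r1)).trans
    (add_le_add (L.powIdeal_le y j n1) (ENat.toENNReal_le.2 (CoreAux.len_quot _ _ _)))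
  rw [← ENat.toENNReal_le]
  simp only [ENat.toENNReal_mul, ENat.toENNReal_add, ENat.toENNReal_coe]
  refine (mul_le_mul_right k5 _).trans ?_
  rw [mul_add]
  refine add_le_add (le_trans (le_of_eq ?_) (mul_le_mul_right
    (((mul_le_mul_right k2 _).trans k3).trans k4) _)) le_rfl
  push_cast
  ring

end Vale.Agent.P202
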