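import Vale.Agent.P202.MxLBDef
import Vale.Agent.P202.MxCoverDef

/-! Counting with length data. -/

namespace Vale.Agent.P202

open scoped ENNReal

universe u

section Aux

variable {T : Type u} [CommRing T] {X : Type u} [AddCommGroup X] [Module T X]

/-- the map from a cyclic module to a quotient given by an element. -/
def mxCtMap (W : Submodule T X) (x : X) (K : Ideal T) (hK : ∀ a ∈ K, a • x ∈ W) :
    (T ⧸ K) →ₗ[T] X ⧸ W :=
  Submodule.mapQ K W (LinearMap.toSpanSingleton T X x) hK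

theorem mxCtMap_mk (W : Submodule T X) (x : X) (K : Ideal T) (hK : ∀ a ∈ K, a • x ∈ W) (a : T) :
    mxCtMap W x K hK (Ideal.Quotient.mk K a) = W.mkQ (a • x) := rfl

theorem mxCt_exact (W : Submodule T X) (x : X) (K : Ideal T) (hK : ∀ a ∈ K, a • x ∈ W) :
    Function.Exact (mxCtMap W x K hK)
      (Submodule.factor (le_sup_left : W ≤ W ⊔ Submodule.span T {x})) := by
  intro z
  obtain ⟨z, rfl⟩ := W.mkQ_surjective z
  rw [Submodule.factor_mk, Submodule.mkQ_apply, Submodule.Quotient.mk_eq_zero]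
  constructor
  · intro h
    obtain ⟨w, hw, _, h', rfl⟩ := Submodule.mem_sup.1 h
    obtain ⟨a, rfl⟩ := Submodule.mem_span_singleton.1 h'
    refine ⟨Ideal.Quotient.mk K a, ?_⟩
    rw [mxCtMap_mk, map_add, Submodule.mkQ_apply W w, (Submodule.Quotient.mk_eq_zero W).2 hw,
      zero_add]
  · rintro ⟨a, ha⟩
    obtain ⟨a, rfl⟩ := Ideal.Quotient.mk_surjective a
    rw [mxCtMap_mk, eq_comm, Submodule.mkQ_apply, Submodule.mkQ_apply,
      Submodule.Quotient.eq] at ha
    rw [← sub_add_cancel z (a • x)]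
    exact Submodule.add_mem_sup ha (Submodule.mem_span_singleton.2 ⟨a, rfl⟩)

open TensorProduct in
theorem mxCt_inj {H Y : Type u} [AddCommGroup H] [Module T H] [AddCommGroup Y] [Module T Y]
    (W : Submodule T X) (x : X) (K : Ideal T) (hK : ∀ a ∈ K, a • x ∈ W)
    (b : X →ₗ[T] H →ₗ[T] Y) (U : Submodule T Y) (hU : ∀ w ∈ W, ∀ h, b w h ∈ U)
    (hinj : ∀ h, b x h ∈ U → h ∈ K • (⊤ : Submodule T H)) :
    Function.Injective ((mxCtMap W x K hK).lTensor H) := by
  let c : (X ⧸ W) →ₗ[T] H →ₗ[T] Y ⧸ U := W.liftQ (b.compr₂ U.mkQ) fun w hw =>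
    LinearMap.ext fun h => (Submodule.Quotient.mk_eq_zero U).2 (hU w hw h)
  rw [injective_iff_map_eq_zero]
  intro z hz
  obtain ⟨h, rfl⟩ : ∃ h : H, h ⊗ₜ[T] (1 : T ⧸ K) = z := by
    clear hz
    induction z with
    | zero => exact ⟨0, zero_tmul _ _⟩
    | tmul h a =>
      obtain ⟨a, rfl⟩ := Ideal.Quotient.mk_surjective a
      exact ⟨a • h, by rw [smul_tmul, ← Algebra.algebraMap_eq_smul_one]; rfl⟩
    | add z z' ih ih' =>
      obtain ⟨h, rfl⟩ := ih
      obtain ⟨h', rfl⟩ := ih'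
      exact ⟨h + h', add_tmul _ _ _⟩
  have h1 := congrArg (TensorProduct.lift c.flip) hz
  rw [LinearMap.lTensor_tmul, map_zero, ← map_one (Ideal.Quotient.mk K), mxCtMap_mk,
    one_smul] at h1
  refine Submodule.smul_induction_on (hinj h ((Submodule.Quotient.mk_eq_zero U).1 h1))
    (p := fun h => h ⊗ₜ[T] (1 : T ⧸ K) = 0) (fun a ha h _ => ?_) fun h h' e e' => ?_
  · rw [smul_tmul, ← Algebra.algebraMap_eq_smul_one, Ideal.Quotient.algebraMap_eq,
      Ideal.Quotient.eq_zero_iff_mem.2 ha, tmul_zero]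
  · rw [add_tmul, e, e', add_zero]

theorem mxCt_mem {H : Type u} [AddCommGroup H] [Module T H] (J : Ideal T) (a : T) (h : H) :
    h ∈ (J ⊔ Ideal.span {a}) • (⊤ : Submodule T H) ↔
      ∃ k, h - a • k ∈ J • (⊤ : Submodule T H) := by
  rw [Submodule.sup_smul, mxc_mem]

theorem mxCt_update {d : ℕ} (J : Ideal T) (w : Fin d → T) (c : Fin d → ℕ) (j : Fin d) (a : ℕ) :
    J ⊔ Ideal.span (Set.range fun i => w i ^ Function.update c j a i) =
      J ⊔ Ideal.span ((fun i => w i ^ c i) '' {i | i ≠ j}) ⊔ Ideal.span {w j ^ a} := by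
  rw [sup_assoc, ← Ideal.span_union]
  congr 2
  ext z
  constructor
  · rintro ⟨i, rfl⟩
    rcases eq_or_ne i j with rfl | h
    · exact Or.inr (by simp)
    · exact Or.inl ⟨i, h, by simp [h]⟩
  · rintro (⟨i, h, rfl⟩ | rfl)
    · exact ⟨i, by simp [Function.update_of_ne h]⟩
    · exact ⟨j, by simp⟩

theorem mxCt_ind {d : ℕ} (P : (Fin d → ℕ) → Prop) (h1 : P fun _ => 1)
    (h2 : ∀ c j a, (∀ i, c i ≠ 0) → a ≠ 0 → P (Function.update c j a) →
      P (Function.update c j 1) → P (Function.update c j (a + 1)))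
    (c : Fin d → ℕ) (hc : ∀ i, c i ≠ 0) : P c := by
  induction hn : ∑ i, c i using Nat.strong_induction_on generalizing c with
  | _ n ih =>
    by_cases h : ∀ i, c i = 1
    · rwa [funext h]
    · obtain ⟨j, hj⟩ := not_forall.1 h
      obtain ⟨a, ha⟩ := Nat.exists_eq_succ_of_ne_zero (hc j)
      have key : ∀ b, b ≠ 0 → b < c j → P (Function.update c j b) := fun b hb hb' => by
        refine ih _ ?_ _ (fun i => ?_) rfl
        · rw [← hn, Finset.sum_update_of_mem (Finset.mem_univ j),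
            Finset.sum_eq_add_sum_sdiff_singleton_of_mem (Finset.mem_univ j) c]
          omega
        · rcases eq_or_ne i j with rfl | h
          · rwa [Function.update_self]
          · rw [Function.update_of_ne h]; exact hc i
      have := h2 c j a hc (by omega) (key a (by omega) (by omega)) (key 1 (by omega) (by omega))
      rwa [← Nat.succ_eq_add_one, ← ha, Function.update_eq_self] at this

theorem mxCt_prod {d : ℕ} (c : Fin d → ℕ) (j : Fin d) (a : ℕ) :
    ∏ i, (Function.update c j (a + 1) i : ℝ≥0∞) =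
      ∏ i, (Function.update c j 1 i : ℝ≥0∞) + ∏ i, (Function.update c j a i : ℝ≥0∞) := by
  simp only [← Nat.cast_prod, Finset.prod_update_of_mem (Finset.mem_univ j)]
  push_cast
  ring

theorem mxCt_sup (W : Submodule T X) {W' W'' : Submodule T X} (h : W' ≤ W'') :
    W ⊔ W' ⊔ W'' = W ⊔ W'' := by
  rw [sup_assoc, sup_eq_right.2 h]

theorem mxCt_mul (J : Ideal T) {u v t : T} (h : u * v = t) :
    ∀ a ∈ J ⊔ Ideal.span {u}, a • v ∈ J ⊔ Ideal.span {t} := fun z hz => by
  obtain ⟨z₁, hz₁, _, h', rfl⟩ := Submodule.mem_sup.1 hz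
  obtain ⟨r, rfl⟩ := Ideal.mem_span_singleton'.1 h'
  rw [smul_eq_mul, add_mul]
  exact Submodule.add_mem_sup (J.mul_mem_right _ hz₁)
    (Ideal.mem_span_singleton'.2 ⟨r, by rw [← h, mul_assoc]⟩)

end Aux

variable {V T H : Type u} [CommRing V] [CommRing T] [Algebra V T] [AddCommGroup H] [Module T H]
  {I : Ideal T} {G : T} (L : LenData V T H I G)

theorem LenData.mxCt_le {X : Type u} [AddCommGroup X] [Module T X] (W : Submodule T X) (x : X)
    (K : Ideal T) (hK : ∀ a ∈ K, a • x ∈ W) (hI : I ≤ K) (hX : Kills I (X ⧸ W)) :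
    L.Λ (X ⧸ W) ≤ L.Λ (T ⧸ K) + L.Λ (X ⧸ (W ⊔ Submodule.span T {x})) :=
  L.le_add _ _ _ _ _ (mxCt_exact W x K hK) (Submodule.factor_surjective _) (kills_quot hI) hX

theorem LenData.mxCt_ge {X Y : Type u} [AddCommGroup X] [Module T X] [AddCommGroup Y] [Module T Y]
    (W : Submodule T X) (x : X) (K : Ideal T) (hK : ∀ a ∈ K, a • x ∈ W) (hI : I ≤ K)
    (hX : Kills I (X ⧸ W)) (b : X →ₗ[T] H →ₗ[T] Y) (U : Submodule T Y)
    (hU : ∀ w ∈ W, ∀ h, b w h ∈ U) (hinj : ∀ h, b x h ∈ U → h ∈ K • (⊤ : Submodule T H)) :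
    L.Λ (T ⧸ K) + L.Λ (X ⧸ (W ⊔ Submodule.span T {x})) ≤ L.Λ (X ⧸ W) :=
  L.add _ _ _ _ _ (mxCt_exact W x K hK) (Submodule.factor_surjective _)
    (mxCt_inj W x K hK b U hU hinj) (kills_quot hI) hX

theorem LenData.mxCt_fam {X : Type u} [AddCommGroup X] [Module T X] (K : Ideal T) (hI : I ≤ K)
    (κ : ℕ) : ∀ (v : Fin κ → X) (W : Submodule T X), (∀ k, ∀ a ∈ K, a • v k ∈ W) →
      Kills I (X ⧸ W) → W ⊔ Submodule.span T (Set.range v) = ⊤ →
      L.Λ (X ⧸ W) ≤ κ * L.Λ (T ⧸ K) := by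
  induction κ with
  | zero =>
    intro v W _ _ h
    rw [Set.range_eq_empty, Submodule.span_empty, sup_bot_eq] at h
    rw [L.zero _ (Submodule.Quotient.subsingleton_iff.2 h)]
    exact zero_le
  | succ κ ih =>
    intro v W hv hX h
    refine (L.mxCt_le W (v 0) K (hv 0) hI hX).trans ?_
    rw [Nat.cast_succ, add_mul, one_mul, add_comm]
    gcongr
    refine ih (Fin.tail v) _ (fun k a ha => Submodule.mem_sup_left (hv _ a ha))
      (hX.of_surjective _ (Submodule.factor_surjective le_sup_left)) ?_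
    rw [sup_assoc, ← Submodule.span_insert, ← Fin.range_fin_succ, h]

theorem LenData.mxCt_tri {X Y : Type u} [AddCommGroup X] [Module T X] [AddCommGroup Y] [Module T Y]
    (K : Ideal T) (hI : I ≤ K) (b : X →ₗ[T] H →ₗ[T] Y) (N : ℕ) :
    ∀ (α : Fin N → X) (W : Submodule T X) (U : Submodule T Y), Kills I (X ⧸ W) →
      (∀ w ∈ W, ∀ h, b w h ∈ U) → (∀ (i₀ : Fin N) (h : Fin N → H), (∀ i, i < i₀ → h i = 0) →
        ∑ i, b (α i) (h i) ∈ U → h i₀ ∈ K • (⊤ : Submodule T H)) →
      N * L.Λ (T ⧸ K) ≤ L.Λ (X ⧸ W) := by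
  induction N with
  | zero => intros; simp
  | succ N ih =>
    intro α W U hX hU hinj
    set x := α (Fin.last N)
    have h1 := ih (fun i => α i.castSucc) (W ⊔ Submodule.span T {x}) (U ⊔ LinearMap.range (b x))
      (hX.of_surjective _ (Submodule.factor_surjective le_sup_left)) (fun w hw h => by
        obtain ⟨w₁, hw₁, _, h', rfl⟩ := Submodule.mem_sup.1 hw
        obtain ⟨a, rfl⟩ := Submodule.mem_span_singleton.1 h'
        rw [map_add, LinearMap.add_apply]
        exact Submodule.add_mem_sup (hU w₁ hw₁ h) ⟨a • h, by simp⟩) (fun i₀ h h0 hm => by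
        obtain ⟨u, hu, _, ⟨g, rfl⟩, e⟩ := Submodule.mem_sup.1 hm
        have := hinj i₀.castSucc (Fin.snoc (α := fun _ => H) h (-g)) (fun i hi => by
          obtain ⟨i, rfl⟩ := Fin.exists_castSucc_eq.2 (Fin.ne_last_of_lt hi)
          rw [Fin.snoc_castSucc]
          exact h0 i (Fin.castSucc_lt_castSucc_iff.1 hi)) (by
          simp only [Fin.sum_univ_castSucc, Fin.snoc_castSucc, Fin.snoc_last, map_neg, ← e]
          rwa [add_neg_cancel_right])
        rwa [Fin.snoc_castSucc] at this)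
    have hle : W ≤ W ⊔ K • Submodule.span T {x} := le_sup_left
    have h2 := L.mxCt_ge (W ⊔ K • Submodule.span T {x}) x K (fun a ha => Submodule.mem_sup_right
      (Submodule.smul_mem_smul ha (Submodule.mem_span_singleton_self x))) hI
      (hX.of_surjective _ (Submodule.factor_surjective hle)) b
      (U ⊔ (K • (⊤ : Submodule T H)).map (b x)) (fun w hw h => by
        obtain ⟨w₁, hw₁, w', h', rfl⟩ := Submodule.mem_sup.1 hw
        obtain ⟨a, ha, rfl⟩ := Submodule.mem_smul_span_singleton.1 h'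
        rw [map_add, LinearMap.add_apply]
        exact Submodule.add_mem_sup (hU w₁ hw₁ h)
          ⟨a • h, Submodule.smul_mem_smul ha trivial, by simp⟩) (fun h hm => by
        obtain ⟨u, hu, _, ⟨g, hg, rfl⟩, e⟩ := Submodule.mem_sup.1 hm
        have := hinj (Fin.last N) (Pi.single (Fin.last N) (h - g))
          (fun i hi => Pi.single_eq_of_ne hi.ne _) (by
          rw [Finset.sum_eq_single (Fin.last N) (fun i _ hi => by simp [hi]) (by simp),
            Pi.single_eq_same, map_sub, ← e]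
          rwa [add_sub_cancel_right])
        rw [Pi.single_eq_same] at this
        simpa using add_mem this hg)
    rw [mxCt_sup W Submodule.smul_le_right] at h2
    rw [Nat.cast_succ, add_mul, one_mul, add_comm]
    exact (add_le_add le_rfl h1).trans (h2.trans
      (L.mono _ _ _ (Submodule.factor_surjective hle) hX))

theorem LenData.mxCt_upper {d : ℕ} (J : Ideal T) (w : Fin d → T) (c : Fin d → ℕ)
    (hc : ∀ i, c i ≠ 0) : I ≤ J ⊔ Ideal.span (Set.range fun i => w i ^ c i) →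
      L.Λ (T ⧸ (J ⊔ Ideal.span (Set.range fun i => w i ^ c i))) ≤
        (∏ i, (c i : ℝ≥0∞)) * L.Λ (T ⧸ (J ⊔ Ideal.span (Set.range w))) := by
  refine mxCt_ind (fun c => I ≤ J ⊔ Ideal.span (Set.range fun i => w i ^ c i) →
      L.Λ (T ⧸ (J ⊔ Ideal.span (Set.range fun i => w i ^ c i))) ≤
        (∏ i, (c i : ℝ≥0∞)) * L.Λ (T ⧸ (J ⊔ Ideal.span (Set.range w))))
    (fun _ => by rw [show (fun i => w i ^ 1) = w from funext fun _ => pow_one _]; simp)
    (fun c j a _ ha ih ih' hI => ?_) c hc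
  rw [mxCt_update] at hI ih ih' ⊢
  set J' := J ⊔ Ideal.span ((fun i => w i ^ c i) '' {i | i ≠ j})
  have e : ∀ b ≤ a + 1, J' ⊔ Ideal.span {w j ^ (a + 1)} ≤ J' ⊔ Ideal.span {w j ^ b} := fun b hb =>
    sup_le_sup_left (Ideal.span_singleton_le_span_singleton.2 (pow_dvd_pow _ hb)) _
  have h1 := L.mxCt_le (J' ⊔ Ideal.span {w j ^ (a + 1)}) (w j ^ a) (J' ⊔ Ideal.span {w j ^ 1})
    (mxCt_mul J' (by ring)) (hI.trans (e 1 (by omega))) (kills_quot hI)
  rw [Ideal.submodule_span_eq, mxCt_sup J'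
    (Ideal.span_singleton_le_span_singleton.2 (pow_dvd_pow _ a.le_succ))] at h1
  rw [mxCt_prod, add_mul]
  exact h1.trans (add_le_add (ih' (hI.trans (e 1 (by omega)))) (ih (hI.trans (e a a.le_succ))))

theorem LenData.quot_anti {J J' : Ideal T} (hI : I ≤ J) (h : J ≤ J') :
    L.Λ (T ⧸ J') ≤ L.Λ (T ⧸ J) := by
  exact L.mono _ _ (Submodule.factor h) (Submodule.factor_surjective h) (kills_quot hI)

theorem LenData.powIdeal_le {D : ℕ} (y : Fin D → T) (j : ℕ) (hI : I ≤ powIdeal y j) :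
    L.Λ (T ⧸ powIdeal y j) ≤ (j : ℝ≥0∞) ^ D * L.Λ (T ⧸ Ideal.span (Set.range y)) := by
  by_cases h : ∀ _ : Fin D, j ≠ 0
  · have := L.mxCt_upper ⊥ y (fun _ => j) h (hI.trans le_sup_right)
    rwa [bot_sup_eq, bot_sup_eq, Finset.prod_const, Finset.card_univ, Fintype.card_fin] at this
  · obtain ⟨i, hi⟩ := not_forall.1 h
    have : powIdeal y j = ⊤ := (Ideal.eq_top_iff_one _).2
      (Ideal.subset_span ⟨i, by simp [not_not.1 hi]⟩)
    rw [L.zero _ (Submodule.Quotient.subsingleton_iff.2 this)]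
    exact zero_le

/-- the lower bound from the colon property. -/
theorem LenData.pow_mul_le {d : ℕ} (J : Ideal T) (w : Fin d → T)
    (hcol : ∀ (c : Fin d → ℕ) (j : Fin d) (h : H), (∀ i, c i ≠ 0) →
      w j ^ c j • h ∈ (J ⊔ Ideal.span ((fun i => w i ^ c i) '' {i | i ≠ j})) •
        (⊤ : Submodule T H) →
      h ∈ (J ⊔ Ideal.span ((fun i => w i ^ c i) '' {i | i ≠ j})) • (⊤ : Submodule T H))
    (m : ℕ) (hI : I ≤ J ⊔ powIdeal w m) :
    (m : ℝ≥0∞) ^ d * L.Λ (T ⧸ (J ⊔ Ideal.span (Set.range w))) ≤ L.Λ (T ⧸ (J ⊔ powIdeal w m)) := by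
  by_cases h : ∀ _ : Fin d, m ≠ 0
  swap
  · obtain ⟨i, hi⟩ := not_forall.1 h
    rw [not_not.1 hi, Nat.cast_zero, zero_pow i.pos.ne', zero_mul]
    exact zero_le
  have key := mxCt_ind (fun c => I ≤ J ⊔ Ideal.span (Set.range fun i => w i ^ c i) →
      (∏ i, (c i : ℝ≥0∞)) * L.Λ (T ⧸ (J ⊔ Ideal.span (Set.range w))) ≤
        L.Λ (T ⧸ (J ⊔ Ideal.span (Set.range fun i => w i ^ c i))))
    (fun _ => by rw [show (fun i => w i ^ 1) = w from funext fun _ => pow_one _]; simp)
    (fun c j a hc ha ih ih' hI => ?_) (fun _ => m) h hI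
  · rwa [Finset.prod_const, Finset.card_univ, Fintype.card_fin] at key
  have hcol' := hcol (Function.update c j a) j
  have e0 : (fun i => w i ^ Function.update c j a i) '' {i | i ≠ j} =
      (fun i => w i ^ c i) '' {i | i ≠ j} :=
    Set.image_congr fun i hi => by rw [Function.update_of_ne hi]
  rw [e0, Function.update_self] at hcol'
  rw [mxCt_update] at hI ih ih' ⊢
  set J' := J ⊔ Ideal.span ((fun i => w i ^ c i) '' {i | i ≠ j})
  have e : ∀ b ≤ a + 1, J' ⊔ Ideal.span {w j ^ (a + 1)} ≤ J' ⊔ Ideal.span {w j ^ b} := fun b hb =>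
    sup_le_sup_left (Ideal.span_singleton_le_span_singleton.2 (pow_dvd_pow _ hb)) _
  have h1 := L.mxCt_ge (J' ⊔ Ideal.span {w j ^ (a + 1)}) (w j ^ a) (J' ⊔ Ideal.span {w j ^ 1})
    (mxCt_mul J' (by ring)) (hI.trans (e 1 (by omega))) (kills_quot hI)
    (LinearMap.lsmul T H) ((J' ⊔ Ideal.span {w j ^ (a + 1)}) • ⊤)
    (fun z hz h => Submodule.smul_mem_smul hz trivial) (fun h hh => by
      obtain ⟨k, hk⟩ := (mxCt_mem _ _ _).1 hh
      refine (mxCt_mem _ _ _).2 ⟨k, hcol' _ (fun i => ?_) ?_⟩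
      · rcases eq_or_ne i j with rfl | h
        · rwa [Function.update_self]
        · rw [Function.update_of_ne h]; exact hc i
      · rwa [smul_sub, smul_smul, ← pow_add])
  rw [Ideal.submodule_span_eq, mxCt_sup J'
    (Ideal.span_singleton_le_span_singleton.2 (pow_dvd_pow _ a.le_succ))] at h1
  rw [mxCt_prod, add_mul]
  exact (add_le_add (ih' (hI.trans (e 1 (by omega)))) (ih (hI.trans (e a a.le_succ)))).trans h1

/-- the lower bound from triangular injectivity. -/
theorem LenData.le_of_inj {D N κ : ℕ} (y : Fin D → T) (hIy : I ≤ Ideal.span (Set.range y))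
    {β₀ β₁ : Type} [Fintype β₀] [Fintype β₁] [DecidableEq β₀] (hβ : Fintype.card β₀ = 1)
    (φ : Matrix β₀ β₁ T) (J : Ideal T) (hIJ : I ≤ J)
    (hJ : ∀ a ∈ J, ∃ h : Matrix β₁ β₀ T, φ * h = a • (1 : Matrix β₀ β₀ T))
    (α : Fin N → Fin κ → T)
    (hinj : ∀ (i₀ : Fin N) (h : Fin N → β₀ → H), (∀ i, i < i₀ → h i = 0) →
      (∀ k, ∃ σ : β₁ → H, ∀ r, ∑ i, α i k • h i r = mact φ σ r) →
      ∀ r, h i₀ r ∈ Ideal.span (Set.range y) • (⊤ : Submodule T H)) :
    (N : ℝ≥0∞) * L.Λ (T ⧸ Ideal.span (Set.range y)) ≤ κ * L.Λ (T ⧸ J) := by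
  let W : Submodule T (Fin κ → T) := Submodule.pi Set.univ fun _ => J
  have hW : Kills I ((Fin κ → T) ⧸ W) := by
    intro a ha x
    obtain ⟨x, rfl⟩ := W.mkQ_surjective x
    rw [← map_smul, Submodule.mkQ_apply, Submodule.Quotient.mk_eq_zero]
    exact fun k _ => J.mul_mem_right _ (hIJ ha)
  let b : (Fin κ → T) →ₗ[T] H →ₗ[T] Fin κ → H := LinearMap.mk₂ T (fun x h k => x k • h)
    (fun _ _ _ => funext fun _ => add_smul _ _ _) (fun _ _ _ => funext fun _ => mul_smul _ _ _)
    (fun _ _ _ => funext fun _ => smul_add _ _ _) (fun _ _ _ => funext fun _ => smul_comm _ _ _)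
  have hσ : ∀ z ∈ J • (⊤ : Submodule T H), ∃ σ : β₁ → H, ∀ r, z = mact φ σ r := by
    intro z hz
    refine Submodule.smul_induction_on hz (fun a ha h _ => ?_) ?_
    · obtain ⟨m, hm⟩ := hJ a ha
      refine ⟨mact m fun _ => h, fun r => ?_⟩
      have : mact φ (mact m fun _ => h) r = mact (φ * m) (fun _ => h) r := by
        simp only [mact, Matrix.mul_apply, Finset.smul_sum, Finset.sum_smul, smul_smul]
        exact Finset.sum_comm
      rw [this, hm]
      simp [mact, Matrix.one_apply]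
    · rintro z z' ⟨σ, h⟩ ⟨σ', h'⟩
      exact ⟨fun s => σ s + σ' s, fun r => by rw [mact_add, ← h, ← h']⟩
  obtain ⟨r⟩ : Nonempty β₀ := Fintype.card_pos_iff.1 (by omega)
  refine (L.mxCt_tri _ hIy b N α W (Submodule.pi Set.univ fun _ => J • ⊤) hW
    (fun w hw h k _ => Submodule.smul_mem_smul (hw k trivial) trivial)
    fun i₀ h h0 hm => hinj i₀ (fun i _ => h i) (fun i hi => funext fun _ => h0 i hi)
      (fun k => hσ _ ?_) r).trans (L.mxCt_fam J hIJ κ (fun k => Pi.single k 1) W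
        (fun k a ha k' _ => J.mul_mem_right _ ha) hW ?_)
  · have := hm k trivial
    rwa [Finset.sum_apply] at this
  · refine eq_top_iff.2 (le_trans (eq_top_iff.1 ?_) le_sup_right)
    rw [← (Pi.basisFun T (Fin κ)).span_eq]
    congr 2
    funext k
    simp

/-- a bound by a multiple of the length. -/
theorem LenData.le_mul_length (m : Ideal T) (ν : ℕ) (hI : m ^ ν ≤ I) (hI' : I ≤ m)
    (X : Type u) [AddCommGroup X] [Module T X] [Module V X] [IsScalarTower V T X]
    (hX : Kills I X) (hfin : Module.length V X ≠ ⊤) :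
    L.Λ X ≤ Module.length V X * L.Λ (T ⧸ m) := by
  have key : ∀ (n : ℕ) (X : Type u) [AddCommGroup X] [Module T X] [Module V X]
      [IsScalarTower V T X], Kills I X → Module.length V X ≤ n → L.Λ X ≤ n * L.Λ (T ⧸ m) := by
    intro n
    induction n with
    | zero =>
      intro X _ _ _ _ _ h
      rw [L.zero X (Module.length_eq_zero_iff.1 (le_zero_iff.1 h))]
      exact zero_le
    | succ n ih =>
      intro X _ _ _ _ hX h
      rcases subsingleton_or_nontrivial X with h0 | h0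
      · rw [L.zero X h0]
        exact zero_le
      obtain ⟨x, hx, hx'⟩ : ∃ x : X, x ≠ 0 ∧ ∀ a ∈ m, a • x = 0 := by
        by_contra hne
        have : ∀ k, ∀ x : X, (∀ a ∈ m ^ k, a • x = 0) → x = 0 := by
          intro k
          induction k with
          | zero => intro x h; simpa using h 1 (by simp)
          | succ k ih =>
            intro x h
            by_contra h'
            refine hne ⟨x, h', fun a ha => ih _ fun b hb => ?_⟩
            rw [smul_smul]
            exact h _ (pow_succ m k ▸ Ideal.mul_mem_mul hb ha)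
        obtain ⟨x, hx⟩ := exists_ne (0 : X)
        exact hx (this ν x fun a ha => hX a (hI ha) x)
      let f : (T ⧸ m) →ₗ[T] X := Submodule.liftQ m (LinearMap.toSpanSingleton T X x) hx'
      have h1 := L.le_add _ _ _ f _ f.exact_map_mkQ_range (Submodule.mkQ_surjective _)
        (kills_quot hI') hX
      have h2 := Module.length_eq_add_of_exact ((LinearMap.range f).subtype.restrictScalars V)
        ((LinearMap.range f).mkQ.restrictScalars V) (LinearMap.range f).injective_subtype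
        (LinearMap.range f).mkQ_surjective (LinearMap.exact_subtype_mkQ (LinearMap.range f))
      have : Nontrivial (LinearMap.range f) :=
        ⟨⟨⟨x, Submodule.Quotient.mk 1, one_smul T x⟩, 0, fun e => hx (congrArg Subtype.val e)⟩⟩
      have h3 : 1 ≤ Module.length V (LinearMap.range f) :=
        Order.one_le_iff_pos.2 Module.length_pos
      have h4 : Module.length V (X ⧸ LinearMap.range f) ≤ n := by
        rw [h2, Nat.cast_succ, add_comm (n : ℕ∞)] at h
        exact (ENat.add_le_add_iff_left ENat.one_ne_top).1 ((add_le_add h3 le_rfl).trans h)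
      rw [Nat.cast_succ, add_mul, one_mul, add_comm]
      exact h1.trans (add_le_add le_rfl (ih _ (hX.quotient _) h4))
  obtain ⟨n, hn⟩ := ENat.ne_top_iff_exists.1 hfin
  rw [← hn]
  exact key n X hX hn.ge

theorem LenData.quot_le_length (J : Ideal T)
    (hcol : ∀ h : H, G • h ∈ J • (⊤ : Submodule T H) → h ∈ J • (⊤ : Submodule T H))
    (hI : I ≤ J ⊔ Ideal.span {G ^ 2}) :
    L.Λ (T ⧸ (J ⊔ Ideal.span {G})) ≤ Module.length V (T ⧸ (J ⊔ Ideal.span {G ^ 2})) := by
  have hle : J ⊔ Ideal.span {G ^ 2} ≤ J ⊔ Ideal.span {G} :=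
    sup_le_sup_left (Ideal.span_singleton_le_span_singleton.2 (dvd_pow_self _ two_ne_zero)) _
  have hK : ∀ a ∈ J ⊔ Ideal.span {G}, a • G ∈ J ⊔ Ideal.span {G ^ 2} := mxCt_mul J (sq G).symm
  refine L.upper' _ _ (mxCtMap _ G _ hK) (mxCt_inj _ G _ hK (LinearMap.lsmul T H)
    ((J ⊔ Ideal.span {G ^ 2}) • ⊤) (fun z hz h => Submodule.smul_mem_smul hz trivial)
    fun h hh => ?_) ?_ (kills_quot (hI.trans hle)) (kills_quot hI)
  · obtain ⟨k, hk⟩ := (mxCt_mem _ _ _).1 hh
    refine (mxCt_mem _ _ _).2 ⟨k, hcol _ ?_⟩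
    rwa [smul_sub, smul_smul, ← sq]
  · rintro _ ⟨a, rfl⟩
    obtain ⟨a, rfl⟩ := Ideal.Quotient.mk_surjective a
    rw [mxCtMap_mk, smul_eq_mul, mul_comm, ← smul_eq_mul, map_smul]
    exact Submodule.smul_mem_smul (Ideal.mem_span_singleton_self G) trivial

end Vale.Agent.P202
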