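import Mathlib

/-! Lagrange type elements, and modules defined by division. -/

namespace Vale.Agent.P202

open Polynomial TensorProduct

section Lagrange

variable {S S' : Type*} [CommRing S] [CommRing S'] {ρ : ℕ}

/-- the Lagrange type element attached to the `i`-th root. -/
noncomputable def daL (b : S[X]) (t : Fin ρ → S) (x : S) (i : Fin ρ) : S :=
  b.eval (t i) * ∏ j ∈ Finset.univ.erase i, (x - t j)

theorem daL_map (f : S →+* S') (b : S[X]) (t : Fin ρ → S) (x : S) (i : Fin ρ) :
    f (daL b t x i) = daL (b.map f) (fun j => f (t j)) (f x) i := by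
  simp only [daL, map_mul, map_prod, map_sub, eval_map, eval₂_hom]

theorem da_eval_mul {x y z : S} (h : (x - y) * z = 0) (f : S[X]) :
    f.eval x * z = f.eval y * z := by
  obtain ⟨c, hc⟩ := sub_dvd_eval_sub x y f
  rw [← sub_eq_zero, ← sub_mul, hc, mul_right_comm, h, zero_mul]

theorem daL_congr {x y z : S} (h : (x - y) * z = 0) (b : S[X]) (t : Fin ρ → S) (i : Fin ρ) :
    daL b t x i * z = daL b t y i * z := by
  have := da_eval_mul h (C (b.eval (t i)) * ∏ j ∈ Finset.univ.erase i, (X - C (t j)))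
  simpa only [daL, eval_mul, eval_C, eval_prod, eval_sub, eval_X] using this

variable {a b : S[X]} {t : Fin ρ → S} {G x : S}

theorem da_prod_erase (hx : ∏ j, (x - t j) = 0) (i : Fin ρ) :
    (x - t i) * ∏ j ∈ Finset.univ.erase i, (x - t j) = 0 := by
  rw [Finset.mul_prod_erase _ (fun j => x - t j) (Finset.mem_univ i), hx]

theorem daL_kill (hx : ∏ j, (x - t j) = 0) (i : Fin ρ) : (x - t i) * daL b t x i = 0 := by
  rw [daL, mul_left_comm, da_prod_erase hx, mul_zero]

theorem daL_sum (hbez : a * ∏ j, (X - C (t j)) + b * derivative (∏ j, (X - C (t j))) = C G)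
    (hx : ∏ j, (x - t j) = 0) : ∑ i, daL b t x i = G := by
  have h := congrArg (eval x) hbez
  rw [derivative_prod_finset] at h
  simp only [eval_add, eval_mul, eval_prod, eval_sub, eval_X, eval_C, hx, mul_zero, zero_add,
    derivative_X_sub_C, mul_one, eval_finsetSum, Finset.mul_sum] at h
  rw [← h]
  exact Finset.sum_congr rfl fun i _ => (da_eval_mul (da_prod_erase hx i) b).symm

theorem daL_ne {i j : Fin ρ} (h : j ≠ i) : daL b t (t j) i = 0 := by
  rw [daL, Finset.prod_eq_zero (Finset.mem_erase.2 ⟨h, Finset.mem_univ j⟩) (sub_self _), mul_zero]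

theorem daL_self (hbez : a * ∏ j, (X - C (t j)) + b * derivative (∏ j, (X - C (t j))) = C G)
    (i : Fin ρ) : daL b t (t i) i = G := by
  rw [← daL_sum hbez (Finset.prod_eq_zero (Finset.mem_univ i) (sub_self _)),
    Finset.sum_eq_single i (fun j _ h => daL_ne h.symm) (by simp)]

theorem daL_sq (hbez : a * ∏ j, (X - C (t j)) + b * derivative (∏ j, (X - C (t j))) = C G)
    (hx : ∏ j, (x - t j) = 0) (i : Fin ρ) : daL b t x i * daL b t x i = G * daL b t x i := by
  rw [daL_congr (daL_kill hx i), daL_self hbez]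

theorem da_bez_map (f : S →+* S') {P : S[X]} {t : Fin ρ → S'} (hP : P.map f = ∏ j, (X - C (t j)))
    (hbez : a * P + b * derivative P = C G) :
    a.map f * ∏ j, (X - C (t j)) + b.map f * derivative (∏ j, (X - C (t j))) = C (f G) := by
  rw [← hP, derivative_map, ← Polynomial.map_mul, ← Polynomial.map_mul, ← Polynomial.map_add, hbez,
    map_C]

theorem da_split_map (f : S →+* S') {R : Type*} [CommRing R] (φ : R →+* S) {P : R[X]}
    (hP : P.map φ = ∏ j, (X - C (t j))) : P.map (f.comp φ) = ∏ j, (X - C (f (t j))) := by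
  rw [← Polynomial.map_map, hP, Polynomial.map_prod]
  simp only [Polynomial.map_sub, map_X, map_C]

theorem da_prod_zero {R : Type*} [CommRing R] (φ : R →+* S) {P : R[X]}
    (hP : P.map φ = ∏ j, (X - C (t j))) (hx : P.eval₂ φ x = 0) : ∏ j, (x - t j) = 0 := by
  rw [← eval_map, hP] at hx
  simpa only [eval_prod, eval_sub, eval_X, eval_C] using hx

end Lagrange

section Division

variable {S B : Type*} [CommRing S] [CommRing B]

/-- families of elements of an ideal. -/
def DaH (J : Ideal B) (ι : Type) : Type _ := ι → J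

instance (J : Ideal B) (ι : Type) : AddCommGroup (DaH J ι) :=
  inferInstanceAs (AddCommGroup (ι → J))

/-- coordinates. -/
def DaH.co {J : Ideal B} {ι : Type} (i : ι) : DaH J ι →+ B where
  toFun h := (h i : B)
  map_zero' := rfl
  map_add' _ _ := rfl

theorem DaH.ext {J : Ideal B} {ι : Type} {h h' : DaH J ι} (e : ∀ i, DaH.co i h = DaH.co i h') :
    h = h' := funext fun i => Subtype.ext (e i)

theorem DaH.co_mem {J : Ideal B} {ι : Type} (i : ι) (h : DaH J ι) : DaH.co i h ∈ J := (h i).2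

theorem DaH.exists_co {J : Ideal B} {ι : Type} (y : ι → B) (hy : ∀ i, y i ∈ J) :
    ∃ h : DaH J ι, ∀ i, DaH.co i h = y i := ⟨fun i => ⟨y i, hy i⟩, fun _ => rfl⟩

theorem da_exists_module (J : Ideal B) {ι : Type} {G : B} (hG : ∀ b, G * b = 0 → b = 0)
    (Ψ : ι → S →+ B) (h1 : ∀ i, Ψ i 1 = G) (hm : ∀ i s s', Ψ i s * Ψ i s' = G * Ψ i (s * s'))
    (hJ : ∀ i s, ∀ h ∈ J, ∃ h' ∈ J, G * h' = Ψ i s * h) :
    ∃ _ : Module S (DaH J ι), ∀ (s : S) (h : DaH J ι) i,
      G * DaH.co i (s • h) = Ψ i s * DaH.co i h := by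
  have hc : ∀ x y, G * x = G * y → x = y := fun x y h =>
    sub_eq_zero.1 (hG _ (by rw [mul_sub, h, sub_self]))
  choose q hq hq' using hJ
  let sm : SMul S (DaH J ι) := ⟨fun s h i => ⟨q i s (h i) (h i).2, hq _ _ _ _⟩⟩
  have hs : ∀ (s : S) (h : DaH J ι) i, G * DaH.co i (s • h) = Ψ i s * DaH.co i h :=
    fun s h i => hq' i s (h i) (h i).2
  refine ⟨Module.ofMinimalAxioms (fun s h h' => DaH.ext fun i => hc _ _ ?_)
    (fun s s' h => DaH.ext fun i => hc _ _ ?_) (fun s s' h => DaH.ext fun i => hc _ _ (hc _ _ ?_))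
    (fun h => DaH.ext fun i => hc _ _ ?_), hs⟩
  · rw [hs, map_add, map_add, mul_add, mul_add, hs, hs]
  · rw [hs, map_add, map_add, add_mul, mul_add, hs, hs]
  · rw [hs, hs, mul_left_comm G (Ψ i s), hs, ← mul_assoc, ← hm, mul_assoc]
  · rw [hs, h1]

end Division

theorem da_exists_tensor_lift {A B W : Type*} [CommRing A] [CommRing B] [CommRing W] [Algebra A B]
    (f g : B →+* W) (h : ∀ a, f (algebraMap A B a) = g (algebraMap A B a)) :
    ∃ ω : B ⊗[A] B →+* W, ∀ b b', ω (b ⊗ₜ b') = f b * g b' := by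
  let _ : Algebra A W := (f.comp (algebraMap A B)).toAlgebra
  let f' : B →ₐ[A] W := { f with commutes' := fun _ => rfl }
  let g' : B →ₐ[A] W := { g with commutes' := fun a => (h a).symm }
  exact ⟨(Algebra.TensorProduct.productMap f' g').toRingHom, fun _ _ => rfl⟩

end Vale.Agent.P202
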