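import Vale.Agent.P202.MxCoverDef
import Vale.Agent.P202.MxDescAAux1

/-! The module attached to etale data and a ring containing all roots. -/

namespace Vale.Agent.P202

open Polynomial TensorProduct

variable {R T B : Type*} [CommRing R] [CommRing T] [CommRing B] [Algebra R T] [Algebra R B]

theorem EtData.da_exists_psi (D : EtData R T) (t : B) (ht : aeval t D.P = 0) :
    ∃ Ψ : T ⊗[R] B →+ B, Ψ 1 = algebraMap R B D.G ∧
      (∀ s s', Ψ s * Ψ s' = algebraMap R B D.G * Ψ (s * s')) ∧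
      (∀ b s, Ψ ((1 : T) ⊗ₜ[R] b * s) = b * Ψ s) ∧
      (∀ s, Ψ (D.θ ⊗ₜ[R] (1 : B) * s) = t * Ψ s) ∧
      ∀ l, (D.θ ⊗ₜ[R] (1 : B) - (1 : T) ⊗ₜ[R] t) * l = 0 → ∀ s,
        (1 : T) ⊗ₜ[R] algebraMap R B D.G * s * l = (1 : T) ⊗ₜ[R] Ψ s * l := by
  choose F hF using D.span
  have h0 : ∀ f : R[X], aeval D.θ f = 0 → aeval t f = 0 := fun f hf => by
    obtain ⟨q, rfl⟩ := D.indep f hf
    rw [map_mul, ht, zero_mul]
  have key : ∀ (τ : T) (f : R[X]), aeval D.θ f = D.G • τ → aeval t (F τ) = aeval t f :=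
    fun τ f hf => by
      rw [← sub_eq_zero, ← map_sub]
      exact h0 _ (by rw [map_sub, hF, hf, sub_self])
  let ψ : T →ₗ[R] B :=
    { toFun := fun τ => aeval t (F τ)
      map_add' := fun τ τ' => by
        rw [← map_add, key _ (F τ + F τ') (by rw [map_add, hF, hF, smul_add])]
      map_smul' := fun r τ => by
        rw [RingHom.id_apply, ← map_smul, key _ (r • F τ) (by rw [map_smul, hF, smul_comm])] }
  let Ψ : T ⊗[R] B →ₗ[R] B := TensorProduct.lift (LinearMap.mul R B ∘ₗ ψ)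
  have hΨ : ∀ τ b, Ψ (τ ⊗ₜ b) = aeval t (F τ) * b := fun _ _ => rfl
  refine ⟨Ψ.toAddMonoidHom, ?_, fun s s' => ?_, fun b s => ?_, fun s => ?_, fun l hl s => ?_⟩ <;>
    simp only [LinearMap.toAddMonoidHom_coe]
  · rw [Algebra.TensorProduct.one_def, hΨ, key 1 (C D.G) (by
      rw [aeval_C, Algebra.algebraMap_eq_smul_one]), aeval_C, mul_one]
  · induction s with
    | zero => simp
    | add x y hx hy => simp only [map_add, add_mul, mul_add, hx, hy]
    | tmul τ b =>
      induction s' with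
      | zero => simp
      | add x y hx hy => simp only [map_add, mul_add, hx, hy]
      | tmul τ' b' =>
        have h1 := h0 (F τ * F τ' - C D.G * F (τ * τ')) (by
          rw [map_sub, map_mul, map_mul, hF, hF, hF, aeval_C, ← Algebra.smul_def, smul_mul_smul_comm,
            smul_smul, sub_self])
        rw [map_sub, map_mul, map_mul, aeval_C, sub_eq_zero] at h1
        rw [Algebra.TensorProduct.tmul_mul_tmul, hΨ, hΨ, hΨ, mul_mul_mul_comm, h1, mul_assoc]
  · induction s with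
    | zero => simp
    | add x y hx hy => simp only [map_add, mul_add, hx, hy]
    | tmul τ b' => rw [Algebra.TensorProduct.tmul_mul_tmul, hΨ, hΨ, one_mul, mul_left_comm]
  · induction s with
    | zero => simp
    | add x y hx hy => simp only [map_add, mul_add, hx, hy]
    | tmul τ b' =>
      rw [Algebra.TensorProduct.tmul_mul_tmul, hΨ, hΨ, one_mul, key _ (X * F τ) (by
        rw [map_mul, aeval_X, hF, mul_smul_comm]), map_mul, aeval_X, mul_assoc]
  · induction s with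
    | zero => simp
    | add x y hx hy => simp only [map_add, mul_add, add_mul, tmul_add, hx, hy]
    | tmul τ b =>
      have e1 := da_eval_mul hl ((F τ).map (algebraMap R (T ⊗[R] B)))
      have e2 : aeval (D.θ ⊗ₜ[R] (1 : B)) (F τ) = (D.G • τ) ⊗ₜ[R] (1 : B) := by
        rw [← hF]
        exact aeval_algHom_apply (Algebra.TensorProduct.includeLeft (S := R)) D.θ (F τ)
      have e3 : aeval ((1 : T) ⊗ₜ[R] t) (F τ) = (1 : T) ⊗ₜ[R] aeval t (F τ) :=
        aeval_algHom_apply Algebra.TensorProduct.includeRight t (F τ)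
      rw [eval_map_algebraMap, eval_map_algebraMap, e2, e3] at e1
      calc (1 : T) ⊗ₜ[R] algebraMap R B D.G * τ ⊗ₜ[R] b * l
          = (1 : T) ⊗ₜ[R] b * ((D.G • τ) ⊗ₜ[R] (1 : B) * l) := by
            rw [← mul_assoc, Algebra.TensorProduct.tmul_mul_tmul,
              Algebra.TensorProduct.tmul_mul_tmul, one_mul, one_mul, mul_one, smul_tmul,
              Algebra.smul_def]
        _ = _ := by
            rw [e1, hΨ, ← mul_assoc, Algebra.TensorProduct.tmul_mul_tmul, one_mul, mul_comm b]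

theorem da_pow_dvd {S : Type*} [CommRing S] {G : B} (Ψ : S →+ B) (h1 : Ψ 1 = G)
    (hm : ∀ s s', Ψ s * Ψ s' = G * Ψ (s * s')) (s : S) (k : ℕ) : G ^ k ∣ G * Ψ s ^ k := by
  refine ⟨Ψ (s ^ k), ?_⟩
  induction k with
  | zero => simp [h1]
  | succ k ih => rw [pow_succ, ← mul_assoc, ih, mul_assoc, hm, pow_succ, pow_succ, mul_assoc]

section Chain

variable {g : ℕ → B}

theorem da_chain (hg : ∀ m, g (m + 1) * g (m + 1) ∣ g m) {m m' : ℕ} (h : m ≤ m') : g m' ∣ g m := by
  induction h with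
  | refl => exact dvd_rfl
  | step _ ih => exact ((Dvd.intro _ rfl).trans (hg _)).trans ih

theorem da_mem_smul (hg : ∀ m, g (m + 1) * g (m + 1) ∣ g m) (I : Ideal B) {z : B}
    (hz : z ∈ I * Ideal.span (Set.range g)) : ∃ m, ∃ w ∈ I, z = g m * w := by
  have hadd : ∀ (I : Ideal B) (x y : B), (∃ m, ∃ w ∈ I, x = g m * w) → (∃ m, ∃ w ∈ I, y = g m * w) →
      ∃ m, ∃ w ∈ I, x + y = g m * w := by
    rintro I _ _ ⟨m, w, hw, rfl⟩ ⟨m', w', hw', rfl⟩
    obtain ⟨u, hu⟩ := da_chain hg (le_max_left m m')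
    obtain ⟨u', hu'⟩ := da_chain hg (le_max_right m m')
    refine ⟨max m m', u * w + u' * w', add_mem (I.mul_mem_left _ hw) (I.mul_mem_left _ hw'), ?_⟩
    rw [mul_add, ← mul_assoc, ← mul_assoc, ← hu, ← hu']
  have h1 : ∀ y ∈ Ideal.span (Set.range g), ∃ m, ∃ w ∈ (⊤ : Ideal B), y = g m * w := by
    intro y hy
    induction hy using Submodule.span_induction with
    | mem x hx =>
      obtain ⟨m, rfl⟩ := hx
      exact ⟨m, 1, trivial, (mul_one _).symm⟩
    | zero => exact ⟨0, 0, trivial, (mul_zero _).symm⟩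
    | add x y _ _ hx hy => exact hadd _ _ _ hx hy
    | smul a x _ hx =>
      obtain ⟨m, w, -, rfl⟩ := hx
      exact ⟨m, a * w, trivial, mul_left_comm _ _ _⟩
  refine Submodule.mul_induction_on hz (fun r hr y hy => ?_) (hadd I)
  obtain ⟨m, w, -, rfl⟩ := h1 y hy
  exact ⟨m, r * w, I.mul_mem_right _ hr, mul_left_comm _ _ _⟩

theorem da_mem_g (m : ℕ) (b : B) : g m * b ∈ Ideal.span (Set.range g) :=
  Ideal.mul_mem_right _ _ (Ideal.subset_span ⟨m, rfl⟩)

theorem da_colon (hg : ∀ m, g (m + 1) * g (m + 1) ∣ g m) (hreg : ∀ b, g 0 * b = 0 → b = 0)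
    {I : Ideal B} {x : B} (hx : ∀ b, x * b ∈ I → b ∈ I) {y : B}
    (hy : y ∈ Ideal.span (Set.range g)) (h : x * y ∈ I * Ideal.span (Set.range g)) :
    y ∈ I * Ideal.span (Set.range g) := by
  obtain ⟨m, b, -, rfl⟩ := da_mem_smul hg ⊤ (by rwa [Ideal.top_mul])
  obtain ⟨m', w, hw, e⟩ := da_mem_smul hg I h
  obtain ⟨u, hu⟩ := da_chain hg (le_max_left m m')
  obtain ⟨u', hu'⟩ := da_chain hg (le_max_right m m')
  obtain ⟨v, hv⟩ := da_chain hg (Nat.zero_le (max m m'))
  have h1 : x * (u * b) = u' * w := by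
    rw [← sub_eq_zero]
    refine hreg _ ?_
    rw [hu, hu'] at e
    rw [hv]
    linear_combination v * e
  rw [hu, mul_assoc, mul_comm (g _)]
  exact Ideal.mul_mem_mul (hx _ (h1 ▸ I.mul_mem_left _ hw))
    (Ideal.subset_span (Set.mem_range_self _))

end Chain

theorem EtData.da_exists_mod (D : EtData R T) {ρ : ℕ} {t : Fin ρ → B}
    (hP : D.P.map (algebraMap R B) = ∏ j, (X - C (t j))) {g : ℕ → B}
    (hg0 : g 0 = algebraMap R B D.G) (hg : ∀ m, g (m + 1) * g (m + 1) ∣ g m)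
    (hreg : ∀ b, g 0 * b = 0 → b = 0)
    (hb : ∀ x, (∀ k : ℕ, g 0 ^ k ∣ g 0 * x ^ k) → ∀ m, g 0 ∣ g m * x) :
    ∃ (_ : Module (T ⊗[R] B) (DaH (Ideal.span (Set.range g)) (Fin ρ)))
      (α : T ⊗[R] B →ₗ[T ⊗[R] B] DaH (Ideal.span (Set.range g)) (Fin ρ))
      (β : DaH (Ideal.span (Set.range g)) (Fin ρ) →ₗ[T ⊗[R] B] T ⊗[R] B),
      (∀ (b : B) (h : DaH (Ideal.span (Set.range g)) (Fin ρ)) i,
        DaH.co i (((1 : T) ⊗ₜ[R] b) • h) = b * DaH.co i h) ∧
      (∀ h i, DaH.co i (α (β h)) = g 0 ^ 3 * DaH.co i h) ∧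
      (∀ s, β (α s) = (1 : T) ⊗ₜ[R] g 0 ^ 3 * s) ∧
      ∀ h, β h = ∑ i, (1 : T) ⊗ₜ[R] (g 0 * DaH.co i h) *
        daL (D.b.map (algebraMap R _)) (fun j => (1 : T) ⊗ₜ[R] t j) (D.θ ⊗ₜ[R] (1 : B)) i := by
  have hc : ∀ x y, g 0 * x = g 0 * y → x = y := fun x y h =>
    sub_eq_zero.1 (hreg _ (by rw [mul_sub, h, sub_self]))
  have ht : ∀ i, aeval (t i) D.P = 0 := fun i => by
    rw [← eval_map_algebraMap, hP, eval_prod]
    exact Finset.prod_eq_zero (Finset.mem_univ i) (by simp)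
  choose Ψ h1 hm hB hθ hK using fun i => D.da_exists_psi (t i) (ht i)
  simp only [← hg0] at h1 hm hK
  obtain ⟨inst, hs⟩ := da_exists_module (Ideal.span (Set.range g)) hreg Ψ h1 hm fun i s h hh => by
    obtain ⟨m, w, -, rfl⟩ := da_mem_smul hg ⊤ (by rwa [Ideal.top_mul])
    obtain ⟨u, hu⟩ := hg m
    obtain ⟨q, hq⟩ := hb _ (da_pow_dvd (Ψ i) (h1 i) (hm i) s) (m + 1)
    refine ⟨_, da_mem_g (m + 1) (q * u * w), ?_⟩
    rw [hu]
    linear_combination (-(g (m + 1) * u * w)) * hq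
  let ι : B →ₐ[R] T ⊗[R] B := Algebra.TensorProduct.includeRight
  have hι : ∀ b, (1 : T) ⊗ₜ[R] b = ι b := fun _ => rfl
  have hP' : D.P.map (algebraMap R (T ⊗[R] B)) = ∏ j, (X - C (ι (t j))) := by
    rw [← ι.comp_algebraMap]
    exact da_split_map (ι : B →+* T ⊗[R] B) _ hP
  have hx : ∏ j, (D.θ ⊗ₜ[R] (1 : B) - ι (t j)) = 0 := da_prod_zero _ hP' (by
    rw [← aeval_def]
    exact (aeval_algHom_apply (Algebra.TensorProduct.includeLeft (S := R)) D.θ D.P).trans
      (by rw [D.root, map_zero]))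
  have hbez := da_bez_map _ hP' D.bezout
  have hbez' := da_bez_map _ hP D.bezout
  rw [← ι.commutes, ← hg0] at hbez
  rw [← hg0] at hbez'
  set l := daL (D.b.map (algebraMap R (T ⊗[R] B))) (fun j => ι (t j)) (D.θ ⊗ₜ[R] (1 : B)) with hl
  have hK' : ∀ i s, ι (g 0) * s * l i = ι (Ψ i s) * l i := fun i => hK i _ (daL_kill hx i)
  have hB' : ∀ i b s, Ψ i (ι b * s) = b * Ψ i s := hB
  have hΨl : ∀ i j, Ψ i (l j) = g 0 * daL (D.b.map (algebraMap R B)) t (t i) j := by
    intro i j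
    have e1 : ∀ s : Finset (Fin ρ), Ψ i (∏ k ∈ s, (D.θ ⊗ₜ[R] (1 : B) - ι (t k))) =
        g 0 * ∏ k ∈ s, (t i - t k) := by
      intro s
      induction s using Finset.induction_on with
      | empty => simp only [Finset.prod_empty, h1, mul_one]
      | insert k s hk ih =>
        rw [Finset.prod_insert hk, Finset.prod_insert hk, sub_mul, map_sub, hθ, hB', ih]
        ring
    rw [hl, daL, daL, eval_map_algebraMap, eval_map_algebraMap, aeval_algHom_apply, hB', e1]
    ring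
  obtain ⟨e, he⟩ := DaH.exists_co (J := Ideal.span (Set.range g)) (fun _ : Fin ρ => g 0)
    fun _ => Ideal.subset_span ⟨0, rfl⟩
  have hα : ∀ s i, DaH.co i (LinearMap.toSpanSingleton (T ⊗[R] B) _ e s) = Ψ i s := fun s i =>
    hc _ _ (by rw [LinearMap.toSpanSingleton_apply, hs, he, mul_comm])
  let β : DaH (Ideal.span (Set.range g)) (Fin ρ) →ₗ[T ⊗[R] B] T ⊗[R] B :=
    { toFun := fun h => ∑ i, ι (g 0 * DaH.co i h) * l i
      map_add' := fun h h' => by simp only [map_add, mul_add, add_mul, Finset.sum_add_distrib]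
      map_smul' := fun s h => by
        rw [RingHom.id_apply, smul_eq_mul, Finset.mul_sum]
        refine Finset.sum_congr rfl fun i _ => ?_
        rw [hs, map_mul, map_mul]
        linear_combination (-ι (DaH.co i h)) * hK' i s }
  have hβ : ∀ h, β h = ∑ i, ι (g 0 * DaH.co i h) * l i := fun _ => rfl
  refine ⟨inst, LinearMap.toSpanSingleton _ _ e, β, fun b h i => hc _ _ ?_, fun h i => ?_,
    fun s => ?_, hβ⟩
  · rw [hs, hι, ← mul_one (ι b), hB', h1]
    ring
  · rw [hα, hβ, map_sum, Finset.sum_eq_single i (fun j _ hj => by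
      rw [hB', hΨl, daL_ne hj.symm, mul_zero, mul_zero]) (by simp), hB', hΨl, daL_self hbez']
    ring
  · have e2 := daL_sum hbez hx
    rw [hβ, hι]
    calc ∑ i, ι (g 0 * DaH.co i (LinearMap.toSpanSingleton (T ⊗[R] B) _ e s)) * l i
        = ∑ i, ι (g 0) ^ 2 * s * l i := Finset.sum_congr rfl fun i _ => by
          rw [hα, map_mul]
          linear_combination (-ι (g 0)) * hK' i s
      _ = _ := by
          rw [← Finset.mul_sum, hl, e2]
          ring

end Vale.Agent.P202
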