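import Vale.Agent.P202.MxColon
import Vale.Agent.P202.MxDescAAux2

/-! Regularity and descent for the module attached to etale data. -/

namespace Vale.Agent.P202

open Polynomial TensorProduct

variable {R T B : Type*} [CommRing R] [CommRing T] [CommRing B] [Algebra R T] [Algebra R B]

theorem da_mem_smul_iff {J : Ideal B} {ι : Type} [Fintype ι] [Module T (DaH J ι)] {κ : Type*}
    {x : κ → T} {y : κ → B} (hco : ∀ k (h : DaH J ι) i, DaH.co i (x k • h) = y k * DaH.co i h)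
    (s : Set κ) (h : DaH J ι) : h ∈ Ideal.span (x '' s) • (⊤ : Submodule T (DaH J ι)) ↔
      ∀ i, DaH.co i h ∈ Ideal.span (y '' s) * J := by
  classical
  constructor
  · intro hh i
    refine Submodule.smul_induction_on hh (fun r hr n hn => ?_) fun a b ha hb => ?_
    · clear hn
      induction hr using Submodule.span_induction generalizing n with
      | mem r hr =>
        obtain ⟨k, hk, rfl⟩ := hr
        rw [hco]
        exact Ideal.mul_mem_mul (Ideal.subset_span ⟨k, hk, rfl⟩) (DaH.co_mem i n)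
      | zero => rw [zero_smul, map_zero]; exact zero_mem _
      | add a b _ _ ha hb => rw [add_smul, map_add]; exact add_mem (ha n) (hb n)
      | smul c a _ ha => rw [smul_eq_mul, mul_comm c, mul_smul]; exact ha _
    · rw [map_add]
      exact add_mem ha hb
  · intro hh
    let sg : ι → J →+ DaH J ι := fun i => AddMonoidHom.single (fun _ : ι => J) i
    have hsg : ∀ i j (z : J), DaH.co j (sg i z) = if j = i then (z : B) else 0 := by
      intro i j z
      change ((Pi.single i z : ι → J) j : B) = _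
      rw [Pi.single_apply]
      split_ifs <;> rfl
    have e : h = ∑ i, sg i (h i) := (Finset.univ_sum_single (show ι → J from h)).symm
    rw [e]
    refine Submodule.sum_mem _ fun i _ => ?_
    have h1 : h i ∈ Ideal.span (y '' s) • (⊤ : Submodule B J) :=
      (Submodule.mem_smul_top_iff _ _ _).2 (hh i)
    refine Submodule.smul_induction_on (p := fun z => sg i z ∈
      Ideal.span (x '' s) • (⊤ : Submodule T (DaH J ι))) h1 (fun r hr n hn => ?_)
      fun a b ha hb => ?_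
    · clear hn
      induction hr using Submodule.span_induction generalizing n with
      | mem r hr =>
        obtain ⟨k, hk, rfl⟩ := hr
        have : sg i (y k • n) = x k • sg i n := DaH.ext fun j => by
          rw [hco, hsg, hsg]
          split_ifs <;> simp
        rw [this]
        exact Submodule.smul_mem_smul (Ideal.subset_span ⟨k, hk, rfl⟩) trivial
      | zero => rw [zero_smul, map_zero]; exact zero_mem _
      | add a b _ _ ha hb => rw [add_smul, map_add]; exact add_mem (ha n) (hb n)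
      | smul c a _ ha => rw [smul_eq_mul, mul_comm c, mul_smul]; exact ha _
    · rw [map_add]
      exact add_mem ha hb

theorem da_regPow {g : ℕ → B} (hg : ∀ m, g (m + 1) * g (m + 1) ∣ g m)
    (hreg : ∀ b, g 0 * b = 0 → b = 0) {ι : Type} [Fintype ι]
    [Module T (DaH (Ideal.span (Set.range g)) ι)] {d : ℕ} {x : Fin d → T} {y : Fin d → B}
    (hco : ∀ k (h : DaH (Ideal.span (Set.range g)) ι) i, DaH.co i (x k • h) = y k * DaH.co i h)
    (hy : ∀ j b, y j * b ∈ Ideal.span (y '' {i | i < j}) → b ∈ Ideal.span (y '' {i | i < j})) :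
    RegPow x (DaH (Ideal.span (Set.range g)) ι) := by
  refine regPow_of_one x fun j h hh => ?_
  rw [da_mem_smul_iff hco] at hh ⊢
  exact fun i => da_colon hg hreg (hy j) (DaH.co_mem i h) (hco j h i ▸ hh i)

theorem EtData.da_descent (D : EtData R T) {A : Type*} [CommRing A] [Algebra R A] [Algebra A B]
    [IsScalarTower R A B] [Algebra (T ⊗[R] A) (T ⊗[R] B)]
    (halg : ∀ (τ : T) (a : A), algebraMap (T ⊗[R] A) (T ⊗[R] B) (τ ⊗ₜ a) = τ ⊗ₜ algebraMap A B a)
    {ρ : ℕ} {t : Fin ρ → B} (hP : D.P.map (algebraMap R B) = ∏ j, (X - C (t j))) {g : ℕ → B}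
    (hg0 : g 0 = algebraMap R B D.G) (hg : ∀ m, g (m + 1) * g (m + 1) ∣ g m) {q : ℕ}
    (hbD : ∀ x : B ⊗[A] B, x * x = (g 0 ⊗ₜ[A] (1 : B)) * x → ∀ m : ℕ,
      (g m ⊗ₜ[A] (1 : B)) * x ∈ Ideal.span {g 0 ⊗ₜ[A] (1 : B), (q : B ⊗[A] B)})
    (sr : ∀ m : ℕ, g m ⊗ₜ[A] (1 : B) ∈ Ideal.span {(1 : B) ⊗ₜ[A] g (m + 2), (q : B ⊗[A] B)})
    {I : Ideal (T ⊗[R] B)} (hq : (q : T ⊗[R] B) ∈ I)
    (hI : ∀ m j, (1 : T) ⊗ₜ[R] (g 0 * g m) * daL (D.b.map (algebraMap R _))
      (fun j => (1 : T) ⊗ₜ[R] t j) (D.θ ⊗ₜ[R] (1 : B)) j ∈ I)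
    {y : B} (hy : y ∈ Ideal.span (Set.range g)) (i : Fin ρ) :
    ((1 : T) ⊗ₜ[R] (g 0 * y) * daL (D.b.map (algebraMap R _)) (fun j => (1 : T) ⊗ₜ[R] t j)
      (D.θ ⊗ₜ[R] (1 : B)) i) ⊗ₜ[T ⊗[R] A] (1 : T ⊗[R] B) ∈
      I.map (Algebra.TensorProduct.includeRight (R := T ⊗[R] A) (A := T ⊗[R] B)
        (B := T ⊗[R] B)) := by
  let ι : B →+* T ⊗[R] B := (Algebra.TensorProduct.includeRight : B →ₐ[R] T ⊗[R] B)
  let i1 : T ⊗[R] B →+* (T ⊗[R] B) ⊗[T ⊗[R] A] (T ⊗[R] B) :=
    Algebra.TensorProduct.includeLeftRingHom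
  let i2 : T ⊗[R] B →+* (T ⊗[R] B) ⊗[T ⊗[R] A] (T ⊗[R] B) :=
    (Algebra.TensorProduct.includeRight :
      T ⊗[R] B →ₐ[T ⊗[R] A] (T ⊗[R] B) ⊗[T ⊗[R] A] (T ⊗[R] B))
  have h12 : ∀ (τ : T) (a : A), i1 (τ ⊗ₜ algebraMap A B a) = i2 (τ ⊗ₜ algebraMap A B a) :=
    fun τ a => by
      rw [← halg]
      exact (Algebra.TensorProduct.algebraMap_apply _).symm.trans
        (Algebra.TensorProduct.algebraMap_apply' _)
  obtain ⟨ω, hω⟩ := da_exists_tensor_lift (i1.comp ι) (i2.comp ι) (h12 1)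
  let j1 : B →+* B ⊗[A] B := Algebra.TensorProduct.includeLeftRingHom
  let j2 : B →+* B ⊗[A] B := (Algebra.TensorProduct.includeRight : B →ₐ[A] B ⊗[A] B)
  have hω1 : ∀ b, ω (j1 b) = i1 (ι b) := fun b => (hω b 1).trans (by rw [map_one, mul_one]; rfl)
  have hω2 : ∀ b, ω (j2 b) = i2 (ι b) := fun b => (hω 1 b).trans (by rw [map_one, one_mul]; rfl)
  have hj : j1.comp (algebraMap R B) = j2.comp (algebraMap R B) := RingHom.ext fun r => by
    rw [IsScalarTower.algebraMap_eq R A B]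
    exact (Algebra.TensorProduct.algebraMap_apply _).symm.trans
      (Algebra.TensorProduct.algebraMap_apply' _)
  have hι : ι.comp (algebraMap R B) = algebraMap R (T ⊗[R] B) :=
    (Algebra.TensorProduct.includeRight : B →ₐ[R] T ⊗[R] B).comp_algebraMap
  have hθ : i1 (D.θ ⊗ₜ[R] (1 : B)) = i2 (D.θ ⊗ₜ[R] (1 : B)) := by
    simpa only [map_one] using h12 D.θ 1
  have hG : i1 (ι (g 0)) = i2 (ι (g 0)) := by
    rw [hg0, IsScalarTower.algebraMap_apply R A B]
    exact h12 1 _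
  have hP' : D.P.map (algebraMap R (T ⊗[R] B)) = ∏ j, (X - C (ι (t j))) := by
    rw [← hι]
    exact da_split_map ι _ hP
  have hx : ∏ j, (D.θ ⊗ₜ[R] (1 : B) - ι (t j)) = 0 := da_prod_zero _ hP' (by
    rw [← aeval_def]
    exact (aeval_algHom_apply (Algebra.TensorProduct.includeLeft (S := R)) D.θ D.P).trans
      (by rw [D.root, map_zero]))
  have hbez := da_bez_map _ hP' D.bezout
  rw [← hι, RingHom.comp_apply, ← hg0, hι] at hbez
  set l := daL (D.b.map (algebraMap R (T ⊗[R] B))) (fun j => ι (t j)) (D.θ ⊗ₜ[R] (1 : B)) with hl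
  have hsum : ∑ j, l j = ι (g 0) := daL_sum hbez hx
  have hP1 := da_split_map j1 _ hP
  have hbez1 := da_bez_map _ hP1 D.bezout
  rw [RingHom.comp_apply, ← hg0] at hbez1
  have hx1 : ∀ j, ∏ k, (j2 (t j) - j1 (t k)) = 0 := fun j => da_prod_zero _ hP1 (by
    rw [hj, ← hom_eval₂, ← eval_map, hP, eval_prod,
      Finset.prod_eq_zero (Finset.mem_univ j) (by simp), map_zero])
  set x : Fin ρ → B ⊗[A] B := fun j =>
    daL (D.b.map (j1.comp (algebraMap R B))) (fun k => j1 (t k)) (j2 (t j)) i with hxd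
  have hlx : ∀ j, i1 (l i) * i2 (l j) = ω (x j) * i2 (l j) := by
    intro j
    have e1 : (i1 (D.θ ⊗ₜ[R] (1 : B)) - i2 (ι (t j))) * i2 (l j) = 0 := by
      rw [hθ, ← map_sub, ← map_mul, daL_kill hx, map_zero]
    have e2 : ω.comp (j1.comp (algebraMap R B)) = i1.comp (algebraMap R (T ⊗[R] B)) :=
      RingHom.ext fun r => by rw [← hι]; exact hω1 _
    generalize i2 (l j) = z at e1
    rw [hl, daL_map, daL_congr e1, hxd]
    simp only [daL_map, Polynomial.map_map, hω1, hω2, e2]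
  obtain ⟨m, w, -, rfl⟩ := da_mem_smul hg ⊤ (by rwa [Ideal.top_mul])
  obtain ⟨u, hu⟩ := hg m
  have hqW : (q : (T ⊗[R] B) ⊗[T ⊗[R] A] (T ⊗[R] B)) ∈ I.map i2 := by
    simpa only [map_natCast] using Ideal.mem_map_of_mem i2 hq
  change i1 (ι (g 0 * (g m * w)) * l i) ∈ I.map i2
  have e3 : i1 (ι (g 0 * (g m * w)) * l i) = i1 (ι (u * w)) *
      ∑ j, ω (j1 (g (m + 1))) * ω (j1 (g (m + 1)) * x j) * i2 (l j) := by
    calc i1 (ι (g 0 * (g m * w)) * l i)
        = i1 (ι (u * w)) * (i1 (ι (g (m + 1))) * i1 (ι (g (m + 1))) * (i1 (l i) * i1 (ι (g 0)))) := by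
          rw [hu]
          simp only [map_mul]
          ring
      _ = _ := by
          rw [hG, ← hsum, map_sum, Finset.mul_sum, Finset.mul_sum]
          refine congrArg _ (Finset.sum_congr rfl fun j _ => ?_)
          rw [hlx, map_mul, hω1]
          ring
  rw [e3]
  refine Ideal.mul_mem_left _ _ (Ideal.sum_mem _ fun j _ => ?_)
  obtain ⟨a1, a2, e4⟩ := Ideal.mem_span_pair.1 (hbD (x j) (daL_sq hbez1 (hx1 j) i) (m + 1))
  obtain ⟨c1, c2, e5⟩ := Ideal.mem_span_pair.1 (sr (m + 1))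
  have e6 : ω (j1 (g (m + 1)) * x j) = ω a1 * i2 (ι (g 0)) + ω a2 * q := by
    rw [← hG, ← hω1, ← map_natCast ω, ← map_mul, ← map_mul, ← map_add]
    exact congrArg ω e4.symm
  have e7 : ω (j1 (g (m + 1))) = ω c1 * i2 (ι (g (m + 1 + 2))) + ω c2 * q := by
    rw [← hω2, ← map_natCast ω, ← map_mul, ← map_mul, ← map_add]
    exact congrArg ω e5.symm
  have e8 : i2 (ι (g 0 * g (m + 1 + 2)) * l j) ∈ I.map i2 := Ideal.mem_map_of_mem i2 (hI _ j)
  rw [e6, e7]
  simp only [map_mul] at e8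
  have e9 := add_mem (Ideal.mul_mem_left _ (ω c1 * ω a1) e8) (Ideal.mul_mem_left _
    ((ω c1 * i2 (ι (g (m + 1 + 2))) * ω a2 + ω c2 * (ω a1 * i2 (ι (g 0)) + ω a2 * q)) * i2 (l j))
    hqW)
  convert e9 using 1
  ring

end Vale.Agent.P202
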