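import Vale.Agent.P202.MxCoverDef
import Vale.Agent.P202.MxColon
import Vale.Agent.P202.MxDescAAux3

/-! The big Cohen-Macaulay module attached to a cover. -/

namespace Vale.Agent.P202

open TensorProduct Polynomial

universe u

variable {p : ℕ} {V : Type u} [CommRing V] [IsLocalRing V] {n : ℕ}

omit [IsLocalRing V] in
theorem PerfCover.da_qflat {P : (PS V n)[X]} {G : PS V n} (c : PerfCover p V n P G) (ν : ℕ) :
    QFlat (algebraMap (PS V n) c.B) (Ideal.span {(p : PS V n) ^ ν}) := by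
  rw [IsScalarTower.algebraMap_eq (PS V n) c.A c.B]
  refine (c.flatA ν).comp ?_
  rw [Ideal.map_span, Set.image_singleton, map_pow, map_natCast]
  exact c.flatB ν

theorem da_cancel {B : Type*} [CommRing B] {π : B} (h : ∀ x, π * x = 0 → x = 0) (k : ℕ) {x y : B}
    (e : π ^ k * x = π ^ k * y) : x = y := by
  induction k with
  | zero => simpa using e
  | succ k ih =>
    refine ih (sub_eq_zero.1 (h _ ?_))
    rw [mul_sub, ← mul_assoc, ← mul_assoc, ← pow_succ', e, sub_self]

theorem da_haus {B : Type*} [CommRing B] (π : B) [IsHausdorff (Ideal.span {π}) B] (x : B)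
    (h : ∀ ν : ℕ, x ∈ Ideal.span {π ^ ν}) : x = 0 :=
  IsHausdorff.haus ‹_› x fun ν => by
    rw [SModEq.zero, smul_eq_mul, Ideal.mul_top, Ideal.span_singleton_pow]
    exact h ν

/-- elements that are nonzero in the base are almost regular modulo powers of `p`. -/
theorem PerfCover.exists_colon {P : (PS V n)[X]} {G : PS V n} (c : PerfCover p V n P G)
    (hV : IsPRing p V) (F : PS V n) (hF : F ≠ 0) : ∃ k : ℕ, ∀ (ν : ℕ) (b : c.B),
      algebraMap (PS V n) c.B F * b ∈ Ideal.span {(p : c.B) ^ (ν + k)} →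
      b ∈ Ideal.span {(p : c.B) ^ ν} := by
  obtain ⟨k, F', rfl, hF'⟩ := hV.exists_eq_pow_mul n F hF
  refine ⟨k, fun ν b hb => ?_⟩
  have h1 : ∀ (ν : ℕ) (a : PS V n), F' * a ∈ Ideal.span {(p : PS V n) ^ ν} →
      a ∈ Ideal.span {(p : PS V n) ^ ν} := by
    intro ν
    induction ν with
    | zero => simp
    | succ ν ih =>
      intro a ha
      obtain ⟨y, hy⟩ := Ideal.mem_span_singleton.1 ha
      obtain ⟨a', rfl⟩ := Ideal.mem_span_singleton.1 (((hV.ps_prime n).mem_or_mem
        (Ideal.mem_span_singleton.2 ⟨p ^ ν * y, by rw [hy]; ring⟩)).resolve_left hF')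
      obtain ⟨z, rfl⟩ := Ideal.mem_span_singleton.1 (ih a' (Ideal.mem_span_singleton.2
        ⟨y, da_cancel (hV.ps_p_reg n) 1 (by linear_combination hy)⟩))
      exact Ideal.mem_span_singleton.2 ⟨z, by ring⟩
  have h2 := (c.da_qflat ν).colon le_rfl F' (h1 ν) b
  rw [Ideal.map_span, Set.image_singleton, map_pow, map_natCast] at h2
  obtain ⟨y, hy⟩ := Ideal.mem_span_singleton.1 hb
  rw [map_mul, map_pow, map_natCast] at hy
  exact h2 (Ideal.mem_span_singleton.2 ⟨y, da_cancel c.regB k (by linear_combination hy)⟩)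

theorem PerfCover.reg {P : (PS V n)[X]} {G : PS V n} (c : PerfCover p V n P G)
    (hV : IsPRing p V) (F : PS V n) (hF : F ≠ 0) (b : c.B)
    (hb : algebraMap (PS V n) c.B F * b = 0) : b = 0 := by
  obtain ⟨k, hk⟩ := c.exists_colon hV F hF
  have := c.complete
  exact da_haus (p : c.B) b fun ν => hk ν b (hb ▸ zero_mem _)

theorem PerfCover.hb' {P : (PS V n)[X]} {G : PS V n} (c : PerfCover p V n P G)
    (hV : IsPRing p V) (hG : G ≠ 0) (x : c.B) (hx : ∀ k : ℕ, c.g 0 ^ k ∣ c.g 0 * x ^ k) (m : ℕ) :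
    c.g 0 ∣ c.g m * x := by
  obtain ⟨k, hk⟩ := c.exists_colon hV G hG
  rw [← c.g_zero] at hk
  have := c.complete
  choose a b hab using fun ν => Ideal.mem_span_pair.1 (c.hb x hx m (ν + k))
  have hp : ∀ {ν ν' : ℕ}, ν ≤ ν' → ∀ y : c.B, y * (p : c.B) ^ ν' ∈ Ideal.span {(p : c.B) ^ ν} :=
    fun h y => Ideal.mul_mem_left _ _ (Ideal.mem_span_singleton.2 (pow_dvd_pow _ h))
  obtain ⟨L, hL⟩ := IsPrecomplete.prec (I := Ideal.span {(p : c.B)}) inferInstance (f := a)
    fun {ν ν'} h => by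
      rw [SModEq.sub_mem, smul_eq_mul, Ideal.mul_top, Ideal.span_singleton_pow]
      refine hk ν _ ?_
      convert sub_mem (hp (Nat.add_le_add_right h k) (b ν')) (hp le_rfl (b ν)) using 1
      linear_combination hab ν - hab ν'
  refine ⟨L, sub_eq_zero.1 (da_haus (p : c.B) _ fun ν => ?_)⟩
  have h1 := hL ν
  rw [SModEq.sub_mem, smul_eq_mul, Ideal.mul_top, Ideal.span_singleton_pow] at h1
  convert add_mem (Ideal.mul_mem_left _ (c.g 0) h1) (hp (Nat.le_add_right ν k) (b ν)) using 1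
  linear_combination -hab ν

theorem PerfCover.pX_reg {P : (PS V n)[X]} {G : PS V n} (c : PerfCover p V n P G)
    (hV : IsPRing p V) (j : Fin (n + 1)) (b : c.B)
    (hb : algebraMap (PS V n) c.B (pX p V n j) * b ∈
      Ideal.span ((fun i => algebraMap (PS V n) c.B (pX p V n i)) '' {i | i < j})) :
    b ∈ Ideal.span ((fun i => algebraMap (PS V n) c.B (pX p V n i)) '' {i | i < j}) := by
  induction j using Fin.cases with
  | zero =>
    have e : {i : Fin (n + 1) | i < 0} = ∅ := by simp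
    rw [e, Set.image_empty, Ideal.span_empty, Ideal.mem_bot] at hb ⊢
    exact c.regB b (by simpa [pX] using hb)
  | succ j =>
    have h := (c.da_qflat 1).colon (I' := Ideal.span (pX p V n '' {i | i < j.succ}))
      ((Ideal.span_singleton_le_iff_mem _).2 (Ideal.subset_span
        ⟨0, Fin.succ_pos j, (pow_one _).symm⟩)) _ (hV.pX_reg n j.succ) b
    rw [Ideal.map_span, Set.image_image] at h
    exact h hb

variable {T : Type u} [CommRing T] [Algebra (PS V n) T]

/-- base change of the cover. -/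
noncomputable abbrev PerfCover.algT {P : (PS V n)[X]} {G : PS V n} (c : PerfCover p V n P G)
    (T : Type u) [CommRing T] [Algebra (PS V n) T] :
    Algebra (T ⊗[PS V n] c.A) (T ⊗[PS V n] c.B) :=
  (Algebra.TensorProduct.map (AlgHom.id T T)
    (IsScalarTower.toAlgHom (PS V n) c.A c.B)).toRingHom.toAlgebra

theorem exists_bcm [Fact p.Prime] (hV : IsPRing p V) [Module.Finite (PS V n) T]
    (D : EtData (PS V n) T) (hG : D.G ≠ 0) (c : PerfCover p V n D.P D.G) :
    letI := c.algT T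
    ∃ (H : Type u) (_ : AddCommGroup H) (_ : Module (T ⊗[PS V n] c.B) H) (_ : Module T H)
      (_ : IsScalarTower T (T ⊗[PS V n] c.B) H) (α : T ⊗[PS V n] c.B →ₗ[T ⊗[PS V n] c.B] H)
      (β : H →ₗ[T ⊗[PS V n] c.B] T ⊗[PS V n] c.B),
      RegPow (fun i => algebraMap (PS V n) T (pX p V n i)) H ∧
      (∀ h, α (β h) = algebraMap (PS V n) T (D.G ^ 3) • h) ∧
      (∀ b, β (α b) = algebraMap (PS V n) T (D.G ^ 3) • b) ∧
      (∃ k : ℕ, ∀ (ν : ℕ) (h : H), β h ∈ Ideal.span {(p : T ⊗[PS V n] c.B) ^ (ν + k)} →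
        ∀ m, ∃ h', ((1 : T) ⊗ₜ[PS V n] c.g m) • h = (p : T) ^ ν • h') ∧
      ∀ (ν : ℕ) (h : H), β h ⊗ₜ[T ⊗[PS V n] c.A] (1 : T ⊗[PS V n] c.B) ∈
        Ideal.map (Algebra.TensorProduct.includeRight (R := T ⊗[PS V n] c.A)
          (A := T ⊗[PS V n] c.B) (B := T ⊗[PS V n] c.B))
          (LinearMap.range β ⊔ Ideal.span {(p : T ⊗[PS V n] c.B) ^ ν}) := by
  have hg : ∀ m, c.g (m + 1) * c.g (m + 1) ∣ c.g m := fun m => by
    rw [← c.g_succ m, ← sq]
    exact pow_dvd_pow _ (Fact.out : p.Prime).two_le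
  have hreg : ∀ b, c.g 0 * b = 0 → b = 0 := fun b hb => c.reg hV D.G hG b (c.g_zero ▸ hb)
  obtain ⟨inst, α, β, h1, h2, h3, h4⟩ :=
    D.da_exists_mod c.split c.g_zero hg hreg (c.hb' hV hG)
  let instT : Module T (DaH (Ideal.span (Set.range c.g)) (Fin D.P.natDegree)) :=
    Module.compHom _ (algebraMap T (T ⊗[PS V n] c.B))
  have hT : ∀ (r : PS V n) (h : DaH (Ideal.span (Set.range c.g)) (Fin D.P.natDegree)) i,
      DaH.co i (algebraMap (PS V n) T r • h) = algebraMap (PS V n) c.B r * DaH.co i h := by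
    intro r h i
    rw [← h1, ← Algebra.TensorProduct.algebraMap_apply']
    rfl
  have := hV.isDomain
  obtain ⟨k, hk⟩ := c.exists_colon hV (D.G ^ 3) (pow_ne_zero 3 hG)
  rw [map_pow, ← c.g_zero] at hk
  refine ⟨_, inferInstance, inst, instT, IsScalarTower.of_algebraMap_smul fun _ _ => rfl, α, β,
    da_regPow hg hreg (fun k => hT _) (c.pX_reg hV), fun h => DaH.ext fun i => ?_, fun s => ?_,
    ⟨k, fun ν h hh m => ?_⟩, fun ν h => ?_⟩
  · rw [h2, hT, map_pow, c.g_zero]
  · rw [h3, Algebra.smul_def, c.g_zero, ← Algebra.TensorProduct.algebraMap_apply', ← map_pow]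
    rfl
  · obtain ⟨s, hs⟩ := Ideal.mem_span_singleton.1 hh
    have e1 : (p : T ⊗[PS V n] c.B) ^ (ν + k) = (1 : T) ⊗ₜ[PS V n] (p : c.B) ^ (ν + k) := by
      rw [← map_natCast (Algebra.TensorProduct.includeRight : c.B →ₐ[PS V n] _)]
      rfl
    choose b hb using fun i => Ideal.mem_span_singleton.1 (hk ν (DaH.co i h) (by
      rw [← h2, hs, ← smul_eq_mul, map_smul, e1, Algebra.TensorProduct.tmul_pow, one_pow, h1]
      exact Ideal.mul_mem_right _ _ (Ideal.mem_span_singleton_self _)))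
    obtain ⟨h', hh'⟩ := DaH.exists_co _ fun i => da_mem_g (g := c.g) m (b i)
    refine ⟨h', DaH.ext fun i => ?_⟩
    rw [← map_natCast (algebraMap (PS V n) T), ← map_pow, hT, h1, hh', hb, map_pow, map_natCast]
    ring
  · let _ := c.algT T
    rw [h4, sum_tmul]
    refine Ideal.sum_mem _ fun i _ => D.da_descent (A := c.A) (fun _ _ => rfl) c.split c.g_zero hg
      (q := p ^ ν) (fun x hx m => ?_) (fun m => ?_) ?_ (fun m j => ?_) (DaH.co_mem i h) i
    · rw [Nat.cast_pow]
      exact c.hbD x hx m ν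
    · rw [Nat.cast_pow]
      exact c.sr m ν
    · rw [Nat.cast_pow]
      exact Ideal.mem_sup_right (Ideal.mem_span_singleton_self _)
    · obtain ⟨h', hh'⟩ := DaH.exists_co (J := Ideal.span (Set.range c.g))
        (fun i => if i = j then c.g m else 0) fun i => by
          split_ifs
          · exact Ideal.subset_span ⟨m, rfl⟩
          · exact zero_mem _
      refine Ideal.mem_sup_left ⟨h', ?_⟩
      rw [h4, Finset.sum_eq_single j (fun i _ hi => by
        rw [hh', if_neg hi, mul_zero, tmul_zero, zero_mul]) (by simp), hh', if_pos rfl]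

end Vale.Agent.P202
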