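import Vale.Agent.P202.Growth
import Vale.Agent.P202.Reduction

/-! The multiplicity of a finite family of elements on a module. -/

namespace Vale.Agent.P202

open IsLocalRing Filter Topology

theorem emul_exact {T M P : Type*} [CommRing T] [AddCommGroup M] [Module T M] [AddCommGroup P]
    [Module T P] (W : Submodule T M) (f : P →ₗ[T] M) :
    Module.length T (M ⧸ W) =
      Module.length T (P ⧸ W.comap f) + Module.length T (M ⧸ (W ⊔ LinearMap.range f)) := by
  refine Module.length_eq_add_of_exact ((W.comap f).mapQ W f le_rfl)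
    (Submodule.factor le_sup_left) ?_ (Submodule.factor_surjective _) fun z => ?_
  · rw [← LinearMap.ker_eq_bot, Submodule.ker_mapQ, Submodule.mkQ_map_self]
  · obtain ⟨m, rfl⟩ := Submodule.mkQ_surjective _ z
    rw [Submodule.factor_mk, Submodule.mkQ_apply, Submodule.Quotient.mk_eq_zero]
    constructor
    · intro h
      obtain ⟨a, ha, _, ⟨y, rfl⟩, rfl⟩ := Submodule.mem_sup.mp h
      refine ⟨Submodule.Quotient.mk y, ?_⟩
      rw [map_add, Submodule.mkQ_apply W a, (Submodule.Quotient.mk_eq_zero _).mpr ha, zero_add]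
      rfl
    · rintro ⟨y, hy⟩
      obtain ⟨y, rfl⟩ := Submodule.mkQ_surjective _ y
      have h : f y - m ∈ W := (Submodule.Quotient.eq W).mp hy
      rw [← sub_sub_cancel (f y) m]
      exact sub_mem (Submodule.mem_sup_right ⟨y, rfl⟩) (Submodule.mem_sup_left h)

section Layer

variable {T : Type*} (M : Type*) [CommRing T] [AddCommGroup M] [Module T M] {d : ℕ}
  {κ : Type} [LinearOrder κ]

/-- the elements whose multiple by a monomial is a combination of larger monomials -/
def emulN (o : (Fin d →₀ ℕ) → κ) (x : Fin d → T) (α : Fin d →₀ ℕ) : Submodule T M :=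
  (monI x {β | o α < o β} • (⊤ : Submodule T M)).comap (LinearMap.lsmul T M (mon x α))

variable {o : (Fin d →₀ ℕ) → κ}

theorem le_emulN (ho : IsOrd o) (x : Fin d → T) (α : Fin d →₀ ℕ) :
    Ideal.span (Set.range x) • (⊤ : Submodule T M) ≤ emulN M o x α := by
  refine Submodule.smul_le.mpr fun r hr m _ => ?_
  rw [emulN, Submodule.mem_comap, LinearMap.lsmul_apply, smul_smul, mul_comm]
  refine Submodule.smul_mem_smul (monI_mono x ?_ (mul_mon_mem hr α)) trivial
  exact fun β hβ => ho.deg (by rw [show β.degree = _ from hβ]; omega)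

theorem emulN_mono (ho : IsOrd o) (x : Fin d → T) {α β : Fin d →₀ ℕ} (h : α ≤ β) :
    emulN M o x α ≤ emulN M o x β := by
  obtain ⟨γ, rfl⟩ := exists_add_of_le h
  intro m hm
  rw [emulN, Submodule.mem_comap, LinearMap.lsmul_apply] at hm ⊢
  rw [mon_add, mul_comm, mul_smul]
  generalize mon x α • m = z at hm
  refine Submodule.smul_induction_on hm (fun r hr y _ => ?_) fun a b ha hb => ?_
  · rw [smul_smul]
    refine Submodule.smul_mem_smul ?_ trivial
    have : monI x {β | o α < o β} ≤ Submodule.comap (LinearMap.lsmul T T (mon x γ))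
        (monI x {β | o (α + γ) < o β}) := by
      refine monI_le fun β hβ => ?_
      rw [Submodule.mem_comap, LinearMap.lsmul_apply, smul_eq_mul, mul_comm, ← mon_add]
      exact mon_mem (ho.add γ hβ)
    exact this hr
  · rw [smul_add]
    exact add_mem ha hb

theorem emul_le_sum (x : Fin d → T) (S : Finset (Fin d →₀ ℕ)) :
    Module.length T (M ⧸ monI x (S : Set (Fin d →₀ ℕ))ᶜ • (⊤ : Submodule T M)) ≤
      ∑ α ∈ S, Module.length T (M ⧸ emulN M o x α) := by
  classical
  induction S using Finset.induction_on_max_value o with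
  | empty =>
    have : monI x ((∅ : Finset (Fin d →₀ ℕ)) : Set (Fin d →₀ ℕ))ᶜ = ⊤ :=
      (Ideal.eq_top_iff_one _).mpr (mon_zero x ▸ mon_mem (by simp))
    rw [this, Submodule.top_smul, gr_top]
    exact zero_le
  | insert a S ha hmax ih =>
    rw [Finset.sum_insert ha, add_comm]
    refine (gr_step_map (emulN M o x a) _ (monI x (S : Set (Fin d →₀ ℕ))ᶜ • ⊤)
      (LinearMap.lsmul T M (mon x a)) ?_ ?_).trans (add_le_add_left ih _)
    · refine Submodule.comap_mono (Submodule.smul_mono_left
        (monI_mono x fun β (hβ : o a < o β) hβ' => ?_))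
      rcases Finset.mem_insert.mp hβ' with rfl | h
      · exact lt_irrefl _ hβ
      · exact not_le.mpr hβ (hmax β h)
    · have h2 : monI x (S : Set (Fin d →₀ ℕ))ᶜ ≤
          monI x ((insert a S : Finset (Fin d →₀ ℕ)) : Set (Fin d →₀ ℕ))ᶜ ⊔
            Ideal.span {mon x a} := by
        refine monI_le fun β hβ => ?_
        by_cases e : β = a
        · exact Ideal.mem_sup_right (e ▸ Ideal.mem_span_singleton_self _)
        · exact Ideal.mem_sup_left (mon_mem (by simpa [e] using hβ))
      refine Submodule.smul_le.mpr fun r hr m _ => ?_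
      obtain ⟨r1, hr1, r2, hr2, rfl⟩ := Submodule.mem_sup.mp (h2 hr)
      obtain ⟨c, rfl⟩ := Ideal.mem_span_singleton'.mp hr2
      rw [add_smul]
      exact Submodule.add_mem_sup (Submodule.smul_mem_smul hr1 trivial)
        ⟨c • m, by rw [LinearMap.lsmul_apply, smul_smul, mul_comm]⟩

theorem emul_sum_le (ho : IsOrd o) (x : Fin d → T) (S : Finset (Fin d →₀ ℕ))
    (hS : ∀ α ∈ S, ∀ β, o β ≤ o α → β ∈ S) :
    ∑ α ∈ S, Module.length T (M ⧸ emulN M o x α) ≤
      Module.length T (M ⧸ monI x (S : Set (Fin d →₀ ℕ))ᶜ • (⊤ : Submodule T M)) := by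
  classical
  induction S using Finset.induction_on_max_value o with
  | empty => simp
  | insert a S ha hmax ih =>
    have h1 := ih fun α hα β hβ => by
      rcases Finset.mem_insert.mp (hS α (Finset.mem_insert_of_mem hα) β hβ) with rfl | h
      · exact ho.inj (le_antisymm (hmax α hα) hβ) ▸ hα
      · exact h
    rw [Finset.sum_insert ha]
    refine le_trans ?_ (gr_anti (W' := monI x {β | o a < o β} • ⊤) (Submodule.smul_mono_left
      (monI_mono x fun β hβ => not_le.mp fun h => hβ (hS a (Finset.mem_insert_self a S) β h))))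
    rw [emul_exact (monI x {β | o a < o β} • ⊤) (LinearMap.lsmul T M (mon x a))]
    refine add_le_add le_rfl (h1.trans (gr_anti (sup_le (Submodule.smul_mono_left
      (monI_mono x fun β (hβ : o a < o β) h => not_le.mpr hβ (hmax β h))) ?_)))
    rintro _ ⟨m, rfl⟩
    exact Submodule.smul_mem_smul (mon_mem ha) trivial

theorem emul_monI_triF (x : Fin d → T) (N : ℕ) :
    monI x (triF d N : Set (Fin d →₀ ℕ))ᶜ = Ideal.span (Set.range x) ^ N := by
  refine le_antisymm (monI_le fun α hα => Ideal.pow_le_pow_right ?_ (mon_mem_pow x α)) ?_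
  · exact not_lt.mp fun h => hα (mem_triF.mpr h)
  · rw [span_pow_eq_monI]
    exact monI_mono x fun α hα h => (mem_triF.mp h).ne hα

end Layer

theorem emul_sum_bound {d : ℕ} (l : (Fin d →₀ ℕ) → ℕ) {e L : ℕ} {α0 : Fin d →₀ ℕ}
    (h1 : ∀ α, l α ≤ L) (h2 : ∀ α, α0 ≤ α → l α ≤ e) {n : ℕ} {S : Finset (Fin d →₀ ℕ)}
    (hS : S ⊆ boxF fun _ => n) :
    n * ∑ α ∈ S, l α ≤ n * (e * S.card) + L * α0.degree * n ^ d := by
  classical
  have h3 : ∑ α ∈ S, l α ≤ e * S.card + L * ((boxF fun _ => n).filter fun α => ¬ α0 ≤ α).card := by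
    rw [← Finset.sum_filter_add_sum_filter_not S fun α => α0 ≤ α]
    refine add_le_add ?_ ?_
    · refine (Finset.sum_le_card_nsmul _ _ e fun α hα => h2 α (Finset.mem_filter.mp hα).2).trans ?_
      rw [smul_eq_mul, mul_comm]
      exact Nat.mul_le_mul_left _ (Finset.card_filter_le _ _)
    · refine (Finset.sum_le_card_nsmul _ _ L fun α _ => h1 α).trans ?_
      rw [smul_eq_mul, mul_comm]
      exact Nat.mul_le_mul_left _ (Finset.card_le_card (Finset.filter_subset_filter _ hS))
  have h4 := Nat.mul_le_mul_left L (card_box_filter α0 n)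
  refine (Nat.mul_le_mul_left n h3).trans ?_
  rw [mul_add, mul_assoc L, mul_left_comm n L]
  exact add_le_add le_rfl h4

theorem emul_squeeze {a c : ℕ → ℕ} {d C : ℕ} {k e : ℝ} (hk : 0 ≤ k)
    (hc : Tendsto (fun N : ℕ => k * (c N : ℝ) / (N : ℝ) ^ d) atTop (𝓝 e)) (h1 : ∀ N, c N ≤ a N)
    (h2 : ∀ N, N * a N ≤ N * c N + C * N ^ d) :
    Tendsto (fun N : ℕ => k * (a N : ℝ) / (N : ℝ) ^ d) atTop (𝓝 e) := by
  have h3 := hc.add (tendsto_const_div_atTop_nhds_zero_nat (k * C))
  rw [add_zero] at h3
  refine tendsto_of_tendsto_of_tendsto_of_le_of_le' hc h3 (Eventually.of_forall fun N => ?_) ?_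
  · have : (c N : ℝ) ≤ a N := by exact_mod_cast h1 N
    gcongr
  · filter_upwards [eventually_gt_atTop 0] with N hN
    have h4 : (0 : ℝ) < N := by exact_mod_cast hN
    have h5 : (N : ℝ) * a N ≤ N * c N + C * N ^ d := by exact_mod_cast h2 N
    rw [div_add_div _ _ (by positivity) h4.ne', div_le_div_iff₀ (by positivity) (by positivity)]
    have := mul_le_mul_of_nonneg_left h5 (show 0 ≤ k * (N : ℝ) ^ d by positivity)
    linarith

theorem exists_emul {T M : Type*} [CommRing T] [AddCommGroup M] [Module T M] {d : ℕ}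
    (x : Fin d → T)
    (hfin : Module.length T (M ⧸ Ideal.span (Set.range x) • (⊤ : Submodule T M)) ≠ ⊤) :
    ∃ e : ℕ,
      Tendsto (fun N : ℕ => (d.factorial : ℝ) *
        (len T (M ⧸ Ideal.span (Set.range x) ^ N • (⊤ : Submodule T M)) : ℝ) / (N : ℝ) ^ d)
        atTop (𝓝 (e : ℝ)) ∧
      Tendsto (fun n : ℕ => (len T (M ⧸ powIdeal x n • (⊤ : Submodule T M)) : ℝ) / (n : ℝ) ^ d)
        atTop (𝓝 (e : ℝ)) ∧
      ∀ n : ℕ, e * n ^ d ≤ len T (M ⧸ powIdeal x n • (⊤ : Submodule T M)) := by
  obtain ⟨κ, _, o, ho⟩ := exists_isOrd d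
  have hN : ∀ α, Module.length T (M ⧸ emulN M o x α) ≠ ⊤ := fun α =>
    ne_top_of_le_ne_top hfin (gr_anti (le_emulN M ho x α))
  set l : (Fin d →₀ ℕ) → ℕ := fun α => len T (M ⧸ emulN M o x α) with hl
  have hl' : ∀ α, (l α : ℕ∞) = Module.length T (M ⧸ emulN M o x α) := fun α =>
    ENat.natCast_toNat (hN α)
  obtain ⟨α0, hα0⟩ : ∃ α0, ∀ α, l α0 ≤ l α := ⟨Function.argmin l, fun α => Function.argmin_le l α⟩
  have h1 : ∀ α, l α ≤ l 0 := fun α =>
    ENat.toNat_le_toNat (gr_anti (emulN_mono M ho x zero_le)) (hN 0)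
  have h2 : ∀ α, α0 ≤ α → l α ≤ l α0 := fun α h =>
    ENat.toNat_le_toNat (gr_anti (emulN_mono M ho x h)) (hN α0)
  have h3 : ∀ N, len T (M ⧸ Ideal.span (Set.range x) ^ N • (⊤ : Submodule T M)) =
      ∑ α ∈ triF d N, l α := fun N => by
    rw [len, ← emul_monI_triF, le_antisymm (emul_le_sum M (o := o) x _) (emul_sum_le M ho x _
      fun α hα β hβ => mem_triF.mpr (lt_of_le_of_lt (not_lt.mp fun h => not_lt.mpr hβ (ho.deg h))
        (mem_triF.mp hα)))]
    simp only [← hl', ← Nat.cast_sum, ENat.toNat_natCast]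
  have h4 : ∀ N, l α0 * (triF d N).card ≤ ∑ α ∈ triF d N, l α := fun N => by
    rw [mul_comm]
    exact Finset.card_nsmul_le_sum _ _ _ fun α _ => hα0 α
  have h5 : ∀ n, Module.length T (M ⧸ powIdeal x n • (⊤ : Submodule T M)) ≠ ⊤ := fun n =>
    ne_top_of_le_ne_top (WithTop.mul_ne_top (ENat.natCast_ne_top _) hfin) (length_quot_powIdeal_le x n)
  have h6 : ∀ n, 0 < n → l α0 * n ^ d ≤ len T (M ⧸ powIdeal x n • (⊤ : Submodule T M)) := by
    intro n hn
    have h7 : ∀ N, l α0 * (triF d (n * N)).card ≤
        (triF d N).card * len T (M ⧸ powIdeal x n • (⊤ : Submodule T M)) := fun N => by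
      rw [← ENat.toNat_natCast (triF d N).card, len, ← ENat.toNat_mul]
      refine ((h4 _).trans_eq (h3 _).symm).trans (ENat.toNat_le_toNat (le_trans (gr_anti ?_)
        (length_quot_pow_le (fun i => x i ^ n) N)) (WithTop.mul_ne_top (ENat.natCast_ne_top _) (h5 n)))
      rw [pow_mul]
      exact Submodule.smul_mono_left (Ideal.pow_right_mono (powIdeal_le_span_pow x n) N)
    have h8 := (((tendsto_card_triF d).comp (tendsto_id.const_mul_atTop' hn)).const_mul
      ((l α0 : ℝ) * n ^ d))
    have h9 := (tendsto_card_triF d).mul_const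
      (len T (M ⧸ powIdeal x n • (⊤ : Submodule T M)) : ℝ)
    rw [mul_one] at h8
    rw [one_mul] at h9
    have hn' : (0 : ℝ) < n := by exact_mod_cast hn
    have h10 := le_of_tendsto_of_tendsto' h8 h9 fun N => by
      have h11 : (l α0 : ℝ) * (triF d (n * N)).card ≤
        (triF d N).card * len T (M ⧸ powIdeal x n • (⊤ : Submodule T M)) := by exact_mod_cast h7 N
      simp only [Function.comp, id, Nat.cast_mul, mul_pow]
      calc _ = d.factorial * ((l α0 : ℝ) * (triF d (n * N)).card) / (N : ℝ) ^ d := by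
            field_simp
        _ ≤ d.factorial * ((triF d N).card *
            (len T (M ⧸ powIdeal x n • (⊤ : Submodule T M)) : ℝ)) / (N : ℝ) ^ d := by gcongr
        _ = _ := by ring
    exact_mod_cast h10
  have h7 : ∀ n, l α0 * n ^ d ≤ len T (M ⧸ powIdeal x n • (⊤ : Submodule T M)) := fun n => by
    rcases Nat.eq_zero_or_pos n with rfl | hn
    · rcases d with _ | d
      · have : powIdeal x 0 = powIdeal x 1 := by simp [powIdeal]
        rw [this]
        exact h6 1 one_pos
      · simp
    · exact h6 n hn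
  refine ⟨l α0, ?_, ?_, h7⟩
  · refine emul_squeeze (c := fun N => l α0 * (triF d N).card) (C := l 0 * α0.degree)
      (Nat.cast_nonneg _) ?_ (fun N => (h4 N).trans_eq (h3 N).symm) fun N => ?_
    · have := (tendsto_card_triF d).const_mul (l α0 : ℝ)
      rw [mul_one] at this
      refine this.congr fun N => ?_
      push_cast
      ring
    · rw [h3]
      exact emul_sum_bound l h1 h2 fun α hα => mem_boxF.mpr fun i =>
        (Finsupp.le_degree i α).trans_lt (mem_triF.mp hα)
  · have := emul_squeeze (a := fun n => len T (M ⧸ powIdeal x n • (⊤ : Submodule T M)))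
      (c := fun n => l α0 * n ^ d) (d := d) (C := l 0 * α0.degree) (e := l α0) zero_le_one
      ?_ h7 fun n => ?_
    · simpa only [one_mul] using this
    · refine tendsto_const_nhds.congr' ?_
      filter_upwards [eventually_gt_atTop 0] with n hn
      have hn' : (0 : ℝ) < n := by exact_mod_cast hn
      push_cast
      field_simp
    · have h8 := emul_sum_bound l h1 h2 (Finset.Subset.refl (boxF fun _ => n))
      rw [card_boxF, Finset.prod_const, Finset.card_univ, Fintype.card_fin] at h8
      refine le_trans (Nat.mul_le_mul_left n ?_) h8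
      refine ENat.toNat_le_of_le_natCast ?_
      simp only [Nat.cast_sum, hl']
      exact (gr_anti (Submodule.smul_mono_left (monI_le fun α hα =>
        mon_mem_powIdeal x n α hα))).trans (emul_le_sum M x _)

/-- analytically independent elements give a lower bound for the growth. -/
theorem AnIndep.card_triF_le {T : Type*} [CommRing T] [IsLocalRing T] {d : ℕ} {x : Fin d → T}
    (hx : ∀ i, x i ∈ maximalIdeal T) (h : AnIndep x) (N : ℕ) :
    ((triF d N).card : ℕ∞) ≤ Module.length T (T ⧸ maximalIdeal T ^ N) := by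
  classical
  induction N with
  | zero => simp [triF]
  | succ N ih =>
    set A := Finset.finsuppAntidiag (Finset.univ : Finset (Fin d)) N with hA
    have hdeg : ∀ α : A, α.1.degree = N := fun α => by
      rw [Finsupp.degree_eq_sum]
      exact (Finset.mem_finsuppAntidiag.mp α.2).1
    have h1 : (triF d (N + 1)).card ≤ A.card + (triF d N).card := by
      rw [triF, Finset.range_add_one, Finset.biUnion_insert]
      exact Finset.card_union_le _ _
    let f : (A → T) →ₗ[T] T := Fintype.linearCombination T fun α => mon x α.1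
    let g : (A → T) →ₗ[T] (A → T ⧸ maximalIdeal T) := (maximalIdeal T).mkQ.compLeft A
    have h2 : Submodule.comap f (maximalIdeal T ^ (N + 1)) ≤ LinearMap.ker g := by
      intro c hc
      have h3 := h N (∑ α : A, MvPolynomial.monomial α.1 (c α))
        (MvPolynomial.IsHomogeneous.sum _ _ _ fun α _ =>
          MvPolynomial.isHomogeneous_monomial _ (hdeg α)) (by
          rw [map_sum]
          simpa [f, Fintype.linearCombination_apply, MvPolynomial.eval_monomial, mon,
            Finsupp.prod_fintype] using hc)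
      ext α
      have h4 := h3 α.1
      rw [MvPolynomial.coeff_sum, Finset.sum_eq_single α (fun β _ hβ => by
        rw [MvPolynomial.coeff_monomial, if_neg fun e => hβ (Subtype.ext e)]) (by simp),
        MvPolynomial.coeff_monomial, if_pos rfl] at h4
      exact (Submodule.Quotient.mk_eq_zero _).mpr h4
    have h3 : (A.card : ℕ∞) ≤
        Module.length T ((A → T) ⧸ Submodule.comap f (maximalIdeal T ^ (N + 1))) := by
      refine le_trans ?_ (Module.length_le_of_surjective (Submodule.liftQ _ g h2) fun z => ?_)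
      · simp [Module.length_pi_of_fintype, length_residue]
      · choose c hc using fun α => (maximalIdeal T).mkQ_surjective (z α)
        exact ⟨Submodule.Quotient.mk c, funext hc⟩
    rw [emul_exact _ f]
    refine le_trans (by exact_mod_cast h1) (add_le_add h3 (ih.trans (gr_anti
      (sup_le (Ideal.pow_le_pow_right N.le_succ) ?_))))
    rintro _ ⟨c, rfl⟩
    rw [Fintype.linearCombination_apply]
    refine Ideal.sum_mem _ fun α _ => Ideal.mul_mem_left _ _ ?_
    rw [← hdeg α]
    exact Ideal.pow_right_mono (Ideal.span_le.mpr (by rintro _ ⟨i, rfl⟩; exact hx i)) _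
      (mon_mem_pow x α.1)

end Vale.Agent.P202
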