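import Vale.Agent.P202.MxCoverDef

/-! Existence and base change of generically etale monogenic data. -/

namespace Vale.Agent.P202

open Polynomial TensorProduct

namespace EtAux

open IntermediateField nonZeroDivisors

theorem prim_smul {K L : Type*} [Field K] [Field L] [Algebra K L] {α : L} (h : K⟮α⟯ = ⊤) {k : K}
    (hk : k ≠ 0) : K⟮k • α⟯ = ⊤ := by
  refine top_le_iff.1 (h.ge.trans (adjoin_simple_le_iff.2 ?_))
  simpa [hk] using K⟮k • α⟯.smul_mem (mem_adjoin_simple_self K (k • α)) (x := k⁻¹)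

theorem clear {A : Type*} [CommRing A] [IsDomain A] (K : Type*) [Field K] [Algebra A K]
    [IsFractionRing A K] (f : K[X]) :
    ∃ (b : A) (g : A[X]), b ≠ 0 ∧ g.map (algebraMap A K) = C (algebraMap A K b) * f := by
  obtain ⟨b, h1, h2⟩ := IsLocalization.integerNormalization_spec A⁰ f
  exact ⟨b, _, nonZeroDivisors.ne_zero h1, by rw [h2, ← smul_eq_C_mul, algebraMap_smul]⟩

theorem of_field (A R K L : Type*) [CommRing A] [IsDomain A] [CommRing R]
    [IsDomain R] [Algebra A R] [Module.Finite A R] [FaithfulSMul A R] [Field K] [CharZero K]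
    [Field L] [Algebra A K] [IsFractionRing A K] [Algebra R L] [IsFractionRing R L] [Algebra K L]
    [Algebra A L] [IsScalarTower A K L] [IsScalarTower A R L] : ∃ D : EtData A R, D.G ≠ 0 := by
  have : FiniteDimensional K L := .of_isLocalization A R A⁰
  have iK := IsFractionRing.injective A K
  have iL := IsFractionRing.injective R L
  have ev : ∀ (r : R) (f : A[X]), algebraMap R L (aeval r f) =
      aeval (algebraMap R L r) (f.map (algebraMap A K)) := fun r f => by
    rw [aeval_map_algebraMap, aeval_algebraMap_apply]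
  obtain ⟨α, hα⟩ := Field.exists_primitive_element K L
  obtain ⟨⟨θ₀, _, a, ha, rfl⟩, e⟩ := IsLocalization.surj (Algebra.algebraMapSubmonoid R A⁰) α
  have h0 : K⟮algebraMap R L θ₀⟯ = ⊤ := by
    have := prim_smul hα ((map_ne_zero_iff _ iK).2 (nonZeroDivisors.ne_zero ha))
    rwa [algebraMap_smul, Algebra.smul_def, IsScalarTower.algebraMap_apply A R L, mul_comm,
      e] at this
  obtain ⟨b, p, hb, hp⟩ := clear (A := A) K (minpoly K (algebraMap R L θ₀))
  have hb' := (map_ne_zero_iff _ iK).2 hb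
  have hp0 : p ≠ 0 := by
    rintro rfl
    exact mul_ne_zero (C_ne_zero.2 hb') (minpoly.ne_zero (.of_finite K _))
      (hp.symm.trans (Polynomial.map_zero _))
  set θ := algebraMap A R p.leadingCoeff * θ₀ with hθ
  have h1 : K⟮algebraMap R L θ⟯ = ⊤ := by
    have := prim_smul h0 ((map_ne_zero_iff _ iK).2 (leadingCoeff_ne_zero.2 hp0))
    rwa [algebraMap_smul, Algebra.smul_def, IsScalarTower.algebraMap_apply A R L, ← map_mul] at this
  have hr : aeval θ p.integralNormalization = 0 := integralNormalization_aeval_eq_zero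
    (iL (by rw [ev, hp, map_mul, minpoly.aeval, mul_zero, map_zero]))
    ((injective_iff_map_eq_zero _).1 (FaithfulSMul.algebraMap_injective A R))
  have hm := monic_integralNormalization hp0
  have hP : p.integralNormalization.map (algebraMap A K) = minpoly K (algebraMap R L θ) := by
    refine eq_of_monic_of_dvd_of_natDegree_le (minpoly.monic (.of_finite K _)) (hm.map _)
      (minpoly.dvd _ _ (by rw [← ev, hr, map_zero])) ?_
    rw [(Field.primitive_element_iff_minpoly_natDegree_eq K _).1 h1, hm.natDegree_map,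
      natDegree_integralNormalization, ← natDegree_map_eq_of_injective iK, hp, natDegree_C_mul hb',
      (Field.primitive_element_iff_minpoly_natDegree_eq K _).1 h0]
  obtain ⟨u, v, huv⟩ := Algebra.IsSeparable.isSeparable K (algebraMap R L θ)
  obtain ⟨b₁, u', hb₁, hu⟩ := clear (A := A) K u
  obtain ⟨b₂, v', hb₂, hv⟩ := clear (A := A) K v
  obtain ⟨c, hc, hc'⟩ := Submodule.annihilator_top_inter_nonZeroDivisors (R := A)
    (M := R ⧸ LinearMap.range (aeval (R := A) θ).toLinearMap) fun x => by
      obtain ⟨τ, rfl⟩ := Submodule.mkQ_surjective _ x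
      obtain ⟨f, hf⟩ : algebraMap R L τ ∈ (aeval (R := K) (algebraMap R L θ)).range := by
        rw [← Algebra.adjoin_singleton_eq_range_aeval,
          ← adjoin_simple_toSubalgebra_of_isAlgebraic (.of_finite K _), h1]
        trivial
      obtain ⟨b, g, hb, hg⟩ := clear (A := A) K f
      refine ⟨⟨b, mem_nonZeroDivisors_of_ne_zero hb⟩, (Submodule.Quotient.mk_eq_zero _).2
        ⟨g, iL ?_⟩⟩
      show algebraMap R L (aeval θ g) = algebraMap R L (b • τ)
      rw [ev, hg, map_mul (aeval _), aeval_C, Algebra.smul_def, map_mul _ _ τ,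
        ← IsScalarTower.algebraMap_apply, ← IsScalarTower.algebraMap_apply, ← hf]
      rfl
  refine ⟨⟨_, hm, θ, b₁ * b₂ * c, C (b₂ * c) * u', C (b₁ * c) * v', map_injective _ iK ?_, hr,
    fun f hf => (map_dvd_map _ iK hm).1 (hP ▸ minpoly.dvd _ _ (by rw [← ev, hf, map_zero])),
    fun τ => ?_⟩, mul_ne_zero (mul_ne_zero hb₁ hb₂) (nonZeroDivisors.ne_zero hc')⟩
  · simp only [Polynomial.map_add, Polynomial.map_mul, map_C, ← derivative_map, hP, hu, hv, map_mul]
    linear_combination C (algebraMap A K b₁) * C (algebraMap A K b₂) * C (algebraMap A K c) * huv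
  · obtain ⟨f, hf⟩ := (Submodule.Quotient.mk_eq_zero _).1
      (Submodule.mem_annihilator.1 hc (Submodule.Quotient.mk τ) trivial)
    refine ⟨C (b₁ * b₂) * f, ?_⟩
    rw [map_mul, aeval_C, mul_smul, ← Algebra.smul_def]
    exact congrArg _ hf

/-- scaled exponents. -/
noncomputable def sc {n : ℕ} (e : Fin n → ℕ) (β : Fin n →₀ ℕ) : Fin n →₀ ℕ :=
  Finsupp.equivFunOnFinite.symm fun i => e i * β i

/-- small exponents. -/
noncomputable def ex {n : ℕ} {e : Fin n → ℕ} (α : ∀ i, Fin (e i)) : Fin n →₀ ℕ :=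
  Finsupp.equivFunOnFinite.symm fun i => α i

theorem sc_ex_inj {n : ℕ} {e : Fin n → ℕ} {β β' : Fin n →₀ ℕ} {α α' : ∀ i, Fin (e i)}
    (h : sc e β + ex α = sc e β' + ex α') : α = α' := funext fun i => Fin.ext <| by
  have k : e i * β i + α i = e i * β' i + α' i := DFunLike.congr_fun h i
  simpa [Nat.mod_eq_of_lt] using congrArg (· % e i) k

open MvPowerSeries in
theorem psi (W : Type*) [CommRing W] {n : ℕ} (e : Fin n → ℕ) (he : ∀ i, e i ≠ 0) :
    ∃ (ψ : PS W n →ₐ[W] PS W n) (b : (∀ i, Fin (e i)) → PS W n), (∀ i, ψ (X i) = X i ^ e i) ∧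
      (∀ g : (∀ i, Fin (e i)) → PS W n, ∑ i, ψ (g i) * b i = 0 → ∀ i, g i = 0) ∧
      ∀ f, ∃ g : (∀ i, Fin (e i)) → PS W n, f = ∑ i, ψ (g i) * b i := by
  classical
  have ha : HasSubst fun i => (X i : PS W n) ^ e i :=
    hasSubst_of_constantCoeff_zero fun i => by simp [he i]
  have h0 : ∀ (f : PS W n) γ, coeff γ (substAlgHom ha f) =
      ∑ᶠ β, if γ = sc e β then coeff β f else 0 := fun f γ => by
    rw [substAlgHom_apply, coeff_subst ha]
    refine finsum_congr fun β => ?_
    rw [Finsupp.prod_fintype _ _ fun _ => pow_zero _]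
    simp only [← pow_mul]
    simp only [X_pow_eq, prod_monomial, Finset.prod_const_one]
    rw [show ∑ i, Finsupp.single i (e i * β i) = sc e β from Finsupp.univ_sum_single (sc e β),
      MvPowerSeries.coeff_monomial, smul_ite, smul_eq_mul, mul_one, smul_zero]
  have key : ∀ (g : (∀ i, Fin (e i)) → PS W n) β α, coeff (sc e β + ex α)
      (∑ α, substAlgHom ha (g α) * monomial (ex α) (1 : W)) = coeff β (g α) := fun g β α => by
    rw [map_sum, Finset.sum_eq_single_of_mem α (Finset.mem_univ _) fun α' _ h => ?_]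
    · rw [MvPowerSeries.coeff_mul_monomial, if_pos le_add_self, add_tsub_cancel_right, mul_one, h0,
        finsum_eq_single _ β fun β' h => if_neg fun k => h (Finsupp.ext fun i =>
          (mul_left_cancel₀ (he i) (DFunLike.congr_fun k i)).symm), if_pos rfl]
    · rw [MvPowerSeries.coeff_mul_monomial]
      split_ifs with hle
      · rw [h0, finsum_eq_zero_of_forall_eq_zero fun β' => if_neg fun k =>
          h (sc_ex_inj ((tsub_eq_iff_eq_add_of_le hle).1 k)).symm, zero_mul]
      · rfl
  refine ⟨substAlgHom ha, fun α => monomial (ex α) 1, substAlgHom_X ha,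
    fun g h α => MvPowerSeries.ext fun β => by rw [← key g β α, h, map_zero, map_zero],
    fun f => ⟨fun α β => coeff (sc e β + ex α) f, MvPowerSeries.ext fun γ => ?_⟩⟩
  obtain ⟨β, α, rfl⟩ : ∃ β α, γ = sc e β + ex (e := e) α :=
    ⟨Finsupp.equivFunOnFinite.symm fun i => γ i / e i,
      fun i => ⟨γ i % e i, Nat.mod_lt _ (Nat.pos_of_ne_zero (he i))⟩,
      Finsupp.ext fun i => (Nat.div_add_mod _ _).symm⟩
  exact (key (fun α β => coeff (sc e β + ex α) f) β α).symm

section Len

variable {W T X Q : Type*} [CommRing W] [CommRing T] [Algebra W T] [AddCommGroup X] [Module T X]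
  [Module W X] [IsScalarTower W T X] [AddCommGroup Q] [Module T Q] [Module W Q]
  [IsScalarTower W T Q]

theorem len_step (f : Q →ₗ[T] X) :
    Module.length W X ≤ Module.length W Q + Module.length W (X ⧸ LinearMap.range f) := by
  rw [Module.length_eq_add_of_exact ((LinearMap.range f).subtype.restrictScalars W)
    ((LinearMap.range f).mkQ.restrictScalars W) (LinearMap.range f).subtype_injective
    (LinearMap.range f).mkQ_surjective (LinearMap.exact_subtype_mkQ (LinearMap.range f))]
  exact add_le_add (Module.length_le_of_surjective (f.rangeRestrict.restrictScalars W)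
    f.surjective_rangeRestrict) le_rfl

/-- the map attached to a family killed by an ideal. -/
noncomputable def fam {ρ : ℕ} (v : Fin ρ → X) (J : Ideal T) (h : ∀ i, ∀ a ∈ J, a • v i = 0) :
    (Fin ρ → T ⧸ J) →ₗ[T] X :=
  ∑ i, Submodule.liftQ J (LinearMap.toSpanSingleton T X (v i)) (h i) ∘ₗ LinearMap.proj i

theorem mem_fam {ρ : ℕ} (v : Fin ρ → X) (J : Ideal T) (h : ∀ i, ∀ a ∈ J, a • v i = 0) {x : X}
    (hx : x ∈ Submodule.span T (Set.range v)) : x ∈ LinearMap.range (fam v J h) := by
  obtain ⟨c, rfl⟩ := (Submodule.mem_span_range_iff_exists_fun T).mp hx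
  exact ⟨fun i => Submodule.Quotient.mk (c i), LinearMap.sum_apply _ _ _⟩

theorem len_pi (ρ : ℕ) : Module.length W (Fin ρ → X) = ρ * Module.length W X := by
  simp [Module.length_pi_of_fintype]

theorem len_gen {M : Type*} [AddCommGroup M] [Module T M] {σ : ℕ} {u : Fin σ → M}
    (hu : Submodule.span T (Set.range u) = ⊤) (q : M →ₗ[T] X) (hq : Function.Surjective q)
    (J : Ideal T) (h : ∀ a ∈ J, ∀ m, q (a • m) = 0) :
    Module.length W X ≤ σ * Module.length W (T ⧸ J) := by
  rw [← len_pi]
  refine Module.length_le_of_surjective ((fam (q ∘ u) J fun i a ha =>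
    (map_smul q a _).symm.trans (h a ha _)).restrictScalars W) fun x => mem_fam _ _ _ ?_
  rw [Set.range_comp, Submodule.span_image, hu, Submodule.map_top, LinearMap.range_eq_top.2 hq]
  trivial

theorem sup_kill {M : Type*} [AddCommGroup M] [Module T M] (q : M →ₗ[T] X) {I : Ideal T} {g : T}
    (h1 : ∀ a ∈ I, ∀ m, q (a • m) = 0) (h2 : ∀ m, q (g • m) = 0) :
    ∀ a ∈ I ⊔ Ideal.span {g}, ∀ m, q (a • m) = 0 := fun a ha m => by
  obtain ⟨b, hb, _, hc, rfl⟩ := Submodule.mem_sup.1 ha
  obtain ⟨c, rfl⟩ := Ideal.mem_span_singleton'.1 hc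
  rw [add_smul, map_add, h1 b hb, mul_comm, mul_smul, h2, add_zero]

end Len

end EtAux

theorem exists_etData (A R : Type*) [CommRing A] [IsDomain A] [CharZero A] [CommRing R]
    [IsDomain R] [Algebra A R] [Module.Finite A R] (hinj : Function.Injective (algebraMap A R)) :
    ∃ D : EtData A R, D.G ≠ 0 := by
  have := (faithfulSMul_iff_algebraMap_injective A R).2 hinj
  let _ := FractionRing.liftAlgebra A (FractionRing R)
  have := FractionRing.isScalarTower_liftAlgebra A (FractionRing R)
  exact EtAux.of_field A R (FractionRing A) (FractionRing R)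

theorem EtData.exists_mul {A R : Type*} [CommRing A] [CommRing R] [Algebra A R] (D : EtData A R)
    (c : A) : ∃ D' : EtData A R, D'.G = c * D.G := by
  refine ⟨⟨D.P, D.monic, D.θ, c * D.G, C c * D.a, C c * D.b, ?_, D.root, D.indep, fun τ => ?_⟩, rfl⟩
  · rw [mul_assoc, mul_assoc, ← mul_add, D.bezout, map_mul]
  · obtain ⟨f, hf⟩ := D.span τ
    exact ⟨C c * f, by rw [map_mul, aeval_C, hf, mul_smul, ← Algebra.smul_def]⟩

theorem EtData.exists_baseChange {A R : Type*} [CommRing A] [CommRing R] [Algebra A R]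
    (D : EtData A R) (A' : Type*) [CommRing A'] [Algebra A A'] [Module.Flat A A'] :
    ∃ D' : EtData A' (A' ⊗[A] R), D'.G = algebraMap A A' D.G := by
  have ev : ∀ f : A[X], aeval ((1 : A') ⊗ₜ[A] D.θ) (f.map (algebraMap A A')) =
      (1 : A') ⊗ₜ[A] aeval D.θ f := fun f => by
    rw [aeval_map_algebraMap]
    exact aeval_algHom_apply (Algebra.TensorProduct.includeRight (R := A) (A := A')) D.θ f
  have hm := D.monic.map (algebraMap A A')
  have h0 := (ev D.P).trans (by rw [D.root, tmul_zero])
  refine ⟨⟨_, hm, 1 ⊗ₜ D.θ, algebraMap A A' D.G, D.a.map (algebraMap A A'),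
    D.b.map (algebraMap A A'), ?_, h0, fun f hf => ?_, fun τ => ?_⟩, rfl⟩
  · simpa [derivative_map] using congrArg (Polynomial.map (algebraMap A A')) D.bezout
  · nontriviality A'
    have := (algebraMap A A').domain_nontrivial
    have hl : LinearIndependent A fun i : Fin D.P.natDegree => D.θ ^ (i : ℕ) := by
      refine Fintype.linearIndependent_iff.2 fun c hc i => ?_
      have k : ∑ i : Fin D.P.natDegree, C (c i) * X ^ (i : ℕ) = 0 := by
        by_contra k
        refine D.monic.not_dvd_of_degree_lt k ((degree_sum_fin_lt c).trans_eq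
          (degree_eq_natDegree D.monic.ne_zero).symm) (D.indep _ ?_)
        simpa [Algebra.smul_def] using hc
      simpa [coeff_X_pow, Fin.val_inj] using congrArg (coeff · i) k
    by_contra k
    rw [← modByMonic_eq_zero_iff_dvd hm] at k
    have k1 := natDegree_lt_natDegree k (degree_modByMonic_lt f hm)
    rw [D.monic.natDegree_map] at k1
    have k2 := (aeval_modByMonic_eq_self_of_root (p := f) h0).trans hf
    rw [aeval_eq_sum_range' k1, Finset.sum_range] at k2
    refine leadingCoeff_ne_zero.2 k (Fintype.linearIndependent_iff.1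
      (Module.Flat.linearIndependent_one_tmul (S := A') hl)
      (fun i => (f %ₘ D.P.map (algebraMap A A')).coeff i) ?_ ⟨_, k1⟩)
    simpa using k2
  · induction τ with
    | zero => exact ⟨0, by simp⟩
    | tmul a r =>
      obtain ⟨f, hf⟩ := D.span r
      refine ⟨C a * f.map (algebraMap A A'), ?_⟩
      rw [map_mul, ev, hf, aeval_C, algebraMap_smul, ← tmul_smul]
      simp
    | add x y hx hy =>
      obtain ⟨f, hf⟩ := hx
      obtain ⟨g, hg⟩ := hy
      exact ⟨f + g, by rw [map_add, hf, hg, smul_add]⟩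

/-- a finite extension of a finite extension of domains is generically free. -/
theorem exists_free_part_base (A R R₁ : Type*) [CommRing A] [IsDomain A] [CommRing R] [IsDomain R]
    [CommRing R₁] [IsDomain R₁] [Algebra A R] [Module.Finite A R] [Algebra R R₁]
    [Module.Finite R R₁] (hinj : Function.Injective (algebraMap R R₁)) :
    ∃ (ρ : ℕ) (v : Fin ρ → R₁) (g : A), ρ ≠ 0 ∧ g ≠ 0 ∧ LinearIndependent R v ∧
      ∀ x : R₁, algebraMap A R g • x ∈ Submodule.span R (Set.range v) := by
  obtain ⟨v, g, h1, h2, h3⟩ := exists_free_part R R₁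
  obtain ⟨a, ha, ha'⟩ := Submodule.exists_mem_ne_zero_of_ne_bot
    (Ideal.comap_ne_bot_of_integral_mem h2 (Ideal.mem_span_singleton_self g) (.of_finite A g))
  obtain ⟨c, hc⟩ := Ideal.mem_span_singleton'.1 ha
  refine ⟨_, v, a, fun h => h2 (hinj ?_), ha', h1, fun x => ?_⟩
  · have := h3 1
    generalize Module.finrank R R₁ = ρ at *
    subst h
    simpa [Algebra.smul_def] using this
  · rw [← hc, mul_smul]
    exact Submodule.smul_mem _ _ (h3 x)

/-- raising the last `r` variables to the power `q`. -/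
theorem exists_psi_pow (W : Type*) [CommRing W] (d r q : ℕ) (hq : q ≠ 0) :
    ∃ (ψ : PS W (d + r) →ₐ[W] PS W (d + r)) (N : ℕ) (b : Fin N → PS W (d + r)), N ≠ 0 ∧
      (∀ i, ψ (MvPowerSeries.X (Fin.castAdd r i)) = MvPowerSeries.X (Fin.castAdd r i)) ∧
      (∀ i, ψ (MvPowerSeries.X (Fin.natAdd d i)) = MvPowerSeries.X (Fin.natAdd d i) ^ q) ∧
      (∀ g : Fin N → PS W (d + r), ∑ i, ψ (g i) * b i = 0 → ∀ i, g i = 0) ∧
      ∀ f, ∃ g : Fin N → PS W (d + r), f = ∑ i, ψ (g i) * b i := by
  obtain ⟨ψ, b, h1, h2, h3⟩ := EtAux.psi W (Fin.addCases (fun _ => 1) fun _ => q : Fin (d + r) → ℕ)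
    fun i => by refine Fin.addCases (fun i => ?_) (fun i => ?_) i <;> simp [hq]
  let E := (Fintype.equivFin (∀ i : Fin (d + r),
    Fin ((Fin.addCases (fun _ => 1) fun _ => q : Fin (d + r) → ℕ) i))).symm
  refine ⟨ψ, _, b ∘ E, fun h => ?_, fun i => by simp [h1], fun i => by simp [h1], fun g hg i => ?_,
    fun f => ?_⟩
  · rw [Fintype.card_pi, Finset.prod_eq_zero_iff] at h
    obtain ⟨i, -, hi⟩ := h
    revert hi
    refine Fin.addCases (fun i => ?_) (fun i => ?_) i <;> simp [hq]
  · simpa using h2 (g ∘ E.symm) (by rw [← hg, ← E.sum_comp]; simp) (E i)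
  · obtain ⟨g, hg⟩ := h3 f
    exact ⟨g ∘ E, hg.trans (E.sum_comp fun i => ψ (g i) * b i).symm⟩

/-- comparison of lengths along a generically free finite algebra. -/
theorem length_compare {W T T₁ : Type*} [CommRing W] [CommRing T] [CommRing T₁] [Algebra W T]
    [Algebra W T₁] [Algebra T T₁] [IsScalarTower W T T₁] [Module.Finite T T₁] {ρ : ℕ}
    (v : Fin ρ → T₁) (hv : LinearIndependent T v) (g : T)
    (hg : ∀ x : T₁, g • x ∈ Submodule.span T (Set.range v)) : ∃ σ : ℕ, ∀ I : Ideal T,
      (ρ : ℕ∞) * Module.length W (T ⧸ I) ≤ Module.length W (T₁ ⧸ I.map (algebraMap T T₁)) +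
        ρ * Module.length W (T ⧸ (I ⊔ Ideal.span {g})) ∧
      Module.length W (T₁ ⧸ I.map (algebraMap T T₁)) ≤ ρ * Module.length W (T ⧸ I) +
        σ * Module.length W (T ⧸ (I ⊔ Ideal.span {g})) ∧
      Module.length W (T₁ ⧸ I.map (algebraMap T T₁)) ≤ σ * Module.length W (T ⧸ I) := by
  obtain ⟨σ, u, hu⟩ := Module.Finite.exists_fin (R := T) (M := T₁)
  refine ⟨σ, fun I => ?_⟩
  let q := (Ideal.Quotient.mkₐ T (I.map (algebraMap T T₁))).toLinearMap
  have hq : Function.Surjective q := Ideal.Quotient.mk_surjective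
  have hI : ∀ a ∈ I, ∀ m, q (a • m) = 0 := fun a ha m => Ideal.Quotient.eq_zero_iff_mem.2 (by
    rw [Algebra.smul_def]
    exact Ideal.mul_mem_right _ _ (Ideal.mem_map_of_mem _ ha))
  refine ⟨?_, ?_, EtAux.len_gen hu q hq I hI⟩
  · let π : (Fin ρ → T) →ₗ[T] Fin ρ → T ⧸ I := (Submodule.mkQ I).compLeft _
    have hπ : ∀ a ∈ I, ∀ m, π (a • m) = 0 := fun a ha m => funext fun i =>
      Ideal.Quotient.eq_zero_iff_mem.2 (I.mul_mem_right _ ha)
    let θ : T₁ →ₗ[T] Fin ρ → T := (Finsupp.linearEquivFunOnFinite T T _).toLinearMap ∘ₗ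
      hv.repr ∘ₗ (LinearMap.lsmul T T₁ g).codRestrict _ hg
    have hθ : ∀ c, θ (Fintype.linearCombination T v c) = g • c := fun c => by
      refine (Finsupp.linearEquivFunOnFinite T T _).eq_symm_apply.1 (hv.repr_eq ?_)
      rw [Finsupp.linearCombination_eq_fintype_linearCombination_apply, map_smul]
      rfl
    let f := (LinearMap.ker q).liftQ (π ∘ₗ θ) (fun x hx => by
      have : x ∈ I • (⊤ : Submodule T T₁) := by
        rw [Ideal.smul_top_eq_map]
        exact Ideal.Quotient.eq_zero_iff_mem.1 hx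
      refine Submodule.smul_induction_on this (fun a ha m _ => ?_) fun _ _ => add_mem
      rw [LinearMap.mem_ker, LinearMap.comp_apply, map_smul, hπ a ha]) ∘ₗ
      (q.quotKerEquivOfSurjective hq).symm.toLinearMap
    rw [← EtAux.len_pi]
    refine (EtAux.len_step f).trans (add_le_add le_rfl (EtAux.len_gen (Pi.basisFun T _).span_eq
      ((LinearMap.range f).mkQ ∘ₗ π) ((Submodule.mkQ_surjective _).comp
        ((Submodule.mkQ_surjective I).comp_left)) _ (EtAux.sup_kill _ (fun a ha m => ?_)
        fun c => (Submodule.Quotient.mk_eq_zero _).2 ⟨q (Fintype.linearCombination T v c), ?_⟩)))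
    · rw [LinearMap.comp_apply, hπ a ha, map_zero]
    · rw [← hθ]
      simp [f]
  · let f := EtAux.fam (q ∘ v) I fun i a ha => (map_smul q a _).symm.trans (hI a ha _)
    rw [← EtAux.len_pi]
    refine (EtAux.len_step f).trans (add_le_add le_rfl (EtAux.len_gen hu
      ((LinearMap.range f).mkQ ∘ₗ q) ((Submodule.mkQ_surjective _).comp hq) _
      (EtAux.sup_kill _ (fun a ha m => ?_) fun m => (Submodule.Quotient.mk_eq_zero _).2
        (EtAux.mem_fam _ _ _ ?_))))
    · rw [LinearMap.comp_apply, hI a ha, map_zero]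
    · rw [Set.range_comp, Submodule.span_image q]
      exact Submodule.mem_map_of_mem (hg m)

end Vale.Agent.P202
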