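import Vale.Agent.P202.MxCohen
import Vale.Agent.P202.MxTri
import Vale.Agent.P202.BaseChangeAux

/-! Existence of complete discrete valuation rings with prescribed residue field. -/

namespace Vale.Agent.P202

open IsLocalRing

universe u

section Zorn

open Polynomial

variable {O L : Type*} [CommRing O] [Field L] (p : ℕ) (π : O →+* L) (K : Subfield L)

/-- subrings with residues in `K` on which the kernel of `π` is generated by `p`. -/
def PRingGood (V : Subring O) : Prop :=
  (∀ v ∈ V, π v ∈ K) ∧ ∀ v ∈ V, π v = 0 → ∃ w ∈ V, v = p * w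

variable {p π K}

theorem pRing_inv {V : Subring O} (hV : Maximal (PRingGood p π K) V) {v t : O} (hv : v ∈ V)
    (ht : v * t = 1) : t ∈ V := by
  let V' : Subring O :=
    { carrier := {x | ∃ n : ℕ, v ^ n * x ∈ V}
      mul_mem' := by
        rintro x y ⟨n, hn⟩ ⟨m, hm⟩
        refine ⟨n + m, ?_⟩
        rw [show v ^ (n + m) * (x * y) = v ^ n * x * (v ^ m * y) by ring]
        exact V.mul_mem hn hm
      one_mem' := ⟨0, by simp⟩
      add_mem' := by
        rintro x y ⟨n, hn⟩ ⟨m, hm⟩
        refine ⟨n + m, ?_⟩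
        rw [show v ^ (n + m) * (x + y) = v ^ m * (v ^ n * x) + v ^ n * (v ^ m * y) by ring]
        exact V.add_mem (V.mul_mem (V.pow_mem hv _) hn) (V.mul_mem (V.pow_mem hv _) hm)
      zero_mem' := ⟨0, by simp⟩
      neg_mem' := by
        rintro x ⟨n, hn⟩
        exact ⟨n, by rw [mul_neg]; exact V.neg_mem hn⟩ }
  have hv0 : π v ≠ 0 := fun h => by
    have := congrArg π ht
    rw [map_mul, h, zero_mul, map_one] at this
    exact zero_ne_one this
  have hgood : PRingGood p π K V' := by
    constructor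
    · rintro x ⟨n, hn⟩
      have h1 := hV.prop.1 _ hn
      rw [map_mul, map_pow] at h1
      have h2 : π x = (π v ^ n)⁻¹ * (π v ^ n * π x) := by
        rw [inv_mul_cancel_left₀ (pow_ne_zero _ hv0)]
      rw [h2]
      exact K.mul_mem (K.inv_mem (K.pow_mem (hV.prop.1 _ hv) _)) h1
    · rintro x ⟨n, hn⟩ hx
      obtain ⟨w, hw, e⟩ := hV.prop.2 _ hn (by rw [map_mul, hx, mul_zero])
      have h1 : v ^ n * t ^ n = 1 := by rw [← mul_pow, ht, one_pow]
      refine ⟨t ^ n * w, ⟨n, by rwa [← mul_assoc, h1, one_mul]⟩, ?_⟩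
      rw [mul_left_comm, ← e, ← mul_assoc, mul_comm (t ^ n), h1, one_mul]
  exact hV.le_of_ge hgood (fun x hx => ⟨0, by simpa using hx⟩) ⟨1, by simp [ht]⟩

theorem pRing_adjoin {V : Subring O} (hV : Maximal (PRingGood p π K) V) {t : O} (ht : π t ∈ K)
    (h : ∀ q : V[X], π (eval₂ V.subtype t q) = 0 →
      ∃ r : V[X], eval₂ V.subtype t q = eval₂ V.subtype t r ∧ r.map (π.comp V.subtype) = 0) :
    t ∈ V := by
  have hgood : PRingGood p π K (eval₂RingHom V.subtype t).range := by
    constructor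
    · rintro _ ⟨q, rfl⟩
      rw [coe_eval₂RingHom, hom_eval₂, eval₂_eq_sum_range]
      exact K.sum_mem fun i _ => K.mul_mem (hV.prop.1 _ (q.coeff i).2) (K.pow_mem ht _)
    · rintro _ ⟨q, rfl⟩ hq
      obtain ⟨r, e, hr⟩ := h q hq
      have hd : C (p : V) ∣ r := by
        rw [C_dvd_iff_dvd_coeff]
        intro i
        have h1 : π (r.coeff i) = 0 := by
          have := congrArg (fun s => coeff s i) hr
          simpa using this
        obtain ⟨w, hw, e'⟩ := hV.prop.2 _ (r.coeff i).2 h1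
        exact ⟨⟨w, hw⟩, Subtype.ext e'⟩
      obtain ⟨r', rfl⟩ := hd
      refine ⟨_, ⟨r', rfl⟩, ?_⟩
      rw [coe_eval₂RingHom, e, eval₂_mul, eval₂_C, map_natCast]
  exact hV.le_of_ge hgood (fun x hx => ⟨C ⟨x, hx⟩, by simp⟩) ⟨X, by simp⟩

theorem pRing_zorn [IsDomain O] [CharP L p] (hs : ∀ a ∈ K, ∃ t, π t = a)
    (hu : ∀ x, π x ≠ 0 → IsUnit x) (hsp : ∀ F : O[X], F.Monic → F.Splits) :
    ∃ V : Subring O, PRingGood p π K V ∧ ∀ a ∈ K, ∃ v ∈ V, π v = a := by
  have hbot : PRingGood p π K ⊥ := by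
    constructor
    · intro v hv
      obtain ⟨n, rfl⟩ := Subring.mem_bot.1 hv
      rw [map_intCast]
      exact intCast_mem K n
    · intro v hv h0
      obtain ⟨n, rfl⟩ := Subring.mem_bot.1 hv
      rw [map_intCast, CharP.intCast_eq_zero_iff L p] at h0
      obtain ⟨m, rfl⟩ := h0
      exact ⟨m, intCast_mem _ m, by push_cast; rfl⟩
  obtain ⟨V, -, hV⟩ := zorn_le_nonempty₀ {V | PRingGood p π K V} (by
    intro c hcS hc y hy
    refine ⟨sSup c, ⟨fun b hb => ?_, fun b hb hb0 => ?_⟩, fun z hz => le_sSup hz⟩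
    · obtain ⟨A, hAc, hbA⟩ := (Subring.mem_sSup_of_directedOn ⟨y, hy⟩ hc.directedOn).1 hb
      exact (hcS hAc).1 b hbA
    · obtain ⟨A, hAc, hbA⟩ := (Subring.mem_sSup_of_directedOn ⟨y, hy⟩ hc.directedOn).1 hb
      obtain ⟨w, hw, e⟩ := (hcS hAc).2 b hbA hb0
      exact ⟨w, le_sSup hAc hw, e⟩) ⊥ hbot
  have hV : Maximal (PRingGood p π K) V := hV
  refine ⟨V, hV.prop, fun a ha => ?_⟩
  let F : Subfield L :=
    { V.map π with
      inv_mem' := by
        rintro _ ⟨x, hx, rfl⟩
        by_cases h0 : π x = 0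
        · rw [h0, inv_zero]; exact ⟨0, V.zero_mem, map_zero π⟩
        obtain ⟨t, ht⟩ := (hu x h0).exists_right_inv
        refine ⟨t, pRing_inv hV hx ht, ?_⟩
        have := congrArg π ht
        rw [map_mul, map_one] at this
        exact eq_inv_of_mul_eq_one_right this }
  have hF : ∀ x : V, π x ∈ F := fun x => ⟨x, x.2, rfl⟩
  let ρ : V →+* F := (π.comp V.subtype).codRestrict F hF
  have hρ : Function.Surjective ρ := by
    rintro ⟨_, x, hx, rfl⟩
    exact ⟨⟨x, hx⟩, rfl⟩
  have hev : ∀ (t : O) (q : V[X]), π (eval₂ V.subtype t q) = aeval (π t) (q.map ρ) := by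
    intro t q
    rw [aeval_def, eval₂_map, hom_eval₂]
    rfl
  have hmap : ∀ r : V[X], r.map ρ = 0 → r.map (π.comp V.subtype) = 0 := by
    intro r hr
    have : π.comp V.subtype = (algebraMap F L).comp ρ := rfl
    rw [this, ← Polynomial.map_map, hr, Polynomial.map_zero]
  by_cases halg : IsIntegral F a
  · obtain ⟨G, hG1, hG2, hG3⟩ := lifts_and_natDegree_eq_and_monic
      (show minpoly F a ∈ lifts ρ from map_surjective ρ hρ _) (minpoly.monic halg)
    have hm : (G.map V.subtype).Monic := hG3.map _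
    have hroot : ∃ t, eval₂ V.subtype t G = 0 ∧ π t = a := by
      have h1 := (hsp _ hm).eq_prod_roots_of_monic hm
      have h2 : eval₂ π a (G.map V.subtype) = 0 := by
        have := minpoly.aeval F a
        rw [← hG1, aeval_def, eval₂_map] at this
        rw [eval₂_map]
        exact this
      rw [h1, eval₂_multiset_prod, Multiset.prod_eq_zero_iff, Multiset.map_map,
        Multiset.mem_map] at h2
      obtain ⟨t, ht, e⟩ := h2
      refine ⟨t, ?_, ?_⟩
      · rw [← eval_map]
        exact (mem_roots hm.ne_zero).1 ht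
      · simp only [Function.comp, eval₂_sub, eval₂_X, eval₂_C] at e
        exact (sub_eq_zero.1 e).symm
    obtain ⟨t, ht0, rfl⟩ := hroot
    refine ⟨t, pRing_adjoin hV ha fun q hq => ⟨q %ₘ G, ?_, hmap _ ?_⟩, rfl⟩
    · conv_lhs => rw [← modByMonic_add_div q G]
      rw [eval₂_add, eval₂_mul, ht0, zero_mul, add_zero]
    · rw [hev] at hq
      rw [map_modByMonic _ hG3, hG1, modByMonic_eq_zero_iff_dvd (minpoly.monic halg)]
      exact minpoly.dvd F _ hq
  · obtain ⟨t, rfl⟩ := hs a ha
    refine ⟨t, pRing_adjoin hV ha fun q hq => ⟨q, rfl, hmap _ ?_⟩, rfl⟩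
    rw [hev] at hq
    by_contra hne
    exact halg (IsAlgebraic.isIntegral ⟨_, hne, hq⟩)

end Zorn

theorem pRing_splits {Ω : Type*} [Field Ω] [IsAlgClosed Ω] (O : ValuationSubring Ω)
    (F : Polynomial O) (hF : F.Monic) : F.Splits := by
  refine Polynomial.Splits.of_splits_map_of_injective (i := algebraMap O Ω)
    Subtype.val_injective (IsAlgClosed.splits _) fun a ha => ?_
  have h1 : IsIntegral O a := by
    refine ⟨F, hF, ?_⟩
    rw [← Polynomial.eval_map]
    exact (Polynomial.mem_roots (hF.map _).ne_zero).1 ha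
  exact IsIntegrallyClosed.algebraMap_eq_of_integral h1

/-- before completion. -/
theorem exists_pre_pRing (p : ℕ) [Fact p.Prime] (k : Type u) [Field k] [CharP k p] :
    ∃ (V : Type u) (_ : CommRing V) (π : V →+* k), Function.Surjective π ∧
      (∀ v, π v = 0 ↔ (p : V) ∣ v) ∧ ∀ x : V, (p : V) * x = 0 → x = 0 := by
  let P := MvPolynomial k ℤ
  let Ω := AlgebraicClosure (FractionRing P)
  let ev : P →+* k := MvPolynomial.eval₂Hom (Int.castRingHom k) id
  have hev : Function.Surjective ev := fun a => ⟨MvPolynomial.X a, MvPolynomial.eval₂Hom_X' _ _ a⟩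
  let φ0 : P →+* Ω := (algebraMap (FractionRing P) Ω).comp (algebraMap P (FractionRing P))
  have hφ0 : Function.Injective φ0 :=
    (algebraMap (FractionRing P) Ω).injective.comp (IsFractionRing.injective P _)
  let e : P ≃+* φ0.range := RingEquiv.ofBijective φ0.rangeRestrict
    ⟨fun x y h => hφ0 (congrArg Subtype.val h), φ0.rangeRestrict_surjective⟩
  obtain ⟨O, hO1, hO2⟩ := Ideal.image_subset_nonunits_valuationSubring
    ((RingHom.ker ev).comap e.symm.toRingHom) (Ideal.comap_ne_top _ (RingHom.ker_ne_top ev))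
  let φ : P →+* O := φ0.codRestrict O fun x => hO1 ⟨x, rfl⟩
  have hk : RingHom.ker ev ≤ RingHom.ker ((residue O).comp φ) := fun x hx => by
    rw [RingHom.mem_ker, RingHom.comp_apply, residue_eq_zero_iff,
      ← ValuationSubring.coe_mem_nonunits_iff]
    refine hO2 ⟨e x, ?_, rfl⟩
    change e.symm (e x) ∈ RingHom.ker ev
    rwa [e.symm_apply_apply]
  let ι : k →+* ResidueField O := ev.liftOfSurjective hev ⟨_, hk⟩
  have : CharP (ResidueField O) p := charP_of_injective_ringHom ι.injective p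
  obtain ⟨V, ⟨h1, h2⟩, h3⟩ := pRing_zorn (p := p) (π := residue O) (K := ι.fieldRange)
    (fun a _ => residue_surjective a)
    (fun x hx => by
      by_contra hc
      exact hx ((residue_eq_zero_iff x).2 hc))
    (pRing_splits O)
  let e2 : k ≃+* ι.fieldRange := ι.rangeRestrictFieldEquiv
  let π1 : V →+* ι.fieldRange :=
    ((residue O).comp V.subtype).codRestrict ι.fieldRange fun x => h1 x x.2
  have hp : (p : O) ≠ 0 := by
    intro h
    have h4 : φ0 p = 0 := by
      have := congrArg Subtype.val h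
      rw [map_natCast]
      exact_mod_cast this
    rw [← map_zero φ0] at h4
    exact (Nat.cast_ne_zero.2 (Fact.out : p.Prime).ne_zero) (hφ0 h4)
  refine ⟨V, inferInstance, e2.symm.toRingHom.comp π1, e2.symm.surjective.comp ?_, fun v => ?_,
    fun x hx => ?_⟩
  · rintro ⟨a, ha⟩
    obtain ⟨v, hv, rfl⟩ := h3 a ha
    exact ⟨⟨v, hv⟩, rfl⟩
  · constructor
    · intro h
      have h4 : π1 v = 0 := (map_eq_zero_iff _ e2.symm.injective).1 h
      obtain ⟨w, hw, e'⟩ := h2 v v.2 (congrArg Subtype.val h4)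
      exact ⟨⟨w, hw⟩, Subtype.ext e'⟩
    · rintro ⟨w, rfl⟩
      rw [map_mul, map_natCast, CharP.cast_eq_zero, zero_mul]
  · have h4 : (p : O) * x = 0 := congrArg Subtype.val hx
    exact Subtype.ext ((mul_eq_zero.1 h4).resolve_left hp)

theorem exists_pRing (p : ℕ) [Fact p.Prime] (k : Type u) [Field k] [CharP k p] :
    ∃ (V : Type u) (_ : CommRing V) (_ : IsLocalRing V) (π : V →+* k), IsPRing p V ∧
      Function.Surjective π := by
  obtain ⟨V, _, π, hs, hk, hr⟩ := exists_pre_pRing p k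
  let J : Ideal V := Ideal.span {(p : V)}
  have hJ : J.FG := ⟨{(p : V)}, by simp [J]⟩
  have hker : RingHom.ker π = J := by
    ext v
    rw [RingHom.mem_ker, hk, Ideal.mem_span_singleton]
  have : J.IsMaximal := hker ▸ RingHom.ker_isMaximal_of_surjective π hs
  let W := AdicCompletion J V
  have hmap : ∀ N : ℕ, (J ^ N).map (algebraMap V W) = Ideal.span {(p : W) ^ N} := fun N => by
    rw [Ideal.span_singleton_pow, Ideal.map_span, Set.image_singleton, map_pow, map_natCast]
  have hmap1 : J.map (algebraMap V W) = Ideal.span {(p : W)} := by simpa using hmap 1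
  have hc : IsAdicComplete (Ideal.span {(p : W)}) W :=
    hmap1 ▸ AdicCompletion.isAdicComplete_self J hJ
  have hm : (Ideal.span {(p : W)}).IsMaximal :=
    hmap1 ▸ AdicCompletion.isMaximal_map_of_le J J le_rfl hJ
  have hl : IsLocalRing W := isLocalRing_of_isAdicComplete_maximal (Ideal.span {(p : W)})
  have hmax : maximalIdeal W = Ideal.span {(p : W)} := (eq_maximalIdeal hm).symm
  have h1 : J ^ 1 ≤ RingHom.ker π := by rw [pow_one, hker]
  let π' : W →+* k :=
    (Ideal.Quotient.lift (J ^ 1) π h1).comp (AdicCompletion.evalₐ J 1).toRingHom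
  have hπ' : ∀ v, π' (algebraMap V W v) = π v := fun v => by
    have : AdicCompletion.evalₐ J 1 (algebraMap V W v) = Ideal.Quotient.mk _ v := by
      rw [AlgHom.commutes]; rfl
    change Ideal.Quotient.lift (J ^ 1) π h1 (AdicCompletion.evalₐ J 1 (algebraMap V W v)) = _
    rw [this]
    rfl
  refine ⟨W, inferInstance, hl, π', ⟨hmax, fun y hy => ?_, hmax ▸ hc⟩, fun a => ?_⟩
  · refine hc.toIsHausdorff.haus y fun N => ?_
    rw [SModEq.zero, smul_eq_mul, Ideal.mul_top, Ideal.span_singleton_pow]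
    obtain ⟨a, ha⟩ := compl_approx J hJ (N + 1) y
    have h2 : algebraMap V W (p * a) ∈ (J ^ (N + 1)).map (algebraMap V W) := by
      have := Ideal.mul_mem_left _ (-(p : W)) ha
      rwa [neg_mul, mul_sub, hy, zero_sub, neg_neg, ← map_natCast (algebraMap V W),
        ← map_mul] at this
    have h3 := compl_comap_map J _ (N + 1) le_rfl _ h2
    rw [Ideal.span_singleton_pow, Ideal.mem_span_singleton] at h3
    obtain ⟨c, hc'⟩ := h3
    have h4 : a = p ^ N * c := by
      rw [← sub_eq_zero]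
      refine hr _ ?_
      rw [mul_sub, hc']
      ring
    rw [hmap] at ha
    rw [← sub_add_cancel y (algebraMap V W a)]
    refine add_mem (Ideal.span_singleton_le_span_singleton.2 (pow_dvd_pow _ N.le_succ) ha) ?_
    rw [h4, map_mul, map_pow, map_natCast]
    exact Ideal.mul_mem_right _ _ (Ideal.mem_span_singleton_self _)
  · obtain ⟨v, rfl⟩ := hs a
    exact ⟨_, hπ' v⟩

end Vale.Agent.P202
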