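import Vale.Agent.P202.Defs
import Vale.Agent.P202.CoeffField
import Vale.Agent.P202.PSMap

/-! Passing to a complete local ring with infinite coefficient field; existence of the
multiplicity. -/

namespace Vale.Agent.P202

open IsLocalRing Filter Topology

universe u

/-- Universal property of the completion of a Noetherian local ring, and lengths. -/
theorem exists_completion (T : Type u) [CommRing T] [IsLocalRing T] [IsNoetherianRing T] :
    ∃ (T' : Type u) (_ : CommRing T') (_ : IsLocalRing T') (_ : Algebra T T'),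
      IsAdicComplete (maximalIdeal T') T' ∧ Module.Flat T T' ∧ IsLocalHom (algebraMap T T') ∧
      (maximalIdeal T).map (algebraMap T T') = maximalIdeal T' ∧
      (∀ y : T', ∃ x : T, y - algebraMap T T' x ∈ maximalIdeal T') ∧
      ∀ (S : Type u) [CommRing S] [IsLocalRing S] [IsAdicComplete (maximalIdeal S) S]
        (h : T →+* S), (∀ x ∈ maximalIdeal T, h x ∈ maximalIdeal S) →
        ∃ H : T' →+* S, H.comp (algebraMap T T') = h := by
  refine ⟨AdicCompletion (maximalIdeal T) T, inferInstance, inferInstance, inferInstance,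
    inferInstance, inferInstance, inferInstance, AdicCompletion.maximalIdeal_eq_map.symm, ?_, ?_⟩
  · intro y
    obtain ⟨a, ha⟩ := (AdicCompletion.residueField_map_bijective T).2 (residue _ y)
    obtain ⟨x, rfl⟩ := residue_surjective a
    rw [ResidueField.map_residue] at ha
    exact ⟨x, (Ideal.Quotient.mk_eq_mk_iff_sub_mem _ _).1 ha.symm⟩
  · intro S _ _ _ h hh
    have hle : ∀ n : ℕ, maximalIdeal T ^ n ≤ (maximalIdeal S ^ n).comap h := fun n =>
      (Ideal.pow_right_mono (fun x hx => hh x hx) n).trans (Ideal.le_comap_pow h n)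
    let f : ∀ n : ℕ, AdicCompletion (maximalIdeal T) T →+* S ⧸ maximalIdeal S ^ n := fun n =>
      (Ideal.quotientMap _ h (hle n)).comp (AdicCompletion.evalₐ (maximalIdeal T) n).toRingHom
    have hf : ∀ {m n : ℕ} (hmn : m ≤ n),
        (Ideal.Quotient.factorPow (maximalIdeal S) hmn).comp (f n) = f m := by
      intro m n hmn
      ext x
      obtain ⟨a, rfl⟩ := AdicCompletion.mk_surjective _ _ x
      have e1 : f n (AdicCompletion.mk _ _ a) = Ideal.Quotient.mk _ (h (a.val n)) := by
        simp [f]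
      have e2 : f m (AdicCompletion.mk _ _ a) = Ideal.Quotient.mk _ (h (a.val n)) := by
        have := AdicCompletion.Ideal.mk_eq_mk _ hmn a
        simp [f, ← this]
      rw [RingHom.comp_apply, e1, e2]
      rfl
    refine ⟨IsAdicComplete.liftRingHom (maximalIdeal S) f hf, ?_⟩
    apply DFunLike.coe_injective
    apply IsHausdorff.funext' (maximalIdeal S)
    intro n x
    rw [RingHom.comp_apply, IsAdicComplete.mk_liftRingHom]
    simp [f, AdicCompletion.algebraMap_apply]

/-- flat local maps with `m T' = m'` preserve lengths of quotients. -/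
theorem length_quot_map_eq {T T' : Type*} [CommRing T] [IsLocalRing T] [CommRing T']
    [IsLocalRing T'] [Algebra T T'] [IsLocalHom (algebraMap T T')] [Module.Flat T T']
    (I : Ideal T) :
    Module.length T' (T' ⧸ I.map (algebraMap T T')) = Module.length T (T ⧸ I) *
      Module.length T' (T' ⧸ (maximalIdeal T).map (algebraMap T T')) := by
  rw [(Algebra.TensorProduct.quotIdealMapEquivTensorQuot T' I).toLinearEquiv.length_eq,
    IsLocalRing.length_baseChange]

theorem hsSeq_eq_of_flat {T T' : Type*} [CommRing T] [IsLocalRing T] [IsNoetherianRing T]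
    [CommRing T'] [IsLocalRing T'] [IsNoetherianRing T'] [Algebra T T']
    [IsLocalHom (algebraMap T T')] [Module.Flat T T']
    (h : (maximalIdeal T).map (algebraMap T T') = maximalIdeal T') :
    ringKrullDim T' = ringKrullDim T ∧ hsSeq T' = hsSeq T := by
  have hdim : ringKrullDim T' = ringKrullDim T := by
    have hl : (maximalIdeal T').LiesOver (maximalIdeal T) :=
      ⟨(IsLocalRing.maximalIdeal_comap (algebraMap T T')).symm⟩
    have h1 := Ideal.height_eq_height_add_of_liesOver_of_hasGoingDown (maximalIdeal T)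
      (maximalIdeal T')
    rw [h, Ideal.map_quotient_self, Ideal.height_bot, add_zero] at h1
    rw [← IsLocalRing.maximalIdeal_height_eq_ringKrullDim,
      ← IsLocalRing.maximalIdeal_height_eq_ringKrullDim, h1]
  refine ⟨hdim, funext fun N => ?_⟩
  have h1 := length_quot_map_eq (T' := T') (maximalIdeal T ^ N)
  have h2 : IsSimpleModule T' (T' ⧸ maximalIdeal T') :=
    isSimpleModule_iff_isCoatom.2 (Ideal.isMaximal_def.1 inferInstance)
  rw [Ideal.map_pow, h, Module.length_eq_one T' (T' ⧸ maximalIdeal T'), mul_one] at h1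
  simp only [hsSeq, dimNat, hdim, h1]

theorem exists_stepA (T : Type u) [CommRing T] [IsLocalRing T] [IsNoetherianRing T]
    (k : Type*) [Field k] [PerfectField k] (ι : k →+* T) :
    ∃ (T' : Type u) (_ : CommRing T') (_ : IsLocalRing T') (_ : Algebra T T')
      (K : Type u) (_ : Field K) (_ : Algebra K T'),
      Infinite K ∧ IsCL K T' ∧ Module.Flat T T' ∧ IsLocalHom (algebraMap T T') ∧
      (maximalIdeal T).map (algebraMap T T') = maximalIdeal T' := by
  let p : Ideal (Polynomial T) := (maximalIdeal T).map Polynomial.C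
  have hp : p.IsPrime := Ideal.isPrime_map_C_of_isPrime
  let T1 := Localization.AtPrime p
  have hm1 : (maximalIdeal T).map (algebraMap T T1) = maximalIdeal T1 := by
    rw [← Localization.AtPrime.map_eq_maximalIdeal, Ideal.map_map]
    rfl
  have hflat1 : Module.Flat T T1 := Module.Flat.trans T (Polynomial T) T1
  have hinf : Infinite (ResidueField T1) := by
    refine Infinite.of_injective
      (fun n : ℕ => residue T1 (algebraMap (Polynomial T) T1 (Polynomial.X ^ n))) ?_
    intro a b hab
    by_contra hne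
    have h1 := (Ideal.Quotient.mk_eq_mk_iff_sub_mem _ _).1 hab
    rw [← map_sub, IsLocalization.AtPrime.to_map_mem_maximal_iff T1 p] at h1
    have h2 := Ideal.mem_map_C_iff.1 h1 a
    rw [Polynomial.coeff_sub, Polynomial.coeff_X_pow, Polynomial.coeff_X_pow, if_pos rfl,
      if_neg hne, sub_zero] at h2
    exact (maximalIdeal.isMaximal T).ne_top ((Ideal.eq_top_iff_one _).2 h2)
  obtain ⟨T', _, _, _, hc, hflat, hloc, hm, -, -⟩ := exists_completion T1
  let : Algebra T T' := ((algebraMap T1 T').comp (algebraMap T T1)).toAlgebra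
  have : IsScalarTower T T1 T' := IsScalarTower.of_algebraMap_eq fun _ => rfl
  have hm' : (maximalIdeal T).map (algebraMap T T') = maximalIdeal T' := by
    rw [← hm, ← hm1, Ideal.map_map]
    rfl
  obtain ⟨σ, hσ, -⟩ := exists_coeffField T' k ((algebraMap T T').comp ι)
  refine ⟨T', inferInstance, inferInstance, inferInstance, ResidueField T', inferInstance,
    σ.toAlgebra, ?_, ?_, Module.Flat.trans T T1 T', ?_, hm'⟩
  · exact Infinite.of_injective _ (ResidueField.map (algebraMap T1 T')).injective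
  · let := σ.toAlgebra
    refine ⟨hc, ?_, fun x => ⟨residue T' x, ?_⟩⟩
    · rw [← hm']
      exact Ideal.FG.map (IsNoetherian.noetherian _) _
    · rw [← residue_eq_zero_iff, map_sub]
      exact sub_eq_zero.2 (hσ _).symm
  · exact ((IsLocalRing.local_hom_TFAE _).out 0 2).2 hm'.le

theorem stepA_len_mono {T : Type*} [CommRing T] [IsLocalRing T] (hfg : (maximalIdeal T).FG)
    {I J : Ideal T} (N : ℕ) (hI : maximalIdeal T ^ N ≤ I) (hIJ : I ≤ J) :
    len T (T ⧸ J) ≤ len T (T ⧸ I) := by
  refine ENat.toNat_le_toNat ?_ (length_quot_ne_top hfg N I (by simpa using hI))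
  exact Module.length_le_of_surjective (Submodule.factor hIJ) (Submodule.factor_surjective hIJ)

theorem stepA_squeeze {a b : ℕ → ℕ} {δ : ℕ} {ρ : ℝ} (C : ℕ)
    (h : Tendsto (fun N : ℕ => (δ.factorial : ℝ) * (a N : ℝ) / (N : ℝ) ^ δ) atTop (𝓝 ρ))
    (h1 : ∀ N, b N ≤ a N) (h2 : ∀ N, a N ≤ b (N + C)) :
    Tendsto (fun N : ℕ => (δ.factorial : ℝ) * (b N : ℝ) / (N : ℝ) ^ δ) atTop (𝓝 ρ) := by
  have h3 : Tendsto (fun N : ℕ => (δ.factorial : ℝ) * (a N : ℝ) / ((N + C : ℕ) : ℝ) ^ δ) atTop
      (𝓝 ρ) := by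
    have h4 := h.mul ((tendsto_natCast_div_add_atTop (C : ℝ)).pow δ)
    rw [one_pow, mul_one] at h4
    refine h4.congr' ?_
    filter_upwards [eventually_gt_atTop 0] with N hN
    have : (N : ℝ) ≠ 0 := by positivity
    push_cast
    rw [div_pow]
    field_simp
  rw [← tendsto_add_atTop_iff_nat C]
  refine tendsto_of_tendsto_of_tendsto_of_le_of_le h3 ((tendsto_add_atTop_iff_nat C).2 h)
    (fun N => ?_) fun N => ?_
  · have : (a N : ℝ) ≤ b (N + C) := by exact_mod_cast h2 N
    dsimp only
    gcongr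
  · have : (b (N + C) : ℝ) ≤ a (N + C) := by exact_mod_cast h1 _
    dsimp only
    gcongr

theorem stepA_deg_le {b : ℕ → ℕ} {δ d : ℕ} {ρ c : ℝ}
    (h : Tendsto (fun N : ℕ => (δ.factorial : ℝ) * (b N : ℝ) / (N : ℝ) ^ δ) atTop (𝓝 ρ))
    (hρ : 1 ≤ ρ) (hc : ∀ᶠ N : ℕ in atTop, (b N : ℝ) ≤ c * ((N : ℝ) + 1) ^ d) : δ ≤ d := by
  by_contra hlt
  obtain ⟨e, rfl⟩ : ∃ e, δ = d + (e + 1) := ⟨δ - d - 1, by omega⟩
  have h0 : Tendsto (fun N : ℕ => ((N : ℝ))⁻¹) atTop (𝓝 0) := tendsto_inv_atTop_nhds_zero_nat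
  have h1 := ((((tendsto_const_nhds (x := (1 : ℝ))).add h0).pow d).mul (h0.pow (e + 1))).const_mul
    (((d + (e + 1)).factorial : ℝ) * c)
  rw [zero_pow (by omega), mul_zero, mul_zero] at h1
  have h2 : ρ ≤ 0 := by
    refine le_of_tendsto_of_tendsto h h1 ?_
    filter_upwards [hc, eventually_gt_atTop 0] with N hN hN0
    have : (0 : ℝ) < N := by positivity
    have e1 : ((d + (e + 1)).factorial : ℝ) * c * ((1 + (N : ℝ)⁻¹) ^ d * (N : ℝ)⁻¹ ^ (e + 1)) =
        ((d + (e + 1)).factorial : ℝ) * (c * ((N : ℝ) + 1) ^ d) / (N : ℝ) ^ (d + (e + 1)) := by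
      have e2 : 1 + (N : ℝ)⁻¹ = ((N : ℝ) + 1) / N := by field_simp
      rw [e2, pow_add (N : ℝ), div_pow, inv_pow]
      field_simp
    rw [e1]
    gcongr
  linarith

theorem stepA_dimNat_eq (T : Type*) [CommRing T] [IsLocalRing T] :
    dimNat T = (maximalIdeal T).height.toNat := by
  rw [dimNat, ← IsLocalRing.maximalIdeal_height_eq_ringKrullDim, WithBot.unbotD_coe]

theorem stepA_dimNat_le {T : Type*} [CommRing T] [IsLocalRing T] [IsNoetherianRing T] {δ : ℕ}
    (x : Fin δ → T) (hx : Ideal.span (Set.range x) ≤ maximalIdeal T) (L : ℕ)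
    (hL : maximalIdeal T ^ L ≤ Ideal.span (Set.range x)) : dimNat T ≤ δ := by
  have hmin : maximalIdeal T ∈ (Ideal.span (Set.range x)).minimalPrimes :=
    ⟨⟨inferInstance, hx⟩, fun q hq _ => by
      have := hq.1
      exact Ideal.IsPrime.le_of_pow_le (hL.trans hq.2)⟩
  have h1 := Ideal.height_le_card_of_mem_minimalPrimes_span (Set.finite_range x) hmin
  have h2 : (Set.range x).ncard ≤ δ := by
    rw [← Set.image_univ]
    simpa using Set.ncard_image_le (f := x) (s := Set.univ)
  rw [stepA_dimNat_eq]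
  exact ENat.toNat_le_of_le_natCast (h1.trans (by exact_mod_cast h2))

theorem stepA_growth (T : Type*) [CommRing T] [IsLocalRing T] [IsNoetherianRing T] :
    ∃ c : ℝ, ∀ N : ℕ, (len T (T ⧸ maximalIdeal T ^ N) : ℝ) ≤ c * ((N : ℝ) + 1) ^ dimNat T := by
  obtain ⟨s, hs, hcard⟩ := (maximalIdeal T).exists_finset_card_eq_height_of_isNoetherianRing
  have hd : dimNat T = s.card := by rw [stepA_dimNat_eq, ← hcard, ENat.toNat_natCast]
  have hfg : (maximalIdeal T).FG := IsNoetherian.noetherian _
  let y : Fin s.card → T := fun i => (s.equivFin.symm i : T)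
  have hy : Set.range y = s := by
    ext a
    constructor
    · rintro ⟨i, rfl⟩
      exact (s.equivFin.symm i).2
    · intro ha
      exact ⟨s.equivFin ⟨a, ha⟩, by simp [y]⟩
  have hrad : maximalIdeal T ≤ (Ideal.span (s : Set T)).radical := by
    rw [Ideal.radical_eq_sInf]
    exact le_sInf fun q hq => hs.2 ⟨hq.2, hq.1⟩ (le_maximalIdeal hq.2.ne_top)
  obtain ⟨L, hL⟩ := Ideal.exists_pow_le_of_le_radical_of_fg hrad hfg
  rw [← hy] at hL
  obtain ⟨c, hc⟩ := len_quot_pow_le_of_primary hfg y L hL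
  refine ⟨c, fun N => ?_⟩
  rw [hd]
  refine le_trans ?_ (hc N)
  have h1 : maximalIdeal T ^ (L * N) ≤ Ideal.span (Set.range y) ^ N := by
    rw [pow_mul]
    exact Ideal.pow_right_mono hL N
  have h2 : Ideal.span (Set.range y) ≤ maximalIdeal T := by
    rw [hy]
    exact hs.1.2
  exact_mod_cast stepA_len_mono hfg _ h1 (Ideal.pow_right_mono h2 N)

/-- Structure of a complete local algebra over an infinite coefficient field. -/
theorem IsCL.exists_normalization {K T : Type*} [Field K] [Infinite K] [CommRing T]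
    [IsLocalRing T] [Algebra K T] (h : IsCL K T) :
    ∃ ψ : PS K (dimNat T) →ₐ[K] T, ψ.toRingHom.Finite ∧ Function.Injective ψ ∧
      (∀ i, ψ (MvPowerSeries.X i) ∈ maximalIdeal T) ∧
      (∃ C : ℕ, ∀ t, maximalIdeal T ^ (t + C) ≤ (varIdeal K (dimNat T) ^ t).map ψ) ∧
      (letI := ψ.toRingHom.toAlgebra
       1 ≤ Module.finrank (PS K (dimNat T)) T ∧
        Tendsto (hsSeq T) atTop (𝓝 (Module.finrank (PS K (dimNat T)) T : ℝ))) := by
  have hN := h.isNoetherianRing
  have : Infinite (ResidueField T) :=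
    Infinite.of_injective _ ((residue T).comp (algebraMap K T)).injective
  obtain ⟨r, Y, hY⟩ := Submodule.fg_iff_exists_fin_generating_family.1 h.fg
  obtain ⟨δ, ε, x, x', -, hx, ⟨C, hC⟩, hind⟩ :=
    exists_reduction T T (RingHom.id T) Function.surjective_id Y hY
  replace hC : ∀ t, maximalIdeal T ^ (t + C) ≤ Ideal.span (Set.range x) ^ t := hC
  have hxm : Ideal.span (Set.range x) ≤ maximalIdeal T :=
    (Ideal.span_mono Set.subset_union_left).trans (hx.trans hY).le
  have hxm' : ∀ i, x i ∈ maximalIdeal T := fun i => hxm (Ideal.subset_span ⟨i, rfl⟩)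
  obtain ⟨ψ, hψ, hfin, -, hinj⟩ := h.exists_psMap x hxm'
  replace hfin := hfin ⟨1 + C, by simpa using hC 1⟩
  replace hinj := hinj hind
  have hmap : ∀ t, (varIdeal K δ ^ t).map ψ = Ideal.span (Set.range x) ^ t := by
    intro t
    rw [Ideal.map_pow, varIdeal, Ideal.map_span, ← Set.range_comp]
    congr 3
    exact funext hψ
  have key : letI := ψ.toRingHom.toAlgebra
      1 ≤ Module.finrank (PS K δ) T ∧
        Tendsto (fun N : ℕ => (δ.factorial : ℝ) * (len T (T ⧸ maximalIdeal T ^ N) : ℝ) /
          (N : ℝ) ^ δ) atTop (𝓝 (Module.finrank (PS K δ) T : ℝ)) := by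
    let := ψ.toRingHom.toAlgebra
    have : IsScalarTower K (PS K δ) T :=
      IsScalarTower.of_algebraMap_eq fun a => (ψ.commutes a).symm
    have : Module.Finite (PS K δ) T := hfin
    constructor
    · have hli : LinearIndependent (PS K δ) fun _ : Unit => (1 : T) := by
        rw [Fintype.linearIndependent_iff]
        intro g hg i
        apply hinj
        rw [map_zero]
        have h3 : algebraMap (PS K δ) T (g ()) = 0 := by simpa [Algebra.smul_def] using hg
        exact h3
      simpa using hli.fintype_card_le_finrank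
    · have h1 := tendsto_finrank_quot_pow (K := K) (d := δ) T
      have h2 : ∀ N : ℕ, Module.finrank K (T ⧸ varIdeal K δ ^ N • (⊤ : Submodule (PS K δ) T)) =
          len T (T ⧸ Ideal.span (Set.range x) ^ N) := by
        intro N
        rw [Ideal.smul_top_eq_map, ← hmap, ← (finrank_eq_len K T _ h.res).1]
        rfl
      simp only [h2] at h1
      refine stepA_squeeze C h1 (fun N => ?_) fun N => ?_
      · exact stepA_len_mono h.fg (N + C) (hC N) (Ideal.pow_right_mono hxm N)
      · exact stepA_len_mono h.fg (N + C) le_rfl (hC N)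
  have hδ : δ = dimNat T := by
    apply le_antisymm
    · obtain ⟨c, hc⟩ := stepA_growth T
      refine stepA_deg_le key.2 ?_ (Eventually.of_forall hc)
      exact_mod_cast key.1
    · exact stepA_dimNat_le x hxm (1 + C) (by simpa using hC 1)
  subst hδ
  exact ⟨ψ, hfin, hinj, fun i => by rw [hψ]; exact hxm' i, ⟨C, fun t => by rw [hmap]; exact hC t⟩,
    key⟩

theorem tendsto_hsSeq (T : Type u) [CommRing T] [IsLocalRing T] [IsNoetherianRing T]
    (k : Type*) [Field k] [PerfectField k] (ι : k →+* T) :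
    Tendsto (hsSeq T) atTop (𝓝 (mult T)) ∧ 1 ≤ mult T := by
  obtain ⟨T', _, _, _, K, _, _, _, hCL, _, _, hm⟩ := exists_stepA T k ι
  have := hCL.isNoetherianRing
  obtain ⟨ψ, -, -, -, -, h1, h2⟩ := hCL.exists_normalization
  rw [(hsSeq_eq_of_flat hm).2] at h2
  rw [mult, h2.limUnder_eq]
  exact ⟨h2, by exact_mod_cast h1⟩

end Vale.Agent.P202
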