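import Vale.Agent.P202.MxTheta
import Vale.Agent.P202.MxPRing
import Vale.Agent.P202.StepA
import Vale.Agent.P202.LocalW

/-! Completions and flat extensions with algebraically closed residue field. -/

namespace Vale.Agent.P202

open IsLocalRing

universe u

theorem mxg_charP (p : ℕ) [Fact p.Prime] (T : Type*) [CommRing T] [IsLocalRing T]
    (hp : (p : T) ∈ maximalIdeal T) : CharP (ResidueField T) p := by
  refine (CharP.charP_iff_prime_eq_zero Fact.out).mpr ?_
  rw [← map_natCast (residue T)]
  exact (residue_eq_zero_iff _).mpr hp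

/-- a complete local ring of residue characteristic `p` has a coefficient ring. -/
theorem exists_coeffRing (p : ℕ) [Fact p.Prime] (T : Type u) [CommRing T] [IsLocalRing T]
    [IsAdicComplete (maximalIdeal T) T] (hp : (p : T) ∈ maximalIdeal T) :
    ∃ (V : Type u) (_ : CommRing V) (_ : IsLocalRing V) (c : V →+* T), IsPRing p V ∧
      ∀ t : T, ∃ v, t - c v ∈ maximalIdeal T := by
  have := mxg_charP p T hp
  obtain ⟨V, _, _, π, hV, hπ⟩ := exists_pRing p (ResidueField T)
  obtain ⟨j, hj⟩ := hV.exists_lift (residue T) residue_surjective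
    (fun b hb => by simpa [ker_residue] using hb 1) hp π
  refine ⟨V, inferInstance, inferInstance, j, hV, fun t => ?_⟩
  obtain ⟨v, hv⟩ := hπ (residue T t)
  refine ⟨v, (residue_eq_zero_iff _).mp ?_⟩
  rw [map_sub, ← hv, ← hj, RingHom.comp_apply, sub_self]

theorem mxg_exists_surj (p : ℕ) [Fact p.Prime] (T : Type u) [CommRing T]
    [IsLocalRing T] [IsAdicComplete (maximalIdeal T) T] (hp : (p : T) ∈ maximalIdeal T)
    (hfg : (maximalIdeal T).FG) : ∃ (V : Type u) (_ : CommRing V) (_ : IsLocalRing V) (δ : ℕ)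
      (ψ : PS V δ →+* T), IsPRing p V ∧ Function.Surjective ψ := by
  obtain ⟨V, _, _, c, hV, hc⟩ := exists_coeffRing p T hp
  obtain ⟨δ, x, hx⟩ := Submodule.fg_iff_exists_fin_generating_family.mp hfg
  replace hx : Ideal.span (Set.range x) = maximalIdeal T := hx
  obtain ⟨ψ, -, -, -, h⟩ := hV.exists_psMap hfg c hc hp x
    fun i => hx ▸ Ideal.subset_span ⟨i, rfl⟩
  refine ⟨V, inferInstance, inferInstance, δ, ψ, hV, h ?_⟩
  rw [hx, sup_eq_right, Ideal.span_singleton_le_iff_mem]
  exact hp

theorem isNoetherianRing_of_complete (p : ℕ) [Fact p.Prime] (T : Type u) [CommRing T]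
    [IsLocalRing T] [IsAdicComplete (maximalIdeal T) T] (hp : (p : T) ∈ maximalIdeal T)
    (hfg : (maximalIdeal T).FG) : IsNoetherianRing T := by
  obtain ⟨V, _, _, δ, ψ, hV, hψ⟩ := mxg_exists_surj p T hp hfg
  have := hV.isNoetherianRing
  exact isNoetherianRing_of_surjective _ _ ψ hψ

theorem mxg_isAlgClosed {A K L : Type*} [CommRing A] [Field K] [IsAlgClosed K] [Field L]
    (f : A →+* K) (hf : Function.Surjective f) (g : A →+* L) (hg : Function.Surjective g)
    (h : RingHom.ker f ≤ RingHom.ker g) : IsAlgClosed L := by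
  let φ : K →+* L := f.liftOfSurjective hf ⟨g, h⟩
  have hφ : ∀ a, φ (f a) = g a := fun a => RingHom.liftOfSurjective_comp_apply f hf ⟨g, h⟩ a
  have h1 : Function.Bijective φ := ⟨φ.injective, fun y => by
    obtain ⟨a, rfl⟩ := hg y
    exact ⟨f a, hφ a⟩⟩
  let _ := φ.toAlgebra
  refine IsAlgClosed.of_exists_root L fun q hq hi => ?_
  obtain ⟨r, rfl⟩ := Polynomial.map_surjective φ h1.2 q
  obtain ⟨x, hx⟩ := IsAlgClosed.exists_root r (by
    rw [← Polynomial.degree_map r φ]
    exact (Polynomial.degree_pos_of_irreducible hi).ne')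
  exact ⟨φ x, by rw [Polynomial.eval_map, Polynomial.eval₂_hom, hx.eq_zero, map_zero]⟩

theorem mxg_ps_ext (p : ℕ) [Fact p.Prime] {V : Type u} [CommRing V] [IsLocalRing V]
    (hV : IsPRing p V) (δ : ℕ) :
    ∃ (B : Type u) (_ : CommRing B) (_ : IsLocalRing B) (_ : IsNoetherianRing B)
      (_ : Algebra (PS V δ) B), IsAdicComplete (maximalIdeal B) B ∧
      IsAlgClosed (ResidueField B) ∧ Module.Flat (PS V δ) B ∧
      (maximalIdeal (PS V δ)).map (algebraMap (PS V δ) B) = maximalIdeal B := by
  have := mxg_charP p V (hV.max ▸ Ideal.mem_span_singleton_self _)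
  let K := AlgebraicClosure (ResidueField V)
  let W := WittVector p K
  have hW : IsPRing p W := isPRing_witt p K
  have hker : RingHom.ker (WittVector.constantCoeff : W →+* K) = maximalIdeal W := by
    ext v
    rw [RingHom.mem_ker, witt_constantCoeff_eq_zero_iff, hW.max, Ideal.mem_span_singleton]
  have := hW.complete
  have := hW.isNoetherianRing
  obtain ⟨j, -⟩ := hV.exists_lift (WittVector.constantCoeff : W →+* K)
    (witt_constantCoeff_surjective p K) (fun b hb => by
      have h1 := hb 1
      rwa [pow_one, ← hker, sup_idem] at h1)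
    (hW.max ▸ Ideal.mem_span_singleton_self _)
    ((algebraMap (ResidueField V) K).comp (residue V))
  obtain ⟨θ, -, hθ, hX, -⟩ := exists_theta_mixed p hV hW δ 0 (MvPowerSeries.C.comp j)
  let alg : Algebra (PS V δ) (PS W (δ + 0)) := θ.toAlgebra
  refine ⟨PS W (δ + 0), inferInstance, inferInstance, inferInstance, alg, hW.ps_complete _, ?_,
    hθ, ?_⟩
  · refine mxg_isAlgClosed (WittVector.constantCoeff : W →+* K)
      (witt_constantCoeff_surjective p K) ((residue _).comp (algebraMap W (PS W (δ + 0))))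
      (fun y => ?_) fun w hw => ?_
    · obtain ⟨f, rfl⟩ := residue_surjective y
      obtain ⟨w, hw⟩ := ps_residue _ f
      refine ⟨w, Eq.symm ?_⟩
      rw [← sub_eq_zero, RingHom.comp_apply, ← map_sub]
      exact (residue_eq_zero_iff _).mpr hw
    · obtain ⟨w', rfl⟩ := (witt_constantCoeff_eq_zero_iff p K w).mp hw
      refine (residue_eq_zero_iff _).mpr ?_
      rw [map_mul, map_natCast, ← hW.span_pX]
      exact Ideal.mul_mem_right _ _ (Ideal.subset_span ⟨0, rfl⟩)
  · rw [← hV.span_pX, ← hW.span_pX, Ideal.map_span, ← Set.range_comp]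
    congr 2
    funext i
    refine Fin.cases ?_ (fun i => hX i) i
    exact map_natCast θ p

theorem exists_algClosed_ext (p : ℕ) [Fact p.Prime] (S : Type u) [CommRing S] [IsLocalRing S]
    [IsNoetherianRing S] (hp : (p : S) ∈ maximalIdeal S) :
    ∃ (S' : Type u) (_ : CommRing S') (_ : IsLocalRing S') (_ : IsNoetherianRing S')
      (_ : Algebra S S'), IsAdicComplete (maximalIdeal S') S' ∧ IsAlgClosed (ResidueField S') ∧
      Module.Flat S S' ∧ IsLocalHom (algebraMap S S') ∧
      (maximalIdeal S).map (algebraMap S S') = maximalIdeal S' := by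
  obtain ⟨T, _, _, _, hc, hfl, hloc, hm, -, -⟩ := exists_completion S
  have hp' : (p : T) ∈ maximalIdeal T := by
    rw [← map_natCast (algebraMap S T)]
    exact map_nonunit _ _ hp
  obtain ⟨V, _, _, δ, ψ, hV, hψ⟩ := mxg_exists_surj p T hp'
    (hm ▸ (maximalIdeal S).fg_of_isNoetherianRing.map _)
  obtain ⟨B, _, _, _, _, hBc, hBa, hBf, hBm⟩ := mxg_ps_ext p hV δ
  let I := RingHom.ker ψ
  have hI : I ≠ ⊤ := RingHom.ker_ne_top ψ
  have h1 : I.map (algebraMap (PS V δ) B) ≤ maximalIdeal B :=
    hBm ▸ Ideal.map_mono (le_maximalIdeal hI)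
  let S' := B ⧸ I.map (algebraMap (PS V δ) B)
  have : Nontrivial S' := Ideal.Quotient.nontrivial_iff.mpr
    fun h2 => (maximalIdeal.isMaximal B).ne_top (top_le_iff.mp (h2 ▸ h1))
  have : IsLocalRing S' := .of_surjective' (Ideal.Quotient.mk _) Ideal.Quotient.mk_surjective
  have h2 : Module.Flat (PS V δ ⧸ I) S' :=
    .of_linearEquiv (Algebra.TensorProduct.quotIdealMapEquivQuotTensor B I).toLinearEquiv
  let e : (PS V δ ⧸ I) ≃+* T := RingHom.quotientKerEquivOfSurjective hψ
  let g : T →+* S' := (algebraMap (PS V δ ⧸ I) S').comp e.symm.toRingHom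
  have hg : g.Flat := RingHom.Flat.comp (RingHom.Flat.of_bijective e.symm.bijective)
    (RingHom.flat_algebraMap_iff.mpr h2)
  have h3 : g.comp ψ = (Ideal.Quotient.mk _).comp (algebraMap (PS V δ) B) := by
    refine RingHom.ext fun a => ?_
    have h4 : e.symm (ψ a) = Ideal.Quotient.mk I a := e.symm_apply_eq.mpr rfl
    change algebraMap (PS V δ ⧸ I) S' (e.symm (ψ a)) = _
    rw [h4]
    rfl
  have h4 := map_maximalIdeal_of_surjective
    (Ideal.Quotient.mk (I.map (algebraMap (PS V δ) B))) Ideal.Quotient.mk_surjective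
  have h5 : (maximalIdeal S).map (g.comp (algebraMap S T)) = maximalIdeal S' := by
    rw [← Ideal.map_map, hm, ← map_maximalIdeal_of_surjective ψ hψ, Ideal.map_map, h3,
      ← Ideal.map_map, hBm, h4]
  have h6 : (g.comp (algebraMap S T)).Flat :=
    RingHom.Flat.comp (RingHom.flat_algebraMap_iff.mpr hfl) hg
  let alg : Algebra S S' := (g.comp (algebraMap S T)).toAlgebra
  refine ⟨S', inferInstance, inferInstance, inferInstance, alg,
    isAdicComplete_of_finite_local (A := B), ?_, h6,
    ((IsLocalRing.local_hom_TFAE (g.comp (algebraMap S T))).out 0 2).mpr h5.le, h5⟩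
  refine mxg_isAlgClosed (residue B) residue_surjective
    ((residue S').comp (Ideal.Quotient.mk _))
    (residue_surjective.comp Ideal.Quotient.mk_surjective) fun b hb => ?_
  rw [ker_residue] at hb
  exact (residue_eq_zero_iff _).mpr (h4 ▸ Ideal.mem_map_of_mem _ hb)

theorem mxg_approx {R R' : Type*} [CommRing R] [IsLocalRing R] [CommRing R'] [IsLocalRing R']
    [Algebra R R'] (hm : (maximalIdeal R).map (algebraMap R R') = maximalIdeal R')
    (hres : ∀ y : R', ∃ x : R, y - algebraMap R R' x ∈ maximalIdeal R') (N : ℕ) (y : R') :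
    ∃ x : R, y - algebraMap R R' x ∈ maximalIdeal R' ^ N := by
  induction N with
  | zero => exact ⟨0, by simp⟩
  | succ N ih =>
    obtain ⟨x, hx⟩ := ih
    have h1 : (maximalIdeal R ^ N).map (algebraMap R R') = maximalIdeal R' ^ N := by
      rw [Ideal.map_pow, hm]
    obtain ⟨n, c, z, hc, e⟩ := mxf_mem_map (h1 ▸ hx)
    choose w hw using fun k => hres (z k)
    refine ⟨x + ∑ k, c k * w k, ?_⟩
    rw [map_add, ← sub_sub, e, map_sum, ← Finset.sum_sub_distrib, pow_succ]
    refine sum_mem fun k _ => ?_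
    rw [map_mul, ← mul_sub]
    exact Ideal.mul_mem_mul (h1 ▸ Ideal.mem_map_of_mem _ (hc k)) (hw k)

/-- completing the source of a flat local map to a complete ring. -/
theorem exists_complete_source (p : ℕ) [Fact p.Prime] (R S : Type u) [CommRing R] [IsLocalRing R]
    [IsNoetherianRing R] [CommRing S] [IsLocalRing S] [IsNoetherianRing S] [Algebra R S]
    [IsLocalHom (algebraMap R S)] [Module.Flat R S] [IsAdicComplete (maximalIdeal S) S]
    (hp : (p : R) ∈ maximalIdeal R) :
    ∃ (R' : Type u) (_ : CommRing R') (_ : IsLocalRing R') (_ : IsNoetherianRing R')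
      (_ : Algebra R R') (_ : Algebra R' S), IsScalarTower R R' S ∧
      IsAdicComplete (maximalIdeal R') R' ∧ Module.Flat R R' ∧ IsLocalHom (algebraMap R R') ∧
      (maximalIdeal R).map (algebraMap R R') = maximalIdeal R' ∧
      IsLocalHom (algebraMap R' S) ∧ Module.Flat R' S := by
  obtain ⟨R', _, _, _, hc, hfl, hloc, hm, hres, hlift⟩ := exists_completion R
  obtain ⟨H, hH⟩ := hlift S (algebraMap R S) fun x hx => map_nonunit _ x hx
  have hp' : (p : R') ∈ maximalIdeal R' := by
    rw [← map_natCast (algebraMap R R')]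
    exact map_nonunit _ _ hp
  have hN : IsNoetherianRing R' := isNoetherianRing_of_complete p R' hp'
    (hm ▸ (maximalIdeal R).fg_of_isNoetherianRing.map _)
  have h1 : (maximalIdeal R').map H ≤ maximalIdeal S := by
    rw [← hm, Ideal.map_map, hH]
    exact map_maximalIdeal_le _
  have h2 : H.Flat := by
    refine flat_of_qflat_pow H (maximalIdeal R') h1 fun N => ?_
    have h3 : QFlat (algebraMap R S) (maximalIdeal R ^ N) := QFlat.of_faithfullyFlat
      (RingHom.faithfullyFlat_algebraMap_iff.mpr Module.FaithfullyFlat.of_flat_of_isLocalHom) _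
    have h4 : (maximalIdeal R ^ N).map (algebraMap R R') = maximalIdeal R' ^ N := by
      rw [Ideal.map_pow, hm]
    have h5 : (maximalIdeal R' ^ N).map H = (maximalIdeal R ^ N).map (algebraMap R S) := by
      rw [← h4, Ideal.map_map, hH]
    have h6 : ∀ r, H (algebraMap R R' r) = algebraMap R S r := fun r => RingHom.congr_fun hH r
    refine QFlat.of_rel (fun n a x hx => ?_) fun m hm' _ => ?_
    · choose a' ha' using fun i => mxg_approx hm hres N (a i)
      obtain ⟨k, b, y, h7, h8⟩ := h3.rel a' x (by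
        have h9 : ∑ i, H (a i - algebraMap R R' (a' i)) * x i ∈ (maximalIdeal R' ^ N).map H :=
          sum_mem fun i _ => Ideal.mul_mem_right _ _ (Ideal.mem_map_of_mem _ (ha' i))
        have h10 := sub_mem hx h9
        rw [← Finset.sum_sub_distrib, h5] at h10
        simpa [h6, sub_mul] using h10)
      refine ⟨Fin k, inferInstance, fun i j => algebraMap R R' (b i j), y, fun i => ?_, fun j => ?_⟩
      · simpa only [h5, h6] using h7 i
      · have h9 : ∑ i, (a i - algebraMap R R' (a' i)) * algebraMap R R' (b i j) ∈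
            maximalIdeal R' ^ N := sum_mem fun i _ => Ideal.mul_mem_right _ _ (ha' i)
        have h10 := add_mem h9 (h4 ▸ Ideal.mem_map_of_mem (algebraMap R R') (h8 j))
        rw [map_sum, ← Finset.sum_add_distrib] at h10
        simpa [sub_mul] using h10
    · rw [eq_maximalIdeal hm']
      exact fun ht => (maximalIdeal.isMaximal S).ne_top (top_le_iff.mp (ht ▸ h1))
  let alg : Algebra R' S := H.toAlgebra
  exact ⟨R', inferInstance, inferInstance, hN, inferInstance, alg,
    IsScalarTower.of_algebraMap_eq' hH.symm, hc, hfl, hloc, hm,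
    ((IsLocalRing.local_hom_TFAE H).out 0 2).mpr h1, h2⟩

end Vale.Agent.P202
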