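import Vale.Agent.P202.MxMult
import Vale.Agent.P202.Localize

/-! Localisation at a prime with a regular one-dimensional quotient; choice of the prime. -/

namespace Vale.Agent.P202

open IsLocalRing Filter Topology

universe u

theorem lb_sat_pow {S : Type*} [CommRing S] {A : Ideal S} {t : S} (hA : ∀ x, t * x ∈ A → x ∈ A)
    (j : ℕ) (x : S) (h : t ^ j * x ∈ A) : x ∈ A := by
  induction j with
  | zero => simpa using h
  | succ j ih =>
    apply ih
    apply hA
    rwa [← mul_assoc, ← pow_succ']

/-- one step of a chain of `t`-saturated ideals contributes `n` to the colength modulo `t ^ n`. -/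
theorem lb_step {S : Type*} [CommRing S] [IsLocalRing S] [IsNoetherianRing S] {A B : Ideal S}
    {t : S} (ht : t ∈ maximalIdeal S) (hA : ∀ x, t * x ∈ A → x ∈ A) (hB : ∀ x, t * x ∈ B → x ∈ B)
    (hAB : A < B) (n : ℕ) :
    Order.coheight (B ⊔ Ideal.span {t ^ n}) + n ≤ Order.coheight (A ⊔ Ideal.span {t ^ n}) := by
  have key : ∀ j ≤ n, Order.coheight (B ⊔ Ideal.span {t ^ n}) + j ≤
      Order.coheight (A ⊔ Ideal.span {t ^ n} ⊔ Ideal.span {t ^ j} * B) := by
    intro j
    induction j with
    | zero =>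
      intro _
      rw [pow_zero, Ideal.span_singleton_one, Ideal.top_mul, Nat.cast_zero, add_zero]
      exact Order.coheight_anti (sup_le (sup_le_sup_right hAB.le _) le_sup_left)
    | succ j ih =>
      intro hj
      have hlt : A ⊔ Ideal.span {t ^ n} ⊔ Ideal.span {t ^ (j + 1)} * B <
          A ⊔ Ideal.span {t ^ n} ⊔ Ideal.span {t ^ j} * B := by
        refine lt_of_le_of_ne (sup_le_sup_left (Ideal.mul_mono_left
          (Ideal.span_singleton_le_span_singleton.2 (pow_dvd_pow t (Nat.le_succ j)))) _) fun e => ?_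
        refine hAB.not_ge (Submodule.le_of_le_smul_of_le_jacobson_bot (I := maximalIdeal S)
          (IsNoetherian.noetherian B) (by rw [jacobson_eq_maximalIdeal ⊥ bot_ne_top]) fun x hx => ?_)
        have h1 : t ^ j * x ∈ A ⊔ Ideal.span {t ^ n} ⊔ Ideal.span {t ^ (j + 1)} * B := by
          rw [e]
          exact Ideal.mem_sup_right (Ideal.mul_mem_mul (Ideal.mem_span_singleton_self _) hx)
        obtain ⟨u, hu, v, hv, h2⟩ := Submodule.mem_sup.1 h1
        obtain ⟨a, ha, w, hw, rfl⟩ := Submodule.mem_sup.1 hu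
        obtain ⟨s, rfl⟩ := Ideal.mem_span_singleton'.1 hw
        obtain ⟨y, hy, rfl⟩ := Ideal.mem_span_singleton_mul.1 hv
        obtain ⟨k, rfl⟩ : ∃ k, n = j + 1 + k := ⟨n - (j + 1), by omega⟩
        have hs : s ∈ B := by
          refine lb_sat_pow hB (j + 1 + k) s ?_
          have e1 : t ^ (j + 1 + k) * s = t ^ j * x - a - t ^ (j + 1) * y := by
            rw [← h2]; ring
          rw [e1]
          exact B.sub_mem (B.sub_mem (B.mul_mem_left _ hx) (hAB.le ha)) (B.mul_mem_left _ hy)
        have h3 : x - t * (t ^ k * s + y) ∈ A := by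
          refine lb_sat_pow hA j _ ?_
          have e1 : t ^ j * (x - t * (t ^ k * s + y)) = a := by
            rw [mul_sub, ← h2]; ring
          rwa [e1]
        have e2 : x = (x - t * (t ^ k * s + y)) + t * (t ^ k * s + y) := by ring
        rw [e2]
        exact Submodule.add_mem_sup h3
          (Submodule.smul_mem_smul ht (B.add_mem (B.mul_mem_left _ hs) hy))
      have h1 := Order.coheight_add_one_le hlt
      rw [Nat.cast_succ, ← add_assoc]
      exact (add_le_add_left (ih (by omega)) 1).trans h1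
  have := key n le_rfl
  rwa [sup_of_le_left (le_sup_of_le_right Ideal.mul_le_left)] at this

theorem mul_length_localization_le {S : Type u} [CommRing S] [IsLocalRing S] [IsNoetherianRing S]
    (Q : Ideal S) [Q.IsPrime] (t : S) (ht : t ∈ maximalIdeal S) (htQ : t ∉ Q) (I : Ideal S)
    (hI : Module.length (Localization.AtPrime Q)
      (Localization.AtPrime Q ⧸ I.map (algebraMap S (Localization.AtPrime Q))) ≠ ⊤) (n : ℕ) :
    n * Module.length (Localization.AtPrime Q)
      (Localization.AtPrime Q ⧸ I.map (algebraMap S (Localization.AtPrime Q))) ≤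
      Module.length S (S ⧸ (I ⊔ Ideal.span {t ^ n})) := by
  have hu : IsUnit (algebraMap S (Localization.AtPrime Q) t) :=
    (IsLocalization.AtPrime.isUnit_to_map_iff (Localization.AtPrime Q) Q t).2 htQ
  have sat : ∀ (J : Ideal (Localization.AtPrime Q)) (x : S),
      t * x ∈ J.comap (algebraMap S (Localization.AtPrime Q)) →
      x ∈ J.comap (algebraMap S (Localization.AtPrime Q)) := fun J x hx => by
    rw [Ideal.mem_comap, map_mul] at hx
    exact (Ideal.unit_mul_mem_iff_mem J hu).1 hx
  have key : ∀ (k : ℕ) (J : Ideal (Localization.AtPrime Q)), Order.coheight J = k →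
      (n : ℕ∞) * k ≤ Order.coheight
        (J.comap (algebraMap S (Localization.AtPrime Q)) ⊔ Ideal.span {t ^ n}) := by
    intro k
    induction k with
    | zero => intro J _; simp
    | succ k ih =>
      intro J hJ
      obtain ⟨-, ⟨J', h1, h2⟩, -⟩ := Order.coheight_eq_coe_add_one_iff.1 hJ
      have h3 : J.comap (algebraMap S (Localization.AtPrime Q)) <
          J'.comap (algebraMap S (Localization.AtPrime Q)) :=
        (IsLocalization.orderEmbedding Q.primeCompl (Localization.AtPrime Q)).strictMono h1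
      refine le_trans ?_ (lb_step ht (sat J) (sat J') h3 n)
      rw [Nat.cast_succ, mul_add, mul_one]
      exact add_le_add_left (ih J' h2) _
  rw [Module.length_quotient] at hI ⊢
  rw [Module.length_quotient]
  obtain ⟨k, hk⟩ := ENat.ne_top_iff_exists.1 hI
  rw [← hk]
  exact (key k _ hk.symm).trans (Order.coheight_anti (sup_le_sup_right Ideal.le_comap_map _))

theorem exists_isRed_of_sup {S : Type u} [CommRing S] [IsLocalRing S] [IsNoetherianRing S]
    [Infinite (ResidueField S)] (Q : Ideal S) (t : S)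
    (hm : maximalIdeal S = Q ⊔ Ideal.span {t}) (d : ℕ) (hd : dimNat S = d + 1) :
    ∃ (w : Fin d → S) (t' : S), (∀ i, w i ∈ Q) ∧ t' - t ∈ Q ∧
      IsRed (Fin.snoc (α := fun _ => S) w t') := by
  have hQ : Q ≤ maximalIdeal S := hm ▸ le_sup_left
  have ht : t ∈ maximalIdeal S := hm ▸ Ideal.mem_sup_right (Ideal.mem_span_singleton_self t)
  let P : ℕ → Prop := fun s => ∃ x : Fin (s + 1) → S, (∀ i : Fin s, x i.castSucc ∈ Q) ∧
    x (Fin.last s) - t ∈ Q ∧
    ∃ C : ℕ, maximalIdeal S ^ (C + 1) ≤ Ideal.span (Set.range x) * maximalIdeal S ^ C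
  have mem : ∀ {s : ℕ} (x : Fin (s + 1) → S), (∀ i : Fin s, x i.castSucc ∈ Q) →
      x (Fin.last s) - t ∈ Q → ∀ i, x i ∈ maximalIdeal S := by
    intro s x h1 h2 i
    refine Fin.lastCases ?_ (fun j => hQ (h1 j)) i
    simpa using (maximalIdeal S).add_mem (hQ h2) ht
  have step : ∀ e, P (d + e) → P d := by
    intro e
    induction e with
    | zero => exact id
    | succ e ih =>
      rintro ⟨x, h1, h2, C, hC⟩
      have hx := mem x h1 h2
      have hdep : ¬AnIndep (RingHom.id S ∘ x) := fun h => by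
        have := AnIndep.le_dimNat (x := x) hx h
        omega
      obtain ⟨l, C', hC'⟩ := reduction_step (RingHom.id S) Function.surjective_id
        (IsNoetherian.noetherian _) x hx C hC hdep
      have h0 : x 0 ∈ Q := h1 0
      refine ih ⟨fun i => x i.succ - l i * x 0, fun i => ?_, ?_, C', hC'⟩
      · exact Q.sub_mem (h1 i.succ) (Q.mul_mem_left _ h0)
      · have e1 : x (Fin.last (d + e)).succ - l (Fin.last (d + e)) * x 0 - t =
            (x (Fin.last (d + (e + 1))) - t) - l (Fin.last (d + e)) * x 0 := by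
          rw [sub_right_comm]; rfl
        rw [e1]
        exact Q.sub_mem h2 (Q.mul_mem_left _ h0)
  obtain ⟨s, hs⟩ : Q.FG := IsNoetherian.noetherian Q
  obtain ⟨q, hq⟩ := exists_fin_family s (d := d + s.card) (by omega)
  rw [hs] at hq
  have init : P (d + s.card) := by
    refine ⟨Fin.snoc (α := fun _ => S) q t, fun i => ?_, by simp, 0, ?_⟩
    · rw [Fin.snoc_castSucc, ← hq]
      exact Ideal.subset_span ⟨i, rfl⟩
    · rw [zero_add, pow_one, pow_zero, mul_one, hm, ← hq]
      refine sup_le (Ideal.span_mono ?_) (Ideal.span_mono ?_)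
      · rintro _ ⟨i, rfl⟩
        exact ⟨i.castSucc, by simp⟩
      · rintro _ rfl
        exact ⟨Fin.last _, by simp⟩
  obtain ⟨x, h1, h2, C, hC⟩ := step _ init
  refine ⟨Fin.init x, x (Fin.last d), h1, h2, ?_⟩
  rw [Fin.snoc_init_self]
  exact ⟨mem x h1 h2, C, fun t => (pow_add_le_of_succ_le hC t).trans Ideal.mul_le_left⟩

theorem lb_dimNat_localization {S : Type*} [CommRing S] [IsNoetherianRing S] (Q : Ideal S)
    [Q.IsPrime] : (dimNat (Localization.AtPrime Q) : ℕ∞) = Q.height := by
  rw [dimNat_eq_height]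
  have h := IsLocalization.AtPrime.ringKrullDim_eq_height Q (Localization.AtPrime Q)
  rw [← IsLocalRing.maximalIdeal_height_eq_ringKrullDim] at h
  exact WithBot.coe_eq_coe.1 h

theorem lb_map_lt {S : Type*} [CommRing S] {P A B : Ideal S} (hA : P ≤ A) (h : A < B) :
    A.map (Ideal.Quotient.mk P) < B.map (Ideal.Quotient.mk P) := by
  refine lt_of_le_of_ne (Ideal.map_mono h.le) fun e => h.ne ?_
  have := congrArg (Ideal.comap (Ideal.Quotient.mk P)) e
  rwa [Ideal.comap_map_of_surjective' _ Ideal.Quotient.mk_surjective,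
    Ideal.comap_map_of_surjective' _ Ideal.Quotient.mk_surjective, Ideal.mk_ker,
    sup_of_le_left hA, sup_of_le_left (hA.trans h.le)] at this

theorem lb_powIdeal_snoc {S : Type*} [CommRing S] {d : ℕ} (w : Fin d → S) (t : S) (n : ℕ) :
    powIdeal (Fin.snoc (α := fun _ => S) w t) n = powIdeal w n ⊔ Ideal.span {t ^ n} := by
  unfold powIdeal
  rw [← Ideal.span_union]
  congr 1
  ext y
  constructor
  · rintro ⟨i, rfl⟩
    refine Fin.lastCases (Or.inr ?_) (fun j => Or.inl ⟨j, ?_⟩) i <;> simp
  · rintro (⟨i, rfl⟩ | rfl)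
    · exact ⟨i.castSucc, by simp⟩
    · exact ⟨Fin.last _, by simp⟩

theorem mult_localization_le_of_sup {S : Type u} [CommRing S] [IsLocalRing S]
    [IsNoetherianRing S] [Infinite (ResidueField S)] (Q : Ideal S) [Q.IsPrime] (t : S)
    (hm : maximalIdeal S = Q ⊔ Ideal.span {t}) (htQ : t ∉ Q)
    (hd : dimNat (Localization.AtPrime Q) + 1 = dimNat S) :
    mult (Localization.AtPrime Q) ≤ mult S := by
  obtain ⟨w, t', hw, ht', hred⟩ := exists_isRed_of_sup Q t hm _ hd.symm
  have hQ : Q ≤ maximalIdeal S := hm ▸ le_sup_left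
  have ht : t ∈ maximalIdeal S := hm ▸ Ideal.mem_sup_right (Ideal.mem_span_singleton_self t)
  have ht1 : t' ∈ maximalIdeal S := by simpa using (maximalIdeal S).add_mem (hQ ht') ht
  have ht2 : t' ∉ Q := fun h => htQ (by simpa using Q.sub_mem h ht')
  have hlt : Q < maximalIdeal S := lt_of_le_of_ne hQ fun e => htQ (e ▸ ht)
  obtain ⟨C, hC⟩ := hred.2
  have hC1 : maximalIdeal S ^ (1 + C) ≤ Ideal.span (Set.range w) ⊔ Ideal.span {t'} := by
    have := hC 1
    have e := lb_powIdeal_snoc w t' 1
    simp only [powIdeal, pow_one] at e this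
    rwa [← e]
  have hmin : Q ∈ (Ideal.span (Set.range w)).minimalPrimes := by
    refine ⟨⟨inferInstance, Ideal.span_le.2 (Set.range_subset_iff.2 hw)⟩, ?_⟩
    rintro P ⟨hP, hwP⟩ hPQ
    by_contra hne
    have hPQ' : P < Q := lt_of_le_of_ne hPQ fun e => hne e.ge
    have h1 : maximalIdeal S ∈ (P ⊔ Ideal.span {t'}).minimalPrimes := by
      refine ⟨⟨inferInstance, sup_le (hPQ.trans hQ)
        ((Ideal.span_singleton_le_iff_mem _).2 ht1)⟩, ?_⟩
      rintro J ⟨hJ, hJ'⟩ -
      exact Ideal.IsPrime.le_of_pow_le (hC1.trans ((sup_le_sup_right hwP _).trans hJ'))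
    have h2 := Ideal.map_height_le_one_of_mem_minimalPrimes h1
    have p1 : (P.map (Ideal.Quotient.mk P)).IsPrime := Ideal.isPrime_map_quotientMk_of_isPrime le_rfl
    have p2 : (Q.map (Ideal.Quotient.mk P)).IsPrime := Ideal.isPrime_map_quotientMk_of_isPrime hPQ
    have p3 : ((maximalIdeal S).map (Ideal.Quotient.mk P)).IsPrime :=
      Ideal.isPrime_map_quotientMk_of_isPrime (hPQ.trans hQ)
    have h3 := Ideal.height_add_one_le_of_lt_of_isPrime (lb_map_lt le_rfl hPQ')
    have h4 := Ideal.height_add_one_le_of_lt_of_isPrime (lb_map_lt hPQ hlt)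
    have h5 : (1 : ℕ∞) + 1 ≤ 1 :=
      ((add_le_add_left (le_add_self.trans h3) 1).trans h4).trans h2
    exact absurd h5 (by decide)
  obtain ⟨L, hL⟩ := exists_pow_le_map_of_mem_minimalPrimes _ Q hmin
  rw [Ideal.map_span, ← Set.range_comp] at hL
  have hw' : ∀ i, (algebraMap S (Localization.AtPrime Q) ∘ w) i ∈
      maximalIdeal (Localization.AtPrime Q) := fun i =>
    (IsLocalization.AtPrime.to_map_mem_maximal_iff _ Q _).2 (hw i)
  refine ge_of_tendsto (hred.tendsto hd.symm) ?_
  filter_upwards [eventually_gt_atTop 0] with n hn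
  have h1 := mult_mul_pow_le rfl _ hw' L hL n
  have h2 : powIdeal (algebraMap S (Localization.AtPrime Q) ∘ w) n =
      (powIdeal w n).map (algebraMap S (Localization.AtPrime Q)) := by
    rw [powIdeal, powIdeal, Ideal.map_span, ← Set.range_comp]
    congr 2
    ext i
    simp
  have h3 : Module.length (Localization.AtPrime Q) (Localization.AtPrime Q ⧸
      (powIdeal w n).map (algebraMap S (Localization.AtPrime Q))) ≠ ⊤ := by
    rw [← h2]
    refine length_quot_ne_top (IsNoetherian.noetherian _)
      (L * (dimNat (Localization.AtPrime Q) * n + 1)) _ ?_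
    rw [smul_top_ideal, pow_mul]
    exact (Ideal.pow_right_mono hL _).trans (span_pow_le_powIdeal _ n)
  have h4 := mul_length_localization_le Q t' ht1 ht2 _ h3 n
  rw [← lb_powIdeal_snoc] at h4
  have h5 : Module.length S (S ⧸ powIdeal (Fin.snoc (α := fun _ => S) w t') n) ≠ ⊤ := by
    refine length_quot_ne_top (IsNoetherian.noetherian _)
      ((dimNat (Localization.AtPrime Q) + 1) * n + 1 + C) _ ?_
    rw [smul_top_ideal]
    exact (hC _).trans (span_pow_le_powIdeal _ n)
  have h6 := ENat.toNat_le_toNat h4 h5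
  rw [ENat.toNat_mul, ENat.toNat_natCast, ← h2] at h6
  have h7 : (n : ℝ) * len (Localization.AtPrime Q) (Localization.AtPrime Q ⧸
      powIdeal (algebraMap S (Localization.AtPrime Q) ∘ w) n) ≤
      len S (S ⧸ powIdeal (Fin.snoc (α := fun _ => S) w t') n) := by
    exact_mod_cast h6
  have hn' : (0 : ℝ) < n := by exact_mod_cast hn
  rw [le_div_iff₀ (by positivity), pow_succ]
  nlinarith

theorem exists_prime_coheight_one (R S : Type u) [CommRing R] [IsLocalRing R]
    [IsNoetherianRing R] [CommRing S] [IsLocalRing S] [IsNoetherianRing S] [Algebra R S]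
    [IsLocalHom (algebraMap R S)] [Module.Flat R S]
    (h : ¬ ∃ L : ℕ, maximalIdeal S ^ L ≤ (maximalIdeal R).map (algebraMap R S)) :
    ∃ (Q : Ideal S) (_ : Q.IsPrime), (maximalIdeal R).map (algebraMap R S) ≤ Q ∧
      dimNat (S ⧸ Q) = 1 ∧ dimNat (Localization.AtPrime Q) + 1 = dimNat S := by
  set I := (maximalIdeal R).map (algebraMap R S) with hI
  have hIn : I ≤ maximalIdeal S :=
    Ideal.map_le_iff_le_comap.mpr fun x hx => map_nonunit (algebraMap R S) x hx
  have hp : ((maximalIdeal S).map (Ideal.Quotient.mk I)).IsPrime :=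
    Ideal.isPrime_map_quotientMk_of_isPrime hIn
  have hback : ∀ J : Ideal S, I ≤ J →
      (J.map (Ideal.Quotient.mk I)).comap (Ideal.Quotient.mk I) = J := fun J hJ => by
    rw [Ideal.comap_map_of_surjective' _ Ideal.Quotient.mk_surjective, Ideal.mk_ker,
      sup_of_le_left hJ]
  obtain ⟨f, hf⟩ := ENat.ne_top_iff_exists.1
    (Ideal.height_ne_top_of_isPrime (I := (maximalIdeal S).map (Ideal.Quotient.mk I)))
  obtain ⟨e, rfl⟩ : ∃ e, f = e + 1 := by
    cases f with
    | succ e => exact ⟨e, rfl⟩
    | zero =>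
      refine (h ?_).elim
      have h1 := Ideal.height_eq_zero_iff.1 hf.symm
      refine Ideal.exists_pow_le_of_le_radical_of_fg ?_ (IsNoetherian.noetherian _)
      rw [Ideal.radical_eq_sInf]
      refine le_sInf fun J hJ => ?_
      have hJp : J.IsPrime := hJ.2
      have h2 : (J.map (Ideal.Quotient.mk I)).IsPrime := Ideal.isPrime_map_quotientMk_of_isPrime hJ.1
      have h3 := h1.2 ⟨h2, bot_le⟩ (Ideal.map_mono (le_maximalIdeal hJp.ne_top))
      have h4 := Ideal.comap_mono (f := Ideal.Quotient.mk I) h3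
      rwa [hback _ hIn, hback _ hJ.1] at h4
  have hf' : Order.height (⟨_, hp⟩ : PrimeSpectrum (S ⧸ I)) = e + 1 := by
    rw [← PrimeSpectrum.height_eq_orderHeight, ← hf, Nat.cast_succ]
  obtain ⟨-, ⟨y, hy1, hy2⟩, -⟩ := Order.height_eq_coe_add_one_iff.1 hf'
  rw [← PrimeSpectrum.height_eq_orderHeight] at hy2
  let Q := y.asIdeal.comap (Ideal.Quotient.mk I)
  have hQp : Q.IsPrime := Ideal.comap_isPrime _ _
  have hIQ : I ≤ Q := fun x hx => by
    rw [Ideal.mem_comap, Ideal.Quotient.eq_zero_iff_mem.mpr hx]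
    exact zero_mem _
  have hQy : Q.map (Ideal.Quotient.mk I) = y.asIdeal :=
    Ideal.map_comap_of_surjective _ Ideal.Quotient.mk_surjective _
  have hlo : Q.LiesOver (maximalIdeal R) :=
    ⟨((maximalIdeal.isMaximal R).eq_of_le (Ideal.comap_ne_top _ hQp.ne_top)
      (Ideal.map_le_iff_le_comap.1 hIQ))⟩
  have h1 := Ideal.height_eq_height_add_of_liesOver_of_hasGoingDown (maximalIdeal R) Q
  have h2 := Ideal.height_eq_height_add_of_liesOver_of_hasGoingDown (maximalIdeal R)
    (maximalIdeal S)
  rw [← hI, hQy, hy2] at h1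
  rw [← hI, ← hf, Nat.cast_succ, ← add_assoc, ← h1] at h2
  have hQm : Q < maximalIdeal S := by
    refine lt_of_le_of_ne (le_maximalIdeal hQp.ne_top) fun e => hy1.ne (PrimeSpectrum.ext ?_)
    rw [← hQy, e]
  refine ⟨Q, hQp, hIQ, ?_, ?_⟩
  · have hloc : IsLocalRing (S ⧸ Q) :=
      IsLocalRing.of_surjective' (Ideal.Quotient.mk Q) Ideal.Quotient.mk_surjective
    have hm : (maximalIdeal S).map (Ideal.Quotient.mk Q) = maximalIdeal (S ⧸ Q) :=
      IsLocalRing.map_maximalIdeal_of_surjective _ Ideal.Quotient.mk_surjective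
    have h3 : (dimNat (S ⧸ Q) : ℕ∞) = (1 : ℕ) := by
      rw [dimNat_eq_height]
      apply le_antisymm
      · rw [Ideal.height_le_iff]
        intro q hq hlt
        have hq0 : q = ⊥ := by
          by_contra hq0
          let q' := q.comap (Ideal.Quotient.mk Q)
          have hq' : q'.IsPrime := Ideal.comap_isPrime _ _
          have e1 : q'.map (Ideal.Quotient.mk Q) = q :=
            Ideal.map_comap_of_surjective _ Ideal.Quotient.mk_surjective _
          have a1 : Q < q' := by
            refine lt_of_le_of_ne (fun x hx => ?_) fun e => hq0 ?_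
            · rw [Ideal.mem_comap, Ideal.Quotient.eq_zero_iff_mem.mpr hx]
              exact zero_mem _
            · rw [← e1, ← e, Ideal.map_quotient_self]
          have a2 : q' < maximalIdeal S := by
            refine lt_of_le_of_ne (le_maximalIdeal hq'.ne_top) fun e => hlt.ne ?_
            rw [← e1, e, hm]
          have b1 := Ideal.height_add_one_le_of_lt_of_isPrime a1
          have b2 := Ideal.height_strict_mono_of_isPrime a2
          rw [h2] at b2
          exact b2.not_ge b1
        rw [hq0, Ideal.height_bot]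
        exact zero_lt_one
      · have a1 := lb_map_lt le_rfl hQm
        rw [hm, Ideal.map_quotient_self] at a1
        have := Ideal.height_add_one_le_of_lt_of_isPrime a1
        exact le_add_self.trans this
    exact_mod_cast h3
  · rw [← lb_dimNat_localization Q, ← dimNat_eq_height] at h2
    exact_mod_cast h2.symm

end Vale.Agent.P202
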