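import Vale.Agent.P202.MxMult

/-! Flat local maps with a regular sequence on the fibre. -/

namespace Vale.Agent.P202

open IsLocalRing Filter Topology

universe u

section Chain

variable {B : Type*} [CommRing B]

theorem rf_len_add (J M : Ideal B) (a : B) (h : ∀ b, a * b ∈ J ↔ b ∈ M) :
    Module.length B (B ⧸ J) =
      Module.length B (B ⧸ M) + Module.length B (B ⧸ (J ⊔ Ideal.span {a})) := by
  have h1 := emul_exact (J : Submodule B B) (LinearMap.toSpanSingleton B B a)
  have h2 : Submodule.comap (LinearMap.toSpanSingleton B B a) J = M := by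
    ext b
    rw [Submodule.mem_comap, LinearMap.toSpanSingleton_apply, smul_eq_mul, mul_comm, h]
  rw [h2, ← LinearMap.span_singleton_eq_range] at h1
  exact h1

/-- the quotient by `J` has a filtration with `n` factors, each isomorphic to the quotient
by `M`. -/
def RfChain (M : Ideal B) : ℕ → Ideal B → Prop
  | 0, J => J = ⊤
  | n + 1, J => ∃ a : B, (∀ b, a * b ∈ J ↔ b ∈ M) ∧ RfChain M n (J ⊔ Ideal.span {a})

theorem RfChain.length {M : Ideal B} : ∀ {n : ℕ} {J : Ideal B}, RfChain M n J →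
    Module.length B (B ⧸ J) = n * Module.length B (B ⧸ M)
  | 0, J, h => by
    obtain rfl : J = ⊤ := h
    rw [Nat.cast_zero, zero_mul]
    exact gr_top
  | n + 1, J, ⟨a, ha, h⟩ => by
    rw [rf_len_add J M a ha, h.length, Nat.cast_succ, add_mul, one_mul, add_comm]

theorem rf_mem_sup {J : Ideal B} {a b : B} (h : b ∈ J ⊔ Ideal.span {a}) :
    ∃ c, b - a * c ∈ J := by
  obtain ⟨i, hi, z, hz, rfl⟩ := Submodule.mem_sup.mp h
  obtain ⟨c, rfl⟩ := Ideal.mem_span_singleton'.mp hz
  exact ⟨c, by simpa [mul_comm] using hi⟩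

theorem rf_mem_sup' {J : Ideal B} {a b : B} (c : B) (h : b - a * c ∈ J) :
    b ∈ J ⊔ Ideal.span {a} := by
  rw [← sub_add_cancel b (a * c)]
  exact add_mem (Ideal.mem_sup_left h)
    (Ideal.mem_sup_right (Ideal.mul_mem_right _ _ (Ideal.mem_span_singleton_self a)))

theorem RfChain.step {M : Ideal B} {y : B} (hy : ∀ b, y * b ∈ M → b ∈ M) :
    ∀ {n : ℕ} {J : Ideal B}, RfChain M n J →
      (∀ b, y * b ∈ J → b ∈ J) ∧ RfChain (M ⊔ Ideal.span {y}) n (J ⊔ Ideal.span {y})
  | 0, J, h => by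
    obtain rfl : J = ⊤ := h
    exact ⟨fun _ _ => trivial, top_sup_eq _⟩
  | n + 1, J, ⟨a, ha, h⟩ => by
    obtain ⟨h1, h2⟩ := RfChain.step hy h
    refine ⟨fun b hb => ?_, a, fun b => ⟨fun hb => ?_, fun hb => ?_⟩, by rwa [sup_right_comm]⟩
    · obtain ⟨c, hc⟩ := rf_mem_sup (h1 b (Ideal.mem_sup_left hb))
      have h3 : a * (y * c) ∈ J := by
        have := sub_mem hb (J.mul_mem_left y hc)
        convert this using 1
        ring
      have h4 := (ha c).mpr (hy c ((ha _).mp h3))
      simpa using add_mem hc h4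
    · obtain ⟨c, hc⟩ := rf_mem_sup hb
      have h3 : y * c ∈ J ⊔ Ideal.span {a} := rf_mem_sup' b (by simpa using neg_mem hc)
      obtain ⟨e, he⟩ := rf_mem_sup (h1 c h3)
      refine rf_mem_sup' e ((ha _).mp ?_)
      convert add_mem hc (J.mul_mem_left y he) using 1
      ring
    · obtain ⟨c, hc⟩ := rf_mem_sup hb
      refine rf_mem_sup' (a * c) ?_
      convert (ha _).mpr hc using 1
      ring

theorem rf_reg_pow {J : Ideal B} {y : B} (hy : ∀ b, y * b ∈ J → b ∈ J) (n : ℕ) :
    ∀ b, y ^ n * b ∈ J → b ∈ J := by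
  induction n with
  | zero => intro b hb; simpa using hb
  | succ n ih =>
    intro b hb
    refine ih b (hy _ ?_)
    convert hb using 1
    ring

theorem rfChain_pow {J : Ideal B} {y : B} (hy : ∀ b, y * b ∈ J → b ∈ J) (n : ℕ) :
    RfChain (J ⊔ Ideal.span {y}) n (J ⊔ Ideal.span {y ^ n}) := by
  induction n with
  | zero =>
    change _ = ⊤
    simp
  | succ n ih =>
    refine ⟨y ^ n, fun b => ⟨fun hb => ?_, fun hb => ?_⟩, ?_⟩
    · obtain ⟨c, hc⟩ := rf_mem_sup hb
      refine rf_mem_sup' c (rf_reg_pow hy n _ ?_)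
      convert hc using 1
      ring
    · obtain ⟨c, hc⟩ := rf_mem_sup hb
      refine rf_mem_sup' c ?_
      convert J.mul_mem_left (y ^ n) hc using 1
      ring
    · rwa [sup_assoc, sup_eq_right.mpr
        (Ideal.span_singleton_le_span_singleton.mpr (pow_dvd_pow y n.le_succ))]

/-- regular sequences modulo an ideal. -/
def RfReg (J : Ideal B) {r : ℕ} (Y : Fin r → B) : Prop :=
  ∀ (j : Fin r) (b : B), Y j * b ∈ J ⊔ Ideal.span (Y '' {i | i < j}) →
    b ∈ J ⊔ Ideal.span (Y '' {i | i < j})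

theorem rfReg_succ {J : Ideal B} {r : ℕ} {Y : Fin (r + 1) → B} :
    RfReg J Y ↔ (∀ b, Y 0 * b ∈ J → b ∈ J) ∧
      RfReg (J ⊔ Ideal.span {Y 0}) (fun i => Y i.succ) := by
  have h0 : Y '' {i | i < 0} = ∅ := by simp
  have h1 : ∀ j : Fin r, Y '' {i | i < j.succ} =
      insert (Y 0) ((fun i : Fin r => Y i.succ) '' {i | i < j}) := by
    intro j
    ext z
    simp [Fin.exists_fin_succ, eq_comm]
  simp only [RfReg, Fin.forall_fin_succ, h0, h1, Ideal.span_empty, sup_bot_eq, Ideal.span_insert,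
    sup_assoc]

theorem rf_span_succ {r : ℕ} (Y : Fin (r + 1) → B) :
    Ideal.span (Set.range Y) =
      Ideal.span {Y 0} ⊔ Ideal.span (Set.range fun i : Fin r => Y i.succ) := by
  rw [Fin.range_fin_succ, Ideal.span_insert]
  rfl

theorem RfChain.seq {n r : ℕ} (Y : Fin r → B) : ∀ {M J : Ideal B}, RfChain M n J → RfReg M Y →
    RfReg J Y ∧ RfChain (M ⊔ Ideal.span (Set.range Y)) n (J ⊔ Ideal.span (Set.range Y)) := by
  induction r with
  | zero =>
    intro M J h _
    exact ⟨fun j => j.elim0, by simpa using h⟩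
  | succ r ih =>
    intro M J h hY
    obtain ⟨h0, hY⟩ := rfReg_succ.mp hY
    obtain ⟨h1, h2⟩ := h.step h0
    obtain ⟨h3, h4⟩ := ih _ h2 hY
    exact ⟨rfReg_succ.mpr ⟨h1, h3⟩, by rwa [rf_span_succ, ← sup_assoc, ← sup_assoc]⟩

theorem RfReg.pow (n : ℕ) {r : ℕ} (Y : Fin r → B) : ∀ {J : Ideal B}, RfReg J Y →
    RfReg J (fun i => Y i ^ n) ∧ Module.length B (B ⧸ (J ⊔ powIdeal Y n)) =
      (n ^ r : ℕ) * Module.length B (B ⧸ (J ⊔ Ideal.span (Set.range Y))) := by
  induction r with
  | zero =>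
    intro J _
    refine ⟨fun j => j.elim0, ?_⟩
    have : powIdeal Y n = Ideal.span (Set.range Y) := by simp [powIdeal]
    rw [this, pow_zero, Nat.cast_one, one_mul]
  | succ r ih =>
    intro J hY
    obtain ⟨h0, hY⟩ := rfReg_succ.mp hY
    obtain ⟨h1, h2⟩ := (rfChain_pow h0 n).seq _ hY
    obtain ⟨h3, h4⟩ := ih _ h1
    refine ⟨rfReg_succ.mpr ⟨rf_reg_pow h0 n, h3⟩, ?_⟩
    rw [h2.length] at h4
    rw [powIdeal, rf_span_succ, rf_span_succ Y, ← sup_assoc, ← sup_assoc, pow_succ, Nat.cast_mul,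
      mul_assoc]
    exact h4

end Chain

theorem rf_colon {A B : Type*} [CommRing A] [CommRing B] [Algebra A B] [Module.Flat A B]
    {I M : Ideal A} {a : A} (h : ∀ c, a * c ∈ I ↔ c ∈ M) (b : B) :
    algebraMap A B a * b ∈ I.map (algebraMap A B) ↔ b ∈ M.map (algebraMap A B) := by
  constructor
  · intro hb
    have hle : M ≤ Submodule.comap (LinearMap.toSpanSingleton A A a) I := fun c hc => by
      rw [Submodule.mem_comap, LinearMap.toSpanSingleton_apply, smul_eq_mul, mul_comm]
      exact (h c).mpr hc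
    have hinj : Function.Injective (Submodule.mapQ M I (LinearMap.toSpanSingleton A A a) hle) := by
      rw [injective_iff_map_eq_zero]
      intro z hz
      obtain ⟨c, rfl⟩ := Submodule.Quotient.mk_surjective _ z
      rw [Submodule.mapQ_apply, Submodule.Quotient.mk_eq_zero, LinearMap.toSpanSingleton_apply,
        smul_eq_mul, mul_comm] at hz
      exact (Submodule.Quotient.mk_eq_zero _).mpr ((h c).mp hz)
    have h2 := Module.Flat.lTensor_preserves_injective_linearMap (M := B) _ hinj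
    rw [← Ideal.Quotient.eq_zero_iff_mem] at hb ⊢
    apply (Algebra.TensorProduct.quotIdealMapEquivTensorQuot B M).injective
    apply h2
    have h3 := congrArg (Algebra.TensorProduct.quotIdealMapEquivTensorQuot B I) hb
    rw [Algebra.TensorProduct.quotIdealMapEquivTensorQuot_mk, map_zero] at h3
    rw [Algebra.TensorProduct.quotIdealMapEquivTensorQuot_mk, map_zero, map_zero,
      LinearMap.lTensor_tmul, ← h3, ← Algebra.smul_def, TensorProduct.smul_tmul]
    congr 1
    change Submodule.Quotient.mk (LinearMap.toSpanSingleton A A a 1) = Submodule.Quotient.mk (a • 1)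
    simp
  · intro hb
    refine Submodule.span_induction (p := fun b _ => algebraMap A B a * b ∈ I.map (algebraMap A B))
      ?_ (by simp) (fun x y _ _ hx hy => by rw [mul_add]; exact add_mem hx hy)
      (fun c x _ hx => by rw [smul_eq_mul, mul_left_comm]; exact Ideal.mul_mem_left _ _ hx) hb
    rintro _ ⟨c, hc, rfl⟩
    rw [← map_mul]
    exact Ideal.mem_map_of_mem _ ((h c).mpr hc)

theorem rf_socle {A : Type*} [CommRing A] [IsLocalRing A] {I : Ideal A}
    (hI : Module.length A (A ⧸ I) ≠ ⊤) (hne : I ≠ ⊤) :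
    ∃ a : A, ∀ c, a * c ∈ I ↔ c ∈ maximalIdeal A := by
  have hA : IsArtinian A (A ⧸ I) :=
    (isFiniteLength_iff_isNoetherian_isArtinian.mp (Module.length_ne_top_iff.mp hI)).2
  have : Nontrivial (A ⧸ I) := Ideal.Quotient.nontrivial_iff.mpr hne
  obtain ⟨S, hS⟩ := IsAtomic.exists_atom (Submodule A (A ⧸ I))
  have hs : IsSimpleModule A S := isSimpleModule_iff_isAtom.mpr hS
  have := IsSimpleModule.nontrivial A S
  obtain ⟨⟨z, hz⟩, hz0⟩ := exists_ne (0 : S)
  obtain ⟨a, rfl⟩ := Ideal.Quotient.mk_surjective z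
  have hm := eq_maximalIdeal (IsSimpleModule.ker_toSpanSingleton_isMaximal A hz0)
  refine ⟨a, fun c => ?_⟩
  rw [← hm, LinearMap.mem_ker, LinearMap.toSpanSingleton_apply, Subtype.ext_iff,
    ← Ideal.Quotient.eq_zero_iff_mem, mul_comm]
  rfl

theorem rfChain_map {A : Type*} (B : Type*) [CommRing A] [IsLocalRing A] [CommRing B]
    [Algebra A B] [Module.Flat A B] (n : ℕ) : ∀ I : Ideal A, Module.length A (A ⧸ I) = n →
      RfChain ((maximalIdeal A).map (algebraMap A B)) n (I.map (algebraMap A B)) := by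
  induction n with
  | zero =>
    intro I hI
    rw [Nat.cast_zero, Module.length_eq_zero_iff, Ideal.Quotient.subsingleton_iff] at hI
    rw [hI, Ideal.map_top]
    rfl
  | succ n ih =>
    intro I hI
    have hne : I ≠ ⊤ := by
      rintro rfl
      rw [gr_top] at hI
      exact absurd hI (by norm_cast)
    obtain ⟨a, ha⟩ := rf_socle (hI ▸ ENat.natCast_ne_top _) hne
    have h1 := rf_len_add I _ a ha
    rw [hI, length_residue, Nat.cast_succ, add_comm] at h1
    have h2 := ih _ (ENat.add_right_injective_of_ne_top ENat.one_ne_top h1).symm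
    rw [Ideal.map_sup, Ideal.map_span, Set.image_singleton] at h2
    exact ⟨algebraMap A B a, rf_colon ha, h2⟩

theorem length_quot_sup_eq {A B : Type*} [CommRing A] [IsLocalRing A] [CommRing B] [Algebra A B]
    [Module.Flat A B] {r : ℕ} (Y : Fin r → B)
    (hreg : ∀ (j : Fin r) (b : B),
      Y j * b ∈ (maximalIdeal A).map (algebraMap A B) ⊔ Ideal.span (Y '' {i | i < j}) →
      b ∈ (maximalIdeal A).map (algebraMap A B) ⊔ Ideal.span (Y '' {i | i < j}))
    (I : Ideal A) (hI : Module.length A (A ⧸ I) ≠ ⊤) :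
    Module.length B (B ⧸ (I.map (algebraMap A B) ⊔ Ideal.span (Set.range Y))) =
      Module.length A (A ⧸ I) *
        Module.length B (B ⧸ ((maximalIdeal A).map (algebraMap A B) ⊔
          Ideal.span (Set.range Y))) := by
  obtain ⟨n, hn⟩ := ENat.ne_top_iff_exists.mp hI
  rw [← hn]
  exact ((rfChain_map B n I hn.symm).seq Y hreg).2.length

/-- powers of a regular sequence that generates a maximal ideal modulo `J`. -/
theorem length_quot_sup_powIdeal {B : Type*} [CommRing B] (J : Ideal B) {r : ℕ} (Y : Fin r → B)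
    (hreg : ∀ (j : Fin r) (b : B), Y j * b ∈ J ⊔ Ideal.span (Y '' {i | i < j}) →
      b ∈ J ⊔ Ideal.span (Y '' {i | i < j}))
    (hmax : (J ⊔ Ideal.span (Set.range Y)).IsMaximal) (n : ℕ) :
    (∀ (j : Fin r) (b : B), Y j ^ n * b ∈ J ⊔ Ideal.span ((fun i => Y i ^ n) '' {i | i < j}) →
      b ∈ J ⊔ Ideal.span ((fun i => Y i ^ n) '' {i | i < j})) ∧
    Module.length B (B ⧸ (J ⊔ powIdeal Y n)) = (n ^ r : ℕ) := by
  obtain ⟨h1, h2⟩ := RfReg.pow n Y hreg
  refine ⟨h1, ?_⟩
  rw [h2, Module.length_eq_one_iff.mpr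
    (isSimpleModule_iff_isCoatom.mpr (Ideal.isMaximal_def.mp hmax)), mul_one]

theorem rf_sup_pow_le {B : Type*} [CommRing B] {P Q W : Ideal B} {C : ℕ}
    (hP : ∀ t, P ^ (t + C) ≤ W ^ t) (hQ : Q ≤ W) (t : ℕ) : (P ⊔ Q) ^ (t + C) ≤ W ^ t := by
  have h : ∀ N, (P ⊔ Q) ^ (N + 1) ≤ P ^ (N + 1) ⊔ Q * (P ⊔ Q) ^ N := by
    intro N
    induction N with
    | zero => simp
    | succ N ih =>
      rw [pow_succ]
      refine (Ideal.mul_mono_left ih).trans ?_
      rw [Ideal.sup_mul, Ideal.mul_sup, ← pow_succ, mul_assoc, ← pow_succ]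
      refine sup_le (sup_le le_sup_left (le_sup_of_le_right ?_)) le_sup_right
      rw [mul_comm]
      exact Ideal.mul_mono_right (Ideal.pow_right_mono le_sup_left _)
  induction t with
  | zero => simp
  | succ t ih =>
    rw [add_right_comm]
    refine (h _).trans (sup_le (by rw [add_right_comm]; exact hP _) ?_)
    rw [pow_succ']
    exact Ideal.mul_mono hQ ih

theorem mult_eq_of_regular_fibre {A B : Type u} [CommRing A] [IsLocalRing A] [IsNoetherianRing A]
    [Infinite (ResidueField A)] [CommRing B] [IsLocalRing B] [IsNoetherianRing B] [Algebra A B]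
    [Module.Flat A B] (y : B)
    (hm : maximalIdeal B = (maximalIdeal A).map (algebraMap A B) ⊔ Ideal.span {y})
    (hreg : ∀ b : B, y * b ∈ (maximalIdeal A).map (algebraMap A B) →
      b ∈ (maximalIdeal A).map (algebraMap A B)) :
    dimNat B = dimNat A + 1 ∧ mult B = mult A := by
  obtain ⟨x, hx, C, hC⟩ := exists_isRed A
  set w : Fin (dimNat A + 1) → B := Fin.cons y fun i => algebraMap A B (x i) with hw
  have hsp : ∀ n, powIdeal w n = (powIdeal x n).map (algebraMap A B) ⊔ Ideal.span {y ^ n} := by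
    intro n
    rw [powIdeal, powIdeal, rf_span_succ, sup_comm, Ideal.map_span, ← Set.range_comp]
    simp only [hw, Fin.cons_zero, Fin.cons_succ, Function.comp_def, map_pow]
  have hsp1 : Ideal.span (Set.range w) =
      (Ideal.span (Set.range x)).map (algebraMap A B) ⊔ Ideal.span {y} := by
    simpa [powIdeal] using hsp 1
  have hred : IsRed w := by
    refine ⟨fun i => ?_, C, fun t => ?_⟩
    · refine (?_ : Ideal.span (Set.range w) ≤ _) (Ideal.subset_span ⟨i, rfl⟩)
      rw [hsp1, hm]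
      exact sup_le_sup_right (Ideal.map_mono (mxmult_span_le hx)) _
    · rw [hm]
      refine rf_sup_pow_le (fun s => ?_) (hsp1 ▸ le_sup_right) t
      rw [← Ideal.map_pow]
      refine (Ideal.map_mono (hC s)).trans ?_
      rw [Ideal.map_pow, hsp1]
      exact Ideal.pow_right_mono le_sup_left _
  have hlen : ∀ n, len B (B ⧸ powIdeal w n) = len A (A ⧸ powIdeal x n) * n := by
    intro n
    have hfin : Module.length A (A ⧸ powIdeal x n) ≠ ⊤ :=
      length_quot_ne_top (IsNoetherian.noetherian _) _ _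
        ((smul_top_ideal _).le.trans ((hC _).trans (span_pow_le_powIdeal x n)))
    obtain ⟨k, hk⟩ := ENat.ne_top_iff_exists.mp hfin
    have h1 := ((rfChain_map B k _ hk.symm).step (rf_reg_pow hreg n)).2.length
    rw [(rfChain_pow hreg n).length, ← hm, length_residue, mul_one, ← hsp] at h1
    rw [len, len, h1, ← hk, ← Nat.cast_mul, ENat.toNat_natCast, ENat.toNat_natCast]
  obtain ⟨hwm, C', hC'⟩ := id hred
  have hd : dimNat B = dimNat A + 1 := by
    refine dimNat_eq_of_growth w hwm (1 + C') (by simpa using hC' 1) (mult A)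
      (zero_lt_one.trans_le (tendsto_hsSeq_gen A).2) fun n => ?_
    rw [hlen, Nat.cast_mul, pow_succ, ← mul_assoc]
    exact mul_le_mul_of_nonneg_right
      (mult_mul_pow_le rfl x hx (1 + C) (by simpa using hC 1) n) n.cast_nonneg
  refine ⟨hd, tendsto_nhds_unique (hred.tendsto hd)
    ((IsRed.tendsto ⟨hx, C, hC⟩ rfl).congr' ?_)⟩
  filter_upwards [eventually_gt_atTop 0] with n hn
  have : (n : ℝ) ≠ 0 := by exact_mod_cast hn.ne'
  rw [hlen, Nat.cast_mul, pow_succ, mul_div_mul_right _ _ this]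

end Vale.Agent.P202
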