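import Vale.Agent.P202.MxLocA
import Vale.Agent.P202.MxLocB
import Vale.Agent.P202.MxRegFib
import Vale.Agent.P202.MxGonfl
import Vale.Agent.P202.Localize

/-! The multiplicity does not increase under localisation; reduction to a zero-dimensional
fibre. -/

namespace Vale.Agent.P202

open IsLocalRing Polynomial

universe u

/-- a nonzero ideal of a polynomial ring over a domain is generically principal. -/
theorem lc_generic {C : Type*} [CommRing C] [IsDomain C] (P : Ideal C[X]) (hP : P ≠ ⊥) :
    ∃ y ∈ P, y ≠ 0 ∧ ∀ g ∈ P, ∃ c : C, c ≠ 0 ∧ y ∣ Polynomial.C c * g := by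
  classical
  have hex : ∃ n, ∃ y ∈ P, y ≠ 0 ∧ y.natDegree = n := by
    obtain ⟨y, h1, h2⟩ := Submodule.exists_mem_ne_zero_of_ne_bot hP
    exact ⟨_, y, h1, h2, rfl⟩
  obtain ⟨y, hy, hy0, hn⟩ := Nat.find_spec hex
  have hmin : ∀ g ∈ P, g ≠ 0 → y.natDegree ≤ g.natDegree := fun g hg h0 => by
    rw [hn]; exact Nat.find_min' hex ⟨g, hg, h0, rfl⟩
  refine ⟨y, hy, hy0, fun g => ?_⟩
  induction hd : g.natDegree using Nat.strong_induction_on generalizing g with
  | _ n ih =>
    intro hg
    by_cases h0 : g = 0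
    · exact ⟨1, one_ne_zero, by simp [h0]⟩
    have h1 := hmin g hg h0
    by_cases h2 : g.natDegree = 0
    · refine ⟨y.coeff 0, fun e => hy0 ?_, ?_⟩
      · rw [eq_C_of_natDegree_eq_zero (p := y) (by omega), e, map_zero]
      · rw [← eq_C_of_natDegree_eq_zero (p := y) (by omega)]
        exact dvd_mul_right _ _
    have h3 := natDegree_cancelLeads_lt_of_natDegree_le_natDegree h1 (Nat.pos_of_ne_zero h2)
    obtain ⟨c, hc, h4⟩ := ih _ (hd ▸ h3) (y.cancelLeads g) rfl
      (P.sub_mem (P.mul_mem_left _ hg) (P.mul_mem_left _ hy))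
    refine ⟨c * y.leadingCoeff, mul_ne_zero hc (leadingCoeff_ne_zero.2 hy0), ?_⟩
    rw [cancelLeads, Nat.sub_eq_zero_of_le h1, pow_zero, mul_one, mul_sub, ← mul_assoc] at h4
    rw [map_mul]
    exact (dvd_sub_left (Dvd.dvd.mul_left (dvd_mul_left _ _) _)).1 h4

/-- localisations of a polynomial ring with a regular one-dimensional fibre. -/
theorem lc_fibre {S A B : Type u} [CommRing S] [CommRing A] [IsLocalRing A] [IsNoetherianRing A]
    [Infinite (ResidueField A)] [CommRing B] [IsLocalRing B] [IsNoetherianRing B] [Algebra A B]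
    [Algebra S[X] B] [Module.Flat A B] (φ : S →+* A)
    (hcomp : ∀ s, algebraMap A B (φ s) = algebraMap S[X] B (Polynomial.C s))
    (Q : Ideal S) [Q.IsPrime] (hA : Q.map φ = maximalIdeal A) (Q' : Ideal S[X]) [Q'.IsPrime]
    [IsLocalization.AtPrime B Q'] (hQ : Q = Q'.comap Polynomial.C) (y : S[X]) (hy : y ∈ Q')
    (hy' : y ∉ Q.map Polynomial.C)
    (hg : ∀ g ∈ Q', ∃ c ∉ Q, Polynomial.C c * g ∈ Q.map Polynomial.C ⊔ Ideal.span {y}) :
    dimNat B = dimNat A + 1 ∧ mult B = mult A := by
  have hP : (Q.map (Polynomial.C : S →+* S[X])).IsPrime := Ideal.isPrime_map_C_of_isPrime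
  have hle : Q.map (Polynomial.C : S →+* S[X]) ≤ Q' := Ideal.map_le_iff_le_comap.2 hQ.le
  have hmap : (maximalIdeal A).map (algebraMap A B) =
      (Q.map (Polynomial.C : S →+* S[X])).map (algebraMap S[X] B) := by
    rw [← hA, Ideal.map_map, Ideal.map_map]
    congr 1
    exact RingHom.ext hcomp
  refine mult_eq_of_regular_fibre (algebraMap S[X] B y) ?_ fun b hb => ?_
  · rw [hmap, ← IsLocalization.AtPrime.map_eq_maximalIdeal Q' B]
    apply le_antisymm
    · refine Ideal.map_le_iff_le_comap.2 fun g hg' => ?_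
      obtain ⟨c, hc, h1⟩ := hg g hg'
      have h2 := Ideal.mem_map_of_mem (algebraMap S[X] B) h1
      rw [map_mul, Ideal.map_sup, Ideal.map_span _ {y}, Set.image_singleton] at h2
      rw [Ideal.mem_comap]
      refine (Ideal.unit_mul_mem_iff_mem _ ?_).1 h2
      refine (IsLocalization.AtPrime.isUnit_to_map_iff B Q' _).2 fun h => hc ?_
      rw [hQ]
      exact h
    · exact sup_le (Ideal.map_mono hle)
        ((Ideal.span_singleton_le_iff_mem _).2 (Ideal.mem_map_of_mem _ hy))
  · rw [hmap] at hb ⊢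
    have h1 := Ideal.isPrime_map_of_isLocalizationAtPrime Q' (S := B) hle
    refine (h1.mem_or_mem hb).resolve_left fun h => hy' ?_
    rw [← Ideal.under_map_of_isLocalizationAtPrime Q' (S := B) hle]
    exact h

theorem lc_transfer (S : Type u) [CommRing S] [IsLocalRing S] [IsNoetherianRing S]
    [Infinite (ResidueField S)] (Q : Ideal S) [Q.IsPrime]
    (hd : dimNat (Localization.AtPrime Q) + 1 = dimNat S) {V : Type u} [CommRing V] [IsDomain V]
    [IsLocalRing V] (f : S ⧸ Q →+* V) (τ : V) (hinj : Function.Injective f) [IsLocalHom f]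
    (hint : f.IsIntegral) (hV : maximalIdeal V = Ideal.span {τ}) (hτ : τ ≠ 0)
    (hsurj : Function.Surjective (eval₂RingHom f τ)) :
    mult (Localization.AtPrime Q) ≤ mult S := by
  let π : S[X] →+* (S ⧸ Q)[X] := mapRingHom (Ideal.Quotient.mk Q)
  have hπ : Function.Surjective π := map_surjective _ Ideal.Quotient.mk_surjective
  have hπk : RingHom.ker π = Q.map Polynomial.C := by
    rw [Polynomial.ker_mapRingHom, Ideal.mk_ker]
  let Φ : S[X] →+* V := (eval₂RingHom f τ).comp π
  have hΦ : Function.Surjective Φ := hsurj.comp hπ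
  have hΦC : ∀ s, Φ (Polynomial.C s) = f (Ideal.Quotient.mk Q s) := fun s => by simp [Φ, π]
  have hΦX : Φ X = τ := by simp [Φ, π]
  let Q' : Ideal S[X] := RingHom.ker Φ
  have hQ'p : Q'.IsPrime := RingHom.ker_isPrime Φ
  let M : Ideal S[X] := (maximalIdeal V).comap Φ
  have hMp : M.IsPrime := Ideal.comap_isPrime _ _
  have hM : M = Q' ⊔ Ideal.span {X} := by
    have : maximalIdeal V = (Ideal.span {X}).map Φ := by
      rw [Ideal.map_span, Set.image_singleton, hΦX, hV]
    rw [sup_comm, ← Ideal.comap_map_of_surjective' Φ hΦ, ← this]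
  have hQM : Q' ≤ M := hM ▸ le_sup_left
  have hXM : X ∈ M := hM ▸ Ideal.mem_sup_right (Ideal.mem_span_singleton_self _)
  have hloc : IsLocalHom (Ideal.Quotient.mk Q) :=
    IsLocalHom.of_surjective _ Ideal.Quotient.mk_surjective
  have hMC : maximalIdeal S = M.comap Polynomial.C := by
    ext s
    rw [Ideal.mem_comap, Ideal.mem_comap, hΦC, mem_maximalIdeal, mem_maximalIdeal, mem_nonunits_iff,
      mem_nonunits_iff, isUnit_map_iff, isUnit_map_iff]
  have hQC : Q = Q'.comap Polynomial.C := by
    ext s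
    rw [Ideal.mem_comap, RingHom.mem_ker, hΦC, map_eq_zero_iff f hinj,
      Ideal.Quotient.eq_zero_iff_mem]
  let S' := Localization.AtPrime M
  have hflat : Module.Flat S S' := Module.Flat.trans S S[X] S'
  have h1 : dimNat S' = dimNat S + 1 ∧ mult S' = mult S := by
    refine lc_fibre (RingHom.id S) (fun s => rfl) (maximalIdeal S) (Ideal.map_id _) M hMC X hXM
      (fun h => ?_) fun g hg => ⟨1, (Ideal.ne_top_iff_one _).1 (maximalIdeal.isMaximal S).ne_top, ?_⟩
    · have := Ideal.mem_map_C_iff.1 h 1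
      rw [coeff_X_one] at this
      exact (Ideal.ne_top_iff_one _).1 (maximalIdeal.isMaximal S).ne_top this
    · rw [map_one, one_mul, ← X_mul_divX_add g, add_comm]
      refine Submodule.add_mem_sup (Ideal.mem_map_of_mem _ ?_)
        (Ideal.mul_mem_right _ _ (Ideal.mem_span_singleton_self _))
      rw [hMC, Ideal.mem_comap]
      have e : Polynomial.C (g.coeff 0) = g - X * g.divX := by
        rw [eq_sub_iff_add_eq', X_mul_divX_add]
      rw [e]
      exact M.sub_mem hg (M.mul_mem_right _ hXM)
  have hlocS : IsLocalHom (algebraMap S S') := by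
    apply ((IsLocalRing.local_hom_TFAE _).out 0 3).mpr
    intro s hs
    rw [hMC] at hs
    exact (IsLocalization.AtPrime.to_map_mem_maximal_iff S' M _).2 hs
  have hinf : Infinite (ResidueField S') :=
    Infinite.of_injective _ (ResidueField.map (algebraMap S S')).injective
  let Q'' : Ideal S' := Q'.map (algebraMap S[X] S')
  have hQ''p : Q''.IsPrime := Ideal.isPrime_map_of_isLocalizationAtPrime M hQM
  have hQ'' : Q''.comap (algebraMap S[X] S') = Q' :=
    Ideal.under_map_of_isLocalizationAtPrime M hQM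
  have hlo : Q''.LiesOver Q := ⟨by
    rw [hQC, ← hQ'', Ideal.comap_comap]
    rfl⟩
  let B := Localization.AtPrime Q''
  have hB : IsLocalization.AtPrime B Q' := by
    have := IsLocalization.isLocalization_isLocalization_atPrime_isLocalization M.primeCompl B Q''
    simpa only [hQ''] using this
  let := Localization.AtPrime.algebraOfLiesOver Q Q''
  have hinf0 : Infinite (S ⧸ maximalIdeal S) := inferInstanceAs (Infinite (ResidueField S))
  have hinf1 : Infinite (S ⧸ Q) :=
    Infinite.of_surjective (Ideal.Quotient.factor (le_maximalIdeal Ideal.IsPrime.ne_top'))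
      (Ideal.Quotient.factor_surjective _)
  have hinf2 : Infinite (ResidueField (Localization.AtPrime Q)) :=
    Infinite.of_injective _ Q.injective_algebraMap_quotient_residueField
  have h2 : dimNat B = dimNat (Localization.AtPrime Q) + 1 ∧
      mult B = mult (Localization.AtPrime Q) := by
    obtain ⟨y, hy, hy0, hyg⟩ := lc_generic (RingHom.ker (eval₂RingHom f τ)) (by
      obtain ⟨g, hg, hg0⟩ := hint τ
      exact fun e => hg.ne_zero (Ideal.mem_bot.1 (e ▸ hg0)))
    obtain ⟨y, rfl⟩ := hπ y
    refine lc_fibre (algebraMap S (Localization.AtPrime Q)) (fun s => ?_) Q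
      Localization.AtPrime.map_eq_maximalIdeal Q' hQC y hy (fun h => hy0 ?_) fun g hg => ?_
    · rw [← IsScalarTower.algebraMap_apply]
      rfl
    · rwa [← hπk] at h
    · obtain ⟨c, hc, h, hh⟩ := hyg (π g) hg
      obtain ⟨c, rfl⟩ := Ideal.Quotient.mk_surjective c
      obtain ⟨h, rfl⟩ := hπ h
      refine ⟨c, fun e => hc (Ideal.Quotient.eq_zero_iff_mem.2 e), ?_⟩
      have e : Polynomial.C c * g = (Polynomial.C c * g - y * h) + y * h := by ring
      rw [e]
      refine Submodule.add_mem_sup ?_ (Ideal.mul_mem_right _ _ (Ideal.mem_span_singleton_self _))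
      rw [← hπk, RingHom.mem_ker, map_sub, map_mul, map_mul, ← hh]
      simp [π]
  rw [← h2.2, ← h1.2]
  refine mult_localization_le_of_sup Q'' (algebraMap S[X] S' X) ?_ (fun h => hτ ?_) ?_
  · rw [← Localization.AtPrime.map_eq_maximalIdeal]
    refine (congrArg (Ideal.map (algebraMap S[X] S')) hM).trans ?_
    rw [Ideal.map_sup, Ideal.map_span _ {X}, Set.image_singleton]
  · rw [← hΦX, ← RingHom.mem_ker]
    change X ∈ Q'
    rw [← hQ'']
    exact h
  · rw [h1.1, ← hd]
    exact congrArg (· + 1) h2.1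

theorem mult_localization_le (p : ℕ) [Fact p.Prime] (S : Type u) [CommRing S] [IsLocalRing S]
    [IsNoetherianRing S] [IsAdicComplete (maximalIdeal S) S] [IsAlgClosed (ResidueField S)]
    (Q : Ideal S) [Q.IsPrime] (hp : (p : S) ∈ Q) (hdim : dimNat (S ⧸ Q) = 1)
    (hd : dimNat (Localization.AtPrime Q) + 1 = dimNat S) :
    mult (Localization.AtPrime Q) ≤ mult S := by
  have hloc : IsLocalRing (S ⧸ Q) :=
    IsLocalRing.of_surjective' (Ideal.Quotient.mk Q) Ideal.Quotient.mk_surjective
  have hm : (maximalIdeal S).map (algebraMap S (S ⧸ Q)) = maximalIdeal (S ⧸ Q) :=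
    IsLocalRing.map_maximalIdeal_of_surjective _ Ideal.Quotient.mk_surjective
  have hchar : CharP (S ⧸ Q) p := (CharP.charP_iff_prime_eq_zero Fact.out).2 (by
    rw [← map_natCast (Ideal.Quotient.mk Q), Ideal.Quotient.eq_zero_iff_mem]
    exact hp)
  have hpre : IsPrecomplete (maximalIdeal (S ⧸ Q)) (S ⧸ Q) := by
    rw [← hm, IsPrecomplete.map_algebraMap_iff]
    exact isPrecomplete_of_finite _
  have hcompl : IsAdicComplete (maximalIdeal (S ⧸ Q)) (S ⧸ Q) := {}
  have hlh : IsLocalHom (Ideal.Quotient.mk Q) :=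
    IsLocalHom.of_surjective _ Ideal.Quotient.mk_surjective
  have hac : IsAlgClosed (ResidueField (S ⧸ Q)) := by
    refine IsAlgClosed.of_ringEquiv (k := ResidueField S) _ (RingEquiv.ofBijective
      (ResidueField.map (Ideal.Quotient.mk Q)) ⟨RingHom.injective _, fun z => ?_⟩)
    obtain ⟨z, rfl⟩ := residue_surjective z
    obtain ⟨z, rfl⟩ := Ideal.Quotient.mk_surjective z
    exact ⟨residue S z, rfl⟩
  obtain ⟨V, _, _, _, f, τ, h1, h2, h3, h4, h5, h6⟩ := exists_uniformization p (S ⧸ Q) hdim
  exact lc_transfer S Q hd f τ h1 h3 h4 h5 h6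

theorem mult_le_of_primary (p : ℕ) [Fact p.Prime] (R : Type u) [CommRing R] [IsLocalRing R]
    [IsNoetherianRing R] (hp : (p : R) ∈ maximalIdeal R)
    (h : ∀ (S : Type u) [CommRing S] [IsLocalRing S] [IsNoetherianRing S] [Algebra R S]
      [IsLocalHom (algebraMap R S)] [Module.Flat R S] [IsAdicComplete (maximalIdeal S) S]
      [IsAlgClosed (ResidueField S)],
      (∃ L : ℕ, maximalIdeal S ^ L ≤ (maximalIdeal R).map (algebraMap R S)) → mult R ≤ mult S)
    (S : Type u) [CommRing S] [IsLocalRing S] [IsNoetherianRing S] [Algebra R S]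
    [IsLocalHom (algebraMap R S)] [Module.Flat R S] : mult R ≤ mult S := by
  induction hn : dimNat S using Nat.strong_induction_on generalizing S with
  | _ n ih =>
    have hpS : (p : S) ∈ maximalIdeal S := by
      rw [← map_natCast (algebraMap R S)]
      exact map_nonunit _ _ hp
    obtain ⟨S', _, _, _, _, _, _, _, _, hm⟩ := exists_algClosed_ext p S hpS
    let : Algebra R S' := ((algebraMap S S').comp (algebraMap R S)).toAlgebra
    have : IsScalarTower R S S' := IsScalarTower.of_algebraMap_eq fun _ => rfl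
    have : Module.Flat R S' := Module.Flat.trans R S S'
    have : IsLocalHom (algebraMap R S') := RingHom.isLocalHom_comp _ _
    obtain ⟨hdim, hmult⟩ := mult_eq_of_flat hm
    rw [← hmult]
    by_cases hprim : ∃ L : ℕ, maximalIdeal S' ^ L ≤ (maximalIdeal R).map (algebraMap R S')
    · exact h S' hprim
    obtain ⟨Q, _, hQ, h1, h2⟩ := exists_prime_coheight_one R S' hprim
    have hpQ : (p : S') ∈ Q := by
      rw [← map_natCast (algebraMap R S')]
      exact hQ (Ideal.mem_map_of_mem _ hp)
    refine le_trans ?_ (mult_localization_le p S' Q hpQ h1 h2)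
    have : Module.Flat R (Localization.AtPrime Q) := Module.Flat.trans R S' _
    have : IsLocalHom (algebraMap R (Localization.AtPrime Q)) := by
      apply ((IsLocalRing.local_hom_TFAE _).out 0 3).mpr
      intro r hr
      rw [Ideal.mem_comap, IsScalarTower.algebraMap_apply R S']
      exact (IsLocalization.AtPrime.to_map_mem_maximal_iff _ Q _).2
        (hQ (Ideal.mem_map_of_mem _ hr))
    exact ih _ (by omega) (Localization.AtPrime Q) rfl

end Vale.Agent.P202
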