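import Vale.Agent.P202.TransferAux1

/-! Spreading out the witnesses to finitely generated subrings. -/

namespace Vale.Agent.P202

open Filter Pointwise

section Ap

variable {Λ R : Type*} [CommRing R] (F : Filter Λ) {T : Λ → Type*} [∀ l, CommRing (T l)]
  (f : ∀ l, T l →+* R)

/-- Every element of `I` eventually comes from `J l`. -/
def TrAp (I : Ideal R) (J : ∀ l, Ideal (T l)) : Prop :=
  ∀ t ∈ I, ∀ᶠ l in F, ∃ t' ∈ J l, f l t' = t

variable {F f}

theorem trAp_span (hs : ∀ t, ∀ᶠ l in F, ∃ t', f l t' = t) (Z : Set R) :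
    TrAp F f (Ideal.span Z) fun l => Ideal.span (f l ⁻¹' Z) := by
  intro t ht
  induction ht using Submodule.span_induction with
  | mem z hz =>
    filter_upwards [hs z] with l ⟨z', h⟩
    exact ⟨z', Ideal.subset_span (by rw [Set.mem_preimage, h]; exact hz), h⟩
  | zero => exact Eventually.of_forall fun l => ⟨0, zero_mem _, map_zero _⟩
  | add a b _ _ ha hb =>
    filter_upwards [ha, hb] with l ⟨a', ha, ha'⟩ ⟨b', hb, hb'⟩
    exact ⟨a' + b', add_mem ha hb, by rw [map_add, ha', hb']⟩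
  | smul r a _ ha =>
    filter_upwards [ha, hs r] with l ⟨a', ha, ha'⟩ ⟨r', hr⟩
    exact ⟨r' * a', Ideal.mul_mem_left _ _ ha, by rw [map_mul, ha', hr, smul_eq_mul]⟩

theorem TrAp.mono {I : Ideal R} {J J' : ∀ l, Ideal (T l)} (h : TrAp F f I J)
    (h' : ∀ᶠ l in F, J l ≤ J' l) : TrAp F f I J' := fun t ht => by
  filter_upwards [h t ht, h'] with l ⟨t', h1, h2⟩ h3
  exact ⟨t', h3 h1, h2⟩

theorem TrAp.mul {I I' : Ideal R} {J J' : ∀ l, Ideal (T l)} (h : TrAp F f I J)
    (h' : TrAp F f I' J') : TrAp F f (I * I') fun l => J l * J' l := by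
  intro t ht
  refine Submodule.mul_induction_on ht (fun a ha b hb => ?_) fun a b ha hb => ?_
  · filter_upwards [h a ha, h' b hb] with l ⟨a', ha, ha'⟩ ⟨b', hb, hb'⟩
    exact ⟨a' * b', Ideal.mul_mem_mul ha hb, by rw [map_mul, ha', hb']⟩
  · filter_upwards [ha, hb] with l ⟨a', ha, ha'⟩ ⟨b', hb, hb'⟩
    exact ⟨a' + b', add_mem ha hb, by rw [map_add, ha', hb']⟩

theorem TrAp.pow (hs : ∀ t, ∀ᶠ l in F, ∃ t', f l t' = t) {I : Ideal R} {J : ∀ l, Ideal (T l)}
    (h : TrAp F f I J) (n : ℕ) : TrAp F f (I ^ n) fun l => J l ^ n := by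
  induction n with
  | zero =>
    intro t _
    filter_upwards [hs t] with l ⟨t', h⟩
    exact ⟨t', by simp, h⟩
  | succ n ih => simpa only [pow_succ] using ih.mul h

theorem TrAp.sup {I I' : Ideal R} {J J' : ∀ l, Ideal (T l)} (h : TrAp F f I J)
    (h' : TrAp F f I' J') : TrAp F f (I ⊔ I') fun l => J l ⊔ J' l := by
  intro t ht
  obtain ⟨a, ha, b, hb, rfl⟩ := Submodule.mem_sup.mp ht
  filter_upwards [h a ha, h' b hb] with l ⟨a', ha, ha'⟩ ⟨b', hb, hb'⟩
  exact ⟨a' + b', Submodule.add_mem_sup ha hb, by rw [map_add, ha', hb']⟩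

theorem TrAp.mem (hi : ∀ l, Function.Injective (f l)) {I : Ideal R} {J : ∀ l, Ideal (T l)}
    (h : TrAp F f I J) {t : R} (ht : t ∈ I) : ∀ᶠ l in F, ∀ t', f l t' = t → t' ∈ J l := by
  filter_upwards [h t ht] with l ⟨t', h1, h2⟩ t'' h3
  rwa [hi l (h3.trans h2.symm)]

theorem TrAp.span_pow_le (hi : ∀ l, Function.Injective (f l)) {I : Ideal R}
    {J : ∀ l, Ideal (T l)} (h : TrAp F f I J) {Z : Set R} (hZ : Z.Finite) {n : ℕ}
    (hn : Ideal.span Z ^ n ≤ I) : ∀ᶠ l in F, Ideal.span (f l ⁻¹' Z) ^ n ≤ J l := by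
  have h1 : ∀ t ∈ Z ^ n, t ∈ I := fun t ht => hn (by
    rw [Ideal.span, Submodule.span_pow]; exact Submodule.subset_span ht)
  have hfin : ∀ k : ℕ, (Z ^ k).Finite := fun k => by
    induction k with
    | zero => simp
    | succ k ih => rw [pow_succ]; exact ih.mul hZ
  have h2 := (eventually_all_finite (hfin n)).mpr fun t ht => h.mem hi (h1 t ht)
  filter_upwards [h2] with l hl
  rw [Ideal.span, Submodule.span_pow, Submodule.span_le]
  intro t' ht'
  refine hl (f l t') ?_ t' rfl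
  have := Set.mem_image_of_mem (f l) ht'
  rw [Set.image_pow] at this
  exact Set.pow_subset_pow_left (Set.image_preimage_subset _ _) this

theorem TrChain.spread (hs : ∀ t, ∀ᶠ l in F, ∃ t', f l t' = t)
    (hi : ∀ l, Function.Injective (f l)) {Y : Set R} (hY : Y.Finite) {k : ℕ} {I : Ideal R}
    (hc : TrChain (Ideal.span Y) k I) {J : ∀ l, Ideal (T l)} (h : TrAp F f I J) :
    ∀ᶠ l in F, TrChain (Ideal.span (f l ⁻¹' Y)) k (J l) := by
  induction k generalizing I J with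
  | zero =>
    have h' : I = ⊤ := hc
    filter_upwards [h.mem hi (t := 1) (h' ▸ trivial)] with l hl
    exact (Ideal.eq_top_iff_one _).mpr (hl 1 (map_one _))
  | succ k ih =>
    obtain ⟨σ, h1, h2⟩ := hc
    have h3 := (eventually_all_finite hY).mpr fun y hy => h.mem hi (h1 y (Ideal.subset_span hy))
    filter_upwards [ih h2 (h.sup (trAp_span hs {σ})), hs σ, h3] with l h4 ⟨σ', h5⟩ h6
    refine ⟨σ', fun y hy => ?_, ?_⟩
    · have : Ideal.span (f l ⁻¹' Y) ≤ (J l).colon {σ'} := by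
        rw [Ideal.span_le]
        intro z hz
        rw [SetLike.mem_coe, Submodule.mem_colon_singleton, smul_eq_mul]
        exact h6 _ hz _ (by rw [map_mul, h5])
      exact Submodule.mem_colon_singleton.mp (this hy)
    · rwa [← h5, ← Set.image_singleton, Set.preimage_image_eq _ (hi l)] at h4

end Ap

section Adj

variable {A B ι : Type*} [CommRing A] [CommRing B] [Algebra A B] [Fintype ι] (g : ι → B)

/-- The generators as elements of the generated subalgebra. -/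
def trGen (A : Type*) [CommRing A] [Algebra A B] (g : ι → B) (i : ι) :
    Algebra.adjoin A (Set.range g) := ⟨g i, Algebra.subset_adjoin ⟨i, rfl⟩⟩

theorem tr_adj_span (h1 : (1 : B) ∈ Submodule.span A (Set.range g))
    (h2 : ∀ i j, g i * g j ∈ Submodule.span A (Set.range g)) :
    ⊤ ≤ Submodule.span A (Set.range (trGen A g)) := by
  have h3 : Algebra.adjoin A (Set.range g) ≤ (Submodule.span A (Set.range g)).toSubalgebra h1
      fun x y hx hy => by
        have : Submodule.span A (Set.range g) * Submodule.span A (Set.range g) ≤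
            Submodule.span A (Set.range g) := by
          rw [Submodule.span_mul_span, Submodule.span_le]
          rintro _ ⟨_, ⟨i, rfl⟩, _, ⟨j, rfl⟩, rfl⟩
          exact h2 i j
        exact this (Submodule.mul_mem_mul hx hy) :=
    Algebra.adjoin_le Submodule.subset_span
  rintro r -
  obtain ⟨u, hu⟩ := (Submodule.mem_span_range_iff_exists_fun A).mp (h3 r.2)
  refine (Submodule.mem_span_range_iff_exists_fun A).mpr ⟨u, Subtype.ext ?_⟩
  rw [← hu]
  push_cast
  rfl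

omit [Fintype ι] in
theorem tr_res_span (hg : ⊤ ≤ Submodule.span A (Set.range g)) {J : Ideal B}
    (h : ∀ i, ∃ a, g i - algebraMap A B a ∈ J) (r : B) : ∃ a, r - algebraMap A B a ∈ J := by
  have hr : r ∈ Submodule.span A (Set.range g) := hg trivial
  induction hr using Submodule.span_induction with
  | mem z hz => obtain ⟨i, rfl⟩ := hz; exact h i
  | zero => exact ⟨0, by simp⟩
  | add a b _ _ ha hb =>
    obtain ⟨a', ha⟩ := ha
    obtain ⟨b', hb⟩ := hb
    refine ⟨a' + b', ?_⟩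
    rw [map_add, add_sub_add_comm]
    exact add_mem ha hb
  | smul c a _ ha =>
    obtain ⟨a', ha⟩ := ha
    refine ⟨c * a', ?_⟩
    rw [map_mul, Algebra.smul_def, ← mul_sub]
    exact Ideal.mul_mem_left _ _ ha

theorem tr_ev_span {Λ : Type*} {F : Filter Λ} {T : Λ → Type*} [∀ l, CommRing (T l)]
    [∀ l, Algebra (T l) A] [∀ l, Algebra (T l) B] [∀ l, IsScalarTower (T l) A B]
    (hs : ∀ t, ∀ᶠ l in F, ∃ t', algebraMap (T l) A t' = t)
    (hg : ⊤ ≤ Submodule.span A (Set.range g)) (r : B) :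
    ∀ᶠ l in F, r ∈ Submodule.span (T l) (Set.range g) := by
  obtain ⟨u, rfl⟩ := (Submodule.mem_span_range_iff_exists_fun A).mp (hg (Submodule.mem_top (x := r)))
  filter_upwards [eventually_all.mpr fun i => hs (u i)] with l hl
  refine sum_mem fun i _ => ?_
  obtain ⟨t, ht⟩ := hl i
  rw [← ht, algebraMap_smul]
  exact Submodule.smul_mem _ _ (Submodule.subset_span ⟨i, rfl⟩)

theorem tr_level {Λ : Type*} {F : Filter Λ} {T : Λ → Type*} [∀ l, CommRing (T l)]
    [∀ l, Algebra (T l) A] [∀ l, Algebra (T l) B] [∀ l, IsScalarTower (T l) A B]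
    (hs : ∀ t, ∀ᶠ l in F, ∃ t', algebraMap (T l) A t' = t)
    (hg : ⊤ ≤ Submodule.span A (Set.range g)) :
    (∀ t, ∀ᶠ l in F, ∃ t', algebraMap (Algebra.adjoin (T l) (Set.range g)) B t' = t) ∧
      ∀ᶠ l in F, ⊤ ≤ Submodule.span (T l) (Set.range (trGen (T l) g)) := by
  have e := tr_ev_span g hs hg
  refine ⟨fun t => (e t).mono fun l h => ⟨⟨t, Algebra.span_le_adjoin (T l) _ h⟩, rfl⟩, ?_⟩
  filter_upwards [e 1, eventually_all.mpr fun i => eventually_all.mpr fun j => e (g i * g j)]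
    with l k1 k2
  exact tr_adj_span g k1 k2

end Adj

/-- The filter of subrings containing any given finite set. -/
def trFilter (A : Type*) [CommRing A] : Filter (Subring A) := ⨅ a : A, 𝓟 {U | a ∈ U}

theorem trFilter_mem {A : Type*} [CommRing A] (a : A) : ∀ᶠ U in trFilter A, a ∈ U :=
  mem_iInf_of_mem a (mem_principal_self _)

theorem trFilter_exists {A : Type*} [CommRing A] {P : Subring A → Prop}
    (h : ∀ᶠ U in trFilter A, P U) : ∃ s : Finset A, ∀ U : Subring A, (∀ a ∈ s, a ∈ U) → P U := by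
  obtain ⟨s, hs, h⟩ := (hasBasis_iInf_principal_finite _).eventually_iff.mp h
  exact ⟨hs.toFinset, fun U hU => h (Set.mem_iInter₂.mpr fun a ha =>
    hU a (hs.mem_toFinset.mpr ha))⟩

section Spread

variable {Λ A R S ι κ : Type*} [CommRing A] [CommRing R] [CommRing S] [Algebra A R] [Algebra R S]
  {F : Filter Λ} {TA TR TS : Λ → Type*} [∀ l, CommRing (TA l)] [∀ l, CommRing (TR l)]
  [∀ l, CommRing (TS l)] [∀ l, Algebra (TA l) (TR l)] [∀ l, Algebra (TR l) (TS l)]
  {fA : ∀ l, TA l →+* A} {fR : ∀ l, TR l →+* R} {fS : ∀ l, TS l →+* S}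

theorem tr_res (sA : ∀ t, ∀ᶠ l in F, ∃ t', fA l t' = t) (sR : ∀ t, ∀ᶠ l in F, ∃ t', fR l t' = t)
    (iR : ∀ l, Function.Injective (fR l))
    (cR : ∀ l a, fR l (algebraMap (TA l) (TR l) a) = algebraMap A R (fA l a)) [Finite ι]
    {g : ι → R} (gR : ∀ᶠ l in F, ∃ g' : ι → TR l, (∀ i, fR l (g' i) = g i) ∧
      ⊤ ≤ Submodule.span (TA l) (Set.range g'))
    {Z : Set R} (h : ∀ r, ∃ a, r - algebraMap A R a ∈ Ideal.span Z) :
    ∀ᶠ l in F, ∀ r : TR l, ∃ a, r - algebraMap (TA l) (TR l) a ∈ Ideal.span (fR l ⁻¹' Z) := by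
  choose a ha using h
  filter_upwards [gR, eventually_all.mpr fun i => sA (a (g i)),
    eventually_all.mpr fun i => (trAp_span sR Z).mem iR (ha (g i))] with l ⟨g', k0, k1⟩ k2 k3
  refine tr_res_span _ k1 fun i => ?_
  obtain ⟨a', ha'⟩ := k2 i
  exact ⟨a', k3 i _ (by rw [map_sub, cR, ha', k0])⟩

theorem tr_pi (sA : ∀ t, ∀ᶠ l in F, ∃ t', fA l t' = t) (sR : ∀ t, ∀ᶠ l in F, ∃ t', fR l t' = t)
    (iA : ∀ l, Function.Injective (fA l))
    (cR : ∀ l a, fR l (algebraMap (TA l) (TR l) a) = algebraMap A R (fA l a)) [Fintype ι]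
    {g : ι → R} (gR : ∀ᶠ l in F, ∃ g' : ι → TR l, (∀ i, fR l (g' i) = g i) ∧
      ⊤ ≤ Submodule.span (TA l) (Set.range g'))
    {e : ℕ} {c : A} {π : Fin e → R →ₗ[A] A} {v : Fin e → R}
    (h : ∀ k j, π k (v j) = if k = j then c else 0) :
    ∀ᶠ l in F, ∃ (π' : Fin e → TR l →ₗ[TA l] TA l) (v' : Fin e → TR l),
      ∀ c', fA l c' = c → ∀ k j, π' k (v' j) = if k = j then c' else 0 := by
  filter_upwards [gR, eventually_all.mpr fun i => sR (v i),
    eventually_all.mpr fun k => eventually_all.mpr fun i => sA (π k (g i))]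
    with l ⟨g', k0, k1⟩ k6 k7
  choose v' hv' using k6
  have hsm : ∀ (u : TA l) (y : TR l), fR l (u • y) = fA l u • fR l y := fun u y => by
    rw [Algebra.smul_def, Algebra.smul_def, map_mul, cR]
  have hπ : ∀ k (y : TR l), ∃ a, fA l a = π k (fR l y) := by
    intro k y
    obtain ⟨u, rfl⟩ := (Submodule.mem_span_range_iff_exists_fun _).mp
      (k1 (Submodule.mem_top (x := y)))
    choose a ha using k7 k
    refine ⟨∑ i, u i * a i, ?_⟩
    simp only [map_sum, map_mul, hsm, map_smul, ha, k0, smul_eq_mul]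
  choose p hp using hπ
  refine ⟨fun k =>
    { toFun := p k
      map_add' := fun y z => iA l (by simp only [map_add, hp])
      map_smul' := fun u y => iA l (by
        simp only [hp, hsm, map_smul, smul_eq_mul, map_mul, RingHom.id_apply]) }, v',
    fun c' hc k j => iA l ?_⟩
  show fA l (p k (v' j)) = _
  rw [hp, hv', h]
  split_ifs
  · exact hc.symm
  · exact (map_zero _).symm

theorem tr_w23 (sR : ∀ t, ∀ᶠ l in F, ∃ t', fR l t' = t) (iR : ∀ l, Function.Injective (fR l))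
    (cR : ∀ l a, fR l (algebraMap (TA l) (TR l) a) = algebraMap A R (fA l a))
    {Z : Set R} (hZ : Z.Finite) {d C : ℕ} {x : Fin d → A}
    (h2 : ∀ j, algebraMap A R (x j) ∈ Ideal.span Z)
    (h3 : Ideal.span Z ^ (C + 1) ≤
      Ideal.span (Set.range fun j => algebraMap A R (x j)) * Ideal.span Z ^ C) :
    ∀ᶠ l in F, ∀ x' : Fin d → TA l, (∀ i, fA l (x' i) = x i) →
      (∀ j, algebraMap (TA l) (TR l) (x' j) ∈ Ideal.span (fR l ⁻¹' Z)) ∧
      Ideal.span (fR l ⁻¹' Z) ^ (C + 1) ≤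
        Ideal.span (Set.range fun j => algebraMap (TA l) (TR l) (x' j)) *
          Ideal.span (fR l ⁻¹' Z) ^ C := by
  filter_upwards [eventually_all.mpr fun j => (trAp_span sR Z).mem iR (h2 j),
    ((trAp_span sR _).mul ((trAp_span sR Z).pow sR C)).span_pow_le iR hZ h3] with l k1 k x' hx
  refine ⟨fun j => k1 j _ (by rw [cR, hx]), k.trans (Ideal.mul_mono_left (Ideal.span_mono ?_))⟩
  rintro t ⟨j, hj⟩
  exact ⟨j, iR l (by rw [cR, hx]; exact hj)⟩

theorem tr_w56 (sR : ∀ t, ∀ᶠ l in F, ∃ t', fR l t' = t) (sS : ∀ t, ∀ᶠ l in F, ∃ t', fS l t' = t)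
    (iS : ∀ l, Function.Injective (fS l))
    (cS : ∀ l a, fS l (algebraMap (TR l) (TS l) a) = algebraMap R S (fR l a))
    {Z : Set R} (hZ : Z.Finite) {Y : Set S} (hY : Y.Finite) {N : ℕ}
    (h5 : (Ideal.span Z).map (algebraMap R S) ≤ Ideal.span Y)
    (h6 : Ideal.span Y ^ N ≤ (Ideal.span Z).map (algebraMap R S)) :
    ∀ᶠ l in F, (Ideal.span (fR l ⁻¹' Z)).map (algebraMap (TR l) (TS l)) ≤
        Ideal.span (fS l ⁻¹' Y) ∧
      Ideal.span (fS l ⁻¹' Y) ^ N ≤ (Ideal.span (fR l ⁻¹' Z)).map (algebraMap (TR l) (TS l)) := by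
  rw [Ideal.map_span] at h6
  filter_upwards [(eventually_all_finite hZ).mpr fun z hz => (trAp_span sS Y).mem iS
    (h5 (Ideal.mem_map_of_mem _ (Ideal.subset_span hz))),
    (trAp_span sS _).span_pow_le iS hY h6,
    (eventually_all_finite hZ).mpr fun z _ => sR z] with l k1 k hU
  constructor
  · rw [Ideal.map_span, Ideal.span_le]
    rintro _ ⟨z, hz, rfl⟩
    exact k1 _ hz _ (cS l z)
  · refine k.trans ?_
    rw [Ideal.span_le]
    rintro t ⟨z, hz, ht⟩
    obtain ⟨z', rfl⟩ := hU z hz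
    rw [← iS l ((cS l z').trans ht)]
    exact Ideal.mem_map_of_mem _ (Ideal.subset_span hz)

theorem tr_w7 (sS : ∀ t, ∀ᶠ l in F, ∃ t', fS l t' = t) (iS : ∀ l, Function.Injective (fS l))
    {Y : Set S} (hY : Y.Finite) {d L n k : ℕ} {w : Fin d → S}
    (h7 : ∀ i, w i ∈ Ideal.span Y) (h8 : Ideal.span Y ^ L ≤ Ideal.span (Set.range w))
    (h9 : TrChain (Ideal.span Y) k (powIdeal w n)) :
    ∀ᶠ l in F, ∃ w' : Fin d → TS l, (∀ i, w' i ∈ Ideal.span (fS l ⁻¹' Y)) ∧
      Ideal.span (fS l ⁻¹' Y) ^ L ≤ Ideal.span (Set.range w') ∧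
      TrChain (Ideal.span (fS l ⁻¹' Y)) k (powIdeal w' n) := by
  filter_upwards [eventually_all.mpr fun i => sS (w i),
    eventually_all.mpr fun i => (trAp_span sS Y).mem iS (h7 i),
    (trAp_span sS _).span_pow_le iS hY h8, h9.spread sS iS hY (trAp_span sS _)]
    with l k5 k16 k17 k18
  choose w' hw' using k5
  refine ⟨w', fun i => k16 i _ (hw' i), k17.trans (Ideal.span_mono ?_), ?_⟩
  · rintro t ⟨j, hj⟩
    exact ⟨j, iS l ((hw' j).trans hj)⟩
  · have e : fS l ⁻¹' (Set.range fun i => w i ^ n) = Set.range fun i => w' i ^ n := by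
      ext t
      constructor
      · rintro ⟨j, hj⟩
        exact ⟨j, iS l (by rw [map_pow, hw']; exact hj)⟩
      · rintro ⟨j, rfl⟩
        exact ⟨j, by simp only [map_pow, hw']⟩
    rwa [e] at k18

theorem TrWit.spread_aux [IsNoetherianRing R] [IsNoetherianRing S]
    (sA : ∀ t, ∀ᶠ l in F, ∃ t', fA l t' = t) (sR : ∀ t, ∀ᶠ l in F, ∃ t', fR l t' = t)
    (sS : ∀ t, ∀ᶠ l in F, ∃ t', fS l t' = t) (iA : ∀ l, Function.Injective (fA l))
    (iR : ∀ l, Function.Injective (fR l)) (iS : ∀ l, Function.Injective (fS l))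
    (cR : ∀ l a, fR l (algebraMap (TA l) (TR l) a) = algebraMap A R (fA l a))
    (cS : ∀ l a, fS l (algebraMap (TR l) (TS l) a) = algebraMap R S (fR l a))
    [Fintype ι] [Fintype κ] {g : ι → R} {b : κ → S}
    (gR : ∀ᶠ l in F, ∃ g' : ι → TR l, (∀ i, fR l (g' i) = g i) ∧
      ⊤ ≤ Submodule.span (TA l) (Set.range g'))
    (gS : ∀ᶠ l in F, ∃ b' : κ → TS l, (∀ i, fS l (b' i) = b i) ∧
      ⊤ ≤ Submodule.span (TR l) (Set.range b'))
    {d : ℕ} {x : Fin d → A} {c : A} {e n k : ℕ} (h : TrWit A R S x c e n k) :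
    ∀ᶠ l in F, ∀ (x' : Fin d → TA l) (c' : TA l), (∀ i, fA l (x' i) = x i) → fA l c' = c →
      TrWit (TA l) (TR l) (TS l) x' c' e n k := by
  obtain ⟨m, q, w, C, N, L, π, v, h1, h2, h3, h4, h5, h6, h7, h8, h9, h10⟩ := h
  obtain ⟨Z, hZ, rfl⟩ := Submodule.fg_def.mp (IsNoetherian.noetherian m)
  obtain ⟨Y, hY, rfl⟩ := Submodule.fg_def.mp (IsNoetherian.noetherian q)
  filter_upwards [tr_res sA sR iR cR gR h1, tr_w23 sR iR cR hZ h2 h3, tr_res sR sS iS cS gS h4,
    tr_w56 sR sS iS cS hZ hY h5 h6, tr_w7 sS iS hY h7 h8 h9, tr_pi sA sR iA cR gR h10]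
    with l k1 k2 k4 ⟨k5, k6⟩ ⟨w', k7, k8, k9⟩ ⟨π', v', k10⟩ x' c' hx hc
  exact ⟨_, _, w', C, N, L, π', v', k1, (k2 x' hx).1, (k2 x' hx).2, k4, k5, k6, k7, k8, k9,
    k10 c' hc⟩

end Spread

universe v

theorem TrWit.spread_two {Λ A R ι : Type*} {S : Type v} [CommRing A] [CommRing R] [CommRing S]
    [Algebra A R] [Algebra R S] [IsNoetherianRing R] [Module.Free R S] [Module.Finite R S]
    [Nontrivial S] {F : Filter Λ} {TA TR : Λ → Type*} [∀ l, CommRing (TA l)]
    [∀ l, CommRing (TR l)] [∀ l, Algebra (TA l) (TR l)] [∀ l, Algebra (TR l) R]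
    [∀ l, Algebra (TR l) S] [∀ l, IsScalarTower (TR l) R S] {fA : ∀ l, TA l →+* A}
    (sA : ∀ t, ∀ᶠ l in F, ∃ t', fA l t' = t)
    (sR : ∀ t, ∀ᶠ l in F, ∃ t', algebraMap (TR l) R t' = t) (iA : ∀ l, Function.Injective (fA l))
    (iR : ∀ l, Function.Injective (algebraMap (TR l) R))
    (cR : ∀ l a, algebraMap (TR l) R (algebraMap (TA l) (TR l) a) = algebraMap A R (fA l a))
    [Fintype ι] {g : ι → R}
    (gR : ∀ᶠ l in F, ∃ g' : ι → TR l, (∀ i, algebraMap (TR l) R (g' i) = g i) ∧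
      ⊤ ≤ Submodule.span (TA l) (Set.range g'))
    {d : ℕ} {x : Fin d → A} {c : A} {e n k : ℕ} (h : TrWit A R S x c e n k) :
    ∀ᶠ l in F, ∃ (S₀ : Type v) (_ : CommRing S₀) (_ : Algebra (TR l) S₀), Nontrivial S₀ ∧
      Module.Free (TR l) S₀ ∧ Module.Finite (TR l) S₀ ∧
      ∀ (x' : Fin d → TA l) (c' : TA l), (∀ i, fA l (x' i) = x i) → fA l c' = c →
        TrWit (TA l) (TR l) S₀ x' c' e n k := by
  classical
  have : IsNoetherianRing S := IsNoetherianRing.of_finite R S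
  have : Nontrivial R := Module.nontrivial R S
  let b := Module.Free.chooseBasis R S
  obtain ⟨sS, gS⟩ := tr_level (T := TR) b sR b.span_eq.ge
  have key := TrWit.spread_aux (TS := fun l => Algebra.adjoin (TR l) (Set.range b))
    (fR := fun l => algebraMap (TR l) R)
    (fS := fun l => algebraMap (Algebra.adjoin (TR l) (Set.range b)) S) sA sR sS iA iR
    (fun _ => Subtype.val_injective) cR (fun l a => IsScalarTower.algebraMap_apply (TR l) R S a)
    gR (b := b) (gS.mono fun l hl => ⟨_, fun _ => rfl, hl⟩) h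
  filter_upwards [gS, key] with l k2 k3
  have : FaithfulSMul (TR l) R := (faithfulSMul_iff_algebraMap_injective _ _).mpr (iR l)
  let b' : Module.Basis _ (TR l) (Algebra.adjoin (TR l) (Set.range b)) :=
    Module.Basis.mk (v := trGen (TR l) b)
      (LinearIndependent.of_comp (Algebra.adjoin (TR l) (Set.range b)).val.toLinearMap
        (b.linearIndependent.restrict_scalars' (TR l))) k2
  exact ⟨_, _, _, inferInstance, .of_basis b', .of_basis b', k3⟩

theorem TrWit.spread_one {Λ A : Type*} {R S : Type v} [CommRing A] [CommRing R] [CommRing S]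
    [Algebra A R] [Algebra R S] [IsNoetherianRing A] [Module.Finite A R] [Module.Free R S]
    [Module.Finite R S] [Nontrivial S] {F : Filter Λ} {TA : Λ → Type*} [∀ l, CommRing (TA l)]
    [∀ l, Algebra (TA l) A] [∀ l, Algebra (TA l) R] [∀ l, IsScalarTower (TA l) A R]
    (sA : ∀ t, ∀ᶠ l in F, ∃ t', algebraMap (TA l) A t' = t)
    (iA : ∀ l, Function.Injective (algebraMap (TA l) A))
    {d : ℕ} {x : Fin d → A} {c : A} {e n k : ℕ} (h : TrWit A R S x c e n k) :
    ∀ᶠ l in F, ∃ (R₀ S₀ : Type v) (_ : CommRing R₀) (_ : CommRing S₀) (_ : Algebra (TA l) R₀)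
      (_ : Algebra R₀ S₀), Module.Finite (TA l) R₀ ∧ Nontrivial S₀ ∧
      Module.Free R₀ S₀ ∧ Module.Finite R₀ S₀ ∧
      ∀ (x' : Fin d → TA l) (c' : TA l), (∀ i, algebraMap (TA l) A (x' i) = x i) →
        algebraMap (TA l) A c' = c → TrWit (TA l) R₀ S₀ x' c' e n k := by
  classical
  have : IsNoetherianRing R := IsNoetherianRing.of_finite A R
  obtain ⟨m, g, hg⟩ := Module.Finite.exists_fin (R := A) (M := R)
  obtain ⟨sR, gR⟩ := tr_level (T := TA) g sA hg.ge
  have key := h.spread_two (TR := fun l => Algebra.adjoin (TA l) (Set.range g))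
    (fA := fun l => algebraMap (TA l) A) sA sR iA (fun _ => Subtype.val_injective)
    (fun l a => IsScalarTower.algebraMap_apply (TA l) A R a) (g := g)
    (gR.mono fun l hl => ⟨_, fun _ => rfl, hl⟩)
  filter_upwards [gR, key] with l k1 ⟨S₀, _, _, k2⟩
  exact ⟨_, S₀, _, _, _, _,
    ⟨⟨Finset.univ.image (trGen (TA l) g), by simpa using top_le_iff.mp k1⟩⟩, k2⟩

theorem TrWit.spread {A : Type*} {R S : Type v} [CommRing A] [CommRing R] [CommRing S]
    [Algebra A R] [Algebra R S] [IsNoetherianRing A] [Module.Finite A R] [Module.Free R S]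
    [Module.Finite R S] [Nontrivial S] {d : ℕ} {x : Fin d → A} {c : A} {e n k : ℕ}
    (h : TrWit A R S x c e n k) : ∃ s : Finset A, ∀ U : Subring A, (∀ a ∈ s, a ∈ U) →
      ∃ (R₀ S₀ : Type v) (_ : CommRing R₀) (_ : CommRing S₀) (_ : Algebra U R₀)
      (_ : Algebra R₀ S₀), Module.Finite U R₀ ∧ Nontrivial S₀ ∧
      Module.Free R₀ S₀ ∧ Module.Finite R₀ S₀ ∧
      ∀ (x' : Fin d → U) (c' : U), (∀ i, algebraMap U A (x' i) = x i) →
        algebraMap U A c' = c → TrWit U R₀ S₀ x' c' e n k :=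
  trFilter_exists (h.spread_one (TA := fun U : Subring A => U)
    (fun t => (trFilter_mem t).mono fun _ hU => ⟨⟨t, hU⟩, rfl⟩) fun _ => Subtype.val_injective)

end Vale.Agent.P202
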