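import Vale.Agent.P202.Core
import Vale.Agent.P202.Approx
import Vale.Agent.P202.LocalW
import Vale.Agent.P202.TransferAux2

/-! The core inequality in characteristic zero, by reduction to prime characteristic. -/

namespace Vale.Agent.P202

open IsLocalRing TensorProduct

universe u

theorem tr_reduction {R : Type*} [CommRing R] [IsNoetherianRing R] {I m : Ideal R} (hI : I ≤ m)
    {C : ℕ} (hC : ∀ t, m ^ (t + C) ≤ I ^ t) : ∃ C', m ^ (C' + 1) ≤ I * m ^ C' := by
  let F : I.Filtration R :=
    { N := fun t => m ^ (t + C)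
      mono := fun i => Ideal.pow_le_pow_right (by omega)
      smul_le := fun i => by
        rw [smul_eq_mul, add_right_comm, pow_succ']
        exact Ideal.mul_mono_left hI }
  obtain ⟨n, hn⟩ := (I.stableFiltration_stable ⊤).of_le (F' := F) fun t => by
    simpa [F] using hC t
  refine ⟨n + C, ?_⟩
  have := hn n le_rfl
  simp only [F, smul_eq_mul] at this
  rw [this, add_right_comm]

theorem tr_fibre (R S : Type*) [CommRing R] [IsLocalRing R] [CommRing S] [IsLocalRing S]
    [IsNoetherianRing S] [Algebra R S] [Module.Finite R S] :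
    ∃ N, maximalIdeal S ^ N ≤ (maximalIdeal R).map (algebraMap R S) := by
  refine Ideal.exists_pow_le_of_le_radical_of_fg ?_ (IsNoetherian.noetherian _)
  rw [Ideal.radical_eq_sInf, le_sInf_iff]
  rintro P ⟨h1, h2⟩
  have h3 : (P.comap (algebraMap R S)).IsMaximal := by
    rw [← (maximalIdeal.isMaximal R).eq_of_le (Ideal.comap_ne_top _ h2.ne_top)
      (Ideal.map_le_iff_le_comap.mp h1)]
    infer_instance
  exact (eq_maximalIdeal (Ideal.isMaximal_of_isIntegral_of_isMaximal_comap P h3)).ge

attribute [local instance] Algebra.TensorProduct.rightAlgebra in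
theorem TrWit.le_of_map {K : Type u} [Field K] (hK : CoreIneq K) {d : ℕ} {U R S : Type u}
    [CommRing U] [CommRing R] [CommRing S] [Algebra U R] [Algebra R S] [Module.Finite U R]
    [Module.Free R S] [Module.Finite R S] [Nontrivial S] {x : Fin d → U} {c : U} {e n l : ℕ}
    (h : TrWit U R S x c e n l) (φ : U →+* PS K d) (hx : ∀ i, φ (x i) = MvPowerSeries.X i)
    (hc : φ c ≠ 0) : e * n ^ d ≤ l := by
  rcases Nat.eq_zero_or_pos e with rfl | he
  · simp
  let _ := φ.toAlgebra
  have h1 := h.baseChange (PS K d)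
  have h2 : (fun j => algebraMap U (PS K d) (x j)) = MvPowerSeries.X := funext hx
  rw [h2] at h1
  have : Nontrivial (PS K d ⊗[U] R) := by
    obtain ⟨-, -, -, -, -, -, π, v, -, -, -, -, -, -, -, -, -, h3⟩ := h1
    refine nontrivial_of_ne (v ⟨0, he⟩) 0 fun h0 => hc ?_
    have := h3 ⟨0, he⟩ ⟨0, he⟩
    rw [h0, map_zero, if_pos rfl] at this
    exact this.symm
  exact h1.le_of_core hK hc

theorem coreIneq_charZero (K : Type u) [Field K] [CharZero K] : CoreIneq K := by
  rintro d R S _ _ _ _ _ _ _ _ _ _ _ _ _ hres ⟨C, hC⟩ w hw ⟨L, hL⟩ n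
  have : IsDomain (PS K d) := NoZeroDivisors.to_isDomain _
  have : IsNoetherianRing R := IsNoetherianRing.of_finite (PS K d) R
  have : IsNoetherianRing S := IsNoetherianRing.of_finite R S
  have hS : IsCL K S := by
    let _ : Algebra (PS K d) S := ((algebraMap R S).comp (algebraMap (PS K d) R)).toAlgebra
    have : IsScalarTower (PS K d) R S := IsScalarTower.of_algebraMap_eq fun _ => rfl
    have : IsScalarTower K (PS K d) S := IsScalarTower.of_algebraMap_eq fun a => by
      rw [IsScalarTower.algebraMap_apply K R S, IsScalarTower.algebraMap_apply K (PS K d) R]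
      rfl
    have : Module.Finite (PS K d) S := Module.Finite.trans R S
    exact isCL_of_finite (d := d) hres
  obtain ⟨c, π, ι, hc, -, hπι⟩ := exists_pi_iota (A := PS K d) (R := R)
  have hX : ∀ j, algebraMap (PS K d) R (MvPowerSeries.X j) ∈ maximalIdeal R := fun j =>
    map_maximalIdeal_le_of_finite (PS K d) R (by
      rw [← varIdeal_eq_maximalIdeal]; exact Ideal.subset_span ⟨j, rfl⟩)
  have hX' : (varIdeal K d).map (algebraMap (PS K d) R) =
      Ideal.span (Set.range fun j => algebraMap (PS K d) R (MvPowerSeries.X j)) := by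
    rw [varIdeal, Ideal.map_span, ← Set.range_comp]; rfl
  obtain ⟨C', hC'⟩ := tr_reduction (I := Ideal.span (Set.range fun j =>
    algebraMap (PS K d) R (MvPowerSeries.X j))) (m := maximalIdeal R)
    (by rw [Ideal.span_le]; rintro _ ⟨j, rfl⟩; exact hX j)
    (C := C) fun t => by rw [← hX', ← Ideal.map_pow]; exact hC t
  obtain ⟨N, hN⟩ := tr_fibre R S
  have hwit : TrWit (PS K d) R S MvPowerSeries.X c (Module.finrank (PS K d) R) n
      (Module.finrank K (S ⧸ powIdeal w n)) := by
    refine ⟨maximalIdeal R, maximalIdeal S, w, C', N, L, fun k => LinearMap.proj k ∘ₗ π,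
      fun j => ι (Pi.single j 1), fun r => ?_, hX, hC', fun s => ?_, ?_, hN, hw, hL,
      trChain_of_finrank hS (N := L * (d * n + 1)) ?_ le_rfl, fun k j => ?_⟩
    · obtain ⟨a, ha⟩ := hres (algebraMap R S r)
      refine ⟨algebraMap K _ a, ?_⟩
      rw [← IsScalarTower.algebraMap_apply]
      rw [IsScalarTower.algebraMap_apply K R S, ← map_sub] at ha
      exact le_maximalIdeal (Ideal.comap_ne_top _ (maximalIdeal.isMaximal S).ne_top) ha
    · obtain ⟨a, ha⟩ := hres s
      exact ⟨algebraMap K R a, by rwa [← IsScalarTower.algebraMap_apply]⟩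
    · rw [Ideal.map_le_iff_le_comap]
      exact fun x hx => map_maximalIdeal_le_of_finite R S hx
    · rw [pow_mul]
      exact (Ideal.pow_right_mono hL _).trans (span_pow_le_powIdeal _ n)
    · rw [LinearMap.comp_apply, hπι, LinearMap.proj_apply, Pi.smul_apply, Pi.single_apply]
      split_ifs <;> simp
  obtain ⟨s, hs⟩ := hwit.spread
  obtain ⟨p, _, K', _, _, _, U, h, hXU, hcU, hsU, hhX, hhc⟩ := exists_specialization K d s c hc
  obtain ⟨R₀, S₀, _, _, _, _, _, _, _, _, h0⟩ := hs U hsU
  exact (h0 (fun i => ⟨_, hXU i⟩) ⟨c, hcU⟩ (fun _ => rfl) rfl).le_of_map (coreIneq_charP p K')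
    h hhX hhc

end Vale.Agent.P202
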