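import Vale.Agent.P202.MxModelDef
import Vale.Agent.P202.MxGonfl
import Vale.Agent.P202.LocalizeAux
import Vale.Agent.P202.Transfer

/-! Existence of the model. -/

namespace Vale.Agent.P202

open IsLocalRing

universe u

theorem me_dim (A : Type*) [CommRing A] [IsLocalRing A] [IsNoetherianRing A] :
    ringKrullDim A = dimNat A := by
  rw [← IsLocalRing.maximalIdeal_height_eq_ringKrullDim, ← dimNat_eq_height]
  rfl

theorem me_inj {P R : Type*} [CommRing P] [IsDomain P] [CommRing R] (ψ : P →+* R)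
    (hfin : ψ.Finite) (n : ℕ) (hP : ringKrullDim P ≤ n) (hR : ringKrullDim R = n) :
    Function.Injective ψ := by
  refine (injective_iff_map_eq_zero ψ).2 fun g hg => ?_
  by_contra h0
  let ψ' : P ⧸ Ideal.span {g} →+* R := Ideal.Quotient.lift _ ψ fun a ha => by
    obtain ⟨c, rfl⟩ := Ideal.mem_span_singleton'.1 ha
    rw [map_mul, hg, mul_zero]
  have h1 : ψ'.Finite := RingHom.Finite.of_comp_finite (f := Ideal.Quotient.mk _) hfin
  let := ψ'.toAlgebra
  have : Module.Finite (P ⧸ Ideal.span {g}) R := h1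
  have h2 : ringKrullDim R ≤ ringKrullDim (P ⧸ Ideal.span {g}) :=
    Order.krullDim_le_of_strictMono (PrimeSpectrum.comap (algebraMap _ R)) fun I J h =>
      Ideal.IsIntegral.comap_lt_comap (R := P ⧸ Ideal.span {g}) h
  have h3 := ringKrullDim_quotient_succ_le_of_nonZeroDivisor (mem_nonZeroDivisors_of_ne_zero h0)
  have h4 : ((n + 1 : ℕ) : WithBot ℕ∞) ≤ (n : ℕ) := by
    rw [Nat.cast_succ, ← hR]
    exact (add_le_add_left h2 1).trans (h3.trans (hP.trans hR.ge))
  exact absurd (Nat.cast_le.1 h4) (by omega)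

theorem me_exists_isRed {T : Type*} [CommRing T] [IsLocalRing T] [IsNoetherianRing T]
    [Infinite (ResidueField T)] {d : ℕ} (hd : dimNat T = d) : ∃ x : Fin d → T, IsRed x :=
  hd ▸ exists_isRed T

theorem exists_isRed_sop (p : ℕ) (R : Type u) [CommRing R] [IsLocalRing R] [IsNoetherianRing R]
    [IsDomain R] [Infinite (ResidueField R)] (hp0 : (p : R) ≠ 0) (hp : (p : R) ∈ maximalIdeal R) :
    ∃ (d : ℕ) (x : Fin (d + 1) → R), dimNat R = d + 1 ∧ IsRed x ∧ ∃ L : ℕ,
      maximalIdeal R ^ L ≤ Ideal.span {(p : R)} ⊔ Ideal.span (Set.range fun i => x (Fin.succ i)) := by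
  let π := Ideal.Quotient.mk (Ideal.span {(p : R)})
  have hle : Ideal.span {(p : R)} ≤ maximalIdeal R := (Ideal.span_singleton_le_iff_mem _).2 hp
  have : Nontrivial (R ⧸ Ideal.span {(p : R)}) := Ideal.Quotient.nontrivial_iff.2
    (ne_top_of_le_ne_top (maximalIdeal.isMaximal R).ne_top hle)
  have : IsLocalRing (R ⧸ Ideal.span {(p : R)}) :=
    IsLocalRing.of_surjective' π Ideal.Quotient.mk_surjective
  have : IsLocalHom π := IsLocalHom.of_surjective π Ideal.Quotient.mk_surjective
  have : Infinite (ResidueField (R ⧸ Ideal.span {(p : R)})) :=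
    Infinite.of_injective _ (ResidueField.map π).injective
  have hm : (maximalIdeal R).map π = maximalIdeal _ :=
    IsLocalRing.map_maximalIdeal_of_surjective π Ideal.Quotient.mk_surjective
  have hd : dimNat R = dimNat (R ⧸ Ideal.span {(p : R)}) + 1 := by
    have h1 := ringKrullDim_quotient_span_singleton_succ_eq_ringKrullDim_of_mem_nonZeroDivisors
      (mem_nonZeroDivisors_of_ne_zero hp0) hp
    rw [me_dim, me_dim] at h1
    exact_mod_cast h1.symm
  generalize hd' : dimNat (R ⧸ Ideal.span {(p : R)}) = d at hd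
  obtain ⟨x, hx, C, hC⟩ := me_exists_isRed hd
  obtain ⟨C1, hC1⟩ := tr_reduction (Ideal.span_le.2 (Set.range_subset_iff.2 hx)) hC
  have hx' : ∀ i, π (x i) ∈ maximalIdeal _ := fun i => hm ▸ Ideal.mem_map_of_mem π (hx i)
  obtain ⟨l, C2, hC2⟩ := reduction_step π Ideal.Quotient.mk_surjective
    (IsNoetherian.noetherian _) x hx' C1 (by
      have := Ideal.map_mono (f := π) hC1
      rwa [Ideal.map_mul, Ideal.map_pow, Ideal.map_pow, hm, Ideal.map_span,
        ← Set.range_comp] at this)
    fun h => absurd (hd' ▸ h.le_dimNat hx') (by omega)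
  let y : Fin (d + 1) → R := Fin.cons (x 0) fun i => x i.succ - l i * x 0
  have hy : Ideal.span (Set.range x) ≤ Ideal.span (Set.range y) := by
    have h0 : x 0 ∈ Ideal.span (Set.range y) := Ideal.subset_span ⟨0, rfl⟩
    refine Ideal.span_le.2 (Set.range_subset_iff.2 fun i => ?_)
    induction i using Fin.cases with
    | zero => exact h0
    | succ i =>
      rw [← sub_add_cancel (x i.succ) (l i * x 0)]
      exact add_mem (Ideal.subset_span ⟨i.succ, rfl⟩) (Ideal.mul_mem_left _ _ h0)
  refine ⟨d, y, hd, ⟨fun i => ?_, C, fun t => (hC t).trans (Ideal.pow_right_mono hy t)⟩,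
    C2 + 1, ?_⟩
  · induction i using Fin.cases with
    | zero => exact hx 0
    | succ i => exact sub_mem (hx _) (Ideal.mul_mem_left _ _ (hx 0))
  · have h1 := Ideal.comap_mono (f := π) (hC2.trans Ideal.mul_le_left)
    rw [Set.range_comp, ← Ideal.map_span, Ideal.comap_map_of_surjective π
      Ideal.Quotient.mk_surjective, ← RingHom.ker_eq_comap_bot, Ideal.mk_ker, ← hm,
      ← Ideal.map_pow, sup_comm] at h1
    exact Ideal.le_comap_map.trans h1

theorem exists_W_model (p : ℕ) [Fact p.Prime] (R S : Type u) [CommRing R] [IsLocalRing R]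
    [IsNoetherianRing R] [IsDomain R] [IsAdicComplete (maximalIdeal R) R]
    [Infinite (ResidueField R)] [CommRing S] [IsLocalRing S] [IsNoetherianRing S]
    [IsAdicComplete (maximalIdeal S) S] [CharP (ResidueField S) p]
    [PerfectRing (ResidueField S) p] [Algebra R S] [IsLocalHom (algebraMap R S)]
    [Module.Flat R S] (hp0 : (p : R) ≠ 0) (L : ℕ)
    (hL : maximalIdeal S ^ L ≤ (maximalIdeal R).map (algebraMap R S)) :
    ∃ (V : Type u) (_ : CommRing V) (_ : IsLocalRing V) (d r : ℕ)
      (_ : Algebra (PS V d) (PS (WittVector p (ResidueField S)) (d + r))) (_ : Algebra (PS V d) R)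
      (_ : Algebra (PS (WittVector p (ResidueField S)) (d + r)) S) (x : Fin (d + 1) → R),
      dimNat R = d + 1 ∧ IsWModel p V (WittVector p (ResidueField S)) d r R S x := by
  have hpS : (p : S) ∈ maximalIdeal S := by
    rw [← residue_eq_zero_iff, map_natCast, CharP.cast_eq_zero]
  have hpR : (p : R) ∈ maximalIdeal R := fun h =>
    hpS (map_natCast (algebraMap R S) p ▸ h.map (algebraMap R S))
  have hsep : ∀ b : S, (∀ N : ℕ, b ∈ maximalIdeal S ^ N) → b = 0 := fun b hb =>
    IsHausdorff.haus' (I := maximalIdeal S) b fun N => by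
      rw [SModEq.zero, smul_top_ideal]
      exact hb N
  obtain ⟨V, _, _, c, hV, hres⟩ := exists_coeffRing p R hpR
  obtain ⟨d, x, hd, hx, L0, hL0⟩ := exists_isRed_sop p R hp0 hpR
  obtain ⟨ψ, hψC, hψX, hψf, -⟩ := hV.exists_psMap (IsNoetherian.noetherian _) c hres hpR
    (fun i => x (Fin.succ i)) fun i => hx.1 _
  have hψf' := hψf ⟨L0, hL0⟩
  have hpX : ∀ {U : Type u} [CommRing U] [IsLocalRing U] (_ : IsPRing p U) (n : ℕ),
      (p : PS U n) ∈ maximalIdeal (PS U n) := fun hU n =>
    hU.span_pX n ▸ Ideal.subset_span ⟨0, rfl⟩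
  have hinj : Function.Injective ψ := by
    have := hV.isDomain
    have : IsDomain (PS V d) := NoZeroDivisors.to_isDomain _
    have := hV.ps_complete d
    have : IsNoetherianRing (PS V d) := isNoetherianRing_of_complete p _ (hpX hV d)
      (hV.span_pX d ▸ Submodule.fg_span (Set.finite_range _))
    refine me_inj ψ hψf' (d + 1) (ringKrullDim_le_of_primary (pX p V d)
      (fun i => hV.span_pX d ▸ Ideal.subset_span ⟨i, rfl⟩) 1 ?_) (by rw [me_dim, hd])
    rw [pow_one, hV.span_pX]
  have hW := isPRing_witt p (ResidueField S)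
  obtain ⟨cS, hcS⟩ := hW.exists_lift (residue S) residue_surjective
    (fun b hb => by simpa [ker_residue] using hb 1) hpS WittVector.constantCoeff
  have hresS : ∀ t : S, ∃ v, t - cS v ∈ maximalIdeal S := fun t => by
    obtain ⟨v, hv⟩ := witt_constantCoeff_surjective p (ResidueField S) (residue S t)
    refine ⟨v, ?_⟩
    rw [← residue_eq_zero_iff, map_sub, ← hv, ← hcS, RingHom.comp_apply, sub_self]
  obtain ⟨r, y, hy⟩ := Submodule.fg_iff_exists_fin_generating_family.mp
    (IsNoetherian.noetherian (maximalIdeal S))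
  replace hy : Ideal.span (Set.range y) = maximalIdeal S := hy
  have hy' : ∀ i, y i ∈ maximalIdeal S := fun i => hy ▸ Ideal.subset_span ⟨i, rfl⟩
  obtain ⟨ω, hωC, hωX, -, hω⟩ := hW.exists_psMap (IsNoetherian.noetherian _) cS hresS hpS y hy'
  replace hω := hω (by rw [hy, sup_eq_right, Ideal.span_singleton_le_iff_mem]; exact hpS)
  have := hW.ps_complete r
  obtain ⟨j, hj⟩ := hV.exists_lift ω hω (fun b hb => hsep _ fun N => by
    obtain ⟨u, hu, v, hv, rfl⟩ := Submodule.mem_sup.1 (hb N)
    rw [map_add, (RingHom.mem_ker).1 hu, zero_add,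
      ← IsLocalRing.map_maximalIdeal_of_surjective ω hω, ← Ideal.map_pow]
    exact Ideal.mem_map_of_mem _ hv) (hpX hW r) ((algebraMap R S).comp c)
  obtain ⟨θ, τ, hθ, hθX, hτX, hθC⟩ := exists_theta_mixed p hV hW d r j
  let z : Fin (d + r) → S := Fin.addCases (fun i => algebraMap R S (x i.succ)) y
  have hz : ∀ i, z i ∈ maximalIdeal S := by
    intro i
    induction i using Fin.addCases with
    | left i => simpa only [z, Fin.addCases_left] using map_nonunit (algebraMap R S) _ (hx.1 _)
    | right i => simpa only [z, Fin.addCases_right] using hy' i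
  obtain ⟨χ, hχC, hχX, -, -⟩ := hW.exists_psMap (IsNoetherian.noetherian _) cS hresS hpS z hz
  have hχτ : χ.comp τ.toRingHom = ω := by
    refine psMap_unique_filt (maximalIdeal S) hsep _ _ (fun v => ?_) (fun i => ?_) fun i => ?_
    · rw [hωC, ← hχC]
      exact congrArg χ (τ.commutes v)
    · exact (congrArg χ (hτX i)).trans (by
        rw [hχX, hωX]
        simp only [z, Fin.addCases_right])
    · exact (congrArg χ (hτX i)).symm ▸ (hχX _).symm ▸ hz _
  have hχs : Function.Surjective χ := fun b => by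
    obtain ⟨a, rfl⟩ := hω b
    exact ⟨τ a, RingHom.congr_fun hχτ a⟩
  have hcompat : χ.comp θ = (algebraMap R S).comp ψ := by
    refine psMap_unique_filt (maximalIdeal S) hsep _ _ (fun v => ?_) (fun i => ?_) fun i => ?_
    · rw [RingHom.comp_apply, RingHom.comp_apply, hθC, hψC]
      exact (RingHom.congr_fun hχτ (j v)).trans (RingHom.congr_fun hj v)
    · rw [RingHom.comp_apply, RingHom.comp_apply, hθX, hχX, hψX]
      simp only [z, Fin.addCases_left]
    · rw [RingHom.comp_apply, hθX, hχX]
      exact hz _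
  let a1 := θ.toAlgebra
  let a2 := ψ.toAlgebra
  let a3 := χ.toAlgebra
  refine ⟨V, inferInstance, inferInstance, d, r, a1, a2, a3, x, hd, hV, hW, hθ, hθX, hψf', hinj,
    fun b => ?_, hx, fun i => (hψX i).symm, RingHom.congr_fun hcompat, hχs, inferInstance,
    inferInstance, L, hL⟩
  obtain ⟨v, hv⟩ := hres b
  exact ⟨MvPowerSeries.C v, (hψC v).symm ▸ hv⟩

end Vale.Agent.P202
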