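import Vale.Agent.P202.MxModelFin
import Vale.Agent.P202.MxModelEx
import Vale.Agent.P202.MxAssoc
import Vale.Agent.P202.MxLoc
import Vale.Agent.P202.Final
import Vale.Agent.P202.CoreT
import Vale.Agent.P202.Transfer

/-! The general case. -/

namespace Vale.Agent.P202

open IsLocalRing Filter Topology

universe u

theorem mult_le_of_equal_char (R S : Type u) [CommRing R] [IsLocalRing R] [IsNoetherianRing R]
    [CommRing S] [IsLocalRing S] [IsNoetherianRing S] [Algebra R S]
    [IsLocalHom (algebraMap R S)] [Module.Flat R S]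
    (hchar : ringChar R = ringChar (ResidueField R)) : mult R ≤ mult S := by
  rcases CharP.char_is_prime_or_zero (ResidueField R) (ringChar (ResidueField R)) with hp | hp
  · have : Fact (ringChar (ResidueField R)).Prime := ⟨hp⟩
    have : CharP R (ringChar (ResidueField R)) := hchar ▸ ringChar.charP R
    let ι : ZMod (ringChar (ResidueField R)) →+* R := ZMod.castHom (dvd_refl _) R
    cases finite_or_infinite (ResidueField R) with
    | inl h =>
      refine mult_le_of_core R S _ ι fun K _ _ hK => ?_
      obtain ⟨f⟩ := hK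
      have : CharP K (ringChar (ResidueField R)) := charP_of_injective_ringHom f.injective _
      exact coreIneq_charP (ringChar (ResidueField R)) K
    | inr h =>
      exact mult_le_of_coreT (ringChar (ResidueField R)) R S
        fun l _ _ _ => coreIneqT_charP (ringChar (ResidueField R)) l
  · have : CharP (ResidueField R) 0 := hp ▸ ringChar.charP (ResidueField R)
    have : CharZero (ResidueField R) := CharP.charP_to_charZero _
    have hu : ∀ y : nonZeroDivisors ℤ, IsUnit (Int.castRingHom R y) := fun y => by
      rw [← residue_ne_zero_iff_isUnit, eq_intCast, map_intCast, Int.cast_ne_zero]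
      exact nonZeroDivisors.coe_ne_zero y
    let ι : ℚ →+* R := IsLocalization.lift hu
    refine mult_le_of_core R S ℚ ι fun K _ _ hK => ?_
    obtain ⟨f⟩ := hK
    have : CharZero K := charZero_of_injective_ringHom f.injective
    exact coreIneq_charZero K

theorem mf_charP (p : ℕ) [Fact p.Prime] (R : Type*) [CommRing R] [IsLocalRing R]
    (hp : (p : R) ∈ maximalIdeal R) : CharP (ResidueField R) p :=
  (CharP.charP_iff_prime_eq_zero Fact.out).2 (by
    rw [← map_natCast (residue R), residue_eq_zero_iff]
    exact hp)

theorem mf_p_mem (p : ℕ) {R S : Type*} [CommRing R] [IsLocalRing R] [CommRing S] [IsLocalRing S]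
    (f : R →+* S) [IsLocalHom f] (hp : (p : R) ∈ maximalIdeal R) : (p : S) ∈ maximalIdeal S :=
  map_natCast f p ▸ map_nonunit f _ hp

theorem mf_complete {R S : Type*} [CommRing R] [IsLocalRing R] [IsNoetherianRing R]
    [IsAdicComplete (maximalIdeal R) R] [CommRing S] [IsLocalRing S] (f : R →+* S)
    (hf : Function.Surjective f) : IsAdicComplete (maximalIdeal S) S := by
  let := f.toAlgebra
  have : Module.Finite R S := RingHom.Finite.of_surjective f hf
  exact isAdicComplete_of_finite_local (A := R)

theorem mult_le_of_mixed_domain (p : ℕ) [Fact p.Prime] (R S : Type u) [CommRing R] [IsLocalRing R]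
    [IsNoetherianRing R] [IsDomain R] [IsAdicComplete (maximalIdeal R) R]
    [Infinite (ResidueField R)] [CommRing S] [IsLocalRing S] [IsNoetherianRing S]
    [IsAdicComplete (maximalIdeal S) S] [IsAlgClosed (ResidueField S)] [Algebra R S]
    [IsLocalHom (algebraMap R S)] [Module.Flat R S] (hp : (p : R) ∈ maximalIdeal R)
    (hp0 : (p : R) ≠ 0) (L : ℕ)
    (hL : maximalIdeal S ^ L ≤ (maximalIdeal R).map (algebraMap R S)) : mult R ≤ mult S := by
  have := mf_charP p S (mf_p_mem p (algebraMap R S) hp)
  obtain ⟨V, _, _, d, r, _, _, _, x, hd, h⟩ := exists_W_model p R S hp0 L hL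
  have hdS : dimNat S = d + 1 := (dimNat_eq_of_flat L hL).trans hd
  obtain ⟨w, hw⟩ := me_exists_isRed hdS
  obtain ⟨C, hC⟩ := hw.2
  obtain ⟨C', hC'⟩ := h.red.2
  exact h.le w hw.1 (1 + C) (by simpa using hC 1) (mult R) (mult S)
    (mult_mul_pow_le hd x h.red.1 (1 + C') (by simpa using hC' 1)) (hw.tendsto hdS)

theorem mult_le_general (R S : Type u) [CommRing R] [IsLocalRing R] [IsNoetherianRing R]
    [CommRing S] [IsLocalRing S] [IsNoetherianRing S] [Algebra R S]
    [IsLocalHom (algebraMap R S)] [Module.Flat R S] : mult R ≤ mult S := by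
  rcases CharP.char_is_prime_or_zero (ResidueField R) (ringChar (ResidueField R)) with hp | hp
  swap
  · refine mult_le_of_equal_char R S ?_
    have : CharP (ResidueField R) 0 := hp ▸ ringChar.charP (ResidueField R)
    have : CharZero (ResidueField R) := CharP.charP_to_charZero _
    have : CharZero R := RingHom.charZero (residue R)
    rw [hp, ringChar.eq_zero]
  have hpR : ((ringChar (ResidueField R) : ℕ) : R) ∈ maximalIdeal R := by
    rw [← residue_eq_zero_iff, map_natCast, ringChar.spec]
  generalize ringChar (ResidueField R) = p at hp hpR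
  have : Fact p.Prime := ⟨hp⟩
  obtain ⟨R1, S1, _, _, _, _, _, _, _, _, _, _, _, _, _, _, mR, _, _, mS⟩ :=
    exists_infinite_residue_pair R S
  rw [← (mult_eq_of_flat mR).2, ← (mult_eq_of_flat mS).2]
  have hp1 := mf_p_mem p (algebraMap R R1) hpR
  refine mult_le_of_primary p R1 hp1 (fun S2 _ _ _ _ _ _ _ _ ⟨L, hL⟩ => ?_) S1
  obtain ⟨R2, _, _, _, _, _, _, _, _, _, mR2, _, _⟩ := exists_complete_source p R1 S2 hp1
  have hp2 := mf_p_mem p (algebraMap R1 R2) hp1
  have : Infinite (ResidueField R2) :=
    Infinite.of_injective _ (ResidueField.map (algebraMap R1 R2)).injective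
  rw [← (mult_eq_of_flat mR2).2]
  refine mult_le_of_domain R2 S2 L (by
    rwa [← mR2, Ideal.map_map, ← IsScalarTower.algebraMap_eq]) ?_
  intro R3 S3 _ _ _ _ _ _ _ _ _ _ a b ha hb hL3
  have : IsLocalHom a := IsLocalHom.of_surjective a ha
  have : IsLocalHom b := IsLocalHom.of_surjective b hb
  have hp3 := mf_p_mem p a hp2
  by_cases hp0 : (p : R3) = 0
  · have := mf_charP p R3 hp3
    have : CharP R3 p := (CharP.charP_iff_prime_eq_zero hp).2 hp0
    exact mult_le_of_equal_char R3 S3 ((ringChar.eq R3 p).trans (ringChar.eq _ p).symm)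
  · have := mf_complete a ha
    have := mf_complete b hb
    have : Infinite (ResidueField R3) := Infinite.of_injective _ (ResidueField.map a).injective
    have : IsAlgClosed (ResidueField S3) := IsAlgClosed.of_ringEquiv (ResidueField S2) _
      (RingEquiv.ofBijective (ResidueField.map b) ⟨(ResidueField.map b).injective, fun z => by
        obtain ⟨y, rfl⟩ := residue_surjective z
        obtain ⟨x, rfl⟩ := hb y
        exact ⟨residue S2 x, rfl⟩⟩)
    exact mult_le_of_mixed_domain p R3 S3 hp3 hp0 L hL3

end Vale.Agent.P202
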