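import Mathlib

/-! Faithful flatness modulo an ideal: definition and basic calculus. -/

namespace Vale.Agent.P202

open TensorProduct

/-- `A / I → B / I B` is faithfully flat. -/
def QFlat {A B : Type*} [CommRing A] [CommRing B] (f : A →+* B) (I : Ideal A) : Prop :=
  (Ideal.quotientMap (I.map f) f Ideal.le_comap_map).FaithfullyFlat

section Basic

variable {A B C : Type*} [CommRing A] [CommRing B] [CommRing C]

/-- the equational criterion. -/
theorem qflat_iff_equational (f : A →+* B) (I : Ideal A) : QFlat f I ↔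
    (∀ (n : ℕ) (a : Fin n → A) (x : Fin n → B), ∑ i, f (a i) * x i ∈ I.map f →
      ∃ (m : ℕ) (b : Fin n → Fin m → A) (y : Fin m → B),
        (∀ i, x i - ∑ j, f (b i j) * y j ∈ I.map f) ∧ ∀ j, ∑ i, a i * b i j ∈ I) ∧
    ∀ m : Ideal A, m.IsMaximal → I ≤ m → m.map f ≠ ⊤ := by
  let alg : Algebra (A ⧸ I) (B ⧸ I.map f) :=
    (Ideal.quotientMap (I.map f) f Ideal.le_comap_map).toAlgebra
  have hsm : ∀ (a : A) (x : B), (Ideal.Quotient.mk I a) • (Ideal.Quotient.mk (I.map f) x) =
      Ideal.Quotient.mk (I.map f) (f a * x) := by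
    intro a x
    rw [Algebra.smul_def, map_mul]
    rfl
  have hq : (algebraMap (A ⧸ I) (B ⧸ I.map f)).comp (Ideal.Quotient.mk I) =
      (Ideal.Quotient.mk (I.map f)).comp f := by
    ext a; rfl
  have htop : ∀ m : Ideal A, I ≤ m → ((m.map (Ideal.Quotient.mk I)) •
      (⊤ : Submodule (A ⧸ I) (B ⧸ I.map f)) = ⊤ ↔ m.map f = ⊤) := by
    intro m hm
    rw [Ideal.smul_top_eq_map, Submodule.restrictScalars_eq_top_iff, Ideal.map_map, hq,
      ← Ideal.map_map]
    constructor
    · intro h
      have := congrArg (Ideal.comap (Ideal.Quotient.mk (I.map f))) h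
      rwa [Ideal.comap_map_of_surjective _ Ideal.Quotient.mk_surjective, Ideal.comap_top,
        ← RingHom.ker_eq_comap_bot, Ideal.mk_ker, sup_eq_left.2 (Ideal.map_mono hm)] at this
    · intro h
      rw [h, Ideal.map_top]
  change Module.FaithfullyFlat (A ⧸ I) (B ⧸ I.map f) ↔ _
  rw [Module.faithfullyFlat_iff, Module.Flat.iff_forall_isTrivialRelation]
  refine and_congr ⟨fun h n a x hx => ?_, fun h n a x hx => ?_⟩
    ⟨fun h m hm hI => ?_, fun h m hm => ?_⟩
  · have h0 : ∑ i, (Ideal.Quotient.mk I (a i)) • (Ideal.Quotient.mk (I.map f) (x i)) = 0 := by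
      simp only [hsm]
      rw [← map_sum, Ideal.Quotient.eq_zero_iff_mem]
      exact hx
    obtain ⟨m, b, y, h1, h2⟩ := h h0
    choose b' hb using fun i j => Ideal.Quotient.mk_surjective (b i j)
    choose y' hy using fun j => Ideal.Quotient.mk_surjective (y j)
    refine ⟨m, b', y', fun i => ?_, fun j => ?_⟩
    · rw [← Ideal.Quotient.eq, map_sum]
      exact (h1 i).trans (Finset.sum_congr rfl fun j _ => by rw [← hsm, hb, hy])
    · rw [← Ideal.Quotient.eq_zero_iff_mem, map_sum, ← h2 j]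
      exact Finset.sum_congr rfl fun i _ => by rw [map_mul, hb]
  · choose a' ha using fun i => Ideal.Quotient.mk_surjective (a i)
    choose x' hx' using fun i => Ideal.Quotient.mk_surjective (x i)
    have h0 : ∑ i, f (a' i) * x' i ∈ I.map f := by
      rw [← Ideal.Quotient.eq_zero_iff_mem, map_sum, ← hx]
      exact Finset.sum_congr rfl fun i _ => by rw [← hsm, ha, hx']
    obtain ⟨m, b, y, h1, h2⟩ := h n a' x' h0
    refine ⟨m, fun i j => Ideal.Quotient.mk I (b i j), fun j => Ideal.Quotient.mk _ (y j),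
      fun i => ?_, fun j => ?_⟩
    · simp only [hsm]
      rw [← hx', ← map_sum, Ideal.Quotient.eq]
      exact h1 i
    · simp only [← ha, ← map_mul]
      rw [← map_sum, Ideal.Quotient.eq_zero_iff_mem]
      exact h2 j
  · intro ht
    rcases Ideal.map_eq_top_or_isMaximal_of_surjective (Ideal.Quotient.mk I)
      Ideal.Quotient.mk_surjective hm with h1 | h1
    · have := congrArg (Ideal.comap (Ideal.Quotient.mk I)) h1
      rw [Ideal.comap_map_of_surjective _ Ideal.Quotient.mk_surjective, Ideal.comap_top,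
        ← RingHom.ker_eq_comap_bot, Ideal.mk_ker, sup_eq_left.2 hI] at this
      exact hm.ne_top this
    · exact h h1 ((htop m hI).2 ht)
  · have h1 := Ideal.comap_isMaximal_of_surjective (Ideal.Quotient.mk I)
      Ideal.Quotient.mk_surjective (K := m)
    have h2 : I ≤ m.comap (Ideal.Quotient.mk I) := fun a ha => by
      rw [Ideal.mem_comap, Ideal.Quotient.eq_zero_iff_mem.2 ha]
      exact m.zero_mem
    intro ht
    refine h _ h1 h2 ((htop _ h2).1 ?_)
    rwa [Ideal.map_comap_of_surjective _ Ideal.Quotient.mk_surjective]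

/-- relations over arbitrary finite index types are trivial. -/
theorem QFlat.rel {f : A →+* B} {I : Ideal A} (hf : QFlat f I) {ι : Type*} [Fintype ι]
    (a : ι → A) (x : ι → B) (h : ∑ i, f (a i) * x i ∈ I.map f) :
    ∃ (m : ℕ) (b : ι → Fin m → A) (y : Fin m → B),
      (∀ i, x i - ∑ j, f (b i j) * y j ∈ I.map f) ∧ ∀ j, ∑ i, a i * b i j ∈ I := by
  let e := (Fintype.equivFin ι).symm
  obtain ⟨m, b, y, h1, h2⟩ := ((qflat_iff_equational f I).1 hf).1 _ (a ∘ e) (x ∘ e) (by
    rwa [← e.sum_comp] at h)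
  refine ⟨m, fun i => b (e.symm i), y, fun i => by simpa using h1 (e.symm i), fun j => ?_⟩
  rw [← e.sum_comp]
  simpa using h2 j

theorem QFlat.ne_top {f : A →+* B} {I : Ideal A} (hf : QFlat f I) {m : Ideal A} (hm : m ≠ ⊤)
    (h : I ≤ m) : m.map f ≠ ⊤ := by
  obtain ⟨n, hn, hmn⟩ := m.exists_le_maximal hm
  intro ht
  exact ((qflat_iff_equational f I).1 hf).2 n hn (h.trans hmn)
    (top_le_iff.1 (ht ▸ Ideal.map_mono hmn))

/-- the equational criterion with arbitrary finite sets of new generators. -/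
theorem QFlat.of_rel {f : A →+* B} {I : Ideal A}
    (h1 : ∀ (n : ℕ) (a : Fin n → A) (x : Fin n → B), ∑ i, f (a i) * x i ∈ I.map f →
      ∃ (κ : Type) (_ : Fintype κ) (b : Fin n → κ → A) (y : κ → B),
        (∀ i, x i - ∑ j, f (b i j) * y j ∈ I.map f) ∧ ∀ j, ∑ i, a i * b i j ∈ I)
    (h2 : ∀ m : Ideal A, m.IsMaximal → I ≤ m → m.map f ≠ ⊤) : QFlat f I := by
  refine (qflat_iff_equational f I).2 ⟨fun n a x hx => ?_, h2⟩
  obtain ⟨κ, _, b, y, h3, h4⟩ := h1 n a x hx
  let e := (Fintype.equivFin κ).symm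
  refine ⟨_, fun i j => b i (e j), fun j => y (e j), fun i => ?_, fun j => h4 _⟩
  rw [e.sum_comp fun j => f (b i j) * y j]
  exact h3 i

theorem mxf_mem_map {f : A →+* B} {I : Ideal A} {y : B} (hy : y ∈ I.map f) :
    ∃ (n : ℕ) (c : Fin n → A) (z : Fin n → B), (∀ k, c k ∈ I) ∧ y = ∑ k, f (c k) * z k := by
  obtain ⟨n, z, g, h⟩ := Submodule.mem_span_set'.1 hy
  choose c hc hc' using fun k => (g k).2
  refine ⟨n, c, z, hc, ?_⟩
  rw [← h]
  exact Finset.sum_congr rfl fun k _ => by rw [hc', smul_eq_mul, mul_comm]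

theorem QFlat.comp {f : A →+* B} {g : B →+* C} {I : Ideal A} (hf : QFlat f I)
    (hg : QFlat g (I.map f)) : QFlat (g.comp f) I := by
  refine QFlat.of_rel (fun n a x hx => ?_) fun m hm hI => ?_
  · rw [← Ideal.map_map] at hx ⊢
    obtain ⟨m, b, y, h1, h2⟩ := hg.rel (fun i => f (a i)) x hx
    choose m' c z h3 h4 using fun j => hf.rel a (fun i => b i j) (h2 j)
    refine ⟨Σ j : Fin m, Fin (m' j), inferInstance, fun i s => c s.1 i s.2,
      fun s => g (z s.1 s.2) * y s.1, fun i => ?_, fun s => h4 s.1 s.2⟩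
    have e : x i - ∑ s : Σ j : Fin m, Fin (m' j), (g.comp f) (c s.1 i s.2) * (g (z s.1 s.2) * y s.1)
        = (x i - ∑ j, g (b i j) * y j) + ∑ j, g (b i j - ∑ k, f (c j i k) * z j k) * y j := by
      rw [Fintype.sum_sigma]
      simp only [map_sub, map_sum, map_mul, sub_mul, Finset.sum_sub_distrib, Finset.sum_mul,
        RingHom.comp_apply, mul_assoc]
      ring
    rw [e]
    exact add_mem (h1 i) (sum_mem fun j _ =>
      Ideal.mul_mem_right _ _ (Ideal.mem_map_of_mem _ (h3 j i)))
  · rw [← Ideal.map_map]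
    exact hg.ne_top (hf.ne_top hm.ne_top hI) (Ideal.map_mono hI)

theorem QFlat.mono {f : A →+* B} {I I' : Ideal A} (hf : QFlat f I) (h : I ≤ I') : QFlat f I' := by
  refine QFlat.of_rel (fun n a x hx => ?_) fun m hm hI => hf.ne_top hm.ne_top (h.trans hI)
  obtain ⟨k, c, z, hc, e⟩ := mxf_mem_map hx
  obtain ⟨m, b, y, h1, h2⟩ := hf.rel (Sum.elim a c) (Sum.elim x fun k => -z k) (by
    simp only [Fintype.sum_sum_type, Sum.elim_inl, Sum.elim_inr, mul_neg, Finset.sum_neg_distrib]
    rw [e, add_neg_cancel]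
    exact zero_mem _)
  refine ⟨Fin m, inferInstance, fun i => b (.inl i), y, fun i => Ideal.map_mono h (h1 (.inl i)),
    fun j => ?_⟩
  have h3 := h (h2 j)
  simp only [Fintype.sum_sum_type, Sum.elim_inl, Sum.elim_inr] at h3
  exact (Ideal.add_mem_iff_left _ (sum_mem fun k _ => Ideal.mul_mem_right _ _ (hc k))).1 h3

theorem QFlat.of_faithfullyFlat {f : A →+* B} (hf : f.FaithfullyFlat) (I : Ideal A) :
    QFlat f I := by
  let := f.toAlgebra
  have hf' : Module.FaithfullyFlat A B := hf
  refine QFlat.mono (I := ⊥) (QFlat.of_rel (fun n a x hx => ?_) fun m hm _ ht => ?_) bot_le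
  · rw [Ideal.map_bot, Ideal.mem_bot] at hx
    obtain ⟨m, b, y, h1, h2⟩ :=
      Module.Flat.isTrivialRelation_of_sum_smul_eq_zero (R := A) (M := B) (f := a) (x := x) hx
    refine ⟨Fin m, inferInstance, b, y, fun i => ?_, fun j => h2 j⟩
    rw [Ideal.map_bot, Ideal.mem_bot, sub_eq_zero]
    exact h1 i
  · refine hf'.submodule_ne_top hm ?_
    rw [Ideal.smul_top_eq_map, Submodule.restrictScalars_eq_top_iff]
    exact ht

theorem QFlat.comap_map {f : A →+* B} {I I' : Ideal A} (hf : QFlat f I) (h : I ≤ I') :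
    (I'.map f).comap f = I' := by
  refine le_antisymm (fun a ha => ?_) Ideal.le_comap_map
  have h1 := RingHom.FaithfullyFlat.injective (hf.mono h)
  rw [← Ideal.Quotient.eq_zero_iff_mem]
  apply h1
  rw [map_zero, Ideal.quotientMap_mk, Ideal.Quotient.eq_zero_iff_mem]
  exact ha

/-- regular elements stay regular. -/
theorem QFlat.colon {f : A →+* B} {I I' : Ideal A} (hf : QFlat f I) (h : I ≤ I') (z : A)
    (hz : ∀ a, z * a ∈ I' → a ∈ I') (b : B) (hb : f z * b ∈ I'.map f) : b ∈ I'.map f := by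
  obtain ⟨m, c, y, h1, h2⟩ := (hf.mono h).rel (fun _ : Unit => z) (fun _ => b) (by simpa using hb)
  have h3 : ∑ j, f (c () j) * y j ∈ I'.map f :=
    sum_mem fun j _ => Ideal.mul_mem_right _ _ (Ideal.mem_map_of_mem _ (hz _ (by simpa using h2 j)))
  simpa using add_mem (h1 ()) h3

theorem mxf_mem_iff {a : A →+* B} (ha : Function.Surjective a) {I : Ideal A}
    (hk : RingHom.ker a ≤ I) (x : A) : a x ∈ I.map a ↔ x ∈ I := by
  rw [← Ideal.mem_comap, Ideal.comap_map_of_surjective _ ha, ← RingHom.ker_eq_comap_bot,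
    sup_eq_left.2 hk]

/-- transfer along surjections whose kernels lie in the ideals. -/
theorem qflat_iff_of_surjective {A₁ B₁ : Type*} [CommRing A₁] [CommRing B₁] (f : A →+* B)
    (f₁ : A₁ →+* B₁) (a : A →+* A₁) (b : B →+* B₁) (ha : Function.Surjective a)
    (hb : Function.Surjective b) (hsq : b.comp f = f₁.comp a) (I : Ideal A)
    (hka : RingHom.ker a ≤ I) (hkb : RingHom.ker b ≤ I.map f) :
    QFlat f I ↔ QFlat f₁ (I.map a) := by
  have hsq' : ∀ x, f₁ (a x) = b (f x) := fun x => (RingHom.congr_fun hsq x).symm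
  have hmm : ∀ m : Ideal A, (m.map a).map f₁ = (m.map f).map b := fun m => by
    rw [Ideal.map_map, Ideal.map_map, hsq]
  have hB : ∀ y, b y ∈ (I.map a).map f₁ ↔ y ∈ I.map f := fun y => by
    rw [hmm, mxf_mem_iff hb hkb]
  constructor
  · intro hf
    refine QFlat.of_rel (fun n u x hx => ?_) fun m hm hI ht => ?_
    · choose u' hu using fun i => ha (u i)
      choose x' hx' using fun i => hb (x i)
      obtain ⟨m, c, y, h1, h2⟩ := hf.rel u' x' ((hB _).1 (by
        simpa only [map_sum, map_mul, ← hsq', hu, hx'] using hx))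
      refine ⟨Fin m, inferInstance, fun i j => a (c i j), fun j => b (y j), fun i => ?_,
        fun j => ?_⟩
      · simpa only [map_sub, map_sum, map_mul, ← hsq', hx'] using (hB _).2 (h1 i)
      · simpa only [map_sum, map_mul, hu] using Ideal.mem_map_of_mem a (h2 j)
    · have h1 := Ideal.comap_isMaximal_of_surjective a ha (K := m)
      have h2 : I ≤ m.comap a := Ideal.map_le_iff_le_comap.1 hI
      refine hf.ne_top h1.ne_top h2 ((Ideal.eq_top_iff_one _).2 ?_)
      rw [← mxf_mem_iff hb (hkb.trans (Ideal.map_mono h2)), ← hmm,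
        Ideal.map_comap_of_surjective _ ha, ht]
      trivial
  · intro hf
    refine QFlat.of_rel (fun n u x hx => ?_) fun m hm hI ht => ?_
    · obtain ⟨m, c, y, h1, h2⟩ := hf.rel (fun i => a (u i)) (fun i => b (x i)) (by
        simpa only [map_sum, map_mul, ← hsq'] using (hB _).2 hx)
      choose c' hc using fun i j => ha (c i j)
      choose y' hy using fun j => hb (y j)
      refine ⟨Fin m, inferInstance, c', y', fun i => (hB _).1 ?_, fun j =>
        (mxf_mem_iff ha hka _).1 ?_⟩
      · simpa only [map_sub, map_sum, map_mul, ← hsq', hc, hy] using h1 i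
      · simpa only [map_sum, map_mul, hc] using h2 j
    · refine hf.ne_top (m := m.map a) (fun h1 => hm.ne_top ((Ideal.eq_top_iff_one _).2 ?_))
        (Ideal.map_mono hI) ?_
      · rw [← mxf_mem_iff ha (hka.trans hI), h1]
        trivial
      · rw [hmm, ht, Ideal.map_top]

end Basic

section Tensor

variable {A B C : Type*} [CommRing A] [CommRing B] [CommRing C] [Algebra A B] [Algebra A C]

theorem QFlat.ff {I : Ideal A} (hf : QFlat (algebraMap A B) I) :
    Module.FaithfullyFlat (A ⧸ I) (B ⧸ I.map (algebraMap A B)) := by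
  have e : algebraMap (A ⧸ I) (B ⧸ I.map (algebraMap A B)) =
      Ideal.quotientMap (I.map (algebraMap A B)) (algebraMap A B) Ideal.le_comap_map := by
    ext a
    rfl
  rw [← RingHom.faithfullyFlat_algebraMap_iff, e]
  exact hf

theorem mxf_tmul_zero {I : Ideal A} {X : Type*} [AddCommGroup X] [Module A X]
    (hX : ∀ a ∈ I, ∀ x : X, a • x = 0) {b : B} (hb : b ∈ I.map (algebraMap A B)) (x : X) :
    b ⊗ₜ[A] x = 0 := by
  obtain ⟨n, c, z, hc, rfl⟩ := mxf_mem_map hb
  rw [sum_tmul]
  refine Finset.sum_eq_zero fun k _ => ?_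
  rw [← Algebra.smul_def, smul_tmul, hX _ (hc k), tmul_zero]

/-- comparison of `B ⊗ X` with the tensor product over the quotient rings. -/
theorem mxf_exists_cmp (B : Type*) [CommRing B] [Algebra A B] (I : Ideal A) (X : Type*)
    [AddCommGroup X] [Module A X] [Module (A ⧸ I) X]
    (hX : ∀ (a : A) (x : X), Ideal.Quotient.mk I a • x = a • x) :
    ∃ φ : B ⊗[A] X →+ (B ⧸ I.map (algebraMap A B)) ⊗[A ⧸ I] X, Function.Injective φ ∧
      ∀ b x, φ (b ⊗ₜ x) = Ideal.Quotient.mk _ b ⊗ₜ x := by
  have hX0 : ∀ a ∈ I, ∀ x : X, a • x = 0 := fun a ha x => by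
    rw [← hX, Ideal.Quotient.eq_zero_iff_mem.2 ha, zero_smul]
  have hsm : ∀ (a : A) (b : B), Ideal.Quotient.mk I a • Ideal.Quotient.mk
      (I.map (algebraMap A B)) b = Ideal.Quotient.mk _ (a • b) := fun a b => by
    rw [Algebra.smul_def, Algebra.smul_def, map_mul]
    rfl
  let φ : B ⊗[A] X →+ (B ⧸ I.map (algebraMap A B)) ⊗[A ⧸ I] X := TensorProduct.liftAddHom
    ((LinearMap.toAddMonoidHom'.comp
      (TensorProduct.mk (A ⧸ I) (B ⧸ I.map (algebraMap A B)) X).toAddMonoidHom).comp
        (Ideal.Quotient.mk (I.map (algebraMap A B))).toAddMonoidHom) fun a b x => by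
      change Ideal.Quotient.mk _ (a • b) ⊗ₜ x = Ideal.Quotient.mk _ b ⊗ₜ (a • x)
      rw [← hsm, smul_tmul, hX]
  let ψ0 : (B ⧸ I.map (algebraMap A B)) →+ X →+ B ⊗[A] X := QuotientAddGroup.lift
    (I.map (algebraMap A B)).toAddSubgroup
    (LinearMap.toAddMonoidHom'.comp (TensorProduct.mk A B X).toAddMonoidHom) fun b hb => by
      ext x
      exact mxf_tmul_zero hX0 hb x
  have hψ0 : ∀ b x, ψ0 (Ideal.Quotient.mk _ b) x = b ⊗ₜ x := fun b x => rfl
  let ψ : (B ⧸ I.map (algebraMap A B)) ⊗[A ⧸ I] X →+ B ⊗[A] X :=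
    TensorProduct.liftAddHom ψ0 fun a b x => by
      obtain ⟨a, rfl⟩ := Ideal.Quotient.mk_surjective a
      obtain ⟨b, rfl⟩ := Ideal.Quotient.mk_surjective b
      rw [hsm, hX, hψ0, hψ0, smul_tmul]
  refine ⟨φ, Function.LeftInverse.injective (g := ψ) fun t => ?_, fun b x => rfl⟩
  induction t with
  | zero => simp
  | tmul b x => rfl
  | add s t hs ht => rw [map_add, map_add, hs, ht]

theorem mxf_torsion {I : Ideal A} {X : Type*} [AddCommGroup X] [Module A X]
    (hX : I • (⊤ : Submodule A X) = ⊥) : Module.IsTorsionBySet A X I := fun _ a =>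
  (Submodule.mem_bot A).1 (hX ▸ Submodule.smul_mem_smul a.2 Submodule.mem_top)

theorem QFlat.lTensor_injective {I : Ideal A} (hf : QFlat (algebraMap A B) I) {X Y : Type*}
    [AddCommGroup X] [Module A X] [AddCommGroup Y] [Module A Y]
    (hY : I • (⊤ : Submodule A Y) = ⊥) (g : X →ₗ[A] Y) (hg : Function.Injective g) :
    Function.Injective (g.lTensor B) := by
  have tY := mxf_torsion hY
  have tX : Module.IsTorsionBySet A X I := fun x a => hg (by
    rw [map_zero]
    exact (g.map_smul a.1 x).trans (@tY (g x) a))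
  let := tX.module
  let := tY.module
  have hf' := hf.ff
  obtain ⟨φ, h1, h2⟩ := mxf_exists_cmp B I X fun a x => rfl
  obtain ⟨φ', _, h2'⟩ := mxf_exists_cmp B I Y fun a x => rfl
  let g' : X →ₗ[A ⧸ I] Y :=
    { toFun := g
      map_add' := g.map_add
      map_smul' := fun a x => by
        obtain ⟨a, rfl⟩ := Ideal.Quotient.mk_surjective a
        exact g.map_smul a x }
  have h3 : Function.Injective (g'.lTensor (B ⧸ I.map (algebraMap A B))) :=
    Module.Flat.lTensor_preserves_injective_linearMap g' hg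
  have h4 : ∀ t, φ' (g.lTensor B t) = g'.lTensor _ (φ t) := fun t => by
    induction t with
    | zero => simp
    | tmul b x => rw [LinearMap.lTensor_tmul, h2, h2', LinearMap.lTensor_tmul]; rfl
    | add s t hs ht => simp only [map_add, hs, ht]
  intro s t hst
  apply h1
  apply h3
  rw [← h4, ← h4, hst]

theorem QFlat.eq_zero_of_one_tmul {I : Ideal A} (hf : QFlat (algebraMap A B) I) {X : Type*}
    [AddCommGroup X] [Module A X] (hX : I • (⊤ : Submodule A X) = ⊥) (x : X)
    (hx : (1 : B) ⊗ₜ[A] x = 0) : x = 0 := by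
  let := (mxf_torsion hX).module
  have hf' := hf.ff
  obtain ⟨φ, _, h2⟩ := mxf_exists_cmp B I X fun a x => rfl
  have h3 := h2 1 x
  rw [hx, map_zero, map_one] at h3
  exact (Module.FaithfullyFlat.one_tmul_eq_zero_iff (A ⧸ I) X x).1 h3.symm

theorem QFlat.baseChange_left {I : Ideal A} (hf : QFlat (algebraMap A B) I) :
    QFlat (algebraMap C (C ⊗[A] B)) (I.map (algebraMap A C)) := by
  have hf' := hf.ff
  let T := (C ⧸ I.map (algebraMap A C)) ⊗[A ⧸ I] (B ⧸ I.map (algebraMap A B))
  let β : C ⊗[A] B →ₐ[A] T := Algebra.TensorProduct.lift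
    ((Algebra.TensorProduct.includeLeft (R := A ⧸ I) (S := A)).comp (Ideal.Quotient.mkₐ A _))
    (((Algebra.TensorProduct.includeRight (R := A ⧸ I)).restrictScalars A).comp
      (Ideal.Quotient.mkₐ A _)) fun _ _ => Commute.all _ _
  have hβ : ∀ c b, β (c ⊗ₜ b) = Ideal.Quotient.mk _ c ⊗ₜ Ideal.Quotient.mk _ b := fun c b => by
    simp [β, T]
  let J := (I.map (algebraMap A C)).map (algebraMap C (C ⊗[A] B))
  have hJ : ∀ a ∈ I, ∀ t : C ⊗[A] B, a • t ∈ J := fun a ha t => by
    rw [Algebra.smul_def, IsScalarTower.algebraMap_apply A C (C ⊗[A] B)]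
    exact Ideal.mul_mem_right _ _ (Ideal.mem_map_of_mem _ (Ideal.mem_map_of_mem _ ha))
  let u : (C ⧸ I.map (algebraMap A C)) →+* (C ⊗[A] B) ⧸ J :=
    Ideal.quotientMap J (algebraMap C (C ⊗[A] B)) Ideal.le_comap_map
  let v : (B ⧸ I.map (algebraMap A B)) →+* (C ⊗[A] B) ⧸ J :=
    Ideal.quotientMap J (Algebra.TensorProduct.includeRight (R := A) (A := C) (B := B)).toRingHom
      (Ideal.map_le_iff_le_comap.2 fun a ha => by
        simpa [Algebra.smul_def] using hJ a ha 1)
  have huv : ∀ c b, u (Ideal.Quotient.mk _ c) * v (Ideal.Quotient.mk _ b) =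
      Ideal.Quotient.mk J (c ⊗ₜ b) := fun c b => by
    simp only [u, v, Ideal.quotientMap_mk, ← map_mul]
    simp
  have hsB : ∀ (a : A) (b : B), Ideal.Quotient.mk I a • Ideal.Quotient.mk
      (I.map (algebraMap A B)) b = Ideal.Quotient.mk _ (a • b) := fun a b => by
    rw [Algebra.smul_def, Algebra.smul_def, map_mul]
    rfl
  have hsC : ∀ (a : A) (b : C), Ideal.Quotient.mk I a • Ideal.Quotient.mk
      (I.map (algebraMap A C)) b = Ideal.Quotient.mk _ (a • b) := fun a b => by
    rw [Algebra.smul_def, Algebra.smul_def, map_mul]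
    rfl
  let ψ : T →+ (C ⊗[A] B) ⧸ J := TensorProduct.liftAddHom
    (AddMonoidHom.mul.compl₂ v.toAddMonoidHom |>.comp u.toAddMonoidHom) fun a c b => by
      obtain ⟨a, rfl⟩ := Ideal.Quotient.mk_surjective a
      obtain ⟨b, rfl⟩ := Ideal.Quotient.mk_surjective b
      obtain ⟨c, rfl⟩ := Ideal.Quotient.mk_surjective c
      rw [hsB, hsC]
      exact (huv _ _).trans (by rw [smul_tmul]; exact (huv _ _).symm)
  have hψ : ∀ t, ψ (β t) = Ideal.Quotient.mk J t := fun t => by
    induction t with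
    | zero => simp
    | tmul c b => rw [hβ]; exact huv c b
    | add s t hs ht => simp only [map_add, hs, ht]
  refine (qflat_iff_of_surjective _ (algebraMap (C ⧸ I.map (algebraMap A C)) T)
    (Ideal.Quotient.mk _) β.toRingHom Ideal.Quotient.mk_surjective (fun t => ?_) ?_ _
    Ideal.mk_ker.le fun t ht => ?_).2 (QFlat.of_faithfullyFlat ?_ _)
  · induction t using TensorProduct.induction_on with
    | zero => exact ⟨0, map_zero _⟩
    | tmul c b =>
      obtain ⟨b, rfl⟩ := Ideal.Quotient.mk_surjective b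
      obtain ⟨c, rfl⟩ := Ideal.Quotient.mk_surjective c
      exact ⟨_, hβ c b⟩
    | add s t hs ht =>
      obtain ⟨s, rfl⟩ := hs
      obtain ⟨t, rfl⟩ := ht
      exact ⟨s + t, map_add _ _ _⟩
  · ext c
    exact hβ c 1
  · have h0 : β t = 0 := ht
    rw [← Ideal.Quotient.eq_zero_iff_mem, ← hψ, h0, map_zero]
  · rw [RingHom.faithfullyFlat_algebraMap_iff]
    infer_instance

theorem QFlat.baseChange_right {I : Ideal A} (hf : QFlat (algebraMap A B) I) :
    QFlat (Algebra.TensorProduct.includeRight (R := A) (A := B) (B := C)).toRingHom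
      (I.map (algebraMap A C)) := by
  have h := (qflat_iff_of_surjective (algebraMap C (C ⊗[A] B))
    (Algebra.TensorProduct.includeRight (R := A) (A := B) (B := C)).toRingHom (RingHom.id C)
    (Algebra.TensorProduct.comm A C B).toRingEquiv.toRingHom Function.surjective_id
    (Algebra.TensorProduct.comm A C B).surjective (by ext c; simp) (I.map (algebraMap A C))
    (fun x hx => by
      have : x = 0 := hx
      rw [this]
      exact zero_mem _)
    (fun x hx => by
      have : x = 0 := (Algebra.TensorProduct.comm A C B).injective (hx.trans (map_zero _).symm)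
      rw [this]
      exact zero_mem _)).1 hf.baseChange_left
  rwa [Ideal.map_id] at h

end Tensor

end Vale.Agent.P202
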