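import Vale.Agent.P202.StepA

/-! Passing to infinite residue fields. -/

namespace Vale.Agent.P202

open IsLocalRing

universe u

instance mxInf_prime (T : Type u) [CommRing T] [IsLocalRing T] :
    ((maximalIdeal T).map (Polynomial.C : T →+* Polynomial T)).IsPrime :=
  Ideal.isPrime_map_C_of_isPrime

/-- The polynomial ring localised at the extension of the maximal ideal. -/
abbrev MxInfRing (T : Type u) [CommRing T] [IsLocalRing T] : Type u :=
  Localization.AtPrime ((maximalIdeal T).map (Polynomial.C : T →+* Polynomial T))

theorem mxInf_spec (T : Type u) [CommRing T] [IsLocalRing T] :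
    Infinite (ResidueField (MxInfRing T)) ∧ Module.Flat T (MxInfRing T) ∧
      IsLocalHom (algebraMap T (MxInfRing T)) ∧
      (maximalIdeal T).map (algebraMap T (MxInfRing T)) = maximalIdeal (MxInfRing T) := by
  have hm : (maximalIdeal T).map (algebraMap T (MxInfRing T)) = maximalIdeal (MxInfRing T) := by
    rw [← Localization.AtPrime.map_eq_maximalIdeal, Ideal.map_map]
    rfl
  refine ⟨?_, Module.Flat.trans T (Polynomial T) _,
    ((IsLocalRing.local_hom_TFAE _).out 0 2).2 hm.le, hm⟩
  refine Infinite.of_injective
    (fun n : ℕ => residue _ (algebraMap (Polynomial T) (MxInfRing T) (Polynomial.X ^ n))) ?_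
  intro a b hab
  by_contra hne
  have h1 := (Ideal.Quotient.mk_eq_mk_iff_sub_mem _ _).1 hab
  rw [← map_sub, IsLocalization.AtPrime.to_map_mem_maximal_iff (MxInfRing T)
    ((maximalIdeal T).map Polynomial.C)] at h1
  have h2 := Ideal.mem_map_C_iff.1 h1 a
  rw [Polynomial.coeff_sub, Polynomial.coeff_X_pow, Polynomial.coeff_X_pow, if_pos rfl,
    if_neg hne, sub_zero] at h2
  exact (maximalIdeal.isMaximal T).ne_top ((Ideal.eq_top_iff_one _).2 h2)

theorem exists_infinite_residue (T : Type u) [CommRing T] [IsLocalRing T] [IsNoetherianRing T] :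
    ∃ (T' : Type u) (_ : CommRing T') (_ : IsLocalRing T') (_ : IsNoetherianRing T')
      (_ : Algebra T T'), Infinite (ResidueField T') ∧ Module.Flat T T' ∧
      IsLocalHom (algebraMap T T') ∧ (maximalIdeal T).map (algebraMap T T') = maximalIdeal T' :=
  ⟨MxInfRing T, inferInstance, inferInstance, inferInstance, inferInstance, mxInf_spec T⟩

attribute [local instance] Polynomial.algebra in
theorem exists_infinite_residue_pair (R S : Type u) [CommRing R] [IsLocalRing R]
    [IsNoetherianRing R] [CommRing S] [IsLocalRing S] [IsNoetherianRing S] [Algebra R S]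
    [IsLocalHom (algebraMap R S)] [Module.Flat R S] :
    ∃ (R' S' : Type u) (_ : CommRing R') (_ : IsLocalRing R') (_ : IsNoetherianRing R')
      (_ : CommRing S') (_ : IsLocalRing S') (_ : IsNoetherianRing S') (_ : Algebra R' S')
      (_ : Algebra R R') (_ : Algebra S S'),
      Infinite (ResidueField R') ∧ IsLocalHom (algebraMap R' S') ∧ Module.Flat R' S' ∧
      Module.Flat R R' ∧ IsLocalHom (algebraMap R R') ∧
      (maximalIdeal R).map (algebraMap R R') = maximalIdeal R' ∧
      Module.Flat S S' ∧ IsLocalHom (algebraMap S S') ∧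
      (maximalIdeal S).map (algebraMap S S') = maximalIdeal S' := by
  have hf : (algebraMap (Polynomial R) (Polynomial S)).Flat :=
    RingHom.flat_algebraMap_iff.2 (Module.Flat.isBaseChange (R := R) (S := Polynomial R) (M := S)
      (Polynomial S) (Algebra.IsPushout.out (R := R) (S := Polynomial R) (R' := S)))
  have hc : (maximalIdeal R).map (Polynomial.C : R →+* Polynomial R) =
      ((maximalIdeal S).map (Polynomial.C : S →+* Polynomial S)).comap
        (algebraMap (Polynomial R) (Polynomial S)) := by
    ext f
    rw [Ideal.mem_comap, Ideal.mem_map_C_iff, Ideal.mem_map_C_iff]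
    refine forall_congr' fun n => ?_
    rw [Polynomial.algebraMap_def, Polynomial.coe_mapRingHom, Polynomial.coeff_map,
      ← IsLocalRing.maximalIdeal_comap (algebraMap R S), Ideal.mem_comap]
  obtain ⟨a1, a2, a3, a4⟩ := mxInf_spec R
  obtain ⟨-, b2, b3, b4⟩ := mxInf_spec S
  exact ⟨MxInfRing R, MxInfRing S, inferInstance, inferInstance, inferInstance, inferInstance,
    inferInstance, inferInstance, (Localization.localRingHom _ _ _ hc).toAlgebra, inferInstance,
    inferInstance, a1, Localization.isLocalHom_localRingHom _ _ _ hc, hf.localRingHom _ _ hc,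
    a2, a3, a4, b2, b3, b4⟩

end Vale.Agent.P202
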