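import Vale.Agent.P202.Descent

/-! Graded modules with the parameters identified with degree one operators. -/

namespace Vale.Agent.P202.LB

open MvPolynomial

theorem exists_evalHom {T A : Type*} [CommRing T] [Ring A] [Algebra T A] {D : ℕ} (Z : Fin D → A)
    (hZ : ∀ i j, Z i * Z j = Z j * Z i) :
    ∃ ev : MvPolynomial (Fin D) T →ₐ[T] A, ∀ j, ev (X j) = Z j := by
  have hc : ∀ a ∈ Set.range Z, ∀ b ∈ Set.range Z, a * b = b * a := by
    rintro _ ⟨i, rfl⟩ _ ⟨j, rfl⟩
    exact hZ i j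
  have := Algebra.isMulCommutative_adjoin T hc
  letI : CommRing (Algebra.adjoin T (Set.range Z)) :=
    { (inferInstance : Ring (Algebra.adjoin T (Set.range Z))) with
      mul_comm := fun a b => this.is_comm.comm a b }
  exact ⟨(Algebra.adjoin T (Set.range Z)).val.comp
    (aeval fun j => (⟨Z j, Algebra.subset_adjoin ⟨j, rfl⟩⟩ : Algebra.adjoin T (Set.range Z))),
    fun j => by simp⟩

variable {T N : Type*} [CommRing T] [AddCommGroup N] [Module T N] {D : ℕ}

/-- an operator with a shift of degrees. -/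
noncomputable def sh (s : ℤ) (f : Module.End T N) : Module.End T (ℤ →₀ N) :=
  Finsupp.lmapDomain N T (· + s) ∘ₗ Finsupp.mapRange.linearMap f

theorem sh_apply (s : ℤ) (f : Module.End T N) (g : ℤ →₀ N) (t : ℤ) :
    sh s f g t = f (g (t - s)) := by
  have h := Finsupp.mapDomain_apply (add_left_injective s) (Finsupp.mapRange f (map_zero f) g)
    (t - s)
  simp only [sub_add_cancel] at h
  exact h

theorem sh_single (s : ℤ) (f : Module.End T N) (t : ℤ) (x : N) :
    sh s f (Finsupp.single t x) = Finsupp.single (t + s) (f x) := by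
  simp [sh]

theorem sh_mul (s s' : ℤ) (f f' : Module.End T N) :
    sh s f * sh s' f' = sh (s + s') (f * f') := by
  refine LinearMap.ext fun g => Finsupp.ext fun t => ?_
  simp only [Module.End.mul_apply, sh_apply, sub_sub]

/-- series vanishing below a degree. -/
def low (T N : Type*) [CommRing T] [AddCommGroup N] [Module T N] (τ : ℤ) :
    Submodule T (ℤ →₀ N) where
  carrier := {g | ∀ t < τ, g t = 0}
  add_mem' := fun hx hy t ht => by rw [Finsupp.add_apply, hx t ht, hy t ht, add_zero]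
  zero_mem' := fun _ _ => rfl
  smul_mem' := fun c g hg t ht => by rw [Finsupp.smul_apply, hg t ht, smul_zero]

/-- series with coefficients in a family. -/
def fam (W : ℤ → Submodule T N) : Submodule T (ℤ →₀ N) where
  carrier := {g | ∀ t, g t ∈ W t}
  add_mem' := fun hx hy t => (W t).add_mem (hx t) (hy t)
  zero_mem' := fun t => (W t).zero_mem
  smul_mem' := fun c _ hg t => (W t).smul_mem c (hg t)

theorem low_anti {τ τ' : ℤ} (h : τ ≤ τ') : low T N τ' ≤ low T N τ :=
  fun _ hg t ht => hg t (ht.trans_le h)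

theorem exists_low (g : ℤ →₀ N) (τ : ℤ) : ∃ t ≤ τ, g ∈ low T N t := by
  obtain ⟨b, hb⟩ := g.support.bddBelow
  refine ⟨min b τ, min_le_right _ _, fun t ht => ?_⟩
  by_contra h
  have := hb (Finsupp.mem_support_iff.2 h)
  have := min_le_left b τ
  omega

theorem single_mem_low {t τ : ℤ} (h : τ ≤ t) (x : N) : Finsupp.single t x ∈ low T N τ :=
  fun s hs => Finsupp.single_eq_of_ne (by omega)

theorem single_mem_fam {W : ℤ → Submodule T N} {t : ℤ} {x : N} (h : x ∈ W t) :
    Finsupp.single t x ∈ fam W := fun s => by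
  by_cases hs : s = t
  · rw [hs, Finsupp.single_eq_same]; exact h
  · rw [Finsupp.single_eq_of_ne hs]; exact zero_mem _

theorem sh_mem_low {τ : ℤ} {g : ℤ →₀ N} (hg : g ∈ low T N τ) (s : ℤ) (f : Module.End T N) :
    sh s f g ∈ low T N (τ + s) := fun t ht => by
  rw [sh_apply, hg _ (by omega), map_zero]

theorem sh_mem_fam {W W' : ℤ → Submodule T N} {g : ℤ →₀ N} (hg : g ∈ fam W) (s : ℤ)
    (f : Module.End T N) (hf : ∀ t, ∀ x ∈ W t, f x ∈ W' (t + s)) : sh s f g ∈ fam W' := fun t => by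
  rw [sh_apply]
  have := hf _ _ (hg (t - s))
  rwa [sub_add_cancel] at this

variable (y : Fin D → T) (E : Fin D → Module.End T N)

/-- the Koszul operators. -/
noncomputable def kz (j : Fin D) : Module.End T (ℤ →₀ N) := y j • 1 - sh 1 (E j)

/-- the relations. -/
noncomputable def rel : Submodule T (ℤ →₀ N) :=
  LinearMap.range (∑ j, kz y E j ∘ₗ LinearMap.proj j : (Fin D → (ℤ →₀ N)) →ₗ[T] (ℤ →₀ N))

theorem mem_rel {g : ℤ →₀ N} : g ∈ rel y E ↔ ∃ v : Fin D → (ℤ →₀ N), ∑ j, kz y E j (v j) = g := by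
  simp [rel, LinearMap.sum_apply]

theorem kz_mem_rel (j : Fin D) (g : ℤ →₀ N) : kz y E j g ∈ rel y E := by
  classical
  refine (mem_rel y E).2 ⟨Pi.single j g, ?_⟩
  rw [Finset.sum_eq_single j (fun i _ h => by simp [h]) (by simp), Pi.single_eq_same]

theorem kz_apply (j : Fin D) (g : ℤ →₀ N) (t : ℤ) :
    kz y E j g t = y j • g t - E j (g (t - 1)) := by
  simp [kz, sh_apply]

/-- the universal relations. -/
def kosRel (N : Type*) [AddCommGroup N] [Module T N] : Submodule T (Fin D → N) :=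
  Submodule.span T {v | ∃ (c : Fin D → MvPolynomial (Fin D) T) (x : N),
    ∑ j, X j * c j = 0 ∧ v = fun j => eval y (c j) • x}

/-- all relations are universal. -/
def Kos (N : Type*) [AddCommGroup N] [Module T N] : Prop :=
  ∀ v : Fin D → N, ∑ j, y j • v j = 0 → v ∈ kosRel y N

/-- the submodule `y N`. -/
def yW (W : Submodule T N) : Submodule T N := Ideal.span (Set.range y) • W

theorem smul_mem_yW {W : Submodule T N} (j : Fin D) {x : N} (hx : x ∈ W) : y j • x ∈ yW y W :=
  Submodule.smul_mem_smul (Ideal.subset_span ⟨j, rfl⟩) hx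

theorem exists_of_mem_yW {W : Submodule T N} {x : N} (hx : x ∈ yW y W) :
    ∃ v : Fin D → N, (∀ j, v j ∈ W) ∧ x = ∑ j, y j • v j := by
  refine Submodule.smul_induction_on hx (fun a ha w hw => ?_) ?_
  · obtain ⟨c, rfl⟩ := Ideal.mem_span_range_iff_exists_fun.1 ha
    exact ⟨fun j => c j • w, fun j => W.smul_mem _ hw, by
      simp only [Finset.sum_smul, smul_smul, mul_comm]⟩
  · rintro _ _ ⟨v, hv, rfl⟩ ⟨v', hv', rfl⟩
    exact ⟨v + v', fun j => W.add_mem (hv j) (hv' j), by
      simp only [Pi.add_apply, smul_add, Finset.sum_add_distrib]⟩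

theorem yW_mono {W W' : Submodule T N} (h : W ≤ W') : yW y W ≤ yW y W' :=
  Submodule.smul_mono le_rfl h

theorem map_mem_yW (f : Module.End T N) {x : N} (hx : x ∈ yW y ⊤) : f x ∈ yW y ⊤ := by
  obtain ⟨v, -, rfl⟩ := exists_of_mem_yW y hx
  rw [map_sum]
  exact Submodule.sum_mem _ fun j _ => by rw [map_smul]; exact smul_mem_yW y j trivial

variable {y E}

theorem exists_syz (hE : ∀ i j, E i * E j = E j * E i) (τ : ℤ) {v : Fin D → N}
    (hv : v ∈ kosRel y N) : ∃ g : Fin D → (ℤ →₀ N), ∑ j, kz y E j (g j) = 0 ∧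
      ∀ j, g j ∈ low T N τ ∧ g j τ = v j := by
  obtain ⟨ev, hev⟩ := exists_evalHom (T := T) (kz y E) fun i j => by
    simp only [kz, sub_mul, mul_sub, smul_mul_assoc, mul_smul_comm, one_mul, mul_one, sh_mul,
      smul_smul, smul_sub, hE i j, mul_comm (y i)]
    abel
  have key : ∀ (c : MvPolynomial (Fin D) T) (g : ℤ →₀ N), g ∈ low T N τ →
      ev c g ∈ low T N τ ∧ ev c g τ = eval y c • g τ := by
    intro c
    induction c using MvPolynomial.induction_on with
    | C a =>
      intro g hg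
      have : ev (C a) g = a • g := by
        rw [← algebraMap_eq, AlgHom.commutes, Module.algebraMap_end_apply]
      rw [this]
      exact ⟨Submodule.smul_mem _ _ hg, by simp⟩
    | add p q hp hq =>
      intro g hg
      rw [map_add, LinearMap.add_apply]
      exact ⟨add_mem (hp g hg).1 (hq g hg).1, by
        rw [Finsupp.add_apply, (hp g hg).2, (hq g hg).2, map_add, add_smul]⟩
    | mul_X p j hp =>
      intro g hg
      have h1 : kz y E j g ∈ low T N τ := fun t ht => by
        rw [kz_apply, hg t ht, hg _ (by omega), smul_zero, map_zero, sub_zero]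
      rw [map_mul, hev, Module.End.mul_apply]
      refine ⟨(hp _ h1).1, ?_⟩
      rw [(hp _ h1).2, kz_apply, hg (τ - 1) (by omega), map_zero, sub_zero, smul_smul, map_mul,
        eval_X]
  induction hv using Submodule.span_induction with
  | mem v hv =>
    obtain ⟨c, x, hc, rfl⟩ := hv
    refine ⟨fun j => ev (c j) (Finsupp.single τ x), ?_, fun j => ?_⟩
    · have : ∑ j, kz y E j * ev (c j) = 0 := by
        simp only [← hev, ← map_mul, ← map_sum, hc, map_zero]
      have h2 := LinearMap.congr_fun this (Finsupp.single τ x)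
      simpa [LinearMap.sum_apply] using h2
    · simpa using key (c j) _ (single_mem_low le_rfl x)
  | zero => exact ⟨0, by simp, fun j => ⟨zero_mem _, rfl⟩⟩
  | add v v' _ _ h h' =>
    obtain ⟨g, h1, h2⟩ := h
    obtain ⟨g', h1', h2'⟩ := h'
    refine ⟨g + g', ?_, fun j => ⟨add_mem (h2 j).1 (h2' j).1, ?_⟩⟩
    · simp only [Pi.add_apply, map_add, Finset.sum_add_distrib, h1, h1', add_zero]
    · simp [(h2 j).2, (h2' j).2]
  | smul a v _ h =>
    obtain ⟨g, h1, h2⟩ := h
    refine ⟨a • g, ?_, fun j => ⟨Submodule.smul_mem _ _ (h2 j).1, ?_⟩⟩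
    · simp only [Pi.smul_apply, map_smul, ← Finset.smul_sum, h1, smul_zero]
    · simp [(h2 j).2]

/-- the symbol of a relation vanishes. -/
theorem symbol_mem (hE : ∀ i j, E i * E j = E j * E i) (hK : Kos y N) {τ : ℤ} {g : ℤ →₀ N}
    (hg : g ∈ rel y E) (hg' : g ∈ low T N τ) : g τ ∈ yW y ⊤ := by
  obtain ⟨v, rfl⟩ := (mem_rel y E).1 hg
  have h0 : ∃ t ≤ τ, ∀ j, v j ∈ low T N t := by
    choose t ht ht' using fun j => exists_low (T := T) (v j) τ
    obtain ⟨b, hb⟩ := (Set.finite_range t).bddBelow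
    exact ⟨min b τ, min_le_right _ _, fun j =>
      low_anti ((min_le_left _ _).trans (hb ⟨j, rfl⟩)) (ht' j)⟩
  obtain ⟨t0, ht0, hv⟩ := h0
  have hco : ∀ (t : ℤ) (w : Fin D → (ℤ →₀ N)), (∀ j, w j ∈ low T N t) →
      (∑ j, kz y E j (w j)) t = ∑ j, y j • w j t := by
    intro t w hw
    rw [Finsupp.finset_sum_apply]
    exact Finset.sum_congr rfl fun j _ => by
      rw [kz_apply, hw j (t - 1) (by omega), map_zero, sub_zero]
  have key : ∀ t, t0 ≤ t → t ≤ τ → ∃ w : Fin D → (ℤ →₀ N), (∀ j, w j ∈ low T N t) ∧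
      ∑ j, kz y E j (w j) = ∑ j, kz y E j (v j) := by
    intro t ht
    induction t, ht using Int.le_induction with
    | base => exact fun _ => ⟨v, hv, rfl⟩
    | succ t ht ih =>
      intro h
      obtain ⟨w, hw, hw'⟩ := ih (by omega)
      have h1 : ∑ j, y j • w j t = 0 := by rw [← hco t w hw, hw']; exact hg' t (by omega)
      obtain ⟨g, h2, h3⟩ := exists_syz hE t (hK _ h1)
      refine ⟨w - g, fun j s hs => ?_, ?_⟩
      · rw [Pi.sub_apply, Finsupp.sub_apply]
        by_cases hs' : s = t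
        · rw [hs', (h3 j).2, sub_self]
        · rw [hw j s (by omega), (h3 j).1 s (by omega), sub_zero]
      · simp only [Pi.sub_apply, map_sub, Finset.sum_sub_distrib, h2, hw', sub_zero]
  obtain ⟨w, hw, hw'⟩ := key τ ht0 le_rfl
  rw [← hw', hco τ w hw]
  exact Submodule.sum_mem _ fun j _ => smul_mem_yW y j trivial

variable (y E)

/-- the quotient. -/
abbrev MM : Type _ := (ℤ →₀ N) ⧸ rel y E

/-- the image of a family. -/
noncomputable def im (W : ℤ → Submodule T N) : Submodule T (MM y E) := (fam W).map (rel y E).mkQ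

/-- the filtration. -/
noncomputable def Fil (τ : ℤ) : Submodule T (MM y E) := (low T N τ).map (rel y E).mkQ

/-- operators on the quotient. -/
noncomputable def op (s : ℤ) (f : Module.End T N) (hf : ∀ j, f * E j = E j * f) :
    MM y E →ₗ[T] MM y E :=
  (rel y E).mapQ (rel y E) (sh s f) (by
    intro g hg
    obtain ⟨v, rfl⟩ := (mem_rel y E).1 hg
    rw [Submodule.mem_comap, map_sum]
    refine Submodule.sum_mem _ fun j _ => ?_
    have : sh s f * kz y E j = kz y E j * sh s f := by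
      simp only [kz, sub_mul, mul_sub, smul_mul_assoc, mul_smul_comm, one_mul, mul_one, sh_mul,
        hf j, add_comm s]
    rw [← Module.End.mul_apply, this]
    exact kz_mem_rel y E j _)

theorem op_mk (s : ℤ) (f : Module.End T N) (hf : ∀ j, f * E j = E j * f) (g : ℤ →₀ N) :
    op y E s f hf ((rel y E).mkQ g) = (rel y E).mkQ (sh s f g) := rfl

theorem smul_mk (j : Fin D) (g : ℤ →₀ N) :
    y j • (rel y E).mkQ g = (rel y E).mkQ (sh 1 (E j) g) := by
  rw [← map_smul, Submodule.mkQ_apply, Submodule.mkQ_apply, Submodule.Quotient.eq]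
  exact kz_mem_rel y E j g

theorem op_mem_im {W W' : ℤ → Submodule T N} (s : ℤ) (f : Module.End T N)
    (hf : ∀ j, f * E j = E j * f) (h : ∀ t, ∀ x ∈ W t, f x ∈ W' (t + s)) {x : MM y E}
    (hx : x ∈ im y E W) : op y E s f hf x ∈ im y E W' := by
  obtain ⟨g, hg, rfl⟩ := hx
  exact ⟨_, sh_mem_fam hg s f h, rfl⟩

theorem smul_mem_Fil {a : ℕ} {c : T} (hc : c ∈ Ideal.span (Set.range y) ^ a) (τ : ℤ)
    {x : MM y E} (hx : x ∈ Fil y E τ) : c • x ∈ Fil y E (τ + a) := by
  induction hc using Submodule.pow_induction_on_left' with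
  | algebraMap r => simpa using Submodule.smul_mem _ r hx
  | add c c' i _ _ h h' => rw [add_smul]; exact add_mem h h'
  | mem_mul m hm i c _ h =>
    obtain ⟨b, rfl⟩ := Ideal.mem_span_range_iff_exists_fun.1 hm
    obtain ⟨g, hg, hg'⟩ := h
    rw [mul_smul, ← hg', Finset.sum_smul]
    refine Submodule.sum_mem _ fun j _ => ?_
    rw [mul_smul, smul_mk]
    refine Submodule.smul_mem _ _ ⟨_, ?_, rfl⟩
    have := sh_mem_low hg 1 (E j)
    push_cast
    rwa [add_assoc] at this

variable {y E}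

/-- stable and pure families. -/
structure Good (y : Fin D → T) (E : Fin D → Module.End T N) (W : ℤ → Submodule T N) : Prop where
  stable : ∀ j t, ∀ x ∈ W t, E j x ∈ W (t + 1)
  pure : ∀ t, ∀ x ∈ W t, x ∈ yW y ⊤ → x ∈ yW y (W t)

theorem Good.step {W : ℤ → Submodule T N} (hW : Good y E W) {t : ℤ} {g : ℤ →₀ N}
    (hg : g ∈ fam W) (hg' : g ∈ low T N t) (h : g t ∈ yW y ⊤) :
    ∃ g' ∈ fam W, g' ∈ low T N (t + 1) ∧ (rel y E).mkQ g' = (rel y E).mkQ g := by
  obtain ⟨v, hv, hv'⟩ := exists_of_mem_yW y (hW.pure t _ (hg t) h)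
  refine ⟨g - ∑ j, kz y E j (Finsupp.single t (v j)), sub_mem hg (Submodule.sum_mem _ fun j _ => ?_),
    fun s hs => ?_, ?_⟩
  · exact sub_mem (Submodule.smul_mem _ _ (single_mem_fam (hv j)))
      (sh_mem_fam (single_mem_fam (hv j)) 1 _ (hW.stable j))
  · rw [Finsupp.sub_apply, Finsupp.finset_sum_apply]
    simp only [kz_apply]
    by_cases hs' : s = t
    · subst hs'
      simp [hv', Finsupp.single_eq_of_ne (show s - 1 ≠ s by omega)]
    · simp [hg' s (by omega), Finsupp.single_eq_of_ne hs',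
        Finsupp.single_eq_of_ne (show s - 1 ≠ t by omega)]
  · rw [map_sub, sub_eq_self, Submodule.mkQ_apply, Submodule.Quotient.mk_eq_zero]
    exact Submodule.sum_mem _ fun j _ => kz_mem_rel y E j _

theorem Good.exists_low (hE : ∀ i j, E i * E j = E j * E i) (hK : Kos y N)
    {W : ℤ → Submodule T N} (hW : Good y E W) {τ : ℤ} {x : MM y E} (hx : x ∈ im y E W)
    (hx' : x ∈ Fil y E τ) : ∃ g ∈ fam W, g ∈ low T N τ ∧ (rel y E).mkQ g = x := by
  obtain ⟨g, hg, rfl⟩ := hx
  obtain ⟨f, hf, hf'⟩ := hx'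
  obtain ⟨t0, ht0, hg0⟩ := LB.exists_low (T := T) g τ
  have key : ∀ t, t0 ≤ t → t ≤ τ →
      ∃ g' ∈ fam W, g' ∈ low T N t ∧ (rel y E).mkQ g' = (rel y E).mkQ g := by
    intro t ht
    induction t, ht using Int.le_induction with
    | base => exact fun _ => ⟨g, hg, hg0, rfl⟩
    | succ t ht ih =>
      intro h
      obtain ⟨g', h1, h2, h3⟩ := ih (by omega)
      have h4 := symbol_mem hE hK ((Submodule.Quotient.eq _).1 (h3.trans hf'.symm))
        (sub_mem h2 (low_anti (by omega) hf))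
      rw [Finsupp.sub_apply, hf t (by omega), sub_zero] at h4
      obtain ⟨g'', h5, h6, h7⟩ := hW.step h1 h2 h4
      exact ⟨g'', h5, h6, h7.trans h3⟩
  exact key τ ht0 le_rfl

/-- vanishing in the quotient from vanishing of symbols. -/
theorem van (hE : ∀ i j, E i * E j = E j * E i) (hK : Kos y N) {C K₀ K₁ Y : ℤ → Submodule T N}
    (hC : Good y E C) (hK₁ : Good y E K₁) (d d' : Module.End T N) (hd : ∀ j, d * E j = E j * d)
    (hd' : ∀ j, d' * E j = E j * d') (hdd : ∀ t, ∀ x ∈ Y t, d (d' x) = 0)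
    (h01 : ∀ t, ∀ x ∈ K₀ t, d x ∈ K₁ t) (hYC : ∀ t, ∀ x ∈ Y t, d' x ∈ C t)
    (h0C : ∀ t, K₀ t ≤ C t) (θ : ℤ)
    (hpt : ∀ t < θ, ∀ x ∈ C t, d x ∈ K₁ t ⊔ yW y ⊤ → ∃ z ∈ Y t, x - d' z ∈ K₀ t ⊔ yW y ⊤)
    {x : MM y E} (hx : x ∈ im y E C) (hx' : op y E 0 d hd x ∈ Fil y E θ ⊔ im y E K₁) :
    ∃ z ∈ im y E Y, x - op y E 0 d' hd' z ∈ (im y E C ⊓ Fil y E θ) ⊔ im y E K₀ := by
  obtain ⟨g, hg, rfl⟩ := hx
  obtain ⟨t0, ht0, hg0⟩ := LB.exists_low (T := T) g θ
  have key : ∀ t, t0 ≤ t → t ≤ θ → ∃ z ∈ fam Y, ∃ k ∈ fam K₀, ∃ g' ∈ fam C, g' ∈ low T N t ∧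
      (rel y E).mkQ g' = (rel y E).mkQ (g - sh 0 d' z - k) := by
    intro t ht
    induction t, ht using Int.le_induction with
    | base => exact fun _ => ⟨0, zero_mem _, 0, zero_mem _, g, hg, hg0, by simp⟩
    | succ t ht ih =>
      intro h
      obtain ⟨z, hz, k, hk, g', h1, h2, h3⟩ := ih (by omega)
      obtain ⟨_, ⟨f, hf, rfl⟩, w, hw, hfw⟩ := Submodule.mem_sup.1 hx'
      have e1 : sh 0 d (sh 0 d' z) = 0 := Finsupp.ext fun s => by
        simp [sh_apply, hdd s _ (hz s)]
      have e2 : (rel y E).mkQ (sh 0 d g' - f) = w - (rel y E).mkQ (sh 0 d k) := by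
        rw [map_sub, ← op_mk y E 0 d hd, h3, op_mk, map_sub (sh 0 d), map_sub (sh 0 d), e1,
          sub_zero, map_sub, ← op_mk y E 0 d hd, ← hfw]
        abel
      have e3 : sh 0 d g' - f ∈ low T N t :=
        sub_mem (by simpa using sh_mem_low h2 0 d) (low_anti (by omega) hf)
      obtain ⟨k', hk', hk'', hk'''⟩ := hK₁.exists_low hE hK (τ := t)
        (sub_mem hw ⟨_, sh_mem_fam hk 0 d (by simpa using h01), rfl⟩) ⟨_, e3, e2⟩
      have h4 := symbol_mem hE hK ((Submodule.Quotient.eq _).1 (e2.trans hk'''.symm))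
        (sub_mem e3 hk'')
      rw [Finsupp.sub_apply, Finsupp.sub_apply, hf t (by omega), sub_zero, sh_apply, sub_zero] at h4
      obtain ⟨z', hz', hz''⟩ := hpt t (by omega) _ (h1 t)
        (Submodule.mem_sup.2 ⟨_, hk' t, _, h4, by abel⟩)
      obtain ⟨k1, hk1, r, hr, hkr⟩ := Submodule.mem_sup.1 hz''
      obtain ⟨g'', h5, h6, h7⟩ := hC.step (t := t)
        (g := g' - Finsupp.single t (d' z') - Finsupp.single t k1)
        (sub_mem (sub_mem h1 (single_mem_fam (hYC t _ hz'))) (single_mem_fam (h0C t hk1)))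
        (sub_mem (sub_mem h2 (single_mem_low le_rfl _)) (single_mem_low le_rfl _))
        (by
          rw [Finsupp.sub_apply, Finsupp.sub_apply, Finsupp.single_eq_same, Finsupp.single_eq_same,
            ← hkr, add_sub_cancel_left]
          exact hr)
      refine ⟨z + Finsupp.single t z', add_mem hz (single_mem_fam hz'),
        k + Finsupp.single t k1, add_mem hk (single_mem_fam hk1), g'', h5, h6, ?_⟩
      rw [h7, map_sub, map_sub, h3, map_add, sh_single, add_zero]
      simp only [map_sub, map_add]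
      abel
  obtain ⟨z, hz, k, hk, g', h1, h2, h3⟩ := key θ ht0 le_rfl
  refine ⟨_, ⟨z, hz, rfl⟩, Submodule.mem_sup.2 ⟨_, ⟨⟨g', h1, rfl⟩, ⟨g', h2, rfl⟩⟩, _, ⟨k, hk, rfl⟩, ?_⟩⟩
  rw [h3, op_mk, map_sub, map_sub]
  abel

end Vale.Agent.P202.LB
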