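import Vale.Agent.P202.MxLBAux1
import Vale.Agent.P202.MxColon
import Vale.Agent.P202.LinAlg

/-! Symbols in a tensor product with a free module. -/

namespace Vale.Agent.P202.LB

open TensorProduct

variable {V K T H M : Type*} [CommRing V] [Field K] [Algebra V K] [CommRing T] [Algebra V T]
  [AddCommGroup H] [Module T H] [Module V H] [IsScalarTower V T H] [AddCommGroup M] [Module V M]
  {D : ℕ} {y : Fin D → T}

variable (T H) in
/-- operators on the right factor. -/
noncomputable def lT (f : M →ₗ[V] M) : Module.End T (H ⊗[V] M) := AlgebraTensorModule.lTensor T H f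

theorem lT_tmul (f : M →ₗ[V] M) (h : H) (m : M) : lT T H f (h ⊗ₜ m) = h ⊗ₜ f m := rfl

theorem lT_mul (f g : Module.End V M) : lT T H (f * g) = lT T H f * lT T H g :=
  AlgebraTensorModule.ext fun _ _ => rfl

variable (T H) in
/-- the image of a submodule of the right factor. -/
noncomputable def tT (W : Submodule V M) : Submodule T (H ⊗[V] M) :=
  LinearMap.range (AlgebraTensorModule.lTensor T H W.subtype)

theorem tmul_mem_tT {W : Submodule V M} (h : H) {w : M} (hw : w ∈ W) : h ⊗ₜ w ∈ tT T H W :=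
  ⟨h ⊗ₜ ⟨w, hw⟩, rfl⟩

theorem tT_induction {W : Submodule V M} {P : H ⊗[V] M → Prop} {x : H ⊗[V] M} (hx : x ∈ tT T H W)
    (h0 : P 0) (h1 : ∀ h, ∀ w ∈ W, P (h ⊗ₜ w)) (h2 : ∀ a b, P a → P b → P (a + b)) : P x := by
  obtain ⟨z, rfl⟩ := hx
  induction z using TensorProduct.induction_on with
  | zero => rw [map_zero]; exact h0
  | tmul h w => exact h1 h w w.2
  | add a b ha hb => rw [map_add]; exact h2 _ _ ha hb

theorem lT_mem_tT {W W' : Submodule V M} (f : M →ₗ[V] M) (hf : ∀ w ∈ W, f w ∈ W') {x : H ⊗[V] M}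
    (hx : x ∈ tT T H W) : lT T H f x ∈ tT T H W' :=
  tT_induction (P := fun x => lT T H f x ∈ tT T H W') hx (by simp)
    (fun h w hw => tmul_mem_tT h (hf w hw)) fun a b ha hb => by
      rw [map_add]; exact add_mem ha hb

theorem tT_mono {W W' : Submodule V M} (h : W ≤ W') : tT T H W ≤ tT T H W' := fun _ hx =>
  tT_induction (P := fun x => x ∈ tT T H W') hx (zero_mem _)
    (fun a _ hw => tmul_mem_tT a (h hw)) fun _ _ => add_mem

theorem lT_eq_zero {W : Submodule V M} (f : M →ₗ[V] M) (hf : ∀ w ∈ W, f w = 0) {x : H ⊗[V] M}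
    (hx : x ∈ tT T H W) : lT T H f x = 0 :=
  tT_induction (P := fun x => lT T H f x = 0) hx (map_zero _)
    (fun h w hw => by rw [lT_tmul, hf w hw, tmul_zero]) fun a b ha hb => by
      rw [map_add, ha, hb, add_zero]

theorem kos_tensor [Module.Free V M] (hK : KoszulInj V y H) : Kos y (H ⊗[V] M) := by
  classical
  intro v hv
  let b := Module.Free.chooseBasis V M
  let e := TensorProduct.equivFinsuppOfBasisRight (M := H) b
  have he : ∀ (a : T) (x : H ⊗[V] M) i, e (a • x) i = a • e x i := by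
    intro a x i
    induction x using TensorProduct.induction_on with
    | zero => simp
    | tmul h m =>
      rw [smul_tmul', equivFinsuppOfBasisRight_apply_tmul_apply,
        equivFinsuppOfBasisRight_apply_tmul_apply, smul_comm]
    | add x x' hx hx' => simp only [smul_add, map_add, Finsupp.add_apply, hx, hx']
  let s := Finset.univ.biUnion fun j => (e (v j)).support
  have hv' : v = ∑ i ∈ s, fun j => e (v j) i ⊗ₜ b i := by
    funext j
    rw [Finset.sum_apply]
    conv_lhs => rw [← e.symm_apply_apply (v j), equivFinsuppOfBasisRight_symm_apply]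
    exact Finsupp.sum_of_support_subset _
      (Finset.subset_biUnion_of_mem (fun j => (e (v j)).support) (Finset.mem_univ j)) _
      fun _ _ => zero_tmul _ _
  rw [hv']
  refine Submodule.sum_mem _ fun i _ => ?_
  obtain ⟨m, c, h', hc, hh⟩ := hK (fun j => e (v j) i) (by
    have := congrArg (fun x => e x i) hv
    simpa only [map_sum, Finsupp.finset_sum_apply, he, map_zero, Finsupp.zero_apply] using this)
  have : (fun j => e (v j) i ⊗ₜ[V] b i) = ∑ l, fun j =>
      MvPolynomial.eval y (MvPolynomial.map (algebraMap V T) (c l j)) • (h' l ⊗ₜ[V] b i) := by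
    funext j
    rw [hh j, sum_tmul, Finset.sum_apply]
    refine Finset.sum_congr rfl fun l _ => ?_
    rw [smul_tmul', MvPolynomial.eval_map, MvPolynomial.aeval_def]
  rw [this]
  refine Submodule.sum_mem _ fun l _ => Submodule.subset_span ⟨_, _, ?_, rfl⟩
  have := congrArg (MvPolynomial.map (algebraMap V T)) (hc l)
  simpa using this

theorem exists_quot (π : V) (hsurj : Function.Surjective (algebraMap V K))
    (hker : ∀ v, algebraMap V K v = 0 ↔ π ∣ v) (hπ : algebraMap V T π ∈ Ideal.span (Set.range y)) :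
    ∃ (_ : Module K (H ⧸ yW y (⊤ : Submodule T H)))
      (q : H →ₛₗ[algebraMap V K] H ⧸ yW y (⊤ : Submodule T H)), Function.Surjective q ∧
      ∀ h, q h = 0 ↔ h ∈ yW y ⊤ := by
  letI : SMul K (H ⧸ yW y (⊤ : Submodule T H)) := ⟨fun k x => Function.surjInv hsurj k • x⟩
  have hs : ∀ (c : V) (x : H ⧸ yW y (⊤ : Submodule T H)), algebraMap V K c • x = c • x := by
    intro c x
    obtain ⟨x, rfl⟩ := Submodule.Quotient.mk_surjective _ x
    obtain ⟨u, hu⟩ := (hker (Function.surjInv hsurj (algebraMap V K c) - c)).1 (by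
      rw [map_sub, Function.surjInv_eq hsurj, sub_self])
    have e : algebraMap V K c • (Submodule.Quotient.mk x : H ⧸ yW y (⊤ : Submodule T H)) =
      Submodule.Quotient.mk (Function.surjInv hsurj (algebraMap V K c) • x) := rfl
    rw [e, ← Submodule.Quotient.mk_smul, Submodule.Quotient.eq, ← sub_smul, hu,
      ← algebraMap_smul T, map_mul]
    exact Submodule.smul_mem_smul (Ideal.mul_mem_right _ _ hπ) trivial
  letI m : Module K (H ⧸ yW y (⊤ : Submodule T H)) :=
    Function.Surjective.moduleLeft (algebraMap V K) hsurj hs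
  exact ⟨m, { toFun := Submodule.Quotient.mk, map_add' := fun _ _ => rfl
              map_smul' := fun c h => (hs c (Submodule.Quotient.mk h)).symm },
    Submodule.Quotient.mk_surjective _, fun h => Submodule.Quotient.mk_eq_zero _⟩

variable {M' Q : Type*} [AddCommGroup M'] [Module K M'] [AddCommGroup Q] [Module K Q]
  {red : M →ₛₗ[algebraMap V K] M'} {q : H →ₛₗ[algebraMap V K] Q}

theorem rho_yW (hq0 : ∀ h, q h = 0 ↔ h ∈ yW y ⊤) {x : H ⊗[V] M} (hx : x ∈ yW y ⊤) :
    TensorProduct.map q red x = 0 := by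
  obtain ⟨v, -, rfl⟩ := exists_of_mem_yW y hx
  rw [map_sum]
  refine Finset.sum_eq_zero fun j _ => ?_
  induction v j using TensorProduct.induction_on with
  | zero => simp
  | tmul h m => rw [smul_tmul', map_tmul, (hq0 _).2 (smul_mem_yW y j trivial), zero_tmul]
  | add a b ha hb => rw [smul_add, map_add, ha, hb, add_zero]

theorem rho_mem {W : Submodule V M} {W' : Submodule K M'} (hW : ∀ w ∈ W, red w ∈ W')
    {x : H ⊗[V] M} (hx : x ∈ tT T H W) : TensorProduct.map q red x ∈ tens ⊤ W' :=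
  tT_induction (P := fun x => TensorProduct.map q red x ∈ tens ⊤ W') hx (by simp)
    (fun h w hw => tmul_mem_tens trivial (hW w hw)) fun a b ha hb => by
      rw [map_add]; exact add_mem ha hb

theorem rho_lift (hq : Function.Surjective q) {W : Submodule V M} {W' : Submodule K M'}
    (hW : ∀ w' ∈ W', ∃ w ∈ W, red w = w') {ξ : Q ⊗[K] M'} (hξ : ξ ∈ tens ⊤ W') :
    ∃ x ∈ tT T H W, TensorProduct.map q red x = ξ := by
  refine tens_induction (C := fun ξ => ∃ x ∈ tT T H W, TensorProduct.map q red x = ξ) hξ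
    ⟨0, zero_mem _, map_zero _⟩ (fun a _ w' hw' => ?_) ?_
  · obtain ⟨h, rfl⟩ := hq a
    obtain ⟨w, hw, rfl⟩ := hW w' hw'
    exact ⟨h ⊗ₜ w, tmul_mem_tT h hw, rfl⟩
  · rintro _ _ ⟨a, ha, rfl⟩ ⟨b, hb, rfl⟩
    exact ⟨a + b, add_mem ha hb, map_add _ _ _⟩

theorem rho_lT (f : M →ₗ[V] M) (f' : M' →ₗ[K] M') (hf : ∀ m, red (f m) = f' (red m))
    (x : H ⊗[V] M) : TensorProduct.map q red (lT T H f x) =
      TensorProduct.map LinearMap.id f' (TensorProduct.map q red x) := by
  induction x using TensorProduct.induction_on with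
  | zero => simp
  | tmul h m => simp [lT_tmul, hf]
  | add a b ha hb => simp only [map_add, ha, hb]

theorem mem_yW_of_rho {π : V} (hsurj : Function.Surjective (algebraMap V K))
    (hπ : algebraMap V T π ∈ Ideal.span (Set.range y)) (hq : Function.Surjective q)
    (hq0 : ∀ h, q h = 0 ↔ h ∈ yW y ⊤) {W : Submodule V M}
    (hW : ∀ w ∈ W, red w = 0 → ∃ w' ∈ W, w = π • w') {x : H ⊗[V] M} (hx : x ∈ tT T H W)
    (hx0 : TensorProduct.map q red x = 0) : x ∈ yW y (tT T H W) := by
  haveI : RingHomSurjective (algebraMap V K) := ⟨hsurj⟩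
  obtain ⟨r, hr⟩ := (W.map red).subtype.exists_leftInverse_of_injective (Submodule.ker_subtype _)
  choose sW hsW hsW' using fun w : W.map red => w.2
  choose sQ hsQ using hq
  have wd : ∀ {h h' : H} {w w' : M}, w ∈ W → w' ∈ W → q h = q h' → red w = red w' →
      (yW y (tT T H W)).mkQ (h ⊗ₜ w) = (yW y (tT T H W)).mkQ (h' ⊗ₜ w') := by
    intro h h' w w' hw hw' e1 e2
    obtain ⟨v, -, hv⟩ := exists_of_mem_yW y ((hq0 (h - h')).1 (by rw [map_sub, e1, sub_self]))
    obtain ⟨w'', h1, h2⟩ := hW (w - w') (sub_mem hw hw') (by rw [map_sub, e2, sub_self])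
    rw [Submodule.mkQ_apply, Submodule.mkQ_apply, Submodule.Quotient.eq]
    have : h ⊗ₜ[V] w - h' ⊗ₜ w' = (h - h') ⊗ₜ w + h' ⊗ₜ (w - w') := by
      rw [sub_tmul, tmul_sub]; abel
    rw [this, hv, h2, sum_tmul, tmul_smul, ← algebraMap_smul T π]
    refine add_mem (Submodule.sum_mem _ fun j _ => ?_)
      (Submodule.smul_mem_smul hπ (tmul_mem_tT _ h1))
    rw [← smul_tmul']
    exact smul_mem_yW y j (tmul_mem_tT _ hw)
  let f : Q →+ M' →+ (H ⊗[V] M) ⧸ yW y (tT T H W) := AddMonoidHom.mk'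
    (fun a => AddMonoidHom.mk' (fun m => (yW y (tT T H W)).mkQ (sQ a ⊗ₜ sW (r m))) fun m m' => by
      rw [← map_add, ← tmul_add]
      exact wd (hsW _) (add_mem (hsW _) (hsW _)) rfl (by simp only [map_add, hsW']; rfl))
    fun a a' => AddMonoidHom.ext fun m => by
      change (yW y (tT T H W)).mkQ _ = (yW y (tT T H W)).mkQ _ + (yW y (tT T H W)).mkQ _
      rw [← map_add, ← add_tmul]
      exact wd (hsW _) (hsW _) (by simp only [map_add, hsQ]) rfl
  let B : Q ⊗[K] M' →+ (H ⊗[V] M) ⧸ yW y (tT T H W) := TensorProduct.liftAddHom f fun c a m => by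
    obtain ⟨v, rfl⟩ := hsurj c
    change (yW y (tT T H W)).mkQ _ = (yW y (tT T H W)).mkQ _
    refine (wd (h' := v • sQ a) (hsW _) (hsW _) (by rw [map_smulₛₗ, hsQ, hsQ]) rfl).trans ?_
    rw [smul_tmul]
    exact wd (W.smul_mem _ (hsW _)) (hsW _) rfl (by rw [map_smulₛₗ, hsW', hsW', map_smul]; rfl)
  have hB : B (TensorProduct.map q red x) = (yW y (tT T H W)).mkQ x := by
    refine tT_induction (P := fun x => B (TensorProduct.map q red x) = (yW y (tT T H W)).mkQ x) hx
      (by simp) (fun h w hw => ?_) fun a b ha hb => by simp only [map_add, ha, hb]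
    change (yW y (tT T H W)).mkQ _ = _
    refine wd (hsW _) hw (hsQ _) ?_
    rw [hsW']
    exact congrArg Subtype.val (LinearMap.congr_fun hr ⟨red w, w, hw, rfl⟩)
  rw [hx0, map_zero] at hB
  exact (Submodule.Quotient.mk_eq_zero _).1 hB.symm

theorem van_pt {π : V} (hsurj : Function.Surjective (algebraMap V K))
    (hπ : algebraMap V T π ∈ Ideal.span (Set.range y)) (hq : Function.Surjective q)
    (hq0 : ∀ h, q h = 0 ↔ h ∈ yW y ⊤) {C K₀ K₁ Y : Submodule V M} {C' K₀' K₁' Y' : Submodule K M'}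
    (hC : ∀ w ∈ C, red w = 0 → ∃ w' ∈ C, w = π • w') (rC : ∀ w ∈ C, red w ∈ C')
    (rK : ∀ w ∈ K₁, red w ∈ K₁') (lK : ∀ w' ∈ K₀', ∃ w ∈ K₀, red w = w')
    (lY : ∀ w' ∈ Y', ∃ w ∈ Y, red w = w') (d d' : M →ₗ[V] M) (e e' : M' →ₗ[K] M')
    (hd : ∀ m, red (d m) = e (red m)) (hd' : ∀ m, red (d' m) = e' (red m))
    (hYC : ∀ w ∈ Y, d' w ∈ C) (h0C : K₀ ≤ C)
    (hvan : ∀ x ∈ C', e x ∈ K₁' → ∃ z ∈ Y', x - e' z ∈ K₀') (x : H ⊗[V] M) (hx : x ∈ tT T H C)
    (hx' : lT T H d x ∈ tT T H K₁ ⊔ yW y ⊤) :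
    ∃ z ∈ tT T H Y, x - lT T H d' z ∈ tT T H K₀ ⊔ yW y ⊤ := by
  have h1 : TensorProduct.map LinearMap.id e (TensorProduct.map q red x) ∈ tens ⊤ K₁' := by
    obtain ⟨a, ha, b, hb, hab⟩ := Submodule.mem_sup.1 hx'
    rw [← rho_lT (T := T) d e hd, ← hab, map_add, rho_yW hq0 hb, add_zero]
    exact rho_mem rK ha
  have h2 : TensorProduct.map LinearMap.id (K₁'.mkQ ∘ₗ e) (TensorProduct.map q red x) = 0 := by
    have := map_mem_tens (D' := ⊤) (E' := ⊥) LinearMap.id K₁'.mkQ (fun _ _ => trivial)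
      (fun w hw => (Submodule.Quotient.mk_eq_zero _).2 hw) h1
    rwa [tens_bot_right, Submodule.mem_bot, ← LinearMap.comp_apply, ← TensorProduct.map_comp,
      LinearMap.id_comp] at this
  have h3 := mem_tens_inf_ker_right _ (rho_mem (q := q) rC hx) h2
  obtain ⟨η, hη, hη'⟩ : ∃ η ∈ tens (⊤ : Submodule K Q) Y', TensorProduct.map q red x -
      TensorProduct.map LinearMap.id e' η ∈ tens (⊤ : Submodule K Q) K₀' := by
    refine tens_induction (C := fun ξ => ∃ η ∈ tens (⊤ : Submodule K Q) Y', ξ -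
      TensorProduct.map LinearMap.id e' η ∈ tens (⊤ : Submodule K Q) K₀') h3
      ⟨0, zero_mem _, by simp⟩ (fun a _ w hw => ?_) ?_
    · obtain ⟨z, hz, hz'⟩ := hvan w hw.1 ((Submodule.Quotient.mk_eq_zero _).1 hw.2)
      refine ⟨a ⊗ₜ z, tmul_mem_tens trivial hz, ?_⟩
      rw [map_tmul, LinearMap.id_apply, ← tmul_sub]
      exact tmul_mem_tens trivial hz'
    · rintro a b ⟨η, h4, h5⟩ ⟨η', h6, h7⟩
      refine ⟨η + η', add_mem h4 h6, ?_⟩
      rw [map_add, add_sub_add_comm]
      exact add_mem h5 h7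
  obtain ⟨z, hz, rfl⟩ := rho_lift (T := T) hq lY hη
  obtain ⟨k, hk, hk'⟩ := rho_lift (T := T) hq lK hη'
  refine ⟨z, hz, Submodule.mem_sup.2 ⟨k, hk, x - lT T H d' z - k, ?_, by abel⟩⟩
  refine yW_mono y le_top (mem_yW_of_rho hsurj hπ hq hq0 hC
    (sub_mem (sub_mem hx (lT_mem_tT d' hYC hz)) (tT_mono h0C hk)) ?_)
  rw [map_sub, map_sub, rho_lT d' e' hd', hk', sub_self]

theorem mem_yW_of_indep (hq0 : ∀ h, q h = 0 ↔ h ∈ yW y ⊤) {ι : Type*} [Fintype ι] (w : ι → M)
    (hw : LinearIndependent K fun i => red (w i)) (h : ι → H)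
    (hh : ∑ i, h i ⊗ₜ[V] w i ∈ yW y ⊤) (i : ι) : h i ∈ yW y ⊤ := by
  classical
  obtain ⟨L, hL⟩ := (Finsupp.linearCombination K fun i => red (w i)).exists_leftInverse_of_injective
    (LinearMap.ker_eq_bot.2 hw)
  have hL' : ∀ j, L (red (w j)) = Finsupp.single j 1 := fun j => by
    simpa using LinearMap.congr_fun hL (Finsupp.single j 1)
  have h1 := congrArg (fun ξ => TensorProduct.rid K Q (TensorProduct.map LinearMap.id
    (Finsupp.lapply i ∘ₗ L) ξ)) (rho_yW (red := red) hq0 hh)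
  simp only [map_sum, map_tmul, LinearMap.id_apply, LinearMap.comp_apply, hL', Finsupp.lapply_apply,
    rid_tmul, map_zero, Finsupp.single_apply, ite_smul, one_smul, zero_smul, Finset.sum_ite_eq',
    Finset.mem_univ, if_true] at h1
  exact (hq0 _).1 h1

end Vale.Agent.P202.LB
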