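import Vale.Agent.P202.MxColon

/-! The statement of the injectivity form of the length bound. -/

namespace Vale.Agent.P202

universe u

/-- The matrix `α` is triangular injective for all short complexes with entries of order `a`. -/
def LBInj (V : Type u) [CommRing V] (π : V) (D s a : ℕ) {N κ : ℕ}
    (α : Fin N → Fin κ → MvPolynomial (Fin D) V) : Prop :=
  ∀ (T H : Type u) [CommRing T] [Algebra V T] [AddCommGroup H] [Module T H] (y : Fin D → T)
    (β : ℕ → Type) [∀ i, Fintype (β i)] [∀ i, DecidableEq (β i)]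
    (φ : ∀ i, Matrix (β i) (β (i + 1)) T), (∀ i, φ i * φ (i + 1) = 0) →
    (∀ i, D < i → IsEmpty (β i)) → (∀ i r r', φ i r r' ∈ Ideal.span (Set.range y) ^ a) →
    (∀ j, ∃ N₀ : ℕ, NullHtpy φ (y j ^ N₀)) → algebraMap V T π ∈ Ideal.span (Set.range y) →
    FullNull φ (algebraMap V T π ^ s) → KoszulInj V y H →
    ∀ (i₀ : Fin N) (h : Fin N → β 0 → H), (∀ i, i < i₀ → h i = 0) →
      (∀ k, ∃ σ : β 1 → H, ∀ r, ∑ i, MvPolynomial.aeval y (α i k) • h i r = mact (φ 0) σ r) →
      ∀ r, h i₀ r ∈ Ideal.span (Set.range y) • (⊤ : Submodule T H)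

end Vale.Agent.P202
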