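import Vale.Agent.P202.Sys

/-! Lifts of the Segre ring and of the Cech system to a ring `V` with `V / π = K`. -/

namespace Vale.Agent.P202

universe u

/-- a lift of the graded ring. -/
structure LiftRing (V : Type u) [CommRing V] {K : Type u} [Field K] [Algebra V K] (π : V) {n : ℕ}
    (R : SegreRing K n) where
  L : Type u
  [commRing : CommRing L]
  [algebra : Algebra V L]
  B : ℕ → Submodule V L
  one_mem : (1 : L) ∈ B 0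
  mul_mem : ∀ {s t : ℕ} {x y : L}, x ∈ B s → y ∈ B t → x * y ∈ B (s + t)
  fg_B : ∀ t, (B t).FG
  μ : R.ι → L
  μ_mem : ∀ r, μ r ∈ B 1
  e : Fin (n + 1) → L
  e_mem : ∀ j, e j ∈ B 1
  red : L →+* R.L
  red_algebraMap : ∀ v, red (algebraMap V L v) = algebraMap K R.L (algebraMap V K v)
  red_e : ∀ j, red (e j) = R.e j
  red_mem : ∀ t, ∀ x ∈ B t, red x ∈ R.B t
  red_lift : ∀ t, ∀ y ∈ R.B t, ∃ x ∈ B t, red x = y
  red_pure : ∀ t, ∀ x ∈ B t, red x = 0 → ∃ x' ∈ B t, x = π • x'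

attribute [instance] LiftRing.commRing LiftRing.algebra

/-- a lift of the Cech system. -/
structure LiftSys {V : Type u} [CommRing V] {K : Type u} [Field K] [Algebra V K] {π : V} {n : ℕ}
    {R : SegreRing K n} (RV : LiftRing V π R) {a : ℕ} (S : CechSys R a) where
  M : Type u
  [acg : AddCommGroup M]
  [mod : Module V M]
  free : Module.Free V M
  act : RV.L →ₐ[V] Module.End V M
  d : M →ₗ[V] M
  d_act : ∀ b x, d (act b x) = act b (d x)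
  d_d : ∀ x, d (d x) = 0
  C : ℤ → ℤ → Submodule V M
  Kc : ℤ → ℤ → ℤ → Submodule V M
  U : ℤ → Submodule V M
  act_C : ∀ (s : ℕ), ∀ b ∈ RV.B s, ∀ t l, ∀ x ∈ C t l, act b x ∈ C (t + s) l
  act_Kc : ∀ (s : ℕ), ∀ b ∈ RV.B s, ∀ c t l, ∀ x ∈ Kc c t l, act b x ∈ Kc c (t + s) l
  act_U : ∀ (s : ℕ), ∀ b ∈ RV.B s, ∀ t, ∀ x ∈ U t, act b x ∈ U (t + s)
  d_C : ∀ t l, ∀ x ∈ C t l, d x ∈ C t (l + 1)
  d_Kc : ∀ c t l, ∀ x ∈ Kc c t l, d x ∈ Kc c t (l + 1)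
  Kc_le : ∀ c t l, Kc c t l ≤ C t l
  Kc_anti : ∀ c c' t l, c ≤ c' → Kc c' t l ≤ Kc c t l
  U_le : ∀ t, U t ≤ C t 0
  d_U : ∀ t, ∀ x ∈ U t, d x = 0
  θ : R.ι → Module.End V M
  θ_act : ∀ r b x, θ r (act b x) = act b (θ r x)
  θ_C : ∀ r t l, ∀ x ∈ C t l, θ r x ∈ C (t - 1) l
  θ_Kc : ∀ r c t l, ∀ x ∈ Kc c t l, θ r x ∈ Kc c (t - 1) l
  θ_idem : ∀ r x, act (RV.μ r) (θ r (act (RV.μ r) (θ r x))) = act (RV.μ r) (θ r x)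
  θ_sum : ∀ x, ∑ r, act (RV.μ r) (θ r x) = x
  u : S.κ → M
  u_mem : ∀ k, u k ∈ U 0
  U_span : ∀ t : ℕ, ∀ x ∈ U t, ∃ f : S.κ → RV.L, (∀ k, f k ∈ RV.B t) ∧ x = ∑ k, act (f k) (u k)
  red : M →ₛₗ[algebraMap V K] S.M
  red_act : ∀ b x, red (act b x) = S.act (RV.red b) (red x)
  red_d : ∀ x, red (d x) = S.d (red x)
  red_C : ∀ t l, ∀ x ∈ C t l, red x ∈ S.C t l
  red_Kc : ∀ c t l, ∀ x ∈ Kc c t l, red x ∈ S.Kc c t l
  red_U : ∀ t, ∀ x ∈ U t, red x ∈ S.U t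
  lift_C : ∀ t l, ∀ y ∈ S.C t l, ∃ x ∈ C t l, red x = y
  lift_Kc : ∀ c t l, ∀ y ∈ S.Kc c t l, ∃ x ∈ Kc c t l, red x = y
  lift_U : ∀ t, ∀ y ∈ S.U t, ∃ x ∈ U t, red x = y
  pure_C : ∀ t l, ∀ x ∈ C t l, red x = 0 → ∃ x' ∈ C t l, x = π • x'
  pure_Kc : ∀ c t l, ∀ x ∈ Kc c t l, red x = 0 → ∃ x' ∈ Kc c t l, x = π • x'
  pure_U : ∀ t, ∀ x ∈ U t, red x = 0 → ∃ x' ∈ U t, x = π • x'
  count : ∀ c v : ℤ, 0 ≤ v → 0 ≤ c + v - 1 → ∃ (N : ℕ) (w : Fin N → M), kap a n c v ≤ N ∧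
    (∀ i, w i ∈ U (c + v - 1) ⊓ Kc c (c + v - 1) 0) ∧ LinearIndependent K fun i => red (w i)

attribute [instance] LiftSys.acg LiftSys.mod

end Vale.Agent.P202
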