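import Vale.Agent.P202.MxLiftSysAux1

/-! Pure lifts of subspaces along a reduction map. -/

namespace Vale.Agent.P202

open TensorProduct

section General

variable {V K : Type*} [CommRing V] [Field K] {σ : V →+* K} {π : V}
variable {M M' P P' P0 P0' P1 P1' : Type*} [AddCommGroup M] [Module V M] [AddCommGroup M']
  [Module K M'] [AddCommGroup P] [Module V P] [AddCommGroup P'] [Module K P']
  [AddCommGroup P0] [Module V P0] [AddCommGroup P0'] [Module K P0']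
  [AddCommGroup P1] [Module V P1] [AddCommGroup P1'] [Module K P1']

/-- `D` is a pure lift of `D'`. -/
structure Lifts (π : V) (ρ : M →ₛₗ[σ] M') (D : Submodule V M) (D' : Submodule K M') : Prop where
  red : ∀ x ∈ D, ρ x ∈ D'
  lift : ∀ y ∈ D', ∃ x ∈ D, ρ x = y
  pure : ∀ x ∈ D, ρ x = 0 → ∃ x' ∈ D, x = π • x'

/-- product of semilinear maps. -/
def sprod (ρ : M →ₛₗ[σ] M') (τ : P →ₛₗ[σ] P') : M × P →ₛₗ[σ] M' × P' where
  toFun x := (ρ x.1, τ x.2)
  map_add' x y := by simp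
  map_smul' c x := by simp [LinearMap.map_smulₛₗ]

theorem sprod_apply (ρ : M →ₛₗ[σ] M') (τ : P →ₛₗ[σ] P') (x : M × P) :
    sprod ρ τ x = (ρ x.1, τ x.2) := rfl

variable {ρ : M →ₛₗ[σ] M'} {τ : P →ₛₗ[σ] P'} {D : Submodule V M} {D' : Submodule K M'}
  {E : Submodule V P} {E' : Submodule K P'}

theorem Lifts.bot : Lifts π ρ ⊥ ⊥ where
  red x hx := by simp [(Submodule.mem_bot V).1 hx]
  lift y hy := ⟨0, zero_mem _, by simp [(Submodule.mem_bot K).1 hy]⟩
  pure x hx _ := ⟨0, zero_mem _, by simp [(Submodule.mem_bot V).1 hx]⟩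

theorem Lifts.prod (h : Lifts π ρ D D') (h' : Lifts π τ E E') :
    Lifts π (sprod ρ τ) (D.prod E) (D'.prod E') where
  red x hx := ⟨h.red _ hx.1, h'.red _ hx.2⟩
  lift y hy := by
    obtain ⟨a, ha, ha'⟩ := h.lift _ hy.1
    obtain ⟨b, hb, hb'⟩ := h'.lift _ hy.2
    exact ⟨(a, b), ⟨ha, hb⟩, Prod.ext ha' hb'⟩
  pure x hx h0 := by
    obtain ⟨a, ha, ha'⟩ := h.pure _ hx.1 (congrArg Prod.fst h0)
    obtain ⟨b, hb, hb'⟩ := h'.pure _ hx.2 (congrArg Prod.snd h0)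
    exact ⟨(a, b), ⟨ha, hb⟩, Prod.ext ha' hb'⟩

theorem Lifts.map (h : Lifts π ρ D D') (f : M →ₗ[V] P) (f' : M' →ₗ[K] P')
    (hf : ∀ x, τ (f x) = f' (ρ x)) (hi : Function.Injective f') :
    Lifts π τ (D.map f) (D'.map f') where
  red := by
    rintro _ ⟨x, hx, rfl⟩
    exact ⟨ρ x, h.red x hx, (hf x).symm⟩
  lift := by
    rintro _ ⟨y, hy, rfl⟩
    obtain ⟨x, hx, rfl⟩ := h.lift y hy
    exact ⟨f x, ⟨x, hx, rfl⟩, hf x⟩
  pure := by
    rintro _ ⟨x, hx, rfl⟩ h0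
    obtain ⟨x', hx', rfl⟩ := h.pure x hx (hi (by rw [← hf, h0, map_zero]))
    exact ⟨f x', ⟨x', hx', rfl⟩, map_smul f π x'⟩

theorem Lifts.sup {D₁ : Submodule V M} {D₁' : Submodule K M'} (h : Lifts π ρ D D')
    (h₁ : Lifts π ρ D₁ D₁') (hi : ∀ y ∈ D' ⊓ D₁', ∃ x ∈ D ⊓ D₁, ρ x = y) :
    Lifts π ρ (D ⊔ D₁) (D' ⊔ D₁') where
  red x hx := by
    obtain ⟨a, ha, b, hb, rfl⟩ := Submodule.mem_sup.1 hx
    rw [map_add]
    exact Submodule.add_mem_sup (h.red a ha) (h₁.red b hb)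
  lift y hy := by
    obtain ⟨a, ha, b, hb, rfl⟩ := Submodule.mem_sup.1 hy
    obtain ⟨a, ha', rfl⟩ := h.lift a ha
    obtain ⟨b, hb', rfl⟩ := h₁.lift b hb
    exact ⟨a + b, Submodule.add_mem_sup ha' hb', map_add _ _ _⟩
  pure x hx h0 := by
    obtain ⟨a, ha, b, hb, rfl⟩ := Submodule.mem_sup.1 hx
    rw [map_add] at h0
    obtain ⟨z, hz, hz'⟩ := hi (ρ a) ⟨h.red a ha, by
      rw [eq_neg_of_add_eq_zero_left h0]
      exact neg_mem (h₁.red b hb)⟩
    obtain ⟨a', ha', e1⟩ := h.pure (a - z) (sub_mem ha hz.1) (by rw [map_sub, hz', sub_self])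
    obtain ⟨b', hb', e2⟩ := h₁.pure (z + b) (add_mem hz.2 hb) (by rw [map_add, hz', h0])
    refine ⟨a' + b', Submodule.add_mem_sup ha' hb', ?_⟩
    rw [smul_add, ← e1, ← e2]
    abel

theorem exists_section (hσ : Function.Surjective σ) : ∃ s : K → V, (∀ c, σ (s c) = c) ∧ s 0 = 0 := by
  classical
  choose s hs using hσ
  refine ⟨fun c => if c = 0 then 0 else s c, fun c => ?_, if_pos rfl⟩
  beta_reduce
  split_ifs with h
  · rw [map_zero, h]
  · exact hs c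

theorem lift_mem_tens {ξ : M' ⊗[K] P'} (h : ∀ y ∈ D', ∃ x ∈ D, ρ x = y)
    (h' : ∀ y ∈ E', ∃ x ∈ E, τ x = y) (hξ : ξ ∈ tens D' E') :
    ∃ x ∈ LV.tens D E, TensorProduct.map ρ τ x = ξ := by
  refine tens_induction (C := fun ξ => ∃ x ∈ LV.tens D E, TensorProduct.map ρ τ x = ξ) hξ
    ⟨0, zero_mem _, map_zero _⟩ (fun a ha b hb => ?_) ?_
  · obtain ⟨a, ha', rfl⟩ := h a ha
    obtain ⟨b, hb', rfl⟩ := h' b hb
    exact ⟨a ⊗ₜ b, LV.tmul_mem_tens ha' hb', rfl⟩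
  · rintro _ _ ⟨a, ha, rfl⟩ ⟨b, hb, rfl⟩
    exact ⟨a + b, add_mem ha hb, map_add _ _ _⟩

theorem Lifts.tens (hσ : Function.Surjective σ) (hπ : σ π = 0) (h : Lifts π ρ D D')
    (h' : Lifts π τ E E') : Lifts π (TensorProduct.map ρ τ) (LV.tens D E) (tens D' E') where
  red ξ hξ := by
    refine LV.tens_induction (C := fun ξ => TensorProduct.map ρ τ ξ ∈ P202.tens D' E') hξ
      (by simp) (fun x hx y hy => tmul_mem_tens (h.red x hx) (h'.red y hy)) fun a b ha hb => ?_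
    rw [map_add]
    exact add_mem ha hb
  lift ξ hξ := lift_mem_tens h.lift h'.lift hξ
  pure ξ hξ h0 := by
    classical
    let b := Module.Basis.ofVectorSpace K E'
    choose e he he' using fun j => h'.lift (b j) (b j).2
    choose φ hφ using fun j => LinearMap.exists_extend (b.coord j)
    obtain ⟨s, hs, hs0⟩ := exists_section hσ
    let Φ : (Module.Basis.ofVectorSpaceIndex K E' →₀ M) →ₗ[V] M ⊗[V] P :=
      Finsupp.lsum V fun j => (TensorProduct.mk V M P).flip (e j)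
    have hΦ : ∀ j x, Φ (Finsupp.single j x) = x ⊗ₜ e j := fun j x => Finsupp.lsum_single _ _ _ _
    have key : ∃ x, (∀ j, x j ∈ D) ∧ ∃ η ∈ LV.tens D E, ξ = Φ x + π • η := by
      refine LV.tens_induction (C := fun ξ => ∃ x, (∀ j, x j ∈ D) ∧
        ∃ η ∈ LV.tens D E, ξ = Φ x + π • η) hξ ⟨0, fun _ => zero_mem _, 0, zero_mem _, by simp⟩
        (fun x hx y hy => ?_) ?_
      · let c := b.repr ⟨τ y, h'.red y hy⟩
        obtain ⟨y', hy', e1⟩ := h'.pure (y - ∑ j ∈ c.support, s (c j) • e j)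
          (sub_mem hy (Submodule.sum_mem _ fun j _ => E.smul_mem _ (he j))) (by
            have e2 := congrArg Subtype.val (b.linearCombination_repr ⟨τ y, h'.red y hy⟩)
            rw [Finsupp.linearCombination_apply, Finsupp.sum, Submodule.coe_sum] at e2
            rw [map_sub, map_sum, sub_eq_zero]
            simp only [LinearMap.map_smulₛₗ, hs, he']
            exact e2.symm)
        refine ⟨∑ j ∈ c.support, Finsupp.single j (s (c j) • x), fun j => ?_, x ⊗ₜ y',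
          LV.tmul_mem_tens hx hy', ?_⟩
        · rw [Finsupp.finsetSum_apply]
          refine Submodule.sum_mem _ fun i _ => ?_
          rw [Finsupp.single_apply]
          split_ifs
          · exact D.smul_mem _ hx
          · exact zero_mem _
        · rw [← tmul_smul, ← e1, map_sum, tmul_sub, tmul_sum]
          simp only [hΦ, smul_tmul, add_sub_cancel]
      · rintro _ _ ⟨x, hx, η, hη, rfl⟩ ⟨x', hx', η', hη', rfl⟩
        refine ⟨x + x', fun j => add_mem (hx j) (hx' j), η + η', add_mem hη hη', ?_⟩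
        rw [map_add, smul_add]
        abel
    obtain ⟨x, hx, η, hη, rfl⟩ := key
    have hc : ∀ j x, TensorProduct.rid K M' (TensorProduct.map LinearMap.id (φ j)
        (TensorProduct.map ρ τ (Φ x))) = ρ (x j) := by
      intro j x
      induction x using Finsupp.induction_linear with
      | zero => simp
      | add x y hx hy => simp only [map_add, hx, hy, Finsupp.add_apply]
      | single i m =>
        have e3 : φ j (b i) = b.coord j (b i) := LinearMap.congr_fun (hφ j) (b i)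
        rw [hΦ, map_tmul, map_tmul, rid_tmul, he', e3, Module.Basis.coord_apply, b.repr_self,
          Finsupp.single_apply, Finsupp.single_apply]
        split_ifs <;> simp
    rw [map_add, LinearMap.map_smulₛₗ, hπ, zero_smul, add_zero] at h0
    have hm : Φ x ∈ (LV.tens D E).map (LinearMap.lsmul V _ π) := by
      rw [← Finsupp.sum_single x, Finsupp.sum, map_sum]
      refine Submodule.sum_mem _ fun j _ => ?_
      obtain ⟨x', hx', e4⟩ := h.pure (x j) (hx j) (by rw [← hc j x, h0, map_zero, map_zero])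
      exact ⟨x' ⊗ₜ e j, LV.tmul_mem_tens hx' (he j), by rw [hΦ, e4]; rfl⟩
    obtain ⟨η', hη', e5⟩ := hm
    exact ⟨η' + η, add_mem hη' hη, by rw [smul_add, ← e5]; rfl⟩

variable {τ0 : P0 →ₛₗ[σ] P0'} {τ1 : P1 →ₛₗ[σ] P1'}

/-- reduction on the cone. -/
noncomputable def sred (ρ : M →ₛₗ[σ] M') (τ0 : P0 →ₛₗ[σ] P0') (τ1 : P1 →ₛₗ[σ] P1') :
    (M ⊗[V] P0) × (M ⊗[V] P1) →ₛₗ[σ] (M' ⊗[K] P0') × (M' ⊗[K] P1') :=
  sprod (TensorProduct.map ρ τ0) (TensorProduct.map ρ τ1)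

theorem Lifts.box (hσ : Function.Surjective σ) (hπ : σ π = 0) {A : ℤ → Submodule V M}
    {A' : ℤ → Submodule K M'} {E0 : Submodule V P0} {E0' : Submodule K P0'} {E1 : Submodule V P1}
    {E1' : Submodule K P1'} (h : ∀ l, Lifts π ρ (A l) (A' l)) (h0 : Lifts π τ0 E0 E0')
    (h1 : Lifts π τ1 E1 E1') (l : ℤ) :
    Lifts π (sred ρ τ0 τ1) (LV.box A E0 E1 l) (box A' E0' E1' l) :=
  ((h _).tens hσ hπ h0).prod ((h _).tens hσ hπ h1)

theorem Lifts.box_sup (hσ : Function.Surjective σ) (hπ : σ π = 0) {A B : ℤ → Submodule V M}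
    {A' B' : ℤ → Submodule K M'} {E0 G0 : Submodule V P0} {E0' G0' : Submodule K P0'}
    {E1 G1 : Submodule V P1} {E1' G1' : Submodule K P1'} (hA : ∀ l, Lifts π ρ (A l) (A' l))
    (hB : ∀ l, Lifts π ρ (B l) (B' l)) (h0 : Lifts π τ0 E0 E0') (h1 : Lifts π τ1 E1 E1')
    (g0 : Lifts π τ0 G0 G0') (g1 : Lifts π τ1 G1 G1') (hAB : ∀ l, A l ≤ B l) (k0 : G0 ≤ E0)
    (k1 : G1 ≤ E1) (l : ℤ) :
    Lifts π (sred ρ τ0 τ1) (LV.box A E0 E1 l ⊔ LV.box B G0 G1 l)
      (P202.box A' E0' E1' l ⊔ P202.box B' G0' G1' l) := by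
  refine (Lifts.box hσ hπ hA h0 h1 l).sup (Lifts.box hσ hπ hB g0 g1 l) fun y hy => ?_
  rw [box_inf_box] at hy
  obtain ⟨x, hx, rfl⟩ := (Lifts.box hσ hπ hA g0 g1 l).lift y
    (box_mono (fun _ => inf_le_left) inf_le_right inf_le_right l hy)
  exact ⟨x, ⟨LV.box_mono (fun _ => le_rfl) k0 k1 l hx, LV.box_mono hAB le_rfl le_rfl l hx⟩, rfl⟩

theorem map_map_semi {N N' Q Q' : Type*} [AddCommGroup N] [Module V N] [AddCommGroup N']
    [Module K N'] [AddCommGroup Q] [Module V Q] [AddCommGroup Q'] [Module K Q']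
    {ρ' : N →ₛₗ[σ] N'} {τ' : Q →ₛₗ[σ] Q'} {f : M →ₗ[V] N} {f' : M' →ₗ[K] N'} {g : P →ₗ[V] Q}
    {g' : P' →ₗ[K] Q'} (hf : ∀ x, ρ' (f x) = f' (ρ x)) (hg : ∀ x, τ' (g x) = g' (τ x))
    (ξ : M ⊗[V] P) : TensorProduct.map ρ' τ' (TensorProduct.map f g ξ) =
      TensorProduct.map f' g' (TensorProduct.map ρ τ ξ) := by
  induction ξ with
  | zero => simp
  | tmul a b => simp only [map_tmul, hf, hg]
  | add a b ha hb => simp only [map_add, ha, hb]

theorem sred_sop {φ : Module.End V M} {φ' : Module.End K M'} {ψ0 : Module.End V P0}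
    {ψ0' : Module.End K P0'} {ψ1 : Module.End V P1} {ψ1' : Module.End K P1'}
    (h : ∀ x, ρ (φ x) = φ' (ρ x)) (h0 : ∀ x, τ0 (ψ0 x) = ψ0' (τ0 x))
    (h1 : ∀ x, τ1 (ψ1 x) = ψ1' (τ1 x)) (ξ) :
    sred ρ τ0 τ1 (LV.sop φ ψ0 ψ1 ξ) = sop φ' ψ0' ψ1' (sred ρ τ0 τ1 ξ) :=
  Prod.ext (map_map_semi h h0 ξ.1) (map_map_semi h h1 ξ.2)

theorem sred_coneD {d : M →ₗ[V] M} {d' : M' →ₗ[K] M'} {δ : P0 →ₗ[V] P1} {δ' : P0' →ₗ[K] P1'}
    (h : ∀ x, ρ (d x) = d' (ρ x)) (h0 : ∀ x, τ1 (δ x) = δ' (τ0 x)) (ξ) :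
    sred ρ τ0 τ1 (LV.coneD d δ ξ) = coneD d' δ' (sred ρ τ0 τ1 ξ) := by
  have e1 := map_map_semi (ρ := ρ) (τ := τ0) (τ' := τ0) (g := LinearMap.id) (g' := LinearMap.id) h
    (fun _ => rfl) ξ.1
  have e2 := map_map_semi (ρ := ρ) (τ := τ0) (ρ' := ρ) (f := LinearMap.id) (f' := LinearMap.id)
    (fun _ => rfl) h0 ξ.1
  have e3 := map_map_semi (ρ := ρ) (τ := τ1) (τ' := τ1) (g := LinearMap.id) (g' := LinearMap.id) h
    (fun _ => rfl) ξ.2
  rw [LV.coneD_apply, coneD_apply, sred, sprod_apply, sprod_apply, map_sub, e1, e2, e3]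

end General

section Line

variable {V K : Type*} [CommRing V] [Field K] (σ : V →+* K) {π : V} (m : ℕ)

/-- reduction of coefficient families. -/
noncomputable def lred : LV.LW V m →ₛₗ[σ] LW K m :=
  Finsupp.mapRange.linearMap σ.toSemilinearMap

variable {σ m}

theorem lred_apply (f : LV.LW V m) (x : Fin m × ℤ) : lred σ m f x = σ (f x) := rfl

theorem lred_zsh (j : ℤ) (f : LV.LW V m) : lred σ m (LV.zsh V m j f) = zsh K m j (lred σ m f) := by
  ext ⟨e, r⟩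
  rw [lred_apply, LV.zsh_apply, zsh_apply, lred_apply]

theorem lifts_supported (hσ : Function.Surjective σ) (hker : ∀ v, σ v = 0 ↔ π ∣ v)
    (A : Set (Fin m × ℤ)) :
    Lifts π (lred σ m) (Finsupp.supported V V A) (Finsupp.supported K K A) where
  red f hf := (Finsupp.mem_supported' _ _).2 fun x hx => by
    rw [lred_apply, (Finsupp.mem_supported' _ _).1 hf x hx, map_zero]
  lift g hg := by
    obtain ⟨s, hs, hs0⟩ := exists_section hσ
    refine ⟨g.mapRange s hs0, (Finsupp.mem_supported' _ _).2 fun x hx => ?_, ?_⟩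
    · rw [Finsupp.mapRange_apply, (Finsupp.mem_supported' _ _).1 hg x hx, hs0]
    · ext x
      rw [lred_apply, Finsupp.mapRange_apply, hs]
  pure f hf h0 := by
    classical
    have h1 : ∀ v : V, ∃ w, (π ∣ v → v = π * w) ∧ (v = 0 → w = 0) := by
      intro v
      by_cases hv : v = 0
      · exact ⟨0, fun _ => by rw [hv, mul_zero], fun _ => rfl⟩
      by_cases h : π ∣ v
      · obtain ⟨w, hw⟩ := h
        exact ⟨w, fun _ => hw, fun h => absurd h hv⟩
      · exact ⟨0, fun h' => absurd h' h, fun _ => rfl⟩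
    choose q hq hq0 using h1
    refine ⟨f.mapRange q (hq0 0 rfl), (Finsupp.mem_supported' _ _).2 fun x hx => ?_, ?_⟩
    · rw [Finsupp.mapRange_apply, hq0 _ ((Finsupp.mem_supported' _ _).1 hf x hx)]
    · ext x
      rw [Finsupp.smul_apply, Finsupp.mapRange_apply, smul_eq_mul]
      exact hq _ ((hker _).1 (by rw [← lred_apply, h0]; rfl))

theorem lifts_Gc (hσ : Function.Surjective σ) (hker : ∀ v, σ v = 0 ↔ π ∣ v) {β : Fin m → V}
    (hβ : ∀ e e', e ≠ e' → IsUnit (β e - β e')) (c : ℤ) (A : Set (Fin m × ℤ)) :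
    Lifts π (lred σ m) (Finsupp.supported V V A ⊓ GcV β c)
      (Finsupp.supported K K A ⊓ Gc (fun e => σ (β e)) c) := by
  obtain ⟨P, h1, h2, h3⟩ := exists_proj_GcV σ β hβ c A
  have h := lifts_supported hσ hker A
  refine ⟨fun f hf => ⟨h.red f hf.1, mem_Gc.2 fun i hi s => ?_⟩, fun g hg => ?_,
    fun f hf h0 => ?_⟩
  · have := congrArg σ (hf.2 i hi s)
    simpa only [map_sum, map_mul, map_pow, map_zero, lred_apply] using this
  · obtain ⟨f, hf, rfl⟩ := h.lift g hg.1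
    exact ⟨P f, h1 f, h3 f hf (mem_Gc.1 hg.2)⟩
  · obtain ⟨f', -, e⟩ := h.pure f hf.1 h0
    exact ⟨P f', h1 f', by rw [← map_smul, ← e, h2 f hf]⟩

end Line

end Vale.Agent.P202
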