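import Vale.Agent.P202.StepA
import Vale.Agent.P202.BaseChange
import Vale.Agent.P202.FrobRankAux

/-! Uniformisation of complete one-dimensional domains of positive characteristic. -/

namespace Vale.Agent.P202

open IsLocalRing

universe u

/-- a finite domain over a complete local ring is local. -/
theorem locA_isLocalRing (A V : Type*) [CommRing A] [IsLocalRing A] [IsNoetherianRing A]
    [IsPrecomplete (maximalIdeal A) A] [CommRing V] [IsDomain V] [Algebra A V]
    [Module.Finite A V] : IsLocalRing V := by
  set I : Ideal V := (maximalIdeal A).map (algebraMap A V) with hI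
  have h1 : IsPrecomplete (maximalIdeal A) V := isPrecomplete_of_finite V
  have h2 : IsAdicComplete (maximalIdeal A) V := {}
  have h3 : IsAdicComplete I V := (IsAdicComplete.map_algebraMap_iff _ _).mpr h2
  have hH : HenselianRing V I := inferInstance
  have hloc := isLocalHom_of_le_jacobson_bot I hH.jac
  let _ : Field (A ⧸ maximalIdeal A) := Ideal.Quotient.field _
  have h4 : Module.Finite (A ⧸ maximalIdeal A) (V ⧸ I) :=
    Module.Finite.of_restrictScalars_finite A _ _
  have h5 : IsArtinianRing (V ⧸ I) := IsArtinianRing.of_finite (A ⧸ maximalIdeal A) _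
  refine IsLocalRing.of_isUnit_or_isUnit_one_sub_self fun v => ?_
  obtain ⟨n, s, hs⟩ := IsArtinian.exists_pow_succ_smul_dvd (Ideal.Quotient.mk I v) (1 : V ⧸ I)
  obtain ⟨s, rfl⟩ := Ideal.Quotient.mk_surjective s
  simp only [smul_eq_mul, mul_one] at hs
  set x := Ideal.Quotient.mk I v with hx
  set y := Ideal.Quotient.mk I s with hy
  have h6 : ∀ k, x ^ n * (x * y) ^ k = x ^ n := by
    intro k
    induction k with
    | zero => simp
    | succ k ih => rw [pow_succ', ← mul_assoc, ← mul_assoc, ← pow_succ, hs, ih]
  have h7 : (x * y) ^ n * (x * y) ^ n = (x * y) ^ n := by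
    conv_lhs => rw [mul_pow x y n, mul_right_comm, ← mul_pow x y n, h6]
    rw [mul_pow]
  have hmon : (Polynomial.X ^ 2 - Polynomial.X : Polynomial V).Monic := by monicity!
  obtain ⟨e, he, hev⟩ := hH.is_henselian _ hmon ((v * s) ^ n) (by
      rw [← Ideal.Quotient.eq_zero_iff_mem]
      simp only [Polynomial.eval_sub, Polynomial.eval_pow, Polynomial.eval_X, map_sub, map_pow,
        map_mul, ← hx, ← hy]
      rw [sq, h7, sub_self])
    (by
      refine IsUnit.of_mul_eq_one (2 * (x * y) ^ n - 1) ?_
      have h8 : Ideal.Quotient.mk I (Polynomial.eval ((v * s) ^ n)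
          (Polynomial.derivative (Polynomial.X ^ 2 - Polynomial.X))) = 2 * (x * y) ^ n - 1 := by
        simp [hx, hy, two_mul, add_mul]
      rw [h8]
      linear_combination 4 * h7)
  have h9 : Ideal.Quotient.mk I e = (x * y) ^ n := by
    rw [Ideal.Quotient.eq.mpr hev, map_pow, map_mul]
  have h10 : e * (e - 1) = 0 := by
    have : e ^ 2 - e = 0 := by simpa using he
    linear_combination this
  rcases mul_eq_zero.mp h10 with h | h
  · right
    rw [h, map_zero] at h9
    have h11 : IsNilpotent x := ⟨n, by rw [← h6 n, ← h9, mul_zero]⟩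
    exact IsUnit.of_map (Ideal.Quotient.mk I) _ (by simpa using h11.isUnit_one_sub)
  · rw [sub_eq_zero.mp h, map_one] at h9
    rcases n.eq_zero_or_pos with rfl | hn
    · left
      exact IsUnit.of_map (Ideal.Quotient.mk I) _ (IsUnit.of_mul_eq_one y (by simpa using hs))
    · left
      have h12 : IsUnit ((x * y) ^ n) := h9 ▸ isUnit_one
      exact IsUnit.of_map (Ideal.Quotient.mk I) _
        (isUnit_of_mul_isUnit_left ((isUnit_pow_iff hn.ne').mp h12))

/-- a finite extension with principal maximal ideal is generated by a uniformiser. -/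
theorem locA_gen {C V : Type*} [CommRing C] [IsLocalRing C] [IsAlgClosed (ResidueField C)]
    [CommRing V] [IsLocalRing V] [IsDomain V] [IsNoetherianRing V] (f : C →+* V)
    (hfin : f.Finite) (hinj : Function.Injective f) (hC : maximalIdeal C ≠ ⊥) (τ : V)
    (hτ : maximalIdeal V = Ideal.span {τ}) :
    IsLocalHom f ∧ τ ≠ 0 ∧ Function.Surjective (Polynomial.eval₂RingHom f τ) := by
  let _ := f.toAlgebra
  have : Module.Finite C V := hfin
  have hcomap : (maximalIdeal V).comap f = maximalIdeal C :=
    eq_maximalIdeal (Ideal.isMaximal_comap_of_isIntegral_of_isMaximal (R := C) (maximalIdeal V))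
  have hloc : IsLocalHom f := ((local_hom_TFAE f).out 0 4).mpr hcomap
  have hne : (maximalIdeal C).map f ≠ ⊥ := by
    rwa [Ne, Ideal.map_eq_bot_iff_of_injective hinj]
  refine ⟨hloc, fun h => hne ?_, ?_⟩
  · rw [eq_bot_iff, Ideal.map_le_iff_le_comap, ← hcomap, hτ, h]
    simp
  have hres : Function.Surjective (ResidueField.map f) := by
    refine (IsAlgClosed.ringHom_bijective_of_isIntegral _ ?_).2
    refine RingHom.IsIntegral.tower_top (residue C) _ ?_
    rw [ResidueField.map_comp_residue]
    exact RingHom.IsIntegral.trans _ _ hfin.to_isIntegral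
      (RingHom.isIntegral_of_surjective _ residue_surjective)
  have h1 : ∀ v : V, ∃ c w, v = f c + τ * w := by
    intro v
    obtain ⟨c, hc⟩ := hres (residue V v)
    obtain ⟨c, rfl⟩ := residue_surjective c
    rw [ResidueField.map_residue, eq_comm, ← sub_eq_zero, ← map_sub, residue_eq_zero_iff, hτ,
      Ideal.mem_span_singleton'] at hc
    obtain ⟨w, hw⟩ := hc
    exact ⟨c, w, by linear_combination -hw⟩
  have h2 : ∀ (n : ℕ) (v : V), ∃ (P : Polynomial C) (w : V),
      v = Polynomial.aeval τ P + τ ^ n * w := by
    intro n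
    induction n with
    | zero => exact fun v => ⟨0, v, by simp⟩
    | succ n ih =>
      intro v
      obtain ⟨P, w, rfl⟩ := ih v
      obtain ⟨c, w', rfl⟩ := h1 w
      refine ⟨P + Polynomial.X ^ n * Polynomial.C c, w', ?_⟩
      simp only [map_add, map_mul, map_pow, Polynomial.aeval_X, Polynomial.aeval_C]
      change _ = _ + τ ^ n * f c + _
      ring
  obtain ⟨N, hN⟩ := exists_maximalIdeal_pow_eq_of_principal V ⟨⟨τ, hτ⟩⟩ _ hne
  have h3 : (⊤ : Submodule C V) ≤ LinearMap.range (Polynomial.aeval τ).toLinearMap := by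
    refine Submodule.le_of_le_smul_of_le_jacobson_bot (I := maximalIdeal C) Module.Finite.fg_top
      (maximalIdeal_le_jacobson _) fun v _ => ?_
    obtain ⟨P, w, rfl⟩ := h2 N v
    refine add_mem (Submodule.mem_sup_left ⟨P, rfl⟩) (Submodule.mem_sup_right ?_)
    rw [Ideal.smul_top_eq_map]
    change τ ^ N * w ∈ (maximalIdeal C).map f
    rw [hN, hτ]
    exact Ideal.mul_mem_right _ _ (Ideal.pow_mem_pow (Ideal.mem_span_singleton_self τ) N)
  intro v
  obtain ⟨P, hP⟩ := h3 (Submodule.mem_top : v ∈ ⊤)
  exact ⟨P, hP⟩

/-- a power of Frobenius maps a finite extension into the integral closure in the separable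
part of its fraction field. -/
theorem locA_cover (p : ℕ) [Fact p.Prime] (A C : Type u) [CommRing A] [IsDedekindDomain A]
    [CommRing C] [IsDomain C] [CharP C p] [Algebra A C] [Module.Finite A C] [FaithfulSMul A C] :
    ∃ (V : Type u) (_ : CommRing V) (_ : IsDedekindDomain V) (_ : Algebra A V) (f : C →+* V)
      (e : ℕ), Module.Finite A V ∧ Function.Injective f ∧
        ∀ a, f (algebraMap A C a) = algebraMap A V a ^ p ^ e := by
  let F := FractionRing A
  let E := FractionRing C
  let _ : Algebra F E := FractionRing.liftAlgebra A E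
  have := FractionRing.isScalarTower_liftAlgebra A E
  have hfd : FiniteDimensional F E := inferInstance
  let L := separableClosure F E
  have : IsScalarTower A L E := IsScalarTower.of_algebraMap_eq fun _ => rfl
  have hE : CharP E p := inferInstance
  have hL : CharP L p := (algebraMap L E).charP (algebraMap L E).injective p
  let φ : E →+* L := IsPurelyInseparable.iterateFrobenius L E p le_rfl
  have hφ : ∀ x, algebraMap L E (φ x) = x ^ p ^ IsPurelyInseparable.exponent L E :=
    IsPurelyInseparable.algebraMap_iterateFrobenius L p le_rfl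
  have hint : ∀ c : C, (φ.comp (algebraMap C E)) c ∈ integralClosure A L := by
    intro c
    rw [mem_integralClosure_iff, ← isIntegral_algebraMap_iff (algebraMap L E).injective,
      RingHom.comp_apply, hφ]
    exact ((Algebra.IsIntegral.isIntegral (R := A) c).algebraMap).pow _
  refine ⟨integralClosure A L, inferInstance, integralClosure.isDedekindDomain A F L,
    inferInstance, (φ.comp (algebraMap C E)).codRestrict _ hint,
    IsPurelyInseparable.exponent L E, IsIntegralClosure.finite A F L _, ?_, fun a => ?_⟩
  · intro x y h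
    exact IsFractionRing.injective C E (φ.injective (congrArg Subtype.val h))
  · apply Subtype.ext
    apply (algebraMap L E).injective
    change algebraMap L E (φ _) = algebraMap L E (algebraMap A L a ^ _)
    rw [hφ, map_pow, ← IsScalarTower.algebraMap_apply, ← IsScalarTower.algebraMap_apply]

theorem locA_finite {A B ι : Type*} [CommRing A] [CommRing B] [Fintype ι] (φ : A →+* B)
    (t : ι → B) (h : ∀ b, ∃ c : ι → A, ∑ i, φ (c i) * t i = b) : φ.Finite := by
  let _ := φ.toAlgebra
  refine Module.Finite.of_surjective (Fintype.linearCombination A t) fun b => ?_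
  obtain ⟨c, hc⟩ := h b
  exact ⟨c, hc⟩

theorem exists_uniformization (p : ℕ) [Fact p.Prime] (C : Type u) [CommRing C] [IsLocalRing C]
    [IsNoetherianRing C] [IsDomain C] [CharP C p] [IsAdicComplete (maximalIdeal C) C]
    [IsAlgClosed (ResidueField C)] (hdim : dimNat C = 1) :
    ∃ (V : Type u) (_ : CommRing V) (_ : IsDomain V) (_ : IsLocalRing V) (f : C →+* V) (τ : V),
      Function.Injective f ∧ IsLocalHom f ∧ f.IsIntegral ∧ maximalIdeal V = Ideal.span {τ} ∧
      τ ≠ 0 ∧ Function.Surjective (Polynomial.eval₂RingHom f τ) := by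
  obtain ⟨σ, hσ, -⟩ := exists_coeffField C (ZMod p) (ZMod.castHom (dvd_refl p) C)
  let _ := σ.toAlgebra
  have hCL : IsCL (ResidueField C) C := isCL_of_section (IsNoetherian.noetherian _) σ hσ
  have hK : CharP (ResidueField C) p := σ.charP σ.injective p
  have hn := hCL.exists_normalization
  rw [hdim] at hn
  obtain ⟨ψ, hfin, hinj, hX, -⟩ := hn
  set K := ResidueField C
  let _ := ψ.toRingHom.toAlgebra
  have : Module.Finite (PS K 1) C := hfin
  have : FaithfulSMul (PS K 1) C := (faithfulSMul_iff_algebraMap_injective _ _).mpr hinj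
  have hA : IsCL K (PS K 1) := isCL_of_finite (d := 1) PS_residue'
  have := hA.isNoetherianRing
  have : IsDomain (PS K 1) := hinj.isDomain ψ
  have := hA.complete
  have hprin : (maximalIdeal (PS K 1)).IsPrincipal := by
    refine ⟨⟨MvPowerSeries.X 0, ?_⟩⟩
    rw [← varIdeal_eq_maximalIdeal, varIdeal, Set.range_unique]
    rfl
  have hD : IsDedekindDomain (PS K 1) :=
    ((tfae_of_isNoetherianRing_of_isLocalRing_of_isDomain (PS K 1)).out 2 4).mpr hprin
  obtain ⟨V, _, _, _, f, e, hVfin, hf, hfa⟩ := locA_cover p (PS K 1) C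
  have := locA_isLocalRing (PS K 1) V
  obtain ⟨⟨τ, hτ⟩⟩ := maximalIdeal_isPrincipal_of_isDedekindDomain V
  have hAp : CharP (PS K 1) p := (algebraMap (PS K 1) C).charP hinj p
  have hFr : (iterateFrobenius (PS K 1) p e).Finite := by
    refine locA_finite _ (fun α : Fin 1 → Fin (p ^ e) => MvPowerSeries.monomial (expo α) (1 : K))
      fun g => exists_sum_pow_mul p e g
  have hcomp : f.comp (algebraMap (PS K 1) C) =
      (algebraMap (PS K 1) V).comp (iterateFrobenius (PS K 1) p e) := by
    ext1 a
    simp [hfa, iterateFrobenius_def]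
  have hffin : f.Finite := by
    refine RingHom.Finite.of_comp_finite (f := algebraMap (PS K 1) C) ?_
    rw [hcomp]
    exact RingHom.Finite.comp (RingHom.finite_algebraMap.mpr hVfin) hFr
  have hC : maximalIdeal C ≠ ⊥ := by
    intro h
    have h1 := hX 0
    rw [h, Ideal.mem_bot, map_eq_zero_iff _ hinj] at h1
    simpa using congrArg (MvPowerSeries.coeff (Finsupp.single 0 1)) h1
  obtain ⟨h1, h2, h3⟩ := locA_gen f hffin hf hC τ hτ
  exact ⟨V, inferInstance, inferInstance, inferInstance, f, τ, hf, h1, hffin.to_isIntegral, hτ,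
    h2, h3⟩

end Vale.Agent.P202
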