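import Vale.Agent.P202.MxEmul
import Vale.Agent.P202.MxInf
import Vale.Agent.P202.BaseChange

/-! The multiplicity of an arbitrary Noetherian local ring. -/

namespace Vale.Agent.P202

open IsLocalRing Filter Topology

universe u

/-- the family generates a reduction of the maximal ideal. -/
def IsRed {T : Type*} [CommRing T] [IsLocalRing T] {d : ℕ} (x : Fin d → T) : Prop :=
  (∀ i, x i ∈ maximalIdeal T) ∧
    ∃ C : ℕ, ∀ t, maximalIdeal T ^ (t + C) ≤ Ideal.span (Set.range x) ^ t

section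

variable {T : Type*} [CommRing T] [IsLocalRing T] [IsNoetherianRing T]

theorem mxmult_span_le {T : Type*} [CommRing T] {m : Ideal T} {d : ℕ} {x : Fin d → T}
    (hx : ∀ i, x i ∈ m) : Ideal.span (Set.range x) ≤ m :=
  Ideal.span_le.mpr (by rintro _ ⟨i, rfl⟩; exact hx i)

theorem mxmult_emul {d : ℕ} (x : Fin d → T) (L : ℕ)
    (hL : maximalIdeal T ^ L ≤ Ideal.span (Set.range x)) : ∃ e : ℕ,
      Tendsto (fun N : ℕ => (d.factorial : ℝ) *
        (len T (T ⧸ Ideal.span (Set.range x) ^ N) : ℝ) / (N : ℝ) ^ d) atTop (𝓝 (e : ℝ)) ∧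
      Tendsto (fun n : ℕ => (len T (T ⧸ powIdeal x n) : ℝ) / (n : ℝ) ^ d) atTop (𝓝 (e : ℝ)) ∧
      ∀ n : ℕ, e * n ^ d ≤ len T (T ⧸ powIdeal x n) := by
  have h := exists_emul (M := T) x (length_quot_ne_top (IsNoetherian.noetherian _) L _
    (Submodule.smul_mono_left hL))
  have h1 : ∀ I : Ideal T, len T (T ⧸ I • (⊤ : Submodule T T)) = len T (T ⧸ I) := fun I => by
    rw [smul_top_ideal]
  simpa only [h1] using h

theorem mxmult_red {d : ℕ} {x : Fin d → T} (hx : IsRed x) : ∃ e : ℕ,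
      Tendsto (fun N : ℕ => (d.factorial : ℝ) *
        (len T (T ⧸ maximalIdeal T ^ N) : ℝ) / (N : ℝ) ^ d) atTop (𝓝 (e : ℝ)) ∧
      Tendsto (fun n : ℕ => (len T (T ⧸ powIdeal x n) : ℝ) / (n : ℝ) ^ d) atTop (𝓝 (e : ℝ)) := by
  obtain ⟨hm, C, hC⟩ := hx
  obtain ⟨e, h1, h2, -⟩ := mxmult_emul x (1 + C) (by simpa using hC 1)
  have hfg : (maximalIdeal T).FG := IsNoetherian.noetherian _
  exact ⟨e, stepA_squeeze C h1
    (fun N => stepA_len_mono hfg (N + C) (hC N) (Ideal.pow_right_mono (mxmult_span_le hm) N))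
    (fun N => stepA_len_mono hfg (N + C) le_rfl (hC N)), h2⟩

theorem mxmult_triF {d : ℕ} {x : Fin d → T} (hx : ∀ i, x i ∈ maximalIdeal T) (h : AnIndep x)
    (N : ℕ) : ((triF d N).card : ℝ) ≤ len T (T ⧸ maximalIdeal T ^ N) := by
  have h1 := ENat.toNat_le_toNat (h.card_triF_le hx N)
    (length_quot_ne_top (IsNoetherian.noetherian _) N _ (smul_top_ideal _).le)
  rw [ENat.toNat_natCast] at h1
  exact_mod_cast h1

/-- more than `dimNat T` elements of the maximal ideal are analytically dependent. -/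
theorem AnIndep.le_dimNat {d : ℕ} {x : Fin d → T} (hx : ∀ i, x i ∈ maximalIdeal T)
    (h : AnIndep x) : d ≤ dimNat T := by
  obtain ⟨c, hc⟩ := stepA_growth T
  exact stepA_deg_le (tendsto_card_triF d) le_rfl
    (Eventually.of_forall fun N => (mxmult_triF hx h N).trans (hc N))

theorem AnIndep.dimNat_eq {d : ℕ} {x : Fin d → T} (hx : IsRed x) (h : AnIndep x) :
    dimNat T = d := by
  obtain ⟨hm, C, hC⟩ := hx
  exact le_antisymm (stepA_dimNat_le x (mxmult_span_le hm) (1 + C) (by simpa using hC 1))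
    (h.le_dimNat hm)

theorem exists_isRed_anIndep (T : Type*) [CommRing T] [IsLocalRing T] [IsNoetherianRing T]
    [Infinite (ResidueField T)] : ∃ x : Fin (dimNat T) → T, IsRed x ∧ AnIndep x := by
  obtain ⟨r, Y, hY⟩ := Submodule.fg_iff_exists_fin_generating_family.1
    (IsNoetherian.noetherian (maximalIdeal T))
  obtain ⟨δ, ε, x, x', -, hx, hC, hind⟩ :=
    exists_reduction T T (RingHom.id T) Function.surjective_id Y hY
  have hxm : Ideal.span (Set.range x) ≤ maximalIdeal T :=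
    (Ideal.span_mono Set.subset_union_left).trans (hx.trans hY).le
  have hred : IsRed x := ⟨fun i => hxm (Ideal.subset_span ⟨i, rfl⟩), hC⟩
  obtain rfl := AnIndep.dimNat_eq hred hind
  exact ⟨x, hred, hind⟩

theorem exists_isRed (T : Type*) [CommRing T] [IsLocalRing T] [IsNoetherianRing T]
    [Infinite (ResidueField T)] : ∃ x : Fin (dimNat T) → T, IsRed x :=
  (exists_isRed_anIndep T).imp fun _ h => h.1

/-- a system of parameters is recognised by its growth. -/
theorem dimNat_eq_of_growth {d : ℕ} (x : Fin d → T) (hx : ∀ i, x i ∈ maximalIdeal T) (L : ℕ)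
    (hL : maximalIdeal T ^ L ≤ Ideal.span (Set.range x)) (c : ℝ) (hc : 0 < c)
    (h : ∀ n : ℕ, c * (n : ℝ) ^ d ≤ (len T (T ⧸ powIdeal x n) : ℝ)) : dimNat T = d := by
  refine le_antisymm (stepA_dimNat_le x (mxmult_span_le hx) L hL) ?_
  obtain ⟨c', hc'⟩ := stepA_growth T
  have h0 : 0 ≤ c' := by simpa using (Nat.cast_nonneg _).trans (hc' 0)
  refine stepA_deg_le (b := fun N => N ^ d) (ρ := d.factorial)
    (c := c' * (L * (d + 1) + 1) ^ dimNat T / c) ?_ (by exact_mod_cast d.factorial_pos)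
    (Eventually.of_forall fun n => ?_)
  · refine tendsto_const_nhds.congr' ?_
    filter_upwards [eventually_gt_atTop 0] with n hn
    have hn' : (0 : ℝ) < n := by exact_mod_cast hn
    push_cast
    field_simp
  · have h1 : maximalIdeal T ^ (L * (d * n + 1)) ≤ powIdeal x n := by
      rw [pow_mul]
      exact (Ideal.pow_right_mono hL _).trans (span_pow_le_powIdeal x n)
    have h2 : (len T (T ⧸ powIdeal x n) : ℝ) ≤ len T (T ⧸ maximalIdeal T ^ (L * (d * n + 1))) := by
      exact_mod_cast stepA_len_mono (IsNoetherian.noetherian _) _ le_rfl h1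
    rw [div_mul_eq_mul_div, le_div_iff₀' hc, mul_assoc, ← mul_pow, Nat.cast_pow]
    refine (h n).trans (h2.trans ((hc' _).trans ?_))
    gcongr
    push_cast
    have h3 : (0 : ℝ) ≤ L * n + L * d + n := by positivity
    linarith

end

variable {T : Type u} [CommRing T] [IsLocalRing T] [IsNoetherianRing T]

theorem tendsto_hsSeq_gen (T : Type u) [CommRing T] [IsLocalRing T] [IsNoetherianRing T] :
    Tendsto (hsSeq T) atTop (𝓝 (mult T)) ∧ 1 ≤ mult T := by
  obtain ⟨T', _, _, _, _, _, _, _, hm⟩ := exists_infinite_residue T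
  obtain ⟨x, hx, hind⟩ := exists_isRed_anIndep T'
  obtain ⟨e, h1, -⟩ := mxmult_red hx
  have h2 : (1 : ℝ) ≤ e := le_of_tendsto_of_tendsto' (tendsto_card_triF _) h1 fun N => by
    have := mxmult_triF hx.1 hind N
    gcongr
  replace h1 : Tendsto (hsSeq T') atTop (𝓝 (e : ℝ)) := h1
  rw [(hsSeq_eq_of_flat hm).2] at h1
  rw [mult, h1.limUnder_eq]
  exact ⟨h1, h2⟩

theorem IsRed.tendsto {d : ℕ} {x : Fin d → T} (hx : IsRed x) (hd : dimNat T = d) :
    Tendsto (fun n : ℕ => (len T (T ⧸ powIdeal x n) : ℝ) / (n : ℝ) ^ d) atTop (𝓝 (mult T)) := by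
  subst hd
  obtain ⟨e, h1, h2⟩ := mxmult_red hx
  replace h1 : Tendsto (hsSeq T) atTop (𝓝 (e : ℝ)) := h1
  rwa [mult, h1.limUnder_eq]

/-- the lower bound for systems of parameters. -/
theorem mult_mul_pow_le {d : ℕ} (hd : dimNat T = d) (w : Fin d → T)
    (hw : ∀ i, w i ∈ maximalIdeal T) (L : ℕ) (hL : maximalIdeal T ^ L ≤ Ideal.span (Set.range w))
    (n : ℕ) : mult T * (n : ℝ) ^ d ≤ (len T (T ⧸ powIdeal w n) : ℝ) := by
  subst hd
  obtain ⟨e, h1, -, h3⟩ := mxmult_emul w L hL
  have h2 : mult T ≤ e := le_of_tendsto_of_tendsto' (tendsto_hsSeq_gen T).1 h1 fun N => by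
    have h4 : (len T (T ⧸ maximalIdeal T ^ N) : ℝ) ≤ len T (T ⧸ Ideal.span (Set.range w) ^ N) := by
      exact_mod_cast stepA_len_mono (IsNoetherian.noetherian _) (L * N)
        (by rw [pow_mul]; exact Ideal.pow_right_mono hL N)
        (Ideal.pow_right_mono (mxmult_span_le hw) N)
    change _ * (len T (T ⧸ maximalIdeal T ^ N) : ℝ) / _ ≤ _
    gcongr
  refine (mul_le_mul_of_nonneg_right h2 (by positivity)).trans ?_
  exact_mod_cast h3 n

theorem mult_eq_of_flat {T' : Type u} [CommRing T'] [IsLocalRing T'] [IsNoetherianRing T']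
    [Algebra T T'] [IsLocalHom (algebraMap T T')] [Module.Flat T T']
    (h : (maximalIdeal T).map (algebraMap T T') = maximalIdeal T') :
    dimNat T' = dimNat T ∧ mult T' = mult T := by
  obtain ⟨h1, h2⟩ := hsSeq_eq_of_flat h
  exact ⟨by rw [dimNat, dimNat, h1], by rw [mult, mult, h2]⟩

/-- flat local maps with a zero-dimensional fibre preserve the dimension. -/
theorem dimNat_eq_of_flat {T' : Type u} [CommRing T'] [IsLocalRing T'] [IsNoetherianRing T']
    [Algebra T T'] [IsLocalHom (algebraMap T T')] [Module.Flat T T'] (L : ℕ)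
    (hL : maximalIdeal T' ^ L ≤ (maximalIdeal T).map (algebraMap T T')) :
    dimNat T' = dimNat T := by
  have hc := IsLocalRing.maximalIdeal_comap (algebraMap T T')
  have hl : (maximalIdeal T').LiesOver (maximalIdeal T) := ⟨hc.symm⟩
  have h1 := Ideal.height_eq_height_add_of_liesOver_of_hasGoingDown (maximalIdeal T)
    (maximalIdeal T')
  have h2 : ((maximalIdeal T').map (Ideal.Quotient.mk
      ((maximalIdeal T).map (algebraMap T T')))).IsPrime :=
    Ideal.map_isPrime_of_surjective Ideal.Quotient.mk_surjective (by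
      rw [Ideal.mk_ker, Ideal.map_le_iff_le_comap, hc])
  have h3 : ((maximalIdeal T').map (Ideal.Quotient.mk
      ((maximalIdeal T).map (algebraMap T T')))).height = 0 := by
    refine Ideal.height_eq_zero_iff.mpr ⟨⟨h2, bot_le⟩, fun q hq _ => ?_⟩
    have := hq.1
    refine Ideal.IsPrime.le_of_pow_le (n := L) ?_
    rw [← Ideal.map_pow]
    exact ((Ideal.map_mono hL).trans (Ideal.map_quotient_self _).le).trans bot_le
  rw [stepA_dimNat_eq, stepA_dimNat_eq, h1, h3, add_zero]

end Vale.Agent.P202
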