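import Vale.Agent.P202.MxPS
import Vale.Agent.P202.MxMult

/-! The power series model of a flat local map in mixed characteristic. -/

namespace Vale.Agent.P202

open IsLocalRing TensorProduct

universe u

/-- The model: `R` is finite over `V[[X]]`, and `S` is a quotient of `W[[X, Y]]`. -/
structure IsWModel (p : ℕ) (V W : Type u) [CommRing V] [IsLocalRing V] [CommRing W]
    [IsLocalRing W] (d r : ℕ) (R S : Type u) [CommRing R] [IsLocalRing R] [CommRing S]
    [IsLocalRing S] [Algebra (PS V d) (PS W (d + r))] [Algebra (PS V d) R]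
    [Algebra (PS W (d + r)) S] [Algebra R S] (x : Fin (d + 1) → R) : Prop where
  hV : IsPRing p V
  hW : IsPRing p W
  flatA : Module.Flat (PS V d) (PS W (d + r))
  mapX : ∀ i, algebraMap (PS V d) (PS W (d + r)) (MvPowerSeries.X i) =
    MvPowerSeries.X (Fin.castAdd r i)
  finite : Module.Finite (PS V d) R
  inj : Function.Injective (algebraMap (PS V d) R)
  res : ∀ x : R, ∃ a : PS V d, x - algebraMap (PS V d) R a ∈ maximalIdeal R
  red : IsRed x
  x_succ : ∀ i, x (Fin.succ i) = algebraMap (PS V d) R (MvPowerSeries.X i)
  compat : ∀ a : PS V d, algebraMap (PS W (d + r)) S (algebraMap (PS V d) (PS W (d + r)) a) =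
    algebraMap R S (algebraMap (PS V d) R a)
  surj : Function.Surjective (algebraMap (PS W (d + r)) S)
  flat : Module.Flat R S
  loc : IsLocalHom (algebraMap R S)
  prim : ∃ L : ℕ, maximalIdeal S ^ L ≤ (maximalIdeal R).map (algebraMap R S)

section

variable (V W : Type u) [CommRing V] [CommRing W] (d r : ℕ) (R : Type u) [CommRing R]
  [Algebra (PS V d) (PS W (d + r))] [Algebra (PS V d) R]

/-- the base change of `R`. -/
abbrev TT : Type u := PS W (d + r) ⊗[PS V d] R

variable {R} in
/-- the system of parameters of the base change. -/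
noncomputable def zT (x : Fin (d + 1) → R) : Fin (d + r + 1) → TT V W d r R :=
  Fin.cons ((1 : PS W (d + r)) ⊗ₜ[PS V d] x 0)
    fun i => (MvPowerSeries.X i : PS W (d + r)) ⊗ₜ[PS V d] (1 : R)

/-- the ideal that turns out to be the maximal ideal of the base change. -/
noncomputable def mT [IsLocalRing R] : Ideal (TT V W d r R) :=
  (maximalIdeal R).map
      (Algebra.TensorProduct.includeRight (R := PS V d) (A := PS W (d + r)) (B := R)) ⊔
    (Ideal.span (Set.range fun i => (MvPowerSeries.X (Fin.natAdd d i) : PS W (d + r)))).map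
      (algebraMap (PS W (d + r)) (TT V W d r R))

/-- the image of an element of the small power series ring. -/
noncomputable def gT (G : PS V d) : TT V W d r R :=
  algebraMap (PS W (d + r)) (TT V W d r R) (algebraMap (PS V d) (PS W (d + r)) G)

end

section

variable {p : ℕ} {V W : Type u} [CommRing V] [IsLocalRing V] [CommRing W] [IsLocalRing W]
  {d r : ℕ} {R S : Type u} [CommRing R] [IsLocalRing R] [CommRing S] [IsLocalRing S]
  [Algebra (PS V d) (PS W (d + r))] [Algebra (PS V d) R] [Algebra (PS W (d + r)) S] [Algebra R S]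
  {x : Fin (d + 1) → R}

/-- the surjection onto `S`. -/
noncomputable def IsWModel.toS (h : IsWModel p V W d r R S x) : TT V W d r R →+* S :=
  letI : Algebra (PS V d) S := ((algebraMap R S).comp (algebraMap (PS V d) R)).toAlgebra
  (Algebra.TensorProduct.productMap (R := PS V d)
    { algebraMap (PS W (d + r)) S with commutes' := h.compat }
    { algebraMap R S with commutes' := fun _ => rfl }).toRingHom

theorem IsWModel.toS_tmul (h : IsWModel p V W d r R S x) (a : PS W (d + r)) (b : R) :
    h.toS (a ⊗ₜ[PS V d] b) = algebraMap (PS W (d + r)) S a * algebraMap R S b := rfl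

end

end Vale.Agent.P202
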