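import Vale.Agent.P202.MxModelDef
import Vale.Agent.P202.MxEt
import Vale.Agent.P202.MxBS

/-! The finite extension with roots of the parameters. -/

namespace Vale.Agent.P202

open IsLocalRing TensorProduct

universe u

namespace T1Aux

section

variable {A A' A₁ R R₁ : Type*} [CommRing A] [CommRing A'] [CommRing A₁] [CommRing R]
  [CommRing R₁] [Algebra A A'] [Algebra A A₁] [Algebra A' A₁] [IsScalarTower A A' A₁]
  [Algebra A R] [Algebra A R₁] [Algebra R R₁] [IsScalarTower A R R₁]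

/-- the map between the two tensor products. -/
noncomputable def tmap (A A' A₁ R R₁ : Type*) [CommRing A] [CommRing A'] [CommRing A₁] [CommRing R]
    [CommRing R₁] [Algebra A A'] [Algebra A A₁] [Algebra A' A₁] [IsScalarTower A A' A₁]
    [Algebra A R] [Algebra A R₁] [Algebra R R₁] [IsScalarTower A R R₁] :
    A' ⊗[A] R →ₐ[A] A₁ ⊗[A] R₁ :=
  Algebra.TensorProduct.map (IsScalarTower.toAlgHom A A' A₁) (IsScalarTower.toAlgHom A R R₁)

theorem tmap_tmul (a : A') (r : R) :
    tmap A A' A₁ R R₁ (a ⊗ₜ r) = algebraMap A' A₁ a ⊗ₜ algebraMap R R₁ r := rfl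

theorem indep [Module.Flat A A'] {N ρ : ℕ} (b : Fin N → A₁) (v : Fin ρ → R₁)
    (hb0 : ∀ g : Fin N → A', ∑ i, algebraMap A' A₁ (g i) * b i = 0 → ∀ i, g i = 0)
    (hb1 : ∀ f, ∃ g : Fin N → A', f = ∑ i, algebraMap A' A₁ (g i) * b i)
    (hv : LinearIndependent R v) (c : Fin N × Fin ρ → A' ⊗[A] R)
    (hc : ∑ k, tmap A A' A₁ R R₁ (c k) * (b k.1 ⊗ₜ v k.2) = 0) (k : Fin N × Fin ρ) : c k = 0 := by
  classical
  let g : (Fin N → A') →ₗ[A] A₁ := (Fintype.linearCombination A' b).restrictScalars A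
  let f : (Fin ρ → R) →ₗ[A] R₁ := (Fintype.linearCombination R v).restrictScalars A
  have hg : Function.Bijective g := by
    constructor
    · rw [injective_iff_map_eq_zero]
      intro a ha
      refine funext (hb0 a ?_)
      simpa only [g, LinearMap.restrictScalars_apply, Fintype.linearCombination_apply,
        Algebra.smul_def] using ha
    · intro a
      obtain ⟨c, rfl⟩ := hb1 a
      exact ⟨c, by simp only [g, LinearMap.restrictScalars_apply,
        Fintype.linearCombination_apply, Algebra.smul_def]⟩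
  have hf : Function.Injective f := hv.fintypeLinearCombination_injective
  have : Module.Flat A (Fin N → A') := Module.Flat.trans A A' _
  have hF : Function.Injective (TensorProduct.map g f) := by
    rw [← LinearMap.rTensor_comp_lTensor, LinearMap.coe_comp]
    exact (LinearEquiv.rTensor R₁ (LinearEquiv.ofBijective g hg)).injective.comp
      (Module.Flat.lTensor_preserves_injective_linearMap f hf)
  let u : (Fin N → A') ⊗[A] (Fin ρ → R) := ∑ k : Fin N × Fin ρ,
    TensorProduct.map (LinearMap.single A (fun _ => A') k.1) (LinearMap.single A (fun _ => R) k.2)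
      (c k)
  have h1 : ∀ (k : Fin N × Fin ρ) (t : A' ⊗[A] R), TensorProduct.map g f
      (TensorProduct.map (LinearMap.single A (fun _ => A') k.1)
        (LinearMap.single A (fun _ => R) k.2) t) = tmap A A' A₁ R R₁ t * (b k.1 ⊗ₜ v k.2) := by
    intro k t
    induction t with
    | zero => simp
    | add x y hx hy => simp only [map_add, hx, hy, add_mul]
    | tmul a r =>
      simp only [TensorProduct.map_tmul, tmap_tmul, Algebra.TensorProduct.tmul_mul_tmul, g, f,
        LinearMap.restrictScalars_apply, LinearMap.single_apply,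
        Fintype.linearCombination_apply_single, Algebra.smul_def]
  have hu : u = 0 := by
    apply hF
    rw [map_zero, map_sum, ← hc]
    exact Finset.sum_congr rfl fun k _ => h1 k (c k)
  have h2 : ∀ (k' : Fin N × Fin ρ) (t : A' ⊗[A] R),
      TensorProduct.map (LinearMap.proj k.1 : (Fin N → A') →ₗ[A] A')
        (LinearMap.proj k.2 : (Fin ρ → R) →ₗ[A] R)
        (TensorProduct.map (LinearMap.single A (fun _ => A') k'.1)
          (LinearMap.single A (fun _ => R) k'.2) t) = if k' = k then t else 0 := by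
    intro k' t
    induction t with
    | zero => simp
    | add x y hx hy =>
      rw [map_add, map_add, hx, hy]
      split_ifs <;> simp
    | tmul a r =>
      simp only [TensorProduct.map_tmul, LinearMap.single_apply, LinearMap.proj_apply,
        Pi.single_apply]
      by_cases h : k' = k
      · subst h
        simp
      · rw [if_neg h]
        by_cases h' : k.1 = k'.1
        · rw [if_neg (fun h'' : k.2 = k'.2 => h (Prod.ext h'.symm h''.symm)),
            TensorProduct.tmul_zero]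
        · rw [if_neg h', TensorProduct.zero_tmul]
  have h3 := congrArg (TensorProduct.map (LinearMap.proj k.1 : (Fin N → A') →ₗ[A] A')
    (LinearMap.proj k.2 : (Fin ρ → R) →ₗ[A] R)) hu
  rw [map_zero, map_sum, Finset.sum_congr rfl fun k' _ => h2 k' (c k')] at h3
  simpa using h3

theorem spanning {N ρ : ℕ} (b : Fin N → A₁) (v : Fin ρ → R₁)
    (hb1 : ∀ f, ∃ g : Fin N → A', f = ∑ i, algebraMap A' A₁ (g i) * b i) (g : A)
    (hg : ∀ x : R₁, algebraMap A R g • x ∈ Submodule.span R (Set.range v)) (t : A₁ ⊗[A] R₁) :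
    ∃ c : Fin N × Fin ρ → A' ⊗[A] R,
      ∑ k, tmap A A' A₁ R R₁ (c k) * (b k.1 ⊗ₜ v k.2) = g • t := by
  induction t with
  | zero => exact ⟨0, by simp⟩
  | add x y hx hy =>
    obtain ⟨c, hc⟩ := hx
    obtain ⟨c', hc'⟩ := hy
    exact ⟨c + c', by simp only [Pi.add_apply, map_add, add_mul, Finset.sum_add_distrib, hc, hc',
      smul_add]⟩
  | tmul a r =>
    obtain ⟨c, rfl⟩ := hb1 a
    obtain ⟨e, he⟩ := (Submodule.mem_span_range_iff_exists_fun R).mp (hg r)
    refine ⟨fun k => c k.1 ⊗ₜ e k.2, ?_⟩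
    rw [← TensorProduct.tmul_smul, ← algebraMap_smul R g r, ← he, TensorProduct.sum_tmul,
      Fintype.sum_prod_type]
    refine Finset.sum_congr rfl fun i _ => ?_
    rw [TensorProduct.tmul_sum]
    refine Finset.sum_congr rfl fun l _ => ?_
    rw [tmap_tmul, Algebra.TensorProduct.tmul_mul_tmul, Algebra.smul_def]

end

theorem exists_gen {W A A' A₁ R R₁ : Type u} [CommRing W] [CommRing A] [IsDomain A] [CharZero A]
    [CommRing A'] [CommRing A₁] [Nontrivial A₁] [CommRing R] [IsDomain R] [CommRing R₁]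
    [IsDomain R₁] [Algebra A A'] [Module.Flat A A'] [Algebra A R] [Module.Finite A R]
    [Algebra R R₁] [Module.Finite R R₁] [Algebra W A'] [Algebra W A₁] [SMulCommClass A W A']
    (hAR : Function.Injective (algebraMap A R)) (hR : Function.Injective (algebraMap R R₁))
    (ψ : A' →ₐ[W] A₁) {N : ℕ} (b : Fin N → A₁) (hN : N ≠ 0)
    (hb0 : ∀ g : Fin N → A', ∑ i, ψ (g i) * b i = 0 → ∀ i, g i = 0)
    (hb1 : ∀ f, ∃ g : Fin N → A', f = ∑ i, ψ (g i) * b i) :
    ∃ (T₁ : Type u) (_ : CommRing T₁) (_ : Algebra A₁ T₁) (_ : Algebra W T₁)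
      (_ : Algebra (A' ⊗[A] R) T₁) (ι : R₁ →+* T₁) (D : EtData A₁ T₁) (G : A) (ρ : ℕ)
      (v : Fin ρ → T₁), Module.Finite A₁ T₁ ∧ IsScalarTower W A₁ T₁ ∧
      IsScalarTower W (A' ⊗[A] R) T₁ ∧ Module.Finite (A' ⊗[A] R) T₁ ∧ G ≠ 0 ∧ D.G ≠ 0 ∧
      D.G = ψ (algebraMap A A' G) ∧
      (∀ a r, algebraMap (A' ⊗[A] R) T₁ (a ⊗ₜ r) =
        algebraMap A₁ T₁ (ψ a) * ι (algebraMap R R₁ r)) ∧
      ρ ≠ 0 ∧ LinearIndependent (A' ⊗[A] R) v ∧
      ∀ t : T₁, algebraMap A' (A' ⊗[A] R) (algebraMap A A' G) • t ∈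
        Submodule.span (A' ⊗[A] R) (Set.range v) := by
  let : Algebra A' A₁ := ψ.toRingHom.toAlgebra
  let : Algebra A A₁ := (ψ.toRingHom.comp (algebraMap A A')).toAlgebra
  have : IsScalarTower A A' A₁ := IsScalarTower.of_algebraMap_eq fun _ => rfl
  let : Algebra A R₁ := ((algebraMap R R₁).comp (algebraMap A R)).toAlgebra
  have : IsScalarTower A R R₁ := IsScalarTower.of_algebraMap_eq fun _ => rfl
  have : Module.Finite A R₁ := Module.Finite.trans R R₁
  have hli : LinearIndependent A' b := Fintype.linearIndependent_iff.mpr fun g hg =>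
    hb0 g hg
  have hsp : ⊤ ≤ Submodule.span A' (Set.range b) := fun f _ => by
    obtain ⟨g, rfl⟩ := hb1 f
    exact Submodule.sum_mem _ fun i _ =>
      Submodule.smul_mem _ (g i) (Submodule.subset_span ⟨i, rfl⟩)
  have : Module.Free A' A₁ := Module.Free.of_basis (Module.Basis.mk hli hsp)
  have : Module.Finite A' A₁ := Module.Finite.of_basis (Module.Basis.mk hli hsp)
  have : Module.Flat A A₁ := Module.Flat.trans A A' A₁
  obtain ⟨D₀, hD₀⟩ := exists_etData A R₁ (hR.comp hAR)
  obtain ⟨ρ, v, g, hρ, hg, hv, hgv⟩ := exists_free_part_base A R R₁ hR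
  obtain ⟨D₁, hD₁⟩ := D₀.exists_mul g
  obtain ⟨D, hD⟩ := D₁.exists_baseChange A₁
  let aT : Algebra (A' ⊗[A] R) (A₁ ⊗[A] R₁) := (tmap A A' A₁ R R₁).toRingHom.toAlgebra
  let aW : Algebra W (A₁ ⊗[A] R₁) :=
    ((algebraMap A₁ (A₁ ⊗[A] R₁)).comp (algebraMap W A₁)).toAlgebra
  have hG : g * D₀.G ≠ 0 := mul_ne_zero hg hD₀
  have : IsScalarTower A' (A' ⊗[A] R) (A₁ ⊗[A] R₁) := IsScalarTower.of_algebraMap_eq fun a => by
    change algebraMap A' A₁ a ⊗ₜ[A] (1 : R₁) = algebraMap A' A₁ a ⊗ₜ[A] algebraMap R R₁ 1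
    rw [map_one]
  have : Module.Finite A' (A₁ ⊗[A] R₁) := Module.Finite.trans A₁ _
  refine ⟨A₁ ⊗[A] R₁, inferInstance, inferInstance, aW, aT,
    (Algebra.TensorProduct.includeRight (R := A) (A := A₁) (B := R₁)).toRingHom, D, g * D₀.G,
    N * ρ, fun k => b (finProdFinEquiv.symm k).1 ⊗ₜ v (finProdFinEquiv.symm k).2, inferInstance,
    IsScalarTower.of_algebraMap_eq fun _ => rfl, IsScalarTower.of_algebraMap_eq fun w => ?_,
    Module.Finite.of_restrictScalars_finite A' _ _, hG, ?_, by rw [hD, hD₁]; rfl,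
    fun a r => ?_, mul_ne_zero hN hρ, ?_, fun t => ?_⟩
  · change algebraMap W A₁ w ⊗ₜ[A] (1 : R₁) = ψ (algebraMap W A' w) ⊗ₜ[A] algebraMap R R₁ 1
    rw [map_one, ψ.commutes]
  · rw [hD, hD₁]
    exact (map_ne_zero_iff _ (FaithfulSMul.algebraMap_injective A A₁)).mpr hG
  · change ψ a ⊗ₜ[A] algebraMap R R₁ r = (ψ a ⊗ₜ[A] (1 : R₁)) * ((1 : A₁) ⊗ₜ[A] algebraMap R R₁ r)
    rw [Algebra.TensorProduct.tmul_mul_tmul, mul_one, one_mul]
  · refine LinearIndependent.comp (v := fun k : Fin N × Fin ρ => b k.1 ⊗ₜ[A] v k.2) ?_ _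
      finProdFinEquiv.symm.injective
    exact Fintype.linearIndependent_iff.mpr fun c hc => indep b v hb0 hb1 hv c hc
  · obtain ⟨c, hc⟩ := spanning (A' := A') b v hb1 g hgv (D₀.G • t)
    have h1 : algebraMap A' (A' ⊗[A] R) (algebraMap A A' (g * D₀.G)) • t = g • D₀.G • t := by
      rw [← mul_smul, ← IsScalarTower.algebraMap_apply, Algebra.smul_def, Algebra.smul_def]
      congr 1
      exact (tmap A A' A₁ R R₁).commutes _
    rw [h1, ← hc]
    refine Submodule.sum_mem _ fun k _ => Submodule.smul_mem _ (c k)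
      (Submodule.subset_span ⟨finProdFinEquiv k, ?_⟩)
    simp only [Equiv.symm_apply_apply]

theorem charZero_of_isPRing {p : ℕ} [Fact p.Prime] {V : Type*} [CommRing V] [IsLocalRing V]
    (h : IsPRing p V) : CharZero V := by
  have := h.isDomain
  have hp : (p : V) ∈ maximalIdeal V := h.max ▸ Ideal.mem_span_singleton_self _
  rcases CharP.char_is_prime_or_zero V (ringChar V) with hq | hq
  · exfalso
    by_cases hpq : p = ringChar V
    · exact one_ne_zero (h.reg 1 (by rw [mul_one, hpq]; exact CharP.cast_eq_zero V _))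
    · have h1 : IsCoprime (p : ℤ) (ringChar V : ℤ) :=
        Nat.isCoprime_iff_coprime.mpr ((Nat.coprime_primes Fact.out hq).mpr hpq)
      obtain ⟨a, b, hab⟩ := h1.map (Int.castRingHom V)
      simp only [eq_intCast, Int.cast_natCast, CharP.cast_eq_zero, mul_zero, add_zero] at hab
      exact (maximalIdeal.isMaximal V).ne_top
        ((Ideal.eq_top_iff_one _).mpr (hab ▸ Ideal.mul_mem_left _ a hp))
  · have : CharP V 0 := hq ▸ ringChar.charP V
    exact CharP.charP_to_charZero V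

end T1Aux

variable {p : ℕ} [Fact p.Prime] {V W : Type u} [CommRing V] [IsLocalRing V] [CommRing W]
  [IsLocalRing W] {d r : ℕ} {R S : Type u} [CommRing R] [IsLocalRing R] [IsDomain R] [CommRing S]
  [IsLocalRing S] [Algebra (PS V d) (PS W (d + r))] [Algebra (PS V d) R]
  [Algebra (PS W (d + r)) S] [Algebra R S] {x : Fin (d + 1) → R}

theorem IsWModel.exists_T1 (h : IsWModel p V W d r R S x) (e : ℕ) :
    ∃ (T₁ : Type u) (_ : CommRing T₁) (_ : Algebra (PS W (d + r)) T₁) (_ : Algebra W T₁)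
      (_ : Algebra (TT V W d r R) T₁) (D : EtData (PS W (d + r)) T₁) (G : PS V d)
      (y : Fin (d + r + 1) → T₁) (ρ : ℕ) (v : Fin ρ → T₁),
      Module.Finite (PS W (d + r)) T₁ ∧ IsScalarTower W (PS W (d + r)) T₁ ∧
      IsScalarTower W (TT V W d r R) T₁ ∧ Module.Finite (TT V W d r R) T₁ ∧ G ≠ 0 ∧ D.G ≠ 0 ∧
      algebraMap (PS W (d + r)) T₁ D.G = algebraMap (TT V W d r R) T₁ (gT V W d r R G) ∧
      (∀ i, y i ^ p ^ e = algebraMap (TT V W d r R) T₁ (zT V W d r x i)) ∧
      (mT V W d r R).map (algebraMap (TT V W d r R) T₁) ≤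
        Ideal.span (Set.range y) ^ (p ^ e - (d + 3)) ∧
      (∀ i, algebraMap (PS W (d + r)) T₁ (pX p W (d + r) i) ^ p ^ e ∈
        (mT V W d r R).map (algebraMap (TT V W d r R) T₁)) ∧
      ρ ≠ 0 ∧ LinearIndependent (TT V W d r R) v ∧
      ∀ t : T₁, gT V W d r R G • t ∈ Submodule.span (TT V W d r R) (Set.range v) := by
  have := h.hV.isDomain
  have := h.hV.isNoetherianRing
  have := h.finite
  have := h.flatA
  have : IsDomain (PS V d) := NoZeroDivisors.to_isDomain _
  have := T1Aux.charZero_of_isPRing h.hV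
  have : CharZero (PS V d) :=
    charZero_of_injective_ringHom (f := MvPowerSeries.C) MvPowerSeries.C_injective
  have : IsNoetherianRing R := IsNoetherianRing.of_finite (PS V d) R
  have hloc : ∀ a ∈ maximalIdeal (PS V d), algebraMap (PS V d) R a ∈ maximalIdeal R :=
    fun a ha => by
    have h1 := Ideal.isMaximal_comap_of_isIntegral_of_isMaximal (R := PS V d) (maximalIdeal R)
    rw [← eq_maximalIdeal h1] at ha
    exact ha
  have hpm : (p : R) ∈ maximalIdeal R := by
    have h1 := hloc (p : PS V d) (h.hV.span_pX d ▸ Ideal.subset_span ⟨0, rfl⟩)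
    rwa [map_natCast] at h1
  have hp0 : (p : R) ≠ 0 := by
    rw [← map_natCast (algebraMap (PS V d) R), map_ne_zero_iff _ h.inj]
    exact Nat.cast_ne_zero.mpr (Fact.out : p.Prime).ne_zero
  have hq : p ^ e ≠ 0 := pow_ne_zero _ (Fact.out : p.Prime).ne_zero
  obtain ⟨C, hC⟩ := h.red.2
  obtain ⟨R₁, _, _, _, y', _, hinj, hy', hm'⟩ := exists_bs_extension p R hp0 hpm (maximalIdeal R)
    (maximalIdeal R).fg_of_isNoetherianRing hpm x C hC e
  obtain ⟨ψ, N, b, hN, hψ1, hψ2, hb0, hb1⟩ := exists_psi_pow W d r (p ^ e) hq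
  obtain ⟨T₁, _, _, _, _, ι, D, G, ρ, v, f1, t1, t2, f2, hG, hDG, hD, hmap, hρ, hv, hsp⟩ :=
    T1Aux.exists_gen h.inj hinj ψ b hN hb0 hb1
  obtain ⟨y, hy0, hy1, hy2⟩ : ∃ y : Fin (d + r + 1) → T₁, y 0 = ι (y' 0) ∧
      (∀ i, y (Fin.succ (Fin.castAdd r i)) = ι (y' (Fin.succ i))) ∧
      ∀ i, y (Fin.succ (Fin.natAdd d i)) =
        algebraMap (PS W (d + r)) T₁ (MvPowerSeries.X (Fin.natAdd d i)) :=
    ⟨Fin.cons (ι (y' 0)) (Fin.append (fun i => ι (y' (Fin.succ i))) fun i =>
      algebraMap (PS W (d + r)) T₁ (MvPowerSeries.X (Fin.natAdd d i))), rfl,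
      fun i => by rw [Fin.cons_succ, Fin.append_left],
      fun i => by rw [Fin.cons_succ, Fin.append_right]⟩
  have hR : ∀ a : R, algebraMap (TT V W d r R) T₁ (1 ⊗ₜ a) = ι (algebraMap R R₁ a) := fun a => by
    rw [hmap, map_one, map_one, one_mul]
  have hA : ∀ a : PS W (d + r), algebraMap (TT V W d r R) T₁ (a ⊗ₜ 1) =
      algebraMap (PS W (d + r)) T₁ (ψ a) := fun a => by
    rw [hmap, map_one, map_one, mul_one]
  have hX : ∀ i, ((MvPowerSeries.X (Fin.castAdd r i) : PS W (d + r)) ⊗ₜ[PS V d] (1 : R)) =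
      (1 : PS W (d + r)) ⊗ₜ[PS V d] x (Fin.succ i) := fun i => by
    rw [h.x_succ, ← h.mapX, Algebra.algebraMap_eq_smul_one, Algebra.algebraMap_eq_smul_one,
      TensorProduct.smul_tmul]
  have hmR : ∀ a ∈ maximalIdeal R, ι (algebraMap R R₁ a) ∈
      (mT V W d r R).map (algebraMap (TT V W d r R) T₁) := fun a ha => by
    rw [← hR]
    exact Ideal.mem_map_of_mem _ (Ideal.mem_sup_left (Ideal.mem_map_of_mem _ ha))
  refine ⟨T₁, _, _, _, _, D, G, y, ρ, v, f1, t1, t2, f2, hG, hDG, ?_, fun i => ?_, ?_, fun i => ?_,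
    hρ, hv, hsp⟩
  · rw [hD]
    exact (hA _).symm
  · induction i using Fin.cases with
    | zero => rw [hy0, ← map_pow, hy', ← hR]; rfl
    | succ i =>
      induction i using Fin.addCases with
      | left i => rw [hy1, ← map_pow, hy', ← hR, ← hX]; rfl
      | right i => rw [hy2, ← map_pow, ← hψ2, ← hA]; rfl
  · rw [mT, Ideal.map_sup, sup_le_iff]
    constructor
    · have h1 : (Ideal.span (Set.range y')).map ι ≤ Ideal.span (Set.range y) := by
        rw [Ideal.map_span, Ideal.span_le]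
        rintro _ ⟨_, ⟨i, rfl⟩, rfl⟩
        induction i using Fin.cases with
        | zero => exact Ideal.subset_span ⟨0, hy0⟩
        | succ i => exact Ideal.subset_span ⟨_, hy1 i⟩
      rw [Ideal.map_le_iff_le_comap, Ideal.map_le_iff_le_comap]
      intro a ha
      change algebraMap (TT V W d r R) T₁ (1 ⊗ₜ a) ∈
        Ideal.span (Set.range y) ^ (p ^ e - (d + 3))
      rw [hR]
      have h2 := Ideal.mem_map_of_mem ι (hm' (Ideal.mem_map_of_mem _ ha))
      rw [Ideal.map_pow] at h2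
      exact Ideal.pow_right_mono h1 _ h2
    · rw [Ideal.map_le_iff_le_comap, Ideal.map_le_iff_le_comap, Ideal.span_le]
      rintro _ ⟨i, rfl⟩
      change algebraMap (TT V W d r R) T₁ (MvPowerSeries.X (Fin.natAdd d i) ⊗ₜ 1) ∈
        Ideal.span (Set.range y) ^ (p ^ e - (d + 3))
      rw [hA, hψ2, map_pow, ← hy2]
      exact Ideal.pow_le_pow_right (Nat.sub_le _ _)
        (Ideal.pow_mem_pow (Ideal.subset_span (Set.mem_range_self _)) _)
  · induction i using Fin.cases with
    | zero =>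
      refine Ideal.pow_mem_of_mem _ ?_ _ (Nat.pos_of_ne_zero hq)
      have h1 := hmR _ hpm
      rw [map_natCast, map_natCast] at h1
      change algebraMap (PS W (d + r)) T₁ (p : PS W (d + r)) ∈ _
      rwa [map_natCast]
    | succ i =>
      change algebraMap (PS W (d + r)) T₁ (MvPowerSeries.X i) ^ p ^ e ∈ _
      induction i using Fin.addCases with
      | left i =>
        refine Ideal.pow_mem_of_mem _ ?_ _ (Nat.pos_of_ne_zero hq)
        rw [← hψ1, ← hA, hX, hR]
        exact hmR _ (h.red.1 _)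
      | right i =>
        rw [← map_pow, ← hψ2, ← hA]
        exact Ideal.mem_map_of_mem _ (Ideal.mem_sup_right
          (Ideal.mem_map_of_mem _ (Ideal.subset_span ⟨i, rfl⟩)))

end Vale.Agent.P202
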