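import Vale.Agent.P202.MxModelT
import Vale.Agent.P202.MxModelT1
import Vale.Agent.P202.MxCore

/-! The inequality in the model. -/

namespace Vale.Agent.P202

open IsLocalRing TensorProduct Filter Topology

universe u

namespace FinAux

theorem fullNull_map {T T' : Type*} [CommRing T] [CommRing T'] {β : ℕ → Type}
    [∀ i, Fintype (β i)] [∀ i, DecidableEq (β i)] {φ : ∀ i, Matrix (β i) (β (i + 1)) T} {x : T}
    (h : FullNull φ x) (f : T →+* T') : FullNull (fun i => (φ i).map f) (f x) := by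
  obtain ⟨h, h0, hh⟩ := h
  refine ⟨fun i => (h i).map f, ?_, fun i => ?_⟩
  · rw [← Matrix.map_mul, h0]
    ext r s
    by_cases hrs : r = s <;> simp [hrs]
  · rw [← Matrix.map_mul, ← Matrix.map_mul, ← Matrix.map_add _ (map_add f), hh]
    ext r s
    by_cases hrs : r = s <;> simp [hrs]

theorem combine {α Q ρ σ C₀ lR lS c1 c2 c3 c4 : ℕ} {l1 l2 l3 l4 : ℕ∞}
    (h0 : (α : ℕ∞) * l1 ≤ Q * (l2 + C₀ * l3) + α * l4) (h1 : (ρ : ℕ∞) * lR ≤ l1 + ρ * c1)
    (h2 : l2 ≤ ρ * lS + σ * c3) (h3 : l3 ≤ σ * c4) (h4 : l4 ≤ σ * c2) :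
    α * (ρ * lR) ≤ Q * (ρ * lS + σ * c3 + C₀ * (σ * c4)) + α * (σ * c2) + α * (ρ * c1) := by
  have h5 : (α : ℕ∞) * (ρ * lR) ≤
      Q * (ρ * lS + σ * c3 + C₀ * (σ * c4)) + α * (σ * c2) + α * (ρ * c1) := by
    calc (α : ℕ∞) * (ρ * lR) ≤ α * (l1 + ρ * c1) := by gcongr
      _ = α * l1 + α * (ρ * c1) := mul_add _ _ _
      _ ≤ Q * (l2 + C₀ * l3) + α * l4 + α * (ρ * c1) := by gcongr
      _ ≤ _ := by gcongr
  exact_mod_cast h5

theorem real_step {α Q ρ σ C₀ lR lS c1 c2 c3 c4 J M eR eS ε : ℝ} (hα : 0 ≤ α) (hQ : 0 ≤ Q)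
    (hρ : 0 ≤ ρ) (hσ : 0 ≤ σ) (hC : 0 ≤ C₀) (hJ : 0 < J) (hM : 0 < M)
    (h : α * M * (ρ * lR) ≤ Q * J * (ρ * lS + σ * c3 + C₀ * (σ * c4)) + α * M * (σ * c2) +
      α * M * (ρ * c1)) (hR : eR * J ≤ lR) (hS : lS ≤ (eS + ε) * M) (h1 : c1 ≤ ε * J)
    (h2 : c2 ≤ ε * J) (h3 : c3 ≤ ε * M) (h4 : c4 ≤ ε * M) :
    ρ * (α * eR) ≤ ρ * (Q * eS) + (Q * (ρ + σ + C₀ * σ) + α * σ + α * ρ) * ε := by
  have h5 : α * M * (ρ * (eR * J)) ≤ Q * J * (ρ * ((eS + ε) * M) + σ * (ε * M) +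
      C₀ * (σ * (ε * M))) + α * M * (σ * (ε * J)) + α * M * (ρ * (ε * J)) := by
    calc _ ≤ α * M * (ρ * lR) := by gcongr
      _ ≤ _ := h
      _ ≤ _ := by gcongr
  refine le_of_mul_le_mul_right (le_trans (le_of_eq ?_) (h5.trans (le_of_eq ?_))) (mul_pos hJ hM)
  · ring
  · ring

theorem le_of_forall_eps {a b K : ℝ} (hK : 0 ≤ K) (h : ∀ ε : ℝ, 0 < ε → a ≤ b + K * ε) :
    a ≤ b := by
  refine le_of_forall_pos_le_add fun ε hε => (h (ε / (K + 1)) (by positivity)).trans ?_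
  rw [add_le_add_iff_left, ← mul_div_assoc, div_le_iff₀ (by positivity)]
  nlinarith

theorem le_of_pow {D : ℕ} (a b : ℝ) (C : ℕ) (q : ℕ → ℕ) (hq : Tendsto q atTop atTop)
    (h : ∀ᶠ n in atTop, ((q n - C : ℕ) : ℝ) ^ D * a ≤ (q n : ℝ) ^ D * b) : a ≤ b := by
  have h0 : Tendsto (fun n => (q n : ℝ)) atTop atTop := tendsto_natCast_atTop_atTop.comp hq
  have h1 : Tendsto (fun n => (1 - (C : ℝ) / (q n : ℝ)) ^ D * a) atTop
      (𝓝 ((1 - 0) ^ D * a)) :=
    ((tendsto_const_nhds.sub (tendsto_const_nhds.div_atTop h0)).pow D).mul_const _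
  have h2 : (1 - 0) ^ D * a ≤ b := by
    refine le_of_tendsto h1 ?_
    filter_upwards [h, hq.eventually_ge_atTop (C + 1)] with n hn hC
    have hpos : (0 : ℝ) < q n := by exact_mod_cast (show 0 < q n by omega)
    rw [Nat.cast_sub (by omega)] at hn
    have h3 : (1 - (C : ℝ) / (q n : ℝ)) = ((q n : ℝ) - C) / q n := by field_simp
    rw [h3, div_pow, div_mul_eq_mul_div, div_le_iff₀ (by positivity), mul_comm b]
    exact hn
  simpa using h2

theorem comap_eq {T S : Type*} [CommRing T] [CommRing S] (f : T →+* S)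
    (hf : Function.Surjective f) (I : Ideal T) : RingHom.ker f ⊔ I = (I.map f).comap f := by
  rw [Ideal.comap_map_of_surjective f hf, ← RingHom.ker_eq_comap_bot, sup_comm]

theorem powIdeal_mul {T T₁ : Type*} [CommRing T] [CommRing T₁] (f : T →+* T₁) {n q : ℕ}
    (z : Fin n → T) (y : Fin n → T₁) (hy : ∀ i, y i ^ q = f (z i)) (j : ℕ) :
    powIdeal y (q * j) = (powIdeal z j).map f := by
  rw [mt_powIdeal_map, powIdeal, powIdeal]
  simp only [pow_mul, hy]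

end FinAux

section

variable {p : ℕ} {V W : Type u} [CommRing V] [IsLocalRing V] [CommRing W] [IsLocalRing W]
  {d r : ℕ} {R S : Type u} [CommRing R] [IsLocalRing R] [CommRing S] [IsLocalRing S]
  [Algebra (PS V d) (PS W (d + r))] [Algebra (PS V d) R] [Algebra (PS W (d + r)) S] [Algebra R S]
  {x : Fin (d + 1) → R}

/-- passage to the limit in the two auxiliary parameters. -/
theorem IsWModel.le_of_ineq (h : IsWModel p V W d r R S x) (w : Fin (d + 1) → TT V W d r R)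
    (L : ℕ) (hL : maximalIdeal S ^ L ≤ Ideal.span (Set.range fun i => h.toS (w i)))
    (eR eS : ℝ) (hR : ∀ j : ℕ, eR * (j : ℝ) ^ (d + 1) ≤ (len R (R ⧸ powIdeal x j) : ℝ))
    (hS : Tendsto (fun m : ℕ => (len S (S ⧸ powIdeal (fun i => h.toS (w i)) m) : ℝ) /
      (m : ℝ) ^ (d + 1)) atTop (𝓝 eS)) {T₁ : Type u} [CommRing T₁] [Algebra W T₁]
    [Algebra (TT V W d r R) T₁] [IsScalarTower W (TT V W d r R) T₁]
    [Module.Finite (TT V W d r R) T₁] (G : PS V d) (hG : G ≠ 0) {ρ : ℕ} (hρ : ρ ≠ 0)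
    (v : Fin ρ → T₁) (hv : LinearIndependent (TT V W d r R) v)
    (hsp : ∀ t : T₁, gT V W d r R G • t ∈ Submodule.span (TT V W d r R) (Set.range v))
    (q α C₀ : ℕ) (hcore : ∀ j m : ℕ, j ≠ 0 → m ≠ 0 →
      ((α * m ^ (d + 1) : ℕ) : ℕ∞) * Module.length W (T₁ ⧸
          (powIdeal (zT V W d r x) j).map (algebraMap (TT V W d r R) T₁)) ≤
        (((q * j) ^ (d + r + 1) : ℕ) : ℕ∞) * (Module.length W (T₁ ⧸
          (RingHom.ker h.toS ⊔ powIdeal w m).map (algebraMap (TT V W d r R) T₁)) +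
          C₀ * Module.length W (T₁ ⧸ (RingHom.ker h.toS ⊔ powIdeal w m ⊔
            Ideal.span {gT V W d r R (G ^ 3)}).map (algebraMap (TT V W d r R) T₁))) +
        ((α * m ^ (d + 1) : ℕ) : ℕ∞) * Module.length W (T₁ ⧸ (powIdeal (zT V W d r x) j ⊔
          Ideal.span {gT V W d r R (G ^ 3)}).map (algebraMap (TT V W d r R) T₁))) :
    (α : ℝ) * eR ≤ (q : ℝ) ^ (d + r + 1) * eS := by
  have := h.hV.isDomain
  have : IsDomain (PS V d) := NoZeroDivisors.to_isDomain _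
  have := h.noethS
  obtain ⟨σ, hσ⟩ := length_compare (W := W) v hv _ hsp
  have hG3 : G ^ 3 ≠ 0 := pow_ne_zero _ hG
  have hρ' : (0 : ℝ) < ρ := by exact_mod_cast Nat.pos_of_ne_zero hρ
  refine le_of_mul_le_mul_left (FinAux.le_of_forall_eps
    (K := (q : ℝ) ^ (d + r + 1) * (ρ + σ + C₀ * σ) + α * σ + α * ρ) (by positivity)
    fun ε hε => ?_) hρ'
  obtain ⟨j, ⟨⟨c1, a1, b1⟩, ⟨c2, a2, b2⟩⟩, hj⟩ :=
    (((h.small_zT G hG ε hε).and (h.small_zT _ hG3 ε hε)).and (eventually_gt_atTop 0)).exists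
  obtain ⟨m, ⟨⟨⟨c3, a3, b3⟩, ⟨c4, a4, b4⟩⟩, hm'⟩, hm⟩ :=
    ((((h.small_S G hG _ L hL ε hε).and (h.small_S _ hG3 _ L hL ε hε)).and
      (hS.eventually_le_const (lt_add_of_pos_right eS hε))).and (eventually_gt_atTop 0)).exists
  have e1 : RingHom.ker h.toS ⊔ powIdeal w m =
      (powIdeal (fun i => h.toS (w i)) m).comap h.toS := by
    rw [FinAux.comap_eq _ h.toS_surjective, mt_powIdeal_map]
  have e2 : ∀ g, RingHom.ker h.toS ⊔ powIdeal w m ⊔ Ideal.span {g} =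
      (powIdeal (fun i => h.toS (w i)) m ⊔ Ideal.span {h.toS g}).comap h.toS := fun g => by
    rw [sup_assoc, FinAux.comap_eq _ h.toS_surjective, Ideal.map_sup, mt_powIdeal_map,
      Ideal.map_span, Set.image_singleton]
  have fR : Module.length R (R ⧸ powIdeal x j) = len R (R ⧸ powIdeal x j) :=
    (ENat.natCast_toNat (h.length_ne_top j _ le_rfl)).symm
  have fS : Module.length S (S ⧸ powIdeal (fun i => h.toS (w i)) m) =
      len S (S ⧸ powIdeal (fun i => h.toS (w i)) m) := by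
    refine (ENat.natCast_toNat (length_quot_ne_top (M := S) (maximalIdeal S).fg_of_isNoetherianRing
      (L * ((d + 1) * m + 1)) _ ?_)).symm
    rw [smul_top_ideal, pow_mul]
    exact (Ideal.pow_right_mono hL _).trans (span_pow_le_powIdeal _ m)
  have i1 := (hσ (powIdeal (zT V W d r x) j)).1
  rw [h.length_zT, fR, ← Nat.cast_mul] at i1
  have i2 := (hσ (RingHom.ker h.toS ⊔ powIdeal w m)).2.1
  rw [e2, h.length_comap] at i2
  conv_rhs at i2 => rw [e1, h.length_comap, fS]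
  have i3 := (hσ (RingHom.ker h.toS ⊔ powIdeal w m ⊔ Ideal.span {gT V W d r R (G ^ 3)})).2.2
  conv_rhs at i3 => rw [e2, h.length_comap]
  have i4 := (hσ (powIdeal (zT V W d r x) j ⊔ Ideal.span {gT V W d r R (G ^ 3)})).2.2
  have k := FinAux.combine (hcore j m hj.ne' hm.ne') (c1 := c1) (c2 := c2) (c3 := c3) (c4 := c4)
    (i1.trans (by gcongr)) (i2.trans (by gcongr)) (i3.trans (by gcongr)) (i4.trans (by gcongr))
  have k' := (Nat.cast_le (α := ℝ)).mpr k
  have hj' : (0 : ℝ) < j := by exact_mod_cast hj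
  have hm'' : (0 : ℝ) < m := by exact_mod_cast hm
  push_cast at k'
  rw [mul_pow] at k'
  refine FinAux.real_step (by positivity) (by positivity) hρ'.le (by positivity) (by positivity)
    (by positivity) (by positivity) k' ?_ ?_ b1 b2 b3 b4
  · rw [show d + r + 1 = d + 1 + r by omega, pow_add, ← mul_assoc]
    exact mul_le_mul_of_nonneg_right (hR j) (by positivity)
  · rwa [div_le_iff₀ (by positivity)] at hm'

end

theorem IsWModel.le {p : ℕ} [Fact p.Prime] {V K : Type u} [CommRing V] [IsLocalRing V] [Field K]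
    [CharP K p] [PerfectRing K p] [Infinite K] {d r : ℕ} {R S : Type u} [CommRing R]
    [IsLocalRing R] [IsDomain R] [CommRing S] [IsLocalRing S]
    [Algebra (PS V d) (PS (WittVector p K) (d + r))] [Algebra (PS V d) R]
    [Algebra (PS (WittVector p K) (d + r)) S] [Algebra R S] {x : Fin (d + 1) → R}
    (h : IsWModel p V (WittVector p K) d r R S x) (w : Fin (d + 1) → S)
    (hw : ∀ i, w i ∈ maximalIdeal S) (L : ℕ) (hL : maximalIdeal S ^ L ≤ Ideal.span (Set.range w))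
    (eR eS : ℝ) (hR : ∀ j : ℕ, eR * (j : ℝ) ^ (d + 1) ≤ (len R (R ⧸ powIdeal x j) : ℝ))
    (hS : Tendsto (fun m : ℕ => (len S (S ⧸ powIdeal w m) : ℝ) / (m : ℝ) ^ (d + 1)) atTop
      (𝓝 eS)) : eR ≤ eS := by
  obtain ⟨C, hC⟩ := core_ineq p K (d + r) L
  obtain ⟨w', rfl⟩ : ∃ w' : Fin (d + 1) → TT V (WittVector p K) d r R,
      (fun i => h.toS (w' i)) = w :=
    ⟨fun i => (h.toS_surjective (w i)).choose,
      funext fun i => (h.toS_surjective (w i)).choose_spec⟩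
  have hw' : ∀ i, w' i ∈ mT V (WittVector p K) d r R := fun i => h.comap_toS ▸ hw i
  have hL' : mT V (WittVector p K) d r R ^ L ≤
      RingHom.ker h.toS ⊔ Ideal.span (Set.range w') := by
    rw [FinAux.comap_eq _ h.toS_surjective, ← h.comap_toS, Ideal.map_span, ← Set.range_comp]
    exact (Ideal.le_comap_pow _ L).trans (Ideal.comap_mono hL)
  obtain ⟨b, φ, hb0, hb, hφφ, hφ, hJ, hnull⟩ := h.exists_resolution
  have hq : Tendsto (fun e : ℕ => p ^ e) atTop atTop :=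
    tendsto_pow_atTop_atTop_of_one_lt (Fact.out : p.Prime).one_lt
  refine FinAux.le_of_pow (D := d + r + 1) eR eS (d + 3 + C) _ hq ?_
  filter_upwards [hq.eventually_ge_atTop (d + 4)] with e he
  obtain ⟨T₁, _, _, _, _, D, G, y, ρ, v, _, _, _, _, hG, hDG, hD, hy, hm, hX, hρ, hv, hsp⟩ :=
    h.exists_T1 e
  obtain ⟨f, hf⟩ : ∃ f, f = algebraMap (TT V (WittVector p K) d r R) T₁ := ⟨_, rfl⟩
  obtain ⟨n, hn⟩ : ∃ n, n = mT V (WittVector p K) d r R := ⟨_, rfl⟩
  rw [← hf] at hD hy hm hX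
  rw [← hn] at hm hX hw' hL' hφ
  have hm1 : n.map f ≤ Ideal.span (Set.range y) :=
    hm.trans (Ideal.pow_le_self (by omega))
  have hpn : (p : T₁) ∈ n.map f := by
    have h1 := Ideal.mem_map_of_mem f (hn ▸ h.p_mem)
    rwa [map_natCast] at h1
  have hL1 : n.map f ^ L ≤ (RingHom.ker h.toS).map f ⊔
      Ideal.span (Set.range fun i => f (w' i)) := by
    have h1 := Ideal.map_mono (f := f) hL'
    rwa [Ideal.map_pow, Ideal.map_sup, Ideal.map_span, ← Set.range_comp] at h1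
  have hrad : ∀ t : T₁, t ^ p ^ e ∈ n.map f → t ∈ ((RingHom.ker h.toS).map f ⊔
      Ideal.span (Set.range fun i => f (w' i))).radical := fun t ht =>
    ⟨p ^ e * L, by rw [pow_mul]; exact hL1 (Ideal.pow_mem_pow ht L)⟩
  obtain ⟨s0, hs0⟩ := Fintype.card_eq_one_iff.mp
    (show Fintype.card (Fin (b 0)) = 1 by rw [Fintype.card_fin, hb0])
  obtain ⟨C₀, hC₀⟩ := hC T₁ D hDG (p ^ e - (d + 3)) y (fun i => ⟨_, hm1 (hX i)⟩) (hm1 hpn)
    (d + 1) r (by omega) (fun i => Fin (b i)) (fun i => (φ i).map f)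
    (fun i hi => by rw [hb i hi]; infer_instance)
    (fun i => by rw [← Matrix.map_mul, hφφ]; simp)
    (fun i s t => hm (Ideal.mem_map_of_mem f (hφ i s t))) s0 hs0 ((RingHom.ker h.toS).map f)
    (by rw [← hJ s0, Ideal.map_span, ← Set.range_comp]; rfl)
    (fun t ht => FullNull.of_mem_span _ (by
      rintro _ ⟨a, ha, rfl⟩
      exact FinAux.fullNull_map (hnull a ha) f) ht)
    (fun i => f (w' i)) (fun i => hm (Ideal.mem_map_of_mem f (hw' i)))
    (fun i => hrad _ (hX i))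
    (fun i => hrad _ (by rw [hy]; exact Ideal.mem_map_of_mem f (hn ▸ h.zT_mem i)))
    (hL1 (Ideal.pow_mem_pow hpn L))
  have hG3 : algebraMap (PS (WittVector p K) (d + r)) T₁ (D.G ^ 3) =
      f (gT V (WittVector p K) d r R (G ^ 3)) := by
    rw [map_pow, hD, ← map_pow, gT, gT, ← map_pow, ← map_pow]
  have key := h.le_of_ineq w' L hL eR eS hR hS G hG hρ v hv hsp (p ^ e)
    ((p ^ e - (d + 3) - C) ^ (d + r + 1)) C₀ fun j m hj hm0 => by
      have h1 := hC₀ (p ^ e * j) m (mul_ne_zero (by omega) hj) hm0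
      rw [FinAux.powIdeal_mul f _ y hy, ← mt_powIdeal_map f w' m, ← Ideal.map_sup, hG3,
        ← Set.image_singleton, ← Ideal.map_span, ← Ideal.map_sup, ← Ideal.map_sup, hf] at h1
      exact h1
  rw [Nat.sub_add_eq]
  exact_mod_cast key

end Vale.Agent.P202
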