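import Vale.Agent.P202.MxModelDef
import Vale.Agent.P202.MxRegFib
import Vale.Agent.P202.CoreT

/-! The base change of the source in the model. -/

namespace Vale.Agent.P202

open IsLocalRing TensorProduct Filter Topology

universe u

theorem mt_exists_pow_le (A R : Type*) [CommRing A] [IsLocalRing A] [CommRing R] [IsLocalRing R]
    [IsNoetherianRing R] [Algebra A R] [Module.Finite A R] :
    ∃ C : ℕ, maximalIdeal R ^ C ≤ (maximalIdeal A).map (algebraMap A R) := by
  apply Ideal.exists_pow_le_of_le_radical_of_fg _ (maximalIdeal R).fg_of_isNoetherianRing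
  rw [Ideal.radical_eq_sInf, le_sInf_iff]
  rintro P ⟨hP, hP'⟩
  have h1 : maximalIdeal A ≤ P.comap (algebraMap A R) := Ideal.map_le_iff_le_comap.mp hP
  have h2 : P.comap (algebraMap A R) = maximalIdeal A :=
    ((maximalIdeal.isMaximal A).eq_of_le (Ideal.comap_ne_top _ hP'.ne_top) h1).symm
  have h3 : P.IsMaximal :=
    Ideal.isMaximal_of_isIntegral_of_isMaximal_comap P (h2 ▸ maximalIdeal.isMaximal A)
  exact (eq_maximalIdeal h3).ge

theorem mt_powIdeal_map {T T' : Type*} [CommRing T] [CommRing T'] (f : T →+* T') {n : ℕ}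
    (w : Fin n → T) (j : ℕ) : (powIdeal w j).map f = powIdeal (fun i => f (w i)) j := by
  rw [powIdeal, powIdeal, Ideal.map_span, ← Set.range_comp]
  simp only [Function.comp_def, map_pow]

theorem mt_span_image_lt {T : Type*} [CommRing T] (p : T) {d r : ℕ} (X : Fin (d + r) → T)
    (j : Fin r) :
    Ideal.span ((Fin.cons p X : Fin (d + r + 1) → T) '' {i | i < Fin.succ (Fin.natAdd d j)}) =
      Ideal.span (Set.range (Fin.cons p (fun i => X (Fin.castAdd r i)) : Fin (d + 1) → T)) ⊔
        Ideal.span ((fun i => X (Fin.natAdd d i)) '' {i | i < j}) := by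
  rw [← Ideal.span_union]
  refine congrArg Ideal.span ?_
  ext f
  constructor
  · rintro ⟨i, hi, rfl⟩
    induction i using Fin.cases with
    | zero => exact Or.inl ⟨0, rfl⟩
    | succ i =>
      induction i using Fin.addCases with
      | left i => exact Or.inl ⟨Fin.succ i, rfl⟩
      | right i =>
        refine Or.inr ⟨i, ?_, rfl⟩
        have h1 : Fin.natAdd d i < Fin.natAdd d j := Fin.succ_lt_succ_iff.mp hi
        exact (Fin.natAdd_lt_natAdd_iff d).mp h1
  · rintro (⟨i, rfl⟩ | ⟨i, hi, rfl⟩)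
    · induction i using Fin.cases with
      | zero => exact ⟨0, Fin.succ_pos _, rfl⟩
      | succ i =>
        refine ⟨Fin.succ (Fin.castAdd r i), Fin.succ_lt_succ_iff.mpr ?_, rfl⟩
        change (i : ℕ) < d + j
        omega
    · exact ⟨Fin.succ (Fin.natAdd d i),
        Fin.succ_lt_succ_iff.mpr ((Fin.natAdd_lt_natAdd_iff d).mpr hi), rfl⟩

theorem mt_span_range {T : Type*} [CommRing T] (p : T) {d r : ℕ} (X : Fin (d + r) → T) :
    Ideal.span (Set.range (Fin.cons p X : Fin (d + r + 1) → T)) =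
      Ideal.span (Set.range (Fin.cons p (fun i => X (Fin.castAdd r i)) : Fin (d + 1) → T)) ⊔
        Ideal.span (Set.range fun i => X (Fin.natAdd d i)) := by
  rw [← Ideal.span_union]
  refine congrArg Ideal.span ?_
  ext f
  constructor
  · rintro ⟨i, rfl⟩
    induction i using Fin.cases with
    | zero => exact Or.inl ⟨0, rfl⟩
    | succ i =>
      induction i using Fin.addCases with
      | left i => exact Or.inl ⟨Fin.succ i, rfl⟩
      | right i => exact Or.inr ⟨i, rfl⟩
  · rintro (⟨i, rfl⟩ | ⟨i, rfl⟩)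
    · induction i using Fin.cases with
      | zero => exact ⟨0, rfl⟩
      | succ i => exact ⟨Fin.succ (Fin.castAdd r i), rfl⟩
    · exact ⟨Fin.succ (Fin.natAdd d i), rfl⟩

/-- regularity on the fibre passes to the base change. -/
theorem mt_reg_tensor {A A' R : Type*} [CommRing A] [IsLocalRing A] [CommRing A'] [CommRing R]
    [IsLocalRing R] [Algebra A A'] [Algebra A R] [Module.Finite A R]
    (hres : ∀ x : R, ∃ a : A, x - algebraMap A R a ∈ maximalIdeal R) {r : ℕ} (Y : Fin r → A')
    (hreg : ∀ j a, Y j * a ∈ (maximalIdeal A).map (algebraMap A A') ⊔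
      Ideal.span (Y '' {i | i < j}) →
      a ∈ (maximalIdeal A).map (algebraMap A A') ⊔ Ideal.span (Y '' {i | i < j}))
    (j : Fin r) (t : A' ⊗[A] R)
    (ht : algebraMap A' (A' ⊗[A] R) (Y j) * t ∈
      (maximalIdeal R).map (Algebra.TensorProduct.includeRight (R := A) (A := A') (B := R)) ⊔
        Ideal.span ((fun j => algebraMap A' (A' ⊗[A] R) (Y j)) '' {i | i < j})) :
    t ∈ (maximalIdeal R).map (Algebra.TensorProduct.includeRight (R := A) (A := A') (B := R)) ⊔
        Ideal.span ((fun j => algebraMap A' (A' ⊗[A] R) (Y j)) '' {i | i < j}) := by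
  obtain ⟨a, ha⟩ := ct_exists_sub_mem (A' := A') hres t
  have h1 : Ideal.span ((fun j => algebraMap A' (A' ⊗[A] R) (Y j)) '' {i | i < j}) =
      (Ideal.span (Y '' {i | i < j})).map (algebraMap _ _) := by
    rw [Ideal.map_span, Set.image_image]
  rw [h1] at ht ⊢
  have h2 := Ideal.sub_mem _ ht (Ideal.mul_mem_left _ (algebraMap A' _ (Y j))
    (Ideal.mem_sup_left ha))
  rw [← mul_sub, sub_sub_cancel, ← map_mul] at h2
  have h6 := Ideal.mem_map_of_mem (algebraMap _ (A' ⊗[A] R))
    (hreg j a (ct_mem_of_mem hres _ _ h2))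
  rw [Ideal.map_sup] at h6
  have hle : (maximalIdeal A).map (algebraMap A R) ≤ maximalIdeal R :=
    Ideal.map_le_iff_le_comap.mpr fun x hx => map_maximalIdeal_le_of_finite A R hx
  have hle2 := ct_map_le (A := A) (A' := A') (R := R) (maximalIdeal A) (maximalIdeal R) hle
  have h7 := sup_le_sup_right hle2 _ h6
  have h8 := Ideal.add_mem _ (Ideal.mem_sup_left ha) h7
  rwa [sub_add_cancel] at h8

/-- lengths over the base change. -/
theorem mt_length_tensor {A A' R : Type*} [CommRing A] [IsLocalRing A] [CommRing A'] [CommRing R]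
    [IsLocalRing R] [Algebra A A'] [Module.Flat A A'] [Algebra A R] [Module.Finite A R]
    (hres : ∀ x : R, ∃ a : A, x - algebraMap A R a ∈ maximalIdeal R) {r : ℕ} (Y : Fin r → A')
    (hreg : ∀ j a, Y j * a ∈ (maximalIdeal A).map (algebraMap A A') ⊔
      Ideal.span (Y '' {i | i < j}) →
      a ∈ (maximalIdeal A).map (algebraMap A A') ⊔ Ideal.span (Y '' {i | i < j}))
    (hmax : ((maximalIdeal R).map
      (Algebra.TensorProduct.includeRight (R := A) (A := A') (B := R)) ⊔
        (Ideal.span (Set.range Y)).map (algebraMap A' (A' ⊗[A] R))).IsMaximal)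
    (I : Ideal R) (hI : Module.length R (R ⧸ I) ≠ ⊤) (j : ℕ) :
    Module.length (A' ⊗[A] R) ((A' ⊗[A] R) ⧸
      (I.map (Algebra.TensorProduct.includeRight (R := A) (A := A') (B := R)) ⊔
        powIdeal (fun i => algebraMap A' (A' ⊗[A] R) (Y i)) j)) =
      Module.length R (R ⧸ I) * (j ^ r : ℕ) := by
  let : Algebra R (A' ⊗[A] R) := Algebra.TensorProduct.rightAlgebra
  have : Module.Flat R (A' ⊗[A] R) := Module.Flat.of_linearEquiv
    (Algebra.TensorProduct.commRight A R A').toLinearEquiv.symm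
  have hmax' : ((maximalIdeal R).map (algebraMap R (A' ⊗[A] R)) ⊔
      Ideal.span (Set.range fun i => algebraMap A' (A' ⊗[A] R) (Y i))).IsMaximal := by
    rw [Ideal.map_span, ← Set.range_comp] at hmax
    exact hmax
  obtain ⟨h1, h2⟩ := length_quot_sup_powIdeal ((maximalIdeal R).map (algebraMap R (A' ⊗[A] R)))
    (fun i => algebraMap A' (A' ⊗[A] R) (Y i)) (mt_reg_tensor hres Y hreg) hmax' j
  have h3 := length_quot_sup_eq (A := R) (B := A' ⊗[A] R)
    (fun i => algebraMap A' (A' ⊗[A] R) (Y i) ^ j) h1 I hI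
  rw [← h2]
  exact h3

variable {p : ℕ} {V W : Type u} [CommRing V] [IsLocalRing V] [CommRing W] [IsLocalRing W]
  {d r : ℕ} {R S : Type u} [CommRing R] [IsLocalRing R] [CommRing S] [IsLocalRing S]
  [Algebra (PS V d) (PS W (d + r))] [Algebra (PS V d) R] [Algebra (PS W (d + r)) S] [Algebra R S]
  {x : Fin (d + 1) → R}

theorem IsWModel.toS_algebraMap (h : IsWModel p V W d r R S x) (a : PS W (d + r)) :
    h.toS (algebraMap (PS W (d + r)) (TT V W d r R) a) = algebraMap (PS W (d + r)) S a := by
  have h1 := h.toS_tmul a 1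
  rw [map_one, mul_one] at h1
  exact h1

theorem IsWModel.toS_surjective (h : IsWModel p V W d r R S x) : Function.Surjective h.toS := by
  intro s
  obtain ⟨a, rfl⟩ := h.surj s
  exact ⟨_, h.toS_algebraMap a⟩

theorem IsWModel.noethR (h : IsWModel p V W d r R S x) : IsNoetherianRing R := by
  have := h.hV.isNoetherianRing
  have := h.finite
  exact IsNoetherianRing.of_finite (PS V d) R

theorem IsWModel.noethT (h : IsWModel p V W d r R S x) : IsNoetherianRing (TT V W d r R) := by
  have := h.hW.isNoetherianRing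
  have := h.finite
  exact IsNoetherianRing.of_finite (PS W (d + r)) _

theorem IsWModel.noethS (h : IsWModel p V W d r R S x) : IsNoetherianRing S := by
  have := h.hW.isNoetherianRing
  exact isNoetherianRing_of_surjective (PS W (d + r)) S _ h.surj

theorem IsWModel.map_max (h : IsWModel p V W d r R S x) :
    (maximalIdeal (PS V d)).map (algebraMap (PS V d) (PS W (d + r))) =
      Ideal.span (Set.range (Fin.cons (p : PS W (d + r))
        (fun i => MvPowerSeries.X (Fin.castAdd r i)) : Fin (d + 1) → PS W (d + r))) := by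
  rw [← h.hV.span_pX, Ideal.map_span, ← Set.range_comp]
  refine congrArg (fun f => Ideal.span (Set.range f)) (funext fun i => ?_)
  induction i using Fin.cases with
  | zero => exact map_natCast _ p
  | succ i => exact h.mapX i

theorem IsWModel.max_eq (h : IsWModel p V W d r R S x) :
    maximalIdeal (PS W (d + r)) =
      (maximalIdeal (PS V d)).map (algebraMap (PS V d) (PS W (d + r))) ⊔
        Ideal.span (Set.range fun i => (MvPowerSeries.X (Fin.natAdd d i) : PS W (d + r))) := by
  rw [h.map_max, ← h.hW.span_pX]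
  exact mt_span_range _ _

theorem IsWModel.Y_regular (h : IsWModel p V W d r R S x) (j : Fin r) (a : PS W (d + r))
    (ha : MvPowerSeries.X (Fin.natAdd d j) * a ∈
      (maximalIdeal (PS V d)).map (algebraMap (PS V d) (PS W (d + r))) ⊔
      Ideal.span ((fun i => (MvPowerSeries.X (Fin.natAdd d i) : PS W (d + r))) '' {i | i < j})) :
    a ∈ (maximalIdeal (PS V d)).map (algebraMap (PS V d) (PS W (d + r))) ⊔
      Ideal.span ((fun i => (MvPowerSeries.X (Fin.natAdd d i) : PS W (d + r))) '' {i | i < j}) := by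
  rw [h.map_max, ← mt_span_image_lt] at ha ⊢
  exact h.hW.pX_reg (d + r) (Fin.succ (Fin.natAdd d j)) a ha

theorem IsWModel.isLocalRing (h : IsWModel p V W d r R S x) :
    ∃ _ : IsLocalRing (TT V W d r R), maximalIdeal (TT V W d r R) = mT V W d r R := by
  have := h.finite
  have := h.noethR
  have : Nontrivial (TT V W d r R) := h.toS.domain_nontrivial
  obtain ⟨C, hC⟩ := mt_exists_pow_le (PS V d) R
  exact ct_isLocalRing h.res C hC _ h.max_eq

theorem IsWModel.comap_toS (h : IsWModel p V W d r R S x) :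
    (maximalIdeal S).comap h.toS = mT V W d r R := by
  obtain ⟨_, hm⟩ := h.isLocalRing
  rw [← hm]
  exact eq_maximalIdeal (Ideal.comap_isMaximal_of_surjective _ h.toS_surjective)

theorem IsWModel.mT_fg (h : IsWModel p V W d r R S x) : (mT V W d r R).FG := by
  have := h.noethT
  exact (mT V W d r R).fg_of_isNoetherianRing

theorem IsWModel.algebraMap_mem (h : IsWModel p V W d r R S x) {a : PS W (d + r)}
    (ha : a ∈ maximalIdeal (PS W (d + r))) :
    algebraMap (PS W (d + r)) (TT V W d r R) a ∈ mT V W d r R := by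
  obtain ⟨_, hm⟩ := h.isLocalRing
  have := h.finite
  rw [← hm]
  exact map_maximalIdeal_le_of_finite _ _ ha

theorem IsWModel.p_mem (h : IsWModel p V W d r R S x) : (p : TT V W d r R) ∈ mT V W d r R := by
  have h1 := h.algebraMap_mem (a := (p : PS W (d + r)))
    (h.hW.span_pX (d + r) ▸ Ideal.subset_span ⟨0, rfl⟩)
  rwa [map_natCast] at h1

theorem IsWModel.zT_mem (h : IsWModel p V W d r R S x) (i : Fin (d + r + 1)) :
    zT V W d r x i ∈ mT V W d r R := by
  induction i using Fin.cases with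
  | zero => exact Ideal.mem_sup_left (Ideal.mem_map_of_mem _ (h.red.1 0))
  | succ i =>
    exact h.algebraMap_mem (a := MvPowerSeries.X i)
      (h.hW.span_pX (d + r) ▸ Ideal.subset_span ⟨Fin.succ i, rfl⟩)

theorem IsWModel.exists_resolution (h : IsWModel p V W d r R S x) :
    ∃ (b : ℕ → ℕ) (φ : ∀ i, Matrix (Fin (b i)) (Fin (b (i + 1))) (TT V W d r R)), b 0 = 1 ∧
      (∀ i, r < i → b i = 0) ∧ (∀ i, φ i * φ (i + 1) = 0) ∧
      (∀ i s t, φ i s t ∈ mT V W d r R) ∧
      (∀ s, Ideal.span (Set.range (φ 0 s)) = RingHom.ker h.toS) ∧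
      ∀ a ∈ RingHom.ker h.toS, FullNull (β := fun i => Fin (b i)) φ a := by
  obtain ⟨_, hm⟩ := h.isLocalRing
  have := h.finite
  have := h.flat
  have := h.flatA
  have := h.noethT
  let : Algebra (TT V W d r R) S := h.toS.toAlgebra
  have hF2 : ∀ y : R, algebraMap R S y = algebraMap (TT V W d r R) S (1 ⊗ₜ y) := fun y => by
    have h1 := h.toS_tmul 1 y
    rw [map_one, one_mul] at h1
    exact h1.symm
  have h1 := ct_exists_resolution h.res hF2 h.toS_surjective _ hm h.Y_regular
  rw [hm] at h1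
  exact h1

theorem IsWModel.length_W (h : IsWModel p V W d r R S x) (I : Ideal (TT V W d r R)) :
    Module.length W (TT V W d r R ⧸ I) = Module.length (TT V W d r R) (TT V W d r R ⧸ I) := by
  obtain ⟨_, hm⟩ := h.isLocalRing
  have : IsLocalHom (algebraMap W (TT V W d r R)) := by
    apply ((IsLocalRing.local_hom_TFAE _).out 0 2).mpr
    rw [h.hW.max, Ideal.map_span, Set.image_singleton, map_natCast, hm,
      Ideal.span_singleton_le_iff_mem]
    exact h.p_mem
  refine length_eq_of_res fun t => ?_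
  obtain ⟨a, ha⟩ := ct_exists_sub_mem (A' := PS W (d + r)) h.res t
  obtain ⟨v, hv⟩ := ps_residue (d + r) a
  refine ⟨v, ?_⟩
  have h1 := h.algebraMap_mem hv
  rw [map_sub, ← IsScalarTower.algebraMap_apply] at h1
  have h2 := Ideal.add_mem _ (Ideal.mem_sup_left ha : _ ∈ mT V W d r R) h1
  rw [sub_add_sub_cancel] at h2
  rw [hm]
  exact h2

theorem IsWModel.powIdeal_zT (h : IsWModel p V W d r R S x) (j : ℕ) :
    powIdeal (zT V W d r x) j =
      (powIdeal x j).map (Algebra.TensorProduct.includeRight (R := PS V d) (A := PS W (d + r))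
        (B := R)) ⊔ powIdeal (fun i => algebraMap (PS W (d + r)) (TT V W d r R)
          (MvPowerSeries.X (Fin.natAdd d i))) j := by
  have h1 : (fun i => zT V W d r x i ^ j) = Fin.cons (zT V W d r x 0 ^ j)
      fun i => zT V W d r x (Fin.succ i) ^ j := by
    funext i
    induction i using Fin.cases <;> rfl
  rw [powIdeal, h1, mt_span_range, powIdeal, Ideal.map_span, ← Set.range_comp]
  refine congrArg₂ (· ⊔ ·) (congrArg (fun f => Ideal.span (Set.range f)) (funext fun i => ?_)) rfl
  induction i using Fin.cases with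
  | zero => exact (map_pow (Algebra.TensorProduct.includeRight (R := PS V d) (A := PS W (d + r))
      (B := R)) (x 0) j).symm
  | succ i =>
    change ((MvPowerSeries.X (Fin.castAdd r i) : PS W (d + r)) ⊗ₜ[PS V d] (1 : R)) ^ j =
      Algebra.TensorProduct.includeRight (R := PS V d) (A := PS W (d + r)) (B := R)
        (x (Fin.succ i) ^ j)
    rw [map_pow, h.x_succ, AlgHom.commutes, ← h.mapX]
    rfl

theorem IsWModel.length_sup (h : IsWModel p V W d r R S x) (I : Ideal R)
    (hI : Module.length R (R ⧸ I) ≠ ⊤) (j : ℕ) :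
    Module.length W (TT V W d r R ⧸
      (I.map (Algebra.TensorProduct.includeRight (R := PS V d) (A := PS W (d + r)) (B := R)) ⊔
        powIdeal (fun i => algebraMap (PS W (d + r)) (TT V W d r R)
          (MvPowerSeries.X (Fin.natAdd d i))) j)) = Module.length R (R ⧸ I) * (j ^ r : ℕ) := by
  obtain ⟨_, hm⟩ := h.isLocalRing
  have := h.finite
  have := h.flatA
  rw [h.length_W]
  exact mt_length_tensor h.res _ h.Y_regular
    (show (mT V W d r R).IsMaximal from hm ▸ maximalIdeal.isMaximal _) I hI j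

theorem IsWModel.pow_le_powIdeal (h : IsWModel p V W d r R S x) :
    ∃ C : ℕ, ∀ j, maximalIdeal R ^ ((d + 1) * j + 1 + C) ≤ powIdeal x j := by
  obtain ⟨C, hC⟩ := h.red.2
  exact ⟨C, fun j => (hC _).trans (span_pow_le_powIdeal x j)⟩

theorem IsWModel.length_ne_top (h : IsWModel p V W d r R S x) (j : ℕ) (I : Ideal R)
    (hI : powIdeal x j ≤ I) : Module.length R (R ⧸ I) ≠ ⊤ := by
  have := h.noethR
  obtain ⟨C, hC⟩ := h.pow_le_powIdeal
  exact length_quot_ne_top (M := R) (maximalIdeal R).fg_of_isNoetherianRing _ I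
    (by rw [smul_top_ideal]; exact (hC j).trans hI)

theorem IsWModel.length_zT (h : IsWModel p V W d r R S x) (j : ℕ) :
    Module.length W (TT V W d r R ⧸ powIdeal (zT V W d r x) j) =
      Module.length R (R ⧸ powIdeal x j) * (j ^ r : ℕ) := by
  rw [h.powIdeal_zT]
  exact h.length_sup _ (h.length_ne_top j _ le_rfl) j

theorem IsWModel.length_comap (h : IsWModel p V W d r R S x) (I : Ideal S) :
    Module.length W (TT V W d r R ⧸ I.comap h.toS) = Module.length S (S ⧸ I) := by
  rw [h.length_W]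
  let : Algebra (TT V W d r R) S := h.toS.toAlgebra
  rw [← Module.length_eq_of_surjective (S := TT V W d r R) (R := S) h.toS_surjective]
  let f : TT V W d r R →ₗ[TT V W d r R] S ⧸ I :=
    (IsScalarTower.toAlgHom (TT V W d r R) S (S ⧸ I)).toLinearMap ∘ₗ Algebra.linearMap _ S
  have hf : Function.Surjective f := Ideal.Quotient.mk_surjective.comp h.toS_surjective
  have hk : LinearMap.ker f = I.comap h.toS := by
    ext t
    exact Ideal.Quotient.eq_zero_iff_mem
  rw [← (f.quotKerEquivOfSurjective hf).length_eq, hk]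

/-- a nonzero element of the base cuts down the growth of lengths. -/
theorem IsWModel.small_R (h : IsWModel p V W d r R S x) (G : PS V d) (hG : G ≠ 0) (c : ℕ)
    (ε : ℝ) (hε : 0 < ε) : ∀ᶠ j : ℕ in atTop, ∃ a : ℕ,
      Module.length R (R ⧸ (maximalIdeal R ^ (c * j) ⊔
        Ideal.span {algebraMap (PS V d) R G})) ≤ a ∧ (a : ℝ) ≤ ε * (j : ℝ) ^ (d + 1) := by
  have := h.finite
  have := h.hV.isNoetherianRing
  obtain ⟨γ, hγ⟩ : ∃ γ : ℕ, G ∉ maximalIdeal (PS V d) ^ (γ + 1) := by
    by_contra hc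
    refine hG ?_
    rw [← Ideal.mem_bot, ← Ideal.iInf_pow_eq_bot_of_isLocalRing _
      (maximalIdeal.isMaximal (PS V d)).ne_top, Ideal.mem_iInf]
    intro n
    exact Ideal.pow_le_pow_right (Nat.le_succ n) (not_not.mp (not_exists.mp hc n))
  obtain ⟨a, h1, h2⟩ := gr_small (M := R) (pX p V d) (h.hV.span_pX d) G γ hγ
  have h3 : Tendsto (fun j : ℕ => (c + 1) * j) atTop atTop :=
    tendsto_id.const_mul_atTop' (Nat.succ_pos c)
  filter_upwards [h3.eventually (h2 (ε / ((c : ℝ) + 1) ^ (d + 1)) (by positivity))] with j hj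
  refine ⟨a ((c + 1) * j), le_trans ?_ (h1 _), hj.trans (le_of_eq ?_)⟩
  · have : IsLocalHom (algebraMap (PS V d) R) := by
      apply ((IsLocalRing.local_hom_TFAE _).out 0 2).mpr
      exact Ideal.map_le_iff_le_comap.mpr fun y hy => map_maximalIdeal_le_of_finite _ R hy
    rw [← length_eq_of_res (A := PS V d) (B := R) h.res,
      ← (Submodule.Quotient.restrictScalarsEquiv (PS V d) _).length_eq]
    refine gr_anti ?_
    rw [Ideal.smul_top_eq_map]
    intro y hy
    refine (map_span_sup_powIdeal _ _ _ _ _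
      (Ideal.mem_sup_right (Ideal.mem_span_singleton_self _)) fun i => Ideal.mem_sup_left ?_) hy
    refine Ideal.pow_le_pow_right (by nlinarith) (Ideal.pow_mem_pow ?_ ((c + 1) * j))
    exact map_maximalIdeal_le_of_finite _ R (h.hV.span_pX d ▸ Ideal.subset_span ⟨i, rfl⟩)
  · push_cast
    rw [mul_pow]
    field_simp

theorem IsWModel.small_zT (h : IsWModel p V W d r R S x) (G : PS V d) (hG : G ≠ 0) (ε : ℝ)
    (hε : 0 < ε) : ∀ᶠ j : ℕ in atTop, ∃ c : ℕ,
      Module.length W (TT V W d r R ⧸ (powIdeal (zT V W d r x) j ⊔ Ideal.span {gT V W d r R G})) ≤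
        c ∧ (c : ℝ) ≤ ε * (j : ℝ) ^ (d + r + 1) := by
  obtain ⟨C, hC⟩ := h.pow_le_powIdeal
  filter_upwards [h.small_R G hG (d + 2 + C) ε hε, eventually_ge_atTop 1] with j hj hj1
  obtain ⟨a, h1, h2⟩ := hj
  have h3 : powIdeal (zT V W d r x) j ⊔ Ideal.span {gT V W d r R G} =
      (powIdeal x j ⊔ Ideal.span {algebraMap (PS V d) R G}).map
        (Algebra.TensorProduct.includeRight (R := PS V d) (A := PS W (d + r)) (B := R)) ⊔
        powIdeal (fun i => algebraMap (PS W (d + r)) (TT V W d r R)
          (MvPowerSeries.X (Fin.natAdd d i))) j := by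
    rw [h.powIdeal_zT, Ideal.map_sup, Ideal.map_span _ {_}, Set.image_singleton, AlgHom.commutes,
      sup_right_comm]
    rfl
  refine ⟨a * j ^ r, ?_, ?_⟩
  · rw [h3, h.length_sup _ (h.length_ne_top j _ le_sup_left), Nat.cast_mul]
    refine mul_le_mul_left (le_trans (gr_anti (sup_le_sup_right ?_ _)) h1) _
    exact (Ideal.pow_le_pow_right (by nlinarith)).trans (hC j)
  · push_cast
    rw [show d + r + 1 = d + 1 + r by omega, pow_add, ← mul_assoc]
    exact mul_le_mul_of_nonneg_right h2 (by positivity)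

theorem IsWModel.small_S (h : IsWModel p V W d r R S x) (G : PS V d) (hG : G ≠ 0)
    (w : Fin (d + 1) → S) (L : ℕ) (hL : maximalIdeal S ^ L ≤ Ideal.span (Set.range w)) (ε : ℝ)
    (hε : 0 < ε) : ∀ᶠ m : ℕ in atTop, ∃ c : ℕ,
      Module.length S (S ⧸ (powIdeal w m ⊔ Ideal.span {h.toS (gT V W d r R G)})) ≤ c ∧
        (c : ℝ) ≤ ε * (m : ℝ) ^ (d + 1) := by
  have := h.flat
  have := h.loc
  have := h.noethS
  obtain ⟨L', hL'⟩ := h.prim
  obtain ⟨lam, hlam⟩ := ENat.ne_top_iff_exists.mp
    (length_quot_ne_top (M := S) (maximalIdeal S).fg_of_isNoetherianRing L'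
      ((maximalIdeal R).map (algebraMap R S)) (by rwa [smul_top_ideal]))
  filter_upwards [h.small_R G hG (L * (d + 2)) (ε / (lam + 1)) (by positivity),
    eventually_ge_atTop 1] with m hm hm1
  obtain ⟨a, h1, h2⟩ := hm
  refine ⟨a * lam, ?_, ?_⟩
  · have h3 := length_quot_map_eq (T' := S) (maximalIdeal R ^ (L * (d + 2) * m) ⊔
      Ideal.span {algebraMap (PS V d) R G})
    rw [← hlam] at h3
    rw [Nat.cast_mul]
    refine le_trans (gr_anti ?_) (h3.le.trans (mul_le_mul_left h1 _))
    rw [Ideal.map_sup, Ideal.map_span, Set.image_singleton, ← h.compat, gT, h.toS_algebraMap,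
      Ideal.map_pow]
    refine sup_le_sup_right ?_ _
    have h4 : (maximalIdeal R).map (algebraMap R S) ≤ maximalIdeal S :=
      Ideal.map_le_iff_le_comap.mpr fun y hy => map_nonunit _ y hy
    refine (Ideal.pow_right_mono h4 _).trans ?_
    rw [mul_assoc, pow_mul]
    exact (Ideal.pow_right_mono hL _).trans
      ((Ideal.pow_le_pow_right (by nlinarith)).trans (span_pow_le_powIdeal w m))
  · push_cast
    have h3 : (0 : ℝ) ≤ lam := Nat.cast_nonneg _
    calc _ ≤ ε / (lam + 1) * (m : ℝ) ^ (d + 1) * (lam + 1) :=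
          mul_le_mul h2 (le_add_of_nonneg_right zero_le_one) h3 (by positivity)
      _ = _ := by field_simp

end Vale.Agent.P202
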