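import Vale.Agent.P202.MxAndre
import Vale.Agent.P202.MxWitt2

/-! The untilt of a perfect ring. -/

namespace Vale.Agent.P202

open WittVector Polynomial

universe u

section Defs

variable (p : ℕ) [Fact p.Prime] {E : Type u} [CommRing E]

/-- the separated quotient of the Witt vectors by `p - [t]`. -/
def Om (t : E) : Type u := WittVector p E ⧸ ⨅ ν, JJ p t ν

noncomputable instance (t : E) : CommRing (Om p t) :=
  inferInstanceAs (CommRing (WittVector p E ⧸ ⨅ ν, JJ p t ν))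

/-- the quotient map. -/
noncomputable def Om.mk (t : E) : WittVector p E →+* Om p t := Ideal.Quotient.mk _

/-- functoriality. -/
noncomputable def Om.map {E' : Type u} [CommRing E'] (f : E →+* E') (t : E) :
    Om p t →+* Om p (f t) :=
  Ideal.quotientMap _ (WittVector.map f) (by
    intro x hx
    rw [Ideal.mem_comap, Submodule.mem_iInf]
    intro ν
    rw [← JJ_map]
    exact Ideal.mem_map_of_mem _ ((Submodule.mem_iInf _).1 hx ν))

/-- the multiplicative map from the tilt. -/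
noncomputable def Om.sh (t : E) (x : E) : Om p t := Om.mk p t (teichmuller p x)

end Defs

variable {p : ℕ} [Fact p.Prime] {E : Type u} [CommRing E]

theorem Om.mk_surjective (t : E) : Function.Surjective (Om.mk p t) := Ideal.Quotient.mk_surjective

theorem Om.map_mk {E' : Type u} [CommRing E'] (f : E →+* E') (t : E) (x : WittVector p E) :
    Om.map p f t (Om.mk p t x) = Om.mk p (f t) (WittVector.map f x) := rfl

theorem Om.map_sh {E' : Type u} [CommRing E'] (f : E →+* E') (t x : E) :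
    Om.map p f t (Om.sh p t x) = Om.sh p (f t) (f x) := by
  rw [Om.sh, Om.map_mk, map_teichmuller, Om.sh]

theorem Om.sh_mul (t x y : E) : Om.sh p t (x * y) = Om.sh p t x * Om.sh p t y := by
  rw [Om.sh, map_mul, map_mul, Om.sh, Om.sh]

theorem Om.sh_pow (t x : E) (n : ℕ) : Om.sh p t (x ^ n) = Om.sh p t x ^ n := by
  rw [Om.sh, map_pow, map_pow, Om.sh]

theorem Om.aux_mk_eq_zero (t : E) (x : WittVector p E) :
    Om.mk p t x = 0 ↔ ∀ ν, x ∈ JJ p t ν :=
  Ideal.Quotient.eq_zero_iff_mem.trans (Submodule.mem_iInf _)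

theorem Om.aux_mk_xi (t : E) : Om.mk p t (xi p t) = 0 :=
  (Om.aux_mk_eq_zero t _).2 fun _ => Ideal.subset_span (Set.mem_insert _ _)

theorem Om.aux_ker_le (t : E) (ν : ℕ) : RingHom.ker (Om.mk p t) ≤ JJ p t ν :=
  fun x hx => (Om.aux_mk_eq_zero t x).1 hx ν

theorem Om.aux_map_JJ (t : E) (ν : ℕ) :
    (JJ p t ν).map (Om.mk p t) = Ideal.span {(p : Om p t) ^ ν} := by
  rw [JJ, Ideal.map_span, Set.image_pair, Om.aux_mk_xi, map_pow, map_natCast, Ideal.span_insert,
    Ideal.span_singleton_zero, bot_sup_eq]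

theorem Om.sh_t (t : E) : Om.sh p t t = (p : Om p t) := by
  have := Om.aux_mk_xi (p := p) t
  rw [xi, map_sub, map_natCast, sub_eq_zero] at this
  exact this.symm

theorem Om.mk_mem_iff (t : E) (I : Ideal (WittVector p E)) (ν : ℕ) (x : WittVector p E) :
    Om.mk p t x ∈ I.map (Om.mk p t) ⊔ Ideal.span {(p : Om p t) ^ ν} ↔ x ∈ I ⊔ JJ p t ν := by
  rw [← Om.aux_map_JJ, ← Ideal.map_sup, ← Ideal.mem_comap,
    Ideal.comap_map_of_surjective _ (Om.mk_surjective t), ← RingHom.ker_eq_comap_bot,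
    sup_eq_left.2 ((Om.aux_ker_le t ν).trans le_sup_right)]

theorem Om.aux_mem_span (t : E) (ν : ℕ) (x : WittVector p E) :
    Om.mk p t x ∈ Ideal.span {(p : Om p t) ^ ν} ↔ x ∈ JJ p t ν := by
  have := Om.mk_mem_iff t ⊥ ν x
  rwa [Ideal.map_bot, bot_sup_eq, bot_sup_eq] at this

theorem Om.aux_mem_pair (t : E) (ν : ℕ) (a x : WittVector p E) :
    Om.mk p t x ∈ Ideal.span {Om.mk p t a, (p : Om p t) ^ ν} ↔
      x ∈ Ideal.span {a} ⊔ JJ p t ν := by
  rw [← Om.mk_mem_iff, Ideal.map_span, Set.image_singleton, Ideal.span_insert]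

theorem Om.aux_map_comp {E' E'' : Type u} [CommRing E'] [CommRing E''] (f : E →+* E')
    (g : E' →+* E'') (t : E) :
    Om.map p (g.comp f) t = (Om.map p g (f t)).comp (Om.map p f t) :=
  RingHom.ext fun x => by
    obtain ⟨y, rfl⟩ := Om.mk_surjective t x
    rfl

variable [CharP E p] [PerfectRing E p]

theorem Om.p_reg {t : E} (ht : ∀ x, t * x = 0 → x = 0) (x : Om p t) (h : (p : Om p t) * x = 0) :
    x = 0 := by
  obtain ⟨y, rfl⟩ := Om.mk_surjective t x
  rw [← map_natCast (Om.mk p t), ← map_mul, Om.aux_mk_eq_zero] at h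
  exact (Om.aux_mk_eq_zero t y).2 fun ν => mem_JJ_of_p_mul ht ν y (h _)

theorem Om.complete (t : E) : IsAdicComplete (Ideal.span {(p : Om p t)}) (Om p t) := by
  have h1 : IsHausdorff (Ideal.span {(p : Om p t)}) (Om p t) := ⟨fun x hx => by
    obtain ⟨y, rfl⟩ := Om.mk_surjective t x
    simp only [smul_eq_mul, Ideal.mul_top, Ideal.span_singleton_pow, SModEq.zero] at hx
    exact (Om.aux_mk_eq_zero t y).2 fun ν => (Om.aux_mem_span t ν y).1 (hx ν)⟩
  have h2 : IsPrecomplete (Ideal.span {(p : Om p t)}) (Om p t) := ⟨fun f hf => by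
    simp only [smul_eq_mul, Ideal.mul_top, Ideal.span_singleton_pow, SModEq.sub_mem,
      Ideal.mem_span_singleton'] at hf ⊢
    choose c hc using fun n => hf (Nat.le_succ n)
    choose d hd using fun n => Om.mk_surjective t (c n)
    obtain ⟨y, hy⟩ := Om.mk_surjective t (f 0)
    let g : ℕ → WittVector p E := fun n => y - ∑ i ∈ Finset.range n, d i * p ^ i
    have hg : ∀ n, Om.mk p t (g n) = f n := fun n => by
      induction n with
      | zero => simpa [g] using hy
      | succ n ih =>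
        simp only [g] at ih ⊢
        rw [Finset.sum_range_succ, ← sub_sub, map_sub, ih, map_mul, hd, map_pow, map_natCast, hc,
          sub_sub_cancel]
    obtain ⟨z, hz⟩ := IsPrecomplete.prec (I := Ideal.span {(p : WittVector p E)})
      inferInstance (f := g) fun {m n} hmn => by
        simp only [smul_eq_mul, Ideal.mul_top, Ideal.span_singleton_pow, SModEq.sub_mem, g]
        rw [sub_sub_sub_cancel_left, Finset.sum_range_sub_sum_range hmn]
        refine Ideal.sum_mem _ fun i hi => Ideal.mul_mem_left _ _ (Ideal.mem_span_singleton.2 ?_)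
        exact pow_dvd_pow _ (Finset.mem_filter.1 hi).2
    simp only [smul_eq_mul, Ideal.mul_top, Ideal.span_singleton_pow, SModEq.sub_mem,
      Ideal.mem_span_singleton'] at hz
    refine ⟨Om.mk p t z, fun n => ?_⟩
    obtain ⟨a, ha⟩ := hz n
    exact ⟨Om.mk p t a, by rw [← hg, ← map_sub, ← ha, map_mul, map_pow, map_natCast]⟩⟩
  exact {}

/-- reduction modulo `p`. -/
theorem Om.exists_red (t : E) : ∃ φ : E →+* Om p t ⧸ Ideal.span {(p : Om p t)},
    Function.Surjective φ ∧ RingHom.ker φ = Ideal.span {t} ∧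
    ∀ x : WittVector p E, φ (x.coeff 0) = Ideal.Quotient.mk _ (Om.mk p t x) := by
  have h0 : ∀ x : WittVector p E, Ideal.Quotient.mk (Ideal.span {(p : Om p t)}) (Om.mk p t x) = 0 ↔
      x.coeff 0 ∈ Ideal.span {t} := fun x => by
    rw [Ideal.Quotient.eq_zero_iff_mem, ← mem_JJ_one, ← Om.aux_mem_span, pow_one]
  have hs := WittVector.constantCoeff_surjective p (R := E)
  let φ := RingHom.liftOfSurjective _ hs
    ⟨(Ideal.Quotient.mk (Ideal.span {(p : Om p t)})).comp (Om.mk p t), fun x hx => (h0 x).2 (by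
      rw [show x.coeff 0 = 0 from hx]; exact zero_mem _)⟩
  have hφ : ∀ x : WittVector p E, φ (x.coeff 0) = Ideal.Quotient.mk _ (Om.mk p t x) := fun x =>
    RingHom.liftOfRightInverse_comp_apply _ _ _ _ x
  refine ⟨φ, fun y => ?_, Ideal.ext fun e => ?_, hφ⟩
  · obtain ⟨z, rfl⟩ := Ideal.Quotient.mk_surjective y
    obtain ⟨x, rfl⟩ := Om.mk_surjective t z
    exact ⟨_, hφ x⟩
  · obtain ⟨x, rfl⟩ := hs e
    exact (congrArg (· = 0) (hφ x)).to_iff.trans (h0 x)

theorem Om.aux_nontrivial {t : E} (hu : ¬ IsUnit t) : Nontrivial (Om p t) := by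
  by_contra h
  rw [not_nontrivial_iff_subsingleton] at h
  have h1 := (Om.aux_mk_eq_zero (p := p) t 1).1 (Subsingleton.elim _ _) 1
  rw [mem_JJ_one, WittVector.one_coeff_zero, ← Ideal.eq_top_iff_one,
    Ideal.span_singleton_eq_top] at h1
  exact hu h1

theorem Om.qflat {E' : Type u} [CommRing E'] [CharP E' p] [PerfectRing E' p] (f : E →+* E')
    {t : E} (ht : ∀ x, t * x = 0 → x = 0) (hf : QFlat f (Ideal.span {t})) (ν : ℕ) :
    QFlat (Om.map p f t) (Ideal.span {(p : Om p t) ^ ν}) := by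
  rw [← Om.aux_map_JJ]
  refine (qflat_iff_of_surjective _ _ _ _ (Om.mk_surjective t) (Om.mk_surjective (f t)) rfl _
    (Om.aux_ker_le t ν) ?_).1 (qflat_witt f t ht hf ν)
  rw [JJ_map]
  exact Om.aux_ker_le _ ν

theorem Om.aux_root {t : E} (ht : ∀ x, t * x = 0 → x = 0) (hu : ¬ IsUnit t)
    (P : (Om p t)[X]) (hP : P.Monic) (hd : 0 < P.natDegree) :
    ∃ (E' : Type u) (_ : CommRing E') (_ : CharP E' p) (_ : PerfectRing E' p) (f : E →+* E')
      (τ : E'), QFlat f (Ideal.span {t}) ∧ (P.map (Om.map p f t)).IsRoot (Om.sh p (f t) τ) := by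
  obtain ⟨Q, rfl, h2, h3⟩ := lifts_and_natDegree_eq_and_monic
    ((mem_lifts _).2 (Polynomial.map_surjective _ (Om.mk_surjective t) P)) hP
  obtain ⟨E', i1, i2, i3, f, τ, h4, h5⟩ := exists_andre E t ht hu Q h3 (h2 ▸ hd)
  refine ⟨E', i1, i2, i3, f, τ, h4, ?_⟩
  obtain ⟨a, ha⟩ := Ideal.mem_span_singleton'.1 h5
  have h6 := congrArg (Om.mk p (f t)) ha
  rw [map_mul, Om.aux_mk_xi, mul_zero, eval_map, hom_eval₂] at h6
  rw [IsRoot, Polynomial.map_map, eval_map]
  exact h6.symm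

theorem Om.aux_sh {t : E} (ht : ∀ x, t * x = 0 → x = 0) (hu : ¬ IsUnit t) (x : Om p t) :
    ∃ (E' : Type u) (_ : CommRing E') (_ : CharP E' p) (_ : PerfectRing E' p) (f : E →+* E')
      (τ : E'), QFlat f (Ideal.span {t}) ∧ Om.map p f t x = Om.sh p (f t) τ := by
  have := Om.aux_nontrivial (p := p) hu
  obtain ⟨E', i1, i2, i3, f, τ, h4, h5⟩ := Om.aux_root ht hu (X - C x) (monic_X_sub_C x)
    (by rw [natDegree_X_sub_C]; exact one_pos)
  refine ⟨E', i1, i2, i3, f, τ, h4, ?_⟩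
  rw [Polynomial.map_sub, map_X, map_C, root_X_sub_C] at h5
  exact h5

theorem Om.aux_map_rt {E' : Type u} [CommRing E'] [CharP E' p] [PerfectRing E' p] (f : E →+* E')
    (m : ℕ) (x : E) : f (rt p m x) = rt p m (f x) := by
  apply (iterateFrobeniusEquiv E' p m).injective
  rw [iterateFrobeniusEquiv_def, iterateFrobeniusEquiv_def, ← map_pow, rt_pow, rt_pow]

/-- the extension theorem. -/
theorem Om.hb {t : E} (ht : ∀ x, t * x = 0 → x = 0) (hu : ¬ IsUnit t) (γ : E) (x : Om p t)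
    (h : ∀ n : ℕ, Om.sh p t γ ^ n ∣ Om.sh p t γ * x ^ n) (m ν : ℕ) :
    Om.sh p t (rt p m γ) * x ∈ Ideal.span {Om.sh p t γ, (p : Om p t) ^ ν} := by
  obtain ⟨E', _, _, _, f, τ, h4, h5⟩ := Om.aux_sh ht hu x
  have h6 := hb_teich (p := p) (f t) (f γ) τ (fun n μ => by
    obtain ⟨c, hc⟩ := map_dvd (Om.map p f t) (h n)
    rw [map_mul, map_pow, map_pow, Om.map_sh, h5, ← Om.sh_pow (f t) τ, ← Om.sh_mul] at hc
    rw [← Om.aux_mem_pair, map_pow]
    rw [← Om.sh, ← Om.sh, hc]
    exact Ideal.mul_mem_right _ _ (Ideal.subset_span (Set.mem_insert _ _))) m ν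
  rw [← Om.aux_mem_pair] at h6
  rw [← (Om.qflat f ht h4 ν).comap_map (I' := Ideal.span {Om.sh p t γ, (p : Om p t) ^ ν})
    (Ideal.span_mono (Set.subset_insert _ _)), Ideal.mem_comap, Ideal.map_span, Set.image_pair,
    map_mul, map_pow, map_natCast, Om.map_sh, Om.map_sh, h5, Om.aux_map_rt, ← Om.sh_mul]
  exact h6

theorem Om.sr (t γ₁ γ₂ : E) (h : Om.sh p t γ₁ = Om.sh p t γ₂) (m ν : ℕ) :
    Om.sh p t (rt p m γ₁) ∈ Ideal.span {Om.sh p t (rt p (m + 2) γ₂), (p : Om p t) ^ ν} := by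
  refine (Om.aux_mem_pair t ν _ _).2 (sr_teich t γ₁ γ₂ (fun μ => ?_) m ν)
  rw [← Om.aux_mem_pair]
  exact Ideal.subset_span (Or.inl h)

theorem Om.aux_split (n : ℕ) : ∀ (E : Type u) [CommRing E] [CharP E p] [PerfectRing E p] (t : E),
    (∀ x, t * x = 0 → x = 0) → ¬ IsUnit t → ∀ P : (Om p t)[X], P.Monic → P.natDegree = n →
    ∀ G : Om p t, ∃ (E' : Type u) (_ : CommRing E') (_ : CharP E' p) (_ : PerfectRing E' p)
      (f : E →+* E') (θ : Fin n → Om p (f t)) (γ : E'), QFlat f (Ideal.span {t}) ∧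
      P.map (Om.map p f t) = ∏ i, (X - C (θ i)) ∧ Om.map p f t G = Om.sh p (f t) γ := by
  induction n with
  | zero =>
    intro E _ _ _ t ht hu P hP hn G
    obtain ⟨E', i1, i2, i3, f, τ, h4, h5⟩ := Om.aux_sh ht hu G
    exact ⟨E', i1, i2, i3, f, Fin.elim0, τ, h4, by simp [hP.natDegree_eq_zero.1 hn], h5⟩
  | succ n ih =>
    intro E _ _ _ t ht hu P hP hn G
    obtain ⟨E', _, _, _, f, τ, h4, h5⟩ := Om.aux_root ht hu P hP (by omega)
    have hu' : ¬ IsUnit (f t) := fun h => hu (by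
      have h3 := h4.comap_map le_rfl
      rw [Ideal.map_span, Set.image_singleton, Ideal.span_singleton_eq_top.2 h,
        Ideal.comap_top] at h3
      exact Ideal.span_singleton_eq_top.1 h3.symm)
    have := Om.aux_nontrivial (p := p) hu'
    have h6 := mul_divByMonic_eq_iff_isRoot.2 h5
    have h7 := (monic_X_sub_C _).of_mul_monic_left (h6.symm ▸ hP.map (Om.map p f t))
    have h8 := (monic_X_sub_C (Om.sh p (f t) τ)).natDegree_mul h7
    rw [h6, hP.natDegree_map, natDegree_X_sub_C] at h8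
    obtain ⟨E'', j1, j2, j3, g, θ, γ, k1, k2, k3⟩ := ih E' (f t) (h4.reg_of_perfect p ht) hu' _ h7
      (by omega) (Om.map p f t G)
    refine ⟨E'', j1, j2, j3, g.comp f, Fin.cons (Om.map p g (f t) (Om.sh p (f t) τ)) θ, γ,
      h4.comp (by rwa [Ideal.map_span, Set.image_singleton]), ?_, ?_⟩
    · have h9 := congrArg (Polynomial.map (Om.map p g (f t))) h6
      rw [Polynomial.map_mul, k2, Polynomial.map_map, Polynomial.map_sub, map_X, map_C] at h9
      rw [Om.aux_map_comp, Fin.prod_univ_succ]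
      exact h9.symm
    · rw [Om.aux_map_comp]
      exact k3

/-- a cover that splits a polynomial and contains roots of a given element. -/
theorem Om.exists_split {t : E} (ht : ∀ x, t * x = 0 → x = 0) (hu : ¬ IsUnit t)
    (P : (Om p t)[X]) (hP : P.Monic) (G : Om p t) :
    ∃ (E' : Type u) (_ : CommRing E') (_ : CharP E' p) (_ : PerfectRing E' p) (f : E →+* E')
      (θ : Fin P.natDegree → Om p (f t)) (γ : E'), QFlat f (Ideal.span {t}) ∧
      P.map (Om.map p f t) = ∏ i, (X - C (θ i)) ∧ Om.map p f t G = Om.sh p (f t) γ := by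
  exact Om.aux_split _ E t ht hu P hP rfl G

end Vale.Agent.P202
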