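import Vale.Agent.P202.MxPS
import Vale.Agent.P202.MxFlat2

/-! Flat maps between power series rings over `p`-rings. -/

namespace Vale.Agent.P202

open IsLocalRing

theorem mxtheta_flat (p : ℕ) {V W : Type*} [CommRing V] [IsLocalRing V] [CommRing W]
    [IsLocalRing W] (hV : IsPRing p V) (hW : IsPRing p W) (d r : ℕ) (j : V →+* PS W r) :
    (MvPowerSeries.map (σ := Fin d) j).Flat := by
  have := hV.isNoetherianRing
  have := hW.isNoetherianRing
  let π := MvPowerSeries.map (σ := Fin r) (residue W)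
  have hπ : ∀ v, π v = 0 ↔ (p : PS W r) ∣ v := fun v => by
    rw [← RingHom.mem_ker, hW.mxps_ker, Ideal.mem_span_singleton]
  let j₁ : ResidueField V →+* PS (ResidueField W) r :=
    Ideal.Quotient.lift _ (π.comp j) fun a ha => by
      obtain ⟨c, rfl⟩ := Ideal.mem_span_singleton.1 (hV.max ▸ ha)
      exact (hπ _).2 ⟨j c, by rw [map_mul, map_natCast]⟩
  have h1 : (MvPowerSeries.map (σ := Fin d) j₁).FaithfullyFlat := by
    let := (MvPowerSeries.map (σ := Fin d) j₁).toAlgebra
    have : Module.Flat (PS (ResidueField V) d) (PS (PS (ResidueField W) r) d) := fc_flat_map _ _ d j₁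
    have : IsLocalHom (algebraMap (PS (ResidueField V) d) (PS (PS (ResidueField W) r) d)) :=
      MvPowerSeries.map.isLocalHom j₁
    exact Module.FaithfullyFlat.of_flat_of_isLocalHom
  have h2 : (Ideal.span {(p : PS V d)}).map (MvPowerSeries.map j) =
      Ideal.span {MvPowerSeries.C (p : PS W r)} := by
    rw [Ideal.map_span, Set.image_singleton, map_natCast, map_natCast]
  have h3 : QFlat (MvPowerSeries.map (σ := Fin d) j) (Ideal.span {(p : PS V d)}) := by
    refine (qflat_iff_of_surjective _ (MvPowerSeries.map j₁) (MvPowerSeries.map (residue V))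
      (MvPowerSeries.map π) (ps_map_surjective _ residue_surjective d)
      (ps_map_surjective _ (ps_map_surjective _ residue_surjective r) d) ?_ _ (hV.mxps_ker d).le
      fun f hf => ?_).2 (QFlat.of_faithfullyFlat h1 _)
    · rw [← MvPowerSeries.map_comp, ← MvPowerSeries.map_comp]
      rfl
    · rw [h2, Ideal.mem_span_singleton]
      exact (ker_ps_map π _ hπ d f).1 hf
  refine flat_of_qflat_pow _ (Ideal.span {(p : PS V d)}) ?_ fun n => ?_
  · rw [h2, Ideal.span_singleton_le_iff_mem, mxps_mem_max, MvPowerSeries.constantCoeff_C,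
      ← hW.span_pX]
    exact Ideal.subset_span ⟨0, rfl⟩
  · have h4 := QFlat.pow (f := MvPowerSeries.map (σ := Fin d) j) ⊥ p (hV.ps_p_reg d)
      (fun y hy => ?_) (by rwa [bot_sup_eq]) n
    · rwa [bot_sup_eq, ← Ideal.span_singleton_pow] at h4
    · rw [Ideal.map_bot, Ideal.mem_bot] at hy ⊢
      exact mxps_C_reg (hW.ps_p_reg r) y (by rwa [map_natCast] at hy ⊢)

theorem exists_theta_mixed (p : ℕ) {V W : Type*} [CommRing V] [IsLocalRing V] [CommRing W]
    [IsLocalRing W] (hV : IsPRing p V) (hW : IsPRing p W) (d r : ℕ) (j : V →+* PS W r) :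
    ∃ (θ : PS V d →+* PS W (d + r)) (τ : PS W r →ₐ[W] PS W (d + r)), θ.Flat ∧
      (∀ i, θ (MvPowerSeries.X i) = MvPowerSeries.X (Fin.castAdd r i)) ∧
      (∀ i, τ (MvPowerSeries.X i) = MvPowerSeries.X (Fin.natAdd d i)) ∧
      ∀ a, θ (MvPowerSeries.C a) = τ (j a) := by
  let Φ : PS (PS W r) d →+* PS W (d + r) := fcFlatHom (fcSplit d r)
  have hΦ : ∀ a b x, Φ (MvPowerSeries.monomial a (MvPowerSeries.monomial b x)) =
      MvPowerSeries.monomial ((fcSplit d r).symm (a, b)) x := fc_flat_monomial _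
  let τ : PS W r →ₐ[W] PS W (d + r) :=
    { Φ.comp MvPowerSeries.C with
      commutes' := fun a => by
        have := hΦ 0 0 a
        rwa [Prod.mk_zero_zero, map_zero] at this }
  refine ⟨Φ.comp (MvPowerSeries.map j), τ, RingHom.Flat.comp (mxtheta_flat p hV hW d r j)
    (RingHom.Flat.of_bijective (fc_flatHom_bijective _)), fun i => ?_, fun i => ?_, fun a => ?_⟩
  · rw [RingHom.comp_apply, MvPowerSeries.map_X]
    have := hΦ (Finsupp.single i 1) 0 1
    rwa [fc_split_left] at this
  · have := hΦ 0 (Finsupp.single i 1) 1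
    rwa [fc_split_right] at this
  · rw [RingHom.comp_apply, MvPowerSeries.map_C]
    rfl

end Vale.Agent.P202
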