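import Vale.Agent.P202.MxWitt

/-! The tilt of a normal domain in which every element has a `p`-th root. -/

namespace Vale.Agent.P202

open WittVector

universe u

namespace MxT

variable {p : ℕ} [Fact p.Prime] {O : Type u} [CommRing O] [Fact (¬ IsUnit (p : O))]

omit [Fact p.Prime] [Fact (¬ IsUnit (p : O))] in
theorem pow_le (ν : ℕ) : Ideal.span {(p : O)} ^ (ν + 1) ≤ Ideal.span {(p : O) ^ ν} := by
  rw [Ideal.span_singleton_pow, Ideal.span_singleton_le_span_singleton]
  exact pow_dvd_pow _ (Nat.le_succ ν)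

omit [Fact p.Prime] [Fact (¬ IsUnit (p : O))] in
theorem span_le {m n : ℕ} (h : m ≤ n) :
    Ideal.span {(p : O) ^ n} ≤ Ideal.span {(p : O) ^ m} :=
  Ideal.span_singleton_le_span_singleton.2 (pow_dvd_pow _ h)

variable (p O) in
/-- the map `θ` modulo `p ^ ν`. -/
noncomputable def th (ν : ℕ) :
    WittVector p (Perfection (ModP O p) p) →+* O ⧸ Ideal.span {(p : O) ^ ν} :=
  (Ideal.Quotient.factor (pow_le ν)).comp
    ((ghostComponentModPPow ν).comp (WittVector.map (Perfection.coeff (ModP O p) p ν)))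

theorem th_teich (ν : ℕ) (e : Perfection (ModP O p) p) (a : O)
    (ha : Ideal.Quotient.mk _ a = Perfection.coeff (ModP O p) p ν e) :
    th p O ν (teichmuller p e) = Ideal.Quotient.mk _ (a ^ p ^ ν) := by
  simp only [th, RingHom.comp_apply, map_teichmuller, ← ha]
  rw [← map_teichmuller, ghostComponentModPPow_map_mk, ghostComponent_teichmuller]
  rfl

theorem coeff_pow (e : Perfection (ModP O p) p) (m k : ℕ) :
    Perfection.coeff (ModP O p) p (m + k) e ^ p ^ k = Perfection.coeff (ModP O p) p m e := by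
  induction k with
  | zero => simp
  | succ k ih => rw [pow_succ', pow_mul, ← add_assoc, Perfection.coeff_pow_p', ih]

omit [Fact p.Prime] [Fact (¬ IsUnit (p : O))] in
theorem nil (ν : ℕ) : IsNilpotent ((p : ℕ) : O ⧸ Ideal.span {(p : O) ^ ν}) :=
  ⟨ν, by
    rw [← map_natCast (Ideal.Quotient.mk _), ← map_pow, Ideal.Quotient.eq_zero_iff_mem]
    exact Ideal.mem_span_singleton_self _⟩

theorem th_compat {m n : ℕ} (h : m ≤ n) (x : WittVector p (Perfection (ModP O p) p)) :
    Ideal.Quotient.factor (span_le h) (th p O n x) = th p O m x := by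
  obtain ⟨k, rfl⟩ := Nat.exists_eq_add_of_le h
  refine RingHom.congr_fun (eq_of_apply_teichmuller_eq
    ((Ideal.Quotient.factor (span_le h)).comp (th p O (m + k))) (th p O m) (nil m) fun e => ?_) x
  obtain ⟨a, ha⟩ := Ideal.Quotient.mk_surjective (Perfection.coeff (ModP O p) p (m + k) e)
  rw [RingHom.comp_apply, th_teich _ e a ha, th_teich m e (a ^ p ^ k) (by rw [map_pow, ha, coeff_pow]),
    Ideal.Quotient.factor_mk, ← pow_mul, ← pow_add, add_comm k]

theorem th_one (x : WittVector p (Perfection (ModP O p) p)) (h : th p O 1 x = 0) :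
    Perfection.coeff (ModP O p) p 0 (x.coeff 0) = 0 := by
  have hle : Ideal.span {(p : O) ^ 1} ≤ Ideal.span {(p : O)} := by rw [pow_one]
  have := RingHom.congr_fun (eq_of_apply_teichmuller_eq
    ((Ideal.Quotient.factor hle).comp (th p O 1))
    ((Perfection.coeff (ModP O p) p 0).comp constantCoeff)
    ⟨1, by rw [pow_one]; exact CharP.cast_eq_zero (ModP O p) p⟩ fun e => by
      obtain ⟨a, ha⟩ := Ideal.Quotient.mk_surjective (Perfection.coeff (ModP O p) p 1 e)
      rw [RingHom.comp_apply, th_teich _ e a ha, Ideal.Quotient.factor_mk, map_pow, ha, pow_one,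
        Perfection.coeff_pow_p']
      simp) x
  rw [RingHom.comp_apply, h, map_zero] at this
  exact this.symm

end MxT

open MxT in
theorem exists_tilt (p : ℕ) [Fact p.Prime] (O : Type u) [CommRing O] [IsDomain O]
    (hp0 : (p : O) ≠ 0) (hp : ¬ IsUnit (p : O)) (hroot : ∀ x : O, ∃ y : O, y ^ p = x)
    (hnorm : ∀ (x y : O) (n : ℕ), n ≠ 0 → y ^ n ∣ x ^ n → y ∣ x) :
    ∃ (E : Type u) (_ : CommRing E) (_ : CharP E p) (_ : PerfectRing E p) (t : E) (fl : O → E)
      (θ : ∀ ν : ℕ, WittVector p E →+* O ⧸ Ideal.span {(p : O) ^ ν}),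
      (∀ ν, Function.Surjective (θ ν)) ∧ (∀ ν, RingHom.ker (θ ν) = JJ p t ν) ∧
      ∀ ν x, θ ν (teichmuller p (fl x)) = Ideal.Quotient.mk _ x := by
  have : Fact (¬ IsUnit (p : O)) := ⟨hp⟩
  have pp : p.Prime := Fact.out
  choose r hr using hroot
  have hr1 : ∀ n x, r^[n + 1] x ^ p = r^[n] x := fun n x => by
    rw [Function.iterate_succ_apply', hr]
  have hrn : ∀ n x, r^[n] x ^ p ^ n = x := by
    intro n x
    induction n with
    | zero => simp
    | succ n ih => rw [pow_succ', pow_mul, hr1, ih]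
  let fl : O → Perfection (ModP O p) p := fun x =>
    ⟨fun n => Ideal.Quotient.mk _ (r^[n] x), fun n => by rw [← map_pow, hr1]⟩
  have hfl : ∀ ν x, th p O ν (teichmuller p (fl x)) = Ideal.Quotient.mk _ x := fun ν x => by
    rw [th_teich ν (fl x) (r^[ν] x) rfl, hrn]
  have hker : ∀ e : Perfection (ModP O p) p, Perfection.coeff (ModP O p) p 0 e = 0 →
      e ∈ Ideal.span {fl p} := by
    intro e he
    choose y hy using fun n => Ideal.Quotient.mk_surjective (Perfection.coeff (ModP O p) p n e)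
    have hd : ∀ n, r^[n] (p : O) ∣ y n := fun n => by
      refine hnorm _ _ (p ^ n) (pow_ne_zero n pp.ne_zero) ?_
      rw [hrn, ← Ideal.mem_span_singleton, ← Ideal.Quotient.eq_zero_iff_mem, map_pow, hy,
        ← he, ← coeff_pow e 0 n, zero_add]
    choose z hz using hd
    have hc : ∀ n, (Ideal.Quotient.mk (Ideal.span {(p : O)}) (z (n + 1 + 1) ^ p)) ^ p =
        Ideal.Quotient.mk _ (z (n + 1) ^ p) := by
      intro n
      have h1 : (p : O) ∣ y (n + 1 + 1) ^ p - y (n + 1) := by
        rw [← Ideal.mem_span_singleton, ← Ideal.Quotient.eq, map_pow, hy, hy,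
          Perfection.coeff_pow_p']
      obtain ⟨w, hw⟩ := h1
      obtain ⟨k, hk⟩ : ∃ k, p ^ (n + 1) = k + 1 :=
        Nat.exists_eq_succ_of_ne_zero (pow_ne_zero _ pp.ne_zero)
      have h0 : r^[n + 1] (p : O) ≠ 0 := fun h0 => hp0 (by
        rw [← hrn (n + 1) (p : O), h0, zero_pow (pow_ne_zero _ pp.ne_zero)])
      have h2 : z (n + 1 + 1) ^ p = z (n + 1) + r^[n + 1] (p : O) ^ k * w := by
        refine mul_left_cancel₀ h0 ?_
        rw [hz, hz, mul_pow, hr1] at hw
        rw [mul_add, ← mul_assoc, ← pow_succ', ← hk, hrn, ← hw]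
        ring
      have h3 : (p : O) ∣ (r^[n + 1] (p : O) ^ k * w) ^ p := by
        rw [mul_pow, ← pow_mul]
        refine Dvd.dvd.mul_right ?_ _
        conv_lhs => rw [← hrn (n + 1) (p : O)]
        refine pow_dvd_pow _ ?_
        have h4 : 2 ≤ p ^ (n + 1) := pp.two_le.trans (Nat.le_self_pow (Nat.succ_ne_zero n) p)
        have h5 := Nat.mul_le_mul_left k pp.two_le
        omega
      rw [h2, map_add, add_pow_char, ← map_pow, ← map_pow,
        Ideal.Quotient.eq_zero_iff_mem.2 (Ideal.mem_span_singleton.2 h3), add_zero]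
    let w : Perfection (ModP O p) p := ⟨fun n => Ideal.Quotient.mk _ (z (n + 1) ^ p), hc⟩
    refine Ideal.mem_span_singleton'.2 ⟨w, Perfection.ext fun n => ?_⟩
    rw [map_mul, ← Perfection.coeff_pow_p' e, ← hy, hz, ← map_pow, mul_pow, hr1, map_mul, mul_comm]
    rfl
  refine ⟨Perfection (ModP O p) p, inferInstance, inferInstance, inferInstance, fl p, fl, th p O,
    fun ν x => ?_, fun ν => le_antisymm ?_ ?_, hfl⟩
  · obtain ⟨a, rfl⟩ := Ideal.Quotient.mk_surjective x
    exact ⟨_, hfl ν a⟩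
  · induction ν with
    | zero =>
      intro x _
      exact Ideal.mem_span_pair.2 ⟨0, x, by simp⟩
    | succ ν ih =>
      intro x hx
      rw [RingHom.mem_ker] at hx
      have h1 : x ∈ JJ p (fl p) 1 := (mem_JJ_one _ _).2 (hker _ (th_one x (by
        rw [← th_compat (Nat.succ_le_succ ν.zero_le), hx, map_zero])))
      obtain ⟨a, b, rfl⟩ := Ideal.mem_span_pair.1 h1
      obtain ⟨c, hc⟩ := Ideal.Quotient.mk_surjective (th p O (ν + 1) b)
      rw [map_add, map_mul, map_mul, xi, map_sub, hfl, map_natCast, map_natCast, sub_self, mul_zero,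
        zero_add, pow_one, ← hc, map_natCast, ← map_natCast (Ideal.Quotient.mk _), ← map_mul,
        Ideal.Quotient.eq_zero_iff_mem, Ideal.mem_span_singleton, pow_succ,
        mul_dvd_mul_iff_right hp0] at hx
      have h2 : b ∈ JJ p (fl p) ν := ih (by
        rw [RingHom.mem_ker, ← th_compat (Nat.le_succ ν), ← hc, Ideal.Quotient.factor_mk,
          Ideal.Quotient.eq_zero_iff_mem, Ideal.mem_span_singleton]
        exact hx)
      obtain ⟨a', b', rfl⟩ := Ideal.mem_span_pair.1 h2
      exact Ideal.mem_span_pair.2 ⟨a + a' * p, b', by ring⟩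
  · rw [JJ, Ideal.span_le]
    rintro _ (rfl | rfl)
    · rw [SetLike.mem_coe, RingHom.mem_ker, xi, map_sub, hfl, map_natCast, map_natCast, sub_self]
    · rw [SetLike.mem_coe, RingHom.mem_ker, map_pow, map_natCast,
        ← map_natCast (Ideal.Quotient.mk _), ← map_pow, Ideal.Quotient.eq_zero_iff_mem]
      exact Ideal.mem_span_singleton_self _

end Vale.Agent.P202
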