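import Vale.Agent.P202.MxFinal

/-! Independence of universes. -/

namespace Vale.Agent.P202

open IsLocalRing Filter Topology

universe u v

theorem hsSeq_eq_of_ringEquiv {A B : Type*} [CommRing A] [IsLocalRing A] [IsNoetherianRing A]
    [CommRing B] [IsLocalRing B] [IsNoetherianRing B] (e : A ≃+* B) : hsSeq B = hsSeq A := by
  letI : Algebra A B := e.toRingHom.toAlgebra
  haveI : IsLocalHom (algebraMap A B) := ⟨fun a h => (isUnit_map_iff e a).1 h⟩
  haveI : Module.Flat A B := RingHom.Flat.of_bijective (f := e.toRingHom) e.bijective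
  exact (hsSeq_eq_of_flat (map_maximalIdeal_of_surjective _ e.surjective)).2

theorem mult_le_of_ringHom {R S : Type u} [CommRing R] [IsLocalRing R] [IsNoetherianRing R]
    [CommRing S] [IsLocalRing S] [IsNoetherianRing S] (f : R →+* S) (hf : f.Flat)
    (hl : IsLocalHom f) : mult R ≤ mult S := by
  letI : Algebra R S := f.toAlgebra
  haveI : IsLocalHom (algebraMap R S) := hl
  haveI : Module.Flat R S := hf
  exact mult_le_general R S

theorem lech_general (R : Type u) (S : Type v) [CommRing R] [IsLocalRing R] [IsNoetherianRing R]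
    [CommRing S] [IsLocalRing S] [IsNoetherianRing S] [Algebra R S]
    [IsLocalHom (algebraMap R S)] [Module.Flat R S] :
    Tendsto (hsSeq R) atTop (𝓝 (mult R)) ∧ Tendsto (hsSeq S) atTop (𝓝 (mult S)) ∧
      mult R ≤ mult S := by
  refine ⟨(tendsto_hsSeq_gen R).1, (tendsto_hsSeq_gen S).1, ?_⟩
  let eR : R ≃+* ULift.{v} R := ULift.ringEquiv.symm
  let eS : S ≃+* ULift.{u} S := ULift.ringEquiv.symm
  haveI : IsLocalRing (ULift.{v} R) := eR.isLocalRing
  haveI : IsLocalRing (ULift.{u} S) := eS.isLocalRing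
  haveI : IsNoetherianRing (ULift.{v} R) := isNoetherianRing_of_ringEquiv R eR
  haveI : IsNoetherianRing (ULift.{u} S) := isNoetherianRing_of_ringEquiv S eS
  let f : ULift.{v} R →+* ULift.{u} S :=
    eS.toRingHom.comp ((algebraMap R S).comp eR.symm.toRingHom)
  have hf : f.Flat := (RingHom.Flat.of_bijective (f := eR.symm.toRingHom) eR.symm.bijective).comp
      (RingHom.flat_algebraMap_iff.2 inferInstance) |>.comp
    (RingHom.Flat.of_bijective (f := eS.toRingHom) eS.bijective)
  have h := mult_le_of_ringHom f hf ⟨fun a h =>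
    (isUnit_map_iff eR.symm a).1 ((isUnit_map_iff (algebraMap R S) _).1
      ((isUnit_map_iff eS _).1 h))⟩
  rwa [mult, mult, hsSeq_eq_of_ringEquiv eR, hsSeq_eq_of_ringEquiv eS] at h

end Vale.Agent.P202
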