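import Mathlib

/-! Teichmuller elements modulo `p - [t]` and powers of `p`. -/

namespace Vale.Agent.P202

open WittVector

section Defs

variable (p : ℕ) [Fact p.Prime] {E : Type*} [CommRing E]

/-- the element `p - [t]`. -/
noncomputable def xi (t : E) : WittVector p E := (p : WittVector p E) - teichmuller p t

/-- the ideal generated by `p - [t]` and `p ^ ν`. -/
noncomputable def JJ (t : E) (ν : ℕ) : Ideal (WittVector p E) :=
  Ideal.span {xi p t, (p : WittVector p E) ^ ν}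

/-- the `p ^ m`-th root in a perfect ring. -/
noncomputable def rt [CharP E p] [PerfectRing E p] (m : ℕ) (x : E) : E :=
  (iterateFrobeniusEquiv E p m).symm x

/-- the ideal generated by the Teichmuller lifts of a family. -/
noncomputable def teichI {k : ℕ} (Z : Fin k → E) : Ideal (WittVector p E) :=
  Ideal.span (Set.range fun i => teichmuller p (Z i))

end Defs

variable {p : ℕ} [Fact p.Prime] {E : Type*} [CommRing E]

theorem JJ_map {E' : Type*} [CommRing E'] (f : E →+* E') (t : E) (ν : ℕ) :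
    (JJ p t ν).map (WittVector.map f) = JJ p (f t) ν := by
  simp [JJ, xi, Ideal.map_span, Set.image_pair]

theorem w4_xi_mem_JJ (t : E) (ν : ℕ) : xi p t ∈ JJ p t ν := Ideal.subset_span (by simp)

theorem w4_p_pow_mem_JJ (t : E) (ν : ℕ) : (p : WittVector p E) ^ ν ∈ JJ p t ν :=
  Ideal.subset_span (by simp)

theorem w4_xi_dvd_sub (t : E) (ν : ℕ) :
    xi p t ∣ (p : WittVector p E) ^ ν - teichmuller p (t ^ ν) := by
  rw [map_pow]
  exact sub_dvd_pow_sub_pow _ _ ν

theorem JJ_anti (t : E) {ν ν' : ℕ} (h : ν ≤ ν') : JJ p t ν' ≤ JJ p t ν := by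
  refine Ideal.span_le.2 (Set.pair_subset (w4_xi_mem_JJ t ν) ?_)
  obtain ⟨d, rfl⟩ := Nat.exists_eq_add_of_le h
  rw [pow_add]
  exact Ideal.mul_mem_right _ _ (w4_p_pow_mem_JJ t ν)

theorem teich_pow_mem_JJ (t : E) (ν : ℕ) : teichmuller p (t ^ ν) ∈ JJ p t ν := by
  obtain ⟨w, hw⟩ := w4_xi_dvd_sub (p := p) t ν
  have : teichmuller p (t ^ ν) = (p : WittVector p E) ^ ν - xi p t * w := by rw [← hw]; ring
  rw [this]
  exact sub_mem (w4_p_pow_mem_JJ t ν) (Ideal.mul_mem_right _ _ (w4_xi_mem_JJ t ν))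

variable [CharP E p] [PerfectRing E p]

theorem rt_pow (m : ℕ) (x : E) : rt p m x ^ p ^ m = x := by
  exact (iterateFrobeniusEquiv E p m).apply_symm_apply x

theorem rt_zero (x : E) : rt p 0 x = x := by
  simpa using rt_pow (p := p) 0 x

theorem w4_pow_p_pow_inj (m : ℕ) {x y : E} (h : x ^ p ^ m = y ^ p ^ m) : x = y :=
  (iterateFrobeniusEquiv E p m).injective h

theorem w4_rt_of_pow (m : ℕ) (x : E) : rt p m (x ^ p ^ m) = x :=
  (iterateFrobeniusEquiv E p m).symm_apply_apply x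

theorem w4_rt_mul (m : ℕ) (x y : E) : rt p m (x * y) = rt p m x * rt p m y := map_mul _ x y

theorem w4_rt_add (m : ℕ) (x y : E) : rt p m (x + y) = rt p m x + rt p m y := map_add _ x y

theorem w4_rt_npow (m : ℕ) (x : E) (n : ℕ) : rt p m (x ^ n) = rt p m x ^ n := map_pow _ x n

theorem w4_rt_rt (m n : ℕ) (x : E) : rt p m (rt p n x) = rt p (m + n) x := by
  refine w4_pow_p_pow_inj (p := p) (m + n) ?_
  rw [rt_pow, pow_add, pow_mul, rt_pow, rt_pow]

theorem rt_succ_pow (m : ℕ) (x : E) : rt p (m + 1) x ^ p = rt p m x := by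
  refine w4_pow_p_pow_inj (p := p) m ?_
  rw [← pow_mul, ← pow_succ', rt_pow, rt_pow]

theorem witt_p_reg (x : WittVector p E) (h : (p : WittVector p E) * x = 0) : x = 0 := by
  exact eq_zero_of_p_mul_eq_zero x (by rw [mul_comm, h])

omit [CharP E p] [PerfectRing E p] in
theorem w4_cc_teich (a : E) : constantCoeff (teichmuller p a) = a := rfl

omit [PerfectRing E p] in
theorem w4_cc_p : constantCoeff (p : WittVector p E) = 0 := by
  rw [map_natCast, CharP.cast_eq_zero]

omit [PerfectRing E p] in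
theorem w4_cc_xi (t : E) : constantCoeff (xi p t) = -t := by
  rw [xi, map_sub, w4_cc_p, w4_cc_teich, zero_sub]

theorem w4_p_dvd_of_cc {x : WittVector p E} (h : constantCoeff x = 0) : (p : WittVector p E) ∣ x :=
  Ideal.mem_span_singleton.1 ((mem_span_p_iff_coeff_zero_eq_zero x).2 h)

theorem mem_JJ_one (t : E) (x : WittVector p E) :
    x ∈ JJ p t 1 ↔ x.coeff 0 ∈ Ideal.span {t} := by
  constructor
  · intro h
    obtain ⟨a, b, rfl⟩ := Ideal.mem_span_pair.1 h
    rw [← constantCoeff_apply, map_add, map_mul, map_mul, map_pow, w4_cc_p, w4_cc_xi]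
    exact Ideal.mem_span_singleton'.2 ⟨-constantCoeff a, by ring⟩
  · intro h
    obtain ⟨a, ha⟩ := Ideal.mem_span_singleton'.1 h
    obtain ⟨w, hw⟩ := w4_p_dvd_of_cc (x := x - teichmuller p a * teichmuller p (t ^ 1))
      (by rw [map_sub, map_mul, w4_cc_teich, w4_cc_teich, pow_one, ha, constantCoeff_apply, sub_self])
    rw [sub_eq_iff_eq_add.1 hw]
    refine add_mem (Ideal.mul_mem_right _ _ ?_) (Ideal.mul_mem_left _ _ (teich_pow_mem_JJ t 1))
    simpa using w4_p_pow_mem_JJ (p := p) t 1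

theorem mem_xi_of_p_mul {t : E} (ht : ∀ x, t * x = 0 → x = 0) (x : WittVector p E)
    (h : (p : WittVector p E) * x ∈ Ideal.span {xi p t}) : x ∈ Ideal.span {xi p t} := by
  obtain ⟨y, hy⟩ := Ideal.mem_span_singleton.1 h
  have h0 := congrArg constantCoeff hy
  rw [map_mul, map_mul, w4_cc_p, w4_cc_xi, zero_mul, neg_mul, eq_comm, neg_eq_zero] at h0
  obtain ⟨w, rfl⟩ := w4_p_dvd_of_cc (ht _ h0)
  refine Ideal.mem_span_singleton.2 ⟨w, sub_eq_zero.1 (witt_p_reg _ ?_)⟩
  rw [mul_sub, hy]; ring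

theorem mem_JJ_of_p_mul {t : E} (ht : ∀ x, t * x = 0 → x = 0) (ν : ℕ) (x : WittVector p E)
    (h : (p : WittVector p E) * x ∈ JJ p t (ν + 1)) : x ∈ JJ p t ν := by
  obtain ⟨a, b, hab⟩ := Ideal.mem_span_pair.1 h
  have h1 := mem_xi_of_p_mul ht (x - b * (p : WittVector p E) ^ ν)
    (Ideal.mem_span_singleton'.2 ⟨a, by rw [mul_sub, ← hab]; ring⟩)
  obtain ⟨w, hw⟩ := Ideal.mem_span_singleton'.1 h1
  exact Ideal.mem_span_pair.2 ⟨w, b, by rw [hw]; ring⟩

theorem w4_teich_reg {σ : E} (hσ : ∀ x, σ * x = 0 → x = 0) (x : WittVector p E)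
    (h : teichmuller p σ * x = 0) : x = 0 := by
  have key : ∀ (n : ℕ) (x : WittVector p E), teichmuller p σ * x = 0 →
      (p : WittVector p E) ^ n ∣ x := by
    intro n
    induction n with
    | zero => intro x _; simp
    | succ n ih =>
      intro x hx
      have h0 := congrArg constantCoeff hx
      rw [map_mul, w4_cc_teich, map_zero] at h0
      obtain ⟨w, rfl⟩ := w4_p_dvd_of_cc (hσ _ h0)
      rw [pow_succ']
      exact mul_dvd_mul_left _ (ih w (witt_p_reg _ (by rw [← hx]; ring)))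
  ext n
  rw [zero_coeff]
  exact (mem_span_p_pow_iff_le_coeff_eq_zero x (n + 1)).1
    (Ideal.mem_span_singleton.2 (key _ x h)) n (Nat.lt_succ_self n)

theorem w4_mem_xi_of_teich_mul {σ : E} (hσ : ∀ x, σ * x = 0 → x = 0) (t' : E) (x y : WittVector p E)
    (h : teichmuller p σ * x = xi p (σ * t') * y) : xi p (σ * t') ∣ x := by
  have h1 : teichmuller p σ * (x + teichmuller p t' * y) = p * y := by
    rw [xi, map_mul] at h
    linear_combination h
  have h0 := congrArg constantCoeff h1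
  rw [map_mul, map_mul, w4_cc_teich, w4_cc_p, zero_mul] at h0
  obtain ⟨w, hw⟩ := w4_p_dvd_of_cc (hσ _ h0)
  have h2 : y = teichmuller p σ * w := sub_eq_zero.1 (witt_p_reg _ (by
    rw [hw] at h1
    linear_combination -h1))
  refine ⟨w, sub_eq_zero.1 (w4_teich_reg hσ _ ?_)⟩
  rw [h2] at h
  linear_combination h

/-- divisibility of a Teichmuller element by a regular element `σ ^ r`, when `σ` divides `t`. -/
theorem dvd_of_teich_mem {σ t : E} (hσ : ∀ x, σ * x = 0 → x = 0) (hσt : σ ∣ t) (r ν : ℕ)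
    (hν : r ≤ ν) (c : E)
    (h : teichmuller p c ∈ Ideal.span {teichmuller p (σ ^ r)} ⊔ JJ p t ν) : σ ^ r ∣ c := by
  obtain ⟨t', rfl⟩ := hσt
  induction r generalizing ν c with
  | zero => simp
  | succ r ih =>
    obtain ⟨ν, rfl⟩ : ∃ ν', ν = ν' + 1 := ⟨ν - 1, by omega⟩
    obtain ⟨_, h1, _, h2, h3⟩ := Submodule.mem_sup.1 h
    obtain ⟨a, rfl⟩ := Ideal.mem_span_singleton'.1 h1
    obtain ⟨y, e, rfl⟩ := Ideal.mem_span_pair.1 h2
    have h0 := congrArg constantCoeff h3
    simp only [map_add, map_mul, map_pow, w4_cc_p, w4_cc_xi, w4_cc_teich] at h0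
    obtain ⟨c', rfl⟩ : σ ∣ c := ⟨constantCoeff a * σ ^ r - constantCoeff y * t', by
      rw [← h0]; ring⟩
    have h4 := w4_mem_xi_of_teich_mul hσ t' (teichmuller p c' - a * teichmuller p (σ ^ r) -
      teichmuller p t' * e * (p : WittVector p E) ^ ν) (y + e * (p : WittVector p E) ^ ν) (by
        simp only [map_mul, map_pow, xi] at h3 ⊢
        linear_combination -h3)
    obtain ⟨w, hw⟩ := h4
    rw [pow_succ']
    refine mul_dvd_mul_left σ (ih ν (by omega) c' ?_)
    have h5 : teichmuller p c' = a * teichmuller p (σ ^ r) +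
        (w * xi p (σ * t') + teichmuller p t' * e * (p : WittVector p E) ^ ν) := by
      linear_combination hw
    rw [h5]
    exact Submodule.add_mem_sup (Ideal.mem_span_singleton'.2 ⟨a, rfl⟩)
      (Ideal.mem_span_pair.2 ⟨_, _, rfl⟩)

theorem dvd_of_teich_mem_JJ {t : E} (ht : ∀ x, t * x = 0 → x = 0) (ν : ℕ) (c : E)
    (h : teichmuller p c ∈ JJ p t ν) : t ^ ν ∣ c := by
  exact dvd_of_teich_mem ht dvd_rfl ν ν le_rfl c (Ideal.mem_sup_right h)

omit [CharP E p] [PerfectRing E p] in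
theorem w4_span_pow_le_span_pow_pow {R : Type*} [CommRing R] {k : ℕ} (Z : Fin k → R) (q j n : ℕ)
    (hq : 0 < q) (hn : (j + k) * q ≤ n) :
    Ideal.span (Set.range Z) ^ n ≤ Ideal.span (Set.range fun i => Z i ^ q) ^ j := by
  have h1 : ∀ n : ℕ, Ideal.span (Set.range Z) ^ n ≤
      Ideal.span {x | ∃ m : Fin k → ℕ, ∑ i, m i = n ∧ x = ∏ i, Z i ^ m i} := by
    intro n
    induction n with
    | zero =>
      intro x _
      have : (1 : R) ∈ Ideal.span {x | ∃ m : Fin k → ℕ, ∑ i, m i = 0 ∧ x = ∏ i, Z i ^ m i} :=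
        Ideal.subset_span ⟨0, by simp, by simp⟩
      simpa using Ideal.mul_mem_left _ x this
    | succ n ih =>
      rw [pow_succ]
      refine (Ideal.mul_mono_left ih).trans ?_
      rw [Ideal.span_mul_span']
      refine Ideal.span_mono ?_
      rintro _ ⟨_, ⟨m, hm, rfl⟩, _, ⟨i, rfl⟩, rfl⟩
      refine ⟨m + Pi.single i 1, by simp [Finset.sum_add_distrib, hm], ?_⟩
      simp only [Pi.add_apply, pow_add, Finset.prod_mul_distrib]
      congr 1
      rw [Finset.prod_eq_single i (fun b _ hb => by simp [hb]) (by simp)]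
      simp
  refine (h1 n).trans (Ideal.span_le.2 ?_)
  rintro _ ⟨m, hm, rfl⟩
  have h2 : j ≤ ∑ i, m i / q := by
    refine Nat.le_of_mul_le_mul_right ?_ hq
    have h3 : ∑ i, m i ≤ ∑ i, (m i / q * q + q) :=
      Finset.sum_le_sum fun i _ => (Nat.lt_div_mul_add hq).le
    rw [Finset.sum_add_distrib, ← Finset.sum_mul, hm] at h3
    simp only [Finset.sum_const, Finset.card_univ, Fintype.card_fin, smul_eq_mul] at h3
    rw [add_mul] at hn
    omega
  refine Ideal.pow_le_pow_right h2 ?_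
  rw [← Finset.prod_pow_eq_pow_sum]
  refine Ideal.prod_mem_prod fun i _ => ?_
  have e : Z i ^ m i = (Z i ^ q) ^ (m i / q) * Z i ^ (m i % q) := by
    rw [← pow_mul, ← pow_add, Nat.div_add_mod]
  rw [e]
  exact Ideal.mul_mem_right _ _ (Ideal.pow_mem_pow (Ideal.subset_span (Set.mem_range_self i)) _)

theorem w4_mem_sup_of_cc (ν : ℕ) {c : E} {b : WittVector p E} (hb : constantCoeff b = rt p ν c)
    {I : Ideal (WittVector p E)} (h : b ^ p ^ ν ∈ I) :
    teichmuller p c ∈ I ⊔ Ideal.span {(p : WittVector p E) ^ ν} := by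
  have h1 := dvd_sub_pow_of_dvd_sub (w4_p_dvd_of_cc (x := teichmuller p (rt p ν c) - b)
    (by rw [map_sub, hb, w4_cc_teich, sub_self])) ν
  rw [← map_pow, rt_pow] at h1
  rw [← add_sub_cancel (b ^ p ^ ν) (teichmuller p c)]
  exact Submodule.add_mem_sup h
    (Ideal.mem_span_singleton.2 ((pow_dvd_pow _ (Nat.le_succ ν)).trans h1))

/-- from the tilt to Witt vectors, for powers of an ideal. -/
theorem teich_mem_pow {k : ℕ} (Y : Fin k → E) (c : E) (e s j : ℕ)
    (hc : c ^ p ^ e ∈ Ideal.span (Set.range Y) ^ s) (hs : (j + k) * p ^ e ≤ s) (ν : ℕ) :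
    teichmuller p c ∈ teichI p Y ^ j ⊔ Ideal.span {(p : WittVector p E) ^ ν} := by
  have h1 : rt p ν c ∈ Ideal.span (Set.range fun i => rt p (ν + e) (Y i)) ^ s := by
    have := Ideal.mem_map_of_mem (iterateFrobeniusEquiv E p (ν + e)).symm hc
    rw [Ideal.map_pow, Ideal.map_span, ← Set.range_comp] at this
    have e1 : rt p ν c = rt p (ν + e) (c ^ p ^ e) := by rw [← w4_rt_rt, w4_rt_of_pow]
    rw [e1]
    exact this
  have h2 : Ideal.span (Set.range fun i => rt p (ν + e) (Y i)) ^ s =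
      (teichI p (fun i => rt p (ν + e) (Y i)) ^ s).map constantCoeff := by
    rw [Ideal.map_pow, teichI, Ideal.map_span, ← Set.range_comp]
    rfl
  rw [h2, Ideal.mem_map_iff_of_surjective _ (constantCoeff_surjective p)] at h1
  obtain ⟨b, hb, hb'⟩ := h1
  have h3 := w4_span_pow_le_span_pow_pow (fun i => teichmuller p (rt p (ν + e) (Y i))) (p ^ (ν + e)) j
    (s * p ^ ν) (pow_pos (Fact.out : p.Prime).pos _) (by
      rw [pow_add, mul_comm (p ^ ν), ← mul_assoc]
      exact Nat.mul_le_mul_right _ hs)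
  simp only [← map_pow, rt_pow] at h3
  have h4 : b ^ p ^ ν ∈ teichI p Y ^ j := h3 (by rw [pow_mul]; exact Ideal.pow_mem_pow hb _)
  exact w4_mem_sup_of_cc ν hb' h4

/-- from the tilt to Witt vectors, for an ideal with two generators. -/
theorem teich_mem_pair (a b c : E) (hc : c ∈ Ideal.span {a, b}) (ν : ℕ) :
    teichmuller p c ∈ Ideal.span {teichmuller p a, teichmuller p (rt p ν b)} ⊔
      Ideal.span {(p : WittVector p E) ^ ν} := by
  obtain ⟨u, v, rfl⟩ := Ideal.mem_span_pair.1 hc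
  refine w4_mem_sup_of_cc ν (b := teichmuller p (rt p ν (u * a)) + teichmuller p (rt p ν (v * b)))
    (by rw [map_add, w4_cc_teich, w4_cc_teich, w4_rt_add]) ?_
  obtain ⟨w, hw⟩ := sub_dvd_pow_sub_pow
    (teichmuller p (rt p ν (u * a)) + teichmuller p (rt p ν (v * b)))
    (teichmuller p (rt p ν (u * a))) (p ^ ν)
  rw [← map_pow, rt_pow, add_sub_cancel_left, w4_rt_mul ν v b, map_mul, map_mul] at hw
  refine Ideal.mem_span_pair.2 ⟨teichmuller p u, teichmuller p (rt p ν v) * w, ?_⟩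
  rw [w4_rt_mul ν v b, map_mul]
  linear_combination -hw

end Vale.Agent.P202
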