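import Mathlib

/-! The dehomogenised Segre ring of a product of `n` lines, built one line at a time. -/

namespace Vale.Agent.P202

universe u

/-- Data and properties of the graded ring of a product of `n` projective lines. -/
structure SegreRing (K : Type u) [Field K] (n : ℕ) where
  L : Type u
  [commRing : CommRing L]
  [isDomain : IsDomain L]
  [algebra : Algebra K L]
  B : ℕ → Submodule K L
  one_mem : (1 : L) ∈ B 0
  mul_mem : ∀ {s t : ℕ} {x y : L}, x ∈ B s → y ∈ B t → x * y ∈ B (s + t)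
  finite_B : ∀ t, Module.Finite K (B t)
  finrank_B : ∀ t, Module.finrank K (B t) = (t + 1) ^ n
  ι : Type
  [fintype : Fintype ι]
  μ : ι → L
  μ_mem : ∀ r, μ r ∈ B 1
  B_succ : ∀ t, ∀ x ∈ B (t + 1), ∃ y : ι → L, (∀ r, y r ∈ B t) ∧ x = ∑ r, μ r * y r
  e : Fin (n + 1) → L
  e_mem : ∀ j, e j ∈ B 1
  prime : ∀ (Ω : Type u) [CommRing Ω] [IsDomain Ω] (ψ : L → Ω),
    (∀ x ∈ B 1, ∀ y ∈ B 1, ψ (x + y) = ψ x + ψ y) →
    (∀ x ∈ B 1, ∀ y ∈ B 1, ∀ x' ∈ B 1, ∀ y' ∈ B 1, x * y = x' * y' → ψ x * ψ y = ψ x' * ψ y') →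
    (∀ j, ψ (e j) = 0) → ∀ r, ψ (μ r) = 0

attribute [instance] SegreRing.commRing SegreRing.isDomain SegreRing.algebra SegreRing.fintype

variable {K : Type u} [Field K] {n : ℕ}

/-- The point. -/
noncomputable def SegreRing.base (K : Type u) [Field K] : SegreRing K 0 where
  L := K
  B := fun _ => ⊤
  one_mem := trivial
  mul_mem := fun _ _ => trivial
  finite_B := fun _ => inferInstance
  finrank_B := fun _ => by simp
  ι := Unit
  μ := fun _ => 1
  μ_mem := fun _ => trivial
  B_succ := fun _ x _ => ⟨fun _ => x, fun _ => trivial, by simp⟩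
  e := fun _ => 1
  e_mem := fun _ => trivial
  prime := fun _ _ _ _ _ _ h _ => h 0

/-- degree `t` part after adding a line: polynomials of degree at most `t` with coefficients
of degree `t`. -/
def SegreRing.stepB (R : SegreRing K n) (t : ℕ) : Submodule K (Polynomial R.L) where
  carrier := {f | (∀ i, f.coeff i ∈ R.B t) ∧ ∀ i, t < i → f.coeff i = 0}
  add_mem' := by
    rintro f g ⟨hf, hf'⟩ ⟨hg, hg'⟩
    refine ⟨fun i => ?_, fun i hi => ?_⟩
    · rw [Polynomial.coeff_add]; exact (R.B t).add_mem (hf i) (hg i)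
    · rw [Polynomial.coeff_add, hf' i hi, hg' i hi, add_zero]
  zero_mem' := ⟨fun i => by simp, fun i _ => by simp⟩
  smul_mem' := by
    rintro c f ⟨hf, hf'⟩
    refine ⟨fun i => ?_, fun i hi => ?_⟩
    · rw [Polynomial.coeff_smul]; exact (R.B t).smul_mem c (hf i)
    · rw [Polynomial.coeff_smul, hf' i hi, smul_zero]

/-- chart monomials after adding a line: chart `0` is `z ≠ ∞`, chart `1` is `z ≠ 0`,
chart `2` is their intersection. -/
noncomputable def SegreRing.stepμ (R : SegreRing K n) (r : R.ι × Fin 3) : Polynomial R.L :=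
  if r.2 = 1 then Polynomial.X * Polynomial.C (R.μ r.1) else Polynomial.C (R.μ r.1)

/-- the coefficients of `(∑ e j T^j) * (1 + z T)`. -/
noncomputable def SegreRing.stepe (R : SegreRing K n) (j : Fin (n + 2)) : Polynomial R.L :=
  Fin.lastCases (motive := fun _ => Polynomial R.L) 0 (fun i => Polynomial.C (R.e i)) j +
    Fin.cases (motive := fun _ => Polynomial R.L) 0 (fun i => Polynomial.X * Polynomial.C (R.e i)) j

theorem SegreRing.C_mem_stepB (R : SegreRing K n) {t : ℕ} {x : R.L} (hx : x ∈ R.B t) :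
    Polynomial.C x ∈ R.stepB t := by
  refine ⟨fun i => ?_, fun i hi => ?_⟩ <;> rw [Polynomial.coeff_C]
  · split_ifs
    · exact hx
    · exact zero_mem _
  · rw [if_neg (by omega)]

theorem SegreRing.monomial_mem_stepB (R : SegreRing K n) {t i : ℕ} {x : R.L} (hx : x ∈ R.B t)
    (hi : i ≤ t) : Polynomial.monomial i x ∈ R.stepB t := by
  refine ⟨fun j => ?_, fun j hj => ?_⟩ <;> rw [Polynomial.coeff_monomial]
  · split_ifs
    · exact hx
    · exact zero_mem _
  · rw [if_neg (by omega)]

theorem SegreRing.X_mul_C_mem_stepB (R : SegreRing K n) {x : R.L} (hx : x ∈ R.B 1) :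
    Polynomial.X * Polynomial.C x ∈ R.stepB 1 := by
  rw [mul_comm, Polynomial.C_mul_X_eq_monomial]
  exact R.monomial_mem_stepB hx le_rfl

theorem SegreRing.stepB_mul (R : SegreRing K n) {s t : ℕ} {x y : Polynomial R.L}
    (hx : x ∈ R.stepB s) (hy : y ∈ R.stepB t) : x * y ∈ R.stepB (s + t) := by
  refine ⟨fun i => ?_, fun i hi => ?_⟩ <;> rw [Polynomial.coeff_mul]
  · exact Submodule.sum_mem _ fun p _ => R.mul_mem (hx.1 _) (hy.1 _)
  · refine Finset.sum_eq_zero fun p hp => ?_
    have := Finset.HasAntidiagonal.mem_antidiagonal.1 hp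
    by_cases h : s < p.1
    · rw [hx.2 _ h, zero_mul]
    · rw [hy.2 _ (by omega), mul_zero]

theorem SegreRing.stepB_eq_sum (R : SegreRing K n) {t : ℕ} {f : Polynomial R.L}
    (hf : f ∈ R.stepB t) :
    f = ∑ i ∈ Finset.range (t + 1), Polynomial.monomial i (f.coeff i) :=
  f.as_sum_range' _ (Nat.lt_succ_of_le (Polynomial.natDegree_le_iff_coeff_eq_zero.2 hf.2))

/-- coefficients of an element of the degree `t` part. -/
noncomputable def SegreRing.stepEquiv (R : SegreRing K n) (t : ℕ) :
    R.stepB t ≃ₗ[K] (Fin (t + 1) → R.B t) :=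
  LinearEquiv.ofBijective
    { toFun := fun f i => ⟨f.1.coeff i, f.2.1 i⟩
      map_add' := fun f g => by ext i; simp
      map_smul' := fun c f => by ext i; simp } (by
    constructor
    · intro f g h
      ext i
      by_cases hi : i < t + 1
      · exact congrArg Subtype.val (congrFun h ⟨i, hi⟩)
      · rw [f.2.2 i (by omega), g.2.2 i (by omega)]
    · intro x
      refine ⟨⟨∑ i : Fin (t + 1), Polynomial.monomial i (x i : R.L), Submodule.sum_mem _
        fun i _ => R.monomial_mem_stepB (x i).2 (by omega)⟩, ?_⟩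
      ext i
      simp [Polynomial.coeff_monomial, Fin.val_inj])

theorem SegreRing.stepB_succ (R : SegreRing K n) (t : ℕ) (x : Polynomial R.L)
    (hx : x ∈ R.stepB (t + 1)) : ∃ y : R.ι × Fin 3 → Polynomial R.L, (∀ r, y r ∈ R.stepB t) ∧
      x = ∑ r, R.stepμ r * y r := by
  choose y hy hy' using fun i => R.B_succ t _ (hx.1 i)
  refine ⟨fun r => if r.2 = 0 then ∑ i ∈ Finset.range (t + 1), Polynomial.monomial i (y i r.1)
    else if r.2 = 1 then Polynomial.monomial t (y (t + 1) r.1) else 0, fun r => ?_, ?_⟩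
  · beta_reduce
    split_ifs
    · exact Submodule.sum_mem _ fun i hi => R.monomial_mem_stepB (hy _ _)
        (Nat.lt_succ_iff.1 (Finset.mem_range.1 hi))
    · exact R.monomial_mem_stepB (hy _ _) le_rfl
    · exact zero_mem _
  · rw [R.stepB_eq_sum hx, Finset.sum_range_succ, Fintype.sum_prod_type]
    simp only [Fin.sum_univ_three, stepμ]
    simp only [Fin.isValue, zero_ne_one, if_false, if_true, one_ne_zero, Fin.reduceEq, mul_zero,
      add_zero, Finset.sum_add_distrib, Finset.mul_sum, Polynomial.C_mul_monomial, mul_assoc,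
      Polynomial.X_mul_monomial]
    rw [Finset.sum_comm]
    congr 1
    · exact Finset.sum_congr rfl fun i _ => by rw [hy' i, map_sum]
    · rw [hy' (t + 1), map_sum]

theorem SegreRing.step_prime (R : SegreRing K n) (Ω : Type u) [CommRing Ω] [IsDomain Ω]
    (ψ : Polynomial R.L → Ω)
    (h1 : ∀ x ∈ R.stepB 1, ∀ y ∈ R.stepB 1, ψ (x + y) = ψ x + ψ y)
    (h2 : ∀ x ∈ R.stepB 1, ∀ y ∈ R.stepB 1, ∀ x' ∈ R.stepB 1, ∀ y' ∈ R.stepB 1,
      x * y = x' * y' → ψ x * ψ y = ψ x' * ψ y')
    (h3 : ∀ j, ψ (R.stepe j) = 0) (r : R.ι × Fin 3) : ψ (R.stepμ r) = 0 := by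
  have hC : ∀ j, Polynomial.C (R.e j) ∈ R.stepB 1 := fun j => R.C_mem_stepB (R.e_mem j)
  have hX : ∀ j, Polynomial.X * Polynomial.C (R.e j) ∈ R.stepB 1 :=
    fun j => R.X_mul_C_mem_stepB (R.e_mem j)
  have huv : ∀ i j, ψ (Polynomial.C (R.e i)) * ψ (Polynomial.X * Polynomial.C (R.e j)) =
      ψ (Polynomial.C (R.e j)) * ψ (Polynomial.X * Polynomial.C (R.e i)) :=
    fun i j => h2 _ (hC i) _ (hX j) _ (hC j) _ (hX i) (by ring)
  have a0 : ψ (Polynomial.C (R.e 0)) = 0 := by
    have := h3 (Fin.castSucc 0)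
    rwa [stepe, Fin.lastCases_castSucc, Fin.castSucc_zero, Fin.cases_zero, add_zero] at this
  have a1 : ∀ i : Fin n, ψ (Polynomial.C (R.e i.succ)) +
      ψ (Polynomial.X * Polynomial.C (R.e i.castSucc)) = 0 := by
    intro i
    have := h3 i.succ.castSucc
    rw [stepe, Fin.lastCases_castSucc, ← Fin.succ_castSucc, Fin.cases_succ,
      h1 _ (hC _) _ (hX _)] at this
    exact this
  have a2 : ψ (Polynomial.X * Polynomial.C (R.e (Fin.last n))) = 0 := by
    have := h3 (Fin.last (n + 1))
    rw [stepe, Fin.lastCases_last, ← Fin.succ_last, Fin.cases_succ, zero_add] at this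
    exact this
  have hu : ∀ j, ψ (Polynomial.C (R.e j)) = 0 := by
    intro j
    induction j using Fin.induction with
    | zero => exact a0
    | succ i ih =>
      have b1 := huv i.succ i.castSucc
      rw [ih, zero_mul, eq_neg_of_add_eq_zero_right (a1 i), mul_neg, neg_eq_zero] at b1
      exact mul_self_eq_zero.1 b1
  have hv : ∀ j, ψ (Polynomial.X * Polynomial.C (R.e j)) = 0 := by
    intro j
    induction j using Fin.lastCases with
    | last => exact a2
    | cast i => simpa [hu] using a1 i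
  unfold stepμ
  split_ifs
  · refine R.prime Ω (fun b => ψ (Polynomial.X * Polynomial.C b)) (fun x hx y hy => ?_)
      (fun x hx y hy x' hx' y' hy' h => h2 _ (R.X_mul_C_mem_stepB hx) _ (R.X_mul_C_mem_stepB hy)
        _ (R.X_mul_C_mem_stepB hx') _ (R.X_mul_C_mem_stepB hy') ?_) hv _
    · rw [map_add, mul_add, h1 _ (R.X_mul_C_mem_stepB hx) _ (R.X_mul_C_mem_stepB hy)]
    · rw [mul_mul_mul_comm, ← map_mul, h, map_mul, mul_mul_mul_comm]
  · refine R.prime Ω (fun b => ψ (Polynomial.C b)) (fun x hx y hy => ?_)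
      (fun x hx y hy x' hx' y' hy' h => h2 _ (R.C_mem_stepB hx) _ (R.C_mem_stepB hy)
        _ (R.C_mem_stepB hx') _ (R.C_mem_stepB hy') ?_) hu _
    · rw [map_add, h1 _ (R.C_mem_stepB hx) _ (R.C_mem_stepB hy)]
    · rw [← map_mul, h, map_mul]

/-- Adding one line. -/
noncomputable def SegreRing.step (R : SegreRing K n) : SegreRing K (n + 1) where
  L := Polynomial R.L
  B := R.stepB
  one_mem := R.C_mem_stepB R.one_mem
  mul_mem := R.stepB_mul
  finite_B := fun t => by
    have := R.finite_B t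
    exact Module.Finite.equiv (R.stepEquiv t).symm
  finrank_B := fun t => by
    have := R.finite_B t
    rw [(R.stepEquiv t).finrank_eq, Module.finrank_pi_fintype, Finset.sum_const, R.finrank_B]
    simp [pow_succ']
  ι := R.ι × Fin 3
  μ := R.stepμ
  μ_mem := fun r => by
    unfold SegreRing.stepμ
    split_ifs
    · exact R.X_mul_C_mem_stepB (R.μ_mem _)
    · exact R.C_mem_stepB (R.μ_mem _)
  B_succ := R.stepB_succ
  e := R.stepe
  e_mem := fun j => by
    refine add_mem ?_ ?_
    · induction j using Fin.lastCases with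
      | last => simp
      | cast i => simpa using R.C_mem_stepB (R.e_mem i)
    · induction j using Fin.cases with
      | zero => simp
      | succ i => exact R.X_mul_C_mem_stepB (R.e_mem i)
  prime := fun Ω _ _ ψ h1 h2 h3 => R.step_prime Ω ψ h1 h2 h3

/-- The product of `n` lines. -/
noncomputable def segre (K : Type u) [Field K] : (n : ℕ) → SegreRing K n
  | 0 => SegreRing.base K
  | n + 1 => (segre K n).step

end Vale.Agent.P202
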