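import Vale.Agent.P202.LinAlg
import Vale.Agent.P202.Line

/-! Auxiliary lemmas for the recursive Cech system. -/

namespace Vale.Agent.P202

open TensorProduct

section General

variable {K : Type*} [Field K] {M P0 P1 : Type*} [AddCommGroup M] [Module K M]
  [AddCommGroup P0] [Module K P0] [AddCommGroup P1] [Module K P1]

/-- Tensor product operators on the cone. -/
noncomputable def sop (φ : Module.End K M) (ψ0 : Module.End K P0) (ψ1 : Module.End K P1) :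
    Module.End K ((M ⊗[K] P0) × (M ⊗[K] P1)) :=
  LinearMap.prodMap (TensorProduct.map φ ψ0) (TensorProduct.map φ ψ1)

theorem sop_apply (φ : Module.End K M) (ψ0 : Module.End K P0) (ψ1 : Module.End K P1) (ξ) :
    sop φ ψ0 ψ1 ξ = (TensorProduct.map φ ψ0 ξ.1, TensorProduct.map φ ψ1 ξ.2) := rfl

theorem sop_mul (φ φ' : Module.End K M) (ψ0 ψ0' : Module.End K P0) (ψ1 ψ1' : Module.End K P1) :
    sop φ ψ0 ψ1 * sop φ' ψ0' ψ1' = sop (φ * φ') (ψ0 * ψ0') (ψ1 * ψ1') := by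
  simp only [sop, TensorProduct.map_mul, LinearMap.prodMap_mul]

theorem sop_sop (φ φ' : Module.End K M) (ψ0 ψ0' : Module.End K P0) (ψ1 ψ1' : Module.End K P1)
    (ξ) : sop φ ψ0 ψ1 (sop φ' ψ0' ψ1' ξ) = sop (φ * φ') (ψ0 * ψ0') (ψ1 * ψ1') ξ := by
  rw [← sop_mul]
  rfl

theorem sop_mem_box {φ : Module.End K M} {ψ0 : Module.End K P0} {ψ1 : Module.End K P1}
    {D D' : ℤ → Submodule K M} {E0 E0' : Submodule K P0} {E1 E1' : Submodule K P1}
    (h : ∀ l, ∀ x ∈ D l, φ x ∈ D' l) (h0 : ∀ p ∈ E0, ψ0 p ∈ E0') (h1 : ∀ p ∈ E1, ψ1 p ∈ E1')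
    {l : ℤ} {ξ} (hξ : ξ ∈ box D E0 E1 l) : sop φ ψ0 ψ1 ξ ∈ box D' E0' E1' l :=
  ⟨map_mem_tens _ _ (h l) h0 hξ.1, map_mem_tens _ _ (h _) h1 hξ.2⟩

theorem coneD_sop {φ d : Module.End K M} {ψ0 : Module.End K P0} {ψ1 : Module.End K P1}
    {δ : P0 →ₗ[K] P1} (h : ∀ x, d (φ x) = φ (d x)) (h' : ∀ p, δ (ψ0 p) = ψ1 (δ p)) (ξ) :
    coneD d δ (sop φ ψ0 ψ1 ξ) = sop φ ψ0 ψ1 (coneD d δ ξ) := by
  have e1 : d ∘ₗ φ = φ ∘ₗ d := LinearMap.ext h
  have e2 : δ ∘ₗ ψ0 = ψ1 ∘ₗ δ := LinearMap.ext h'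
  simp only [coneD_apply, sop_apply, map_sub, ← LinearMap.comp_apply, ← TensorProduct.map_comp,
    e1, e2, LinearMap.id_comp, LinearMap.comp_id]

theorem box_mono {D D' : ℤ → Submodule K M} {E0 E0' : Submodule K P0} {E1 E1' : Submodule K P1}
    (h : ∀ l, D l ≤ D' l) (h0 : E0 ≤ E0') (h1 : E1 ≤ E1') (l : ℤ) :
    box D E0 E1 l ≤ box D' E0' E1' l :=
  Submodule.prod_mono (tens_mono (h _) h0) (tens_mono (h _) h1)

theorem box_bot_left (E0 : Submodule K P0) (E1 : Submodule K P1) (l : ℤ) :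
    box (fun _ => (⊥ : Submodule K M)) E0 E1 l = ⊥ := by
  simp [box]

theorem box_bot_right (D : ℤ → Submodule K M) (l : ℤ) :
    box D (⊥ : Submodule K P0) (⊥ : Submodule K P1) l = ⊥ := by
  simp [box]

theorem sum_sop {ι : Type*} [Fintype ι] (ε : ι → Module.End K M) (π0 : Fin 3 → Module.End K P0)
    (π1 : Fin 3 → Module.End K P1) (h : ∀ x, ∑ r, ε r x = x) (h0 : ∀ p, ∑ j, π0 j p = p)
    (h1 : ∀ p, ∑ j, π1 j p = p) (ξ) : ∑ r : ι × Fin 3, sop (ε r.1) (π0 r.2) (π1 r.2) ξ = ξ := by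
  refine Prod.ext ?_ ?_
  · rw [Prod.fst_sum]
    simp only [sop_apply]
    induction ξ.1 with
    | zero => simp
    | tmul a b => simp only [map_tmul, Fintype.sum_prod_type, ← tmul_sum, ← sum_tmul, h, h0]
    | add a b ha hb => simp only [map_add, Finset.sum_add_distrib, ha, hb]
  · rw [Prod.snd_sum]
    simp only [sop_apply]
    induction ξ.2 with
    | zero => simp
    | tmul a b => simp only [map_tmul, Fintype.sum_prod_type, ← tmul_sum, ← sum_tmul, h, h1]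
    | add a b ha hb => simp only [map_add, Finset.sum_add_distrib, ha, hb]

variable {d : M →ₗ[K] M} {δ : P0 →ₗ[K] P1} {C A B : ℤ → Submodule K M}
  {W0 G0 : Submodule K P0} {G1 : Submodule K P1}

theorem ex_step1 (hdd : ∀ x, d (d x) = 0) (hAB : ∀ l, A l ≤ B l)
    (hA : ∀ l, ∀ x ∈ A l, d x ∈ A (l + 1)) (hB : ∀ l, ∀ x ∈ B l, d x ∈ B (l + 1))
    (hG : G0 ≤ W0) (hδ : ∀ p ∈ G0, δ p ∈ G1) (l : ℤ) (h1 : Ex d A (fun _ => ⊥) l)
    (h2 : ∀ p, ∃ p0 ∈ W0, p - δ p0 = 0) (h3 : ∀ p ∈ G0, δ p = 0 → p = 0)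
    (h4 : Ex d B (fun _ => ⊥) (l - 1)) :
    Ex (coneD d δ) (fun l => box A W0 ⊤ l ⊔ box B G0 G1 l) (fun _ => ⊥) l := by
  intro ξ hξ hd
  obtain ⟨α, hα, β, hβ, rfl⟩ := Submodule.mem_sup.1 hξ
  have a1 : coneD d δ α ∈ box A G0 G1 (l + 1) := by
    have b1 := coneD_mem_box hA (fun _ _ => Submodule.mem_top) (δ := δ) hα
    have b2 := neg_mem (coneD_mem_box hB hδ hβ)
    rw [Submodule.mem_bot, map_add] at hd
    rw [← eq_neg_of_add_eq_zero_left hd] at b2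
    have b3 := (box_inf_box A B W0 G0 ⊤ G1 (l + 1)).le ⟨b1, b2⟩
    exact box_mono (fun _ => inf_le_left) inf_le_right inf_le_right _ b3
  obtain ⟨y, hy, hy'⟩ := kun d δ A (fun _ => ⊥) W0 G0 ⊤ G1 (fun _ => bot_le) hA
    (fun _ x hx => by simp [(Submodule.mem_bot K).1 hx]) hG le_top (fun _ _ => trivial) hδ l
    (Or.inr h1) (Or.inl fun p _ => (h2 p).imp fun p0 h => ⟨h.1, by rw [h.2]; exact zero_mem _⟩)
    α hα (Submodule.mem_sup_right a1)
  simp only [box_bot_left, bot_sup_eq] at hy'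
  obtain ⟨y', hz, hz'⟩ := kun d δ B (fun _ => ⊥) G0 ⊥ G1 ⊥ (fun _ => bot_le) hB
    (fun _ x hx => by simp [(Submodule.mem_bot K).1 hx]) bot_le bot_le hδ
    (fun p hp => by simp [(Submodule.mem_bot K).1 hp]) l (Or.inl h3) (Or.inr h4)
    (α - coneD d δ y + β) (add_mem (box_mono hAB le_rfl le_rfl _ hy') hβ) (by
      rw [sub_add_eq_add_sub, map_sub, coneD_coneD d δ hdd, sub_zero, (Submodule.mem_bot K).1 hd]
      exact zero_mem _)
  simp only [box_bot_left, box_bot_right, bot_sup_eq] at hz'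
  refine ⟨y + y', add_mem (Submodule.mem_sup_left hy) (Submodule.mem_sup_right hz), ?_⟩
  rw [map_add, ← sub_sub, add_sub_right_comm]
  exact hz'

theorem ex_step2 (hdd : ∀ x, d (d x) = 0) (hAB : ∀ l, A l ≤ B l) (hBC : ∀ l, B l ≤ C l)
    (hA : ∀ l, ∀ x ∈ A l, d x ∈ A (l + 1)) (hB : ∀ l, ∀ x ∈ B l, d x ∈ B (l + 1))
    (hC : ∀ l, ∀ x ∈ C l, d x ∈ C (l + 1)) (hG : G0 ≤ W0) (hδ : ∀ p ∈ G0, δ p ∈ G1) (l : ℤ)
    (h1 : (∀ p ∈ W0, δ p ∈ G1 → p ∈ G0) ∨ Ex d C A l) (h2 : Ex d C A (l - 1))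
    (h3 : ∀ p ∈ G0, δ p = 0 → p = 0) (h4 : Ex d C B (l - 1)) :
    Ex (coneD d δ) (box C W0 ⊤) (fun l => box A W0 ⊤ l ⊔ box B G0 G1 l) l := by
  intro ξ hξ hd
  obtain ⟨y, hy, hy'⟩ := kun d δ C A W0 G0 ⊤ G1 (fun l => (hAB l).trans (hBC l)) hC hA hG le_top
    (fun _ _ => trivial) hδ l h1 (Or.inr h2) ξ hξ
    (sup_le_sup_left (box_mono hBC le_rfl le_rfl _) _ hd)
  obtain ⟨α, hα, γ, hγ, e⟩ := Submodule.mem_sup.1 hy'
  obtain ⟨α', hα', β', hβ', e'⟩ := Submodule.mem_sup.1 hd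
  have a1 : coneD d δ γ ∈ box B G0 G1 (l + 1) := by
    have b0 : coneD d δ γ - β' = α' - coneD d δ α := by
      have := congrArg (coneD d δ) e
      rw [map_add, map_sub, coneD_coneD d δ hdd, sub_zero, ← e'] at this
      rw [sub_eq_sub_iff_add_eq_add, add_comm, this]
    have b1 := sub_mem hα' (coneD_mem_box hA (fun _ _ => Submodule.mem_top) (δ := δ) hα)
    have b2 := sub_mem (coneD_mem_box hC hδ hγ) (box_mono hBC le_rfl le_rfl _ hβ')
    rw [← b0] at b1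
    have b3 := (box_inf_box A C W0 G0 ⊤ G1 (l + 1)).le ⟨b1, b2⟩
    have b4 := add_mem (box_mono (fun l => inf_le_left.trans (hAB l)) inf_le_right inf_le_right _
      b3) hβ'
    rwa [sub_add_cancel] at b4
  obtain ⟨y', hz, hz'⟩ := kun d δ C B G0 ⊥ G1 ⊥ hBC hC hB bot_le bot_le hδ
    (fun p hp => by simp [(Submodule.mem_bot K).1 hp]) l (Or.inl h3) (Or.inr h4) γ hγ
    (Submodule.mem_sup_left a1)
  simp only [box_bot_right, sup_bot_eq] at hz'
  refine ⟨y + y', add_mem hy (box_mono (fun _ => le_rfl) hG le_top _ hz), ?_⟩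
  rw [map_add, ← sub_sub, ← e, add_sub_assoc]
  exact add_mem (Submodule.mem_sup_left hα) (Submodule.mem_sup_right hz')

theorem ex_step3 (hC : ∀ l, ∀ x ∈ C l, d x ∈ C (l + 1)) (l : ℤ) (h1 : Ex d C (fun _ => ⊥) l)
    (h2 : ∀ p, ∃ p0 ∈ W0, p - δ p0 = 0) : Ex (coneD d δ) (box C W0 ⊤) (fun _ => ⊥) l := by
  have := kun d δ C (fun _ => ⊥) W0 ⊥ ⊤ ⊥ (fun _ => bot_le) hC
    (fun _ x hx => by simp [(Submodule.mem_bot K).1 hx]) bot_le bot_le (fun _ _ => trivial)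
    (fun p hp => by simp [(Submodule.mem_bot K).1 hp]) l (Or.inr h1) (Or.inl fun p _ => h2 p)
  simpa only [box_bot_left, box_bot_right, bot_sup_eq] using this

theorem finrank_prod_bot (D : Submodule K M) :
    Module.finrank K (D.prod (⊥ : Submodule K P0)) = Module.finrank K D := by
  rw [← Submodule.map_inl]
  exact (Submodule.equivMapOfInjective _ LinearMap.inl_injective D).finrank_eq.symm

theorem finite_prod_bot (D : Submodule K M) [Module.Finite K D] :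
    Module.Finite K (D.prod (⊥ : Submodule K P0)) := by
  rw [← Submodule.map_inl]
  infer_instance

end General

section Line

variable (K : Type*) [Field K] (m : ℕ)

/-- The Cech differential of the line. -/
noncomputable def lδ : (LW K m × LW K m) →ₗ[K] LW K m := LinearMap.fst K _ _ - LinearMap.snd K _ _

/-- The diagonal. -/
noncomputable def ldiag : LW K m →ₗ[K] LW K m × LW K m := LinearMap.prod LinearMap.id LinearMap.id

/-- The shift on both charts. -/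
noncomputable def zsh2 (j : ℤ) : Module.End K (LW K m × LW K m) :=
  LinearMap.prodMap (zsh K m j) (zsh K m j)

noncomputable def W0 (t : ℤ) : Submodule K (LW K m × LW K m) := (Wp K m).prod (Wm K m t)

noncomputable def lθ0 (j : Fin 3) : Module.End K (LW K m × LW K m) :=
  if j = 0 then LinearMap.prodMap LinearMap.id 0
  else if j = 1 then LinearMap.prodMap 0 (zsh K m (-1)) else 0

noncomputable def lθ1 (j : Fin 3) : Module.End K (LW K m) := if j = 2 then LinearMap.id else 0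

variable {K m}

noncomputable def G0 (β : Fin m → K) (c t : ℤ) : Submodule K (LW K m × LW K m) :=
  (Wp K m ⊓ Gc β c).prod (Wm K m t ⊓ Gc β c)

theorem lδ_apply (p : LW K m × LW K m) : lδ K m p = p.1 - p.2 := rfl

theorem ldiag_apply (p : LW K m) : ldiag K m p = (p, p) := rfl

theorem zsh2_apply (j : ℤ) (p : LW K m × LW K m) :
    zsh2 K m j p = (zsh K m j p.1, zsh K m j p.2) := rfl

theorem ldiag_injective : Function.Injective (ldiag K m) := fun _ _ h => congrArg Prod.fst h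

theorem zsh_mul (i j : ℤ) : (zsh K m i : Module.End K _) * zsh K m j = zsh K m (i + j) :=
  LinearMap.ext (zsh_zsh i j)

theorem zsh2_mul (i j : ℤ) : zsh2 K m i * zsh2 K m j = zsh2 K m (i + j) :=
  LinearMap.ext fun p => Prod.ext (zsh_zsh i j p.1) (zsh_zsh i j p.2)

theorem G0_le (β : Fin m → K) (c t : ℤ) : G0 β c t ≤ W0 K m t :=
  Submodule.prod_mono inf_le_left inf_le_left

theorem lδ_G0 (β : Fin m → K) (c t : ℤ) : ∀ p ∈ G0 β c t, lδ K m p ∈ Gc β c :=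
  fun _ hp => sub_mem hp.1.2 hp.2.2

theorem lδ_onto {t : ℤ} (ht : 0 ≤ t) (p : LW K m) : ∃ p0 ∈ W0 K m t, p - lδ K m p0 = 0 := by
  obtain ⟨a, ha, b, hb, rfl⟩ := Submodule.mem_sup.1
    ((Wp_sup_Wm (K := K) (m := m) (t := t) (by omega)).ge (Submodule.mem_top (x := p)))
  exact ⟨(a, -b), ⟨ha, neg_mem hb⟩, by simp [lδ_apply]⟩

theorem zsh2_W0 {i s : ℕ} (h : i ≤ s) (t : ℤ) : ∀ p ∈ W0 K m t, zsh2 K m i p ∈ W0 K m (t + s) :=
  fun _ hp => ⟨zsh_mem_Wp (by omega) hp.1, Wm_mono (by omega) (zsh_mem_Wm _ hp.2)⟩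

theorem zsh2_G0 (β : Fin m → K) (c : ℤ) {i s : ℕ} (h : i ≤ s) (t : ℤ) :
    ∀ p ∈ G0 β c t, zsh2 K m i p ∈ G0 β c (t + s) :=
  fun _ hp => ⟨⟨zsh_mem_Wp (by omega) hp.1.1, zsh_mem_Gc _ _ hp.1.2⟩,
    Wm_mono (by omega) (zsh_mem_Wm _ hp.2.1), zsh_mem_Gc _ _ hp.2.2⟩

theorem lθ0_W0 (j : Fin 3) (t : ℤ) : ∀ p ∈ W0 K m t, lθ0 K m j p ∈ W0 K m (t - 1) := by
  intro p hp
  unfold lθ0
  split_ifs
  · exact ⟨hp.1, zero_mem _⟩
  · exact ⟨zero_mem _, zsh_mem_Wm _ hp.2⟩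
  · exact zero_mem _

theorem lθ0_G0 (β : Fin m → K) (c : ℤ) (j : Fin 3) (t : ℤ) :
    ∀ p ∈ G0 β c t, lθ0 K m j p ∈ G0 β c (t - 1) := by
  intro p hp
  unfold lθ0
  split_ifs
  · exact ⟨hp.1, zero_mem _⟩
  · exact ⟨zero_mem _, zsh_mem_Wm _ hp.2.1, zsh_mem_Gc _ _ hp.2.2⟩
  · exact zero_mem _

theorem lθ1_mem (j : Fin 3) (E : Submodule K (LW K m)) : ∀ p ∈ E, lθ1 K m j p ∈ E := by
  intro p hp
  unfold lθ1
  split_ifs
  · exact hp
  · exact zero_mem _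

theorem lθ0_comm (j : Fin 3) (i : ℤ) : lθ0 K m j * zsh2 K m i = zsh2 K m i * lθ0 K m j := by
  refine LinearMap.ext fun p => ?_
  unfold lθ0
  split_ifs <;> simp [zsh2_apply, zsh_zsh, add_comm]

theorem lθ1_comm (j : Fin 3) (i : ℤ) : lθ1 K m j * zsh K m i = zsh K m i * lθ1 K m j := by
  refine LinearMap.ext fun p => ?_
  unfold lθ1
  split_ifs <;> simp

/-- the exponent of the chart monomial. -/
def lex (j : Fin 3) : ℕ := if j = 1 then 1 else 0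

theorem lθ0_idem (j : Fin 3) : zsh2 K m (lex j) * lθ0 K m j * (zsh2 K m (lex j) * lθ0 K m j) =
    zsh2 K m (lex j) * lθ0 K m j := by
  refine LinearMap.ext fun p => ?_
  fin_cases j <;> simp [lθ0, lex, zsh2_apply, zsh_zsh, zsh_zero]

theorem lθ1_idem (j : Fin 3) : zsh K m (lex j) * lθ1 K m j * (zsh K m (lex j) * lθ1 K m j) =
    zsh K m (lex j) * lθ1 K m j := by
  refine LinearMap.ext fun p => ?_
  fin_cases j <;> simp [lθ1, lex, zsh_zero]

theorem lθ0_sum (p : LW K m × LW K m) : ∑ j, (zsh2 K m (lex j) * lθ0 K m j) p = p := by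
  simp [Fin.sum_univ_three, lθ0, lex, zsh2_apply, zsh_zsh, zsh_zero]

theorem lθ1_sum (p : LW K m) : ∑ j, (zsh K m (lex j) * lθ1 K m j) p = p := by
  simp [Fin.sum_univ_three, lθ1, lex, zsh_zero]

end Line

end Vale.Agent.P202
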