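import Vale.Agent.P202.LinAlg
import Vale.Agent.P202.Line
import Vale.Agent.P202.Count
import Vale.Agent.P202.Segre
import Vale.Agent.P202.SysAux

/-! The filtered Cech system on a product of lines. -/

namespace Vale.Agent.P202

universe u

/-- A graded Cech complex `C t l` (degree `t`, cochain level `l`) on the product of `n` lines,
with subcomplexes `Kc c t l` and global sections `U t`. -/
structure CechSys {K : Type u} [Field K] {n : ℕ} (R : SegreRing K n) (a : ℕ) where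
  M : Type u
  [acg : AddCommGroup M]
  [mod : Module K M]
  act : R.L →ₐ[K] Module.End K M
  d : M →ₗ[K] M
  d_act : ∀ b x, d (act b x) = act b (d x)
  d_d : ∀ x, d (d x) = 0
  C : ℤ → ℤ → Submodule K M
  Kc : ℤ → ℤ → ℤ → Submodule K M
  U : ℤ → Submodule K M
  act_C : ∀ (s : ℕ), ∀ b ∈ R.B s, ∀ t l, ∀ x ∈ C t l, act b x ∈ C (t + s) l
  act_Kc : ∀ (s : ℕ), ∀ b ∈ R.B s, ∀ c t l, ∀ x ∈ Kc c t l, act b x ∈ Kc c (t + s) l
  act_U : ∀ (s : ℕ), ∀ b ∈ R.B s, ∀ t, ∀ x ∈ U t, act b x ∈ U (t + s)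
  d_C : ∀ t l, ∀ x ∈ C t l, d x ∈ C t (l + 1)
  d_Kc : ∀ c t l, ∀ x ∈ Kc c t l, d x ∈ Kc c t (l + 1)
  Kc_le : ∀ c t l, Kc c t l ≤ C t l
  Kc_anti : ∀ c c' t l, c ≤ c' → Kc c' t l ≤ Kc c t l
  Kc_eq : ∀ c t l, c ≤ 0 → Kc c t l = C t l
  C_neg : ∀ t l, l < 0 → C t l = ⊥
  U_le : ∀ t, U t ≤ C t 0
  d_U : ∀ t, ∀ x ∈ U t, d x = 0
  U_neg : ∀ t, t < 0 → U t = ⊥
  θ : R.ι → Module.End K M
  θ_act : ∀ r b x, θ r (act b x) = act b (θ r x)
  θ_C : ∀ r t l, ∀ x ∈ C t l, θ r x ∈ C (t - 1) l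
  θ_Kc : ∀ r c t l, ∀ x ∈ Kc c t l, θ r x ∈ Kc c (t - 1) l
  θ_idem : ∀ r x, act (R.μ r) (θ r (act (R.μ r) (θ r x))) = act (R.μ r) (θ r x)
  θ_sum : ∀ x, ∑ r, act (R.μ r) (θ r x) = x
  V0 : ∀ t, 0 ≤ t → ∀ x ∈ C t 0, d x = 0 → x ∈ U t
  V1 : ∀ c t l : ℤ, 0 ≤ t → t ≤ c - 1 - l * a → Ex d (Kc c t) (fun _ => ⊥) l
  V2 : ∀ c t l : ℤ, t ≤ -1 → t ≤ c - 1 - (l + 1) * a → l + 1 ≤ n → Ex d (C t) (Kc c t) l
  V3 : ∀ t l : ℤ, 0 ≤ t → 1 ≤ l → Ex d (C t) (fun _ => ⊥) l
  κ : Type
  [fintypeκ : Fintype κ]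
  card_κ : Fintype.card κ = n.factorial * a ^ n
  u : κ → M
  u_mem : ∀ k, u k ∈ U 0
  u_indep : ∀ f : κ → R.L, ∑ k, act (f k) (u k) = 0 → ∀ k, f k = 0
  U_span : ∀ t : ℕ, ∀ x ∈ U t, ∃ f : κ → R.L, (∀ k, f k ∈ R.B t) ∧ x = ∑ k, act (f k) (u k)
  count : ∀ c v : ℤ, 0 ≤ v → 0 ≤ c + v - 1 →
    kap a n c v ≤ Module.finrank K ↥(U (c + v - 1) ⊓ Kc c (c + v - 1) 0)

attribute [instance] CechSys.acg CechSys.mod CechSys.fintypeκ

variable {K : Type u} [Field K] {n : ℕ} {R : SegreRing K n} {a : ℕ}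

open TensorProduct

/-- Linear combinations of the generators. -/
noncomputable def CechSys.comb (S : CechSys R a) (t : ℕ) : (S.κ → R.B t) →ₗ[K] S.M where
  toFun := fun f => ∑ k, S.act (f k) (S.u k)
  map_add' := fun f g => by simp [Finset.sum_add_distrib]
  map_smul' := fun c f => by simp [Finset.smul_sum]

theorem CechSys.range_comb (S : CechSys R a) (t : ℕ) : LinearMap.range (S.comb t) = S.U t := by
  refine le_antisymm ?_ fun x hx => ?_
  · rintro _ ⟨f, rfl⟩
    refine Submodule.sum_mem _ fun k _ => ?_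
    simpa using S.act_U t _ (f k).2 0 _ (S.u_mem k)
  · obtain ⟨f, h1, h2⟩ := S.U_span t x hx
    exact ⟨fun k => ⟨f k, h1 k⟩, h2.symm⟩

theorem CechSys.finite_U (S : CechSys R a) (t : ℤ) : Module.Finite K (S.U t) := by
  by_cases ht : t < 0
  · rw [S.U_neg t ht]
    infer_instance
  · obtain ⟨t, rfl⟩ := Int.eq_ofNat_of_zero_le (not_lt.1 ht)
    have := R.finite_B t
    rw [← S.range_comb]
    infer_instance

theorem CechSys.finrank_U (S : CechSys R a) (t : ℕ) :
    Module.finrank K (S.U t) = n.factorial * a ^ n * (t + 1) ^ n := by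
  have := R.finite_B t
  rw [← S.range_comb, LinearMap.finrank_range_of_inj, Module.finrank_pi_fintype,
    Finset.sum_const, R.finrank_B, Finset.card_univ, S.card_κ, smul_eq_mul]
  rw [injective_iff_map_eq_zero]
  intro f hf
  funext k
  exact Subtype.ext (S.u_indep _ hf k)

theorem CechSys.nonempty_base (K : Type u) [Field K] (a : ℕ) :
    Nonempty (CechSys (SegreRing.base K) a) := by
  refine ⟨{
    M := K
    act := (Algebra.lsmul K K K : K →ₐ[K] Module.End K K)
    d := 0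
    d_act := fun b x => by simp
    d_d := fun x => rfl
    C := fun _ l => if l = 0 then ⊤ else ⊥
    Kc := fun c _ l => if l = 0 ∧ c ≤ 0 then ⊤ else ⊥
    U := fun t => if 0 ≤ t then ⊤ else ⊥
    act_C := fun s b _ t l x hx => Submodule.smul_mem _ (show K from b) hx
    act_Kc := fun s b _ c t l x hx => Submodule.smul_mem _ (show K from b) hx
    act_U := fun s b _ t x hx => ?_
    d_C := fun _ _ _ _ => zero_mem _
    d_Kc := fun _ _ _ _ _ => zero_mem _
    Kc_le := fun c t l => ?_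
    Kc_anti := fun c c' t l h => ?_
    Kc_eq := fun c t l h => by simp [h]
    C_neg := fun t l h => if_neg h.ne
    U_le := fun t => by simp
    d_U := fun _ _ _ => rfl
    U_neg := fun t h => if_neg h.not_ge
    θ := fun _ => LinearMap.id
    θ_act := fun _ _ _ => rfl
    θ_C := fun _ _ _ _ h => h
    θ_Kc := fun _ _ _ _ _ h => h
    θ_idem := fun r x => one_smul K _
    θ_sum := fun x => (Finset.sum_unique_nonempty _ _ ⟨(), Finset.mem_univ _⟩).trans (one_smul K x)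
    V0 := fun t ht x _ _ => by simp [ht]
    V1 := fun c t l h1 h2 x hx _ => ⟨0, zero_mem _, ?_⟩
    V2 := fun c t l h1 h2 h3 x hx _ => ⟨0, zero_mem _, ?_⟩
    V3 := fun t l h1 h2 x hx _ => ⟨0, zero_mem _, ?_⟩
    κ := Unit
    card_κ := by simp
    u := fun _ => 1
    u_mem := fun _ => by simp
    u_indep := fun f hf k => ?_
    U_span := fun t x _ => ⟨fun _ => x, fun _ => trivial, ?_⟩
    count := fun c v h1 h2 => ?_ }⟩
  · by_cases h : 0 ≤ t
    · rw [if_pos (by omega)]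
      trivial
    · rw [if_neg h, Submodule.mem_bot] at hx
      rw [hx, map_zero]
      exact zero_mem _
  · by_cases h : l = 0 <;> simp [h]
  · by_cases h1 : l = 0 ∧ c' ≤ 0
    · rw [if_pos (show l = 0 ∧ c ≤ 0 from ⟨h1.1, h.trans h1.2⟩)]
      exact le_top
    · rw [if_neg h1]
      exact bot_le
  · beta_reduce at hx
    rw [if_neg (by rintro ⟨rfl, h⟩; omega)] at hx
    simpa using hx
  · beta_reduce at hx
    rw [if_neg (by simp at h3; omega), Submodule.mem_bot] at hx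
    simp [hx]
  · beta_reduce at hx
    rw [if_neg (by omega)] at hx
    simpa using hx
  · rw [Fintype.sum_unique] at hf
    exact (mul_one (show K from f k)).symm.trans hf
  · rw [Fintype.sum_unique]
    exact (mul_one x).symm
  · rw [if_pos h2, kap]
    by_cases h : c ≤ 0 <;> simp [h]

namespace CechSys

variable (S : CechSys R a) (m : ℕ)

/-- The action of the coefficients. -/
noncomputable def act0 : R.L →ₐ[K]
    Module.End K ((S.M ⊗[K] (LW K m × LW K m)) × (S.M ⊗[K] LW K m)) :=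
  (LinearMap.prodMapAlgHom K _ _).comp
    (((Module.End.rTensorAlgHom K S.M _).comp S.act).prod
      ((Module.End.rTensorAlgHom K S.M _).comp S.act))

theorem act0_eq (b : R.L) : S.act0 m b = sop (S.act b) 1 1 := rfl

/-- The action of the polynomial ring. -/
noncomputable def act1 : Polynomial R.L →ₐ[K]
    Module.End K ((S.M ⊗[K] (LW K m × LW K m)) × (S.M ⊗[K] LW K m)) :=
  Polynomial.eval₂AlgHom (S.act0 m) (sop 1 (zsh2 K m 1) (zsh K m 1)) fun b => by
    simp only [Commute, SemiconjBy, act0_eq, sop_mul, mul_one, one_mul]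

theorem act1_monomial (i : ℕ) (b : R.L) :
    S.act1 m (Polynomial.monomial i b) = sop (S.act b) (zsh2 K m i) (zsh K m i) := by
  have h : ∀ i : ℕ, (sop (1 : Module.End K S.M) (zsh2 K m 1) (zsh K m 1)) ^ i =
      sop 1 (zsh2 K m i) (zsh K m i) := by
    intro i
    induction i with
    | zero =>
      have e1 : zsh K m 0 = (1 : Module.End K _) := LinearMap.ext zsh_zero
      have e2 : zsh2 K m 0 = 1 := LinearMap.ext fun p => Prod.ext (zsh_zero _) (zsh_zero _)
      simp only [pow_zero, Nat.cast_zero, e1, e2, sop, TensorProduct.map_one,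
        LinearMap.prodMap_one]
    | succ i ih => rw [pow_succ, ih, sop_mul, zsh_mul, zsh2_mul, mul_one, Nat.cast_succ]
  have e : S.act1 m (Polynomial.monomial i b) =
      S.act0 m b * (sop (1 : Module.End K S.M) (zsh2 K m 1) (zsh K m 1)) ^ i :=
    Polynomial.eval₂_monomial _ _
  rw [e, h, act0_eq, sop_mul, mul_one, one_mul, one_mul]

theorem act1_mem {s : ℕ} {b : Polynomial R.L} (hb : b ∈ R.stepB s) {ξ}
    {X : Submodule K ((S.M ⊗[K] (LW K m × LW K m)) × (S.M ⊗[K] LW K m))}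
    (h : ∀ i ≤ s, ∀ x ∈ R.B s, sop (S.act x) (zsh2 K m i) (zsh K m i) ξ ∈ X) :
    S.act1 m b ξ ∈ X := by
  rw [R.stepB_eq_sum hb, map_sum, LinearMap.sum_apply]
  refine Submodule.sum_mem _ fun i hi => ?_
  rw [act1_monomial]
  exact h i (Nat.lt_succ_iff.1 (Finset.mem_range.1 hi)) _ (hb.1 i)

theorem act1_comm (T : Module.End K ((S.M ⊗[K] (LW K m × LW K m)) × (S.M ⊗[K] LW K m)))
    (h : ∀ (i : ℕ) b x, T (sop (S.act b) (zsh2 K m i) (zsh K m i) x) =
      sop (S.act b) (zsh2 K m i) (zsh K m i) (T x)) (b : Polynomial R.L) (x) :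
    T (S.act1 m b x) = S.act1 m b (T x) := by
  induction b using Polynomial.induction_on' with
  | add p q hp hq => simp only [map_add, LinearMap.add_apply, hp, hq]
  | monomial i b => rw [act1_monomial, h]

theorem act1_μ (r : R.ι × Fin 3) :
    S.act1 m (R.stepμ r) = sop (S.act (R.μ r.1)) (zsh2 K m (lex r.2)) (zsh K m (lex r.2)) := by
  rw [← act1_monomial, SegreRing.stepμ, lex]
  split_ifs
  · rw [mul_comm, Polynomial.C_mul_X_eq_monomial]
  · rw [Polynomial.monomial_zero_left]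

/-- global sections after adding a line. -/
noncomputable def U1 (t : ℤ) :
    Submodule K ((S.M ⊗[K] (LW K m × LW K m)) × (S.M ⊗[K] LW K m)) :=
  (tens (S.U t) ((Wp K m ⊓ Wm K m t).map (ldiag K m))).prod ⊥

/-- generators after adding a line. -/
noncomputable def u1 (k : S.κ × Fin m) : (S.M ⊗[K] (LW K m × LW K m)) × (S.M ⊗[K] LW K m) :=
  (S.u k.1 ⊗ₜ ldiag K m (Finsupp.single (k.2, 0) 1), 0)

theorem act1_u1 (i : ℕ) (b : R.L) (k : S.κ × Fin m) :
    S.act1 m (Polynomial.monomial i b) (S.u1 m k) =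
      (S.act b (S.u k.1) ⊗ₜ ldiag K m (Finsupp.single (k.2, (i : ℤ)) 1), 0) := by
  simp [act1_monomial, sop_apply, u1, ldiag_apply, zsh2_apply, zsh_single]

theorem u1_indep (f : S.κ × Fin m → Polynomial R.L) (hf : ∑ k, S.act1 m (f k) (S.u1 m k) = 0)
    (k : S.κ × Fin m) : f k = 0 := by
  ext i
  let L : ((S.M ⊗[K] (LW K m × LW K m)) × (S.M ⊗[K] LW K m)) →ₗ[K] S.M :=
    (TensorProduct.rid K S.M).toLinearMap ∘ₗ TensorProduct.map LinearMap.id
      (Finsupp.lapply (k.2, (i : ℤ)) ∘ₗ LinearMap.fst K _ _) ∘ₗ LinearMap.fst K _ _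
  have hL : ∀ (p : Polynomial R.L) (k' : S.κ × Fin m), L (S.act1 m p (S.u1 m k')) =
      if k'.2 = k.2 then S.act (p.coeff i) (S.u k'.1) else 0 := by
    intro p k'
    induction p using Polynomial.induction_on' with
    | add p q hp hq =>
      simp only [map_add, LinearMap.add_apply, hp, hq, Polynomial.coeff_add]
      split_ifs <;> simp
    | monomial j b =>
      rw [act1_u1, Polynomial.coeff_monomial]
      by_cases h1 : k'.2 = k.2 <;> by_cases h2 : j = i <;>
        simp [L, ldiag_apply, h1, h2]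
  have h := congrArg L hf
  simp only [map_sum, hL, Fintype.sum_prod_type, Finset.sum_ite_eq', Finset.mem_univ, if_true,
    map_zero] at h
  exact S.u_indep _ h k.1

theorem U1_span (t : ℕ) (x) (hx : x ∈ S.U1 m t) : ∃ f : S.κ × Fin m → Polynomial R.L,
    (∀ k, f k ∈ R.stepB t) ∧ x = ∑ k, S.act1 m (f k) (S.u1 m k) := by
  classical
  let Φ : (S.κ × Fin m → Polynomial R.L) →ₗ[K]
      ((S.M ⊗[K] (LW K m × LW K m)) × (S.M ⊗[K] LW K m)) :=
    { toFun := fun f => ∑ k, S.act1 m (f k) (S.u1 m k)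
      map_add' := fun f g => by simp [Finset.sum_add_distrib]
      map_smul' := fun c f => by simp [Finset.smul_sum] }
  let P := ((Submodule.pi Set.univ fun _ => R.stepB t).map Φ).comap (LinearMap.inl K _ _)
  obtain ⟨x0, x1⟩ := x
  obtain ⟨h0, h1⟩ := hx
  obtain rfl : x1 = 0 := h1
  have key : x0 ∈ P := by
    refine tens_induction (C := fun z => z ∈ P) h0 (zero_mem _) ?_ fun _ _ => add_mem
    rintro y hy _ ⟨w, hw, rfl⟩
    obtain ⟨g, hg, rfl⟩ := S.U_span t y hy
    have hw' := Wp_inf_Wm_le_span t hw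
    clear hw
    induction hw' using Submodule.span_induction with
    | mem w hw =>
      obtain ⟨e, r, hr, rfl⟩ := hw
      refine ⟨fun k => if k.2 = e then Polynomial.monomial r (g k.1) else 0, fun k _ => ?_, ?_⟩
      · beta_reduce
        split_ifs
        · exact R.monomial_mem_stepB (hg _) (by exact_mod_cast hr)
        · exact zero_mem _
      · change ∑ k : S.κ × Fin m, S.act1 m _ (S.u1 m k) = _
        rw [Fintype.sum_prod_type, sum_tmul, map_sum]
        refine Finset.sum_congr rfl fun k _ => ?_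
        rw [Finset.sum_eq_single e (fun e' _ h => by simp [h]) (by simp), if_pos rfl, act1_u1]
        rfl
    | zero => simp
    | add w w' _ _ h1 h2 => rw [map_add, tmul_add]; exact add_mem h1 h2
    | smul c w _ h1 => rw [map_smul, tmul_smul]; exact P.smul_mem c h1
  obtain ⟨f, h2, h3⟩ := key
  exact ⟨f, fun k => h2 k trivial, h3.symm⟩

end CechSys

theorem CechSys.nonempty_step (S : CechSys R a) (β : Fin ((n + 1) * a) → K)
    (hβ : Function.Injective β) : Nonempty (CechSys R.step a) := by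
  have ha : (0 : ℤ) ≤ a := Nat.cast_nonneg a
  have hδz : ∀ (i : ℤ) p, lδ K ((n + 1) * a) (zsh2 K _ i p) = zsh K _ i (lδ K _ p) :=
    fun i p => (map_sub (zsh K _ i) p.1 p.2).symm
  have hle : ∀ c t l, box (S.Kc c t) (W0 K _ t) ⊤ l ⊔ box (S.Kc (c - a) t) (G0 β c t) (Gc β c) l ≤
      box (S.C t) (W0 K _ t) ⊤ l := fun c t l =>
    sup_le (box_mono (S.Kc_le c t) le_rfl le_rfl l)
      (box_mono (S.Kc_le _ t) (G0_le β c t) le_top l)
  have hneg : ∀ t l, l < 0 → box (S.C t) (W0 K ((n + 1) * a) t)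
      (⊤ : Submodule K (LW K ((n + 1) * a))) l = ⊥ := fun t l h => by
    simp [box, S.C_neg t l h, S.C_neg t (l - 1) (by omega)]
  have hUle : ∀ t, S.U1 _ t ≤ box (S.C t) (W0 K ((n + 1) * a) t) ⊤ 0 := fun t =>
    Submodule.prod_mono (tens_mono (S.U_le t) (by rintro _ ⟨w, hw, rfl⟩; exact hw)) bot_le
  have heq : ∀ c t l, c ≤ 0 → box (S.Kc c t) (W0 K _ t) ⊤ l ⊔
      box (S.Kc (c - a) t) (G0 β c t) (Gc β c) l = box (S.C t) (W0 K _ t) ⊤ l := fun c t l h =>
    le_antisymm (hle c t l) (le_sup_of_le_left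
      (box_mono (fun l => (S.Kc_eq c t l h).ge) le_rfl le_rfl l))
  refine ⟨{
    M := (S.M ⊗[K] (LW K ((n + 1) * a) × LW K ((n + 1) * a))) × (S.M ⊗[K] LW K ((n + 1) * a))
    act := S.act1 _
    d := coneD S.d (lδ K _)
    d_act := S.act1_comm _ _ fun i b x => coneD_sop (S.d_act b) (hδz i) x
    d_d := coneD_coneD _ _ S.d_d
    C := fun t => box (S.C t) (W0 K _ t) ⊤
    Kc := fun c t l => box (S.Kc c t) (W0 K _ t) ⊤ l ⊔ box (S.Kc (c - a) t) (G0 β c t) (Gc β c) l
    U := S.U1 _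
    act_C := fun s b hb t l x hx => S.act1_mem _ hb fun i hi y hy =>
      sop_mem_box (S.act_C s y hy t) (zsh2_W0 hi t) (fun _ _ => Submodule.mem_top) hx
    act_Kc := fun s b hb c t l x hx => S.act1_mem _ hb fun i hi y hy => ?_
    act_U := fun s b hb t x hx => S.act1_mem _ hb fun i hi y hy => ⟨map_mem_tens _ _
      (S.act_U s y hy t) ?_ hx.1, ?_⟩
    d_C := fun t l x hx => coneD_mem_box (S.d_C t) (fun _ _ => Submodule.mem_top) hx
    d_Kc := fun c t l x hx => ?_
    Kc_le := hle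
    Kc_anti := fun c c' t l h => sup_le_sup
      (box_mono (fun l => S.Kc_anti _ _ t l h) le_rfl le_rfl l)
      (box_mono (fun l => S.Kc_anti _ _ t l (by omega)) (Submodule.prod_mono
        (inf_le_inf_left _ (Gc_anti β h)) (inf_le_inf_left _ (Gc_anti β h))) (Gc_anti β h) l)
    Kc_eq := heq
    C_neg := hneg
    U_le := hUle
    d_U := fun t x hx => ?_
    U_neg := fun t h => by simp [CechSys.U1, S.U_neg t h]
    θ := fun r => sop (S.θ r.1) (lθ0 K _ r.2) (lθ1 K _ r.2)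
    θ_act := fun r => S.act1_comm _ _ fun i b x => ?_
    θ_C := fun r t l x hx => sop_mem_box (S.θ_C r.1 t) (lθ0_W0 r.2 t) (fun _ _ => Submodule.mem_top) hx
    θ_Kc := fun r c t l x hx => ?_
    θ_idem := fun (r : R.ι × Fin 3) x => ?_
    θ_sum := fun x => ?_
    V0 := fun t ht x hx hd => ?_
    V1 := fun c t l h1 h2 => ?_
    V2 := fun c t l h1 h2 h3 => ?_
    V3 := fun t l h1 h2 => ex_step3 (S.d_C t) l (S.V3 t l h1 h2) (lδ_onto h1)
    κ := S.κ × Fin ((n + 1) * a)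
    card_κ := by rw [Fintype.card_prod, S.card_κ, Fintype.card_fin, Nat.factorial_succ]; ring
    u := S.u1 _
    u_mem := fun k => ⟨tmul_mem_tens (S.u_mem k.1) ⟨_, ⟨mem_Wp.2 fun e r hr => ?_,
      mem_Wm.2 fun e r hr => ?_⟩, rfl⟩, rfl⟩
    u_indep := S.u1_indep _
    U_span := S.U1_span _
    count := fun c v h1 h2 => ?_ }⟩
  · obtain ⟨α, hα, γ, hγ, rfl⟩ := Submodule.mem_sup.1 hx
    rw [map_add]
    exact add_mem (Submodule.mem_sup_left (sop_mem_box (S.act_Kc s y hy c t) (zsh2_W0 hi t)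
      (fun _ _ => Submodule.mem_top) hα)) (Submodule.mem_sup_right (sop_mem_box (S.act_Kc s y hy _ t)
      (zsh2_G0 β c hi t) (fun _ => zsh_mem_Gc β _) hγ))
  · rintro _ ⟨w, hw, rfl⟩
    exact ⟨zsh K _ i w, zsh2_W0 hi t (w, w) hw, rfl⟩
  · rw [sop_apply, (Submodule.mem_bot K).1 hx.2, map_zero]
    exact zero_mem _
  · obtain ⟨α, hα, γ, hγ, rfl⟩ := Submodule.mem_sup.1 hx
    rw [map_add]
    exact add_mem (Submodule.mem_sup_left (coneD_mem_box (S.d_Kc c t) (fun _ _ => Submodule.mem_top) hα))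
      (Submodule.mem_sup_right (coneD_mem_box (S.d_Kc _ t) (lδ_G0 β c t) hγ))
  · have a1 := map_mem_tens (D' := ⊥) (E' := ⊤) S.d LinearMap.id (S.d_U t) (fun _ _ => Submodule.mem_top) hx.1
    have a2 := map_mem_tens (D' := ⊤) (E' := ⊥) LinearMap.id (lδ K _) (fun _ _ => Submodule.mem_top)
      (by rintro _ ⟨w, -, rfl⟩; exact sub_self w) hx.1
    simp only [tens_bot_left, tens_bot_right, Submodule.mem_bot] at a1 a2
    rw [coneD_apply, a1, a2, (Submodule.mem_bot K).1 hx.2, map_zero, sub_zero]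
    rfl
  · have e : S.θ r.1 * S.act b = S.act b * S.θ r.1 := LinearMap.ext (S.θ_act r.1 b)
    rw [sop_sop, sop_sop, e, lθ0_comm, lθ1_comm]
  · obtain ⟨α, hα, γ, hγ, rfl⟩ := Submodule.mem_sup.1 hx
    rw [map_add]
    exact add_mem (Submodule.mem_sup_left (sop_mem_box (S.θ_Kc r.1 c t) (lθ0_W0 r.2 t)
      (fun _ _ => Submodule.mem_top) hα)) (Submodule.mem_sup_right (sop_mem_box (S.θ_Kc r.1 _ t)
      (lθ0_G0 β c r.2 t) (lθ1_mem r.2 _) hγ))
  · have e : S.act (R.μ r.1) * S.θ r.1 * (S.act (R.μ r.1) * S.θ r.1) =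
        S.act (R.μ r.1) * S.θ r.1 := LinearMap.ext (S.θ_idem r.1)
    change S.act1 _ (R.stepμ r) (sop _ _ _ (S.act1 _ (R.stepμ r) _)) = S.act1 _ (R.stepμ r) _
    rw [S.act1_μ, sop_sop, sop_sop _ _ _ _ _ _ x, sop_sop, e, lθ0_idem, lθ1_idem]
  · change ∑ r : R.ι × Fin 3, S.act1 _ (R.stepμ r) _ = x
    simp only [S.act1_μ, sop_sop]
    exact sum_sop (fun r => S.act (R.μ r) * S.θ r) _ _ S.θ_sum lθ0_sum lθ1_sum x
  · have a1 : x.2 = 0 := by
      have := hx.2
      rwa [S.C_neg t _ (by omega), tens_bot_left] at this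
    obtain ⟨a2, a3⟩ := Prod.ext_iff.1 hd
    simp only [coneD_apply, a1, map_zero, sub_zero, Prod.fst_zero, Prod.snd_zero] at a2 a3
    have a0 := mem_tens_inf_ker_right _ (mem_tens_inf_ker_left _ hx.1 a2) a3
    refine ⟨tens_mono ?_ ?_ a0, a1⟩
    · exact fun y hy => S.V0 t ht y hy.1 hy.2
    intro p hp
    have a4 : p.1 = p.2 := sub_eq_zero.1 hp.2
    exact ⟨p.1, ⟨hp.1.1, a4 ▸ hp.1.2⟩, Prod.ext rfl a4⟩
  · by_cases hl : l < 0
    · intro x hx _
      have := hle c t l hx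
      rw [hneg t l hl, Submodule.mem_bot] at this
      exact ⟨0, zero_mem _, by simp [this]⟩
    have a1 := mul_nonneg (not_lt.1 hl) ha
    refine ex_step1 S.d_d (fun l => S.Kc_anti _ _ t l (by omega)) (S.d_Kc c t) (S.d_Kc _ t)
      (G0_le β c t) (lδ_G0 β c t) l (S.V1 c t l h1 h2) (lδ_onto h1) (fun p hp h => ?_)
      (S.V1 _ t _ h1 (by linarith))
    have a4 : p.1 = p.2 := sub_eq_zero.1 h
    have a5 : p.1 = 0 := (Wp_inf_Wm_inf_Gc hβ (by omega : t ≤ c - 1)).le
      ⟨⟨hp.1.1, a4 ▸ hp.2.1⟩, hp.1.2⟩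
    exact Prod.ext a5 (a4 ▸ a5)
  · push_cast at h3
    refine ex_step2 S.d_d (fun l => S.Kc_anti _ _ t l (by omega)) (S.Kc_le _ t) (S.d_Kc c t)
      (S.d_Kc _ t) (S.d_C t) (G0_le β c t) (lδ_G0 β c t) l ?_
      (S.V2 c t _ h1 (by linarith) (by omega)) (fun p hp h => ?_)
      (S.V2 _ t _ h1 (by linarith) (by omega))
    · by_cases hl : l + 1 ≤ n
      · exact Or.inr (S.V2 c t l h1 h2 hl)
      · obtain rfl : l = n := by omega
        refine Or.inl fun p hp h => ?_
        obtain ⟨b1, b2⟩ := mem_Gc_of_sub_mem hβ h1 (by push_cast; exact h2) hp.1 hp.2 h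
        exact ⟨⟨hp.1, b1⟩, hp.2, b2⟩
    · have a4 : p.1 = p.2 := sub_eq_zero.1 h
      have a5 : p.1 = 0 := (Wp_inf_Wm_eq_bot h1).le ⟨hp.1.1, a4 ▸ hp.2.1⟩
      exact Prod.ext a5 (a4 ▸ a5)
  · exact Finsupp.single_eq_of_ne (by simp; omega)
  · exact Finsupp.single_eq_of_ne (by simp; omega)
  · have fU := S.finite_U (c + v - 1)
    have fW := finite_Wp_inf_Wm (K := K) (m := (n + 1) * a) (c + v - 1)
    have rW := finrank_Wp_inf_Wm (K := K) (m := (n + 1) * a) (t := c + v - 1) (by omega)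
    have hdiag : ∀ E : Submodule K (LW K ((n + 1) * a)),
        Module.finrank K (E.map (ldiag K _)) = Module.finrank K E :=
      fun E => (Submodule.equivMapOfInjective _ ldiag_injective E).finrank_eq.symm
    by_cases hc : c ≤ 0
    · obtain ⟨t, ht⟩ := Int.eq_ofNat_of_zero_le h2
      rw [heq _ _ _ hc, inf_eq_left.2 (hUle _), CechSys.U1, finrank_prod_bot, finrank_tens, hdiag,
        kap_of_nonpos _ _ hc, Nat.cast_mul, rW, ht, S.finrank_U, Nat.factorial_succ,
        show c + v = t + 1 by omega]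
      push_cast
      exact le_of_eq (by ring)
    by_cases hc' : ((n + 1 : ℕ) : ℤ) * a < c
    · rw [kap_of_lt _ _ hc']
      exact Nat.cast_nonneg _
    have c1 := S.count c v h1 h2
    have c2 := S.count (c - a) (v + a) (by omega) (by omega)
    rw [show c - a + (v + a) - 1 = c + v - 1 by ring] at c2
    have c3 := le_finrank_Wp_inf_Wm_inf_Gc hβ (c := c) (t := c + v - 1) (by omega)
      (by push_cast at hc' ⊢; omega) (by omega)
    obtain ⟨t, ht⟩ : ∃ t, t = c + v - 1 := ⟨_, rfl⟩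
    rw [← ht] at fU fW rW c1 c2 c3 ⊢
    have f1 : Module.Finite K ↥(S.U t ⊓ S.Kc (c - a) t 0) :=
      Submodule.finiteDimensional_of_le inf_le_left
    have l1 : S.U t ⊓ S.Kc c t 0 ≤ S.U t ⊓ S.Kc (c - a) t 0 :=
      inf_le_inf_left _ (S.Kc_anti _ _ _ _ (by omega))
    have c4 := finrank_tens_sup l1 (Submodule.map_mono (f := ldiag K _)
      (inf_le_left : Wp K _ ⊓ Wm K _ t ⊓ Gc β c ≤ _))
    have f2 : Module.Finite K (S.U1 ((n + 1) * a) t) := by
      have := finite_tens (S.U t) ((Wp K ((n + 1) * a) ⊓ Wm K _ t).map (ldiag K _))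
      exact finite_prod_bot _
    have f3 : Module.Finite K ↥(S.U1 ((n + 1) * a) t ⊓ (box (S.Kc c t) (W0 K _ t) ⊤ 0 ⊔
        box (S.Kc (c - a) t) (G0 β c t) (Gc β c) 0)) :=
      Submodule.finiteDimensional_of_le inf_le_left
    have c5 := Submodule.finrank_mono (t := S.U1 ((n + 1) * a) t ⊓
      (box (S.Kc c t) (W0 K _ t) ⊤ 0 ⊔ box (S.Kc (c - a) t) (G0 β c t) (Gc β c) 0))
      (s := (tens (S.U t ⊓ S.Kc c t 0) ((Wp K _ ⊓ Wm K _ t).map (ldiag K _)) ⊔
        tens (S.U t ⊓ S.Kc (c - a) t 0) ((Wp K _ ⊓ Wm K _ t ⊓ Gc β c).map (ldiag K _))).prod ⊥)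
      (le_inf (Submodule.prod_mono (sup_le (tens_mono inf_le_left le_rfl)
        (tens_mono inf_le_left (Submodule.map_mono inf_le_left))) le_rfl) (by
        rw [box, box, Submodule.prod_sup_prod]
        refine Submodule.prod_mono (sup_le_sup (tens_mono inf_le_right ?_)
          (tens_mono inf_le_right ?_)) bot_le
        · rintro _ ⟨w, hw, rfl⟩
          exact hw
        · rintro _ ⟨w, hw, rfl⟩
          exact ⟨⟨hw.1.1, hw.2⟩, hw.1.2, hw.2⟩))
    rw [finrank_prod_bot] at c5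
    rw [hdiag, hdiag] at c4
    have c6 := Submodule.finrank_mono l1
    rw [kap]
    zify at c4 c5 c6
    rw [rW] at c4
    push_cast at hc' c3 c4 ⊢
    rw [show t + 1 - c = v by omega] at c3
    rw [show t + 1 = c + v by omega] at c4
    have d1 := mul_le_mul_of_nonneg_left c3 (sub_nonneg.2 c6)
    have d2 := mul_le_mul_of_nonneg_left c1 
      (mul_nonneg (show 0 ≤ c by omega) (show (0 : ℤ) ≤ (n + 1) * a + v by positivity))
    have d3 := mul_le_mul_of_nonneg_left c2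
      (mul_nonneg (show (0 : ℤ) ≤ (n + 1) * a - c by omega) h1)
    linarith

theorem exists_cechSys (K : Type u) [Field K] [Infinite K] (n a : ℕ) :
    Nonempty (CechSys (segre K n) a) := by
  induction n with
  | zero => exact CechSys.nonempty_base K a
  | succ n ih =>
    obtain ⟨S⟩ := ih
    exact S.nonempty_step (fun i => Infinite.natEmbedding K i)
      ((Infinite.natEmbedding K).injective.comp Fin.val_injective)

end Vale.Agent.P202
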