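import Vale.Agent.P202.Core
import Vale.Agent.P202.LocalW

/-! Finitely many witnesses for the hypotheses of the core inequality; stability under base
change. -/

namespace Vale.Agent.P202

open IsLocalRing TensorProduct

universe u

/-- `I` is connected to the unit ideal by `l` steps, each cyclic and killed by `q`. -/
def TrChain {S : Type*} [CommRing S] (q : Ideal S) : ℕ → Ideal S → Prop
  | 0, I => I = ⊤
  | l + 1, I => ∃ σ, (∀ y ∈ q, y * σ ∈ I) ∧ TrChain q l (I ⊔ Ideal.span {σ})

theorem TrChain.map {S S' : Type*} [CommRing S] [CommRing S'] (ψ : S →+* S') {q : Ideal S}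
    {l : ℕ} {I : Ideal S} (h : TrChain q l I) {I' : Ideal S'} (hI : I.map ψ ≤ I') :
    TrChain (q.map ψ) l I' := by
  induction l generalizing I I' with
  | zero =>
    have h' : I = ⊤ := h
    rw [h', Ideal.map_top] at hI
    exact top_le_iff.mp hI
  | succ l ih =>
    obtain ⟨σ, h1, h2⟩ := h
    refine ⟨ψ σ, fun y hy => ?_, ih h2 ?_⟩
    · have : q.map ψ ≤ I'.colon {ψ σ} := by
        rw [Ideal.map_le_iff_le_comap]
        intro z hz
        rw [Ideal.mem_comap, Submodule.mem_colon_singleton, smul_eq_mul, ← map_mul]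
        exact hI (Ideal.mem_map_of_mem _ (h1 z hz))
      exact Submodule.mem_colon_singleton.mp (this hy)
    · rw [Ideal.map_sup, Ideal.map_span, Set.image_singleton]
      exact sup_le_sup_right hI _

theorem TrChain.exists_span {K S : Type*} [Field K] [CommRing S] [Algebra K S] {q : Ideal S}
    (hres : ∀ s : S, ∃ a : K, s - algebraMap K S a ∈ q) {l : ℕ} {I : Ideal S}
    (h : TrChain q l I) : ∃ v : Fin l → S, ∀ s, ∃ c : Fin l → K, s - ∑ i, c i • v i ∈ I := by
  induction l generalizing I with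
  | zero =>
    have h' : I = ⊤ := h
    exact ⟨0, fun s => ⟨0, h' ▸ trivial⟩⟩
  | succ l ih =>
    obtain ⟨σ, h1, h2⟩ := h
    obtain ⟨v, hv⟩ := ih h2
    refine ⟨Fin.cons σ v, fun s => ?_⟩
    obtain ⟨c, hc⟩ := hv s
    obtain ⟨i, hi, t, ht, hit⟩ := Submodule.mem_sup.mp hc
    obtain ⟨r, rfl⟩ := Ideal.mem_span_singleton'.mp ht
    obtain ⟨a, ha⟩ := hres r
    refine ⟨Fin.cons a c, ?_⟩
    rw [Fin.sum_univ_succ]
    simp only [Fin.cons_zero, Fin.cons_succ]
    have e : s - (a • σ + ∑ i, c i • v i) = i + (r - algebraMap K S a) * σ := by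
      rw [Algebra.smul_def]; linear_combination -hit
    rw [e]
    exact add_mem hi (h1 _ ha)

theorem TrChain.finrank_le {K S : Type*} [Field K] [CommRing S] [Algebra K S] {q : Ideal S}
    (hres : ∀ s : S, ∃ a : K, s - algebraMap K S a ∈ q) {l : ℕ} {I : Ideal S}
    (h : TrChain q l I) : Module.finrank K (S ⧸ I) ≤ l := by
  obtain ⟨v, hv⟩ := h.exists_span hres
  have h1 : Submodule.span K (Set.range fun i => Ideal.Quotient.mkₐ K I (v i)) = ⊤ := by
    rw [eq_top_iff]
    rintro s -
    obtain ⟨s, rfl⟩ := Ideal.Quotient.mkₐ_surjective K I s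
    obtain ⟨c, hc⟩ := hv s
    rw [Submodule.mem_span_range_iff_exists_fun]
    refine ⟨c, ?_⟩
    simp only [← map_smul, ← map_sum]
    rw [eq_comm, Ideal.Quotient.mkₐ_eq_mk, Ideal.Quotient.eq]
    exact hc
  simpa using finrank_le_of_span_eq_top h1

theorem trChain_of_finrank {K S : Type*} [Field K] [CommRing S] [IsLocalRing S] [Algebra K S]
    (hS : IsCL K S) {N l : ℕ} {I : Ideal S} (hI : maximalIdeal S ^ N ≤ I)
    (hl : Module.finrank K (S ⧸ I) ≤ l) : TrChain (maximalIdeal S) l I := by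
  induction l generalizing I with
  | zero =>
    have := hS.finite_quot hI
    have h1 : Subsingleton (S ⧸ I) := Module.finrank_zero_iff.mp (Nat.le_zero.mp hl)
    exact Ideal.Quotient.subsingleton_iff.mp h1
  | succ l ih =>
    classical
    by_cases hT : I = ⊤
    · refine ⟨0, fun y _ => hT ▸ trivial, ih (hI.trans le_sup_left) ?_⟩
      have : Subsingleton (S ⧸ (I ⊔ Ideal.span {0})) :=
        Ideal.Quotient.subsingleton_iff.mpr (by rw [hT, top_sup_eq])
      rw [Module.finrank_zero_of_subsingleton]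
      exact Nat.zero_le _
    · have hex : ∃ k, maximalIdeal S ^ k ≤ I := ⟨N, hI⟩
      have h0 : Nat.find hex ≠ 0 := fun h => hT (by
        have := Nat.find_spec hex
        rwa [h, pow_zero, Ideal.one_eq_top, top_le_iff] at this)
      obtain ⟨k, hk⟩ := Nat.exists_eq_succ_of_ne_zero h0
      have h1 : ¬ maximalIdeal S ^ k ≤ I := Nat.find_min hex (by omega)
      have h2 : maximalIdeal S ^ (k + 1) ≤ I := by
        have := Nat.find_spec hex
        rwa [hk] at this
      obtain ⟨σ, hσ, hσ'⟩ := SetLike.not_le_iff_exists.mp h1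
      refine ⟨σ, fun y hy => h2 (by rw [pow_succ']; exact Ideal.mul_mem_mul hy hσ),
        ih (hI.trans le_sup_left) ?_⟩
      have := hS.finite_quot hI
      let f := (Ideal.Quotient.factorₐ K (le_sup_left : I ≤ I ⊔ Ideal.span {σ})).toLinearMap
      have hf : Function.Surjective f := Ideal.Quotient.factor_surjective le_sup_left
      have h3 := LinearMap.finrank_range_add_finrank_ker f
      rw [LinearMap.range_eq_top.mpr hf, finrank_top] at h3
      have h4 : LinearMap.ker f ≠ ⊥ := by
        rw [Submodule.ne_bot_iff]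
        refine ⟨Ideal.Quotient.mk I σ, ?_, fun h => hσ' (Ideal.Quotient.eq_zero_iff_mem.mp h)⟩
        show Ideal.Quotient.mk _ σ = 0
        exact Ideal.Quotient.eq_zero_iff_mem.mpr
          (Ideal.mem_sup_right (Ideal.mem_span_singleton_self σ))
      have h5 := Submodule.finrank_eq_zero.not.mpr h4
      omega

/-- The finitely many witnesses. -/
def TrWit (U R S : Type*) [CommRing U] [CommRing R] [CommRing S] [Algebra U R] [Algebra R S]
    {d : ℕ} (x : Fin d → U) (c : U) (e n l : ℕ) : Prop :=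
  ∃ (m : Ideal R) (q : Ideal S) (w : Fin d → S) (C N L : ℕ) (π : Fin e → R →ₗ[U] U)
    (v : Fin e → R),
    (∀ r, ∃ a, r - algebraMap U R a ∈ m) ∧ (∀ j, algebraMap U R (x j) ∈ m) ∧
    m ^ (C + 1) ≤ Ideal.span (Set.range fun j => algebraMap U R (x j)) * m ^ C ∧
    (∀ s, ∃ r, s - algebraMap R S r ∈ q) ∧ m.map (algebraMap R S) ≤ q ∧
    q ^ N ≤ m.map (algebraMap R S) ∧ (∀ i, w i ∈ q) ∧ q ^ L ≤ Ideal.span (Set.range w) ∧
    TrChain q l (powIdeal w n) ∧ ∀ k j, π k (v j) = if k = j then c else 0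

theorem tr_res_tensor {U R U' : Type*} [CommRing U] [CommRing R] [CommRing U'] [Algebra U R]
    [Algebra U U'] {m : Ideal R} (h : ∀ r, ∃ a, r - algebraMap U R a ∈ m) (r : U' ⊗[U] R) :
    ∃ a, r - algebraMap U' (U' ⊗[U] R) a ∈
      m.map (Algebra.TensorProduct.includeRight (R := U) (A := U') (B := R)).toRingHom := by
  induction r using TensorProduct.induction_on with
  | zero => exact ⟨0, by simp⟩
  | add a b ha hb =>
    obtain ⟨a', ha⟩ := ha
    obtain ⟨b', hb⟩ := hb
    refine ⟨a' + b', ?_⟩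
    rw [map_add, add_sub_add_comm]
    exact add_mem ha hb
  | tmul u r =>
    obtain ⟨a, ha⟩ := h r
    refine ⟨a • u, ?_⟩
    have e : u ⊗ₜ[U] r - algebraMap U' (U' ⊗[U] R) (a • u) =
        (u ⊗ₜ[U] 1) * ((1 : U') ⊗ₜ[U] (r - algebraMap U R a)) := by
      rw [Algebra.TensorProduct.tmul_mul_tmul, mul_one, one_mul, tmul_sub,
        Algebra.TensorProduct.algebraMap_apply, Algebra.algebraMap_eq_smul_one a, tmul_smul,
        smul_tmul']
      rfl
    rw [e]
    exact Ideal.mul_mem_left _ _ (Ideal.mem_map_of_mem _ ha)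

attribute [local instance] Algebra.TensorProduct.rightAlgebra in
theorem TrWit.baseChange {U R S : Type*} [CommRing U] [CommRing R] [CommRing S] [Algebra U R]
    [Algebra R S] {d : ℕ} {x : Fin d → U} {c : U} {e n l : ℕ} (h : TrWit U R S x c e n l)
    (U' : Type*) [CommRing U'] [Algebra U U'] :
    TrWit U' (U' ⊗[U] R) ((U' ⊗[U] R) ⊗[R] S) (fun j => algebraMap U U' (x j))
      (algebraMap U U' c) e n l := by
  obtain ⟨m, q, w, C, N, L, π, v, h1, h2, h3, h4, h5, h6, h7, h8, h9, h10⟩ := h
  let φ : R →+* U' ⊗[U] R := (Algebra.TensorProduct.includeRight (R := U) (A := U')).toRingHom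
  let ψ : S →+* (U' ⊗[U] R) ⊗[R] S :=
    (Algebra.TensorProduct.includeRight (R := R) (A := U' ⊗[U] R)).toRingHom
  have hφ : ∀ a, algebraMap U' (U' ⊗[U] R) (algebraMap U U' a) = φ (algebraMap U R a) := by
    intro a
    rw [← IsScalarTower.algebraMap_apply]
    exact ((Algebra.TensorProduct.includeRight (R := U) (A := U') (B := R)).commutes a).symm
  have hψ : (algebraMap (U' ⊗[U] R) ((U' ⊗[U] R) ⊗[R] S)).comp φ = ψ.comp (algebraMap R S) := by
    ext1 a
    rw [RingHom.comp_apply, RingHom.comp_apply]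
    refine Eq.trans ?_
      ((Algebra.TensorProduct.includeRight (R := R) (A := U' ⊗[U] R) (B := S)).commutes a).symm
    rw [IsScalarTower.algebraMap_apply R (U' ⊗[U] R) ((U' ⊗[U] R) ⊗[R] S)]
    rfl
  have hm : (m.map φ).map (algebraMap (U' ⊗[U] R) ((U' ⊗[U] R) ⊗[R] S)) =
      (m.map (algebraMap R S)).map ψ := by rw [Ideal.map_map, Ideal.map_map, hψ]
  refine ⟨m.map φ, q.map ψ, fun i => ψ (w i), C, N, L,
    fun k => (Algebra.linearMap U U' ∘ₗ π k).liftBaseChange U', fun j => φ (v j),
    tr_res_tensor h1, fun j => ?_, ?_, tr_res_tensor h4, ?_, ?_,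
    fun i => Ideal.mem_map_of_mem _ (h7 i), ?_, h9.map ψ ?_, fun k j => ?_⟩
  · rw [hφ]; exact Ideal.mem_map_of_mem _ (h2 j)
  · have := Ideal.map_mono (f := φ) h3
    rw [Ideal.map_mul, Ideal.map_pow, Ideal.map_pow, Ideal.map_span, ← Set.range_comp] at this
    simp only [hφ]
    exact this
  · rw [hm]; exact Ideal.map_mono h5
  · rw [hm, ← Ideal.map_pow]; exact Ideal.map_mono h6
  · have := Ideal.map_mono (f := ψ) h8
    rwa [Ideal.map_pow, Ideal.map_span, ← Set.range_comp] at this
  · rw [powIdeal, powIdeal, Ideal.map_span, ← Set.range_comp]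
    refine le_of_eq (congrArg _ (congrArg _ (funext fun i => map_pow ψ _ _)))
  · show (Algebra.linearMap U U' ∘ₗ π k).liftBaseChange U' (1 ⊗ₜ v j) = _
    rw [LinearMap.liftBaseChange_one_tmul, LinearMap.comp_apply, h10]
    split_ifs <;> simp

theorem TrWit.le_of_core {K : Type u} [Field K] (hK : CoreIneq K) {d : ℕ} {R S : Type u}
    [CommRing R] [CommRing S] [Algebra (PS K d) R] [Algebra R S] [Module.Finite (PS K d) R]
    [Module.Free R S] [Module.Finite R S] [Nontrivial R] [Nontrivial S] {c : PS K d} (hc : c ≠ 0)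
    {e n l : ℕ} (h : TrWit (PS K d) R S MvPowerSeries.X c e n l) : e * n ^ d ≤ l := by
  obtain ⟨m, q, w, C, N, L, π, v, h1, h2, h3, h4, h5, h6, h7, h8, h9, h10⟩ := h
  have hX : Ideal.span (Set.range fun j => algebraMap (PS K d) R (MvPowerSeries.X j)) =
      (varIdeal K d).map (algebraMap (PS K d) R) := by
    rw [varIdeal, Ideal.map_span, ← Set.range_comp]; rfl
  rw [hX] at h3
  have hXm : (varIdeal K d).map (algebraMap (PS K d) R) ≤ m := by
    rw [← hX, Ideal.span_le]
    rintro _ ⟨j, rfl⟩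
    exact h2 j
  obtain ⟨_, hm⟩ := isLocalRing_of_witness (A := PS K d) m h1
    (by rw [← varIdeal_eq_maximalIdeal]; exact hXm) (fun y hy => ⟨C + 1, by
      rw [← varIdeal_eq_maximalIdeal]
      exact (h3.trans Ideal.mul_le_left) (Ideal.pow_mem_pow hy _)⟩)
  obtain ⟨_, hq⟩ := isLocalRing_of_witness (A := R) q h4 (by rw [hm]; exact h5)
    (fun y hy => ⟨N, by rw [hm]; exact h6 (Ideal.pow_mem_pow hy _)⟩)
  let _ : Algebra K R := ((algebraMap (PS K d) R).comp (algebraMap K (PS K d))).toAlgebra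
  have : IsScalarTower K (PS K d) R := IsScalarTower.of_algebraMap_eq fun _ => rfl
  let _ : Algebra K S := ((algebraMap R S).comp (algebraMap K R)).toAlgebra
  have : IsScalarTower K R S := IsScalarTower.of_algebraMap_eq fun _ => rfl
  have hres : ∀ s : S, ∃ a : K, s - algebraMap K S a ∈ q := by
    intro s
    obtain ⟨r, hr⟩ := h4 s
    obtain ⟨a, ha⟩ := h1 r
    obtain ⟨k, hk⟩ := PS_residue a
    refine ⟨k, ?_⟩
    have h11 := h5 (Ideal.mem_map_of_mem _ (add_mem ha (hXm (Ideal.mem_map_of_mem _ hk))))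
    rw [map_sub (algebraMap (PS K d) R), sub_add_sub_cancel, map_sub] at h11
    have := add_mem hr h11
    rwa [sub_add_sub_cancel] at this
  have hC : ∀ t, m ^ (t + C) ≤ (varIdeal K d ^ t).map (algebraMap (PS K d) R) := by
    have : ∀ t, m ^ (t + C) ≤ (varIdeal K d).map (algebraMap (PS K d) R) ^ t * m ^ C := by
      intro t
      induction t with
      | zero => simp
      | succ t ih =>
        calc m ^ (t + 1 + C) = m ^ (t + C) * m := by rw [← pow_succ]; congr 1; ring
          _ ≤ (varIdeal K d).map (algebraMap (PS K d) R) ^ t * m ^ C * m :=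
            Ideal.mul_mono_left ih
          _ = (varIdeal K d).map (algebraMap (PS K d) R) ^ t * m ^ (C + 1) := by ring
          _ ≤ _ := Ideal.mul_mono_right h3
          _ = _ := by ring
    intro t
    rw [Ideal.map_pow]
    exact (this t).trans Ideal.mul_le_left
  have h12 := hK d R S (by rw [hq]; exact hres) ⟨C, by rw [hm]; exact hC⟩ w
    (by rw [hq]; exact h7) ⟨L, by rw [hq]; exact h8⟩ n
  have h13 : LinearIndependent (PS K d) v := by
    rw [Fintype.linearIndependent_iff]
    intro g hg k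
    have := congrArg (π k) hg
    simp only [map_sum, map_smul, h10, smul_eq_mul, mul_ite, mul_zero, Finset.sum_ite_eq,
      Finset.mem_univ, if_true, map_zero] at this
    exact (mul_eq_zero.mp this).resolve_right hc
  have h14 := h13.fintype_card_le_finrank
  rw [Fintype.card_fin] at h14
  exact (Nat.mul_le_mul_right _ h14).trans (h12.trans (h9.finrank_le hres))

end Vale.Agent.P202
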